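import Mathlib
import Crest.Prelude.Def_ModularData

/-! Helper for S0112: basic facts on the bounded functional calculus `LineCalculus`. -/

set_option autoImplicit false

namespace Crest.Agent.H3

open Crest.OpAlg MeasureTheory Filter
open scoped InnerProductSpace Topology BoundedContinuousFunction

variable {H : Type*} [NormedAddCommGroup H] [InnerProductSpace ℂ H] [CompleteSpace H]

namespace Calc
variable (D : LineCalculus H)

lemma apply_norm_le (f : BoundedContinuousFunction ℝ ℂ) : ‖D.apply f‖ ≤ ‖f‖ :=
  NonUnitalStarAlgHom.norm_apply_le (F := BoundedContinuousFunction ℝ ℂ →⋆ₐ[ℂ] (H →L[ℂ] H)) D.apply f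

lemma apply_apply_norm_le (f : BoundedContinuousFunction ℝ ℂ) (x : H) :
    ‖D.apply f x‖ ≤ ‖f‖ * ‖x‖ :=
  ((D.apply f).le_opNorm x).trans (mul_le_mul_of_nonneg_right (apply_norm_le D f) (norm_nonneg x))

@[simp] lemma character_apply (t u : ℝ) :
    LineCalculus.character t u = Complex.exp (Complex.I * ((t * u : ℝ) : ℂ)) := rfl

lemma character_add (s t : ℝ) :
    LineCalculus.character (s + t) = LineCalculus.character s * LineCalculus.character t := by
  ext u
  simp only [character_apply, BoundedContinuousFunction.coe_mul, Pi.mul_apply]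
  rw [← Complex.exp_add]
  congr 1
  push_cast
  ring

lemma character_zero : LineCalculus.character 0 = 1 := by
  ext u
  simp [character_apply]

lemma star_character (t : ℝ) : star (LineCalculus.character t) = LineCalculus.character (-t) := by
  ext u
  simp only [BoundedContinuousFunction.star_apply, character_apply]
  change (starRingEnd ℂ) _ = _
  rw [← Complex.exp_conj]
  congr 1
  simp [Complex.conj_ofReal]

lemma wave_add (s t : ℝ) : D.wave (s + t) = D.wave s * D.wave t := by
  simp only [LineCalculus.wave, character_add, map_mul]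

lemma wave_zero : D.wave 0 = 1 := by
  simp only [LineCalculus.wave, character_zero, map_one]

lemma star_wave (t : ℝ) : star (D.wave t) = D.wave (-t) := by
  simp only [LineCalculus.wave, ← star_character, map_star]

lemma wave_neg_mul (t : ℝ) : D.wave (-t) * D.wave t = 1 := by
  rw [← wave_add, neg_add_cancel, wave_zero]

lemma wave_mul_neg (t : ℝ) : D.wave t * D.wave (-t) = 1 := by
  rw [← wave_add, add_neg_cancel, wave_zero]

lemma wave_neg_apply (t : ℝ) (x : H) : D.wave (-t) (D.wave t x) = x := by
  have := congrArg (fun A : H →L[ℂ] H => A x) (wave_neg_mul D t)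
  simpa using this

lemma wave_apply_neg (t : ℝ) (x : H) : D.wave t (D.wave (-t) x) = x := by
  have := congrArg (fun A : H →L[ℂ] H => A x) (wave_mul_neg D t)
  simpa using this

lemma wave_add_apply (s t : ℝ) (x : H) : D.wave (s + t) x = D.wave s (D.wave t x) := by
  rw [wave_add]; rfl

lemma inner_wave_wave (t : ℝ) (x y : H) : ⟪D.wave t x, D.wave t y⟫_ℂ = ⟪x, y⟫_ℂ := by
  have h := ContinuousLinearMap.adjoint_inner_right (D.wave t) x (D.wave t y)
  have h2 : ContinuousLinearMap.adjoint (D.wave t) = D.wave (-t) := by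
    rw [← ContinuousLinearMap.star_eq_adjoint, star_wave]
  rw [h2, wave_neg_apply] at h
  exact h.symm

lemma norm_wave (t : ℝ) (x : H) : ‖D.wave t x‖ = ‖x‖ := by
  have h := inner_wave_wave D t x x
  rw [inner_self_eq_norm_sq_to_K, inner_self_eq_norm_sq_to_K] at h
  have h' : ‖D.wave t x‖ ^ 2 = ‖x‖ ^ 2 := by exact_mod_cast h
  exact (sq_eq_sq₀ (norm_nonneg _) (norm_nonneg _)).mp h'

lemma inner_wave_left (t : ℝ) (x y : H) : ⟪D.wave t x, y⟫_ℂ = ⟪x, D.wave (-t) y⟫_ℂ := by
  have := inner_wave_wave D t x (D.wave (-t) y)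
  rwa [wave_apply_neg] at this

lemma opNorm_wave_le (t : ℝ) : ‖D.wave t‖ ≤ 1 :=
  ContinuousLinearMap.opNorm_le_bound _ zero_le_one (fun x => by rw [norm_wave, one_mul])

/-- cut-offs: a vector annihilated by every compactly supported function vanishes -/
lemma eq_zero_of_cutoffs (z : H)
    (hz : ∀ χ : BoundedContinuousFunction ℝ ℂ, HasCompactSupport (χ : ℝ → ℂ) → D.apply χ z = 0) :
    z = 0 := by
  by_contra hne
  have hpos : 0 < ‖z‖ := norm_pos_iff.mpr hne
  obtain ⟨f, hf, hf'⟩ := D.window z ‖z‖ hpos
  rw [hz f hf] at hf'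
  simp at hf'

/-- Local uniform approximation principle: if `g` is small on the support of a compactly supported
`χ`, then `D.apply g` is small on vectors close to `D.apply χ x`. -/
lemma norm_apply_mul_le (g χ : BoundedContinuousFunction ℝ ℂ) (x : H) :
    ‖D.apply g (D.apply χ x)‖ ≤ ‖g * χ‖ * ‖x‖ := by
  have : D.apply g (D.apply χ x) = D.apply (g * χ) x := by
    rw [map_mul]; rfl
  rw [this]
  exact apply_apply_norm_le D _ _

lemma norm_character_sub_le (s t u : ℝ) :
    ‖LineCalculus.character s u - LineCalculus.character t u‖ ≤ |s - t| * |u| := by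
  simp only [character_apply]
  have hexp : ∀ a b : ℝ, ‖Complex.exp (Complex.I * (a : ℂ)) - Complex.exp (Complex.I * (b : ℂ))‖
      ≤ |a - b| := by
    intro a b
    have h1 : Complex.exp (Complex.I * (a : ℂ)) - Complex.exp (Complex.I * (b : ℂ))
        = Complex.exp (Complex.I * (b : ℂ)) * (Complex.exp (Complex.I * ((a - b : ℝ) : ℂ)) - 1) := by
      rw [mul_sub, ← Complex.exp_add, mul_one]
      congr 2
      push_cast
      ring
    rw [h1, norm_mul]
    have h2 : ‖Complex.exp (Complex.I * (b : ℂ))‖ = 1 := by
      rw [mul_comm]; exact Complex.norm_exp_ofReal_mul_I b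
    rw [h2, one_mul]
    exact (Real.norm_exp_I_mul_ofReal_sub_one_le (x := a - b)).trans_eq (by rw [Real.norm_eq_abs])
  have := hexp (s * u) (t * u)
  refine this.trans_eq ?_
  rw [← sub_mul, abs_mul]

/-- Strong continuity of the unitary group. -/
lemma continuous_wave (x : H) : Continuous (fun t : ℝ => D.wave t x) := by
  rw [Metric.continuous_iff]
  intro s ε hε
  obtain ⟨χ, hχ, hχ'⟩ := D.window x (ε / 3) (by positivity)
  obtain ⟨R, hR⟩ := hχ.isCompact.isBounded.exists_norm_le
  set R' : ℝ := |R| + 1 with hR'def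
  have hR'pos : 0 < R' := by positivity
  set B : ℝ := R' * ‖χ‖ * ‖x‖ + 1 with hBdef
  have hBpos : 0 < B := by positivity
  refine ⟨ε / (3 * B), by positivity, fun t ht => ?_⟩
  rw [dist_eq_norm] at ht ⊢
  have hts : |t - s| < ε / (3 * B) := by simpa [Real.norm_eq_abs] using ht
  have h1 : D.wave t x - D.wave s x =
      (D.wave t (x - D.apply χ x) - D.wave s (x - D.apply χ x))
        + D.apply (LineCalculus.character t - LineCalculus.character s) (D.apply χ x) := by
    simp only [map_sub, LineCalculus.wave, _root_.sub_apply]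
    abel
  have h2 : ‖D.wave t (x - D.apply χ x)‖ < ε / 3 := by
    rw [norm_wave, norm_sub_rev]; exact hχ'
  have h3 : ‖D.wave s (x - D.apply χ x)‖ < ε / 3 := by
    rw [norm_wave, norm_sub_rev]; exact hχ'
  have h4 : ‖(LineCalculus.character t - LineCalculus.character s) * χ‖ ≤ |t - s| * R' * ‖χ‖ := by
    refine (BoundedContinuousFunction.norm_le (by positivity)).mpr (fun u => ?_)
    simp only [BoundedContinuousFunction.coe_mul, Pi.mul_apply, norm_mul,
      BoundedContinuousFunction.coe_sub, Pi.sub_apply]
    by_cases hu : u ∈ tsupport (χ : ℝ → ℂ)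
    · have hu' : |u| ≤ R' := by
        have := hR u hu
        rw [Real.norm_eq_abs] at this
        have h5 : R ≤ |R| := le_abs_self R
        linarith
      calc ‖LineCalculus.character t u - LineCalculus.character s u‖ * ‖χ u‖
          ≤ (|t - s| * |u|) * ‖χ‖ := by
            refine mul_le_mul (norm_character_sub_le t s u) (χ.norm_coe_le_norm u) (norm_nonneg _)
              (by positivity)
        _ ≤ |t - s| * R' * ‖χ‖ := by gcongr
    · have : (χ : ℝ → ℂ) u = 0 := image_eq_zero_of_notMem_tsupport hu
      rw [this]; simp; positivity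
  have h5 : ‖D.apply (LineCalculus.character t - LineCalculus.character s) (D.apply χ x)‖ < ε / 3 := by
    calc _ ≤ ‖(LineCalculus.character t - LineCalculus.character s) * χ‖ * ‖x‖ :=
          norm_apply_mul_le D _ _ _
      _ ≤ (|t - s| * R' * ‖χ‖) * ‖x‖ := by gcongr
      _ = |t - s| * (R' * ‖χ‖ * ‖x‖) := by ring
      _ ≤ |t - s| * B := by
          gcongr
          rw [hBdef]; linarith
      _ < ε / (3 * B) * B := by
          exact mul_lt_mul_of_pos_right hts hBpos
      _ = ε / 3 := by field_simp
  calc ‖D.wave t x - D.wave s x‖ = _ := by rw [h1]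
    _ ≤ ‖D.wave t (x - D.apply χ x)‖ + ‖D.wave s (x - D.apply χ x)‖
        + ‖D.apply (LineCalculus.character t - LineCalculus.character s) (D.apply χ x)‖ := by
        refine (norm_add_le _ _).trans ?_
        gcongr
        exact norm_sub_le _ _
    _ < ε / 3 + ε / 3 + ε / 3 := by linarith
    _ = ε := by ring

end Calc

end Crest.Agent.H3
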