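import Crest.Agent.H3Vac

/-! Helper for S0112: the commutant, and the ergodic theorem in the form we need it. -/

set_option autoImplicit false

namespace Crest.Agent.H3

open Crest.OpAlg MeasureTheory Filter
open scoped InnerProductSpace Topology BoundedContinuousFunction

variable {H : Type*} [NormedAddCommGroup H] [InnerProductSpace ℂ H] [CompleteSpace H]

namespace MD
variable (S : ModularDatum H)

local notation "ξ" => S.vac

lemma mem_M_of_comm {a : H →L[ℂ] H} (h : ∀ b ∈ S.M.commutant, b * a = a * b) : a ∈ S.M := by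
  rw [← VonNeumannAlgebra.commutant_commutant S.M, VonNeumannAlgebra.mem_commutant_iff]
  exact h

lemma comm_of_mem {a b : H →L[ℂ] H} (ha : a ∈ S.M) (hb : b ∈ S.M.commutant) : a * b = b * a :=
  (VonNeumannAlgebra.mem_commutant_iff.mp hb) a ha

lemma comm_apply {a b : H →L[ℂ] H} (ha : a ∈ S.M) (hb : b ∈ S.M.commutant) (x : H) :
    a (b x) = b (a x) :=
  congrArg (fun A : H →L[ℂ] H => A x) (comm_of_mem S ha hb)

/-- The vacuum is cyclic for the commutant. -/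
theorem commutant_cyclic (u : H) (θ : ℝ) (hθ : 0 < θ) :
    ∃ b ∈ S.M.commutant, ‖b ξ - u‖ < θ := by
  -- the subspace `M' ξ`
  let K₀ : Submodule ℂ H :=
    { carrier := {x | ∃ b ∈ S.M.commutant, b ξ = x}
      add_mem' := by
        rintro _ _ ⟨a, ha, rfl⟩ ⟨b, hb, rfl⟩
        exact ⟨a + b, add_mem ha hb, rfl⟩
      zero_mem' := ⟨0, zero_mem _, rfl⟩
      smul_mem' := by
        rintro c _ ⟨a, ha, rfl⟩
        exact ⟨c • a, S.M.commutant.toStarSubalgebra.smul_mem ha c, rfl⟩ }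
  let K : Submodule ℂ H := K₀.topologicalClosure
  have : CompleteSpace K := K₀.isClosed_topologicalClosure.completeSpace_coe
  have hinv : ∀ b ∈ S.M.commutant, ∀ k ∈ K, b k ∈ K := by
    intro b hb k hk
    refine map_mem_closure b.continuous hk ?_
    rintro _ ⟨a, ha, rfl⟩
    exact ⟨b * a, mul_mem hb ha, rfl⟩
  set p : H →L[ℂ] H := K.starProjection with hp
  have hcomm : ∀ b ∈ S.M.commutant, b * p = p * b := by
    intro b hb
    ext x
    show b (p x) = p (b x)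
    symm
    refine Submodule.eq_starProjection_of_mem_of_inner_eq_zero (hinv b hb _ (Submodule.starProjection_apply_mem K x)) ?_
    intro w hw
    have hb' : star b ∈ S.M.commutant := star_mem hb
    have h1 : ⟪b x - b (p x), w⟫_ℂ = ⟪x - p x, star b w⟫_ℂ := by
      rw [← map_sub, ContinuousLinearMap.star_eq_adjoint, ContinuousLinearMap.adjoint_inner_right]
    rw [h1]
    exact Submodule.starProjection_inner_eq_zero x _ (hinv _ hb' _ hw)
  have hpM : p ∈ S.M := mem_M_of_comm S hcomm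
  have hξK : ξ ∈ K := Submodule.le_topologicalClosure K₀ ⟨1, one_mem _, rfl⟩
  have hsep : (1 - p) ξ = 0 := by
    have : p ξ = ξ := Submodule.starProjection_eq_self_iff.mpr hξK
    simp [this]
  have h1p : (1 - p) = 0 := S.separating _ (sub_mem (one_mem _) hpM) hsep
  have hpu : p u = u := by
    have := congrArg (fun A : H →L[ℂ] H => A u) h1p
    simp only [_root_.sub_apply, ContinuousLinearMap.one_apply, ContinuousLinearMap.zero_apply] at this
    exact (sub_eq_zero.mp this).symm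
  have huK : u ∈ K := by
    rw [← hpu]; exact Submodule.starProjection_apply_mem K u
  obtain ⟨y, ⟨b, hb, rfl⟩, hy⟩ := Metric.mem_closure_iff.mp huK θ hθ
  exact ⟨b, hb, by rwa [dist_comm, dist_eq_norm] at hy⟩

/-- convex hull of the orbit -/
def orbitHull (x : H) : Set H := convexHull ℝ (Set.range fun t : ℝ => S.D.wave t x)

lemma orbit_mem_hull (x : H) (t : ℝ) : S.D.wave t x ∈ orbitHull S x :=
  subset_convexHull ℝ _ ⟨t, rfl⟩

lemma convex_orbitHull (x : H) : Convex ℝ (orbitHull S x) := convex_convexHull ℝ _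

lemma self_mem_hull (x : H) : x ∈ orbitHull S x := by
  have := orbit_mem_hull S x 0
  rwa [Calc.wave_zero] at this

lemma wave_mem_hull (x : H) (t : ℝ) {v : H} (hv : v ∈ orbitHull S x) :
    S.D.wave t v ∈ orbitHull S x := by
  have hconv : Convex ℝ ((S.D.wave t).restrictScalars ℝ ⁻¹' orbitHull S x) :=
    (convex_orbitHull S x).linear_preimage ((S.D.wave t).restrictScalars ℝ : H →ₗ[ℝ] H)
  have hsub : Set.range (fun s : ℝ => S.D.wave s x) ⊆
      (S.D.wave t).restrictScalars ℝ ⁻¹' orbitHull S x := by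
    rintro _ ⟨s, rfl⟩
    show S.D.wave t (S.D.wave s x) ∈ orbitHull S x
    rw [← Calc.wave_add_apply]
    exact orbit_mem_hull S x _
  exact (convexHull_min hsub hconv) hv

/-- min-norm element of the closed hull of the orbit. -/
theorem exists_fixed (x : H) :
    ∃ u ∈ closure (orbitHull S x), (∀ t, S.D.wave t u = u) ∧
      ∀ f : H, (∀ t, S.D.wave t f = f) → ⟪f, u⟫_ℂ = ⟪f, x⟫_ℂ := by
  have hne : (closure (orbitHull S x)).Nonempty := ⟨x, subset_closure (self_mem_hull S x)⟩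
  have hconv : Convex ℝ (closure (orbitHull S x)) := (convex_orbitHull S x).closure
  let _ : InnerProductSpace ℝ H := InnerProductSpace.rclikeToReal ℂ H
  obtain ⟨u, hu, hmin⟩ := exists_norm_eq_iInf_of_complete_convex hne
    (isClosed_closure.isComplete) hconv (0 : H)
  have hle : ∀ w ∈ closure (orbitHull S x), ‖u‖ ≤ ‖w‖ := by
    intro w hw
    have h1 := ciInf_le (f := fun w : closure (orbitHull S x) => ‖(0 : H) - (w : H)‖)
      ⟨0, by rintro _ ⟨a, rfl⟩; exact norm_nonneg _⟩ ⟨w, hw⟩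
    rw [← hmin] at h1
    simpa using h1
  have huniq : ∀ w ∈ closure (orbitHull S x), ‖w‖ = ‖u‖ → w = u := by
    intro w hw hwu
    have hm : (1 / 2 : ℝ) • u + (1 / 2 : ℝ) • w ∈ closure (orbitHull S x) :=
      hconv hu hw (by norm_num) (by norm_num) (by norm_num)
    have h2 := hle _ hm
    have h3 : ‖(1 / 2 : ℝ) • u + (1 / 2 : ℝ) • w‖ = ‖u + w‖ / 2 := by
      rw [← smul_add, norm_smul]; norm_num; ring
    rw [h3] at h2
    have h4 := parallelogram_law_with_norm ℂ u w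
    have h5 : ‖u - w‖ * ‖u - w‖ ≤ 0 := by
      rw [hwu] at h4
      nlinarith [norm_nonneg (u + w), norm_nonneg u]
    have h6 : ‖u - w‖ = 0 := by
      nlinarith [norm_nonneg (u - w)]
    exact (sub_eq_zero.mp (norm_eq_zero.mp h6)).symm
  refine ⟨u, hu, ?_, ?_⟩
  · intro t
    refine huniq _ ?_ (Calc.norm_wave _ _ _)
    exact map_mem_closure (S.D.wave t).continuous hu (fun v hv => wave_mem_hull S x t hv)
  · intro f hf
    have hcl : IsClosed {c : H | ⟪f, c⟫_ℂ = ⟪f, x⟫_ℂ} :=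
      isClosed_eq (by fun_prop) continuous_const
    have hconv2 : Convex ℝ {c : H | ⟪f, c⟫_ℂ = ⟪f, x⟫_ℂ} := by
      intro c₁ hc₁ c₂ hc₂ a b _ _ hab
      change ⟪f, c₁⟫_ℂ = ⟪f, x⟫_ℂ at hc₁
      change ⟪f, c₂⟫_ℂ = ⟪f, x⟫_ℂ at hc₂
      change ⟪f, a • c₁ + b • c₂⟫_ℂ = ⟪f, x⟫_ℂ
      rw [inner_add_right, ← Complex.coe_smul, ← Complex.coe_smul, inner_smul_right,
        inner_smul_right, hc₁, hc₂, ← add_mul]
      have : ((a : ℂ) + (b : ℂ)) = 1 := by exact_mod_cast hab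
      rw [this, one_mul]
    have horb : Set.range (fun t : ℝ => S.D.wave t x) ⊆ {c : H | ⟪f, c⟫_ℂ = ⟪f, x⟫_ℂ} := by
      rintro _ ⟨t, rfl⟩
      show ⟪f, S.D.wave t x⟫_ℂ = ⟪f, x⟫_ℂ
      have h1 := Calc.inner_wave_left S.D (-t) f x
      rw [neg_neg, hf] at h1
      exact h1.symm
    exact closure_minimal (convexHull_min horb hconv2) hcl hu

lemma norm_flow_le (t : ℝ) (y : H →L[ℂ] H) : ‖S.flow t y‖ ≤ ‖y‖ := by
  show ‖S.D.wave t * y * S.D.wave (-t)‖ ≤ ‖y‖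
  calc _ ≤ ‖S.D.wave t‖ * ‖y‖ * ‖S.D.wave (-t)‖ := by
        refine (norm_mul_le _ _).trans ?_
        gcongr
        exact norm_mul_le _ _
    _ ≤ 1 * ‖y‖ * 1 := by
        gcongr
        · exact Calc.opNorm_wave_le _ _
        · exact Calc.opNorm_wave_le _ _
    _ = ‖y‖ := by ring

/-- Every convex combination of the orbit of `y ξ` comes from an element of `M` of norm `≤ ‖y‖`. -/
lemma exists_avg {y : H →L[ℂ] H} (hy : y ∈ S.M) {v : H} (hv : v ∈ orbitHull S (y ξ)) :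
    ∃ Y ∈ S.M, ‖Y‖ ≤ ‖y‖ ∧ Y ξ = v := by
  have hconv : Convex ℝ {v : H | ∃ Y ∈ S.M, ‖Y‖ ≤ ‖y‖ ∧ Y ξ = v} := by
    rintro _ ⟨Y₁, h₁, hn₁, rfl⟩ _ ⟨Y₂, h₂, hn₂, rfl⟩ a b ha hb hab
    refine ⟨(a : ℂ) • Y₁ + (b : ℂ) • Y₂, add_mem (S.M.toStarSubalgebra.smul_mem h₁ _)
      (S.M.toStarSubalgebra.smul_mem h₂ _), ?_, ?_⟩
    · calc _ ≤ ‖(a : ℂ) • Y₁‖ + ‖(b : ℂ) • Y₂‖ := norm_add_le _ _
        _ = a * ‖Y₁‖ + b * ‖Y₂‖ := by
            rw [norm_smul, norm_smul, Complex.norm_real, Complex.norm_real, Real.norm_of_nonneg ha,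
              Real.norm_of_nonneg hb]
        _ ≤ a * ‖y‖ + b * ‖y‖ := by gcongr
        _ = ‖y‖ := by rw [← add_mul, hab, one_mul]
    · simp only [ContinuousLinearMap.add_apply, ContinuousLinearMap.smul_apply]
      rw [Complex.coe_smul, Complex.coe_smul]
  have hsub : Set.range (fun t : ℝ => S.D.wave t (y ξ)) ⊆
      {v : H | ∃ Y ∈ S.M, ‖Y‖ ≤ ‖y‖ ∧ Y ξ = v} := by
    rintro _ ⟨t, rfl⟩
    exact ⟨S.flow t y, S.flow_mem t y hy, norm_flow_le S t y, flow_apply_vac S t y⟩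
  exact convexHull_min hsub hconv hv

/-- A fixed vector in the closed hull of the orbit of `y ξ` is a multiple of `ξ` (ergodicity). -/
theorem fixed_of_mem_closure (herg : S.Ergodic) {y : H →L[ℂ] H} (hy : y ∈ S.M) {u : H}
    (hu : u ∈ closure (orbitHull S (y ξ))) (hfix : ∀ t, S.D.wave t u = u) :
    ∃ c : ℂ, u = c • ξ := by
  -- a sequence of averages
  have hseq : ∀ n : ℕ, ∃ Y ∈ S.M, ‖Y‖ ≤ ‖y‖ ∧ ‖Y ξ - u‖ < 1 / ((n : ℝ) + 1) := by
    intro n
    obtain ⟨v, hv, hvu⟩ := Metric.mem_closure_iff.mp hu (1 / ((n : ℝ) + 1)) (by positivity)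
    obtain ⟨Y, hY, hYn, rfl⟩ := exists_avg S hy hv
    exact ⟨Y, hY, hYn, by rwa [dist_comm, dist_eq_norm] at hvu⟩
  choose Y hYM hYn hYu using hseq
  have hlimξ : Tendsto (fun n => Y n ξ) atTop (𝓝 u) := by
    rw [tendsto_iff_norm_sub_tendsto_zero]
    refine squeeze_zero (fun n => norm_nonneg _) (fun n => (hYu n).le) ?_
    exact tendsto_one_div_add_atTop_nhds_zero_nat
  have hlimb : ∀ b ∈ S.M.commutant, Tendsto (fun n => Y n (b ξ)) atTop (𝓝 (b u)) := by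
    intro b hb
    have : (fun n => Y n (b ξ)) = fun n => b (Y n ξ) := by
      funext n; exact comm_apply S (hYM n) hb ξ
    rw [this]
    exact (b.continuous.tendsto u).comp hlimξ
  set B : ℝ := ‖y‖ + 1 with hB
  have hBpos : 0 < B := by positivity
  have hcauchy : ∀ x : H, CauchySeq (fun n => Y n x) := by
    intro x
    rw [Metric.cauchySeq_iff]
    intro ε hε
    obtain ⟨b, hb, hbx⟩ := commutant_cyclic S x (ε / (4 * B)) (by positivity)
    obtain ⟨N, hN⟩ := Metric.cauchySeq_iff.mp (hlimb b hb).cauchySeq (ε / 2) (by positivity)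
    refine ⟨N, fun m hm n hn => ?_⟩
    have h1 : ∀ k, ‖Y k x - Y k (b ξ)‖ < ε / 4 := by
      intro k
      rw [← map_sub]
      calc ‖Y k (x - b ξ)‖ ≤ ‖Y k‖ * ‖x - b ξ‖ := (Y k).le_opNorm _
        _ ≤ B * ‖b ξ - x‖ := by
            rw [norm_sub_rev x]
            gcongr
            exact (hYn k).trans (by rw [hB]; linarith)
        _ < B * (ε / (4 * B)) := by gcongr
        _ = ε / 4 := by field_simp
    have h2 := hN m hm n hn
    rw [dist_eq_norm] at h2 ⊢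
    calc ‖Y m x - Y n x‖ = ‖(Y m x - Y m (b ξ)) + (Y m (b ξ) - Y n (b ξ)) - (Y n x - Y n (b ξ))‖ := by
          congr 1; abel
      _ ≤ ‖Y m x - Y m (b ξ)‖ + ‖Y m (b ξ) - Y n (b ξ)‖ + ‖Y n x - Y n (b ξ)‖ := by
          refine (norm_sub_le _ _).trans ?_
          gcongr
          exact norm_add_le _ _
      _ < ε / 4 + ε / 2 + ε / 4 := by
          have := h1 m
          have := h1 n
          linarith
      _ = ε := by ring
  choose g hg using fun x => cauchySeq_tendsto_of_complete (hcauchy x)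
  let Yinf : H →L[ℂ] H := continuousLinearMapOfTendsto Y (tendsto_pi_nhds.2 hg)
  have hYinf : ∀ x, Tendsto (fun n => Y n x) atTop (𝓝 (Yinf x)) := hg
  have hYinfM : Yinf ∈ S.M := by
    refine mem_M_of_comm S (fun b hb => ?_)
    ext x
    show b (Yinf x) = Yinf (b x)
    have h1 : Tendsto (fun n => b (Y n x)) atTop (𝓝 (b (Yinf x))) :=
      (b.continuous.tendsto _).comp (hYinf x)
    have h2 : Tendsto (fun n => b (Y n x)) atTop (𝓝 (Yinf (b x))) := by
      have : (fun n => b (Y n x)) = fun n => Y n (b x) := by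
        funext n; exact (comm_apply S (hYM n) hb x).symm
      rw [this]; exact hYinf _
    exact tendsto_nhds_unique h1 h2
  have hYinfξ : Yinf ξ = u := tendsto_nhds_unique (hYinf ξ) hlimξ
  have hflow : ∀ t, S.flow t Yinf = Yinf := by
    intro t
    have h1 : S.flow t Yinf ξ = Yinf ξ := by
      rw [flow_apply_vac, hYinfξ, hfix]
    have h2 : S.flow t Yinf - Yinf = 0 :=
      S.separating _ (sub_mem (S.flow_mem t _ hYinfM) hYinfM) (by
        rw [_root_.sub_apply, h1, sub_self])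
    exact sub_eq_zero.mp h2
  obtain ⟨c, hc⟩ := herg Yinf hYinfM hflow
  refine ⟨c, ?_⟩
  rw [← hYinfξ, hc]
  simp

lemma inner_vac_vac : ⟪ξ, ξ⟫_ℂ = 1 := by
  rw [inner_self_eq_norm_sq_to_K, S.norm_vac]; simp

/-- Ergodicity: the only fixed vectors are the multiples of the vacuum. -/
theorem fixed_eq (herg : S.Ergodic) {f : H} (hf : ∀ t, S.D.wave t f = f) : f = ⟪ξ, f⟫_ℂ • ξ := by
  set f₀ := f - ⟪ξ, f⟫_ℂ • ξ with hf₀
  have hf₀fix : ∀ t, S.D.wave t f₀ = f₀ := by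
    intro t
    rw [hf₀, map_sub, map_smul, hf, wave_vac]
  have hf₀ξ : ⟪f₀, ξ⟫_ℂ = 0 := by
    rw [hf₀, inner_sub_left, inner_smul_left, inner_vac_vac]
    simp
  have horth : ∀ a ∈ S.M, ⟪f₀, a ξ⟫_ℂ = 0 := by
    intro a ha
    obtain ⟨u, hu, hfix, hin⟩ := exists_fixed S (a ξ)
    obtain ⟨c, rfl⟩ := fixed_of_mem_closure S herg ha hu hfix
    rw [← hin f₀ hf₀fix, inner_smul_right, hf₀ξ, mul_zero]
  have hcl : IsClosed {x : H | ⟪f₀, x⟫_ℂ = 0} := isClosed_eq (by fun_prop) continuous_const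
  have hall : ∀ x : H, ⟪f₀, x⟫_ℂ = 0 := by
    intro x
    have hsub : Set.range (fun a : S.M => (a : H →L[ℂ] H) ξ) ⊆ {x : H | ⟪f₀, x⟫_ℂ = 0} := by
      rintro _ ⟨a, rfl⟩
      exact horth a a.2
    exact (closure_minimal hsub hcl) (S.cyclic x)
  have : f₀ = 0 := inner_self_eq_zero.mp (hall f₀)
  exact sub_eq_zero.mp this

/-- The vacuum component lies in the closed hull of the orbit. -/
theorem vac_comp_mem_closure (herg : S.Ergodic) (x : H) :
    ⟪ξ, x⟫_ℂ • ξ ∈ closure (orbitHull S x) := by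
  obtain ⟨u, hu, hfix, hin⟩ := exists_fixed S x
  have h1 := fixed_eq S herg hfix
  have h2 := hin ξ (wave_vac S)
  have h3 : ⟪ξ, x⟫_ℂ • ξ = u := by rw [← h2]; exact h1.symm
  rwa [h3]

/-! ### Averaging operators -/

/-- The convex hull of the unitary group. -/
def avgOps : Set (H →L[ℂ] H) := convexHull ℝ (Set.range fun t : ℝ => S.D.wave t)

lemma wave_mem_avgOps (t : ℝ) : S.D.wave t ∈ avgOps S := subset_convexHull ℝ _ ⟨t, rfl⟩

lemma avgOps_prop {A : H →L[ℂ] H} (hA : A ∈ avgOps S) :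
    ‖A‖ ≤ 1 ∧ A ξ = ξ ∧ ∀ x, ⟪ξ, A x⟫_ℂ = ⟪ξ, x⟫_ℂ := by
  have hconv : Convex ℝ {A : H →L[ℂ] H | ‖A‖ ≤ 1 ∧ A ξ = ξ ∧ ∀ x, ⟪ξ, A x⟫_ℂ = ⟪ξ, x⟫_ℂ} := by
    rintro A₁ ⟨h₁, h₂, h₃⟩ A₂ ⟨k₁, k₂, k₃⟩ a b ha hb hab
    refine ⟨?_, ?_, ?_⟩
    · calc _ ≤ ‖a • A₁‖ + ‖b • A₂‖ := norm_add_le _ _
        _ = a * ‖A₁‖ + b * ‖A₂‖ := by
            rw [norm_smul, norm_smul, Real.norm_of_nonneg ha, Real.norm_of_nonneg hb]
        _ ≤ a * 1 + b * 1 := by gcongr
        _ = 1 := by rw [mul_one, mul_one, hab]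
    · simp only [ContinuousLinearMap.add_apply, ContinuousLinearMap.smul_apply, h₂, k₂]
      rw [← add_smul, hab, one_smul]
    · intro x
      simp only [ContinuousLinearMap.add_apply, ContinuousLinearMap.smul_apply]
      rw [inner_add_right, ← Complex.coe_smul, ← Complex.coe_smul, inner_smul_right,
        inner_smul_right, h₃, k₃, ← add_mul]
      have : ((a : ℂ) + (b : ℂ)) = 1 := by exact_mod_cast hab
      rw [this, one_mul]
  have hsub : Set.range (fun t : ℝ => S.D.wave t) ⊆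
      {A : H →L[ℂ] H | ‖A‖ ≤ 1 ∧ A ξ = ξ ∧ ∀ x, ⟪ξ, A x⟫_ℂ = ⟪ξ, x⟫_ℂ} := by
    rintro _ ⟨t, rfl⟩
    refine ⟨Calc.opNorm_wave_le _ _, wave_vac S t, fun x => ?_⟩
    have h1 := Calc.inner_wave_left S.D (-t) ξ x
    rw [neg_neg, wave_vac] at h1
    exact h1.symm
  exact convexHull_min hsub hconv hA

/-- left multiplication by an element of `𝒜` -/
lemma avgOps_mul {A B : H →L[ℂ] H} (hA : A ∈ avgOps S) (hB : B ∈ avgOps S) : A * B ∈ avgOps S := by
  -- first: `W_t * B` in the hull, for all `t`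
  have h1 : ∀ t : ℝ, S.D.wave t * B ∈ avgOps S := by
    intro t
    have hconv : Convex ℝ {C : H →L[ℂ] H | S.D.wave t * C ∈ avgOps S} := by
      intro C₁ h₁ C₂ h₂ a b ha hb hab
      have : S.D.wave t * (a • C₁ + b • C₂) = a • (S.D.wave t * C₁) + b • (S.D.wave t * C₂) := by
        rw [mul_add, mul_smul_comm, mul_smul_comm]
      show S.D.wave t * (a • C₁ + b • C₂) ∈ avgOps S
      rw [this]
      exact (convex_convexHull ℝ _) h₁ h₂ ha hb hab
    have hsub : Set.range (fun s : ℝ => S.D.wave s) ⊆ {C : H →L[ℂ] H | S.D.wave t * C ∈ avgOps S} := by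
      rintro _ ⟨s, rfl⟩
      show S.D.wave t * S.D.wave s ∈ avgOps S
      rw [← Calc.wave_add]
      exact wave_mem_avgOps S _
    exact convexHull_min hsub hconv hB
  have hconv : Convex ℝ {C : H →L[ℂ] H | C * B ∈ avgOps S} := by
    intro C₁ h₁ C₂ h₂ a b ha hb hab
    have : (a • C₁ + b • C₂) * B = a • (C₁ * B) + b • (C₂ * B) := by
      rw [add_mul, smul_mul_assoc, smul_mul_assoc]
    show (a • C₁ + b • C₂) * B ∈ avgOps S
    rw [this]
    exact (convex_convexHull ℝ _) h₁ h₂ ha hb hab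
  have hsub : Set.range (fun s : ℝ => S.D.wave s) ⊆ {C : H →L[ℂ] H | C * B ∈ avgOps S} := by
    rintro _ ⟨s, rfl⟩
    exact h1 s
  exact convexHull_min hsub hconv hA

lemma exists_avgOp_of_mem_hull {x v : H} (hv : v ∈ orbitHull S x) :
    ∃ A ∈ avgOps S, A x = v := by
  have hconv : Convex ℝ {v : H | ∃ A ∈ avgOps S, A x = v} := by
    rintro _ ⟨A₁, h₁, rfl⟩ _ ⟨A₂, h₂, rfl⟩ a b ha hb hab
    exact ⟨a • A₁ + b • A₂, (convex_convexHull ℝ _) h₁ h₂ ha hb hab, rfl⟩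
  have hsub : Set.range (fun t : ℝ => S.D.wave t x) ⊆ {v : H | ∃ A ∈ avgOps S, A x = v} := by
    rintro _ ⟨t, rfl⟩
    exact ⟨_, wave_mem_avgOps S t, rfl⟩
  exact convexHull_min hsub hconv hv

/-- Simultaneous approximation of the vacuum components by one averaging operator. -/
theorem exists_avgOp_list (herg : S.Ergodic) (θ : ℝ) (hθ : 0 < θ) (l : List H) :
    ∃ A ∈ avgOps S, ∀ v ∈ l, ‖A v - ⟪ξ, v⟫_ℂ • ξ‖ < θ := by
  induction l with
  | nil => exact ⟨_, wave_mem_avgOps S 0, by simp⟩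
  | cons w l ih =>
    obtain ⟨A₁, hA₁, h₁⟩ := ih
    obtain ⟨v, hv, hvu⟩ := Metric.mem_closure_iff.mp (vac_comp_mem_closure S herg (A₁ w)) θ hθ
    obtain ⟨A₂, hA₂, rfl⟩ := exists_avgOp_of_mem_hull S hv
    obtain ⟨hA₁n, hA₁ξ, hA₁i⟩ := avgOps_prop S hA₁
    obtain ⟨hA₂n, hA₂ξ, hA₂i⟩ := avgOps_prop S hA₂
    refine ⟨A₂ * A₁, avgOps_mul S hA₂ hA₁, ?_⟩
    intro z hz
    rcases List.mem_cons.mp hz with rfl | hz
    · rw [hA₁i] at hvu
      rwa [dist_comm, dist_eq_norm] at hvu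
    · have : (A₂ * A₁) z - ⟪ξ, z⟫_ℂ • ξ = A₂ (A₁ z - ⟪ξ, z⟫_ℂ • ξ) := by
        rw [map_sub, map_smul, hA₂ξ]; rfl
      rw [this]
      calc _ ≤ ‖A₂‖ * ‖A₁ z - ⟪ξ, z⟫_ℂ • ξ‖ := A₂.le_opNorm _
        _ ≤ 1 * ‖A₁ z - ⟪ξ, z⟫_ℂ • ξ‖ := by gcongr
        _ < θ := by rw [one_mul]; exact h₁ z hz

/-- Mean value principle: a finite sum of matrix coefficients of the unitary group takes, at some
time, a value below its mean value up to any error. -/
theorem exists_time_le (herg : S.Ergodic) (l : List (H × H)) (θ : ℝ) (hθ : 0 < θ) :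
    ∃ t : ℝ, (l.map fun p => (⟪p.1, S.D.wave t p.2⟫_ℂ).re).sum ≤
      (l.map fun p => (⟪p.1, ⟪ξ, p.2⟫_ℂ • ξ⟫_ℂ).re).sum + θ := by
  set C : ℝ := (l.map fun p => ‖p.1‖).sum + 1 with hC
  have hsum0 : ∀ l : List (H × H), 0 ≤ (l.map fun p => ‖p.1‖).sum := by
    intro l
    induction l with
    | nil => simp
    | cons a l ih => simpa using add_nonneg (norm_nonneg _) ih
  have hCpos : 0 < C := by have := hsum0 l; rw [hC]; linarith
  obtain ⟨A, hA, hAl⟩ := exists_avgOp_list S herg (θ / C) (by positivity) (l.map Prod.snd)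
  -- the linear functional
  let Λ : (H →L[ℂ] H) → ℝ := fun B => (l.map fun p => (⟪p.1, B p.2⟫_ℂ).re).sum
  have hbound : ∀ l' : List (H × H), (∀ p ∈ l', ‖A p.2 - ⟪ξ, p.2⟫_ℂ • ξ‖ < θ / C) →
      (l'.map fun p => (⟪p.1, A p.2⟫_ℂ).re).sum ≤
        (l'.map fun p => (⟪p.1, ⟪ξ, p.2⟫_ℂ • ξ⟫_ℂ).re).sum + (l'.map fun p => ‖p.1‖).sum * (θ / C) := by
    intro l' h
    induction l' with
    | nil => simp
    | cons a l' ih =>
      have h1 := ih (fun p hp => h p (List.mem_cons_of_mem _ hp))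
      have h2 := h a List.mem_cons_self
      simp only [List.map_cons, List.sum_cons]
      have h3 : (⟪a.1, A a.2⟫_ℂ).re ≤ (⟪a.1, ⟪ξ, a.2⟫_ℂ • ξ⟫_ℂ).re + ‖a.1‖ * (θ / C) := by
        have h4 : (⟪a.1, A a.2⟫_ℂ).re - (⟪a.1, ⟪ξ, a.2⟫_ℂ • ξ⟫_ℂ).re
            = (⟪a.1, A a.2 - ⟪ξ, a.2⟫_ℂ • ξ⟫_ℂ).re := by
          rw [inner_sub_right, Complex.sub_re]
        have h5 : (⟪a.1, A a.2 - ⟪ξ, a.2⟫_ℂ • ξ⟫_ℂ).re ≤ ‖a.1‖ * (θ / C) := by
          calc _ ≤ ‖⟪a.1, A a.2 - ⟪ξ, a.2⟫_ℂ • ξ⟫_ℂ‖ := Complex.re_le_norm _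
            _ ≤ ‖a.1‖ * ‖A a.2 - ⟪ξ, a.2⟫_ℂ • ξ‖ := norm_inner_le_norm _ _
            _ ≤ ‖a.1‖ * (θ / C) := by gcongr
        linarith
      nlinarith [h1, h3]
  have hA' := hbound l (fun p hp => hAl _ (List.mem_map_of_mem hp))
  have h1 : (l.map fun p => ‖p.1‖).sum * (θ / C) ≤ θ := by
    have h2 : (l.map fun p => ‖p.1‖).sum ≤ C := by rw [hC]; linarith
    calc _ ≤ C * (θ / C) := by gcongr
      _ = θ := by field_simp
  have hΛ : Λ A ≤ (l.map fun p => (⟪p.1, ⟪ξ, p.2⟫_ℂ • ξ⟫_ℂ).re).sum + θ := by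
    show (l.map fun p => (⟪p.1, A p.2⟫_ℂ).re).sum ≤ _
    linarith
  by_contra hcon
  push_neg at hcon
  -- the strict half-space is convex
  have hconv : Convex ℝ {B : H →L[ℂ] H | (l.map fun p => (⟪p.1, ⟪ξ, p.2⟫_ℂ • ξ⟫_ℂ).re).sum + θ < Λ B} := by
    have hlin : ∀ (l' : List (H × H)) (B₁ B₂ : H →L[ℂ] H) (a b : ℝ),
        (l'.map fun p => (⟪p.1, (a • B₁ + b • B₂) p.2⟫_ℂ).re).sum =
          a * (l'.map fun p => (⟪p.1, B₁ p.2⟫_ℂ).re).sum + b * (l'.map fun p => (⟪p.1, B₂ p.2⟫_ℂ).re).sum := by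
      intro l' B₁ B₂ a b
      induction l' with
      | nil => simp
      | cons c l' ih =>
        simp only [List.map_cons, List.sum_cons, ih]
        have : (⟪c.1, (a • B₁ + b • B₂) c.2⟫_ℂ).re = a * (⟪c.1, B₁ c.2⟫_ℂ).re + b * (⟪c.1, B₂ c.2⟫_ℂ).re := by
          simp only [ContinuousLinearMap.add_apply, ContinuousLinearMap.smul_apply]
          rw [inner_add_right, ← Complex.coe_smul, ← Complex.coe_smul, inner_smul_right, inner_smul_right]
          simp [Complex.add_re, Complex.mul_re]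
        rw [this]
        ring
    intro B₁ h₁ B₂ h₂ a b ha hb hab
    change _ < Λ B₁ at h₁
    change _ < Λ B₂ at h₂
    change _ < Λ (a • B₁ + b • B₂)
    have h3 : Λ (a • B₁ + b • B₂) = a * Λ B₁ + b * Λ B₂ := hlin l B₁ B₂ a b
    rw [h3]
    rcases ha.eq_or_lt with rfl | ha'
    · have : b = 1 := by linarith
      subst this; simpa using h₂
    · calc _ = a * ((l.map fun p => (⟪p.1, ⟪ξ, p.2⟫_ℂ • ξ⟫_ℂ).re).sum + θ)
            + b * ((l.map fun p => (⟪p.1, ⟪ξ, p.2⟫_ℂ • ξ⟫_ℂ).re).sum + θ) := by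
            rw [← add_mul, hab, one_mul]
        _ < _ := by
            have := mul_lt_mul_of_pos_left h₁ ha'
            have := mul_le_mul_of_nonneg_left h₂.le hb
            linarith
  have hsub : Set.range (fun t : ℝ => S.D.wave t) ⊆
      {B : H →L[ℂ] H | (l.map fun p => (⟪p.1, ⟪ξ, p.2⟫_ℂ • ξ⟫_ℂ).re).sum + θ < Λ B} := by
    rintro _ ⟨t, rfl⟩
    exact hcon t
  have := convexHull_min hsub hconv hA
  exact absurd hΛ (not_le.mpr this)

end MD

end Crest.Agent.H3
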