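import Crest.Agent.H3Fourier

/-! Helper for S0112: assembling the recovery theorem. -/

set_option autoImplicit false

namespace Crest.Agent.H3

open Crest.OpAlg MeasureTheory Filter
open scoped InnerProductSpace Topology BoundedContinuousFunction

variable {H : Type*} [NormedAddCommGroup H] [InnerProductSpace ℂ H] [CompleteSpace H]

namespace Fin

noncomputable def f0 : ℝ → ℂ := Four.exists_bump.choose
noncomputable def g0 : ℝ → ℂ := Four.exists_bump.choose_spec.choose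

lemma f0_cont : Continuous f0 := Four.exists_bump.choose_spec.choose_spec.1
lemma g0_int : Integrable g0 := Four.exists_bump.choose_spec.choose_spec.2.1
lemma f0_one {w : ℝ} (hw : |w| ≤ 1) : f0 w = 1 :=
  Four.exists_bump.choose_spec.choose_spec.2.2.1 w hw
lemma f0_zero {w : ℝ} (hw : 4 ≤ |w|) : f0 w = 0 :=
  Four.exists_bump.choose_spec.choose_spec.2.2.2.1 w hw
lemma f0_le (w : ℝ) : ‖f0 w‖ ≤ 1 := Four.exists_bump.choose_spec.choose_spec.2.2.2.2.1 w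
lemma f0_inv (w : ℝ) :
    f0 w = ∫ τ : ℝ, Complex.exp (((2 * Real.pi * (τ * w) : ℝ) : ℂ) * Complex.I) * g0 τ :=
  Four.exists_bump.choose_spec.choose_spec.2.2.2.2.2 w

/-- the rescaled bump -/
noncomputable def bmp (s δ : ℝ) : BoundedContinuousFunction ℝ ℂ :=
  BoundedContinuousFunction.ofNormedAddCommGroup (fun u => f0 ((u - s) / δ))
    (f0_cont.comp ((continuous_id.sub continuous_const).div_const δ)) 1 (fun _ => f0_le _)

@[simp] lemma bmp_apply (s δ u : ℝ) : bmp s δ u = f0 ((u - s) / δ) := rfl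

lemma bmp_one {s δ u : ℝ} (hδ : 0 < δ) (hu : u ∈ Set.Icc (s - δ) (s + δ)) : bmp s δ u = 1 := by
  rw [bmp_apply]
  apply f0_one
  rw [abs_div, abs_of_pos hδ, div_le_one hδ, abs_le]
  constructor <;> linarith [hu.1, hu.2]

lemma bmp_zero {s δ u : ℝ} (hδ : 0 < δ) (hu : u ∉ Set.Icc (s - 4 * δ) (s + 4 * δ)) :
    bmp s δ u = 0 := by
  rw [bmp_apply]
  apply f0_zero
  rw [abs_div, abs_of_pos hδ, le_div_iff₀ hδ]
  rw [Set.mem_Icc, not_and_or, not_le, not_le] at hu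
  rcases hu with hu | hu
  · have : 4 * δ ≤ -(u - s) := by linarith
    exact this.trans (neg_le_abs _)
  · have : 4 * δ ≤ (u - s) := by linarith
    exact this.trans (le_abs_self _)

lemma bmp_compact {s δ : ℝ} (hδ : 0 < δ) : HasCompactSupport (bmp s δ : ℝ → ℂ) :=
  HasCompactSupport.intro (isCompact_Icc (a := s - 4 * δ) (b := s + 4 * δ))
    (fun _ hu => bmp_zero hδ hu)

lemma bmp_fourier (s : ℝ) {δ : ℝ} (hδ : 0 < δ) :
    ∃ G : ℝ → ℂ, Integrable G ∧ (∫ τ : ℝ, ‖G τ‖) = (∫ τ : ℝ, ‖g0 τ‖) ∧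
      ∀ u, bmp s δ u = ∫ τ : ℝ, G τ * LineCalculus.character ((2 * Real.pi / δ) * τ) u := by
  set e : ℝ → ℂ := fun τ => Complex.exp (((-(2 * Real.pi * τ * s / δ) : ℝ) : ℂ) * Complex.I) with he
  have hecont : Continuous e := by
    rw [he]
    fun_prop
  have henorm : ∀ τ, ‖e τ‖ = 1 := fun τ => Complex.norm_exp_ofReal_mul_I _
  refine ⟨fun τ => g0 τ • e τ, Four.integrable_smul g0_int hecont (C := 1) (fun t => (henorm t).le), ?_, ?_⟩
  · refine integral_congr_ae (ae_of_all _ (fun τ => ?_))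
    show ‖g0 τ • e τ‖ = ‖g0 τ‖
    rw [norm_smul, henorm, mul_one]
  · intro u
    rw [bmp_apply, f0_inv]
    refine integral_congr_ae (ae_of_all _ (fun τ => ?_))
    show _ = g0 τ • e τ * LineCalculus.character ((2 * Real.pi / δ) * τ) u
    simp only [Calc.character_apply, he, smul_eq_mul]
    rw [mul_assoc (g0 τ), ← Complex.exp_add, mul_comm (g0 τ)]
    congr 2
    push_cast
    field_simp
    ring

variable (S : ModularDatum H)

local notation "ξ" => S.vac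

/-- smoothing with the rescaled bump -/
lemma exists_v_of_a (s : ℝ) {δ : ℝ} (hδ : 0 < δ) {a : H →L[ℂ] H} (ha : a ∈ S.M) (ha1 : ‖a‖ ≤ 1) :
    ∃ v : H →L[ℂ] H, v ∈ S.M ∧ ‖v‖ ≤ ∫ τ : ℝ, ‖g0 τ‖ ∧ v ξ = S.D.apply (bmp s δ) (a ξ) := by
  obtain ⟨G, hG, hGn, hGf⟩ := bmp_fourier s hδ
  obtain ⟨v, hv, hvn, hvξ⟩ := Four.exists_smoothed S hG _ (bmp s δ) hGf ha
  refine ⟨v, hv, ?_, hvξ⟩
  rw [hGn] at hvn
  refine hvn.trans ?_
  have h0 : 0 ≤ ∫ τ : ℝ, ‖g0 τ‖ := integral_nonneg (fun τ => norm_nonneg _)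
  nlinarith

lemma supportedIn_bmp (s : ℝ) {δ : ℝ} (hδ : 0 < δ) (z : H) :
    S.D.SupportedIn (Set.Icc (s - 4 * δ) (s + 4 * δ)) (S.D.apply (bmp s δ) z) := by
  intro F hF
  have h1 : F * bmp s δ = 0 := by
    ext u
    simp only [BoundedContinuousFunction.coe_mul, Pi.mul_apply, BoundedContinuousFunction.coe_zero,
      Pi.zero_apply]
    by_cases hu : u ∈ Set.Icc (s - 4 * δ) (s + 4 * δ)
    · rw [hF u hu, zero_mul]
    · rw [bmp_zero hδ hu, mul_zero]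
  have h2 : S.D.apply F (S.D.apply (bmp s δ) z) = S.D.apply (F * bmp s δ) z := by
    rw [map_mul]; rfl
  rw [h2, h1, map_zero]
  rfl

lemma apply_bmp_of_band {s δ : ℝ} (hδ : 0 < δ) {h : H}
    (hband : S.D.SupportedIn (Set.Icc (s - δ) (s + δ)) h) : S.D.apply (bmp s δ) h = h := by
  have h1 := hband (bmp s δ - 1) (fun u hu => by
    simp only [BoundedContinuousFunction.coe_sub, Pi.sub_apply, BoundedContinuousFunction.coe_one,
      Pi.one_apply, bmp_one hδ hu, sub_self])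
  rw [map_sub, map_one, _root_.sub_apply] at h1
  exact sub_eq_zero.mp h1

lemma apply_wave_comm (f : BoundedContinuousFunction ℝ ℂ) (t : ℝ) (x : H) :
    S.D.apply f (S.D.wave t x) = S.D.wave t (S.D.apply f x) := by
  have h1 : S.D.apply f (S.D.wave t x) = S.D.apply (f * LineCalculus.character t) x := by
    rw [map_mul]; rfl
  have h2 : S.D.wave t (S.D.apply f x) = S.D.apply (LineCalculus.character t * f) x := by
    rw [map_mul]; rfl
  rw [h1, h2, mul_comm]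

/-- the operator norm of the weighted cut-off -/
lemma norm_expHalf_le {s δ Δ : ℝ} (hδ : 0 < δ) (hΔ : δ ≤ Δ) :
    ‖MD.expHalfMul (bmp s δ) (bmp_compact hδ)‖ ≤ Real.exp ((|s| + 4 * Δ) / 2) := by
  refine (BoundedContinuousFunction.norm_le (Real.exp_pos _).le).mpr (fun u => ?_)
  rw [MD.expHalfMul_apply, norm_mul, Complex.norm_real, Real.norm_of_nonneg (Real.exp_pos _).le]
  by_cases hu : u ∈ Set.Icc (s - 4 * δ) (s + 4 * δ)
  · have h1 : ‖bmp s δ u‖ ≤ 1 := f0_le _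
    have h2 : Real.exp (u / 2) ≤ Real.exp ((|s| + 4 * Δ) / 2) := by
      apply Real.exp_le_exp.mpr
      have := hu.2
      have := le_abs_self s
      linarith
    calc _ ≤ 1 * Real.exp ((|s| + 4 * Δ) / 2) :=
          mul_le_mul h1 h2 (Real.exp_pos _).le zero_le_one
      _ = _ := one_mul _
  · rw [bmp_zero hδ hu, norm_zero, zero_mul]
    exact (Real.exp_pos _).le

variable (ω : Ultrafilter ℕ) (hω : (ω : Filter ℕ) ≤ atTop) (E : H →L[ℂ] H)

include hω in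
/-- Extension of the Grothendieck inequality to the domain of `exp(D/2)`. -/
theorem qf_of_halfExp (herg : S.Ergodic) {ε : ℝ} (hε : 0 ≤ ε)
    (H1 : ∀ a ∈ S.M, ‖E (a ξ)‖ ≤ ε * ‖a‖) {h y : H} (hy : S.D.HalfExp h y) :
    Gr.qf S ω E h ≤ 32 * ε ^ 2 * (‖h‖ ^ 2 + ‖y‖ ^ 2) := by
  have hmem : (h, S.J y) ∈ closure (Set.range fun a : S.M =>
      ((a : H →L[ℂ] H) ξ, star (a : H →L[ℂ] H) ξ)) := by
    rw [S.tomita]
    show S.D.HalfExp h (S.J (S.J y))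
    rw [S.J_J]
    exact hy
  have hη : ∀ η : ℝ, 0 < η → Gr.qf S ω E h ≤
      32 * ε ^ 2 * ((‖h‖ + η) ^ 2 + (‖y‖ + η) ^ 2) + 2 * ‖E‖ ^ 2 * η ^ 2 := by
    intro η hηpos
    obtain ⟨_, ⟨a, rfl⟩, hd⟩ := Metric.mem_closure_iff.mp hmem η hηpos
    rw [Prod.dist_eq, max_lt_iff] at hd
    obtain ⟨h1, h2⟩ := hd
    simp only at h1 h2
    rw [dist_eq_norm] at h1 h2
    have h3 : ‖(a : H →L[ℂ] H) ξ‖ ≤ ‖h‖ + η := by
      have := norm_sub_norm_le ((a : H →L[ℂ] H) ξ) h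
      rw [norm_sub_rev] at this
      linarith
    have h4 : ‖star (a : H →L[ℂ] H) ξ‖ ≤ ‖y‖ + η := by
      have := norm_sub_norm_le (star (a : H →L[ℂ] H) ξ) (S.J y)
      rw [LinearIsometryEquiv.norm_map, norm_sub_rev] at this
      linarith
    have h5 : Gr.qf S ω E ((a : H →L[ℂ] H) ξ) ≤ 16 * ε ^ 2 * Gr.Nn S (a : H →L[ℂ] H) :=
      Gr.groth S ω E hω herg hε H1 _ a.2
    have h6 : Gr.qf S ω E (h - (a : H →L[ℂ] H) ξ) ≤ ‖E‖ ^ 2 * η ^ 2 := by
      refine (Gr.qf_le_norm S ω E hω _).trans ?_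
      gcongr
    have h7 := Gr.qf_add_le S ω E ((a : H →L[ℂ] H) ξ) (h - (a : H →L[ℂ] H) ξ)
    rw [add_sub_cancel] at h7
    have h8 : Gr.Nn S (a : H →L[ℂ] H) ≤ (‖h‖ + η) ^ 2 + (‖y‖ + η) ^ 2 := by
      unfold Gr.Nn
      gcongr
    have h9 : 16 * ε ^ 2 * Gr.Nn S (a : H →L[ℂ] H) ≤ 16 * ε ^ 2 * ((‖h‖ + η) ^ 2 + (‖y‖ + η) ^ 2) := by
      gcongr
    linarith
  have hc : Continuous (fun η : ℝ => 32 * ε ^ 2 * ((‖h‖ + η) ^ 2 + (‖y‖ + η) ^ 2) + 2 * ‖E‖ ^ 2 * η ^ 2) := by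
    fun_prop
  have hlim : Tendsto (fun η : ℝ => 32 * ε ^ 2 * ((‖h‖ + η) ^ 2 + (‖y‖ + η) ^ 2) + 2 * ‖E‖ ^ 2 * η ^ 2)
      (𝓝[>] 0) (𝓝 (32 * ε ^ 2 * (‖h‖ ^ 2 + ‖y‖ ^ 2))) := by
    have := hc.tendsto 0
    simp only [add_zero, ne_eq, OfNat.ofNat_ne_zero, not_false_eq_true, zero_pow, mul_zero] at this
    exact this.mono_left nhdsWithin_le_nhds
  refine ge_of_tendsto hlim ?_
  filter_upwards [self_mem_nhdsWithin] with η hηpos using hη η hηpos

include hω in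
/-- The main construction at a fixed index. -/
theorem exists_v (herg : S.Ergodic) (T : H →L[ℂ] H) (s : ℝ) {δ Δ : ℝ} (hδ : 0 < δ) (hΔ : δ ≤ Δ)
    {h : H} (hh : ‖h‖ = 1) (hband : S.D.SupportedIn (Set.Icc (s - δ) (s + δ)) h) {c : ℝ} (hc : 0 < c)
    (hcn : c ≤ ultraMean ω (fun t : ℝ => ‖T (S.D.wave t h)‖ ^ 2)) :
    ∃ v : H →L[ℂ] H, v ∈ S.M ∧ ‖v‖ ≤ (∫ τ : ℝ, ‖g0 τ‖) ∧
      Real.sqrt (c / (64 * (1 + Real.exp ((|s| + 4 * Δ) / 2) ^ 2))) ≤ ‖T (v ξ)‖ ∧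
      S.D.SupportedIn (Set.Icc (s - 4 * δ) (s + 4 * δ)) (v ξ) := by
  set B := Real.exp ((|s| + 4 * Δ) / 2) with hB
  set ε₀ := Real.sqrt (c / (64 * (1 + B ^ 2))) with hε₀
  have hε₀0 : 0 ≤ ε₀ := Real.sqrt_nonneg _
  have hε₀sq : ε₀ ^ 2 = c / (64 * (1 + B ^ 2)) := Real.sq_sqrt (by positivity)
  set f := bmp s δ with hf
  have hfc : HasCompactSupport (f : ℝ → ℂ) := bmp_compact hδ
  set E : H →L[ℂ] H := T * S.D.apply f with hE
  have hfh : S.D.apply f h = h := apply_bmp_of_band S hδ hband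
  have hq : Gr.qf S ω E h = ultraMean ω (fun t : ℝ => ‖T (S.D.wave t h)‖ ^ 2) := by
    unfold Gr.qf
    congr 1
    funext t
    show ‖T (S.D.apply f (S.D.wave t h))‖ ^ 2 = _
    rw [apply_wave_comm, hfh]
  -- the failure of the bound
  have hfail : ∃ a ∈ S.M, ε₀ * ‖a‖ < ‖E (a ξ)‖ := by
    by_contra hcon
    push_neg at hcon
    have hy : S.D.HalfExp h (S.D.apply (MD.expHalfMul f hfc) h) := by
      have := MD.halfExp_of_cutoff S f hfc h
      rwa [hfh] at this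
    have h1 := qf_of_halfExp S ω hω E herg hε₀0 hcon hy
    have h2 : ‖S.D.apply (MD.expHalfMul f hfc) h‖ ≤ B := by
      refine (Calc.apply_apply_norm_le S.D _ h).trans ?_
      rw [hh, mul_one]
      exact norm_expHalf_le hδ hΔ
    have h3 : ‖S.D.apply (MD.expHalfMul f hfc) h‖ ^ 2 ≤ B ^ 2 := by gcongr
    rw [hq, hh, one_pow] at h1
    have h4 : 32 * ε₀ ^ 2 * (1 + ‖S.D.apply (MD.expHalfMul f hfc) h‖ ^ 2) ≤ 32 * ε₀ ^ 2 * (1 + B ^ 2) := by
      gcongr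
    have h5 : 32 * ε₀ ^ 2 * (1 + B ^ 2) = c / 2 := by
      rw [hε₀sq]
      field_simp
      ring
    linarith
  obtain ⟨a, ha, hlt⟩ := hfail
  have hane : ‖a‖ ≠ 0 := by
    intro h0
    have h1 : a = 0 := norm_eq_zero.mp h0
    rw [h1] at hlt
    simp at hlt
  have hapos : 0 < ‖a‖ := lt_of_le_of_ne (norm_nonneg _) (Ne.symm hane)
  set a' : H →L[ℂ] H := ((‖a‖⁻¹ : ℝ) : ℂ) • a with ha'
  have ha'M : a' ∈ S.M := S.M.toStarSubalgebra.smul_mem ha _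
  have ha'n : ‖a'‖ ≤ 1 := by
    rw [ha', norm_smul, Complex.norm_real, norm_inv, norm_norm, inv_mul_cancel₀ hane]
  have hE' : ε₀ < ‖E (a' ξ)‖ := by
    have h1 : E (a' ξ) = ((‖a‖⁻¹ : ℝ) : ℂ) • E (a ξ) := by
      rw [ha', ContinuousLinearMap.smul_apply, map_smul]
    rw [h1, norm_smul, Complex.norm_real, norm_inv, norm_norm, inv_mul_eq_div, lt_div_iff₀ hapos]
    exact hlt
  obtain ⟨v, hv, hvn, hvξ⟩ := exists_v_of_a S s hδ ha'M ha'n
  refine ⟨v, hv, hvn, ?_, ?_⟩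
  · rw [hvξ]
    exact hE'.le
  · rw [hvξ]
    exact supportedIn_bmp S s hδ _

end Fin

end Crest.Agent.H3
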