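import Crest.Agent.H3Groth3

/-! Helper for S0112: Fourier smoothing inside the von Neumann algebra. -/

set_option autoImplicit false

namespace Crest.Agent.H3

open Crest.OpAlg MeasureTheory Filter
open scoped InnerProductSpace Topology BoundedContinuousFunction ContDiff FourierTransform

variable {H : Type*} [NormedAddCommGroup H] [InnerProductSpace ℂ H] [CompleteSpace H]

namespace Four

/-- a smooth bump with integrable Fourier transform -/
lemma exists_bump : ∃ (f₀ g₀ : ℝ → ℂ), Continuous f₀ ∧ Integrable g₀ ∧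
    (∀ w, |w| ≤ 1 → f₀ w = 1) ∧ (∀ w, 4 ≤ |w| → f₀ w = 0) ∧ (∀ w, ‖f₀ w‖ ≤ 1) ∧
    (∀ w, f₀ w = ∫ τ : ℝ, Complex.exp ((((2 * Real.pi * (τ * w) : ℝ) : ℂ)) * Complex.I) * g₀ τ) := by
  let b : ContDiffBump (0 : ℝ) := ⟨1, 4, by norm_num, by norm_num⟩
  have hbs : ContDiff ℝ ∞ (fun w : ℝ => ((b w : ℝ) : ℂ)) :=
    Complex.ofRealCLM.contDiff.comp b.contDiff
  have hbc : HasCompactSupport (fun w : ℝ => ((b w : ℝ) : ℂ)) :=
    b.hasCompactSupport.comp_left Complex.ofReal_zero
  let F := hbc.toSchwartzMap hbs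
  have hF : ∀ w, F w = ((b w : ℝ) : ℂ) := fun w => rfl
  refine ⟨fun w => ((b w : ℝ) : ℂ), 𝓕 (F : ℝ → ℂ), hbs.continuous, ?_, ?_, ?_, ?_, ?_⟩
  · have : (𝓕 (F : ℝ → ℂ)) = ((𝓕 F : SchwartzMap ℝ ℂ) : ℝ → ℂ) := (SchwartzMap.fourier_coe F).symm
    rw [this]
    exact (𝓕 F).integrable
  · intro w hw
    have : w ∈ Metric.closedBall (0 : ℝ) b.rIn := by
      simpa [Metric.mem_closedBall, Real.dist_eq] using hw
    simp [b.one_of_mem_closedBall this]
  · intro w hw
    have : b.rOut ≤ dist w 0 := by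
      simpa [Real.dist_eq] using hw
    simp [b.zero_of_le_dist this]
  · intro w
    rw [Complex.norm_real, Real.norm_of_nonneg b.nonneg]
    exact b.le_one
  · intro w
    have h1 : 𝓕⁻ (𝓕 (F : ℝ → ℂ)) = (F : ℝ → ℂ) :=
      F.continuous.fourierInv_fourier_eq F.integrable (by
        have : (𝓕 (F : ℝ → ℂ)) = ((𝓕 F : SchwartzMap ℝ ℂ) : ℝ → ℂ) := (SchwartzMap.fourier_coe F).symm
        rw [this]
        exact (𝓕 F).integrable)
    have h2 := congrFun h1 w
    rw [Real.fourierInv_eq', hF] at h2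
    show ((b w : ℝ) : ℂ) = _
    rw [← h2]
    refine integral_congr_ae (ae_of_all _ (fun τ => ?_))
    simp only [smul_eq_mul, RCLike.inner_apply, conj_trivial]
    congr 3
    ring_nf

section general
variable {E : Type*} [NormedAddCommGroup E] [NormedSpace ℂ E]

lemma integrable_smul {G : ℝ → ℂ} (hG : Integrable G) {F : ℝ → E} (hF : Continuous F) {C : ℝ}
    (hC : ∀ t, ‖F t‖ ≤ C) : Integrable (fun t => G t • F t) := by
  refine (hG.norm.mul_const C).mono' (hG.aestronglyMeasurable.smul hF.aestronglyMeasurable)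
    (ae_of_all _ fun t => ?_)
  rw [norm_smul]
  gcongr
  exact hC t

end general

variable (D : LineCalculus H)

/-- the CLM `f ↦ f(D) x` -/
noncomputable def evalVec (x : H) : BoundedContinuousFunction ℝ ℂ →L[ℂ] H :=
  LinearMap.mkContinuous
    { toFun := fun f => D.apply f x
      map_add' := fun f g => by rw [map_add]; rfl
      map_smul' := fun c f => by rw [map_smul]; rfl } ‖x‖
    (fun f => by
      rw [mul_comm]
      exact Calc.apply_apply_norm_le D f x)

lemma evalVec_apply (x : H) (f : BoundedContinuousFunction ℝ ℂ) : evalVec D x f = D.apply f x := rfl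

lemma norm_character_le (t : ℝ) : ‖LineCalculus.character t‖ ≤ 1 := by
  refine (BoundedContinuousFunction.norm_le zero_le_one).mpr (fun u => ?_)
  simp only [Calc.character_apply]
  rw [Complex.norm_exp]
  simp

lemma continuous_char_mul (χ : BoundedContinuousFunction ℝ ℂ) (hχ : HasCompactSupport (χ : ℝ → ℂ))
    (c : ℝ) : Continuous (fun τ : ℝ => χ * LineCalculus.character (c * τ)) := by
  obtain ⟨R, hR⟩ := hχ.isCompact.isBounded.exists_norm_le
  set R' : ℝ := |R| + 1 with hR'def
  have hR'pos : 0 < R' := by positivity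
  have hlip : ∀ s t : ℝ, ‖χ * LineCalculus.character s - χ * LineCalculus.character t‖
      ≤ (R' * ‖χ‖) * |s - t| := by
    intro s t
    refine (BoundedContinuousFunction.norm_le (by positivity)).mpr (fun u => ?_)
    simp only [BoundedContinuousFunction.coe_sub, BoundedContinuousFunction.coe_mul, Pi.sub_apply,
      Pi.mul_apply]
    rw [← mul_sub, norm_mul]
    by_cases hu : u ∈ tsupport (χ : ℝ → ℂ)
    · have hu' : |u| ≤ R' := by
        have := hR u hu
        rw [Real.norm_eq_abs] at this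
        have h5 : R ≤ |R| := le_abs_self R
        linarith
      calc ‖χ u‖ * ‖LineCalculus.character s u - LineCalculus.character t u‖
          ≤ ‖χ‖ * (|s - t| * |u|) := by
            refine mul_le_mul (χ.norm_coe_le_norm u) (Calc.norm_character_sub_le s t u)
              (norm_nonneg _) (norm_nonneg _)
        _ ≤ ‖χ‖ * (|s - t| * R') := by gcongr
        _ = _ := by ring
    · have : (χ : ℝ → ℂ) u = 0 := image_eq_zero_of_notMem_tsupport hu
      rw [this]; simp; positivity
  have h1 : Continuous (fun s : ℝ => χ * LineCalculus.character s) := by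
    refine LipschitzWith.continuous (K := Real.toNNReal (R' * ‖χ‖)) ?_
    refine LipschitzWith.of_dist_le_mul (fun s t => ?_)
    rw [dist_eq_norm, Real.dist_eq, Real.coe_toNNReal _ (by positivity)]
    exact hlip s t
  exact h1.comp (continuous_const.mul continuous_id)

/-- Fourier formula for `f(D)`. -/
theorem apply_eq_integral {G : ℝ → ℂ} (hG : Integrable G) (c : ℝ)
    (f : BoundedContinuousFunction ℝ ℂ)
    (hf : ∀ u, f u = ∫ τ : ℝ, G τ * LineCalculus.character (c * τ) u) (x : H) :
    D.apply f x = ∫ τ : ℝ, G τ • D.wave (c * τ) x := by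
  have hint : Integrable (fun τ : ℝ => G τ • D.wave (c * τ) x) := by
    refine integrable_smul hG (C := ‖x‖) ?_ (fun t => ?_)
    · exact (Calc.continuous_wave D x).comp (continuous_const.mul continuous_id)
    · rw [Calc.norm_wave]
  have hz : D.apply f x - ∫ τ : ℝ, G τ • D.wave (c * τ) x = 0 := by
    apply Calc.eq_zero_of_cutoffs D
    intro χ hχ
    have hFint : Integrable (fun τ : ℝ => G τ • (χ * LineCalculus.character (c * τ))) := by
      refine integrable_smul hG (C := ‖χ‖) (continuous_char_mul χ hχ c) (fun t => ?_)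
      calc _ ≤ ‖χ‖ * ‖LineCalculus.character (c * t)‖ := norm_mul_le _ _
        _ ≤ ‖χ‖ * 1 := by gcongr; exact norm_character_le _
        _ = _ := mul_one _
    -- the Bochner integral in the algebra
    have hBC : (∫ τ : ℝ, G τ • (χ * LineCalculus.character (c * τ))) = χ * f := by
      ext u
      have h1 := (BoundedContinuousFunction.evalCLM ℂ u).integral_comp_comm hFint
      simp only [BoundedContinuousFunction.evalCLM_apply] at h1
      rw [← h1]
      simp only [BoundedContinuousFunction.coe_smul, BoundedContinuousFunction.coe_mul, Pi.mul_apply,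
        smul_eq_mul, hf u]
      rw [← integral_const_mul]
      refine integral_congr_ae (ae_of_all _ (fun τ => ?_))
      ring
    rw [map_sub, ← ContinuousLinearMap.integral_comp_comm _ hint]
    have h2 : ∫ τ : ℝ, (D.apply χ) (G τ • D.wave (c * τ) x)
        = ∫ τ : ℝ, evalVec D x (G τ • (χ * LineCalculus.character (c * τ))) := by
      refine integral_congr_ae (ae_of_all _ (fun τ => ?_))
      show (D.apply χ) (G τ • (D.wave (c * τ)) x) = evalVec D x (G τ • (χ * LineCalculus.character (c * τ)))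
      rw [map_smul, map_smul, evalVec_apply, map_mul]
      rfl
    rw [h2, (evalVec D x).integral_comp_comm hFint, hBC, evalVec_apply, map_mul]
    simp
  exact sub_eq_zero.mp hz

variable (S : ModularDatum H)

local notation "ξ" => S.vac

/-- continuity of the conjugation -/
lemma continuous_flow_apply (a : H →L[ℂ] H) (c : ℝ) (z : H) :
    Continuous (fun τ : ℝ => S.D.wave (c * τ) (a (S.D.wave (-(c * τ)) z))) := by
  rw [continuous_iff_continuousAt]
  intro τ₀
  have hc : ∀ y : H, Continuous (fun τ : ℝ => S.D.wave (c * τ) y) := fun y =>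
    (Calc.continuous_wave S.D y).comp (continuous_const.mul continuous_id)
  have hc' : Continuous (fun τ : ℝ => S.D.wave (-(c * τ)) z) :=
    (Calc.continuous_wave S.D z).comp (continuous_const.mul continuous_id).neg
  set y₀ := a (S.D.wave (-(c * τ₀)) z) with hy₀
  have h1 : Tendsto (fun τ : ℝ => S.D.wave (c * τ) y₀) (𝓝 τ₀) (𝓝 (S.D.wave (c * τ₀) y₀)) :=
    (hc y₀).tendsto τ₀
  have h2 : Tendsto (fun τ : ℝ => S.D.wave (c * τ) (a (S.D.wave (-(c * τ)) z)) - S.D.wave (c * τ) y₀)
      (𝓝 τ₀) (𝓝 0) := by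
    rw [tendsto_zero_iff_norm_tendsto_zero]
    have h3 : ∀ τ : ℝ, ‖S.D.wave (c * τ) (a (S.D.wave (-(c * τ)) z)) - S.D.wave (c * τ) y₀‖
        = ‖a (S.D.wave (-(c * τ)) z) - y₀‖ := by
      intro τ
      rw [← map_sub, Calc.norm_wave]
    simp only [h3]
    have h4 : Continuous (fun τ : ℝ => ‖a (S.D.wave (-(c * τ)) z) - y₀‖) := by
      exact ((a.continuous.comp hc').sub continuous_const).norm
    have h5 := h4.tendsto τ₀
    simpa [hy₀] using h5
  have h3 := h2.add h1
  simp only [sub_add_cancel, zero_add] at h3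
  exact h3

/-- Fourier averaging of an element of `M` along the modular flow. -/
theorem exists_smoothed {G : ℝ → ℂ} (hG : Integrable G) (c : ℝ)
    (f : BoundedContinuousFunction ℝ ℂ)
    (hf : ∀ u, f u = ∫ τ : ℝ, G τ * LineCalculus.character (c * τ) u)
    {a : H →L[ℂ] H} (ha : a ∈ S.M) :
    ∃ v : H →L[ℂ] H, v ∈ S.M ∧ ‖v‖ ≤ (∫ τ : ℝ, ‖G τ‖) * ‖a‖ ∧ v ξ = S.D.apply f (a ξ) := by
  have hint : ∀ z : H, Integrable (fun τ : ℝ => G τ • S.D.wave (c * τ) (a (S.D.wave (-(c * τ)) z))) := by
    intro z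
    refine integrable_smul hG (C := ‖a‖ * ‖z‖) (continuous_flow_apply S a c z) (fun t => ?_)
    rw [Calc.norm_wave]
    refine (a.le_opNorm _).trans_eq ?_
    rw [Calc.norm_wave]
  let L : H →ₗ[ℂ] H :=
    { toFun := fun z => ∫ τ : ℝ, G τ • S.D.wave (c * τ) (a (S.D.wave (-(c * τ)) z))
      map_add' := fun x y => by
        rw [← integral_add (hint x) (hint y)]
        refine integral_congr_ae (ae_of_all _ (fun τ => ?_))
        simp only [map_add, smul_add]
      map_smul' := fun r x => by
        simp only [RingHom.id_apply]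
        rw [← integral_smul]
        refine integral_congr_ae (ae_of_all _ (fun τ => ?_))
        simp only [map_smul]
        rw [smul_comm] }
  have hL : ∀ z, ‖L z‖ ≤ ((∫ τ : ℝ, ‖G τ‖) * ‖a‖) * ‖z‖ := by
    intro z
    show ‖∫ τ : ℝ, G τ • S.D.wave (c * τ) (a (S.D.wave (-(c * τ)) z))‖ ≤ _
    have h1 : ∀ τ : ℝ, ‖G τ • S.D.wave (c * τ) (a (S.D.wave (-(c * τ)) z))‖ ≤ ‖G τ‖ * (‖a‖ * ‖z‖) := by
      intro τ
      rw [norm_smul, Calc.norm_wave]
      gcongr
      refine (a.le_opNorm _).trans_eq ?_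
      rw [Calc.norm_wave]
    refine (norm_integral_le_of_norm_le (hG.norm.mul_const (‖a‖ * ‖z‖)) (ae_of_all _ h1)).trans_eq ?_
    rw [integral_mul_const]
    ring
  have hI0 : 0 ≤ ∫ τ : ℝ, ‖G τ‖ := integral_nonneg (fun τ => norm_nonneg _)
  let v : H →L[ℂ] H := L.mkContinuous _ hL
  have hvz : ∀ z, v z = ∫ τ : ℝ, G τ • S.D.wave (c * τ) (a (S.D.wave (-(c * τ)) z)) := fun z => rfl
  refine ⟨v, ?_, ?_, ?_⟩
  · refine MD.mem_M_of_comm S (fun b hb => ?_)
    ext z
    show b (v z) = v (b z)
    rw [hvz, hvz, ← b.integral_comp_comm (hint z)]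
    refine integral_congr_ae (ae_of_all _ (fun τ => ?_))
    show b (G τ • S.D.wave (c * τ) (a (S.D.wave (-(c * τ)) z))) =
      G τ • S.D.wave (c * τ) (a (S.D.wave (-(c * τ)) (b z)))
    rw [map_smul]
    congr 1
    have h := MD.comm_apply S (S.flow_mem (c * τ) a ha) hb z
    exact h.symm
  · exact L.mkContinuous_norm_le (mul_nonneg hI0 (norm_nonneg _)) hL
  · rw [hvz, apply_eq_integral S.D hG c f hf]
    refine integral_congr_ae (ae_of_all _ (fun τ => ?_))
    show G τ • S.D.wave (c * τ) (a (S.D.wave (-(c * τ)) ξ)) = _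
    rw [MD.wave_vac]

end Four

end Crest.Agent.H3
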