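import Crest.Agent.H3Mean

/-! Helper for S0112: an in-situ little Grothendieck inequality for the modular flow. -/

set_option autoImplicit false

namespace Crest.Agent.H3

open Crest.OpAlg MeasureTheory Filter
open scoped InnerProductSpace Topology BoundedContinuousFunction ComplexConjugate

variable {H : Type*} [NormedAddCommGroup H] [InnerProductSpace ℂ H] [CompleteSpace H]

/-! ### cube roots of unity -/

/-- a primitive cube root of unity -/
noncomputable def zt : ℂ := Complex.exp (2 * Real.pi * Complex.I / (3 : ℕ))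

lemma zt_prim : IsPrimitiveRoot zt 3 := Complex.isPrimitiveRoot_exp 3 (by norm_num)

lemma zt_sum : 1 + zt + zt ^ 2 = 0 := by
  have := zt_prim.geom_sum_eq_zero (by norm_num)
  simpa [Finset.sum_range_succ] using this

lemma zt_cube : zt ^ 3 = 1 := zt_prim.pow_eq_one

lemma zt_norm : ‖zt‖ = 1 := by
  have h : ‖zt‖ ^ 3 = 1 := by rw [← norm_pow, zt_cube, norm_one]
  exact (pow_eq_one_iff_of_nonneg (norm_nonneg _) (by norm_num)).mp h

lemma zt_conj : conj zt = zt ^ 2 := by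
  have h1 : conj zt * zt = 1 := by
    rw [mul_comm, Complex.mul_conj, Complex.normSq_eq_norm_sq, zt_norm]; simp
  have h2 : zt ≠ 0 := by
    intro h
    have h' := zt_norm
    rw [h] at h'
    simp at h'
  have h3 : conj zt = zt⁻¹ := eq_inv_of_mul_eq_one_left h1
  rw [h3]
  field_simp
  rw [← zt_cube]

/-- three unit phases -/
noncomputable def ph : Fin 3 → ℂ := ![1, zt, zt ^ 2]

lemma ph_mul_conj (i : Fin 3) : ph i * conj (ph i) = 1 := by
  have : ‖ph i‖ = 1 := by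
    fin_cases i <;> simp [ph, zt_norm]
  rw [Complex.mul_conj, Complex.normSq_eq_norm_sq, this]; simp

lemma sum_ph : ∑ i, ph i = 0 := by
  rw [Fin.sum_univ_three]
  simpa [ph] using zt_sum

lemma sum_ph_conj : ∑ i, conj (ph i) = 0 := by
  rw [← map_sum, sum_ph, map_zero]

lemma sum_ph_sq : ∑ i, ph i ^ 2 = 0 := by
  rw [Fin.sum_univ_three]
  have h4 : zt ^ 4 = zt := by
    calc zt ^ 4 = zt ^ 3 * zt := by ring
      _ = zt := by rw [zt_cube, one_mul]
  have : ph 0 ^ 2 + ph 1 ^ 2 + ph 2 ^ 2 = 1 + zt ^ 2 + zt ^ 4 := by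
    simp [ph]
    ring
  rw [this, h4]
  linear_combination zt_sum

lemma sum_ph_conj_sq : ∑ i, (conj (ph i)) ^ 2 = 0 := by
  have : ∑ i, (conj (ph i)) ^ 2 = conj (∑ i, ph i ^ 2) := by
    simp [map_sum, map_pow]
  rw [this, sum_ph_sq, map_zero]

omit [CompleteSpace H] in
/-- The Hilbert space identity for three phases. -/
lemma sum_norm_phase (p q r : H) :
    ∑ i, ‖p + ph i • q + conj (ph i) • r‖ ^ 2 = 3 * (‖p‖ ^ 2 + ‖q‖ ^ 2 + ‖r‖ ^ 2) := by
  have hterm : ∀ i, ⟪p + ph i • q + conj (ph i) • r, p + ph i • q + conj (ph i) • r⟫_ℂ =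
      ⟪p, p⟫_ℂ + ⟪q, q⟫_ℂ + ⟪r, r⟫_ℂ + ph i * (⟪p, q⟫_ℂ + ⟪r, p⟫_ℂ)
        + conj (ph i) * (⟪p, r⟫_ℂ + ⟪q, p⟫_ℂ) + (conj (ph i)) ^ 2 * ⟪q, r⟫_ℂ + (ph i) ^ 2 * ⟪r, q⟫_ℂ := by
    intro i
    have h1 := ph_mul_conj i
    simp only [inner_add_left, inner_add_right, inner_smul_left, inner_smul_right, Complex.conj_conj]
    linear_combination (⟪q, q⟫_ℂ + ⟪r, r⟫_ℂ) * h1
  have hsum : ∑ i, ⟪p + ph i • q + conj (ph i) • r, p + ph i • q + conj (ph i) • r⟫_ℂ =
      3 * (⟪p, p⟫_ℂ + ⟪q, q⟫_ℂ + ⟪r, r⟫_ℂ) := by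
    simp only [hterm]
    have h0 := sum_ph
    have h1 := sum_ph_conj
    have h2 := sum_ph_sq
    have h3 := sum_ph_conj_sq
    rw [Fin.sum_univ_three] at h0 h1 h2 h3 ⊢
    linear_combination (⟪p, q⟫_ℂ + ⟪r, p⟫_ℂ) * h0 + (⟪p, r⟫_ℂ + ⟪q, p⟫_ℂ) * h1 + ⟪r, q⟫_ℂ * h2
      + ⟪q, r⟫_ℂ * h3
  have hre : ∀ x : H, ‖x‖ ^ 2 = (⟪x, x⟫_ℂ).re := by
    intro x
    rw [inner_self_eq_norm_sq_to_K]
    norm_cast
  simp only [hre]
  rw [← Complex.re_sum, hsum]
  simp [Complex.add_re, Complex.mul_re]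

omit [CompleteSpace H] in
lemma sum_norm_phase₂ (u w : H) :
    ∑ i, ‖u + ph i • w‖ ^ 2 = 3 * (‖u‖ ^ 2 + ‖w‖ ^ 2) := by
  have := sum_norm_phase u w 0
  simpa using this

/-! ### the mean quadratic form -/

namespace Gr

variable (S : ModularDatum H) (ω : Ultrafilter ℕ) (E : H →L[ℂ] H)

local notation "ξ" => S.vac

/-- The mean quadratic form. -/
noncomputable def qf (x : H) : ℝ := ultraMean ω (fun t => ‖E (S.D.wave t x)‖ ^ 2)

lemma bc (x : H) : Mean.BC (fun t => ‖E (S.D.wave t x)‖ ^ 2) := by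
  refine ⟨((E.continuous.comp (Calc.continuous_wave S.D x)).norm).pow 2, (‖E‖ * ‖x‖) ^ 2, fun t => ?_⟩
  show |‖E (S.D.wave t x)‖ ^ 2| ≤ _
  rw [abs_of_nonneg (by positivity)]
  gcongr
  calc _ ≤ ‖E‖ * ‖S.D.wave t x‖ := E.le_opNorm _
    _ = _ := by rw [Calc.norm_wave]

variable (hω : (ω : Filter ℕ) ≤ atTop)

include hω

lemma qf_nonneg (x : H) : 0 ≤ qf S ω E x :=
  Mean.ultraMean_nonneg ω (bc S E x) (fun _ => by positivity) hω

lemma qf_le_of_forall {x : H} {B : ℝ} (h : ∀ t, ‖E (S.D.wave t x)‖ ^ 2 ≤ B) : qf S ω E x ≤ B :=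
  Mean.ultraMean_le_of_le ω (bc S E x) h hω

lemma qf_le_norm (x : H) : qf S ω E x ≤ ‖E‖ ^ 2 * ‖x‖ ^ 2 := by
  refine qf_le_of_forall S ω E hω (fun t => ?_)
  rw [← mul_pow]
  gcongr
  calc _ ≤ ‖E‖ * ‖S.D.wave t x‖ := E.le_opNorm _
    _ = _ := by rw [Calc.norm_wave]

lemma qf_wave (s : ℝ) (x : H) : qf S ω E (S.D.wave s x) = qf S ω E x := by
  unfold qf
  have h := Mean.ultraMean_shift ω (bc S E x) s hω
  rw [← h]
  congr 1
  funext t
  rw [Calc.wave_add_apply]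

omit hω in
lemma qf_add_le (x y : H) : qf S ω E (x + y) ≤ 2 * qf S ω E x + 2 * qf S ω E y := by
  unfold qf
  rw [← Mean.ultraMean_smul ω (bc S E x), ← Mean.ultraMean_smul ω (bc S E y),
    ← Mean.ultraMean_add ω ((bc S E x).smul 2) ((bc S E y).smul 2)]
  refine Mean.ultraMean_mono ω (bc S E _) (((bc S E x).smul 2).add ((bc S E y).smul 2)) (fun t => ?_)
  rw [map_add, map_add]
  have := norm_add_le (E (S.D.wave t x)) (E (S.D.wave t y))
  nlinarith [sq_nonneg (‖E (S.D.wave t x)‖ - ‖E (S.D.wave t y)‖), norm_nonneg (E (S.D.wave t x) + E (S.D.wave t y))]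

omit hω in
lemma qf_smul (c : ℂ) (x : H) : qf S ω E (c • x) = ‖c‖ ^ 2 * qf S ω E x := by
  unfold qf
  rw [← Mean.ultraMean_smul ω (bc S E x)]
  congr 1
  funext t
  rw [map_smul, map_smul, norm_smul, mul_pow]

omit hω in
lemma qf_zero : qf S ω E 0 = 0 := by
  have := qf_smul S ω E 0 0
  simpa using this

omit hω in
lemma qf_phase (u w : H) :
    ∑ i, qf S ω E (u + ph i • w) = 3 * qf S ω E u + 3 * qf S ω E w := by
  unfold qf
  rw [Fin.sum_univ_three, ← Mean.ultraMean_add ω (bc S E _) (bc S E _),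
    ← Mean.ultraMean_add ω ((bc S E _).add (bc S E _)) (bc S E _),
    ← Mean.ultraMean_smul ω (bc S E u), ← Mean.ultraMean_smul ω (bc S E w),
    ← Mean.ultraMean_add ω ((bc S E u).smul 3) ((bc S E w).smul 3)]
  congr 1
  funext t
  have := sum_norm_phase₂ (E (S.D.wave t u)) (E (S.D.wave t w))
  rw [Fin.sum_univ_three] at this
  simp only [map_add, map_smul]
  linarith

end Gr

end Crest.Agent.H3
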