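import Crest.Agent.H3Groth

/-! Helper for S0112: doubling, flatness. -/

set_option autoImplicit false

namespace Crest.Agent.H3

open Crest.OpAlg MeasureTheory Filter
open scoped InnerProductSpace Topology BoundedContinuousFunction ComplexConjugate

variable {H : Type*} [NormedAddCommGroup H] [InnerProductSpace ℂ H] [CompleteSpace H]

namespace Gr

variable (S : ModularDatum H)

local notation "ξ" => S.vac

/-- `‖bξ‖² + ‖b⋆ξ‖²` -/
noncomputable def Nn (b : H →L[ℂ] H) : ℝ := ‖b ξ‖ ^ 2 + ‖star b ξ‖ ^ 2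

/-- `‖b⋆bξ‖² + ‖bb⋆ξ‖²` -/
noncomputable def Mm (b : H →L[ℂ] H) : ℝ := ‖(star b * b) ξ‖ ^ 2 + ‖(b * star b) ξ‖ ^ 2

lemma Nn_nonneg (b : H →L[ℂ] H) : 0 ≤ Nn S b := by unfold Nn; positivity
lemma Mm_nonneg (b : H →L[ℂ] H) : 0 ≤ Mm S b := by unfold Mm; positivity

lemma star_flow (t : ℝ) (a : H →L[ℂ] H) : star (S.flow t a) = S.flow t (star a) := by
  show star (S.D.wave t * a * S.D.wave (-t)) = S.D.wave t * star a * S.D.wave (-t)
  rw [star_mul, star_mul, Calc.star_wave, Calc.star_wave, neg_neg, mul_assoc]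

lemma flow_mul (t : ℝ) (a c : H →L[ℂ] H) : S.flow t (a * c) = S.flow t a * S.flow t c := by
  show S.D.wave t * (a * c) * S.D.wave (-t) =
    (S.D.wave t * a * S.D.wave (-t)) * (S.D.wave t * c * S.D.wave (-t))
  calc S.D.wave t * (a * c) * S.D.wave (-t)
      = S.D.wave t * a * 1 * c * S.D.wave (-t) := by simp [mul_assoc]
    _ = S.D.wave t * a * (S.D.wave (-t) * S.D.wave t) * c * S.D.wave (-t) := by
        rw [Calc.wave_neg_mul]
    _ = _ := by simp only [mul_assoc]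

lemma flow_vac (t : ℝ) (a : H →L[ℂ] H) : S.flow t a ξ = S.D.wave t (a ξ) := MD.flow_apply_vac S t a

/-- the doubled element -/
noncomputable def dbl (b : H →L[ℂ] H) (t : ℝ) (i : Fin 3) : H →L[ℂ] H := b + ph i • S.flow t b

lemma dbl_mem {b : H →L[ℂ] H} (hb : b ∈ S.M) (t : ℝ) (i : Fin 3) : dbl S b t i ∈ S.M :=
  add_mem hb (S.M.toStarSubalgebra.smul_mem (S.flow_mem t b hb) _)

lemma star_dbl (b : H →L[ℂ] H) (t : ℝ) (i : Fin 3) :
    star (dbl S b t i) = star b + conj (ph i) • S.flow t (star b) := by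
  unfold dbl
  rw [star_add, star_smul, star_flow]
  rfl

variable (ω : Ultrafilter ℕ) (E : H →L[ℂ] H) (hω : (ω : Filter ℕ) ≤ atTop)

include hω in
lemma sum_qf_dbl (b : H →L[ℂ] H) (t : ℝ) :
    ∑ i, qf S ω E (dbl S b t i ξ) = 6 * qf S ω E (b ξ) := by
  have h : ∀ i, dbl S b t i ξ = b ξ + ph i • S.D.wave t (b ξ) := by
    intro i
    show b ξ + ph i • S.flow t b ξ = _
    rw [flow_vac]
  simp only [h]
  rw [qf_phase, qf_wave S ω E hω]
  ring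

lemma sum_Nn_dbl (b : H →L[ℂ] H) (t : ℝ) :
    ∑ i, Nn S (dbl S b t i) = 6 * Nn S b := by
  have h : ∀ i, dbl S b t i ξ = b ξ + ph i • S.D.wave t (b ξ) + conj (ph i) • (0 : H) := by
    intro i
    rw [smul_zero, add_zero]
    show b ξ + ph i • S.flow t b ξ = _
    rw [flow_vac]
  have h' : ∀ i, star (dbl S b t i) ξ = star b ξ + ph i • (0 : H) + conj (ph i) • S.D.wave t (star b ξ) := by
    intro i
    rw [star_dbl, smul_zero, add_zero]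
    show star b ξ + conj (ph i) • S.flow t (star b) ξ = _
    rw [flow_vac]
  unfold Nn
  rw [Finset.sum_add_distrib]
  simp only [h, h']
  rw [sum_norm_phase, sum_norm_phase, Calc.norm_wave, Calc.norm_wave]
  simp only [norm_zero]
  ring

/-- the error term in the doubling formula for `Mm` -/
noncomputable def F0 (b : H →L[ℂ] H) (t : ℝ) : ℝ :=
  (1 / 2) * (⟪(star b * b) ξ, S.D.wave t ((star b * b) ξ)⟫_ℂ).re
    + (1 / 2) * (⟪(b * star b) ξ, S.D.wave t ((b * star b) ξ)⟫_ℂ).re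
    + (1 / 4) * (‖star b (S.D.wave t (b ξ))‖ ^ 2 + ‖S.flow t (star b) (b ξ)‖ ^ 2
        + ‖S.flow t b (star b ξ)‖ ^ 2 + ‖b (S.D.wave t (star b ξ))‖ ^ 2)

omit [CompleteSpace H] in
lemma norm_add_self_sq (x y : H) (h : ‖y‖ = ‖x‖) :
    ‖x + y‖ ^ 2 = 2 * ‖x‖ ^ 2 + 2 * (⟪x, y⟫_ℂ).re := by
  have := norm_add_sq (𝕜 := ℂ) x y
  rw [h] at this
  rw [this]
  simp only [RCLike.re_to_complex]
  ring

lemma sum_Mm_dbl (b : H →L[ℂ] H) (t : ℝ) :
    ∑ i, Mm S (dbl S b t i) = 3 * (2 * Mm S b + 4 * F0 S b t) := by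
  set a := S.flow t b with ha
  set a' := S.flow t (star b) with ha'
  have haa' : a' = star a := (star_flow S t b).symm
  have h1 : ∀ i, (star (dbl S b t i) * dbl S b t i) ξ =
      ((star b * b) ξ + S.D.wave t ((star b * b) ξ)) + ph i • star b (S.D.wave t (b ξ))
        + conj (ph i) • a' (b ξ) := by
    intro i
    have hm : star (dbl S b t i) * dbl S b t i =
        star b * b + a' * a + ph i • (star b * a) + conj (ph i) • (a' * b) := by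
      rw [star_dbl]
      unfold dbl
      rw [← ha, ← ha']
      have h0 := ph_mul_conj i
      have h0' : conj (ph i) * ph i = 1 := by rw [mul_comm]; exact h0
      simp only [add_mul, mul_add, smul_mul_assoc, mul_smul_comm, smul_add, smul_smul, h0, h0', one_smul]
      abel
    have h2 : (a' * a) ξ = S.D.wave t ((star b * b) ξ) := by
      rw [ha', ha, ← flow_mul, flow_vac]
    have h3 : (star b * a) ξ = star b (S.D.wave t (b ξ)) := by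
      show star b (a ξ) = _
      rw [ha, flow_vac]
    rw [hm]
    simp only [ContinuousLinearMap.add_apply, ContinuousLinearMap.smul_apply]
    rw [h2, h3]
    rfl
  have h2 : ∀ i, (dbl S b t i * star (dbl S b t i)) ξ =
      ((b * star b) ξ + S.D.wave t ((b * star b) ξ)) + ph i • a (star b ξ)
        + conj (ph i) • b (S.D.wave t (star b ξ)) := by
    intro i
    have hm : dbl S b t i * star (dbl S b t i) =
        b * star b + a * a' + ph i • (a * star b) + conj (ph i) • (b * a') := by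
      rw [star_dbl]
      unfold dbl
      rw [← ha, ← ha']
      have h0 := ph_mul_conj i
      have h0' : conj (ph i) * ph i = 1 := by rw [mul_comm]; exact h0
      simp only [add_mul, mul_add, smul_mul_assoc, mul_smul_comm, smul_add, smul_smul, h0, h0', one_smul]
      abel
    have h3 : (a * a') ξ = S.D.wave t ((b * star b) ξ) := by
      rw [ha', ha, ← flow_mul, flow_vac]
    have h4 : (b * a') ξ = b (S.D.wave t (star b ξ)) := by
      show b (a' ξ) = _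
      rw [ha', flow_vac]
    rw [hm]
    simp only [ContinuousLinearMap.add_apply, ContinuousLinearMap.smul_apply]
    rw [h3, h4]
    rfl
  unfold Mm
  rw [Finset.sum_add_distrib]
  simp only [h1, h2]
  rw [sum_norm_phase, sum_norm_phase, norm_add_self_sq _ _ (Calc.norm_wave _ _ _),
    norm_add_self_sq _ _ (Calc.norm_wave _ _ _)]
  unfold F0
  rw [← ha, ← ha']
  ring

/-! ### Norm computations for the four error terms -/

omit [CompleteSpace H] in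
lemma norm_sq_eq_re (x : H) : ‖x‖ ^ 2 = (⟪x, x⟫_ℂ).re := by
  rw [inner_self_eq_norm_sq_to_K]
  norm_cast

lemma inner_star_left (a : H →L[ℂ] H) (x y : H) : ⟪star a x, y⟫_ℂ = ⟪x, a y⟫_ℂ := by
  rw [ContinuousLinearMap.star_eq_adjoint, ContinuousLinearMap.adjoint_inner_left]

lemma inner_star_right (a : H →L[ℂ] H) (x y : H) : ⟪x, star a y⟫_ℂ = ⟪a x, y⟫_ℂ := by
  rw [ContinuousLinearMap.star_eq_adjoint, ContinuousLinearMap.adjoint_inner_right]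

lemma normSq_star_apply (a : H →L[ℂ] H) (u : H) : ‖star a u‖ ^ 2 = (⟪u, (a * star a) u⟫_ℂ).re := by
  rw [norm_sq_eq_re, inner_star_left]
  rfl

lemma normSq_apply (a : H →L[ℂ] H) (u : H) : ‖a u‖ ^ 2 = (⟪u, (star a * a) u⟫_ℂ).re := by
  rw [norm_sq_eq_re, ← inner_star_right]
  rfl

/-- `‖b⋆ W_t u‖² = ⟨u, σ_{-t}(bb⋆) u⟩` -/
lemma err1 (a : H →L[ℂ] H) (t : ℝ) (u : H) :
    ‖star a (S.D.wave t u)‖ ^ 2 = (⟪u, S.flow (-t) (a * star a) u⟫_ℂ).re := by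
  rw [normSq_star_apply]
  congr 1
  show _ = ⟪u, S.D.wave (-t) ((a * star a) (S.D.wave (- -t) u))⟫_ℂ
  rw [neg_neg, Calc.inner_wave_left S.D t u]

/-- `‖σ_t(b⋆) u‖² = ⟨u, σ_t(bb⋆) u⟩` -/
lemma err2 (a : H →L[ℂ] H) (t : ℝ) (u : H) :
    ‖S.flow t (star a) u‖ ^ 2 = (⟪u, S.flow t (a * star a) u⟫_ℂ).re := by
  rw [← star_flow, normSq_star_apply, flow_mul, star_flow]

/-- `‖σ_t(b) u‖² = ⟨u, σ_t(b⋆b) u⟩` -/
lemma err3 (a : H →L[ℂ] H) (t : ℝ) (u : H) :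
    ‖S.flow t a u‖ ^ 2 = (⟪u, S.flow t (star a * a) u⟫_ℂ).re := by
  rw [normSq_apply, flow_mul, star_flow]

/-- `‖b W_t u‖² = ⟨u, σ_{-t}(b⋆b) u⟩` -/
lemma err4 (a : H →L[ℂ] H) (t : ℝ) (u : H) :
    ‖a (S.D.wave t u)‖ ^ 2 = (⟪u, S.flow (-t) (star a * a) u⟫_ℂ).re := by
  rw [normSq_apply]
  congr 1
  show _ = ⟪u, S.D.wave (-t) ((star a * a) (S.D.wave (- -t) u))⟫_ℂ
  rw [neg_neg, Calc.inner_wave_left S.D t u]

/-- Comparison with a matrix coefficient of the unitary group on `yξ`. -/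
lemma exists_r {y : H →L[ℂ] H} (hy : y ∈ S.M) (u : H) (θ : ℝ) (hθ : 0 < θ) :
    ∃ (r : H) (ρ : ℝ), (∀ t, (⟪u, S.flow t y u⟫_ℂ).re ≤ (⟪r, S.D.wave t (y ξ)⟫_ℂ).re + θ) ∧
      ⟪r, ξ⟫_ℂ = (ρ : ℂ) ∧ 0 ≤ ρ ∧ ρ ≤ ‖u‖ ^ 2 + θ := by
  set C : ℝ := (‖y‖ + 1) * (2 * ‖u‖ + 1) with hC
  have hCpos : 0 < C := by positivity
  set η : ℝ := min 1 (θ / C) with hη
  have hηpos : 0 < η := lt_min one_pos (by positivity)
  have hη1 : η ≤ 1 := min_le_left _ _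
  have hηC : η * C ≤ θ := by
    have : η ≤ θ / C := min_le_right _ _
    calc η * C ≤ θ / C * C := by gcongr
      _ = θ := by field_simp
  obtain ⟨b', hb', hbu⟩ := MD.commutant_cyclic S u η hηpos
  set u₁ := b' ξ with hu₁
  have hn1 : ‖u₁‖ ≤ ‖u‖ + η := by
    have := norm_sub_norm_le u₁ u
    linarith
  refine ⟨star b' u₁, ‖u₁‖ ^ 2, ?_, ?_, by positivity, ?_⟩
  · intro t
    set Y := S.flow t y with hY
    have hYM : Y ∈ S.M := S.flow_mem t y hy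
    have hYn : ‖Y‖ ≤ ‖y‖ := MD.norm_flow_le S t y
    have h1 : ⟪star b' u₁, S.D.wave t (y ξ)⟫_ℂ = ⟪u₁, Y u₁⟫_ℂ := by
      rw [inner_star_left, ← flow_vac, hu₁]
      congr 1
      exact (MD.comm_apply S hYM hb' ξ).symm
    rw [h1]
    have h2 : ⟪u, Y u⟫_ℂ - ⟪u₁, Y u₁⟫_ℂ = ⟪u - u₁, Y u⟫_ℂ + ⟪u₁, Y (u - u₁)⟫_ℂ := by
      rw [inner_sub_left, map_sub, inner_sub_right]
      ring
    have h3 : ‖⟪u - u₁, Y u⟫_ℂ‖ ≤ η * (‖y‖ * ‖u‖) := by
      refine (norm_inner_le_norm _ _).trans ?_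
      have : ‖u - u₁‖ ≤ η := by rw [norm_sub_rev]; exact hbu.le
      have h4 : ‖Y u‖ ≤ ‖y‖ * ‖u‖ := (Y.le_opNorm u).trans (by gcongr)
      gcongr
    have h5 : ‖⟪u₁, Y (u - u₁)⟫_ℂ‖ ≤ (‖u‖ + 1) * (‖y‖ * η) := by
      refine (norm_inner_le_norm _ _).trans ?_
      have : ‖u - u₁‖ ≤ η := by rw [norm_sub_rev]; exact hbu.le
      have h4 : ‖Y (u - u₁)‖ ≤ ‖y‖ * η :=
        (Y.le_opNorm _).trans (by gcongr)
      have h6 : ‖u₁‖ ≤ ‖u‖ + 1 := by linarith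
      gcongr
    have h7 : (⟪u, Y u⟫_ℂ).re - (⟪u₁, Y u₁⟫_ℂ).re ≤ η * C := by
      rw [← Complex.sub_re, h2]
      refine (Complex.re_le_norm _).trans ?_
      refine (norm_add_le _ _).trans ?_
      have : η * (‖y‖ * ‖u‖) + (‖u‖ + 1) * (‖y‖ * η) ≤ η * C := by
        rw [hC]
        have h8 : 0 ≤ η * (‖y‖ + 1) := by positivity
        nlinarith [norm_nonneg y, norm_nonneg u, mul_nonneg hηpos.le (norm_nonneg y),
          mul_nonneg (mul_nonneg hηpos.le (norm_nonneg y)) (norm_nonneg u),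
          mul_nonneg hηpos.le (norm_nonneg u)]
      linarith
    linarith
  · rw [inner_star_left, ← hu₁, inner_self_eq_norm_sq_to_K]
    norm_cast
  · have h1 : ‖u₁‖ ^ 2 ≤ (‖u‖ + η) ^ 2 := by gcongr
    have h2 : (‖u‖ + η) ^ 2 ≤ ‖u‖ ^ 2 + η * C := by
      rw [hC]
      nlinarith [norm_nonneg u, norm_nonneg y, mul_nonneg hηpos.le (norm_nonneg u),
        mul_nonneg hηpos.le (norm_nonneg y),
        mul_nonneg (mul_nonneg hηpos.le (norm_nonneg y)) (norm_nonneg u),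
        mul_le_mul_of_nonneg_left hη1 hηpos.le]
    linarith

lemma inner_vac_star_mul (b : H →L[ℂ] H) : ⟪ξ, (star b * b) ξ⟫_ℂ = ((‖b ξ‖ ^ 2 : ℝ) : ℂ) := by
  show ⟪ξ, star b (b ξ)⟫_ℂ = _
  rw [inner_star_right, inner_self_eq_norm_sq_to_K]
  norm_cast

lemma inner_star_mul_vac (b : H →L[ℂ] H) : ⟪(star b * b) ξ, ξ⟫_ℂ = ((‖b ξ‖ ^ 2 : ℝ) : ℂ) := by
  show ⟪star b (b ξ), ξ⟫_ℂ = _
  rw [inner_star_left, inner_self_eq_norm_sq_to_K]
  norm_cast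

/-- The selection of a good time: on average the error term is flat. -/
theorem exists_time_flat (herg : S.Ergodic) {b : H →L[ℂ] H} (hb : b ∈ S.M) (θ : ℝ) (hθ : 0 < θ) :
    ∃ t : ℝ, F0 S b t ≤ (1 / 2) * Nn S b ^ 2 + θ := by
  set x := star b * b with hx
  set y := b * star b with hy
  set u := b ξ with hu
  set u' := star b ξ with hu'
  have hxM : x ∈ S.M := mul_mem (star_mem hb) hb
  have hyM : y ∈ S.M := mul_mem hb (star_mem hb)
  set N₁ := ‖u‖ ^ 2 with hN₁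
  set N₂ := ‖u'‖ ^ 2 with hN₂
  have hNn : Nn S b = N₁ + N₂ := rfl
  have hN₁0 : 0 ≤ N₁ := by positivity
  have hN₂0 : 0 ≤ N₂ := by positivity
  set θ' : ℝ := θ / (N₁ + N₂ + 3) with hθ'
  have hθ'pos : 0 < θ' := by positivity
  have hθ'mul : θ' * (N₁ + N₂ + 3) = θ := by
    rw [hθ']; field_simp
  obtain ⟨r₁, ρ₁, hr₁, hrξ₁, hρ₁0, hρ₁⟩ := exists_r S hyM u θ' hθ'pos
  obtain ⟨r₂, ρ₂, hr₂, hrξ₂, hρ₂0, hρ₂⟩ := exists_r S hxM u' θ' hθ'pos
  set xh := x ξ with hxh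
  set yh := y ξ with hyh
  -- matrix coefficient sum
  obtain ⟨t, ht⟩ := MD.exists_time_le S herg
    [(((1 / 2 : ℝ) : ℂ) • xh, xh), (((1 / 2 : ℝ) : ℂ) • yh, yh), (((1 / 4 : ℝ) : ℂ) • r₁, yh),
      (((1 / 4 : ℝ) : ℂ) • yh, r₁), (((1 / 4 : ℝ) : ℂ) • r₂, xh), (((1 / 4 : ℝ) : ℂ) • xh, r₂)] θ' hθ'pos
  refine ⟨t, ?_⟩
  have hxξ : ⟪ξ, xh⟫_ℂ = (N₁ : ℂ) := inner_vac_star_mul S b
  have hξx : ⟪xh, ξ⟫_ℂ = (N₁ : ℂ) := inner_star_mul_vac S b
  have hyξ : ⟪ξ, yh⟫_ℂ = (N₂ : ℂ) := by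
    have := inner_vac_star_mul S (star b)
    rwa [star_star] at this
  have hξy : ⟪yh, ξ⟫_ℂ = (N₂ : ℂ) := by
    have := inner_star_mul_vac S (star b)
    rwa [star_star] at this
  have hξr₁ : ⟪ξ, r₁⟫_ℂ = (ρ₁ : ℂ) := by
    rw [← inner_conj_symm, hrξ₁, Complex.conj_ofReal]
  have hξr₂ : ⟪ξ, r₂⟫_ℂ = (ρ₂ : ℂ) := by
    rw [← inner_conj_symm, hrξ₂, Complex.conj_ofReal]
  -- evaluate the right side
  have hP : ([(((1 / 2 : ℝ) : ℂ) • xh, xh), (((1 / 2 : ℝ) : ℂ) • yh, yh), (((1 / 4 : ℝ) : ℂ) • r₁, yh),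
      (((1 / 4 : ℝ) : ℂ) • yh, r₁), (((1 / 4 : ℝ) : ℂ) • r₂, xh), (((1 / 4 : ℝ) : ℂ) • xh, r₂)].map
        fun p => (⟪p.1, ⟪ξ, p.2⟫_ℂ • ξ⟫_ℂ).re).sum =
      (1 / 2) * N₁ ^ 2 + (1 / 2) * N₂ ^ 2 + (1 / 2) * N₂ * ρ₁ + (1 / 2) * N₁ * ρ₂ := by
    simp only [List.map_cons, List.map_nil, List.sum_cons, List.sum_nil, inner_smul_left,
      inner_smul_right, hxξ, hξx, hyξ, hξy, hξr₁, hξr₂, hrξ₁, hrξ₂, Complex.conj_ofReal]
    norm_cast
    ring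
  -- evaluate the left side
  have hL : ([(((1 / 2 : ℝ) : ℂ) • xh, xh), (((1 / 2 : ℝ) : ℂ) • yh, yh), (((1 / 4 : ℝ) : ℂ) • r₁, yh),
      (((1 / 4 : ℝ) : ℂ) • yh, r₁), (((1 / 4 : ℝ) : ℂ) • r₂, xh), (((1 / 4 : ℝ) : ℂ) • xh, r₂)].map
        fun p => (⟪p.1, S.D.wave t p.2⟫_ℂ).re).sum =
      (1 / 2) * (⟪xh, S.D.wave t xh⟫_ℂ).re + (1 / 2) * (⟪yh, S.D.wave t yh⟫_ℂ).re
        + (1 / 4) * ((⟪r₁, S.D.wave t yh⟫_ℂ).re + (⟪yh, S.D.wave t r₁⟫_ℂ).re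
          + (⟪r₂, S.D.wave t xh⟫_ℂ).re + (⟪xh, S.D.wave t r₂⟫_ℂ).re) := by
    simp only [List.map_cons, List.map_nil, List.sum_cons, List.sum_nil, inner_smul_left,
      Complex.conj_ofReal, Complex.re_ofReal_mul]
    ring
  rw [hL, hP] at ht
  -- the four error terms
  have e1 : ‖star b (S.D.wave t u)‖ ^ 2 ≤ (⟪yh, S.D.wave t r₁⟫_ℂ).re + θ' := by
    rw [err1]
    have := hr₁ (-t)
    refine this.trans_eq ?_
    congr 1
    rw [← Calc.inner_wave_left S.D t r₁ yh, ← inner_conj_symm, Complex.conj_re]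
  have e2 : ‖S.flow t (star b) u‖ ^ 2 ≤ (⟪r₁, S.D.wave t yh⟫_ℂ).re + θ' := by
    rw [err2]
    exact hr₁ t
  have e3 : ‖S.flow t b u'‖ ^ 2 ≤ (⟪r₂, S.D.wave t xh⟫_ℂ).re + θ' := by
    rw [err3]
    exact hr₂ t
  have e4 : ‖b (S.D.wave t u')‖ ^ 2 ≤ (⟪xh, S.D.wave t r₂⟫_ℂ).re + θ' := by
    rw [err4]
    have := hr₂ (-t)
    refine this.trans_eq ?_
    congr 1
    rw [← Calc.inner_wave_left S.D t r₂ xh, ← inner_conj_symm, Complex.conj_re]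
  have hF : F0 S b t = (1 / 2) * (⟪xh, S.D.wave t xh⟫_ℂ).re + (1 / 2) * (⟪yh, S.D.wave t yh⟫_ℂ).re
      + (1 / 4) * (‖star b (S.D.wave t u)‖ ^ 2 + ‖S.flow t (star b) u‖ ^ 2
        + ‖S.flow t b u'‖ ^ 2 + ‖b (S.D.wave t u')‖ ^ 2) := rfl
  rw [hF, hNn]
  have h1 : (1 / 2) * N₂ * ρ₁ ≤ (1 / 2) * N₂ * (N₁ + θ') := by gcongr
  have h2 : (1 / 2) * N₁ * ρ₂ ≤ (1 / 2) * N₁ * (N₂ + θ') := by gcongr
  have h3 : θ' * (N₁ + N₂) ≥ 0 := by positivity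
  nlinarith

end Gr

end Crest.Agent.H3
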