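import Crest.Agent.H3Groth2

/-! Helper for S0112: truncation and the little Grothendieck inequality. -/

set_option autoImplicit false

namespace Crest.Agent.H3

open Crest.OpAlg MeasureTheory Filter
open scoped InnerProductSpace Topology BoundedContinuousFunction ComplexConjugate

variable {H : Type*} [NormedAddCommGroup H] [InnerProductSpace ℂ H] [CompleteSpace H]

namespace Gr

variable (S : ModularDatum H)

local notation "ξ" => S.vac

/-- truncation function -/
noncomputable def kap (K r : ℝ) : ℝ := K / max K (Real.sqrt r)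

lemma kap_cont {K : ℝ} (hK : 0 < K) : Continuous (kap K) := by
  unfold kap
  refine continuous_const.div (continuous_const.max Real.continuous_sqrt) (fun r => ?_)
  exact (lt_max_of_lt_left hK).ne'

lemma kap_bounds {K r : ℝ} (hK : 0 < K) : 0 < kap K r ∧ kap K r ≤ 1 := by
  unfold kap
  have hm : 0 < max K (Real.sqrt r) := lt_max_of_lt_left hK
  exact ⟨div_pos hK hm, (div_le_one hm).mpr (le_max_left _ _)⟩

lemma kap_sq_mul_le {K r : ℝ} (hK : 0 < K) (hr : 0 ≤ r) : kap K r * r * kap K r ≤ K ^ 2 := by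
  unfold kap
  have hm : 0 < max K (Real.sqrt r) := lt_max_of_lt_left hK
  have hs : r ≤ (max K (Real.sqrt r)) ^ 2 := by
    calc r = (Real.sqrt r) ^ 2 := (Real.sq_sqrt hr).symm
      _ ≤ _ := by
        gcongr
        exact le_max_right _ _
  rw [show K / max K (Real.sqrt r) * r * (K / max K (Real.sqrt r)) =
    K ^ 2 * (r / (max K (Real.sqrt r)) ^ 2) by field_simp]
  have : r / (max K (Real.sqrt r)) ^ 2 ≤ 1 := (div_le_one (by positivity)).mpr hs
  nlinarith [sq_nonneg K]

lemma dd_sq_le {K r : ℝ} (hK : 0 < K) (hr : 0 ≤ r) : (1 - kap K r) ^ 2 ≤ r / K ^ 2 := by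
  have hb := kap_bounds (K := K) (r := r) hK
  by_cases h : Real.sqrt r ≤ K
  · have : kap K r = 1 := by
      unfold kap
      rw [max_eq_left h, div_self hK.ne']
    rw [this]
    simp only [sub_self, ne_eq, OfNat.ofNat_ne_zero, not_false_eq_true, zero_pow]
    positivity
  · push_neg at h
    have h1 : K ^ 2 ≤ r := by
      calc K ^ 2 ≤ (Real.sqrt r) ^ 2 := by gcongr
        _ = r := Real.sq_sqrt hr
    have h2 : 1 ≤ r / K ^ 2 := (one_le_div (by positivity)).mpr h1
    have h3 : (1 - kap K r) ^ 2 ≤ 1 := by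
      have h4 : 0 ≤ 1 - kap K r := by linarith [hb.2]
      have h5 : 1 - kap K r ≤ 1 := by linarith [hb.1]
      nlinarith
    linarith

lemma re_inner_cfc_le (x : H →L[ℂ] H) (hx : IsSelfAdjoint x) {f g : ℝ → ℝ} (hf : Continuous f)
    (hg : Continuous g) (h : ∀ r ∈ spectrum ℝ x, f r ≤ g r) (z : H) :
    (⟪z, cfc f x z⟫_ℂ).re ≤ (⟪z, cfc g x z⟫_ℂ).re := by
  have h1 : cfc f x ≤ cfc g x :=
    (cfc_le_iff f g x hf.continuousOn hg.continuousOn hx).mpr h
  have h2 := ((ContinuousLinearMap.le_def _ _).mp h1)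
  have h3 := h2.re_inner_nonneg_right z
  simp only [_root_.sub_apply, inner_sub_right, map_sub, RCLike.re_to_complex] at h3
  linarith

/-- The truncation: splitting an element of `M` into a bounded part and a part with small `Nn`. -/
theorem exists_split {b : H →L[ℂ] H} (hb : b ∈ S.M) (K : ℝ) (hK : 0 < K) :
    ∃ X₁ X₂ : H →L[ℂ] H, X₁ ∈ S.M ∧ X₂ ∈ S.M ∧ b = X₁ + X₂ ∧ ‖X₁‖ ≤ K ∧
      Nn S X₂ ≤ Mm S b / K ^ 2 := by
  set x : H →L[ℂ] H := star b * b with hxdef
  have hx0 : 0 ≤ x := star_mul_self_nonneg b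
  have hxsa : IsSelfAdjoint x := IsSelfAdjoint.star_mul_self b
  have hspec : ∀ r ∈ spectrum ℝ x, 0 ≤ r := fun r hr => spectrum_nonneg_of_nonneg hx0 hr
  have hxM : x ∈ S.M := mul_mem (star_mem hb) hb
  have hkc := kap_cont hK
  set κ : ℝ → ℝ := kap K with hκ
  set δ : ℝ → ℝ := fun r => 1 - κ r with hδ
  have hδc : Continuous δ := continuous_const.sub hkc
  set c := cfc κ x with hc
  set d := cfc δ x with hd
  have hcd : c + d = 1 := by
    rw [hc, hd, ← cfc_add x κ δ hkc.continuousOn hδc.continuousOn]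
    have : (fun r => κ r + δ r) = fun _ => (1 : ℝ) := by
      funext r; simp [hδ]
    rw [this]
    exact cfc_const_one ℝ x hxsa
  have hcsa : IsSelfAdjoint c := cfc_predicate κ x
  have hdsa : IsSelfAdjoint d := cfc_predicate δ x
  have hmemcfc : ∀ f : ℝ → ℝ, cfc f x ∈ S.M := by
    intro f
    refine MD.mem_M_of_comm S (fun b' hb' => ?_)
    have h1 : Commute x b' := MD.comm_of_mem S hxM hb'
    exact ((h1.cfc_real f).eq).symm
  have hcM : c ∈ S.M := hmemcfc κ
  have hdM : d ∈ S.M := hmemcfc δ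
  have hxx : cfc (fun r : ℝ => r) x = x := cfc_id' ℝ x hxsa
  -- the bounded part
  refine ⟨b * c, b * d, mul_mem hb hcM, mul_mem hb hdM, ?_, ?_, ?_⟩
  · rw [← mul_add, hcd, mul_one]
  · have h1 : star (b * c) * (b * c) = cfc (fun r => κ r * r * κ r) x := by
      rw [cfc_mul (fun r => κ r * r) κ x (hkc.mul continuous_id).continuousOn hkc.continuousOn,
        cfc_mul κ (fun r => r) x hkc.continuousOn continuous_id.continuousOn, hxx, ← hc,
        star_mul, hcsa.star_eq, hxdef]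
      simp only [mul_assoc]
    have h2 : ‖cfc (fun r => κ r * r * κ r) x‖ ≤ K ^ 2 := by
      refine norm_cfc_le (by positivity) (fun r hr => ?_)
      have hr0 := hspec r hr
      have hb := kap_bounds (K := K) (r := r) hK
      rw [Real.norm_of_nonneg (mul_nonneg (mul_nonneg hb.1.le hr0) hb.1.le)]
      exact kap_sq_mul_le hK hr0
    have h3 : ‖b * c‖ * ‖b * c‖ ≤ K ^ 2 := by
      rw [← CStarRing.norm_star_mul_self, h1]
      exact h2
    nlinarith [norm_nonneg (b * c)]
  · -- the remainder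
    have h1 : ‖(b * d) ξ‖ ^ 2 ≤ ‖x ξ‖ ^ 2 / K ^ 2 := by
      have e1 : ‖(b * d) ξ‖ ^ 2 = (⟪ξ, cfc (fun r => δ r * r * δ r) x ξ⟫_ℂ).re := by
        rw [normSq_apply]
        congr 3
        rw [cfc_mul (fun r => δ r * r) δ x (hδc.mul continuous_id).continuousOn hδc.continuousOn,
          cfc_mul δ (fun r => r) x hδc.continuousOn continuous_id.continuousOn, hxx, ← hd,
          star_mul, hdsa.star_eq, hxdef]
        simp only [mul_assoc]
      have e2 : cfc (fun r : ℝ => (K ^ 2)⁻¹ * (r * r)) x = (K ^ 2)⁻¹ • (x * x) := by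
        rw [cfc_const_mul (K ^ 2)⁻¹ (fun r => r * r) x (continuous_id.mul continuous_id).continuousOn,
          cfc_mul (fun r => r) (fun r => r) x continuous_id.continuousOn continuous_id.continuousOn, hxx]
      have e3 := re_inner_cfc_le x hxsa (f := fun r => δ r * r * δ r)
        (g := fun r : ℝ => (K ^ 2)⁻¹ * (r * r)) ((hδc.mul continuous_id).mul hδc)
        (continuous_const.mul (continuous_id.mul continuous_id)) (by
          intro r hr
          have hr0 := hspec r hr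
          have h4 := dd_sq_le (r := r) hK hr0
          have h5 : δ r * r * δ r = r * (1 - κ r) ^ 2 := by simp only [hδ]; ring
          have h6 : (K ^ 2)⁻¹ * (r * r) = r * (r / K ^ 2) := by
            field_simp
          show δ r * r * δ r ≤ (K ^ 2)⁻¹ * (r * r)
          rw [h5, h6]
          exact mul_le_mul_of_nonneg_left h4 hr0) ξ
      rw [e1]
      refine e3.trans_eq ?_
      rw [e2]
      have e4 : ((K ^ 2)⁻¹ • (x * x)) ξ = ((((K ^ 2)⁻¹ : ℝ) : ℂ)) • (x * x) ξ := by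
        rw [ContinuousLinearMap.smul_apply, Complex.coe_smul]
      rw [e4, inner_smul_right, Complex.re_ofReal_mul]
      have e5 : (⟪ξ, (x * x) ξ⟫_ℂ).re = ‖x ξ‖ ^ 2 := by
        rw [norm_sq_eq_re]
        have h7 : x * x = star x * x := by rw [hxsa.star_eq]
        rw [h7]
        show (⟪ξ, star x (x ξ)⟫_ℂ).re = _
        rw [inner_star_right]
      rw [e5]
      field_simp
    have h2 : ‖star (b * d) ξ‖ ^ 2 ≤ ‖(b * star b) ξ‖ ^ 2 / K ^ 2 := by
      set u' := star b ξ with hu'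
      have e0 : star (b * d) ξ = d u' := by
        rw [star_mul, hdsa.star_eq]
        rfl
      have e1 : ‖d u'‖ ^ 2 = (⟪u', cfc (fun r => δ r * δ r) x u'⟫_ℂ).re := by
        rw [normSq_apply]
        congr 3
        rw [cfc_mul δ δ x hδc.continuousOn hδc.continuousOn, ← hd, hdsa.star_eq]
      have e2 : cfc (fun r : ℝ => (K ^ 2)⁻¹ * r) x = (K ^ 2)⁻¹ • x := by
        rw [cfc_const_mul (K ^ 2)⁻¹ (fun r => r) x continuous_id.continuousOn, hxx]
      have e3 := re_inner_cfc_le x hxsa (f := fun r => δ r * δ r)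
        (g := fun r : ℝ => (K ^ 2)⁻¹ * r) (hδc.mul hδc)
        (continuous_const.mul continuous_id) (by
          intro r hr
          have hr0 := hspec r hr
          have h4 := dd_sq_le (r := r) hK hr0
          show δ r * δ r ≤ (K ^ 2)⁻¹ * r
          have h5 : δ r * δ r = (1 - κ r) ^ 2 := by simp only [hδ]; ring
          have h6 : (K ^ 2)⁻¹ * r = r / K ^ 2 := by field_simp
          rw [h5, h6]
          exact h4) u'
      rw [e0, e1]
      refine e3.trans_eq ?_
      rw [e2]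
      have e4 : ((K ^ 2)⁻¹ • x) u' = ((((K ^ 2)⁻¹ : ℝ) : ℂ)) • x u' := by
        rw [ContinuousLinearMap.smul_apply, Complex.coe_smul]
      rw [e4, inner_smul_right, Complex.re_ofReal_mul]
      have e5 : (⟪u', x u'⟫_ℂ).re = ‖(b * star b) ξ‖ ^ 2 := by
        rw [hxdef, ← normSq_apply]
        rfl
      rw [e5]
      field_simp
    unfold Nn Mm
    rw [add_div]
    exact add_le_add h1 h2

/-- elementary real inequality -/
lemma amgm_of_forall {Q α β : ℝ} (hα : 0 ≤ α) (hβ : 0 ≤ β) (h : ∀ κ : ℝ, 0 < κ → Q ≤ α * κ + β / κ) :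
    Q ≤ 2 * Real.sqrt (α * β) := by
  have hlim : Tendsto (fun η : ℝ => 2 * Real.sqrt ((α + η) * (β + η))) (𝓝[>] 0)
      (𝓝 (2 * Real.sqrt (α * β))) := by
    have hc : Continuous (fun η : ℝ => 2 * Real.sqrt ((α + η) * (β + η))) := by fun_prop
    have := hc.tendsto 0
    simp only [add_zero] at this
    exact this.mono_left nhdsWithin_le_nhds
  refine ge_of_tendsto hlim ?_
  filter_upwards [self_mem_nhdsWithin] with η hη
  have hη' : 0 < η := hη
  have hαη : 0 < α + η := by linarith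
  have hβη : 0 < β + η := by linarith
  set κ := Real.sqrt ((β + η) / (α + η)) with hκ
  have hκpos : 0 < κ := Real.sqrt_pos.mpr (by positivity)
  have h1 := h κ hκpos
  have h2 : α * κ + β / κ ≤ (α + η) * κ + (β + η) / κ := by
    have : β / κ ≤ (β + η) / κ := by gcongr; linarith
    have : α * κ ≤ (α + η) * κ := by gcongr; linarith
    linarith
  have hκsq : κ ^ 2 = (β + η) / (α + η) := Real.sq_sqrt (by positivity)
  have hsq : Real.sqrt ((α + η) * (β + η)) = (α + η) * κ := by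
    rw [Real.sqrt_eq_iff_mul_self_eq (by positivity) (by positivity)]
    have : (α + η) * κ * ((α + η) * κ) = (α + η) ^ 2 * κ ^ 2 := by ring
    rw [this, hκsq]
    field_simp
  have h3 : (β + η) / κ = (α + η) * κ := by
    rw [div_eq_iff hκpos.ne']
    have : (α + η) * κ * κ = (α + η) * κ ^ 2 := by ring
    rw [this, hκsq]
    field_simp
  rw [hsq]
  linarith

variable (ω : Ultrafilter ℕ) (E : H →L[ℂ] H) (hω : (ω : Filter ℕ) ≤ atTop)

include hω in
/-- the truncation inequality -/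
theorem trunc {ε : ℝ} (hε : 0 ≤ ε) (H1 : ∀ a ∈ S.M, ‖E (a ξ)‖ ≤ ε * ‖a‖) {A : ℝ} (hA : 0 ≤ A)
    (H2 : ∀ b ∈ S.M, qf S ω E (b ξ) ≤ A * Nn S b) {b : H →L[ℂ] H} (hb : b ∈ S.M) :
    qf S ω E (b ξ) ≤ 4 * ε * Real.sqrt A * Real.sqrt (Mm S b) := by
  have hM0 := Mm_nonneg S b
  have h := amgm_of_forall (Q := qf S ω E (b ξ)) (α := 2 * ε ^ 2) (β := 2 * A * Mm S b) (by positivity)
    (by positivity) (by
      intro κ hκ
      set K := Real.sqrt κ with hK
      have hKpos : 0 < K := Real.sqrt_pos.mpr hκ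
      have hKsq : K ^ 2 = κ := Real.sq_sqrt hκ.le
      obtain ⟨X₁, X₂, h₁, h₂, hsum, hn₁, hn₂⟩ := exists_split S hb K hKpos
      have e1 : b ξ = X₁ ξ + X₂ ξ := by rw [hsum]; rfl
      have e2 : qf S ω E (X₁ ξ) ≤ ε ^ 2 * κ := by
        refine qf_le_of_forall S ω E hω (fun t => ?_)
        have h3 : ‖E (S.D.wave t (X₁ ξ))‖ ≤ ε * K := by
          rw [← flow_vac]
          refine (H1 _ (S.flow_mem t _ h₁)).trans ?_
          gcongr
          exact (MD.norm_flow_le S t X₁).trans hn₁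
        calc _ ≤ (ε * K) ^ 2 := by gcongr
          _ = _ := by rw [mul_pow, hKsq]
      have e3 : qf S ω E (X₂ ξ) ≤ A * (Mm S b / κ) := by
        refine (H2 X₂ h₂).trans ?_
        rw [← hKsq]
        gcongr
      have e4 := qf_add_le S ω E (X₁ ξ) (X₂ ξ)
      rw [e1]
      calc _ ≤ 2 * (ε ^ 2 * κ) + 2 * (A * (Mm S b / κ)) := by linarith
        _ = _ := by ring)
  refine h.trans_eq ?_
  have : 2 * ε ^ 2 * (2 * A * Mm S b) = (2 * ε) ^ 2 * (A * Mm S b) := by ring
  rw [this, Real.sqrt_mul (by positivity), Real.sqrt_sq (by positivity), Real.sqrt_mul hA]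
  ring

lemma Nn_sq_le_Mm (b : H →L[ℂ] H) : Nn S b ^ 2 ≤ 2 * Mm S b := by
  have h1 : ∀ c : H →L[ℂ] H, ‖c ξ‖ ^ 2 ≤ ‖(star c * c) ξ‖ := by
    intro c
    have h2 : ⟪ξ, (star c * c) ξ⟫_ℂ = ((‖c ξ‖ ^ 2 : ℝ) : ℂ) := inner_vac_star_mul S c
    have h3 : ‖⟪ξ, (star c * c) ξ⟫_ℂ‖ ≤ ‖ξ‖ * ‖(star c * c) ξ‖ := norm_inner_le_norm _ _
    rw [h2, S.norm_vac, one_mul, Complex.norm_real, Real.norm_of_nonneg (by positivity)] at h3
    exact h3
  have h2 := h1 b
  have h3 := h1 (star b)
  rw [star_star] at h3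
  unfold Nn Mm
  have e1 : (‖b ξ‖ ^ 2) ^ 2 ≤ ‖(star b * b) ξ‖ ^ 2 := by gcongr
  have e2 : (‖star b ξ‖ ^ 2) ^ 2 ≤ ‖(b * star b) ξ‖ ^ 2 := by gcongr
  nlinarith [sq_nonneg (‖b ξ‖ ^ 2 - ‖star b ξ‖ ^ 2)]

lemma dbl_scale_qf (c : ℝ) (x : H) :
    qf S ω E ((c : ℂ) • x) = c ^ 2 * qf S ω E x := by
  rw [qf_smul, Complex.norm_real, Real.norm_eq_abs, sq_abs]

lemma Nn_scale (c : ℝ) (b : H →L[ℂ] H) : Nn S ((c : ℂ) • b) = c ^ 2 * Nn S b := by
  unfold Nn
  rw [star_smul]
  simp only [ContinuousLinearMap.smul_apply, norm_smul, Complex.star_def, Complex.conj_ofReal,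
    Complex.norm_real, Real.norm_eq_abs, mul_pow, sq_abs]
  ring

lemma Mm_scale (c : ℝ) (b : H →L[ℂ] H) : Mm S ((c : ℂ) • b) = c ^ 4 * Mm S b := by
  unfold Mm
  have h1 : star ((c : ℂ) • b) * ((c : ℂ) • b) = ((c ^ 2 : ℝ) : ℂ) • (star b * b) := by
    rw [star_smul, smul_mul_smul_comm]
    simp [pow_two, Complex.conj_ofReal]
  have h2 : ((c : ℂ) • b) * star ((c : ℂ) • b) = ((c ^ 2 : ℝ) : ℂ) • (b * star b) := by
    rw [star_smul, smul_mul_smul_comm]
    simp [pow_two, Complex.conj_ofReal]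
  rw [h1, h2]
  simp only [ContinuousLinearMap.smul_apply, norm_smul, Complex.norm_real, Real.norm_eq_abs,
    mul_pow, sq_abs]
  ring

include hω in
/-- One improvement step for the constant. -/
theorem improve (herg : S.Ergodic) {ε : ℝ} (hε : 0 ≤ ε) (H1 : ∀ a ∈ S.M, ‖E (a ξ)‖ ≤ ε * ‖a‖)
    {A : ℝ} (hA : 0 ≤ A) (H2 : ∀ b ∈ S.M, qf S ω E (b ξ) ≤ A * Nn S b) :
    ∀ b ∈ S.M, qf S ω E (b ξ) ≤ (4 * ε * Real.sqrt A) * Nn S b := by
  set p : ℝ := 4 * ε * Real.sqrt A with hp
  have hp0 : 0 ≤ p := by positivity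
  -- first with a small quartic term
  have key : ∀ τ : ℝ, 0 < τ → ∀ b ∈ S.M, qf S ω E (b ξ) ≤ p * Nn S b + τ * Mm S b := by
    intro τ hτ
    -- the functional
    set G : (H →L[ℂ] H) → ℝ := fun b => qf S ω E (b ξ) - p * Nn S b - τ * Mm S b with hG
    set T : Set ℝ := G '' (S.M : Set (H →L[ℂ] H)) with hT
    have hTne : T.Nonempty := ⟨G 0, 0, zero_mem _, rfl⟩
    have hG0 : G 0 = 0 := by
      simp only [hG, ContinuousLinearMap.zero_apply, qf_zero]
      unfold Nn Mm
      simp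
    have hTb : BddAbove T := by
      refine ⟨A ^ 2 / (2 * τ), ?_⟩
      rintro _ ⟨b, hb, rfl⟩
      have h1 := H2 b hb
      have h2 := Nn_sq_le_Mm S b
      have h3 := Nn_nonneg S b
      show qf S ω E (b ξ) - p * Nn S b - τ * Mm S b ≤ _
      have h4 : τ * (Nn S b ^ 2 / 2) ≤ τ * Mm S b := by
        gcongr
        linarith
      have h5 : A * Nn S b - τ * (Nn S b ^ 2 / 2) ≤ A ^ 2 / (2 * τ) := by
        rw [le_div_iff₀ (by positivity)]
        nlinarith [sq_nonneg (A - τ * Nn S b)]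
      have h6 : 0 ≤ p * Nn S b := by positivity
      linarith
    set g := sSup T with hg
    have hgle : ∀ b ∈ S.M, G b ≤ g := fun b hb => le_csSup hTb ⟨b, hb, rfl⟩
    have hg0 : 0 ≤ g := by
      have := hgle 0 (zero_mem _)
      rwa [hG0] at this
    -- the main estimate
    have hmain : ∀ δ : ℝ, 0 < δ → g ≤ δ + p * Real.sqrt (2 * δ / τ) := by
      intro δ hδ
      obtain ⟨_, ⟨b, hb, rfl⟩, hbg⟩ := exists_lt_of_lt_csSup hTne (show g - δ < sSup T by linarith)
      -- flatness of `b`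
      have hflat : Mm S b ≤ Nn S b ^ 2 + 2 * δ / τ := by
        refine le_of_forall_pos_le_add (fun θ hθ => ?_)
        obtain ⟨t, ht⟩ := exists_time_flat S herg hb (τ * θ / 4 / τ) (by positivity)
        have ht' : F0 S b t ≤ (1 / 2) * Nn S b ^ 2 + θ / 4 := by
          refine ht.trans_eq ?_
          field_simp
        -- the doubled elements
        set s : ℝ := (Real.sqrt 2)⁻¹ with hs
        have hs2 : s ^ 2 = 1 / 2 := by
          rw [hs, inv_pow, Real.sq_sqrt (by norm_num)]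
          norm_num
        have hs4 : s ^ 4 = 1 / 4 := by
          have : s ^ 4 = (s ^ 2) ^ 2 := by ring
          rw [this, hs2]; norm_num
        have hGc : ∀ i, G ((s : ℂ) • dbl S b t i) = (1 / 2) * qf S ω E (dbl S b t i ξ)
            - p * ((1 / 2) * Nn S (dbl S b t i)) - τ * ((1 / 4) * Mm S (dbl S b t i)) := by
          intro i
          show qf S ω E (((s : ℂ) • dbl S b t i) ξ) - p * Nn S ((s : ℂ) • dbl S b t i)
            - τ * Mm S ((s : ℂ) • dbl S b t i) = _
          rw [ContinuousLinearMap.smul_apply, dbl_scale_qf, Nn_scale, Mm_scale, hs2, hs4]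
        have hle : ∀ i, G ((s : ℂ) • dbl S b t i) ≤ g := fun i =>
          hgle _ (S.M.toStarSubalgebra.smul_mem (dbl_mem S hb t i) _)
        have hsum : ∑ i, G ((s : ℂ) • dbl S b t i) = 3 * qf S ω E (b ξ) - 3 * p * Nn S b
            - 3 * τ * ((1 / 2) * Mm S b + F0 S b t) := by
          simp only [hGc]
          have e1 := sum_qf_dbl S ω E hω b t
          have e2 := sum_Nn_dbl S b t
          have e3 := sum_Mm_dbl S b t
          rw [Fin.sum_univ_three] at e1 e2 e3 ⊢
          linear_combination (1 / 2) * e1 - (p * (1 / 2)) * e2 - (τ * (1 / 4)) * e3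
        have hsum2 : ∑ i, G ((s : ℂ) • dbl S b t i) ≤ 3 * g := by
          rw [Fin.sum_univ_three]
          linarith [hle 0, hle 1, hle 2]
        rw [hsum] at hsum2
        have hGb : G b = qf S ω E (b ξ) - p * Nn S b - τ * Mm S b := rfl
        have h1 : qf S ω E (b ξ) - p * Nn S b > g - δ + τ * Mm S b := by
          rw [hGb] at hbg
          linarith
        have h2 : τ * (Mm S b - Nn S b ^ 2) ≤ 2 * δ + 2 * τ * (θ / 4) := by
          nlinarith
        have h3 : Mm S b ≤ Nn S b ^ 2 + 2 * δ / τ + θ := by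
          have h4 : Mm S b - Nn S b ^ 2 ≤ 2 * δ / τ + θ / 2 := by
            rw [← sub_nonneg] at h2 ⊢
            have : 2 * δ / τ + θ / 2 - (Mm S b - Nn S b ^ 2) =
                (2 * δ + 2 * τ * (θ / 4) - τ * (Mm S b - Nn S b ^ 2)) / τ := by
              field_simp
              ring
            rw [this]
            positivity
          linarith
        linarith
      -- conclude
      have h5 := trunc S ω E hω hε H1 hA H2 hb
      have hNn0 := Nn_nonneg S b
      have h6 : Real.sqrt (Mm S b) ≤ Nn S b + Real.sqrt (2 * δ / τ) := by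
        have h7 : Real.sqrt (Mm S b) ≤ Real.sqrt (Nn S b ^ 2 + 2 * δ / τ) := Real.sqrt_le_sqrt hflat
        have h8 : Real.sqrt (Nn S b ^ 2 + 2 * δ / τ) ≤ Real.sqrt (Nn S b ^ 2) + Real.sqrt (2 * δ / τ) := by
          have hu : 0 ≤ Nn S b ^ 2 := by positivity
          have hv : 0 ≤ 2 * δ / τ := by positivity
          refine Real.sqrt_le_iff.mpr ⟨by positivity, ?_⟩
          have h1 := Real.sq_sqrt hu
          have h2 := Real.sq_sqrt hv
          nlinarith [Real.sqrt_nonneg (Nn S b ^ 2), Real.sqrt_nonneg (2 * δ / τ),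
            mul_nonneg (Real.sqrt_nonneg (Nn S b ^ 2)) (Real.sqrt_nonneg (2 * δ / τ))]
        rw [Real.sqrt_sq hNn0] at h8
        linarith
      have h9 : qf S ω E (b ξ) ≤ p * (Nn S b + Real.sqrt (2 * δ / τ)) :=
        h5.trans (mul_le_mul_of_nonneg_left h6 hp0)
      have hGb : G b = qf S ω E (b ξ) - p * Nn S b - τ * Mm S b := rfl
      have h10 : 0 ≤ τ * Mm S b := mul_nonneg hτ.le (Mm_nonneg S b)
      rw [hGb] at hbg
      nlinarith
    -- `g ≤ 0`
    have hgle0 : g ≤ 0 := by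
      have hc : Continuous (fun δ : ℝ => δ + p * Real.sqrt (2 * δ / τ)) := by fun_prop
      have hlim : Tendsto (fun δ : ℝ => δ + p * Real.sqrt (2 * δ / τ)) (𝓝[>] 0) (𝓝 0) := by
        have := hc.tendsto 0
        simp only [mul_zero, zero_div, Real.sqrt_zero, add_zero] at this
        exact this.mono_left nhdsWithin_le_nhds
      refine ge_of_tendsto hlim ?_
      filter_upwards [self_mem_nhdsWithin] with δ hδ using hmain δ hδ
    intro b hb
    have := (hgle b hb).trans hgle0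
    show qf S ω E (b ξ) ≤ p * Nn S b + τ * Mm S b
    have h0 : qf S ω E (b ξ) - p * Nn S b - τ * Mm S b ≤ 0 := this
    linarith
  intro b hb
  refine le_of_forall_pos_le_add (fun δ hδ => ?_)
  have hM0 := Mm_nonneg S b
  have h1 := key (δ / (Mm S b + 1)) (by positivity) b hb
  have h2 : δ / (Mm S b + 1) * Mm S b ≤ δ := by
    rw [div_mul_eq_mul_div, div_le_iff₀ (by positivity)]
    nlinarith
  linarith

include hω in
/-- The little Grothendieck inequality for the modular flow. -/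
theorem groth (herg : S.Ergodic) {ε : ℝ} (hε : 0 ≤ ε) (H1 : ∀ a ∈ S.M, ‖E (a ξ)‖ ≤ ε * ‖a‖) :
    ∀ b ∈ S.M, qf S ω E (b ξ) ≤ 16 * ε ^ 2 * Nn S b := by
  set 𝒞 : Set ℝ := {A | 0 ≤ A ∧ ∀ b ∈ S.M, qf S ω E (b ξ) ≤ A * Nn S b} with h𝒞
  have hmem : ‖E‖ ^ 2 ∈ 𝒞 := by
    refine ⟨by positivity, fun b _ => ?_⟩
    refine (qf_le_norm S ω E hω _).trans ?_
    unfold Nn
    have : 0 ≤ ‖E‖ ^ 2 * ‖star b ξ‖ ^ 2 := by positivity
    nlinarith
  have hbdd : BddBelow 𝒞 := ⟨0, fun A hA => hA.1⟩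
  set A₀ := sInf 𝒞 with hA₀
  have hA₀0 : 0 ≤ A₀ := le_csInf ⟨_, hmem⟩ (fun A hA => hA.1)
  have hA₀mem : A₀ ∈ 𝒞 := by
    refine ⟨hA₀0, fun b hb => ?_⟩
    refine le_of_forall_pos_le_add (fun δ hδ => ?_)
    have hN0 := Nn_nonneg S b
    obtain ⟨A, hA, hAlt⟩ := exists_lt_of_csInf_lt (⟨_, hmem⟩ : 𝒞.Nonempty)
      (show sInf 𝒞 < A₀ + δ / (Nn S b + 1) by
        have : 0 < δ / (Nn S b + 1) := by positivity
        linarith)
    have h1 := hA.2 b hb
    have h2 : A * Nn S b ≤ (A₀ + δ / (Nn S b + 1)) * Nn S b := by gcongr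
    have h3 : δ / (Nn S b + 1) * Nn S b ≤ δ := by
      rw [div_mul_eq_mul_div, div_le_iff₀ (by positivity)]
      nlinarith
    nlinarith
  have himp := improve S ω E hω herg hε H1 hA₀mem.1 hA₀mem.2
  have hle : A₀ ≤ 4 * ε * Real.sqrt A₀ := csInf_le hbdd ⟨by positivity, himp⟩
  have hs : Real.sqrt A₀ ≤ 4 * ε := by
    by_contra hcon
    push_neg at hcon
    have hsq : Real.sqrt A₀ ^ 2 = A₀ := Real.sq_sqrt hA₀0
    have hspos : 0 < Real.sqrt A₀ := by
      have : 0 ≤ 4 * ε := by positivity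
      linarith
    nlinarith
  have hA₀16 : A₀ ≤ 16 * ε ^ 2 := by
    have hsq : Real.sqrt A₀ ^ 2 = A₀ := Real.sq_sqrt hA₀0
    have h0 := Real.sqrt_nonneg A₀
    nlinarith
  intro b hb
  refine (hA₀mem.2 b hb).trans ?_
  exact mul_le_mul_of_nonneg_right hA₀16 (Nn_nonneg S b)

end Gr

end Crest.Agent.H3
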