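import Crest.Agent.H3Erg

/-! Helper for S0112: the ultrafilter mean on bounded continuous functions. -/

set_option autoImplicit false

namespace Crest.Agent.H3

open Crest.OpAlg MeasureTheory Filter
open scoped InnerProductSpace Topology BoundedContinuousFunction

namespace Mean

/-- bounded continuous real functions -/
def BC (f : ℝ → ℝ) : Prop := Continuous f ∧ ∃ C : ℝ, ∀ t, |f t| ≤ C

lemma BC.const (c : ℝ) : BC (fun _ => c) := ⟨continuous_const, |c|, fun _ => le_rfl⟩

lemma BC.add {f g : ℝ → ℝ} (hf : BC f) (hg : BC g) : BC (fun t => f t + g t) := by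
  obtain ⟨hfc, C₁, h₁⟩ := hf
  obtain ⟨hgc, C₂, h₂⟩ := hg
  exact ⟨hfc.add hgc, C₁ + C₂, fun t => (abs_add_le _ _).trans (add_le_add (h₁ t) (h₂ t))⟩

lemma BC.smul {f : ℝ → ℝ} (hf : BC f) (c : ℝ) : BC (fun t => c * f t) := by
  obtain ⟨hfc, C₁, h₁⟩ := hf
  refine ⟨continuous_const.mul hfc, |c| * C₁, fun t => ?_⟩
  rw [abs_mul]
  gcongr
  exact h₁ t

lemma BC.shift {f : ℝ → ℝ} (hf : BC f) (s : ℝ) : BC (fun t => f (t + s)) := by
  obtain ⟨hfc, C₁, h₁⟩ := hf
  exact ⟨hfc.comp (continuous_id.add continuous_const), C₁, fun t => h₁ _⟩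

lemma windowMean_eq (f : ℝ → ℝ) (k : ℕ) :
    windowMean f k = ((2 * (k : ℝ))⁻¹) * ∫ t in (-(k : ℝ))..(k : ℝ), f t := by
  have hk : (-(k : ℝ)) ≤ k := by
    have : (0 : ℝ) ≤ k := Nat.cast_nonneg k
    linarith
  unfold windowMean
  rw [setAverage_eq, integral_Icc_eq_integral_Ioc, ← intervalIntegral.integral_of_le hk]
  simp only [Measure.real, Real.volume_Icc, smul_eq_mul]
  congr 2
  rw [ENNReal.toReal_ofReal (by linarith)]
  ring

lemma windowMean_bound {f : ℝ → ℝ} {C : ℝ} (hC : ∀ t, |f t| ≤ C) (k : ℕ) :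
    |windowMean f k| ≤ C := by
  have hC0 : 0 ≤ C := (abs_nonneg _).trans (hC 0)
  rw [windowMean_eq, abs_mul]
  rcases Nat.eq_zero_or_pos k with rfl | hk
  · simp [hC0]
  have hk' : (0 : ℝ) < k := Nat.cast_pos.mpr hk
  have h1 : |∫ t in (-(k : ℝ))..(k : ℝ), f t| ≤ C * |(k : ℝ) - (-(k : ℝ))| := by
    have := intervalIntegral.norm_integral_le_of_norm_le_const (a := -(k : ℝ)) (b := k) (f := f) (C := C)
      (fun t _ => by rw [Real.norm_eq_abs]; exact hC t)
    simpa [Real.norm_eq_abs] using this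
  have h2 : |(k : ℝ) - (-(k : ℝ))| = 2 * k := by
    rw [sub_neg_eq_add, abs_of_pos (by linarith)]; ring
  rw [h2] at h1
  calc _ ≤ |(2 * (k : ℝ))⁻¹| * (C * (2 * k)) := by gcongr
    _ = C := by
      rw [abs_of_pos (by positivity)]
      field_simp

variable (ω : Ultrafilter ℕ)

lemma tendsto_windowMean {f : ℝ → ℝ} (hf : BC f) :
    Tendsto (windowMean f) (ω : Filter ℕ) (𝓝 (ultraMean ω f)) := by
  obtain ⟨_, C, hC⟩ := id hf
  have hcomp : IsCompact (Set.Icc (-C) C) := isCompact_Icc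
  have hmem : ∀ k, windowMean f k ∈ Set.Icc (-C) C := fun k =>
    abs_le.mp (windowMean_bound hC k)
  have hu : (ω.map (windowMean f) : Filter ℝ) ≤ 𝓟 (Set.Icc (-C) C) := by
    rw [le_principal_iff]
    show Set.Icc (-C) C ∈ map (windowMean f) (ω : Filter ℕ)
    exact Filter.mem_map.mpr (Filter.Eventually.of_forall hmem)
  obtain ⟨x, _, hx⟩ := hcomp.ultrafilter_le_nhds (ω.map (windowMean f)) hu
  have hx' : Tendsto (windowMean f) (ω : Filter ℕ) (𝓝 x) := hx
  unfold ultraMean
  rwa [hx'.limUnder_eq]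

lemma ultraMean_eq {f : ℝ → ℝ} {x : ℝ} (h : Tendsto (windowMean f) (ω : Filter ℕ) (𝓝 x)) :
    ultraMean ω f = x := h.limUnder_eq

lemma windowMean_add {f g : ℝ → ℝ} (hf : BC f) (hg : BC g) (k : ℕ) :
    windowMean (fun t => f t + g t) k = windowMean f k + windowMean g k := by
  simp only [windowMean_eq]
  rw [intervalIntegral.integral_add (hf.1.intervalIntegrable (μ := volume) _ _) (hg.1.intervalIntegrable (μ := volume) _ _)]
  ring

lemma windowMean_smul (f : ℝ → ℝ) (c : ℝ) (k : ℕ) :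
    windowMean (fun t => c * f t) k = c * windowMean f k := by
  simp only [windowMean_eq]
  rw [intervalIntegral.integral_const_mul]
  ring

lemma ultraMean_add {f g : ℝ → ℝ} (hf : BC f) (hg : BC g) :
    ultraMean ω (fun t => f t + g t) = ultraMean ω f + ultraMean ω g := by
  apply ultraMean_eq
  have := (tendsto_windowMean ω hf).add (tendsto_windowMean ω hg)
  refine this.congr (fun k => (windowMean_add hf hg k).symm)

lemma ultraMean_smul {f : ℝ → ℝ} (hf : BC f) (c : ℝ) :
    ultraMean ω (fun t => c * f t) = c * ultraMean ω f := by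
  apply ultraMean_eq
  have := (tendsto_windowMean ω hf).const_mul c
  refine this.congr (fun k => (windowMean_smul f c k).symm)

lemma ultraMean_mono {f g : ℝ → ℝ} (hf : BC f) (hg : BC g) (h : ∀ t, f t ≤ g t) :
    ultraMean ω f ≤ ultraMean ω g := by
  refine le_of_tendsto_of_tendsto (tendsto_windowMean ω hf) (tendsto_windowMean ω hg)
    (Filter.Eventually.of_forall (fun k => ?_))
  simp only [windowMean_eq]
  have hk : (-(k : ℝ)) ≤ k := by
    have : (0 : ℝ) ≤ k := Nat.cast_nonneg k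
    linarith
  have := intervalIntegral.integral_mono_on (μ := volume) hk (hf.1.intervalIntegrable _ _)
    (hg.1.intervalIntegrable _ _) (fun t _ => h t)
  exact mul_le_mul_of_nonneg_left this (by positivity)

lemma ultraMean_const (c : ℝ) (k0 : (ω : Filter ℕ) ≤ atTop) : ultraMean ω (fun _ => c) = c := by
  apply ultraMean_eq
  refine tendsto_const_nhds.congr' ?_
  have : ∀ᶠ k : ℕ in (ω : Filter ℕ), k ≠ 0 := k0 (eventually_ne_atTop 0)
  filter_upwards [this] with k hk
  have hk' : (k : ℝ) ≠ 0 := Nat.cast_ne_zero.mpr hk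
  rw [windowMean_eq]
  simp only [intervalIntegral.integral_const, smul_eq_mul]
  field_simp
  ring

lemma ultraMean_le_of_le {f : ℝ → ℝ} (hf : BC f) {B : ℝ} (h : ∀ t, f t ≤ B)
    (k0 : (ω : Filter ℕ) ≤ atTop) : ultraMean ω f ≤ B := by
  have := ultraMean_mono ω hf (BC.const B) h
  rwa [ultraMean_const ω B k0] at this

lemma ultraMean_nonneg {f : ℝ → ℝ} (hf : BC f) (h : ∀ t, 0 ≤ f t)
    (k0 : (ω : Filter ℕ) ≤ atTop) : 0 ≤ ultraMean ω f := by
  have := ultraMean_mono ω (BC.const 0) hf h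
  rwa [ultraMean_const ω 0 k0] at this

/-- translation invariance -/
lemma ultraMean_shift {f : ℝ → ℝ} (hf : BC f) (s : ℝ) (k0 : (ω : Filter ℕ) ≤ atTop) :
    ultraMean ω (fun t => f (t + s)) = ultraMean ω f := by
  obtain ⟨hfc, C, hC⟩ := id hf
  have hC0 : 0 ≤ C := (abs_nonneg _).trans (hC 0)
  have hdiff : ∀ k : ℕ, k ≠ 0 → |windowMean (fun t => f (t + s)) k - windowMean f k| ≤
      |s| * C * ((k : ℝ))⁻¹ := by
    intro k hk
    have hk' : (0 : ℝ) < k := Nat.cast_pos.mpr (Nat.pos_of_ne_zero hk)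
    simp only [windowMean_eq]
    rw [intervalIntegral.integral_comp_add_right f s, ← mul_sub]
    have hsplit : (∫ t in (-(k : ℝ) + s)..((k : ℝ) + s), f t) - ∫ t in (-(k : ℝ))..(k : ℝ), f t =
        (∫ t in (k : ℝ)..((k : ℝ) + s), f t) - ∫ t in (-(k : ℝ))..(-(k : ℝ) + s), f t := by
      have h1 := intervalIntegral.integral_add_adjacent_intervals (μ := volume)
        (hfc.intervalIntegrable (-(k : ℝ)) (-(k : ℝ) + s)) (hfc.intervalIntegrable (-(k : ℝ) + s) ((k : ℝ) + s))
      have h2 := intervalIntegral.integral_add_adjacent_intervals (μ := volume)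
        (hfc.intervalIntegrable (-(k : ℝ)) (k : ℝ)) (hfc.intervalIntegrable (k : ℝ) ((k : ℝ) + s))
      linarith
    rw [hsplit]
    have hb : ∀ a b : ℝ, |∫ t in a..b, f t| ≤ C * |b - a| := by
      intro a b
      have := intervalIntegral.norm_integral_le_of_norm_le_const (a := a) (b := b) (f := f) (C := C)
        (fun t _ => by rw [Real.norm_eq_abs]; exact hC t)
      simpa [Real.norm_eq_abs] using this
    have h3 := hb k (k + s)
    have h4 := hb (-(k : ℝ)) (-(k : ℝ) + s)
    have h5 : (k : ℝ) + s - k = s := by ring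
    have h6 : -(k : ℝ) + s - -k = s := by ring
    rw [h5] at h3
    rw [h6] at h4
    rw [abs_mul, abs_of_pos (by positivity : (0 : ℝ) < (2 * (k : ℝ))⁻¹)]
    calc _ ≤ (2 * (k : ℝ))⁻¹ * (C * |s| + C * |s|) := by
          gcongr
          exact (abs_sub _ _).trans (add_le_add h3 h4)
      _ = |s| * C * ((k : ℝ))⁻¹ := by
          field_simp
          try ring
  have hlim : Tendsto (fun k : ℕ => |s| * C * ((k : ℝ))⁻¹) (ω : Filter ℕ) (𝓝 0) := by
    have h1 : Tendsto (fun k : ℕ => ((k : ℝ))⁻¹) atTop (𝓝 0) :=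
      tendsto_inv_atTop_zero.comp tendsto_natCast_atTop_atTop
    have h2 := (h1.mono_left k0).const_mul (|s| * C)
    simpa using h2
  have h0 : Tendsto (fun k => windowMean (fun t => f (t + s)) k - windowMean f k)
      (ω : Filter ℕ) (𝓝 0) := by
    rw [tendsto_zero_iff_abs_tendsto_zero]
    refine squeeze_zero' (Filter.Eventually.of_forall (fun k => abs_nonneg _)) ?_ hlim
    have : ∀ᶠ k : ℕ in (ω : Filter ℕ), k ≠ 0 := k0 (eventually_ne_atTop 0)
    filter_upwards [this] with k hk using hdiff k hk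
  apply ultraMean_eq
  have := h0.add (tendsto_windowMean ω hf)
  rw [zero_add] at this
  refine this.congr (fun k => by ring)

end Mean

end Crest.Agent.H3
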