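import Crest.Prelude.Def_MassAction

/-!
Dynamics part of S0122: first exit lemma, moving polytopes, existence and uniqueness.
-/

set_option autoImplicit false
set_option linter.unusedSectionVars false

open Filter Set Topology Crest.AnalysisR.MassAction
open scoped NNReal

namespace Crest.Agent.H3RN

variable {d : ℕ}

/-- The standard pairing. -/
def ip (W x : Fin d → ℝ) : ℝ := ∑ i, W i * x i

lemma ip_add (W x y : Fin d → ℝ) : ip W (x + y) = ip W x + ip W y := by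
  simp [ip, mul_add, Finset.sum_add_distrib]

lemma ip_sub (W x y : Fin d → ℝ) : ip W (x - y) = ip W x - ip W y := by
  simp [ip, mul_sub, Finset.sum_sub_distrib]

lemma ip_smul (W x : Fin d → ℝ) (a : ℝ) : ip W (a • x) = a * ip W x := by
  simp only [ip, Pi.smul_apply, smul_eq_mul, Finset.mul_sum]
  exact Finset.sum_congr rfl (fun i _ => by ring)

lemma ip_sum {β : Type*} (W : Fin d → ℝ) (T : Finset β) (f : β → Fin d → ℝ) :
    ip W (∑ r ∈ T, f r) = ∑ r ∈ T, ip W (f r) := by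
  simp only [ip, Finset.sum_apply, Finset.mul_sum]
  exact Finset.sum_comm

lemma continuous_ip (W : Fin d → ℝ) : Continuous (fun x : Fin d → ℝ => ip W x) := by
  unfold ip
  fun_prop

lemma hasDeriv_ip {x : ℝ → Fin d → ℝ} {x' : Fin d → ℝ} {s : Set ℝ} {t : ℝ} (W : Fin d → ℝ)
    (h : HasDerivWithinAt x x' s t) : HasDerivWithinAt (fun t => ip W (x t)) (ip W x') s t := by
  unfold ip
  refine HasDerivWithinAt.fun_sum (fun i _ => ?_)
  exact ((hasDerivWithinAt_pi.mp h) i).const_mul _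

/-- First exit lemma for a finite family. -/
lemma first_exit {κ : Type*} {T : Set κ} (hT : T.Finite) {F F' : κ → ℝ → ℝ} {t₀ t₁ : ℝ}
    (hcont : ∀ k ∈ T, ContinuousOn (F k) (Icc t₀ t₁))
    (hder : ∀ k ∈ T, ∀ t ∈ Ico t₀ t₁, HasDerivWithinAt (F k) (F' k t) (Ici t) t)
    (h0 : ∀ k ∈ T, F k t₀ ≤ 0)
    (hneg : ∀ t ∈ Ico t₀ t₁, (∀ k ∈ T, F k t ≤ 0) → ∀ k ∈ T, F k t = 0 → F' k t < 0) :
    ∀ t ∈ Icc t₀ t₁, ∀ k ∈ T, F k t ≤ 0 := by
  set S : Set ℝ := {t | ∀ k ∈ T, F k t ≤ 0} with hS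
  have hclosed : IsClosed (S ∩ Icc t₀ t₁) := by
    have : S ∩ Icc t₀ t₁ = Icc t₀ t₁ ∩ ⋂ k ∈ T, (Icc t₀ t₁ ∩ (F k) ⁻¹' Iic 0) := by
      ext t
      simp only [hS, mem_inter_iff, mem_ofPred_eq, mem_iInter, mem_preimage, mem_Iic]
      constructor
      · rintro ⟨h1, h2⟩
        exact ⟨h2, fun k hk => ⟨h2, h1 k hk⟩⟩
      · rintro ⟨h1, h2⟩
        exact ⟨fun k hk => (h2 k hk).2, h1⟩
    rw [this]
    refine isClosed_Icc.inter ?_
    refine isClosed_biInter (fun k hk => ?_)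
    exact (hcont k hk).preimage_isClosed_of_isClosed isClosed_Icc isClosed_Iic
  by_cases hle : t₀ ≤ t₁
  swap
  · intro t ht
    exact absurd (ht.1.trans ht.2) hle
  have hsub : Icc t₀ t₁ ⊆ S := by
    refine hclosed.Icc_subset_of_forall_exists_gt h0 ?_
    rintro t ⟨ht, ht'⟩ y hy
    have hev : ∀ᶠ t' in 𝓝[>] t, ∀ k ∈ T, F k t' ≤ 0 := by
      rw [Filter.eventually_all_finite hT]
      intro k hk
      have hd := hder k hk t ht'
      have hd' := hd.mono (Ioi_subset_Ici_self)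
      rcases (ht k hk).lt_or_eq with hlt | heq
      · have hc : ContinuousWithinAt (F k) (Ioi t) t := hd'.continuousWithinAt
        have : ∀ᶠ t' in 𝓝[>] t, F k t' < 0 := hc.eventually (gt_mem_nhds hlt)
        exact this.mono (fun _ h => h.le)
      · have hneg' := hneg t ht' ht k hk heq
        have hs := (hasDerivWithinAt_iff_tendsto_slope' (by simp)).mp hd'
        have : ∀ᶠ t' in 𝓝[>] t, slope (F k) t t' < 0 := hs.eventually (gt_mem_nhds hneg')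
        filter_upwards [this, self_mem_nhdsWithin] with t' h1 h2
        have h3 : 0 < t' - t := sub_pos.mpr h2
        rw [slope_def_field, div_lt_iff₀ h3, zero_mul] at h1
        linarith
    have hev2 : ∀ᶠ t' in 𝓝[>] t, t' ∈ Ioc t y := Ioc_mem_nhdsGT hy
    obtain ⟨t', h1, h2⟩ := (hev.and hev2).exists
    exact ⟨t', h1, h2⟩
  exact hsub

/-- The field takes values in the stoichiometric subspace. -/
lemma field_mem (R : Network d) (k : (Fin d → ℕ) × (Fin d → ℕ) → ℝ) (x : Fin d → ℝ) :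
    field R k x ∈ stoichSubspace R := by
  unfold field
  refine Submodule.sum_mem _ (fun r hr => Submodule.smul_mem _ _ ?_)
  exact Submodule.subset_span ⟨r, hr, rfl⟩

lemma field_contDiff (R : Network d) (k : (Fin d → ℕ) × (Fin d → ℕ) → ℝ) :
    ContDiff ℝ 1 (field R k) := by
  have h : ∀ r : (Fin d → ℕ) × (Fin d → ℕ), ContDiff ℝ 1
      (fun x : Fin d → ℝ => (k r * ∏ i, x i ^ (r.1 i)) • reactionVector r) := by
    intro r
    have h1 : ContDiff ℝ 1 (fun x : Fin d → ℝ => ∏ i, x i ^ (r.1 i)) := by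
      refine contDiff_prod (fun i _ => ?_)
      exact ContDiff.pow (contDiff_apply ℝ ℝ i) _
    exact (contDiff_const.mul h1).smul contDiff_const
  have h2 : field R k = fun x => ∑ r ∈ R, (k r * ∏ i, x i ^ (r.1 i)) • reactionVector r := rfl
  rw [h2]
  exact ContDiff.sum (fun r _ => h r)

/-- Conservation: a curve with derivative in a subspace stays in a translate of it. -/
lemma conserv {S : Submodule ℝ (Fin d → ℝ)} {x f : ℝ → Fin d → ℝ} {t₀ t₁ : ℝ}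
    (hc : ContinuousOn x (Icc t₀ t₁))
    (hder : ∀ t ∈ Ico t₀ t₁, HasDerivWithinAt x (f t) (Ici t) t)
    (hf : ∀ t ∈ Ico t₀ t₁, f t ∈ S) :
    ∀ t ∈ Icc t₀ t₁, x t - x t₀ ∈ S := by
  intro t ht
  by_contra hne
  obtain ⟨ℓ, h1, h2⟩ := Submodule.exists_le_ker_of_notMem hne
  let ℓ' : (Fin d → ℝ) →L[ℝ] ℝ := LinearMap.toContinuousLinearMap ℓ
  have hℓ : ∀ y, ℓ' y = ℓ y := fun y => rfl
  have hconst := constant_of_has_deriv_right_zero (f := fun t => ℓ' (x t)) (a := t₀) (b := t₁)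
    (ℓ'.continuous.comp_continuousOn hc) (by
      intro s hs
      have h3 := ℓ'.hasFDerivAt.comp_hasDerivWithinAt s (hder s hs)
      have h4 : ℓ' (f s) = 0 := by
        rw [hℓ]
        exact h2 (hf s hs)
      rw [h4] at h3
      exact h3) t ht
  apply h1
  rw [map_sub, ← hℓ, ← hℓ]
  exact sub_eq_zero.mpr hconst

/-- The polytope. -/
def KK (R : Network d) (c : Fin d → ℝ) (Con : Set ((Fin d → ℝ) × (ℝ → ℝ))) (Rr : ℝ) :
    Set (Fin d → ℝ) :=
  {x | x - c ∈ stoichSubspace R ∧ ∀ κ ∈ Con, ip κ.1 x ≤ κ.2 Rr}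

lemma KK_convex (R : Network d) (c : Fin d → ℝ) (Con : Set ((Fin d → ℝ) × (ℝ → ℝ))) (Rr : ℝ) :
    Convex ℝ (KK R c Con Rr) := by
  rintro x ⟨hx1, hx2⟩ y ⟨hy1, hy2⟩ a b ha hb hab
  refine ⟨?_, ?_⟩
  · have : a • x + b • y - c = a • (x - c) + b • (y - c) := by
      have hb' : b = 1 - a := by linarith
      subst hb'
      ext i
      simp only [Pi.sub_apply, Pi.add_apply, Pi.smul_apply, smul_eq_mul]
      ring
    rw [this]
    exact Submodule.add_mem _ (Submodule.smul_mem _ _ hx1) (Submodule.smul_mem _ _ hy1)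
  · intro κ hκ
    rw [ip_add, ip_smul, ip_smul]
    have h1 := hx2 κ hκ
    have h2 := hy2 κ hκ
    have hb' : b = 1 - a := by linarith
    subst hb'
    nlinarith

lemma KK_closed (R : Network d) (c : Fin d → ℝ) (Con : Set ((Fin d → ℝ) × (ℝ → ℝ))) (Rr : ℝ) :
    IsClosed (KK R c Con Rr) := by
  have h1 : IsClosed {x : Fin d → ℝ | x - c ∈ stoichSubspace R} :=
    (Submodule.closed_of_finiteDimensional (stoichSubspace R)).preimage
      (continuous_id.sub continuous_const)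
  have h2 : IsClosed {x : Fin d → ℝ | ∀ κ ∈ Con, ip κ.1 x ≤ κ.2 Rr} := by
    simp only [ofPred_forall]
    refine isClosed_biInter (fun κ _ => ?_)
    exact isClosed_le (continuous_ip _) continuous_const
  exact h1.inter h2

/-- The moving polytope lemma. -/
lemma stay {R : Network d} {c : Fin d → ℝ} {Con : Set ((Fin d → ℝ) × (ℝ → ℝ))} (hfin : Con.Finite)
    (hsm : ∀ κ ∈ Con, ContDiff ℝ 1 κ.2) {v : (Fin d → ℝ) → (Fin d → ℝ)} {R₀ R' gap Lmax γ t₀ t₁ : ℝ}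
    (hgap : ∀ Rr ∈ Icc R₀ R', ∀ x ∈ KK R c Con Rr, ∀ κ ∈ Con, ip κ.1 x = κ.2 Rr →
      ip κ.1 (v x) ≤ -gap)
    (hL : ∀ κ ∈ Con, ∀ r ∈ Icc R₀ R', |deriv κ.2 r| ≤ Lmax)
    (hγ0 : 0 ≤ γ) (hγ : γ * Lmax < gap) (hend : R₀ ≤ R' - γ * (t₁ - t₀))
    {x f : ℝ → Fin d → ℝ}
    (hc : ContinuousOn x (Icc t₀ t₁))
    (hder : ∀ t ∈ Ico t₀ t₁, HasDerivWithinAt x (f t) (Ici t) t)
    (hf : ∀ t ∈ Ico t₀ t₁, x t ∈ KK R c Con (R' - γ * (t - t₀)) → f t = v (x t))
    (hS : ∀ t ∈ Icc t₀ t₁, x t - c ∈ stoichSubspace R)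
    (h0 : x t₀ ∈ KK R c Con R') :
    ∀ t ∈ Icc t₀ t₁, x t ∈ KK R c Con (R' - γ * (t - t₀)) := by
  have hr : ∀ t ∈ Icc t₀ t₁, R' - γ * (t - t₀) ∈ Icc R₀ R' := by
    intro t ht
    constructor
    · have : γ * (t - t₀) ≤ γ * (t₁ - t₀) := mul_le_mul_of_nonneg_left (by linarith [ht.2]) hγ0
      linarith
    · have : 0 ≤ γ * (t - t₀) := mul_nonneg hγ0 (by linarith [ht.1])
      linarith
  have key := first_exit (κ := (Fin d → ℝ) × (ℝ → ℝ)) (T := Con) hfin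
    (F := fun κ t => ip κ.1 (x t) - κ.2 (R' - γ * (t - t₀)))
    (F' := fun κ t => ip κ.1 (f t) + γ * deriv κ.2 (R' - γ * (t - t₀)))
    (t₀ := t₀) (t₁ := t₁) ?_ ?_ ?_ ?_
  · intro t ht
    refine ⟨hS t ht, fun κ hκ => ?_⟩
    have := key t ht κ hκ
    linarith
  · intro κ hκ
    refine ContinuousOn.sub ((continuous_ip κ.1).comp_continuousOn hc) ?_
    refine ((hsm κ hκ).continuous.comp ?_).continuousOn
    fun_prop
  · intro κ hκ t ht
    have h1 := hasDeriv_ip κ.1 (hder t ht)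
    have hd : HasDerivAt κ.2 (deriv κ.2 (R' - γ * (t - t₀))) (R' - γ * (t - t₀)) :=
      ((hsm κ hκ).differentiable (by norm_num) _).hasDerivAt
    have hr' : HasDerivAt (fun t => R' - γ * (t - t₀)) (-γ) t := by
      have := ((hasDerivAt_id t).sub_const t₀).const_mul γ
      simpa using this.const_sub R'
    have h2 := (hd.comp t hr').hasDerivWithinAt (s := Ici t)
    have h3 := h1.sub h2
    exact h3.congr_deriv (by ring)
  · intro κ hκ
    have := h0.2 κ hκ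
    simp only [sub_self, mul_zero, sub_zero]
    linarith
  · intro t ht hall κ hκ heq
    have htI : t ∈ Icc t₀ t₁ := ⟨ht.1, ht.2.le⟩
    have hmem : x t ∈ KK R c Con (R' - γ * (t - t₀)) := by
      refine ⟨hS t htI, fun κ' hκ' => ?_⟩
      have := hall κ' hκ'
      linarith
    have h1 := hgap _ (hr t htI) (x t) hmem κ hκ (by
      linarith)
    rw [← hf t ht hmem] at h1
    have h2 := hL κ hκ _ (hr t htI)
    have h3 : γ * deriv κ.2 (R' - γ * (t - t₀)) ≤ γ * Lmax :=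
      mul_le_mul_of_nonneg_left ((le_abs_self _).trans h2) hγ0
    linarith

/-- Uniqueness of solutions in a set on which the field is Lipschitz. -/
lemma uniq {v : (Fin d → ℝ) → (Fin d → ℝ)} {K' : Set (Fin d → ℝ)} {K₀ : ℝ≥0}
    (hL : LipschitzOnWith K₀ v K') {g₁ g₂ : ℝ → Fin d → ℝ} {T : ℝ}
    (hc₁ : ContinuousOn g₁ (Icc 0 T)) (hd₁ : ∀ t ∈ Ico 0 T, HasDerivWithinAt g₁ (v (g₁ t)) (Ici t) t)
    (hm₁ : ∀ t ∈ Ico 0 T, g₁ t ∈ K')
    (hc₂ : ContinuousOn g₂ (Icc 0 T)) (hd₂ : ∀ t ∈ Ico 0 T, HasDerivWithinAt g₂ (v (g₂ t)) (Ici t) t)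
    (hm₂ : ∀ t ∈ Ico 0 T, g₂ t ∈ K')
    (h0 : g₁ 0 = g₂ 0) : ∀ t ∈ Icc 0 T, g₁ t = g₂ t := by
  intro t ht
  have := dist_le_of_trajectories_ODE_of_mem (v := fun _ => v) (s := fun _ => K') (K := K₀)
    (f := g₁) (g := g₂) (a := 0) (b := T) (δ := 0) (fun _ _ => hL) hc₁ hd₁ hm₁ hc₂ hd₂ hm₂
    (by rw [h0, dist_self]) t ht
  rw [zero_mul] at this
  exact dist_le_zero.mp this

/-- The clamp onto the box `[0, B]^d`. -/
noncomputable def clamp (B : ℝ) (y : Fin d → ℝ) : Fin d → ℝ := fun i => max 0 (min (y i) B)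

lemma clamp_lip (B : ℝ) : LipschitzWith 1 (clamp (d := d) B) := by
  refine LipschitzWith.of_dist_le_mul ?_
  intro y z
  rw [NNReal.coe_one, one_mul, dist_pi_le_iff dist_nonneg]
  intro i
  have h1 : LipschitzWith 1 (fun a : ℝ => max 0 (min a B)) :=
    (LipschitzWith.id.min_const B).const_max 0
  have h2 := h1.dist_le_mul (y i) (z i)
  rw [NNReal.coe_one, one_mul] at h2
  exact h2.trans (dist_le_pi_dist y z i)

lemma clamp_mem {B : ℝ} (hB : 0 ≤ B) (y : Fin d → ℝ) :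
    clamp B y ∈ Icc (0 : Fin d → ℝ) (fun _ => B) := by
  constructor
  · intro i
    exact le_max_left _ _
  · intro i
    exact max_le hB (min_le_right _ _)

lemma clamp_of_mem {B : ℝ} {y : Fin d → ℝ} (hy : ∀ i, 0 ≤ y i ∧ y i ≤ B) : clamp B y = y := by
  ext i
  simp only [clamp]
  rw [min_eq_left (hy i).2, max_eq_right (hy i).1]

/-- Local existence: a solution on `[0, T]` staying in the polytope. -/
lemma exists_local {R : Network d} {k : (Fin d → ℕ) × (Fin d → ℕ) → ℝ} {c : Fin d → ℝ}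
    {Con : Set ((Fin d → ℝ) × (ℝ → ℝ))} (hfin : Con.Finite)
    (hsm : ∀ κ ∈ Con, ContDiff ℝ 1 κ.2) {R₀ R' gap Lmax B : ℝ} (hgap0 : 0 < gap)
    (hR' : R₀ ≤ R')
    (hgap : ∀ Rr ∈ Icc R₀ R', ∀ x ∈ KK R c Con Rr, ∀ κ ∈ Con, ip κ.1 x = κ.2 Rr →
      ip κ.1 (field R k x) ≤ -gap)
    (hL : ∀ κ ∈ Con, ∀ r ∈ Icc R₀ R', |deriv κ.2 r| ≤ Lmax)
    (hB0 : 0 ≤ B) (hB : ∀ x ∈ KK R c Con R', ∀ i, 0 ≤ x i ∧ x i ≤ B)
    {x₀ : Fin d → ℝ} (hx₀ : x₀ ∈ KK R c Con R') {T : ℝ} (hT : 0 ≤ T) :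
    ∃ α : ℝ → Fin d → ℝ, α 0 = x₀ ∧
      (∀ t ∈ Icc 0 T, HasDerivWithinAt α (field R k (α t)) (Icc 0 T) t) ∧
      (∀ t ∈ Icc 0 T, α t ∈ KK R c Con R') := by
  set v := field R k with hv
  set box : Set (Fin d → ℝ) := Icc (0 : Fin d → ℝ) (fun _ => B) with hbox
  have hboxc : IsCompact box := isCompact_Icc
  obtain ⟨K₀, hK₀⟩ := ((field_contDiff R k).locallyLipschitz.locallyLipschitzOn
    (s := box)).exists_lipschitzOnWith_of_compact hboxc
  set w : (Fin d → ℝ) → (Fin d → ℝ) := fun y => v (clamp B y) with hw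
  have hwlip : LipschitzWith K₀ w := by
    have h1 : LipschitzOnWith K₀ v box := hK₀
    refine LipschitzWith.of_dist_le_mul ?_
    intro y z
    have h2 := h1.dist_le_mul _ (clamp_mem hB0 y) _ (clamp_mem hB0 z)
    have h3 := (clamp_lip (d := d) B).dist_le_mul y z
    rw [NNReal.coe_one, one_mul] at h3
    exact h2.trans (mul_le_mul_of_nonneg_left h3 K₀.coe_nonneg)
  obtain ⟨L₀, hL₀⟩ := hboxc.exists_bound_of_continuousOn (field_contDiff R k).continuous.continuousOn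
  have hwb : ∀ y, ‖w y‖ ≤ max L₀ 0 := fun y => (hL₀ _ (clamp_mem hB0 y)).trans (le_max_left _ _)
  let L : ℝ≥0 := ⟨max L₀ 0, le_max_right _ _⟩
  let TT : ℝ≥0 := T.toNNReal
  have hTT : ((L * TT : ℝ≥0) : ℝ) = (L : ℝ) * T := by
    rw [NNReal.coe_mul, Real.coe_toNNReal _ hT]
  have hT0 : (0 : ℝ) ∈ Icc (0 : ℝ) T := ⟨le_rfl, hT⟩
  have hPL : IsPicardLindelof (fun _ => w) (tmin := 0) (tmax := T) ⟨0, hT0⟩ x₀ (L * TT) 0 L K₀ :=
    IsPicardLindelof.of_time_independent (fun y _ => hwb y) (hwlip.lipschitzOnWith) (by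
      rw [hTT]
      simp [hT])
  obtain ⟨α, hα0, hα⟩ := hPL.exists_eq_forall_mem_Icc_hasDerivWithinAt₀
  simp only at hα0 hα
  -- conservation
  have hαcont : ContinuousOn α (Icc 0 T) := fun t ht => (hα t ht).continuousWithinAt
  have hαr : ∀ t ∈ Ico 0 T, HasDerivWithinAt α (w (α t)) (Ici t) t := by
    intro t ht
    refine (hα t ⟨ht.1, ht.2.le⟩).mono_of_mem_nhdsWithin ?_
    exact mem_of_superset (Icc_mem_nhdsGE ht.2) (Icc_subset_Icc_left ht.1)
  have hcons := conserv (S := stoichSubspace R) hαcont hαr (fun t _ => field_mem R k _)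
  have hS : ∀ t ∈ Icc 0 T, α t - c ∈ stoichSubspace R := by
    intro t ht
    have h1 := hcons t ht
    have h2 := hx₀.1
    rw [hα0] at h1
    have : α t - c = (α t - x₀) + (x₀ - c) := by abel
    rw [this]
    exact Submodule.add_mem _ h1 h2
  have hstay := stay hfin hsm (R := R) (c := c) (v := v) (R₀ := R₀) (R' := R') (gap := gap)
    (Lmax := Lmax) (γ := 0) (t₀ := 0) (t₁ := T) hgap hL le_rfl (by simpa using hgap0)
    (by simpa using hR') hαcont hαr (by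
      intro t _ hmem
      simp only [zero_mul, sub_zero] at hmem
      show v (clamp B (α t)) = v (α t)
      rw [clamp_of_mem (hB _ hmem)]) hS (by rw [hα0]; exact hx₀)
  have hmem : ∀ t ∈ Icc 0 T, α t ∈ KK R c Con R' := by
    intro t ht
    have := hstay t ht
    simpa using this
  refine ⟨α, hα0, ?_, hmem⟩
  intro t ht
  have h1 := hα t ht
  have h2 : w (α t) = v (α t) := by
    show v (clamp B (α t)) = v (α t)
    rw [clamp_of_mem (hB _ (hmem t ht))]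
  rw [h2] at h1
  exact h1

/-- Gluing the local solutions. -/
lemma glue {v : (Fin d → ℝ) → (Fin d → ℝ)} {K' : Set (Fin d → ℝ)} {K₀ : ℝ≥0}
    (hL : LipschitzOnWith K₀ v K') {x₀ : Fin d → ℝ}
    (hloc : ∀ T : ℝ, 0 ≤ T → ∃ α : ℝ → Fin d → ℝ, α 0 = x₀ ∧
      (∀ t ∈ Icc 0 T, HasDerivWithinAt α (v (α t)) (Icc 0 T) t) ∧ (∀ t ∈ Icc 0 T, α t ∈ K')) :
    ∃ x : ℝ → Fin d → ℝ, IsForwardSolution v x ∧ x 0 = x₀ := by
  have hloc' : ∀ n : ℕ, ∃ α : ℝ → Fin d → ℝ, α 0 = x₀ ∧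
      (∀ t ∈ Icc (0 : ℝ) n, HasDerivWithinAt α (v (α t)) (Icc (0 : ℝ) n) t) ∧
      (∀ t ∈ Icc (0 : ℝ) n, α t ∈ K') := fun n => hloc n (Nat.cast_nonneg n)
  choose α hα0 hαd hαm using hloc'
  -- all these agree
  have hagree : ∀ (n m : ℕ), n ≤ m → ∀ t ∈ Icc (0 : ℝ) n, α n t = α m t := by
    intro n m hnm
    have hnm' : (n : ℝ) ≤ m := by exact_mod_cast hnm
    have hsub : Icc (0 : ℝ) n ⊆ Icc (0 : ℝ) m := Icc_subset_Icc_right hnm'
    refine uniq hL (g₁ := α n) (g₂ := α m) (T := n) ?_ ?_ ?_ ?_ ?_ ?_ ?_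
    · exact fun t ht => (hαd n t ht).continuousWithinAt
    · intro t ht
      refine (hαd n t ⟨ht.1, ht.2.le⟩).mono_of_mem_nhdsWithin ?_
      exact mem_of_superset (Icc_mem_nhdsGE ht.2) (Icc_subset_Icc_left ht.1)
    · exact fun t ht => hαm n t ⟨ht.1, ht.2.le⟩
    · exact fun t ht => ((hαd m t (hsub ht)).continuousWithinAt).mono hsub
    · intro t ht
      have htm : t < m := lt_of_lt_of_le ht.2 hnm'
      refine (hαd m t ⟨ht.1, htm.le⟩).mono_of_mem_nhdsWithin ?_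
      exact mem_of_superset (Icc_mem_nhdsGE htm) (Icc_subset_Icc_left ht.1)
    · exact fun t ht => hαm m t (hsub ⟨ht.1, ht.2.le⟩)
    · rw [hα0, hα0]
  let x : ℝ → Fin d → ℝ := fun t => α (⌈t⌉₊ + 1) t
  refine ⟨x, ?_, ?_⟩
  · intro t ht
    set N := ⌈t⌉₊ + 2 with hN
    have hNt : t + 1 ≤ (N : ℝ) := by
      have := Nat.le_ceil t
      rw [hN]
      push_cast
      linarith
    have hNpos : (0 : ℝ) ≤ N := Nat.cast_nonneg N
    -- `x` agrees with `α N` near `t`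
    have heq : ∀ s ∈ Icc (0 : ℝ) (t + 1), x s = α N s := by
      intro s hs
      have h1 : ⌈s⌉₊ + 1 ≤ N := by
        have h2 : ⌈s⌉₊ ≤ ⌈t⌉₊ + 1 := by
          apply Nat.ceil_le.mpr
          have := Nat.le_ceil t
          push_cast
          linarith [hs.2]
        omega
      refine hagree _ _ h1 s ⟨hs.1, ?_⟩
      have := Nat.le_ceil s
      push_cast
      linarith
    have htI : t ∈ Icc (0 : ℝ) (t + 1) := ⟨ht, by linarith⟩
    have h1 := hαd N t ⟨ht, by linarith⟩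
    have hnhds : Icc (0 : ℝ) (t + 1) ∈ 𝓝[Ici 0] t := by
      rw [← Ici_inter_Iic]
      exact inter_mem_nhdsWithin _ (Iic_mem_nhds (show t < t + 1 by linarith))
    have h2 : HasDerivWithinAt (α N) (v (α N t)) (Ici 0) t := by
      refine h1.mono_of_mem_nhdsWithin ?_
      exact mem_of_superset hnhds (Icc_subset_Icc_right (by linarith))
    rw [show x t = α N t from heq t htI]
    refine h2.congr_of_eventuallyEq ?_ (heq t htI)
    filter_upwards [hnhds] with s hs using heq s hs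
  · show α (⌈(0 : ℝ)⌉₊ + 1) 0 = x₀
    exact hα0 _

/-- The abstract dynamics theorem. -/
theorem dyn_main (R : Network d) (k : (Fin d → ℕ) × (Fin d → ℕ) → ℝ) (c : Fin d → ℝ)
    (Con : Set ((Fin d → ℝ) × (ℝ → ℝ))) (hfin : Con.Finite) (hsm : ∀ κ ∈ Con, ContDiff ℝ 1 κ.2)
    (R₀ : ℝ)
    (hbox : ∀ R' ≥ R₀, ∃ B : ℝ, ∀ Rr ∈ Icc R₀ R', ∀ x ∈ KK R c Con Rr, ∀ i, 0 < x i ∧ x i ≤ B)
    (hgap : ∀ R' ≥ R₀, ∃ gap > 0, ∀ Rr ∈ Icc R₀ R', ∀ x ∈ KK R c Con Rr, ∀ κ ∈ Con,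
      ip κ.1 x = κ.2 Rr → ip κ.1 (field R k x) ≤ -gap)
    (hex : ∀ x₀ ∈ positiveClass R c, ∃ R' ≥ R₀, x₀ ∈ KK R c Con R')
    (hne : (KK R c Con R₀).Nonempty) :
    ∃ K : Set (Fin d → ℝ), K ⊆ positiveClass R c ∧ K.Nonempty ∧ IsCompact K ∧ Convex ℝ K ∧
      (∀ x : ℝ → (Fin d → ℝ), IsForwardSolution (field R k) x → x 0 ∈ K →
        ∀ t : ℝ, 0 ≤ t → x t ∈ K) ∧
      (∀ x₀ ∈ positiveClass R c,
        (∃ x : ℝ → (Fin d → ℝ), IsForwardSolution (field R k) x ∧ x 0 = x₀) ∧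
        (∀ x x' : ℝ → (Fin d → ℝ), IsForwardSolution (field R k) x →
          IsForwardSolution (field R k) x' → x 0 = x₀ → x' 0 = x₀ →
          ∀ t : ℝ, 0 ≤ t → x t = x' t) ∧
        (∀ x : ℝ → (Fin d → ℝ), IsForwardSolution (field R k) x → x 0 = x₀ →
          (∀ t : ℝ, 0 ≤ t → ∀ i, 0 < x t i) ∧
          ∃ T : ℝ, 0 ≤ T ∧ ∀ t : ℝ, T ≤ t → x t ∈ K)) := by
  set v := field R k with hv
  -- bounds on the derivative of the offsets
  have hLex : ∀ R' : ℝ, ∃ Lmax : ℝ, 0 ≤ Lmax ∧ ∀ κ ∈ Con, ∀ r ∈ Icc R₀ R', |deriv κ.2 r| ≤ Lmax := by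
    intro R'
    have hcomp : ∀ κ ∈ Con, ∃ C : ℝ, ∀ r ∈ Icc R₀ R', |deriv κ.2 r| ≤ C := by
      intro κ hκ
      have hcont : Continuous (deriv κ.2) := (hsm κ hκ).continuous_deriv (by norm_num)
      obtain ⟨C, hC⟩ := isCompact_Icc.exists_bound_of_continuousOn hcont.continuousOn
      exact ⟨C, fun r hr => by simpa using hC r hr⟩
    choose! C hC using hcomp
    obtain ⟨Lm, hLm⟩ := (hfin.image C).bddAbove
    refine ⟨max Lm 0, le_max_right _ _, ?_⟩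
    intro κ hκ r hr
    exact ((hC κ hκ r hr).trans (hLm (mem_image_of_mem C hκ))).trans (le_max_left _ _)
  -- solutions obey conservation
  have hcons : ∀ x : ℝ → Fin d → ℝ, IsForwardSolution v x → ∀ t, 0 ≤ t →
      x t - x 0 ∈ stoichSubspace R := by
    intro x hx t ht
    have hcont : ContinuousOn x (Icc 0 t) := fun s hs =>
      ((hx s hs.1).continuousWithinAt).mono (fun u hu => hu.1)
    have hd : ∀ s ∈ Ico 0 t, HasDerivWithinAt x (v (x s)) (Ici s) s := fun s hs =>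
      (hx s hs.1).mono (Ici_subset_Ici.mpr hs.1)
    exact conserv hcont hd (fun s _ => field_mem R k _) t ⟨ht, le_rfl⟩
  -- general persistence for a solution
  have hpers : ∀ (x : ℝ → Fin d → ℝ), IsForwardSolution v x → x 0 - c ∈ stoichSubspace R →
      ∀ (R' gap Lmax γ t₀ t₁ : ℝ), R₀ ≤ R' - γ * (t₁ - t₀) → 0 ≤ t₀ → 0 ≤ γ → γ * Lmax < gap →
      (∀ Rr ∈ Icc R₀ R', ∀ x ∈ KK R c Con Rr, ∀ κ ∈ Con,
        ip κ.1 x = κ.2 Rr → ip κ.1 (field R k x) ≤ -gap) →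
      (∀ κ ∈ Con, ∀ r ∈ Icc R₀ R', |deriv κ.2 r| ≤ Lmax) →
      x t₀ ∈ KK R c Con R' → ∀ t ∈ Icc t₀ t₁, x t ∈ KK R c Con (R' - γ * (t - t₀)) := by
    intro x hx hx0 R' gap Lmax γ t₀ t₁ hend ht₀ hγ0 hγ hg hL h0
    refine stay hfin hsm (v := v) hg hL hγ0 hγ hend ?_ ?_ (fun _ _ _ => rfl) ?_ h0
    · exact fun s hs => ((hx s (ht₀.trans hs.1)).continuousWithinAt).mono
        (fun u hu => ht₀.trans hu.1)
    · exact fun s hs => (hx s (ht₀.trans hs.1)).mono (Ici_subset_Ici.mpr (ht₀.trans hs.1))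
    · intro s hs
      have h1 := hcons x hx s (ht₀.trans hs.1)
      have : x s - c = (x s - x 0) + (x 0 - c) := by abel
      rw [this]
      exact Submodule.add_mem _ h1 hx0
  -- invariance of each polytope, for all time from `t₀`
  have hinv : ∀ (x : ℝ → Fin d → ℝ), IsForwardSolution v x → x 0 - c ∈ stoichSubspace R →
      ∀ (R' t₀ : ℝ), R₀ ≤ R' → 0 ≤ t₀ → x t₀ ∈ KK R c Con R' → ∀ t, t₀ ≤ t → x t ∈ KK R c Con R' := by
    intro x hx hx0 R' t₀ hR' ht₀ h0 t ht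
    obtain ⟨gap, hgap0, hg⟩ := hgap R' hR'
    obtain ⟨Lmax, _, hL⟩ := hLex R'
    have := hpers x hx hx0 R' gap Lmax 0 t₀ t (by simpa using hR') ht₀ le_rfl (by simpa using hgap0)
      hg hL h0 t ⟨ht, le_rfl⟩
    simpa using this
  have hKK_pos : ∀ x ∈ KK R c Con R₀, x ∈ positiveClass R c := by
    intro x hx
    obtain ⟨B, hB⟩ := hbox R₀ le_rfl
    exact ⟨fun i => (hB R₀ ⟨le_rfl, le_rfl⟩ x hx i).1, hx.1⟩
  have hcompact : IsCompact (KK R c Con R₀) := by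
    obtain ⟨B, hB⟩ := hbox R₀ le_rfl
    refine IsCompact.of_isClosed_subset (isCompact_Icc (a := (0 : Fin d → ℝ)) (b := fun _ => B))
      (KK_closed R c Con R₀) ?_
    intro x hx
    exact ⟨fun i => (hB R₀ ⟨le_rfl, le_rfl⟩ x hx i).1.le, fun i => (hB R₀ ⟨le_rfl, le_rfl⟩ x hx i).2⟩
  refine ⟨KK R c Con R₀, hKK_pos, hne, hcompact, KK_convex R c Con R₀, ?_, ?_⟩
  · intro x hx h0 t ht
    exact hinv x hx h0.1 R₀ 0 le_rfl le_rfl h0 t ht
  intro x₀ hx₀
  obtain ⟨R', hR', hx₀K⟩ := hex x₀ hx₀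
  obtain ⟨B₁, hB₁⟩ := hbox R' hR'
  set B := max B₁ 0 with hBdef
  have hB : ∀ Rr ∈ Icc R₀ R', ∀ x ∈ KK R c Con Rr, ∀ i, 0 < x i ∧ x i ≤ B := fun Rr hRr x hx i =>
    ⟨(hB₁ Rr hRr x hx i).1, (hB₁ Rr hRr x hx i).2.trans (le_max_left _ _)⟩
  have hR'mem : R' ∈ Icc R₀ R' := ⟨hR', le_rfl⟩
  have hB' : ∀ x ∈ KK R c Con R', ∀ i, 0 ≤ x i ∧ x i ≤ B := fun x hx i =>
    ⟨(hB R' hR'mem x hx i).1.le, (hB R' hR'mem x hx i).2⟩
  obtain ⟨gap', hgap0', hg'⟩ := hgap R' hR'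
  obtain ⟨Lmax', hLmax0', hL'⟩ := hLex R'
  have hB0 : 0 ≤ B := le_max_right _ _
  have hsol_in : ∀ x : ℝ → Fin d → ℝ, IsForwardSolution v x → x 0 = x₀ → ∀ t, 0 ≤ t →
      x t ∈ KK R c Con R' := by
    intro x hx h0 t ht
    refine hinv x hx ?_ R' 0 hR' le_rfl ?_ t ht
    · rw [h0]; exact hx₀K.1
    · rw [h0]; exact hx₀K
  -- Lipschitz on the compact polytope
  have hcompact' : IsCompact (KK R c Con R') := by
    refine IsCompact.of_isClosed_subset (isCompact_Icc (a := (0 : Fin d → ℝ)) (b := fun _ => B))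
      (KK_closed R c Con R') ?_
    intro x hx
    exact ⟨fun i => (hB' x hx i).1, fun i => (hB' x hx i).2⟩
  obtain ⟨K₀, hK₀⟩ := ((field_contDiff R k).locallyLipschitz.locallyLipschitzOn
    (s := KK R c Con R')).exists_lipschitzOnWith_of_compact hcompact'
  refine ⟨?_, ?_, ?_⟩
  · -- existence
    refine glue hK₀ ?_
    intro T hT
    exact exists_local hfin hsm hgap0' hR' hg' hL' hB0 hB' hx₀K hT
  · -- uniqueness
    intro x x' hx hx' h0 h0' t ht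
    refine uniq hK₀ (g₁ := x) (g₂ := x') (T := t) ?_ ?_ ?_ ?_ ?_ ?_ (h0.trans h0'.symm) t ⟨ht, le_rfl⟩
    · exact fun s hs => ((hx s hs.1).continuousWithinAt).mono (fun u hu => hu.1)
    · exact fun s hs => (hx s hs.1).mono (Ici_subset_Ici.mpr hs.1)
    · exact fun s hs => hsol_in x hx h0 s hs.1
    · exact fun s hs => ((hx' s hs.1).continuousWithinAt).mono (fun u hu => hu.1)
    · exact fun s hs => (hx' s hs.1).mono (Ici_subset_Ici.mpr hs.1)
    · exact fun s hs => hsol_in x' hx' h0' s hs.1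
  · intro x hx h0
    refine ⟨fun t ht i => (hB R' hR'mem _ (hsol_in x hx h0 t ht) i).1, ?_⟩
    -- absorption
    set γ := gap' / (2 * (Lmax' + 1)) with hγdef
    have hγ0 : 0 < γ := by positivity
    have hγ : γ * Lmax' < gap' := by
      rw [hγdef, div_mul_eq_mul_div, div_lt_iff₀ (by positivity)]
      nlinarith
    set T := (R' - R₀) / γ with hT
    have hT0 : 0 ≤ T := div_nonneg (by linarith) hγ0.le
    have hγT : γ * T = R' - R₀ := by
      rw [hT]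
      field_simp
    have hx0 : x 0 - c ∈ stoichSubspace R := by rw [h0]; exact hx₀K.1
    have h1 := hpers x hx hx0 R' gap' Lmax' γ 0 T (by rw [sub_zero, hγT]; linarith) le_rfl hγ0.le hγ
      hg' hL' (by rw [h0]; exact hx₀K) T ⟨hT0, le_rfl⟩
    rw [sub_zero, hγT, show R' - (R' - R₀) = R₀ by ring] at h1
    refine ⟨T, hT0, ?_⟩
    intro t ht
    exact hinv x hx hx0 R₀ T le_rfl hT0 h1 t ht

end Crest.Agent.H3RN
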