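import Crest.Agent.H3RNGeo

/-!
The polytopes of S0122: constraints and the tower of scales.
-/

set_option autoImplicit false
set_option linter.unusedSectionVars false

open Filter Finset Crest.AnalysisR.MassAction

namespace Crest.Agent.H3RN

variable {d : ℕ} {J : Type} [Fintype J]

/-- The top constraint attached to a piece. -/
noncomputable def conT (p : Piece d) : (Fin d → ℝ) × (ℝ → ℝ) :=
  (p.1, fun Rr => p.2 Rr + Real.exp Rr)

open Classical in
/-- The low constraint attached to a piece. -/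
noncomputable def conL (r : ℝ) (A : Finset (Fin d)) (p : Piece d) : (Fin d → ℝ) × (ℝ → ℝ) :=
  (fun i => if i ∈ A then p.1 i else 0, fun Rr => p.2 (r * Rr) - Real.exp (-(r * Rr)))

/-- All the constraints. -/
def Con (PT : Set (Piece d)) (PL : Finset (Fin d) → Set (Piece d)) (ρ : Finset (Fin d) → ℝ) :
    Set ((Fin d → ℝ) × (ℝ → ℝ)) :=
  conT '' PT ∪ ⋃ A ∈ {A : Finset (Fin d) | A.Nonempty}, conL (ρ A) A '' PL A

lemma sum_ite_right (f w : Fin d → ℝ) (A : Finset (Fin d)) [DecidablePred (· ∈ A)] :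
    ∑ i, f i * (if i ∈ A then w i else 0) = ∑ i ∈ A, f i * w i := by
  calc ∑ i, f i * (if i ∈ A then w i else 0) = ∑ i ∈ A, f i * (if i ∈ A then w i else 0) :=
        (Finset.sum_subset (Finset.subset_univ A) (fun i _ hi => by rw [if_neg hi, mul_zero])).symm
    _ = ∑ i ∈ A, f i * w i := Finset.sum_congr rfl (fun i hi => by rw [if_pos hi])

lemma sum_ite_left (w x : Fin d → ℝ) (A : Finset (Fin d)) [DecidablePred (· ∈ A)] :
    ∑ i, (if i ∈ A then w i else 0) * x i = ∑ i ∈ A, w i * x i := by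
  calc ∑ i, (if i ∈ A then w i else 0) * x i = ∑ i ∈ A, (if i ∈ A then w i else 0) * x i :=
        (Finset.sum_subset (Finset.subset_univ A) (fun i _ hi => by rw [if_neg hi, zero_mul])).symm
    _ = ∑ i ∈ A, w i * x i := Finset.sum_congr rfl (fun i hi => by rw [if_pos hi])

lemma ip_conL (r : ℝ) (A : Finset (Fin d)) (p : Piece d) (x : Fin d → ℝ) :
    ip (conL r A p).1 x = ∑ i ∈ A, p.1 i * x i := by
  classical
  unfold ip conL
  exact sum_ite_left _ _ _

lemma mem_KK_iff {R : Network d} {c : Fin d → ℝ} {PT : Set (Piece d)}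
    {PL : Finset (Fin d) → Set (Piece d)} {ρ : Finset (Fin d) → ℝ} {Rr : ℝ} {x : Fin d → ℝ} :
    x ∈ KK R c (Con PT PL ρ) Rr ↔ x - c ∈ stoichSubspace R ∧ QQ PT PL ρ Rr x := by
  constructor
  · rintro ⟨h1, h2⟩
    refine ⟨h1, ?_, ?_⟩
    · intro p hp
      have h3 := h2 (conT p) (Or.inl ⟨p, hp, rfl⟩)
      simp only [conT, ip] at h3
      unfold val
      linarith
    · intro A hA p hp
      have h3 := h2 (conL (ρ A) A p) (Or.inr (by
        simp only [Set.mem_iUnion]
        exact ⟨A, hA, p, hp, rfl⟩))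
      rw [ip_conL] at h3
      simp only [conL] at h3
      unfold val
      linarith
  · rintro ⟨h1, h2, h3⟩
    refine ⟨h1, ?_⟩
    rintro κ (⟨p, hp, rfl⟩ | hκ)
    · have h4 := h2 p hp
      unfold val at h4
      simp only [conT, ip]
      linarith
    · simp only [Set.mem_iUnion] at hκ
      obtain ⟨A, hA, p, hp, rfl⟩ := hκ
      have h4 := h3 A hA p hp
      unfold val at h4
      rw [ip_conL]
      simp only [conL]
      linarith

lemma ortho {R : Network d} {W : Fin d → ℝ} (h : ∀ r ∈ R, ip W (reactionVector r) = 0)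
    {y : Fin d → ℝ} (hy : y ∈ stoichSubspace R) : ip W y = 0 := by
  unfold stoichSubspace at hy
  induction hy using Submodule.span_induction with
  | mem z hz =>
    obtain ⟨r, hr, rfl⟩ := hz
    exact h r hr
  | zero => simp [ip]
  | add a b _ _ h1 h2 => rw [ip_add, h1, h2, add_zero]
  | smul t a _ h1 => rw [ip_smul, h1, mul_zero]

section

variable {n : J → Fin d → ℝ} {N₁ : ℝ} {PT : Set (Piece d)} {μT δT M₀ : ℝ}
    {PL : Finset (Fin d) → Set (Piece d)} {μL δL ML ρ : Finset (Fin d) → ℝ}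

namespace Tower

variable (H : Tower n N₁ PT μT δT M₀ PL μL δL ML ρ)
include H

lemma con_finite : (Con PT PL ρ).Finite := by
  refine (H.hT.fin.image _).union ?_
  refine Set.Finite.biUnion (Set.toFinite _) ?_
  intro A hA
  exact (H.hL A hA).fin.image _

lemma con_smooth : ∀ κ ∈ Con PT PL ρ, ContDiff ℝ 1 κ.2 := by
  rintro κ (⟨p, hp, rfl⟩ | hκ)
  · exact (H.hT.off_smooth p hp).add Real.contDiff_exp
  · simp only [Set.mem_iUnion] at hκ
    obtain ⟨A, hA, p, hp, rfl⟩ := hκ
    have h1 := (H.hL A hA).off_smooth p hp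
    have h2 : ContDiff ℝ 1 (fun Rr : ℝ => ρ A * Rr) := contDiff_const.mul contDiff_id
    exact (h1.comp h2).sub (Real.contDiff_exp.comp h2.neg)

end Tower

end

/-- The main properties of the polytopes. -/
theorem geo_main (R : Network d) (hR : IsWeaklyReversible R)
    (k : (Fin d → ℕ) × (Fin d → ℕ) → ℝ) (hk : ∀ r ∈ R, 0 < k r)
    (c : Fin d → ℝ) (hc : ∀ i, 0 < c i)
    {N₁ : ℝ} {PT : Set (Piece d)} {μT δT M₀ : ℝ}
    {PL : Finset (Fin d) → Set (Piece d)} {μL δL ML ρ : Finset (Fin d) → ℝ}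
    (H : Tower (nn R) N₁ PT μT δT M₀ PL μL δL ML ρ) :
    ∃ R₀ : ℝ,
      (∀ R' ≥ R₀, ∃ B : ℝ, ∀ Rr ∈ Set.Icc R₀ R', ∀ x ∈ KK R c (Con PT PL ρ) Rr, ∀ i,
        0 < x i ∧ x i ≤ B) ∧
      (∀ R' ≥ R₀, ∃ gap > 0, ∀ Rr ∈ Set.Icc R₀ R', ∀ x ∈ KK R c (Con PT PL ρ) Rr,
        ∀ κ ∈ Con PT PL ρ, ip κ.1 x = κ.2 Rr → ip κ.1 (field R k x) ≤ -gap) ∧
      (∀ x₀ ∈ positiveClass R c, ∃ R' ≥ R₀, x₀ ∈ KK R c (Con PT PL ρ) R') ∧
      (KK R c (Con PT PL ρ) R₀).Nonempty := by
  classical
  obtain ⟨B, a, ha, hnet⟩ := net_family R hR k hk (Prod.fst '' (Con PT PL ρ))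
    (H.con_finite.image _)
  have hev : ∀ᶠ Rr in atTop,
      (∀ x : Fin d → ℝ, QQ PT PL ρ Rr x → ∀ i, x i ≤ 4 * Real.exp Rr) ∧
      (∀ x : Fin d → ℝ, QQ PT PL ρ Rr x → ∀ p ∈ PT,
        val univ p x Rr = Real.exp Rr → ∀ j, 0 < ∑ i, nn R j i * p.1 i →
          B < ∑ i, nn R j i * Real.log (x i)) ∧
      (∀ x : Fin d → ℝ, QQ PT PL ρ Rr x →
        ∀ A : Finset (Fin d), A.Nonempty → ∀ p ∈ PL A,
        val A p x (ρ A * Rr) = -Real.exp (-(ρ A * Rr)) → ∀ j, 0 < ∑ i ∈ A, nn R j i * p.1 i →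
          B < ∑ i, nn R j i * Real.log (x i)) ∧
      ((∀ p ∈ PT, val univ p c Rr < Real.exp Rr) ∧
        ∀ A : Finset (Fin d), A.Nonempty → ∀ p ∈ PL A,
          val A p c (ρ A * Rr) < -Real.exp (-(ρ A * Rr))) := by
    filter_upwards [H.upper, H.activeT B, H.activeL B, H.strictInside hc] with Rr h1 h2 h3 h4
    exact ⟨h1, h2, h3, h4⟩
  obtain ⟨R₀, hR₀⟩ := Filter.eventually_atTop.mp hev
  have hρ : ∀ i : Fin d, 0 < ρ {i} := fun i => by
    have := H.ρge {i} ⟨i, Finset.mem_singleton_self i⟩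
    linarith
  have hML : ∀ i : Fin d, 0 < ML {i} + 1 := fun i => by
    have := H.MLnn {i} ⟨i, Finset.mem_singleton_self i⟩
    linarith
  -- membership from the strict conditions
  have hin : ∀ (x₀ : Fin d → ℝ) (Rr : ℝ), x₀ - c ∈ stoichSubspace R →
      ((∀ p ∈ PT, val univ p x₀ Rr < Real.exp Rr) ∧
        ∀ A : Finset (Fin d), A.Nonempty → ∀ p ∈ PL A,
          val A p x₀ (ρ A * Rr) < -Real.exp (-(ρ A * Rr))) → x₀ ∈ KK R c (Con PT PL ρ) Rr := by
    intro x₀ Rr h1 h2
    refine mem_KK_iff.mpr ⟨h1, fun p hp => (h2.1 p hp).le, fun A hA p hp => (h2.2 A hA p hp).le⟩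
  refine ⟨R₀, ?_, ?_, ?_, ?_⟩
  · -- box
    intro R' _
    refine ⟨4 * Real.exp R', ?_⟩
    intro Rr hRr x hx i
    have hQ := (mem_KK_iff.mp hx).2
    refine ⟨H.x_pos hQ i, ?_⟩
    have h1 := (hR₀ Rr hRr.1).1 x hQ i
    have h2 : Real.exp Rr ≤ Real.exp R' := Real.exp_le_exp.mpr hRr.2
    linarith
  · -- gap
    intro R' _
    set mi : Fin d → ℝ := fun i => Real.exp (-(ρ {i} * R')) / (ML {i} + 1) with hmi
    have hmipos : ∀ i, 0 < mi i := fun i => div_pos (Real.exp_pos _) (hML i)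
    obtain ⟨g, hg, hg'⟩ := exists_pos_le R (fun r => ∏ i, mi i ^ (r.1 i))
      (fun r _ => Finset.prod_pos (fun i _ => pow_pos (hmipos i) _))
    refine ⟨a * g, mul_pos ha hg, ?_⟩
    intro Rr hRr x hx κ hκ hact
    obtain ⟨hS, hQ⟩ := mem_KK_iff.mp hx
    obtain ⟨hE1, hE2, hE3, hE4⟩ := hR₀ Rr hRr.1
    have hxpos := H.x_pos hQ
    have hxm : ∀ i, mi i ≤ x i := by
      intro i
      have h1 := (H.lower_single hQ i).2
      have h2 : Real.exp (-(ρ {i} * R')) ≤ Real.exp (-(ρ {i} * Rr)) := by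
        refine Real.exp_le_exp.mpr ?_
        have := mul_le_mul_of_nonneg_left hRr.2 (hρ i).le
        linarith
      rw [hmi]
      simp only
      rw [div_le_iff₀ (hML i)]
      linarith
    -- the conclusion from the network lemma
    have hfinish : (∀ j : JJ R, 0 < ∑ i, nn R j i * κ.1 i → B < ∑ i, nn R j i * Real.log (x i)) →
        (∃ r ∈ R, ip κ.1 (reactionVector r) ≠ 0) → ip κ.1 (field R k x) ≤ -(a * g) := by
      intro h1 h2
      obtain ⟨r, hr, hr'⟩ := hnet κ.1 (Set.mem_image_of_mem _ hκ) x hxpos h1 h2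
      refine hr'.trans ?_
      have h3 := hg' r hr
      have h4 : ∏ i, mi i ^ (r.1 i) ≤ ∏ i, x i ^ (r.1 i) :=
        Finset.prod_le_prod (fun i _ => (pow_pos (hmipos i) _).le)
          (fun i _ => pow_le_pow_left₀ (hmipos i).le (hxm i) _)
      have : a * g ≤ a * ∏ i, x i ^ (r.1 i) := mul_le_mul_of_nonneg_left (h3.trans h4) ha.le
      linarith
    rcases hκ with ⟨p, hp, rfl⟩ | hκ
    · have hact' : val univ p x Rr = Real.exp Rr := by
        unfold val
        simp only [conT, ip] at hact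
        linarith
      refine hfinish (fun j hj => hE2 x hQ p hp hact' j hj) ?_
      by_contra hno
      push Not at hno
      have h1 := ortho hno hS
      rw [ip_sub] at h1
      have h2 := hE4.1 p hp
      simp only [conT] at h1 hact
      unfold val at h2
      have h3 : ip p.1 c = ∑ i, p.1 i * c i := rfl
      rw [← h3] at h2
      linarith
    · have hκ' := hκ
      simp only [Set.mem_iUnion] at hκ'
      obtain ⟨A, hA, p, hp, rfl⟩ := hκ'
      have hact' : val A p x (ρ A * Rr) = -Real.exp (-(ρ A * Rr)) := by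
        unfold val
        rw [ip_conL] at hact
        simp only [conL] at hact
        linarith
      refine hfinish (fun j hj => hE3 x hQ A hA p hp hact' j ?_) ?_
      · have h1 : ∑ i, nn R j i * (conL (ρ A) A p).1 i = ∑ i ∈ A, nn R j i * p.1 i := by
          unfold conL
          exact sum_ite_right _ _ _
        rw [← h1]
        exact hj
      · by_contra hno
        push Not at hno
        have h1 := ortho hno hS
        rw [ip_sub, ip_conL, ip_conL] at h1
        have h2 := hE4.2 A hA p hp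
        rw [ip_conL] at hact
        simp only [conL] at hact
        unfold val at h2
        linarith
  · -- exhaustion
    intro x₀ hx₀
    have h1 := H.strictInside hx₀.1
    obtain ⟨R', hR'1, hR'2⟩ := (h1.and (eventually_ge_atTop R₀)).exists
    exact ⟨R', hR'2, hin x₀ R' hx₀.2 hR'1⟩
  · -- nonempty
    refine ⟨c, hin c R₀ ?_ (hR₀ R₀ le_rfl).2.2.2⟩
    simp

/-- The tower of scales exists. -/
theorem exists_tower (n : J → Fin d → ℝ) :
    ∃ (N₁ : ℝ) (PT : Set (Piece d)) (μT δT M₀ : ℝ)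
      (PL : Finset (Fin d) → Set (Piece d)) (μL δL ML ρ : Finset (Fin d) → ℝ),
      Tower n N₁ PT μT δT M₀ PL μL δL ML ρ := by
  classical
  set N₁ : ℝ := 1 + ∑ j, ∑ i, |n j i| with hN₁
  have hS0 : 0 ≤ ∑ j, ∑ i, |n j i| :=
    Finset.sum_nonneg (fun _ _ => Finset.sum_nonneg (fun _ _ => abs_nonneg _))
  have hN₀ : 0 < N₁ := by linarith
  have hN : ∀ j, ∑ i, |n j i| ≤ N₁ := by
    intro j
    have : ∑ i, |n j i| ≤ ∑ j, ∑ i, |n j i| :=
      Finset.single_le_sum (f := fun j => ∑ i, |n j i|)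
        (fun _ _ => Finset.sum_nonneg (fun _ _ => abs_nonneg _)) (Finset.mem_univ j)
    linarith
  have SOL := exists_sol n hN₀ hN
  have hA : ∀ (A : Finset (Fin d)) (M : ℝ), 0 ≤ M →
      ∃ P μ δ, IsSol n A (fun _ => 0) M (-1) P μ δ :=
    fun A M hM => SOL A _ M (-1) (by linarith)
  choose! Pm μm δm hm using hA
  have hg : ∀ (s : ℕ) (M : ℝ), 0 ≤ M → ∃ g : ℝ, 0 < g ∧ ∀ A : Finset (Fin d), A.card = s →
      g ≤ μm A M := by
    intro s M hM
    obtain ⟨g, hg, hg'⟩ := exists_pos_le (Finset.univ.filter (fun A : Finset (Fin d) => A.card = s))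
      (fun A => μm A M) (fun A _ => (hm A M hM).μpos)
    exact ⟨g, hg, fun A hA => hg' A (Finset.mem_filter.mpr ⟨Finset.mem_univ _, hA⟩)⟩
  choose! g hg0 hg1 using hg
  let π' : ℕ → ℝ := fun s => Nat.rec (1 : ℝ) (fun s p => p * max 2 (8 * N₁ / g s (1 + p))) s
  have π0 : π' 0 = 1 := rfl
  have πs : ∀ s, π' (s + 1) = π' s * max 2 (8 * N₁ / g s (1 + π' s)) := fun _ => rfl
  have πge : ∀ s, 1 ≤ π' s := by
    intro s
    induction s with
    | zero => rw [π0]
    | succ s ih =>
      rw [πs]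
      have h2 : (2 : ℝ) ≤ max 2 (8 * N₁ / g s (1 + π' s)) := le_max_left _ _
      nlinarith
  have πpos : ∀ s, 0 < π' s := fun s => by linarith [πge s]
  have πstep : ∀ s, 2 * π' s ≤ π' (s + 1) := by
    intro s
    rw [πs]
    have h2 : (2 : ℝ) ≤ max 2 (8 * N₁ / g s (1 + π' s)) := le_max_left _ _
    nlinarith [πpos s]
  have πmono : Monotone π' := by
    refine monotone_nat_of_le_succ (fun s => ?_)
    have := πstep s
    have := πpos s
    linarith
  have hML : ∀ s, 0 ≤ 1 + π' s := fun s => by linarith [πpos s]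
  obtain ⟨PT, μT, δT, hT⟩ := SOL univ (fun _ => 0) (1 + π' d) 1 (by linarith [πpos d])
  have hρ1 : π' d / π' 1 ≤ π' d := div_le_self (πpos d).le (πge 1)
  refine ⟨N₁, PT, μT, δT, 1 + π' d, fun A => Pm A (1 + π' A.card), fun A => μm A (1 + π' A.card),
    fun A => δm A (1 + π' A.card), fun A => 1 + π' A.card, fun A => π' d / π' A.card, ?_⟩
  refine
    { N₁pos := hN₀
      hN := hN
      hT := hT
      M₀nn := hML d
      hL := fun A _ => hm A _ (hML _)
      MLnn := fun A _ => hML _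
      ρge := ?_
      hlow := ?_
      htop := ?_
      hstep1 := ?_
      hstep2 := ?_ }
  · intro A _
    have h1 : A.card ≤ d := by
      simpa using Finset.card_le_univ A
    rw [one_le_div (πpos _)]
    exact πmono h1
  · intro A _ i _
    simp only [Finset.card_singleton]
    have h2 : π' d / π' A.card * (1 + π' A.card) = π' d / π' A.card + π' d := by
      field_simp [(πpos A.card).ne']
    rw [h2]
    linarith
  · intro i
    simp only [Finset.card_singleton]
    linarith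
  · intro A _ k hk
    simp only [Finset.card_insert_of_notMem hk]
    rw [div_mul_eq_mul_div, div_le_div_iff₀ (πpos (A.card + 1)) (πpos A.card)]
    have h1 := πstep A.card
    have h2 := πpos d
    nlinarith
  · intro A _ k hk
    simp only [Finset.card_insert_of_notMem hk]
    set s := A.card with hs
    have h1 := hg0 s (1 + π' s) (hML s)
    have h2 := hg1 s (1 + π' s) (hML s) A hs.symm
    have h3 := hm A (1 + π' s) (hML s)
    have h4 : 8 * N₁ / g s (1 + π' s) ≤ max 2 (8 * N₁ / g s (1 + π' s)) := le_max_right _ _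
    have h5 : π' s * (8 * N₁ / g s (1 + π' s)) ≤ π' (s + 1) := by
      rw [πs]
      exact mul_le_mul_of_nonneg_left h4 (πpos s).le
    have h6 : 8 * N₁ * π' s ≤ μm A (1 + π' s) * π' (s + 1) := by
      have h7 : μm A (1 + π' s) * (π' s * (8 * N₁ / g s (1 + π' s))) ≤
          μm A (1 + π' s) * π' (s + 1) := mul_le_mul_of_nonneg_left h5 h3.μpos.le
      refine le_trans ?_ h7
      have h8 : g s (1 + π' s) * (π' s * (8 * N₁ / g s (1 + π' s))) = 8 * N₁ * π' s := by
        field_simp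
      rw [← h8]
      refine mul_le_mul_of_nonneg_right h2 ?_
      have := πpos s
      positivity
    have hd := πpos d
    have hs1 := πpos (s + 1)
    have hs0 := πpos s
    have e1 : π' d / π' (s + 1) * 8 * N₁ = π' d * (8 * N₁) / π' (s + 1) := by ring
    have e2 : π' d / π' s * μm A (1 + π' s) = π' d * μm A (1 + π' s) / π' s := by ring
    rw [e1, e2, div_le_div_iff₀ hs1 hs0]
    nlinarith

end Crest.Agent.H3RN
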