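import Crest.Agent.H3RNNet

/-!
Assembly of the polytopes of S0122.
-/

set_option autoImplicit false
set_option linter.unusedSectionVars false

open Filter Finset Crest.AnalysisR.MassAction

namespace Crest.Agent.H3RN

variable {d : ℕ} {J : Type} [Fintype J]

structure Tower (n : J → Fin d → ℝ) (N₁ : ℝ) (PT : Set (Piece d)) (μT δT M₀ : ℝ)
    (PL : Finset (Fin d) → Set (Piece d)) (μL δL ML ρ : Finset (Fin d) → ℝ) : Prop where
  N₁pos : 0 < N₁
  hN : ∀ j, ∑ i, |n j i| ≤ N₁
  hT : IsSol n univ (fun _ => 0) M₀ 1 PT μT δT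
  M₀nn : 0 ≤ M₀
  hL : ∀ A : Finset (Fin d), A.Nonempty →
    IsSol n A (fun _ => 0) (ML A) (-1) (PL A) (μL A) (δL A)
  MLnn : ∀ A : Finset (Fin d), A.Nonempty → 0 ≤ ML A
  ρge : ∀ A : Finset (Fin d), A.Nonempty → 1 ≤ ρ A
  hlow : ∀ A : Finset (Fin d), A.Nonempty → ∀ i ∈ A, ρ {i} + ρ A ≤ ρ A * ML A
  htop : ∀ i, ρ {i} + 1 ≤ M₀
  hstep1 : ∀ A : Finset (Fin d), A.Nonempty → ∀ k, k ∉ A → ρ (insert k A) * 2 ≤ ρ A
  hstep2 : ∀ A : Finset (Fin d), A.Nonempty → ∀ k, k ∉ A → ρ (insert k A) * 8 * N₁ ≤ ρ A * μL A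

/-- The polytope conditions at scale `Rr`. -/
def QQ (PT : Set (Piece d)) (PL : Finset (Fin d) → Set (Piece d)) (ρ : Finset (Fin d) → ℝ)
    (Rr : ℝ) (x : Fin d → ℝ) : Prop :=
  (∀ p ∈ PT, val univ p x Rr ≤ Real.exp Rr) ∧
    ∀ A : Finset (Fin d), A.Nonempty → ∀ p ∈ PL A, val A p x (ρ A * Rr) ≤ -Real.exp (-(ρ A * Rr))

section

variable {n : J → Fin d → ℝ} {N₁ : ℝ} {PT : Set (Piece d)} {μT δT M₀ : ℝ}
    {PL : Finset (Fin d) → Set (Piece d)} {μL δL ML ρ : Finset (Fin d) → ℝ}

namespace Tower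

variable (H : Tower n N₁ PT μT δT M₀ PL μL δL ML ρ)
include H

lemma lower_single {Rr : ℝ} {x : Fin d → ℝ} (hQ : QQ PT PL ρ Rr x) (i : Fin d) :
    0 < x i ∧ Real.exp (-(ρ {i} * Rr)) ≤ (ML {i} + 1) * x i := by
  have hA : ({i} : Finset (Fin d)).Nonempty := ⟨i, Finset.mem_singleton_self i⟩
  obtain ⟨p₀, hp₀, hz⟩ := (H.hL {i} hA).zero
  have h1 := hQ.2 {i} hA p₀ hp₀
  have h2 := (H.hL {i} hA).slope p₀ hp₀ i (Finset.mem_singleton_self i)
  unfold val at h1
  rw [hz, Finset.sum_singleton, sub_zero] at h1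
  have h3 := Real.exp_pos (-(ρ {i} * Rr))
  have hpos : 0 < x i := by
    by_contra hc
    have h4 : x i ≤ 0 := not_lt.mp hc
    have h5 : 0 ≤ p₀.1 i * x i := mul_nonneg_of_nonpos_of_nonpos (by linarith [h2.2]) h4
    linarith
  refine ⟨hpos, ?_⟩
  nlinarith [h2.1]

lemma x_pos {Rr : ℝ} {x : Fin d → ℝ} (hQ : QQ PT PL ρ Rr x) (i : Fin d) : 0 < x i :=
  (H.lower_single hQ i).1

lemma lower_sum {Rr : ℝ} {x : Fin d → ℝ} (hQ : QQ PT PL ρ Rr x) {A : Finset (Fin d)}
    (hA : A.Nonempty) : Real.exp (-(ρ A * Rr)) ≤ (ML A + 1) * ∑ i ∈ A, x i := by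
  obtain ⟨p₀, hp₀, hz⟩ := (H.hL A hA).zero
  have h1 := hQ.2 A hA p₀ hp₀
  unfold val at h1
  rw [hz, sub_zero] at h1
  have h2 : -((ML A + 1) * ∑ i ∈ A, x i) ≤ ∑ i ∈ A, p₀.1 i * x i := by
    rw [Finset.mul_sum, ← Finset.sum_neg_distrib]
    refine Finset.sum_le_sum ?_
    intro i hi
    have h3 := ((H.hL A hA).slope p₀ hp₀ i hi).1
    have h4 := H.x_pos hQ i
    nlinarith
  linarith

/-- The upper bound on the polytope. -/
lemma upper : ∀ᶠ R in atTop, ∀ x : Fin d → ℝ, QQ PT PL ρ R x → ∀ i, x i ≤ 4 * Real.exp R := by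
  classical
  have htop := H.hT.top (by have := H.M₀nn; linarith)
  have h1 : ∀ L : Finset (Fin d), ∀ᶠ R in atTop, L.Nonempty →
      ∃ p ∈ PT, (∀ i ∈ L, p.1 i = 1) ∧ p.2 R ≤ Real.exp R := by
    intro L
    by_cases hL : L.Nonempty
    · obtain ⟨p, hp, hp1, κ, b', hb', hκ⟩ := htop L (Finset.subset_univ _) hL
      filter_upwards [eventually_ge_atTop (0 : ℝ), ev_le_exp κ (sub_pos.mpr hb')] with R hR0 hR1 _
      refine ⟨p, hp, hp1, (hκ R hR0).trans ?_⟩
      have e : Real.exp R = Real.exp (R * (1 - b')) * Real.exp (R * b') := by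
        rw [← Real.exp_add]
        congr 1
        ring
      rw [e]
      exact mul_le_mul_of_nonneg_right hR1 (Real.exp_pos _).le
    · exact Eventually.of_forall (fun _ h => absurd h hL)
  filter_upwards [Filter.eventually_all.mpr h1] with R hR x hQ i
  have hxpos := H.x_pos hQ
  have hC := CC_pos M₀ 1
  have hD : (0 : ℝ) < (d : ℝ) + 1 := by positivity
  have hconc := conc (T := univ) (x := x) (fun i _ => hxpos i) (a := 1) (G := 2 * Real.exp R)
    (C := CC M₀ 1) (D := (d : ℝ) + 1) one_pos hC hD (by simp) (by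
      have := one_le_CC M₀ 1
      have h3 : (1 : ℝ) ≤ (d : ℝ) + 1 := by
        have : (0 : ℝ) ≤ d := by positivity
        linarith
      nlinarith) (by
      intro L _ hLne
      obtain ⟨p, hp, hp1, hp2⟩ := hR L hLne
      have h2 := hQ.1 p hp
      unfold val at h2
      rw [← Finset.sum_sdiff (Finset.subset_univ L)] at h2
      have h3 : ∑ i ∈ L, p.1 i * x i = ∑ i ∈ L, x i := by
        refine Finset.sum_congr rfl (fun i hi => ?_)
        rw [hp1 i hi, one_mul]
      have h4 : -(CC M₀ 1 * ∑ i ∈ univ \ L, x i) ≤ ∑ i ∈ univ \ L, p.1 i * x i := by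
        rw [Finset.mul_sum, ← Finset.sum_neg_distrib]
        refine Finset.sum_le_sum ?_
        intro i _
        have h5 := (H.hT.slope p hp i (Finset.mem_univ _)).1
        have h6 : -CC M₀ 1 ≤ p.1 i := by
          unfold CC
          have := le_abs_self M₀
          have := abs_nonneg (1 : ℝ)
          linarith
        have := hxpos i
        nlinarith
      have h7 : 0 ≤ ∑ i ∈ univ \ L, x i := Finset.sum_nonneg (fun i _ => (hxpos i).le)
      have h8 : 0 ≤ CC M₀ 1 * ∑ i ∈ univ \ L, x i := mul_nonneg hC.le h7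
      linarith) i (Finset.mem_univ _)
  linarith

/-- Points strictly inside. -/
lemma strictInside {c : Fin d → ℝ} (hc : ∀ i, 0 < c i) :
    ∀ᶠ R in atTop, (∀ p ∈ PT, val univ p c R < Real.exp R) ∧
      ∀ A : Finset (Fin d), A.Nonempty → ∀ p ∈ PL A,
        val A p c (ρ A * R) < -Real.exp (-(ρ A * R)) := by
  have h1 : ∀ᶠ R in atTop, ∑ i, c i + 1 ≤ Real.exp (R * 1) := ev_le_exp _ one_pos
  have h2 : ∀ A : Finset (Fin d), ∀ᶠ R in atTop, A.Nonempty → ∀ p ∈ PL A,
      val A p c (ρ A * R) < -Real.exp (-(ρ A * R)) := by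
    intro A
    by_cases hA : A.Nonempty
    · have hs : 0 < ∑ i ∈ A, c i := Finset.sum_pos (fun i _ => hc i) hA
      have hρ : 0 < ρ A := by linarith [H.ρge A hA]
      filter_upwards [ev_le_exp (1 / (∑ i ∈ A, c i) + 1) hρ] with R hR _ p hp
      have h3 : val A p c (ρ A * R) ≤ -∑ i ∈ A, c i := by
        unfold val
        have h4 := (H.hL A hA).off_nonneg p hp (ρ A * R)
        have h5 : ∑ i ∈ A, p.1 i * c i ≤ -∑ i ∈ A, c i := by
          rw [← Finset.sum_neg_distrib]
          refine Finset.sum_le_sum ?_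
          intro i hi
          have h6 := ((H.hL A hA).slope p hp i hi).2
          have := hc i
          nlinarith
        linarith
      have h7 : Real.exp (-(ρ A * R)) < ∑ i ∈ A, c i := by
        rw [Real.exp_neg, inv_eq_one_div, div_lt_iff₀ (Real.exp_pos _)]
        rw [mul_comm (ρ A) R]
        have h8 : 1 / (∑ i ∈ A, c i) < Real.exp (R * ρ A) := by linarith
        rw [div_lt_iff₀ hs] at h8
        linarith
      linarith
    · exact Eventually.of_forall (fun _ h => absurd h hA)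
  filter_upwards [h1, Filter.eventually_all.mpr h2] with R hR1 hR2
  refine ⟨fun p hp => ?_, hR2⟩
  unfold val
  have h4 := H.hT.off_nonneg p hp R
  have h5 : ∑ i, p.1 i * c i ≤ ∑ i, c i := by
    refine Finset.sum_le_sum ?_
    intro i _
    have h6 := (H.hT.slope p hp i (Finset.mem_univ _)).2
    have := hc i
    nlinarith
  rw [mul_one] at hR1
  linarith

/-- Active top constraints. -/
lemma activeT (B₀ : ℝ) : ∀ᶠ R in atTop, ∀ x : Fin d → ℝ, QQ PT PL ρ R x → ∀ p ∈ PT,
    val univ p x R = Real.exp R → ∀ j, 0 < ∑ i, n j i * p.1 i →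
      B₀ < ∑ i, n j i * Real.log (x i) := by
  have hμ := H.hT.μpos
  have hδ := H.hT.δpos
  have h1 : ∀ᶠ R in atTop, ∀ i : Fin d, ML {i} + 1 ≤ Real.exp (R * 1) :=
    Filter.eventually_all.mpr (fun i => ev_le_exp _ one_pos)
  filter_upwards [eventually_gt_atTop (0 : ℝ), eventually_ge_atTop (B₀ / μT),
    ev_le_exp 4 hδ, h1, H.upper, H.hT.valid] with R hR0 hR1 hR2 hR3 hup hval x hQ p hp hact j hj
  have hxpos := H.x_pos hQ
  have hwin : ∀ i ∈ (univ : Finset (Fin d)), 0 < x i ∧ -M₀ ≤ Real.log (x i) / R ∧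
      Real.log (x i) / R ≤ 1 + δT := by
    intro i _
    refine ⟨hxpos i, ?_, ?_⟩
    · refine le_log_div (hxpos i) hR0 ?_
      have h2 := (H.lower_single hQ i).2
      have h3 := H.htop i
      have h4 : Real.exp (R * -M₀) ≤ Real.exp (-(ρ {i} * R)) * Real.exp (-(R * 1)) := by
        rw [← Real.exp_add]
        refine Real.exp_le_exp.mpr ?_
        nlinarith
      have h5 : (ML {i} + 1) * x i * Real.exp (-(R * 1)) ≤ x i := by
        have h6 : (ML {i} + 1) * Real.exp (-(R * 1)) ≤ 1 := by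
          rw [Real.exp_neg, ← div_eq_mul_inv, div_le_one (Real.exp_pos _)]
          exact hR3 i
        have := hxpos i
        nlinarith
      have h7 := mul_le_mul_of_nonneg_right h2 (Real.exp_pos (-(R * 1))).le
      linarith
    · refine log_div_le (hxpos i) hR0 ?_
      have h2 := hup x hQ i
      have e : Real.exp (R * (1 + δT)) = Real.exp (R * δT) * Real.exp R := by
        rw [← Real.exp_add]
        congr 1
        ring
      rw [e]
      exact h2.trans (mul_le_mul_of_nonneg_right hR2 (Real.exp_pos _).le)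
  have hmaxp : ∀ q ∈ PT, val univ q x R ≤ val univ p x R := fun q hq => by
    rw [hact]
    exact hQ.1 q hq
  have h3 := hval x hwin p hp hmaxp j (by
    unfold form
    simpa using hj)
  have h4 : form n univ (fun _ => 0) j (tu x R) = (∑ i, n j i * Real.log (x i)) / R := by
    unfold form tu
    rw [add_zero, Finset.sum_div]
    exact Finset.sum_congr rfl (fun i _ => by ring)
  rw [h4, lt_div_iff₀ hR0] at h3
  rw [div_le_iff₀ hμ] at hR1
  linarith

/-- Active low constraints, for one index. -/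
lemma activeL_one (B₀ : ℝ) {A : Finset (Fin d)} (hA : A.Nonempty) :
    ∀ᶠ R in atTop, (∀ x : Fin d → ℝ, QQ PT PL ρ R x → ∀ i, x i ≤ 4 * Real.exp R) →
    ∀ x : Fin d → ℝ, QQ PT PL ρ R x → ∀ p ∈ PL A,
    val A p x (ρ A * R) = -Real.exp (-(ρ A * R)) → ∀ j, 0 < ∑ i ∈ A, n j i * p.1 i →
      B₀ < ∑ i, n j i * Real.log (x i) := by
  classical
  have hS := H.hL A hA
  have hμ := hS.μpos
  have hρ1 := H.ρge A hA
  have hρ : 0 < ρ A := by linarith
  have hval : ∀ᶠ R in atTop, ∀ x : Fin d → ℝ,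
      (∀ i ∈ A, 0 < x i ∧ -ML A ≤ Real.log (x i) / (ρ A * R) ∧
        Real.log (x i) / (ρ A * R) ≤ -1 + δL A) →
      ∀ p ∈ PL A, (∀ q ∈ PL A, val A q x (ρ A * R) ≤ val A p x (ρ A * R)) →
      ∀ j, 0 < form n A (fun _ => 0) j p.1 →
        μL A < form n A (fun _ => 0) j (tu x (ρ A * R)) :=
    (tendsto_id.const_mul_atTop hρ).eventually hS.valid
  have h1 : ∀ᶠ R in atTop, ∀ i : Fin d, ML {i} + 1 ≤ Real.exp (R * ρ A) :=
    Filter.eventually_all.mpr (fun i => ev_le_exp _ hρ)
  have h2 : ∀ᶠ R in atTop, ∀ k : Fin d, k ∉ A →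
      4 ≤ Real.exp (R * ρ (insert k A)) ∧
      2 * (ML (insert k A) + 1) ≤ Real.exp (R * ρ (insert k A)) := by
    refine Filter.eventually_all.mpr (fun k => ?_)
    have hρ' : 0 < ρ (insert k A) := by
      have := H.ρge (insert k A) (Finset.insert_nonempty _ _)
      linarith
    filter_upwards [ev_le_exp 4 hρ', ev_le_exp (2 * (ML (insert k A) + 1)) hρ'] with R r1 r2 _
    exact ⟨r1, r2⟩
  have hlim : 0 < 3 / 4 * ρ A * μL A := by positivity
  filter_upwards [eventually_gt_atTop (0 : ℝ), eventually_gt_atTop (B₀ / (3 / 4 * ρ A * μL A)),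
    h1, h2, hval] with R hR0 hR1 hR2 hR3 hR4 hup x hQ p hp hact j hj
  have hxpos := H.x_pos hQ
  have hr : 0 < ρ A * R := mul_pos hρ hR0
  -- upper bound of the sum over `A`
  have hsum : ∑ i ∈ A, x i ≤ Real.exp (-(ρ A * R)) := by
    have h3 := hact
    unfold val at h3
    have h4 := hS.off_nonneg p hp (ρ A * R)
    have h5 : ∑ i ∈ A, p.1 i * x i ≤ -∑ i ∈ A, x i := by
      rw [← Finset.sum_neg_distrib]
      refine Finset.sum_le_sum ?_
      intro i hi
      have h6 := (hS.slope p hp i hi).2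
      have := hxpos i
      nlinarith
    linarith
  have hwin : ∀ i ∈ A, 0 < x i ∧ -ML A ≤ Real.log (x i) / (ρ A * R) ∧
      Real.log (x i) / (ρ A * R) ≤ -1 + δL A := by
    intro i hi
    refine ⟨hxpos i, ?_, ?_⟩
    · refine le_log_div (hxpos i) hr ?_
      have h2 := (H.lower_single hQ i).2
      have h3 := H.hlow A hA i hi
      have h4 : Real.exp (ρ A * R * -ML A) ≤ Real.exp (-(ρ {i} * R)) * Real.exp (-(R * ρ A)) := by
        rw [← Real.exp_add]
        refine Real.exp_le_exp.mpr ?_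
        nlinarith
      have h5 : (ML {i} + 1) * x i * Real.exp (-(R * ρ A)) ≤ x i := by
        have h6 : (ML {i} + 1) * Real.exp (-(R * ρ A)) ≤ 1 := by
          rw [Real.exp_neg, ← div_eq_mul_inv, div_le_one (Real.exp_pos _)]
          exact hR2 i
        have := hxpos i
        nlinarith
      have h7 := mul_le_mul_of_nonneg_right h2 (Real.exp_pos (-(R * ρ A))).le
      linarith
    · have h3 : Real.log (x i) / (ρ A * R) ≤ -1 := by
        refine log_div_le (hxpos i) hr ?_
        have h4 : x i ≤ ∑ i ∈ A, x i :=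
          Finset.single_le_sum (f := x) (fun k _ => (hxpos k).le) hi
        have e : ρ A * R * -1 = -(ρ A * R) := by ring
        rw [e]
        linarith
      linarith [hS.δpos]
  have hmaxp : ∀ q ∈ PL A, val A q x (ρ A * R) ≤ val A p x (ρ A * R) := fun q hq => by
    rw [hact]
    exact hQ.2 A hA q hq
  have h3 := hR4 x hwin p hp hmaxp j (by
    unfold form
    simpa using hj)
  have h4 : form n A (fun _ => 0) j (tu x (ρ A * R)) =
      (∑ i ∈ A, n j i * Real.log (x i)) / (ρ A * R) := by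
    unfold form tu
    rw [add_zero, Finset.sum_div]
    exact Finset.sum_congr rfl (fun i _ => by ring)
  rw [h4, lt_div_iff₀ hr] at h3
  -- the coordinates off `A`
  have hoff : ∀ k ∉ A, |Real.log (x k)| ≤ 2 * ρ (insert k A) * R := by
    intro k hk
    have hne : (insert k A).Nonempty := Finset.insert_nonempty _ _
    have hρ'1 := H.ρge (insert k A) hne
    obtain ⟨r1, r2⟩ := hR3 k hk
    have hML := H.MLnn (insert k A) hne
    rw [abs_le]
    constructor
    · -- lower bound
      have h5 := H.lower_sum hQ hne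
      rw [Finset.sum_insert hk] at h5
      have h6 : Real.exp (-(ρ A * R)) ≤ Real.exp (-(ρ (insert k A) * R)) * Real.exp (-(R * ρ (insert k A))) := by
        rw [← Real.exp_add]
        refine Real.exp_le_exp.mpr ?_
        have := H.hstep1 A hA k hk
        nlinarith
      have h7 : (ML (insert k A) + 1) * (Real.exp (-(R * ρ (insert k A)))) ≤ 1 / 2 := by
        rw [Real.exp_neg, ← div_eq_mul_inv, div_le_div_iff₀ (Real.exp_pos _) (by norm_num)]
        linarith
      have h8 : (ML (insert k A) + 1) * Real.exp (-(ρ A * R)) ≤ Real.exp (-(ρ (insert k A) * R)) / 2 := by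
        have h9 := mul_le_mul_of_nonneg_left h6 (by linarith : 0 ≤ ML (insert k A) + 1)
        refine h9.trans ?_
        have h10 := mul_le_mul_of_nonneg_right h7 (Real.exp_pos (-(ρ (insert k A) * R))).le
        linarith
      have h11 : Real.exp (-(ρ (insert k A) * R)) / 2 ≤ (ML (insert k A) + 1) * x k := by
        have h12 : (ML (insert k A) + 1) * (x k + ∑ i ∈ A, x i) ≤
            (ML (insert k A) + 1) * (x k + Real.exp (-(ρ A * R))) :=
          mul_le_mul_of_nonneg_left (by linarith) (by linarith)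
        nlinarith
      have h13 : Real.exp (-(2 * ρ (insert k A) * R)) ≤ x k := by
        have e : Real.exp (-(2 * ρ (insert k A) * R)) =
            Real.exp (-(ρ (insert k A) * R)) * Real.exp (-(R * ρ (insert k A))) := by
          rw [← Real.exp_add]
          congr 1
          ring
        rw [e]
        have h14 : Real.exp (-(ρ (insert k A) * R)) ≤ 2 * (ML (insert k A) + 1) * x k := by linarith
        have h15 := mul_le_mul_of_nonneg_right h14 (Real.exp_pos (-(R * ρ (insert k A)))).le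
        refine h15.trans ?_
        have h16 : 2 * (ML (insert k A) + 1) * x k * Real.exp (-(R * ρ (insert k A))) =
            ((ML (insert k A) + 1) * Real.exp (-(R * ρ (insert k A)))) * (2 * x k) := by ring
        rw [h16]
        have := hxpos k
        nlinarith
      have h17 := Real.log_le_log (Real.exp_pos _) h13
      rw [Real.log_exp] at h17
      linarith
    · -- upper bound
      have h5 := hup x hQ k
      have h6 : x k ≤ Real.exp (2 * ρ (insert k A) * R) := by
        have e : Real.exp (2 * ρ (insert k A) * R) =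
            Real.exp (R * ρ (insert k A)) * Real.exp (R * ρ (insert k A)) := by
          rw [← Real.exp_add]
          congr 1
          ring
        rw [e]
        have h7 : Real.exp R ≤ Real.exp (R * ρ (insert k A)) := by
          refine Real.exp_le_exp.mpr ?_
          nlinarith
        have h8 := Real.exp_pos R
        have h9 := Real.exp_pos (R * ρ (insert k A))
        nlinarith
      have h10 := Real.log_le_log (hxpos k) h6
      rw [Real.log_exp] at h10
      exact h10
  -- the sum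
  rw [← Finset.sum_sdiff (Finset.subset_univ A)]
  have hsum2 : -(ρ A * R * μL A / 4) ≤ ∑ i ∈ univ \ A, n j i * Real.log (x i) := by
    have h5 : ∀ k ∈ univ \ A, -(|n j k| * (ρ A * R * μL A / (4 * N₁))) ≤ n j k * Real.log (x k) := by
      intro k hk
      have hk' := (Finset.mem_sdiff.mp hk).2
      have h6 := hoff k hk'
      have h7 := H.hstep2 A hA k hk'
      have hN := H.N₁pos
      have h8 : 2 * ρ (insert k A) * R ≤ ρ A * R * μL A / (4 * N₁) := by
        rw [le_div_iff₀ (by positivity)]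
        nlinarith
      have h9 : |n j k * Real.log (x k)| ≤ |n j k| * (ρ A * R * μL A / (4 * N₁)) := by
        rw [abs_mul]
        exact mul_le_mul_of_nonneg_left (h6.trans h8) (abs_nonneg _)
      exact (abs_le.mp h9).1
    have h6 := Finset.sum_le_sum h5
    rw [Finset.sum_neg_distrib, ← Finset.sum_mul] at h6
    have hN := H.N₁pos
    have h7 : ∑ k ∈ univ \ A, |n j k| ≤ N₁ := by
      refine le_trans ?_ (H.hN j)
      exact Finset.sum_le_sum_of_subset_of_nonneg (Finset.subset_univ _) (fun _ _ _ => abs_nonneg _)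
    have h8 : 0 ≤ ρ A * R * μL A / (4 * N₁) := by positivity
    have h9 : (∑ k ∈ univ \ A, |n j k|) * (ρ A * R * μL A / (4 * N₁)) ≤
        N₁ * (ρ A * R * μL A / (4 * N₁)) := mul_le_mul_of_nonneg_right h7 h8
    have h10 : N₁ * (ρ A * R * μL A / (4 * N₁)) = ρ A * R * μL A / 4 := by
      field_simp
    linarith
  rw [div_lt_iff₀ hlim] at hR1
  nlinarith

lemma activeL (B₀ : ℝ) : ∀ᶠ R in atTop, ∀ x : Fin d → ℝ, QQ PT PL ρ R x →
    ∀ A : Finset (Fin d), A.Nonempty → ∀ p ∈ PL A,
    val A p x (ρ A * R) = -Real.exp (-(ρ A * R)) → ∀ j, 0 < ∑ i ∈ A, n j i * p.1 i →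
      B₀ < ∑ i, n j i * Real.log (x i) := by
  have h : ∀ A : Finset (Fin d), ∀ᶠ R in atTop, A.Nonempty →
      (∀ x : Fin d → ℝ, QQ PT PL ρ R x → ∀ i, x i ≤ 4 * Real.exp R) →
      ∀ x : Fin d → ℝ, QQ PT PL ρ R x → ∀ p ∈ PL A,
      val A p x (ρ A * R) = -Real.exp (-(ρ A * R)) → ∀ j, 0 < ∑ i ∈ A, n j i * p.1 i →
        B₀ < ∑ i, n j i * Real.log (x i) := by
    intro A
    by_cases hA : A.Nonempty
    · filter_upwards [H.activeL_one B₀ hA] with R hR _ using hR
    · exact Eventually.of_forall (fun _ h => absurd h hA)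
  filter_upwards [Filter.eventually_all.mpr h, H.upper] with R hR hup x hQ A hA
  exact hR A hA hup x hQ

end Tower

end

end Crest.Agent.H3RN
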