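import Crest.Agent.H3RNStep

/-!
The node theorem.
-/

set_option autoImplicit false
set_option linter.unusedSectionVars false

open Filter Finset

namespace Crest.Agent.H3RN

variable {d : ℕ} {J : Type} [Fintype J]

lemma ev_le_exp (K : ℝ) {c : ℝ} (hc : 0 < c) : ∀ᶠ R in atTop, K ≤ Real.exp (R * c) :=
  (Real.tendsto_exp_atTop.comp (tendsto_id.atTop_mul_const hc)).eventually_ge_atTop K

section

variable {n : J → Fin d → ℝ} {ι : Finset (Fin d)} {α : J → ℝ} {M b : ℝ} {N : ℕ}
    {t s : ℕ → ℝ} {ε : ℕ → ℕ → ℝ} {Q : ℕ → Finset (Fin d) → Set (Piece d)}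
    {μQ δQ : ℕ → Finset (Fin d) → ℝ}

namespace Setup

variable (H : Setup n ι α M b N t s ε Q μQ δQ)
include H

lemma cc_nonneg {a : ℕ} (ha : a ≤ N) (R : ℝ) : 0 ≤ cc t s a R := by
  unfold cc
  refine Finset.sum_nonneg ?_
  intro l hl
  have hl' : l < N := lt_of_lt_of_le (Finset.mem_range.mp hl) ha
  have := H.t_mono_succ hl'
  have := Real.exp_pos (R * s (l + 1))
  have h3 : 0 < t (l + 1) - t l := by linarith
  positivity

/-- The eventual conditions for one index. -/
lemma ev_core {N₁ : ℝ} {a : ℕ} (ha : a ≤ N) {U : Finset (Fin d)} (hU : U ⊆ ι) (hne : U.Nonempty)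
    {τ : ℝ} (hτ : 0 < τ) :
    ∀ᶠ R in atTop, 0 < R ∧
    (2 * ((ι.card : ℝ) + 1) / ε a U.card ≤ Real.exp (R * τ)) ∧
    (2 ≤ U.card → (2 * (2 * CC M b * (((ι.card : ℝ) + 1) * (2 * ((ι.card : ℝ) + 1) / ε a U.card))))
        * Real.exp (R * (t a - ε a U.card)) ≤ Real.exp (R * (t a - ε a (U.card - 1)))) ∧
    (4 * CC M b ≤ Real.exp (R * τ)) ∧
    (a < N → 2 * ((t (a + 1) - t a) + ((ι.card : ℝ) + 1)) / (t (a + 1) - t a) ≤ Real.exp (R * τ)) ∧
    (∀ a₀, a = a₀ + 1 → U.card = 1 →
      (2 * (2 * CC M b * (((ι.card : ℝ) + 1) * (2 * ((ι.card : ℝ) + 1) / ε a U.card))))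
        * Real.exp (R * (t a - ε a U.card)) ≤ (t (a₀ + 1) - t a₀) * Real.exp (R * s (a₀ + 1))) ∧
    (2 ≤ Real.exp (R * τ)) ∧
    (∀ x : Fin d → ℝ,
      (∀ i ∈ ι \ U, 0 < x i ∧ -M ≤ Real.log (x i) / R ∧
        Real.log (x i) / R ≤ t a - ε a U.card + δQ a U) →
      ∀ p ∈ Q a U, (∀ q' ∈ Q a U, val (ι \ U) q' x R ≤ val (ι \ U) p x R) →
      ∀ j, 0 < form n (ι \ U) (shiftα n α (t a) U) j p.1 →
        μQ a U < form n (ι \ U) (shiftα n α (t a) U) j (tu x R)) := by
  have h0 : ∀ᶠ R : ℝ in atTop, 0 < R := eventually_gt_atTop 0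
  have h1 := ev_le_exp (2 * ((ι.card : ℝ) + 1) / ε a U.card) hτ
  have h2 : ∀ᶠ R : ℝ in atTop, 2 ≤ U.card →
      (2 * (2 * CC M b * (((ι.card : ℝ) + 1) * (2 * ((ι.card : ℝ) + 1) / ε a U.card))))
        * Real.exp (R * (t a - ε a U.card)) ≤ Real.exp (R * (t a - ε a (U.card - 1))) := by
    by_cases hm : 2 ≤ U.card
    · have hcard : U.card ≤ ι.card := Finset.card_le_card hU
      have hlt := H.εstrict a ha (U.card - 1) (by omega)
      have e : U.card - 1 + 1 = U.card := by omega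
      rw [e] at hlt
      filter_upwards [ev_le_exp (2 * (2 * CC M b * (((ι.card : ℝ) + 1) *
        (2 * ((ι.card : ℝ) + 1) / ε a U.card)))) (sub_pos.mpr hlt)] with R hR _
      have e2 : Real.exp (R * (t a - ε a (U.card - 1))) =
          Real.exp (R * (ε a U.card - ε a (U.card - 1))) * Real.exp (R * (t a - ε a U.card)) := by
        rw [← Real.exp_add]
        congr 1
        ring
      rw [e2]
      exact mul_le_mul_of_nonneg_right hR (Real.exp_pos _).le
    · exact Eventually.of_forall (fun _ h => absurd h hm)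
  have h3 := ev_le_exp (4 * CC M b) hτ
  have h4 : ∀ᶠ R : ℝ in atTop, a < N →
      2 * ((t (a + 1) - t a) + ((ι.card : ℝ) + 1)) / (t (a + 1) - t a) ≤ Real.exp (R * τ) := by
    by_cases haN : a < N
    · filter_upwards [ev_le_exp (2 * ((t (a + 1) - t a) + ((ι.card : ℝ) + 1)) / (t (a + 1) - t a)) hτ]
        with R hR _
      exact hR
    · exact Eventually.of_forall (fun _ h => absurd h haN)
  have h5 : ∀ᶠ R : ℝ in atTop, ∀ a₀, a = a₀ + 1 → U.card = 1 →
      (2 * (2 * CC M b * (((ι.card : ℝ) + 1) * (2 * ((ι.card : ℝ) + 1) / ε a U.card))))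
        * Real.exp (R * (t a - ε a U.card)) ≤ (t (a₀ + 1) - t a₀) * Real.exp (R * s (a₀ + 1)) := by
    rcases a with _ | a₁
    · exact Eventually.of_forall (fun _ a₀ h => absurd h (by omega))
    · have hτa : 0 < t (a₁ + 1) - t a₁ := by linarith [H.t_mono_succ (a := a₁) (by omega)]
      have hc : 0 < s (a₁ + 1) - t (a₁ + 1) + ε (a₁ + 1) U.card := by
        have h6 := H.gap2 a₁ (by omega)
        have h7 := H.εmono (a₁ + 1) ha (Nat.zero_le U.card)
        linarith
      filter_upwards [ev_le_exp ((2 * (2 * CC M b * (((ι.card : ℝ) + 1) *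
        (2 * ((ι.card : ℝ) + 1) / ε (a₁ + 1) U.card)))) / (t (a₁ + 1) - t a₁)) hc] with R hR a₀ h0 _
      have h0' : a₁ = a₀ := by omega
      subst h0'
      rw [div_le_iff₀ hτa] at hR
      have e2 : Real.exp (R * s (a₁ + 1)) =
          Real.exp (R * (s (a₁ + 1) - t (a₁ + 1) + ε (a₁ + 1) U.card)) *
            Real.exp (R * (t (a₁ + 1) - ε (a₁ + 1) U.card)) := by
        rw [← Real.exp_add]
        congr 1
        ring
      rw [e2]
      have h9 := mul_le_mul_of_nonneg_right hR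
        (Real.exp_pos (R * (t (a₁ + 1) - ε (a₁ + 1) U.card))).le
      refine h9.trans (le_of_eq ?_)
      ring
  have h6 := ev_le_exp 2 hτ
  have h7 := (H.hQ a ha U hU hne).valid
  filter_upwards [h0, h1, h2, h3, h4, h5, h6, h7] with R r0 r1 r2 r3 r4 r5 r6 r7
  exact ⟨r0, r1, r2, r3, r4, r5, r6, r7⟩

/-- The main case. -/
theorem sol (hι : ι.Nonempty) {N₁ : ℝ} (hN₀ : 0 < N₁) (hN : ∀ j, ∑ i, |n j i| ≤ N₁)
    (hμ : ∀ a ≤ N, ∀ U ⊆ ι, U.Nonempty → 4 * N₁ * ε a (U.card - 1) ≤ μQ a U) :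
    ∃ P μ δ, IsSol n ι α M b P μ δ := by
  classical
  set Idx : Finset (ℕ × Finset (Fin d)) :=
    (Finset.range (N + 1)) ×ˢ (ι.powerset.filter Finset.Nonempty) with hIdx
  have memIdx : ∀ a U, a ≤ N → U ⊆ ι → U.Nonempty → (a, U) ∈ Idx := by
    intro a U ha hU hne
    rw [hIdx, Finset.mem_product]
    exact ⟨Finset.mem_range.mpr (by omega), Finset.mem_filter.mpr ⟨Finset.mem_powerset.mpr hU, hne⟩⟩
  have idxMem : ∀ x ∈ Idx, x.1 ≤ N ∧ x.2 ⊆ ι ∧ x.2.Nonempty := by
    intro x hx
    rw [hIdx, Finset.mem_product] at hx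
    have h2 := Finset.mem_filter.mp hx.2
    exact ⟨by have := Finset.mem_range.mp hx.1; omega, Finset.mem_powerset.mp h2.1, h2.2⟩
  obtain ⟨τ, hτ, hτ'⟩ := exists_pos_le Idx (fun x => min (δQ x.1 x.2) (μQ x.1 x.2 / (4 * N₁))) (by
    intro x hx
    obtain ⟨h1, h2, h3⟩ := idxMem x hx
    have h4 := H.hQ x.1 h1 x.2 h2 h3
    exact lt_min h4.δpos (div_pos h4.μpos (by positivity)))
  obtain ⟨μ, hμ0, hμ'⟩ := exists_pos_le Idx (fun x => μQ x.1 x.2 / 2) (by
    intro x hx
    obtain ⟨h1, h2, h3⟩ := idxMem x hx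
    have h4 := H.hQ x.1 h1 x.2 h2 h3
    exact div_pos h4.μpos (by norm_num))
  obtain ⟨i₀, hi₀⟩ := hι
  have hsing : ({i₀} : Finset (Fin d)) ⊆ ι := Finset.singleton_subset_iff.mpr hi₀
  refine ⟨PP ι N t s ε Q, μ, τ, ?_⟩
  refine
    { fin := ?_
      ne := ?_
      μpos := hμ0
      δpos := hτ
      slope := ?_
      off_nonneg := ?_
      off_smooth := ?_
      zero := ?_
      top := ?_
      valid := ?_ }
  · -- finiteness
    have hsub : PP ι N t s ε Q ⊆ ⋃ x ∈ (Idx : Set (ℕ × Finset (Fin d))),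
        (build t s ε x.1 x.2) '' (Q x.1 x.2) := by
      rintro p ⟨a, ha, U, hU, hne, q, hq, rfl⟩
      simp only [Set.mem_iUnion]
      exact ⟨(a, U), memIdx a U ha hU hne, q, hq, rfl⟩
    refine Set.Finite.subset (Set.Finite.biUnion (Finset.finite_toSet Idx) ?_) hsub
    intro x hx
    obtain ⟨h1, h2, h3⟩ := idxMem x hx
    exact (H.hQ x.1 h1 x.2 h2 h3).fin.image _
  · -- nonempty
    obtain ⟨p₀, hp₀, _⟩ := (H.hQ 0 (Nat.zero_le _) {i₀} hsing ⟨i₀, Finset.mem_singleton_self _⟩).zero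
    exact ⟨_, 0, Nat.zero_le _, {i₀}, hsing, ⟨i₀, Finset.mem_singleton_self _⟩, p₀, hp₀, rfl⟩
  · -- slopes
    rintro p ⟨a, ha, U, hU, hne, q, hq, rfl⟩ i hi
    simp only [build]
    obtain ⟨h1, h2⟩ := H.t_range ha
    by_cases hiU : i ∈ U
    · rw [if_pos hiU]
      exact ⟨by linarith, h2⟩
    · rw [if_neg hiU]
      have h3 := (H.hQ a ha U hU hne).slope q hq i (Finset.mem_sdiff.mpr ⟨hi, hiU⟩)
      have h4 := H.εpos a ha U.card
      exact ⟨h3.1, by linarith [h3.2]⟩
  · -- offsets nonneg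
    rintro p ⟨a, ha, U, hU, hne, q, hq, rfl⟩ R
    simp only [build]
    have h1 := H.cc_nonneg ha R
    have h2 := ff_nonneg (t a) (ε a) U.card R
    have h3 := (H.hQ a ha U hU hne).off_nonneg q hq R
    linarith
  · -- smooth
    rintro p ⟨a, ha, U, hU, hne, q, hq, rfl⟩
    simp only [build]
    have h3 := (H.hQ a ha U hU hne).off_smooth q hq
    have h1 : ContDiff ℝ 1 (fun R => cc t s a R) := by
      unfold cc
      refine ContDiff.sum (fun l _ => ?_)
      exact contDiff_const.mul (Real.contDiff_exp.comp (contDiff_id.mul contDiff_const))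
    have h2 : ContDiff ℝ 1 (fun R => ff (t a) (ε a) U.card R) := by
      unfold ff
      refine ContDiff.sum (fun l _ => ?_)
      exact Real.contDiff_exp.comp (contDiff_id.mul contDiff_const)
    exact (h1.add h2).add h3
  · -- zero
    obtain ⟨p₀, hp₀, hz⟩ := (H.hQ 0 (Nat.zero_le _) {i₀} hsing ⟨i₀, Finset.mem_singleton_self _⟩).zero
    refine ⟨_, ⟨0, Nat.zero_le _, {i₀}, hsing, ⟨i₀, Finset.mem_singleton_self _⟩, p₀, hp₀, rfl⟩, ?_⟩
    intro R
    simp only [build]
    rw [hz, Finset.card_singleton, ff_one]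
    simp [cc]
  · -- top
    intro _ L hL hLne
    obtain ⟨p₀, hp₀, hz⟩ := (H.hQ N le_rfl L hL hLne).zero
    refine ⟨_, ⟨N, le_rfl, L, hL, hLne, p₀, hp₀, rfl⟩, ?_, ?_⟩
    · intro i hi
      simp only [build]
      rw [if_pos hi, H.tN]
    · obtain ⟨η₁, hη₁, hη₁'⟩ := exists_pos_le (Finset.range N) (fun l => b - s (l + 1)) (by
        intro l hl
        have hl' := Finset.mem_range.mp hl
        have h1 := H.slt l hl'
        have h2 := (H.t_range (a := l + 1) hl').2
        show 0 < b - s (l + 1)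
        linarith)
      obtain ⟨η₂, hη₂, hη₂'⟩ := exists_pos_le (Finset.Ico 1 L.card) (fun l => ε N l) (by
        intro l _
        exact H.εpos N le_rfl l)
      set η := min η₁ η₂ with hη
      have hηpos : 0 < η := lt_min hη₁ hη₂
      refine ⟨∑ l ∈ range N, (t (l + 1) - t l) + ((Finset.Ico 1 L.card).card : ℝ), b - η,
        by linarith, ?_⟩
      intro R hR
      simp only [build]
      rw [hz, add_zero, add_mul, H.tN]
      refine add_le_add ?_ ?_
      · unfold cc
        rw [Finset.sum_mul]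
        refine Finset.sum_le_sum ?_
        intro l hl
        have hl' := Finset.mem_range.mp hl
        refine mul_le_mul_of_nonneg_left ?_ (by linarith [H.t_mono_succ hl'])
        refine Real.exp_le_exp.mpr (mul_le_mul_of_nonneg_left ?_ hR)
        have h1 := hη₁' l hl
        have h2 := min_le_left η₁ η₂
        linarith
      · unfold ff
        have : ∑ l ∈ Ico 1 L.card, Real.exp (R * (b - ε N l)) ≤
            ∑ _l ∈ Ico 1 L.card, Real.exp (R * (b - η)) := by
          refine Finset.sum_le_sum ?_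
          intro l hl
          refine Real.exp_le_exp.mpr (mul_le_mul_of_nonneg_left ?_ hR)
          have h1 := hη₂' l hl
          have h2 := min_le_right η₁ η₂
          linarith
        simpa using this
  · -- validity
    have hev : ∀ᶠ R in atTop, ∀ x ∈ Idx, 0 < R ∧
        (2 * ((ι.card : ℝ) + 1) / ε x.1 x.2.card ≤ Real.exp (R * τ)) ∧
        (2 ≤ x.2.card → (2 * (2 * CC M b * (((ι.card : ℝ) + 1) * (2 * ((ι.card : ℝ) + 1) / ε x.1 x.2.card))))
            * Real.exp (R * (t x.1 - ε x.1 x.2.card)) ≤ Real.exp (R * (t x.1 - ε x.1 (x.2.card - 1)))) ∧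
        (4 * CC M b ≤ Real.exp (R * τ)) ∧
        (x.1 < N → 2 * ((t (x.1 + 1) - t x.1) + ((ι.card : ℝ) + 1)) / (t (x.1 + 1) - t x.1) ≤ Real.exp (R * τ)) ∧
        (∀ a₀, x.1 = a₀ + 1 → x.2.card = 1 →
          (2 * (2 * CC M b * (((ι.card : ℝ) + 1) * (2 * ((ι.card : ℝ) + 1) / ε x.1 x.2.card))))
            * Real.exp (R * (t x.1 - ε x.1 x.2.card)) ≤ (t (a₀ + 1) - t a₀) * Real.exp (R * s (a₀ + 1))) ∧
        (2 ≤ Real.exp (R * τ)) ∧
        (∀ y : Fin d → ℝ,
          (∀ i ∈ ι \ x.2, 0 < y i ∧ -M ≤ Real.log (y i) / R ∧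
            Real.log (y i) / R ≤ t x.1 - ε x.1 x.2.card + δQ x.1 x.2) →
          ∀ p ∈ Q x.1 x.2, (∀ q' ∈ Q x.1 x.2, val (ι \ x.2) q' y R ≤ val (ι \ x.2) p y R) →
          ∀ j, 0 < form n (ι \ x.2) (shiftα n α (t x.1) x.2) j p.1 →
            μQ x.1 x.2 < form n (ι \ x.2) (shiftα n α (t x.1) x.2) j (tu y R)) := by
      rw [Filter.eventually_all_finset]
      intro x hx
      obtain ⟨h1, h2, h3⟩ := idxMem x hx
      exact H.ev_core (N₁ := N₁) h1 h2 h3 hτ
    filter_upwards [hev] with R hR x hx p hp hmax j hj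
    obtain ⟨a, ha, U, hU, hne, q, hq, rfl⟩ := hp
    have hmem := memIdx a U ha hU hne
    obtain ⟨r0, r1, r2, r3, r4, r5, r6, r7⟩ := hR (a, U) hmem
    simp only at r1 r2 r3 r4 r5 r6 r7
    have hτ1 := hτ' (a, U) hmem
    simp only at hτ1
    have h1 : τ ≤ δQ a U := hτ1.trans (min_le_left _ _)
    have h2 : N₁ * τ ≤ μQ a U / 4 := by
      have h3 := hτ1.trans (min_le_right _ _)
      rw [le_div_iff₀ (by positivity)] at h3
      linarith
    have h3 := H.valid_core hN₀ hN ha hU hne hq hτ r0 h1 h2 (hμ a ha U hU hne) r1 r2 r3 r4 r5 r6 r7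
      hx hmax hj
    have h4 := hμ' (a, U) hmem
    simp only at h4
    linarith

end Setup

end

/-- The node theorem. -/
theorem exists_sol (n : J → Fin d → ℝ) {N₁ : ℝ} (hN₀ : 0 < N₁) (hN : ∀ j, ∑ i, |n j i| ≤ N₁) :
    ∀ (ι : Finset (Fin d)) (α : J → ℝ) (M b : ℝ), -M - 1 ≤ b → ∃ P μ δ, IsSol n ι α M b P μ δ := by
  classical
  intro ι
  induction ι using Finset.strongInduction with
  | H ι IH =>
    intro α M b hb
    by_cases hι : ι.Nonempty
    swap
    · rw [Finset.not_nonempty_iff_eq_empty] at hι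
      subst hι
      exact sol_empty n α M b
    by_cases hlow : b < -M
    · exact sol_low n hι α hb hlow
    have hMb : -M ≤ b := not_lt.mp hlow
    have IH' : ∀ (U : Finset (Fin d)) (T β : ℝ), U ⊆ ι → U.Nonempty → -M - 1 ≤ β →
        ∃ P μ δ, IsSol n (ι \ U) (shiftα n α T U) M β P μ δ := by
      intro U T β hU hne hβ
      exact IH (ι \ U) (Finset.sdiff_ssubset hU hne) _ _ _ hβ
    choose! Pc μc δc hc using IH'
    set Tset : Finset (Finset (Fin d)) := ι.powerset.filter Finset.Nonempty with hTset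
    have memT : ∀ U, U ⊆ ι → U.Nonempty → U ∈ Tset := fun U hU hne =>
      Finset.mem_filter.mpr ⟨Finset.mem_powerset.mpr hU, hne⟩
    have Tmem : ∀ U ∈ Tset, U ⊆ ι ∧ U.Nonempty := fun U hU =>
      ⟨Finset.mem_powerset.mp (Finset.mem_filter.mp hU).1, (Finset.mem_filter.mp hU).2⟩
    -- the chain at each level
    have chain : ∀ T ∈ Set.Icc (-M) b, ∃ ε : ℕ → ℝ, (∀ m, 0 < ε m ∧ ε m ≤ 1) ∧ Monotone ε ∧
        (∀ m, m < ι.card → ε m < ε (m + 1)) ∧
        (∀ U ⊆ ι, U.Nonempty → 4 * N₁ * ε (U.card - 1) ≤ μc U T (T - ε U.card)) := by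
      intro T hT
      have hg : ∀ β : ℝ, 0 < β → β ≤ 1 → ∃ g : ℝ, 0 < g ∧ ∀ U ∈ Tset, g ≤ μc U T (T - β) / (4 * N₁) := by
        intro β hβ hβ1
        refine exists_pos_le Tset _ ?_
        intro U hU
        obtain ⟨h1, h2⟩ := Tmem U hU
        have h3 : -M - 1 ≤ T - β := by linarith [hT.1]
        exact div_pos (hc U T _ h1 h2 h3).μpos (by positivity)
      choose! g hg0 hg1 using hg
      obtain ⟨ε, h1, h2, h3, h4⟩ := chain_exists g hg0 ι.card
      refine ⟨ε, h1, h2, h3, ?_⟩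
      intro U hU hne
      have hm : 1 ≤ U.card := Finset.card_pos.mpr hne
      have hcard : U.card ≤ ι.card := Finset.card_le_card hU
      have h5 := h4 (U.card - 1) (by omega)
      have e : U.card - 1 + 1 = U.card := by omega
      rw [e] at h5
      have h6 := hg1 (ε U.card) (h1 _).1 (h1 _).2 U (memT U hU hne)
      have h7 := h5.trans h6
      rw [le_div_iff₀ (by positivity)] at h7
      linarith
    choose! ε hε0 hε1 hε2 hε3 using chain
    -- the grid
    obtain ⟨N, t, s, t0, tN, hch⟩ := grid_exists (fun T => ε T 0) hMb (fun T hT => (hε0 T hT 0).1)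
    have hrange : ∀ a ≤ N, t a ∈ Set.Icc (-M) b := by
      have hup : ∀ a < N, t a < t (a + 1) := fun a ha => (hch a ha).1.trans (hch a ha).2.1
      intro a ha
      constructor
      · induction a with
        | zero => rw [t0]
        | succ a ih =>
          have h1 := ih (by omega)
          have h2 := hup a (by omega)
          linarith
      · have : ∀ k, ∀ a, a + k = N → t a ≤ b := by
          intro k
          induction k with
          | zero =>
            intro a h
            have : a = N := by omega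
            rw [this, tN]
          | succ k ih =>
            intro a h
            have h1 := ih (a + 1) (by omega)
            have h2 := hup a (by omega)
            linarith
        exact this (N - a) a (by omega)
    have hS : Setup n ι α M b N t s (fun a => ε (t a))
        (fun a U => Pc U (t a) (t a - ε (t a) U.card))
        (fun a U => μc U (t a) (t a - ε (t a) U.card))
        (fun a U => δc U (t a) (t a - ε (t a) U.card)) :=
      { hMb := hMb
        t0 := t0
        tN := tN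
        tlt := fun a ha => (hch a ha).1
        slt := fun a ha => (hch a ha).2.1
        gap1 := fun a ha => (hch a ha).2.2.1
        gap2 := fun a ha => (hch a ha).2.2.2
        εpos := fun a ha m => (hε0 (t a) (hrange a ha) m).1
        εle := fun a ha m => (hε0 (t a) (hrange a ha) m).2
        εmono := fun a ha => hε1 (t a) (hrange a ha)
        εstrict := fun a ha m hm => hε2 (t a) (hrange a ha) m hm
        hQ := by
          intro a ha U hU hne
          refine hc U (t a) _ hU hne ?_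
          have h1 := (hrange a ha).1
          have h2 := (hε0 (t a) (hrange a ha) U.card).2
          linarith }
    exact hS.sol hι hN₀ hN (fun a ha U hU hne => hε3 (t a) (hrange a ha) U hU hne)

end Crest.Agent.H3RN
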