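import Crest.Agent.H3RNDyn
import Crest.Agent.H3RNThm

/-!
The network lemma of S0122.
-/

set_option autoImplicit false
set_option linter.unusedSectionVars false

open Filter Finset Relation Crest.AnalysisR.MassAction

namespace Crest.Agent.H3RN

variable {d : ℕ}

/-- The complexes of the network. -/
def complexes (R : Network d) : Finset (Fin d → ℕ) := R.image Prod.fst ∪ R.image Prod.snd

open Classical in
/-- The reachable pairs of complexes. -/
noncomputable def Jset (R : Network d) : Finset ((Fin d → ℕ) × (Fin d → ℕ)) :=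
  ((complexes R) ×ˢ (complexes R)).filter (fun p => ReflTransGen (fun a b => (a, b) ∈ R) p.1 p.2)

/-- The index type. -/
abbrev JJ (R : Network d) : Type := {p // p ∈ Jset R}

noncomputable def nn (R : Network d) (j : JJ R) (i : Fin d) : ℝ := (j.1.1 i : ℝ) - (j.1.2 i : ℝ)

def hgt (W : Fin d → ℝ) (y : Fin d → ℕ) : ℝ := ∑ i, W i * (y i : ℝ)

lemma ip_reaction (W : Fin d → ℝ) (r : (Fin d → ℕ) × (Fin d → ℕ)) :
    ip W (reactionVector r) = hgt W r.2 - hgt W r.1 := by
  simp only [ip, reactionVector, hgt, mul_sub, Finset.sum_sub_distrib]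

lemma ip_field (W : Fin d → ℝ) (R : Network d) (k : (Fin d → ℕ) × (Fin d → ℕ) → ℝ) (x : Fin d → ℝ) :
    ip W (field R k x) = ∑ r ∈ R, k r * (∏ i, x i ^ (r.1 i)) * ip W (reactionVector r) := by
  unfold field
  rw [ip_sum]
  exact Finset.sum_congr rfl (fun r _ => by rw [ip_smul])

/-- The path lemma. -/
lemma path_lemma (R : Network d) (h : (Fin d → ℕ) → ℝ) {a b : Fin d → ℕ}
    (hab : ReflTransGen (fun a b => (a, b) ∈ R) a b) (hlt : h b < h a) :
    ∃ z z', (z, z') ∈ R ∧ h a ≤ h z ∧ h z' < h z ∧ ReflTransGen (fun a b => (a, b) ∈ R) z b := by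
  induction hab using ReflTransGen.head_induction_on with
  | refl => exact absurd hlt (lt_irrefl _)
  | head hac hcb ih =>
    rename_i a c
    by_cases hc : h c < h a
    · exact ⟨a, c, hac, le_rfl, hc, ReflTransGen.head hac hcb⟩
    · have hc' : h a ≤ h c := not_lt.mp hc
      obtain ⟨z, z', h1, h2, h3, h4⟩ := ih (lt_of_lt_of_le hlt hc')
      exact ⟨z, z', h1, hc'.trans h2, h3, h4⟩

lemma mono_eq {x : Fin d → ℝ} (hx : ∀ i, 0 < x i) (y : Fin d → ℕ) :
    ∏ i, x i ^ (y i) = Real.exp (∑ i, (y i : ℝ) * Real.log (x i)) := by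
  rw [Real.exp_sum]
  refine Finset.prod_congr rfl (fun i _ => ?_)
  rw [Real.exp_nat_mul, Real.exp_log (hx i)]

lemma mono_pos {x : Fin d → ℝ} (hx : ∀ i, 0 < x i) (y : Fin d → ℕ) : 0 < ∏ i, x i ^ (y i) :=
  Finset.prod_pos (fun i _ => pow_pos (hx i) _)

/-- The network lemma for a single slope. -/
theorem net_lemma (R : Network d) (hR : IsWeaklyReversible R)
    (k : (Fin d → ℕ) × (Fin d → ℕ) → ℝ) (hk : ∀ r ∈ R, 0 < k r) (W : Fin d → ℝ) :
    ∃ B a : ℝ, 0 < a ∧ ∀ x : Fin d → ℝ, (∀ i, 0 < x i) →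
      (∀ j : JJ R, 0 < ∑ i, nn R j i * W i → B < ∑ i, nn R j i * Real.log (x i)) →
      (∃ r ∈ R, ip W (reactionVector r) ≠ 0) →
      ∃ r ∈ R, ip W (field R k x) ≤ -a * ∏ i, x i ^ (r.1 i) := by
  classical
  set ξ : (Fin d → ℕ) × (Fin d → ℕ) → ℝ := fun r => ip W (reactionVector r) with hξ
  set Dn := R.filter (fun r => ξ r < 0) with hDn
  set A := ∑ r ∈ R, k r * |ξ r| with hA
  have hA0 : 0 ≤ A := Finset.sum_nonneg (fun r hr => mul_nonneg (hk r hr).le (abs_nonneg _))
  obtain ⟨a₀, ha₀, ha₀'⟩ := exists_pos_le Dn (fun r => k r * |ξ r|) (by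
    intro r hr
    have h1 := Finset.mem_filter.mp hr
    exact mul_pos (hk r h1.1) (abs_pos.mpr h1.2.ne))
  refine ⟨Real.log ((2 * A + 1) / a₀), a₀ / 2, by positivity, ?_⟩
  intro x hx hstar hex
  set B := Real.log ((2 * A + 1) / a₀) with hB
  have hexpB : Real.exp B = (2 * A + 1) / a₀ := Real.exp_log (by positivity)
  -- charging
  have hcharge : ∀ r ∈ R, 0 < ξ r → ∃ z ∈ Dn,
      Real.exp B * ∏ i, x i ^ (r.1 i) ≤ ∏ i, x i ^ (z.1 i) := by
    intro r hr hup
    have hup' : hgt W r.1 < hgt W r.2 := by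
      have := ip_reaction W r
      simp only [hξ] at hup
      linarith
    obtain ⟨z, z', h1, h2, h3, h4⟩ := path_lemma R (hgt W) (hR r hr) hup'
    have hmem : (z, z') ∈ Dn := by
      refine Finset.mem_filter.mpr ⟨h1, ?_⟩
      simp only [hξ]
      rw [ip_reaction]
      simp only
      linarith
    refine ⟨(z, z'), hmem, ?_⟩
    have hJ : (z, r.1) ∈ Jset R := by
      unfold Jset
      refine Finset.mem_filter.mpr ⟨Finset.mem_product.mpr ⟨?_, ?_⟩, h4⟩
      · exact Finset.mem_union_left _ (Finset.mem_image.mpr ⟨(z, z'), h1, rfl⟩)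
      · exact Finset.mem_union_left _ (Finset.mem_image.mpr ⟨r, hr, rfl⟩)
    have h5 := hstar ⟨(z, r.1), hJ⟩ (by
      have : ∑ i, nn R ⟨(z, r.1), hJ⟩ i * W i = hgt W z - hgt W r.1 := by
        simp only [nn, hgt]
        rw [← Finset.sum_sub_distrib]
        refine Finset.sum_congr rfl (fun i _ => by ring)
      rw [this]
      linarith)
    have h6 : ∑ i, nn R ⟨(z, r.1), hJ⟩ i * Real.log (x i) =
        ∑ i, (z i : ℝ) * Real.log (x i) - ∑ i, (r.1 i : ℝ) * Real.log (x i) := by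
      simp only [nn]
      rw [← Finset.sum_sub_distrib]
      refine Finset.sum_congr rfl (fun i _ => by ring)
    rw [h6] at h5
    rw [mono_eq hx, mono_eq hx, ← Real.exp_add]
    refine Real.exp_le_exp.mpr ?_
    simp only
    linarith
  -- `Dn` is nonempty
  have hDnne : Dn.Nonempty := by
    obtain ⟨r, hr, hne⟩ := hex
    rcases lt_or_gt_of_ne hne with h | h
    · exact ⟨r, Finset.mem_filter.mpr ⟨hr, h⟩⟩
    · obtain ⟨z, hz, _⟩ := hcharge r hr h
      exact ⟨z, hz⟩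
  obtain ⟨rs, hrs, hmax⟩ := Finset.exists_max_image Dn (fun r => ∏ i, x i ^ (r.1 i)) hDnne
  set m := ∏ i, x i ^ (rs.1 i) with hm
  have hmpos : 0 < m := mono_pos hx _
  have hrsR : rs ∈ R := (Finset.mem_filter.mp hrs).1
  refine ⟨rs, hrsR, ?_⟩
  rw [ip_field]
  rw [← Finset.add_sum_erase R _ hrsR]
  -- the term of `rs`
  have h1 : k rs * m * ξ rs ≤ -a₀ * m := by
    have h2 := ha₀' rs hrs
    have h3 : ξ rs < 0 := (Finset.mem_filter.mp hrs).2
    rw [abs_of_neg h3] at h2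
    nlinarith
  -- the other terms
  have h2 : ∀ r ∈ R.erase rs, k r * (∏ i, x i ^ (r.1 i)) * ξ r ≤
      (k r * |ξ r|) * (m / Real.exp B) := by
    intro r hr
    have hrR := (Finset.mem_erase.mp hr).2
    have hkr := hk r hrR
    have hmono := mono_pos hx r.1
    have hEB := Real.exp_pos B
    rcases le_or_gt (ξ r) 0 with h3 | h3
    · have h4 : k r * (∏ i, x i ^ (r.1 i)) * ξ r ≤ 0 :=
        mul_nonpos_of_nonneg_of_nonpos (by positivity) h3
      have h5 : 0 ≤ (k r * |ξ r|) * (m / Real.exp B) := by positivity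
      linarith
    · obtain ⟨z, hz, hz'⟩ := hcharge r hrR h3
      have h4 : Real.exp B * ∏ i, x i ^ (r.1 i) ≤ m := hz'.trans (hmax z hz)
      have h5 : ∏ i, x i ^ (r.1 i) ≤ m / Real.exp B := by
        rw [le_div_iff₀ hEB]
        linarith
      rw [abs_of_pos h3]
      have h6 : k r * (∏ i, x i ^ (r.1 i)) * ξ r = (k r * ξ r) * ∏ i, x i ^ (r.1 i) := by ring
      rw [h6]
      exact mul_le_mul_of_nonneg_left h5 (by positivity)
  have h3 : ∑ r ∈ R.erase rs, k r * (∏ i, x i ^ (r.1 i)) * ξ r ≤ A * (m / Real.exp B) := by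
    refine (Finset.sum_le_sum h2).trans ?_
    rw [← Finset.sum_mul]
    refine mul_le_mul_of_nonneg_right ?_ (by positivity)
    exact Finset.sum_le_sum_of_subset_of_nonneg (Finset.erase_subset _ _)
      (fun r hr _ => mul_nonneg (hk r hr).le (abs_nonneg _))
  have h4 : A * (m / Real.exp B) ≤ a₀ / 2 * m := by
    rw [hexpB]
    have h5 : A * (m / ((2 * A + 1) / a₀)) = (A * a₀ / (2 * A + 1)) * m := by
      field_simp
    rw [h5]
    refine mul_le_mul_of_nonneg_right ?_ hmpos.le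
    rw [div_le_iff₀ (by positivity)]
    nlinarith
  simp only [hξ] at h1 h3
  have e : k rs * (∏ i, x i ^ (rs.1 i)) * ip W (reactionVector rs) =
      k rs * m * ip W (reactionVector rs) := rfl
  rw [e]
  linarith

/-- The network lemma for a finite family of slopes. -/
theorem net_family (R : Network d) (hR : IsWeaklyReversible R)
    (k : (Fin d → ℕ) × (Fin d → ℕ) → ℝ) (hk : ∀ r ∈ R, 0 < k r) (T : Set (Fin d → ℝ))
    (hT : T.Finite) :
    ∃ B a : ℝ, 0 < a ∧ ∀ W ∈ T, ∀ x : Fin d → ℝ, (∀ i, 0 < x i) →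
      (∀ j : JJ R, 0 < ∑ i, nn R j i * W i → B < ∑ i, nn R j i * Real.log (x i)) →
      (∃ r ∈ R, ip W (reactionVector r) ≠ 0) →
      ∃ r ∈ R, ip W (field R k x) ≤ -a * ∏ i, x i ^ (r.1 i) := by
  classical
  choose B a ha h using net_lemma R hR k hk
  obtain ⟨B₀, hB₀⟩ := (hT.image B).bddAbove
  obtain ⟨a₀, ha₀, ha₀'⟩ := exists_pos_le hT.toFinset a (fun W _ => ha W)
  refine ⟨B₀, a₀, ha₀, ?_⟩
  intro W hW x hx hstar hex
  have h1 : B W ≤ B₀ := hB₀ (Set.mem_image_of_mem B hW)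
  obtain ⟨r, hr, hr'⟩ := h W x hx (fun j hj => lt_of_le_of_lt h1 (hstar j hj)) hex
  refine ⟨r, hr, hr'.trans ?_⟩
  have h2 := ha₀' W (hT.mem_toFinset.mpr hW)
  have h3 := mono_pos hx r.1
  nlinarith

end Crest.Agent.H3RN
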