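import Mathlib

/-!
Recursive tropical rounding: the node theorem (part B of the plan for S0122).
-/

set_option autoImplicit false
set_option linter.unusedSectionVars false

open Filter Finset

namespace Crest.Agent.H3RN

variable {d : ℕ} {J : Type} [Fintype J]

/-- A piece: a slope vector and an offset function of the scale. -/
abbrev Piece (d : ℕ) := (Fin d → ℝ) × (ℝ → ℝ)

noncomputable def val (ι : Finset (Fin d)) (p : Piece d) (x : Fin d → ℝ) (R : ℝ) : ℝ :=
  ∑ i ∈ ι, p.1 i * x i - p.2 R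

def form (n : J → Fin d → ℝ) (ι : Finset (Fin d)) (α : J → ℝ) (j : J) (u : Fin d → ℝ) : ℝ :=
  ∑ i ∈ ι, n j i * u i + α j

noncomputable def tu (x : Fin d → ℝ) (R : ℝ) : Fin d → ℝ := fun i => Real.log (x i) / R

structure IsSol (n : J → Fin d → ℝ) (ι : Finset (Fin d)) (α : J → ℝ) (M b : ℝ)
    (P : Set (Piece d)) (μ δ : ℝ) : Prop where
  fin : P.Finite
  ne : P.Nonempty
  μpos : 0 < μ
  δpos : 0 < δ
  slope : ∀ p ∈ P, ∀ i ∈ ι, -M - 1 ≤ p.1 i ∧ p.1 i ≤ b
  off_nonneg : ∀ p ∈ P, ∀ R, 0 ≤ p.2 R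
  off_smooth : ∀ p ∈ P, ContDiff ℝ 1 p.2
  zero : ∃ p ∈ P, ∀ R, p.2 R = 0
  top : -M ≤ b → ∀ L ⊆ ι, L.Nonempty → ∃ p ∈ P, (∀ i ∈ L, p.1 i = b) ∧
    ∃ κ b', b' < b ∧ ∀ R, 0 ≤ R → p.2 R ≤ κ * Real.exp (R * b')
  valid : ∀ᶠ R in atTop, ∀ x : Fin d → ℝ,
    (∀ i ∈ ι, 0 < x i ∧ -M ≤ Real.log (x i) / R ∧ Real.log (x i) / R ≤ b + δ) →
    ∀ p ∈ P, (∀ q ∈ P, val ι q x R ≤ val ι p x R) →
    ∀ j, 0 < form n ι α j p.1 → μ < form n ι α j (tu x R)

/-- positive lower bound of finitely many positive numbers -/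
lemma exists_pos_le {β : Type*} (T : Finset β) (f : β → ℝ) (h : ∀ t ∈ T, 0 < f t) :
    ∃ g : ℝ, 0 < g ∧ ∀ t ∈ T, g ≤ f t := by
  classical
  induction T using Finset.induction_on with
  | empty => exact ⟨1, one_pos, by simp⟩
  | insert a s ha ih =>
    obtain ⟨g, hg, hg'⟩ := ih (fun t ht => h t (Finset.mem_insert_of_mem ht))
    refine ⟨min g (f a), lt_min hg (h a (Finset.mem_insert_self _ _)), ?_⟩
    intro t ht
    rcases Finset.mem_insert.mp ht with rfl | ht
    · exact min_le_right _ _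
    · exact (min_le_left _ _).trans (hg' t ht)

/-- Base case: no coordinates. -/
lemma sol_empty (n : J → Fin d → ℝ) (α : J → ℝ) (M b : ℝ) :
    ∃ P μ δ, IsSol n ∅ α M b P μ δ := by
  classical
  obtain ⟨g, hg, hg'⟩ := exists_pos_le (Finset.univ.filter (fun j => 0 < α j)) α
    (fun j hj => (Finset.mem_filter.mp hj).2)
  refine ⟨{((fun _ => 0), (fun _ => 0))}, g / 2, 1, ?_⟩
  refine
    { fin := Set.finite_singleton _
      ne := Set.singleton_nonempty _
      μpos := by positivity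
      δpos := one_pos
      slope := by simp
      off_nonneg := by simp
      off_smooth := by
        intro p hp
        rw [Set.mem_singleton_iff.mp hp]
        exact contDiff_const
      zero := ⟨_, rfl, fun _ => rfl⟩
      top := by
        intro _ L hL hne
        have : L = ∅ := Finset.subset_empty.mp hL
        simp [this] at hne
      valid := ?_ }
  refine Eventually.of_forall ?_
  intro R x _ p _ _ j hj
  have h1 : 0 < α j := by simpa [form] using hj
  have h2 := hg' j (Finset.mem_filter.mpr ⟨Finset.mem_univ _, h1⟩)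
  have : form n ∅ α j (tu x R) = α j := by simp [form]
  rw [this]
  linarith

/-- Base case: the slope is below the window. -/
lemma sol_low (n : J → Fin d → ℝ) {ι : Finset (Fin d)} (hι : ι.Nonempty) (α : J → ℝ) {M b : ℝ}
    (h1 : -M - 1 ≤ b) (h2 : b < -M) :
    ∃ P μ δ, IsSol n ι α M b P μ δ := by
  refine ⟨{((fun _ => b), (fun _ => 0))}, 1, (-M - b) / 2, ?_⟩
  refine
    { fin := Set.finite_singleton _
      ne := Set.singleton_nonempty _
      μpos := one_pos
      δpos := by linarith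
      slope := ?_
      off_nonneg := by simp
      off_smooth := by
        intro p hp
        rw [Set.mem_singleton_iff.mp hp]
        exact contDiff_const
      zero := ⟨_, rfl, fun _ => rfl⟩
      top := fun h => absurd h (not_le.mpr h2)
      valid := ?_ }
  · intro p hp i _
    rw [Set.mem_singleton_iff.mp hp]
    exact ⟨h1, le_refl _⟩
  · refine Eventually.of_forall ?_
    intro R x hx p _ _ j _
    obtain ⟨i, hi⟩ := hι
    obtain ⟨_, h3, h4⟩ := hx i hi
    exfalso
    linarith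

/-! ### The grid lemma -/

lemma grid_exists (e : ℝ → ℝ) {A b : ℝ} (hAb : A ≤ b) (he : ∀ t ∈ Set.Icc A b, 0 < e t) :
    ∃ (N : ℕ) (t s : ℕ → ℝ), t 0 = A ∧ t N = b ∧
      ∀ a < N, t a < s (a + 1) ∧ s (a + 1) < t (a + 1) ∧ s (a + 1) - t a < e (t a) ∧
        t (a + 1) - s (a + 1) < e (t (a + 1)) := by
  classical
  -- goodness of a point
  let Good : ℝ → Prop := fun τ => ∃ (N : ℕ) (t s : ℕ → ℝ), t 0 = A ∧ t N = τ ∧
      ∀ a < N, t a < s (a + 1) ∧ s (a + 1) < t (a + 1) ∧ s (a + 1) - t a < e (t a) ∧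
        t (a + 1) - s (a + 1) < e (t (a + 1))
  -- one extension step with an explicit cut
  have step0 : ∀ τ τ' c : ℝ, Good τ → τ < c → c < τ' → c - τ < e τ → τ' - c < e τ' → Good τ' := by
    rintro τ τ' c ⟨N, t, s, h0, hN, hch⟩ h1 h2 h3 h4
    refine ⟨N + 1, fun a => if a ≤ N then t a else τ', fun a => if a ≤ N then s a else c, ?_, ?_, ?_⟩
    · simp [h0]
    · simp
    · intro a ha
      rcases Nat.lt_succ_iff_lt_or_eq.mp ha with ha' | rfl
      · have h5 : a ≤ N := ha'.le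
        have h6 : a + 1 ≤ N := ha'
        simpa [h5, h6] using hch a ha'
      · have h7 : ¬ (a + 1 ≤ a) := by omega
        simp only [le_refl, if_true, h7, if_false, hN]
        exact ⟨h1, h2, h3, h4⟩
  have step : ∀ τ τ' : ℝ, τ ∈ Set.Icc A b → τ' ∈ Set.Icc A b → Good τ → τ < τ' →
      (τ' - τ < e τ ∨ τ' - τ < e τ') → Good τ' := by
    intro τ τ' hτ hτ' hg hlt hh
    have e1 := he τ hτ
    have e2 := he τ' hτ'
    rcases hh with hh | hh
    · have h3 : 0 < min (e τ') (τ' - τ) := lt_min e2 (by linarith)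
      have h4 := min_le_left (e τ') (τ' - τ)
      have h5 := min_le_right (e τ') (τ' - τ)
      refine step0 τ τ' (τ' - min (e τ') (τ' - τ) / 2) hg ?_ ?_ ?_ ?_ <;> linarith
    · have h3 : 0 < min (e τ) (τ' - τ) := lt_min e1 (by linarith)
      have h4 := min_le_left (e τ) (τ' - τ)
      have h5 := min_le_right (e τ) (τ' - τ)
      refine step0 τ τ' (τ + min (e τ) (τ' - τ) / 2) hg ?_ ?_ ?_ ?_ <;> linarith
  have hA : Good A := ⟨0, fun _ => A, fun _ => A, rfl, rfl, by simp⟩
  let S : Set ℝ := {τ | τ ∈ Set.Icc A b ∧ Good τ}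
  have hSne : S.Nonempty := ⟨A, ⟨le_refl _, hAb⟩, hA⟩
  have hSbdd : BddAbove S := ⟨b, fun τ hτ => hτ.1.2⟩
  set τs := sSup S with hτs
  have hτs1 : A ≤ τs := le_csSup hSbdd ⟨⟨le_refl _, hAb⟩, hA⟩
  have hτs2 : τs ≤ b := csSup_le hSne (fun τ hτ => hτ.1.2)
  have hτsI : τs ∈ Set.Icc A b := ⟨hτs1, hτs2⟩
  have he0 := he τs hτsI
  have hgood : Good τs := by
    obtain ⟨τ, hτ, hlt⟩ := exists_lt_of_lt_csSup hSne (show τs - e τs < sSup S by linarith)
    have hle : τ ≤ τs := le_csSup hSbdd hτ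
    rcases hle.lt_or_eq with h | h
    · exact step τ τs hτ.1 hτsI hτ.2 h (Or.inr (by linarith))
    · exact h ▸ hτ.2
  have hτb : τs = b := by
    by_contra hne
    have hlt : τs < b := lt_of_le_of_ne hτs2 hne
    have h3 : τs < min b (τs + e τs / 2) := lt_min hlt (by linarith)
    have h4 := min_le_left b (τs + e τs / 2)
    have h5 := min_le_right b (τs + e τs / 2)
    have hI : min b (τs + e τs / 2) ∈ Set.Icc A b := ⟨by linarith, h4⟩
    have hg := step τs _ hτsI hI hgood h3 (Or.inl (by linarith))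
    have : min b (τs + e τs / 2) ≤ τs := le_csSup hSbdd ⟨hI, hg⟩
    linarith
  exact hτb ▸ hgood

/-- The chain of gaps. -/
lemma chain_exists (g : ℝ → ℝ) (hg : ∀ β, 0 < β → β ≤ 1 → 0 < g β) (D : ℕ) :
    ∃ ε : ℕ → ℝ, (∀ m, 0 < ε m ∧ ε m ≤ 1) ∧ Monotone ε ∧
      (∀ m, m < D → ε m < ε (m + 1)) ∧ (∀ m, m < D → ε m ≤ g (ε (m + 1))) := by
  let e : ℕ → ℝ := fun k => Nat.rec (1 : ℝ) (fun _ v => min (v / 2) (g v)) k
  have e0 : e 0 = 1 := rfl
  have es : ∀ k, e (k + 1) = min (e k / 2) (g (e k)) := fun _ => rfl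
  have epos : ∀ k, 0 < e k ∧ e k ≤ 1 := by
    intro k
    induction k with
    | zero => simp [e0]
    | succ k ih =>
      rw [es]
      refine ⟨lt_min (by linarith [ih.1]) (hg _ ih.1 ih.2), ?_⟩
      exact (min_le_left _ _).trans (by linarith [ih.1, ih.2])
  have eanti : Antitone e := by
    refine antitone_nat_of_succ_le ?_
    intro k
    rw [es]
    exact (min_le_left _ _).trans (by linarith [(epos k).1])
  refine ⟨fun m => e (D - m), fun m => epos _, ?_, ?_, ?_⟩
  · intro a b hab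
    exact eanti (by omega)
  · intro m hm
    have : D - m = (D - (m + 1)) + 1 := by omega
    show e (D - m) < e (D - (m + 1))
    rw [this, es]
    refine (min_le_left _ _).trans_lt ?_
    have := (epos (D - (m + 1))).1
    linarith
  · intro m hm
    have : D - m = (D - (m + 1)) + 1 := by omega
    show e (D - m) ≤ g (e (D - (m + 1)))
    rw [this, es]
    exact min_le_right _ _

end Crest.Agent.H3RN
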