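import Crest.Agent.H3RNNode

/-!
The main case of the node theorem: the inequalities from the competitors.
-/

set_option autoImplicit false
set_option linter.unusedSectionVars false

open Filter Finset

namespace Crest.Agent.H3RN

variable {d : ℕ} {J : Type} [Fintype J]

noncomputable def cc (t s : ℕ → ℝ) (a : ℕ) (R : ℝ) : ℝ :=
  ∑ l ∈ range a, (t (l + 1) - t l) * Real.exp (R * s (l + 1))

noncomputable def ff (T : ℝ) (e : ℕ → ℝ) (m : ℕ) (R : ℝ) : ℝ :=
  ∑ l ∈ Ico 1 m, Real.exp (R * (T - e l))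

open Classical in
noncomputable def build (t s : ℕ → ℝ) (ε : ℕ → ℕ → ℝ) (a : ℕ) (U : Finset (Fin d)) (q : Piece d) :
    Piece d :=
  (fun i => if i ∈ U then t a else q.1 i,
    fun R => cc t s a R + ff (t a) (ε a) U.card R + q.2 R)

/-- The shifted constant term of the child problem. -/
def shiftα (n : J → Fin d → ℝ) (α : J → ℝ) (T : ℝ) (U : Finset (Fin d)) : J → ℝ :=
  fun j => α j + T * ∑ i ∈ U, n j i

def PP (ι : Finset (Fin d)) (N : ℕ) (t s : ℕ → ℝ) (ε : ℕ → ℕ → ℝ)
    (Q : ℕ → Finset (Fin d) → Set (Piece d)) : Set (Piece d) :=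
  {p | ∃ a ≤ N, ∃ U ⊆ ι, U.Nonempty ∧ ∃ q ∈ Q a U, p = build t s ε a U q}

/-- the uniform bound on the slopes -/
noncomputable def CC (M b : ℝ) : ℝ := |M| + |b| + 2

lemma CC_pos (M b : ℝ) : 0 < CC M b := by
  unfold CC; positivity

lemma one_le_CC (M b : ℝ) : 1 ≤ CC M b := by
  unfold CC; have := abs_nonneg M; have := abs_nonneg b; linarith

structure Setup (n : J → Fin d → ℝ) (ι : Finset (Fin d)) (α : J → ℝ) (M b : ℝ) (N : ℕ)
    (t s : ℕ → ℝ) (ε : ℕ → ℕ → ℝ) (Q : ℕ → Finset (Fin d) → Set (Piece d))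
    (μQ δQ : ℕ → Finset (Fin d) → ℝ) : Prop where
  hMb : -M ≤ b
  t0 : t 0 = -M
  tN : t N = b
  tlt : ∀ a < N, t a < s (a + 1)
  slt : ∀ a < N, s (a + 1) < t (a + 1)
  gap1 : ∀ a < N, s (a + 1) - t a < ε a 0
  gap2 : ∀ a < N, t (a + 1) - s (a + 1) < ε (a + 1) 0
  εpos : ∀ a ≤ N, ∀ m, 0 < ε a m
  εle : ∀ a ≤ N, ∀ m, ε a m ≤ 1
  εmono : ∀ a ≤ N, Monotone (ε a)
  εstrict : ∀ a ≤ N, ∀ m, m < ι.card → ε a m < ε a (m + 1)
  hQ : ∀ a ≤ N, ∀ U ⊆ ι, U.Nonempty →
    IsSol n (ι \ U) (shiftα n α (t a) U) M (t a - ε a U.card) (Q a U) (μQ a U) (δQ a U)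

section calc1

variable {n : J → Fin d → ℝ} {ι : Finset (Fin d)} {α : J → ℝ} {M b : ℝ} {N : ℕ}
    {t s : ℕ → ℝ} {ε : ℕ → ℕ → ℝ} {Q : ℕ → Finset (Fin d) → Set (Piece d)}
    {μQ δQ : ℕ → Finset (Fin d) → ℝ}

lemma val_build {ι U : Finset (Fin d)} (hU : U ⊆ ι) (t s : ℕ → ℝ) (ε : ℕ → ℕ → ℝ) (a : ℕ)
    (q : Piece d) (x : Fin d → ℝ) (R : ℝ) :
    val ι (build t s ε a U q) x R =
      t a * ∑ i ∈ U, x i - cc t s a R - ff (t a) (ε a) U.card R + val (ι \ U) q x R := by
  classical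
  unfold val build
  simp only
  rw [← Finset.sum_sdiff hU]
  have h1 : ∑ i ∈ ι \ U, (if i ∈ U then t a else q.1 i) * x i = ∑ i ∈ ι \ U, q.1 i * x i := by
    refine Finset.sum_congr rfl ?_
    intro i hi
    rw [if_neg (Finset.mem_sdiff.mp hi).2]
  have h2 : ∑ i ∈ U, (if i ∈ U then t a else q.1 i) * x i = t a * ∑ i ∈ U, x i := by
    rw [Finset.mul_sum]
    refine Finset.sum_congr rfl ?_
    intro i hi
    rw [if_pos hi]
  rw [h1, h2]
  ring

lemma form_build {ι U : Finset (Fin d)} (hU : U ⊆ ι) (n : J → Fin d → ℝ) (α : J → ℝ)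
    (t s : ℕ → ℝ) (ε : ℕ → ℕ → ℝ) (a : ℕ) (q : Piece d) (j : J) :
    form n ι α j (build t s ε a U q).1 = form n (ι \ U) (shiftα n α (t a) U) j q.1 := by
  classical
  unfold form build shiftα
  simp only
  rw [← Finset.sum_sdiff hU]
  have h1 : ∑ i ∈ ι \ U, n j i * (if i ∈ U then t a else q.1 i) = ∑ i ∈ ι \ U, n j i * q.1 i := by
    refine Finset.sum_congr rfl ?_
    intro i hi
    rw [if_neg (Finset.mem_sdiff.mp hi).2]
  have h2 : ∑ i ∈ U, n j i * (if i ∈ U then t a else q.1 i) = t a * ∑ i ∈ U, n j i := by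
    rw [Finset.mul_sum]
    refine Finset.sum_congr rfl ?_
    intro i hi
    rw [if_pos hi]
    ring
  rw [h1, h2]
  ring

lemma form_shift {ι U : Finset (Fin d)} (hU : U ⊆ ι) (n : J → Fin d → ℝ) (α : J → ℝ)
    (T : ℝ) (j : J) (u : Fin d → ℝ) :
    form n ι α j u = form n (ι \ U) (shiftα n α T U) j u + ∑ i ∈ U, n j i * (u i - T) := by
  classical
  unfold form shiftα
  rw [← Finset.sum_sdiff hU]
  have h2 : ∑ i ∈ U, n j i * (u i - T) = ∑ i ∈ U, n j i * u i - T * ∑ i ∈ U, n j i := by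
    rw [Finset.mul_sum, ← Finset.sum_sub_distrib]
    refine Finset.sum_congr rfl ?_
    intro i _
    ring
  rw [h2]
  ring

lemma log_div_le {x R w : ℝ} (hx : 0 < x) (hR : 0 < R) (h : x ≤ Real.exp (R * w)) :
    Real.log x / R ≤ w := by
  rw [div_le_iff₀ hR]
  have := Real.log_le_log hx h
  rw [Real.log_exp] at this
  linarith

lemma le_log_div {x R w : ℝ} (hx : 0 < x) (hR : 0 < R) (h : Real.exp (R * w) ≤ x) :
    w ≤ Real.log x / R := by
  rw [le_div_iff₀ hR]
  have := Real.log_le_log (Real.exp_pos _) h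
  rw [Real.log_exp] at this
  linarith

/-- Concentration lemma. -/
lemma conc {T : Finset (Fin d)} {x : Fin d → ℝ} (hx : ∀ i ∈ T, 0 < x i) {a G C D : ℝ}
    (ha : 0 < a) (hC : 0 < C) (hD : 0 < D) (hcard : (T.card : ℝ) ≤ D) (ha' : a < 8 * C * D)
    (H : ∀ L ⊆ T, L.Nonempty → a * ∑ i ∈ L, x i ≤ G + 2 * C * ∑ i ∈ T \ L, x i) :
    ∀ k ∈ T, a * x k ≤ 2 * G := by
  classical
  intro k hk
  obtain ⟨k₀, hk₀, hmax⟩ := Finset.exists_max_image T x ⟨k, hk⟩
  set X := x k₀ with hX
  have hXpos : 0 < X := hx k₀ hk₀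
  set θ := a * X / (8 * C * D) with hθ
  have hθX : θ < X := by
    rw [hθ, div_lt_iff₀ (by positivity)]
    nlinarith
  set L := T.filter (fun i => θ < x i) with hL
  have hk₀L : k₀ ∈ L := Finset.mem_filter.mpr ⟨hk₀, hθX⟩
  have h1 := H L (Finset.filter_subset _ _) ⟨k₀, hk₀L⟩
  have h2 : X ≤ ∑ i ∈ L, x i :=
    Finset.single_le_sum (f := x) (fun i hi => (hx i (Finset.filter_subset _ _ hi)).le) hk₀L
  have h3 : ∑ i ∈ T \ L, x i ≤ D * θ := by
    have hθpos : 0 < θ := by positivity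
    calc ∑ i ∈ T \ L, x i ≤ ∑ _i ∈ T \ L, θ := by
          refine Finset.sum_le_sum ?_
          intro i hi
          have hi' := Finset.mem_sdiff.mp hi
          by_contra hc
          exact hi'.2 (Finset.mem_filter.mpr ⟨hi'.1, not_le.mp hc⟩)
      _ = ((T \ L).card : ℝ) * θ := by simp
      _ ≤ D * θ := by
          refine mul_le_mul_of_nonneg_right ?_ hθpos.le
          exact le_trans (by exact_mod_cast Finset.card_le_card Finset.sdiff_subset) hcard
  have h4 : 2 * C * (D * θ) = a * X / 4 := by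
    rw [hθ]
    field_simp
    ring
  have h5 : a * X ≤ a * ∑ i ∈ L, x i := mul_le_mul_of_nonneg_left h2 ha.le
  have h6 : 2 * C * ∑ i ∈ T \ L, x i ≤ 2 * C * (D * θ) :=
    mul_le_mul_of_nonneg_left h3 (by positivity)
  have h7 : a * x k ≤ a * X := mul_le_mul_of_nonneg_left (hmax k hk) ha.le
  nlinarith

lemma ff_one (T : ℝ) (e : ℕ → ℝ) (R : ℝ) : ff T e 1 R = 0 := by
  simp [ff]

lemma ff_nonneg (T : ℝ) (e : ℕ → ℝ) (m : ℕ) (R : ℝ) : 0 ≤ ff T e m R :=
  Finset.sum_nonneg (fun _ _ => (Real.exp_pos _).le)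

lemma ff_diff_le {T : ℝ} {e : ℕ → ℝ} (he : Monotone e) {m l : ℕ} (hm : 1 ≤ m) {R : ℝ}
    (hR : 0 ≤ R) :
    ff T e (m + l) R - ff T e m R ≤ l * Real.exp (R * (T - e m)) := by
  unfold ff
  rw [← Finset.sum_Ico_consecutive _ hm (Nat.le_add_right m l)]
  have : ∑ k ∈ Ico m (m + l), Real.exp (R * (T - e k)) ≤
      ∑ _k ∈ Ico m (m + l), Real.exp (R * (T - e m)) := by
    refine Finset.sum_le_sum ?_
    intro k hk
    have hk' := (Finset.mem_Ico.mp hk).1
    refine Real.exp_le_exp.mpr ?_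
    exact mul_le_mul_of_nonneg_left (by linarith [he hk']) hR
  simp only [Finset.sum_const, Nat.card_Ico, nsmul_eq_mul, Nat.add_sub_cancel_left] at this
  linarith

lemma ff_pred {T : ℝ} {e : ℕ → ℝ} {m : ℕ} (hm : 2 ≤ m) (R : ℝ) :
    ff T e m R - ff T e (m - 1) R = Real.exp (R * (T - e (m - 1))) := by
  obtain ⟨m', rfl⟩ : ∃ m', m = m' + 1 := ⟨m - 1, by omega⟩
  simp only [Nat.add_sub_cancel]
  unfold ff
  rw [Finset.sum_Ico_succ_top (by omega)]
  ring

lemma cc_succ (t s : ℕ → ℝ) (a : ℕ) (R : ℝ) :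
    cc t s (a + 1) R - cc t s a R = (t (a + 1) - t a) * Real.exp (R * s (a + 1)) := by
  unfold cc
  rw [Finset.sum_range_succ]
  ring

namespace Setup

variable (H : Setup n ι α M b N t s ε Q μQ δQ)
include H

lemma t_mono_succ {a : ℕ} (ha : a < N) : t a < t (a + 1) :=
  (H.tlt a ha).trans (H.slt a ha)

lemma t_range {a : ℕ} (ha : a ≤ N) : -M ≤ t a ∧ t a ≤ b := by
  constructor
  · induction a with
    | zero => rw [H.t0]
    | succ a ih =>
      have h1 := ih (by omega)
      have h2 := H.t_mono_succ (a := a) (by omega)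
      linarith
  · have : ∀ k, ∀ a, a + k = N → t a ≤ b := by
      intro k
      induction k with
      | zero =>
        intro a h
        have : a = N := by omega
        rw [this, H.tN]
      | succ k ih =>
        intro a h
        have h1 := ih (a + 1) (by omega)
        have h2 := H.t_mono_succ (a := a) (by omega)
        linarith
    exact this (N - a) a (by omega)

lemma abs_t_le {a : ℕ} (ha : a ≤ N) : |t a| ≤ CC M b := by
  obtain ⟨h1, h2⟩ := H.t_range ha
  unfold CC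
  have := abs_nonneg M; have := abs_nonneg b
  rw [abs_le]
  constructor
  · have := neg_abs_le M
    have := le_abs_self M
    linarith
  · have := le_abs_self b
    linarith

/-- competitor inequality -/
lemma comp {x : Fin d → ℝ} {R V : ℝ} (hx : ∀ i ∈ ι, 0 < x i)
    (hmax : ∀ p ∈ PP ι N t s ε Q, val ι p x R ≤ V) {a' : ℕ} (ha' : a' ≤ N) {U' : Finset (Fin d)}
    (hU' : U' ⊆ ι) (hne : U'.Nonempty) :
    t a' * ∑ i ∈ U', x i - cc t s a' R - ff (t a') (ε a') U'.card R
      - CC M b * ∑ i ∈ ι \ U', x i ≤ V := by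
  obtain ⟨p₀, hp₀, hz⟩ := (H.hQ a' ha' U' hU' hne).zero
  have h1 := hmax (build t s ε a' U' p₀) ⟨a', ha', U', hU', hne, p₀, hp₀, rfl⟩
  rw [val_build hU'] at h1
  have h2 : val (ι \ U') p₀ x R = ∑ i ∈ ι \ U', p₀.1 i * x i := by
    unfold val
    rw [hz]
    ring
  rw [h2] at h1
  have h3 : -(CC M b * ∑ i ∈ ι \ U', x i) ≤ ∑ i ∈ ι \ U', p₀.1 i * x i := by
    rw [Finset.mul_sum, ← Finset.sum_neg_distrib]
    refine Finset.sum_le_sum ?_
    intro i hi
    have hi1 := (Finset.mem_sdiff.mp hi).1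
    have h4 := ((H.hQ a' ha' U' hU' hne).slope p₀ hp₀ i hi).1
    have h5 : -CC M b ≤ p₀.1 i := by
      unfold CC
      have := le_abs_self M
      have := abs_nonneg b
      linarith
    have := hx i hi1
    nlinarith
  linarith

/-- slopes of the child pieces -/
lemma q_slope {a : ℕ} (ha : a ≤ N) {U : Finset (Fin d)} (hU : U ⊆ ι) (hne : U.Nonempty)
    {q : Piece d} (hq : q ∈ Q a U) {k : Fin d} (hk : k ∈ ι \ U) :
    -CC M b ≤ q.1 k ∧ q.1 k ≤ t a - ε a U.card ∧ q.1 k ≤ CC M b := by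
  have h1 := (H.hQ a ha U hU hne).slope q hq k hk
  have h2 := H.t_range ha
  have h3 := H.εpos a ha U.card
  refine ⟨?_, h1.2, ?_⟩
  · unfold CC
    have := le_abs_self M
    have := abs_nonneg b
    linarith [h1.1]
  · unfold CC
    have := le_abs_self b
    have := abs_nonneg M
    linarith [h1.2, h2.2]

lemma V_le {a : ℕ} (ha : a ≤ N) {U : Finset (Fin d)} (hU : U ⊆ ι) (hne : U.Nonempty)
    {q : Piece d} (hq : q ∈ Q a U) (x : Fin d → ℝ) (R : ℝ) :
    val (ι \ U) q x R ≤ ∑ k ∈ ι \ U, q.1 k * x k := by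
  unfold val
  have := (H.hQ a ha U hU hne).off_nonneg q hq R
  linarith

lemma ineq1 {x : Fin d → ℝ} {R : ℝ} (hx : ∀ i ∈ ι, 0 < x i) {a : ℕ} (ha : a ≤ N)
    {U : Finset (Fin d)} (hU : U ⊆ ι) (hne : U.Nonempty) {q : Piece d} (hq : q ∈ Q a U)
    (hmax : ∀ p ∈ PP ι N t s ε Q, val ι p x R ≤ val ι (build t s ε a U q) x R)
    {L : Finset (Fin d)} (hL : L ⊆ ι \ U) :
    ε a U.card * ∑ i ∈ L, x i ≤ ff (t a) (ε a) (U.card + L.card) R - ff (t a) (ε a) U.card R
      + 2 * CC M b * ∑ i ∈ (ι \ U) \ L, x i := by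
  classical
  have hdisj : Disjoint U L := by
    rw [Finset.disjoint_left]
    intro i hi hi'
    exact (Finset.mem_sdiff.mp (hL hi')).2 hi
  have hU' : U ∪ L ⊆ ι := Finset.union_subset hU (hL.trans Finset.sdiff_subset)
  have h1 := H.comp hx hmax ha hU' (hne.mono Finset.subset_union_left)
  rw [Finset.sum_union hdisj, Finset.card_union_of_disjoint hdisj, val_build hU,
    show ι \ (U ∪ L) = (ι \ U) \ L by ext i; simp only [Finset.mem_sdiff, Finset.mem_union]; tauto]
    at h1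
  have h2 := H.V_le ha hU hne hq x R
  rw [← Finset.sum_sdiff hL] at h2
  have h3 : ∑ i ∈ (ι \ U) \ L, q.1 i * x i ≤ CC M b * ∑ i ∈ (ι \ U) \ L, x i := by
    rw [Finset.mul_sum]
    refine Finset.sum_le_sum ?_
    intro i hi
    have hi' := (Finset.mem_sdiff.mp hi).1
    have := (H.q_slope ha hU hne hq hi').2.2
    have := hx i (Finset.mem_sdiff.mp hi').1
    nlinarith
  have h4 : ∑ i ∈ L, q.1 i * x i ≤ (t a - ε a U.card) * ∑ i ∈ L, x i := by
    rw [Finset.mul_sum]
    refine Finset.sum_le_sum ?_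
    intro i hi
    have hi' := hL hi
    have := (H.q_slope ha hU hne hq hi').2.1
    have := hx i (Finset.mem_sdiff.mp hi').1
    nlinarith
  have e1 : t a * (∑ i ∈ U, x i + ∑ i ∈ L, x i) = t a * ∑ i ∈ U, x i + t a * ∑ i ∈ L, x i := by
    ring
  have e2 : (t a - ε a U.card) * ∑ i ∈ L, x i =
      t a * ∑ i ∈ L, x i - ε a U.card * ∑ i ∈ L, x i := by ring
  linarith

lemma ineq2 {x : Fin d → ℝ} {R : ℝ} (hx : ∀ i ∈ ι, 0 < x i) {a : ℕ} (ha : a ≤ N)
    {U : Finset (Fin d)} (hU : U ⊆ ι) (hne : U.Nonempty) {q : Piece d} (hq : q ∈ Q a U)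
    (hmax : ∀ p ∈ PP ι N t s ε Q, val ι p x R ≤ val ι (build t s ε a U q) x R)
    (hm : 2 ≤ U.card) {i : Fin d} (hi : i ∈ U) :
    Real.exp (R * (t a - ε a (U.card - 1))) ≤
      2 * CC M b * x i + 2 * CC M b * ∑ k ∈ ι \ U, x k := by
  classical
  have hU' : U.erase i ⊆ ι := (Finset.erase_subset _ _).trans hU
  have hne' : (U.erase i).Nonempty := by
    rw [← Finset.card_pos, Finset.card_erase_of_mem hi]
    omega
  have h1 := H.comp hx hmax ha hU' hne'
  rw [Finset.card_erase_of_mem hi, val_build hU] at h1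
  have h2 := H.V_le ha hU hne hq x R
  have e0 : ∑ k ∈ U.erase i, x k = ∑ k ∈ U, x k - x i := by
    rw [Finset.sum_erase_eq_sub hi]
  have e3 : ∑ k ∈ ι \ U.erase i, x k = ∑ k ∈ ι \ U, x k + x i := by
    have e4 := Finset.sum_sdiff (f := x) hU'
    have e5 := Finset.sum_sdiff (f := x) hU
    linarith
  rw [e0, e3] at h1
  have h3 : ∑ k ∈ ι \ U, q.1 k * x k ≤ CC M b * ∑ k ∈ ι \ U, x k := by
    rw [Finset.mul_sum]
    refine Finset.sum_le_sum ?_
    intro k hk
    have := (H.q_slope ha hU hne hq hk).2.2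
    have := hx k (Finset.mem_sdiff.mp hk).1
    nlinarith
  have h5 := ff_pred (T := t a) (e := ε a) hm R
  have h6 : t a * x i ≤ CC M b * x i := by
    have := (abs_le.mp (H.abs_t_le ha)).2
    have := hx i (hU hi)
    nlinarith
  have e1 : t a * (∑ k ∈ U, x k - x i) = t a * ∑ k ∈ U, x k - t a * x i := by ring
  have e2 : CC M b * (∑ k ∈ ι \ U, x k + x i) = CC M b * ∑ k ∈ ι \ U, x k + CC M b * x i := by ring
  have e6 : 2 * CC M b * x i = CC M b * x i + CC M b * x i := by ring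
  have e7 : 2 * CC M b * ∑ k ∈ ι \ U, x k =
      CC M b * ∑ k ∈ ι \ U, x k + CC M b * ∑ k ∈ ι \ U, x k := by ring
  linarith

lemma ineq3 {x : Fin d → ℝ} {R : ℝ} (hx : ∀ i ∈ ι, 0 < x i) {a : ℕ} (ha : a < N)
    {U : Finset (Fin d)} (hU : U ⊆ ι) (hne : U.Nonempty) {q : Piece d} (hq : q ∈ Q a U)
    (hmax : ∀ p ∈ PP ι N t s ε Q, val ι p x R ≤ val ι (build t s ε a U q) x R)
    {L : Finset (Fin d)} (hL : L ⊆ ι) (hLne : L.Nonempty) :
    (t (a + 1) - t a) * ∑ i ∈ L, x i ≤ (t (a + 1) - t a) * Real.exp (R * s (a + 1))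
      + ff (t (a + 1)) (ε (a + 1)) L.card R + 2 * CC M b * ∑ i ∈ ι \ L, x i := by
  classical
  have h1 := H.comp hx hmax (a' := a + 1) ha hL hLne
  have h2 : val ι (build t s ε a U q) x R ≤
      t a * ∑ i ∈ L, x i - cc t s a R + CC M b * ∑ i ∈ ι \ L, x i := by
    unfold val
    have hoff : cc t s a R ≤ (build t s ε a U q).2 R := by
      have := (H.hQ a ha.le U hU hne).off_nonneg q hq R
      have := ff_nonneg (t a) (ε a) U.card R
      simp only [build]
      linarith
    have hW : ∀ i ∈ ι, (build t s ε a U q).1 i ≤ t a ∧ (build t s ε a U q).1 i ≤ CC M b := by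
      intro i hi
      simp only [build]
      by_cases hiU : i ∈ U
      · rw [if_pos hiU]
        exact ⟨le_refl _, (abs_le.mp (H.abs_t_le ha.le)).2⟩
      · rw [if_neg hiU]
        have hk : i ∈ ι \ U := Finset.mem_sdiff.mpr ⟨hi, hiU⟩
        have h3 := H.q_slope ha.le hU hne hq hk
        have h4 := H.εpos a ha.le U.card
        exact ⟨by linarith [h3.2.1], h3.2.2⟩
    rw [← Finset.sum_sdiff hL]
    have h5 : ∑ i ∈ L, (build t s ε a U q).1 i * x i ≤ t a * ∑ i ∈ L, x i := by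
      rw [Finset.mul_sum]
      refine Finset.sum_le_sum ?_
      intro i hi
      have := (hW i (hL hi)).1
      have := hx i (hL hi)
      nlinarith
    have h6 : ∑ i ∈ ι \ L, (build t s ε a U q).1 i * x i ≤ CC M b * ∑ i ∈ ι \ L, x i := by
      rw [Finset.mul_sum]
      refine Finset.sum_le_sum ?_
      intro i hi
      have hi' := (Finset.mem_sdiff.mp hi).1
      have := (hW i hi').2
      have := hx i hi'
      nlinarith
    linarith
  have h7 := cc_succ t s a R
  have e1 : (t (a + 1) - t a) * ∑ i ∈ L, x i = t (a + 1) * ∑ i ∈ L, x i - t a * ∑ i ∈ L, x i := by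
    ring
  have e7 : 2 * CC M b * ∑ k ∈ ι \ L, x k =
      CC M b * ∑ k ∈ ι \ L, x k + CC M b * ∑ k ∈ ι \ L, x k := by ring
  linarith

lemma ineq4 {x : Fin d → ℝ} {R : ℝ} (hx : ∀ i ∈ ι, 0 < x i) {a : ℕ} (ha : a + 1 ≤ N)
    {U : Finset (Fin d)} (hU : U ⊆ ι) (hne : U.Nonempty) {q : Piece d} (hq : q ∈ Q (a + 1) U)
    (hmax : ∀ p ∈ PP ι N t s ε Q, val ι p x R ≤ val ι (build t s ε (a + 1) U q) x R)
    (hm : U.card = 1) :
    (t (a + 1) - t a) * Real.exp (R * s (a + 1)) ≤
      (t (a + 1) - t a) * ∑ i ∈ U, x i + 2 * CC M b * ∑ k ∈ ι \ U, x k := by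
  classical
  have h1 := H.comp hx hmax (a' := a) (by omega) hU hne
  rw [val_build hU, hm, ff_one, ff_one] at h1
  have h2 := H.V_le ha hU hne hq x R
  have h3 : ∑ k ∈ ι \ U, q.1 k * x k ≤ CC M b * ∑ k ∈ ι \ U, x k := by
    rw [Finset.mul_sum]
    refine Finset.sum_le_sum ?_
    intro k hk
    have := (H.q_slope ha hU hne hq hk).2.2
    have := hx k (Finset.mem_sdiff.mp hk).1
    nlinarith
  have h7 := cc_succ t s a R
  have e1 : (t (a + 1) - t a) * ∑ i ∈ U, x i =
      t (a + 1) * ∑ i ∈ U, x i - t a * ∑ i ∈ U, x i := by ring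
  have e7 : 2 * CC M b * ∑ k ∈ ι \ U, x k =
      CC M b * ∑ k ∈ ι \ U, x k + CC M b * ∑ k ∈ ι \ U, x k := by ring
  linarith

/-- Step 1: the coordinates off `U` are small. -/
lemma step1 {x : Fin d → ℝ} {R : ℝ} (hR : 0 ≤ R) (hx : ∀ i ∈ ι, 0 < x i) {a : ℕ} (ha : a ≤ N)
    {U : Finset (Fin d)} (hU : U ⊆ ι) (hne : U.Nonempty) {q : Piece d} (hq : q ∈ Q a U)
    (hmax : ∀ p ∈ PP ι N t s ε Q, val ι p x R ≤ val ι (build t s ε a U q) x R) :
    ∀ k ∈ ι \ U, ε a U.card * x k ≤
      2 * (((ι.card : ℝ) + 1) * Real.exp (R * (t a - ε a U.card))) := by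
  classical
  have hD : (0 : ℝ) < (ι.card : ℝ) + 1 := by positivity
  have hcardT : (((ι \ U).card : ℕ) : ℝ) ≤ (ι.card : ℝ) + 1 := by
    have : (ι \ U).card ≤ ι.card := Finset.card_le_card Finset.sdiff_subset
    have : (((ι \ U).card : ℕ) : ℝ) ≤ ι.card := by exact_mod_cast this
    linarith
  refine conc (fun i hi => hx i (Finset.mem_sdiff.mp hi).1) (H.εpos a ha _) (CC_pos M b) hD hcardT
    ?_ ?_
  · have h1 := H.εle a ha U.card
    have h2 := one_le_CC M b
    have h3 : (1 : ℝ) ≤ (ι.card : ℝ) + 1 := by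
      have : (0 : ℝ) ≤ ι.card := by positivity
      linarith
    nlinarith
  · intro L hL _
    have h1 := H.ineq1 hx ha hU hne hq hmax hL
    have h2 := ff_diff_le (T := t a) (H.εmono a ha) (m := U.card) (l := L.card)
      (Finset.card_pos.mpr hne) hR
    have h3 : (L.card : ℝ) ≤ (ι.card : ℝ) + 1 := by
      have h4 : L.card ≤ (ι \ U).card := Finset.card_le_card hL
      have h5 : ((L.card : ℕ) : ℝ) ≤ ((ι \ U).card : ℕ) := by exact_mod_cast h4
      linarith
    have h6 : (L.card : ℝ) * Real.exp (R * (t a - ε a U.card)) ≤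
        ((ι.card : ℝ) + 1) * Real.exp (R * (t a - ε a U.card)) :=
      mul_le_mul_of_nonneg_right h3 (Real.exp_pos _).le
    linarith

/-- Consequence of step 1 for the sum off `U`. -/
lemma step1_sum {x : Fin d → ℝ} {R : ℝ} (hR : 0 ≤ R) (hx : ∀ i ∈ ι, 0 < x i) {a : ℕ} (ha : a ≤ N)
    {U : Finset (Fin d)} (hU : U ⊆ ι) (hne : U.Nonempty) {q : Piece d} (hq : q ∈ Q a U)
    (hmax : ∀ p ∈ PP ι N t s ε Q, val ι p x R ≤ val ι (build t s ε a U q) x R) :
    ∑ k ∈ ι \ U, x k ≤ ((ι.card : ℝ) + 1) * (2 * ((ι.card : ℝ) + 1) / ε a U.card) *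
      Real.exp (R * (t a - ε a U.card)) := by
  classical
  have hε := H.εpos a ha U.card
  have h1 := H.step1 hR hx ha hU hne hq hmax
  have h2 : ∀ k ∈ ι \ U, x k ≤ (2 * ((ι.card : ℝ) + 1) / ε a U.card) *
      Real.exp (R * (t a - ε a U.card)) := by
    intro k hk
    have h3 := h1 k hk
    rw [div_mul_eq_mul_div, le_div_iff₀ hε]
    linarith
  have hE : 0 ≤ (2 * ((ι.card : ℝ) + 1) / ε a U.card) * Real.exp (R * (t a - ε a U.card)) := by
    positivity
  calc ∑ k ∈ ι \ U, x k ≤ ∑ _k ∈ ι \ U, (2 * ((ι.card : ℝ) + 1) / ε a U.card) *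
        Real.exp (R * (t a - ε a U.card)) := Finset.sum_le_sum h2
    _ = ((ι \ U).card : ℝ) * ((2 * ((ι.card : ℝ) + 1) / ε a U.card) *
        Real.exp (R * (t a - ε a U.card))) := by simp
    _ ≤ ((ι.card : ℝ) + 1) * ((2 * ((ι.card : ℝ) + 1) / ε a U.card) *
        Real.exp (R * (t a - ε a U.card))) := by
        refine mul_le_mul_of_nonneg_right ?_ hE
        have h4 : (ι \ U).card ≤ ι.card := Finset.card_le_card Finset.sdiff_subset
        have h5 : (((ι \ U).card : ℕ) : ℝ) ≤ ι.card := by exact_mod_cast h4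
        linarith
    _ = _ := by ring

/-- Step 3: all coordinates are below the next cut. -/
lemma step3 {x : Fin d → ℝ} {R : ℝ} (hR : 0 ≤ R) (hx : ∀ i ∈ ι, 0 < x i) {a : ℕ} (ha : a < N)
    {U : Finset (Fin d)} (hU : U ⊆ ι) (hne : U.Nonempty) {q : Piece d} (hq : q ∈ Q a U)
    (hmax : ∀ p ∈ PP ι N t s ε Q, val ι p x R ≤ val ι (build t s ε a U q) x R) :
    ∀ k ∈ ι, (t (a + 1) - t a) * x k ≤
      2 * (((t (a + 1) - t a) + ((ι.card : ℝ) + 1)) * Real.exp (R * s (a + 1))) := by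
  classical
  have hD : (0 : ℝ) < (ι.card : ℝ) + 1 := by positivity
  have hτ : 0 < t (a + 1) - t a := by linarith [H.t_mono_succ ha]
  have hC1 := abs_le.mp (H.abs_t_le (a := a + 1) ha)
  have hC2 := abs_le.mp (H.abs_t_le ha.le)
  have hC3 := one_le_CC M b
  refine conc hx hτ (CC_pos M b) hD (by linarith) ?_ ?_
  · have h3 : (1 : ℝ) ≤ (ι.card : ℝ) + 1 := by
      have : (0 : ℝ) ≤ ι.card := by positivity
      linarith
    nlinarith
  · intro L hL hLne
    have h1 := H.ineq3 hx ha hU hne hq hmax hL hLne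
    have h2 : ff (t (a + 1)) (ε (a + 1)) L.card R ≤ ((ι.card : ℝ) + 1) * Real.exp (R * s (a + 1)) := by
      unfold ff
      have h3 : ∑ l ∈ Ico 1 L.card, Real.exp (R * (t (a + 1) - ε (a + 1) l)) ≤
          ∑ _l ∈ Ico 1 L.card, Real.exp (R * s (a + 1)) := by
        refine Finset.sum_le_sum ?_
        intro l _
        refine Real.exp_le_exp.mpr (mul_le_mul_of_nonneg_left ?_ hR)
        have h4 := H.εmono (a + 1) ha (Nat.zero_le l)
        have h5 := H.gap2 a ha
        linarith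
      refine h3.trans ?_
      simp only [Finset.sum_const, Nat.card_Ico, nsmul_eq_mul]
      refine mul_le_mul_of_nonneg_right ?_ (Real.exp_pos _).le
      have h4 : L.card ≤ ι.card := Finset.card_le_card hL
      have h5 : (((L.card - 1 : ℕ)) : ℝ) ≤ ι.card := by
        exact_mod_cast (Nat.sub_le _ _).trans h4
      linarith
    have e : ((t (a + 1) - t a) + ((ι.card : ℝ) + 1)) * Real.exp (R * s (a + 1)) =
        (t (a + 1) - t a) * Real.exp (R * s (a + 1)) + ((ι.card : ℝ) + 1) * Real.exp (R * s (a + 1)) := by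
      ring
    linarith

lemma valid_core {N₁ : ℝ} (hN₀ : 0 < N₁) (hN : ∀ j, ∑ i, |n j i| ≤ N₁)
    {a : ℕ} (ha : a ≤ N) {U : Finset (Fin d)} (hU : U ⊆ ι) (hne : U.Nonempty)
    {q : Piece d} (hq : q ∈ Q a U) {τ R : ℝ} (hτ : 0 < τ) (hR : 0 < R)
    (hτ1 : τ ≤ δQ a U) (hτ2 : N₁ * τ ≤ μQ a U / 4)
    (hμ : 4 * N₁ * ε a (U.card - 1) ≤ μQ a U)
    (E1 : 2 * ((ι.card : ℝ) + 1) / ε a U.card ≤ Real.exp (R * τ))
    (E2 : 2 ≤ U.card → (2 * (2 * CC M b * (((ι.card : ℝ) + 1) * (2 * ((ι.card : ℝ) + 1) / ε a U.card))))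
        * Real.exp (R * (t a - ε a U.card)) ≤ Real.exp (R * (t a - ε a (U.card - 1))))
    (E2' : 4 * CC M b ≤ Real.exp (R * τ))
    (E3 : a < N → 2 * ((t (a + 1) - t a) + ((ι.card : ℝ) + 1)) / (t (a + 1) - t a) ≤ Real.exp (R * τ))
    (E4 : ∀ a₀, a = a₀ + 1 → U.card = 1 →
      (2 * (2 * CC M b * (((ι.card : ℝ) + 1) * (2 * ((ι.card : ℝ) + 1) / ε a U.card))))
        * Real.exp (R * (t a - ε a U.card)) ≤ (t (a₀ + 1) - t a₀) * Real.exp (R * s (a₀ + 1)))
    (E4' : 2 ≤ Real.exp (R * τ))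
    (hchild : ∀ x : Fin d → ℝ,
      (∀ i ∈ ι \ U, 0 < x i ∧ -M ≤ Real.log (x i) / R ∧
        Real.log (x i) / R ≤ t a - ε a U.card + δQ a U) →
      ∀ p ∈ Q a U, (∀ q' ∈ Q a U, val (ι \ U) q' x R ≤ val (ι \ U) p x R) →
      ∀ j, 0 < form n (ι \ U) (shiftα n α (t a) U) j p.1 →
        μQ a U < form n (ι \ U) (shiftα n α (t a) U) j (tu x R))
    {x : Fin d → ℝ}
    (hx : ∀ i ∈ ι, 0 < x i ∧ -M ≤ Real.log (x i) / R ∧ Real.log (x i) / R ≤ b + τ)
    (hmax : ∀ p ∈ PP ι N t s ε Q, val ι p x R ≤ val ι (build t s ε a U q) x R)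
    {j : J} (hj : 0 < form n ι α j (build t s ε a U q).1) :
    μQ a U / 2 < form n ι α j (tu x R) := by
  classical
  have hxpos : ∀ i ∈ ι, 0 < x i := fun i hi => (hx i hi).1
  have hεm := H.εpos a ha U.card
  have hεm1 := H.εpos a ha (U.card - 1)
  have hEτ := Real.exp_pos (R * τ)
  have hDpos : (0 : ℝ) < (ι.card : ℝ) + 1 := by positivity
  have hmpos : 1 ≤ U.card := Finset.card_pos.mpr hne
  -- Step A: the coordinates off `U` are in the child's window
  have hA : ∀ k ∈ ι \ U, x k ≤ Real.exp (R * (t a - ε a U.card + τ)) := by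
    intro k hk
    have h1 := H.step1 hR.le hxpos ha hU hne hq hmax k hk
    have h2 : x k ≤ (2 * ((ι.card : ℝ) + 1) / ε a U.card) *
        Real.exp (R * (t a - ε a U.card)) := by
      rw [div_mul_eq_mul_div, le_div_iff₀ hεm]
      linarith
    have h3 : (2 * ((ι.card : ℝ) + 1) / ε a U.card) * Real.exp (R * (t a - ε a U.card)) ≤
        Real.exp (R * τ) * Real.exp (R * (t a - ε a U.card)) :=
      mul_le_mul_of_nonneg_right E1 (Real.exp_pos _).le
    have h4 : Real.exp (R * τ) * Real.exp (R * (t a - ε a U.card)) =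
        Real.exp (R * (t a - ε a U.card + τ)) := by
      rw [← Real.exp_add]
      congr 1
      ring
    linarith
  -- the child's validity
  have hmaxc : ∀ q' ∈ Q a U, val (ι \ U) q' x R ≤ val (ι \ U) q x R := by
    intro q' hq'
    have h1 := hmax (build t s ε a U q') ⟨a, ha, U, hU, hne, q', hq', rfl⟩
    rw [val_build hU, val_build hU] at h1
    linarith
  have hcw : ∀ i ∈ ι \ U, 0 < x i ∧ -M ≤ Real.log (x i) / R ∧
        Real.log (x i) / R ≤ t a - ε a U.card + δQ a U := by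
    intro i hi
    have hi1 := (Finset.mem_sdiff.mp hi).1
    refine ⟨hxpos i hi1, (hx i hi1).2.1, ?_⟩
    have := log_div_le (hxpos i hi1) hR (hA i hi)
    linarith
  rw [form_build hU] at hj
  have hB := hchild x hcw q hq hmaxc j hj
  -- Step C: the coordinates in `U` are close to the level
  have hC : ∀ i ∈ U, |Real.log (x i) / R - t a| ≤ ε a (U.card - 1) + τ := by
    intro i hi
    have hiι := hU hi
    have hxi := hxpos i hiι
    rw [abs_le]
    constructor
    · -- lower bound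
      by_cases hm : 2 ≤ U.card
      · have h1 := H.ineq2 hxpos ha hU hne hq hmax hm hi
        have h2 := H.step1_sum hR.le hxpos ha hU hne hq hmax
        have h3 := E2 hm
        have h4 : 2 * CC M b * ∑ k ∈ ι \ U, x k ≤ (2 * CC M b) * (((ι.card : ℝ) + 1) *
            (2 * ((ι.card : ℝ) + 1) / ε a U.card) * Real.exp (R * (t a - ε a U.card))) :=
          mul_le_mul_of_nonneg_left h2 (by have := CC_pos M b; positivity)
        have h5 : Real.exp (R * (t a - ε a (U.card - 1))) ≤ 4 * CC M b * x i := by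
          have e : (2 * (2 * CC M b * (((ι.card : ℝ) + 1) * (2 * ((ι.card : ℝ) + 1) / ε a U.card))))
              * Real.exp (R * (t a - ε a U.card)) = 2 * ((2 * CC M b) * (((ι.card : ℝ) + 1) *
            (2 * ((ι.card : ℝ) + 1) / ε a U.card) * Real.exp (R * (t a - ε a U.card)))) := by ring
          rw [e] at h3
          linarith
        have h6 : 4 * CC M b * x i ≤ Real.exp (R * τ) * x i :=
          mul_le_mul_of_nonneg_right E2' hxi.le
        have h7 : Real.exp (R * (t a - ε a (U.card - 1))) =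
            Real.exp (R * τ) * Real.exp (R * (t a - ε a (U.card - 1) - τ)) := by
          rw [← Real.exp_add]
          congr 1
          ring
        have h8 : Real.exp (R * (t a - ε a (U.card - 1) - τ)) ≤ x i := by
          have : Real.exp (R * τ) * Real.exp (R * (t a - ε a (U.card - 1) - τ)) ≤
              Real.exp (R * τ) * x i := by linarith
          exact le_of_mul_le_mul_left this hEτ
        have := le_log_div hxi hR h8
        linarith
      · have hm1 : U.card = 1 := by omega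
        rw [hm1]
        simp only [Nat.sub_self]
        have hε0 := H.εpos a ha 0
        rcases a with _ | a₀
        · have := (hx i hiι).2.1
          rw [H.t0]
          linarith
        · have h1 := H.ineq4 hxpos ha hU hne hq hmax hm1
          have h2 := H.step1_sum hR.le hxpos ha hU hne hq hmax
          have h3 := E4 a₀ rfl hm1
          have hτa : 0 < t (a₀ + 1) - t a₀ := by linarith [H.t_mono_succ (a := a₀) (by omega)]
          have h4 : 2 * CC M b * ∑ k ∈ ι \ U, x k ≤ (2 * CC M b) * (((ι.card : ℝ) + 1) *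
              (2 * ((ι.card : ℝ) + 1) / ε (a₀ + 1) U.card) *
                Real.exp (R * (t (a₀ + 1) - ε (a₀ + 1) U.card))) :=
            mul_le_mul_of_nonneg_left h2 (by have := CC_pos M b; positivity)
          have e : (2 * (2 * CC M b * (((ι.card : ℝ) + 1) *
              (2 * ((ι.card : ℝ) + 1) / ε (a₀ + 1) U.card))))
              * Real.exp (R * (t (a₀ + 1) - ε (a₀ + 1) U.card)) = 2 * ((2 * CC M b) *
              (((ι.card : ℝ) + 1) * (2 * ((ι.card : ℝ) + 1) / ε (a₀ + 1) U.card) *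
                Real.exp (R * (t (a₀ + 1) - ε (a₀ + 1) U.card)))) := by ring
          rw [e] at h3
          have hsum : ∑ k ∈ U, x k = x i := by
            obtain ⟨i₀, rfl⟩ := Finset.card_eq_one.mp hm1
            rw [Finset.mem_singleton.mp hi, Finset.sum_singleton]
          rw [hsum] at h1
          have h5 : (t (a₀ + 1) - t a₀) * (Real.exp (R * s (a₀ + 1)) / 2) ≤
              (t (a₀ + 1) - t a₀) * x i := by
            have e' : (t (a₀ + 1) - t a₀) * (Real.exp (R * s (a₀ + 1)) / 2) =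
                ((t (a₀ + 1) - t a₀) * Real.exp (R * s (a₀ + 1))) / 2 := by ring
            rw [e']
            linarith
          have h6 : Real.exp (R * s (a₀ + 1)) / 2 ≤ x i := le_of_mul_le_mul_left h5 hτa
          have h7 : Real.exp (R * (s (a₀ + 1) - τ)) ≤ x i := by
            have e' : Real.exp (R * s (a₀ + 1)) = Real.exp (R * τ) * Real.exp (R * (s (a₀ + 1) - τ)) := by
              rw [← Real.exp_add]
              congr 1
              ring
            have h8 := Real.exp_pos (R * (s (a₀ + 1) - τ))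
            nlinarith
          have h9 := le_log_div hxi hR h7
          have h10 := H.gap2 a₀ (by omega)
          linarith
    · -- upper bound
      have hle0 : ε a 0 ≤ ε a (U.card - 1) := H.εmono a ha (Nat.zero_le _)
      by_cases haN : a < N
      · have h1 := H.step3 hR.le hxpos haN hU hne hq hmax i hiι
        have hτa : 0 < t (a + 1) - t a := by linarith [H.t_mono_succ haN]
        have h2 : x i ≤ (2 * ((t (a + 1) - t a) + ((ι.card : ℝ) + 1)) / (t (a + 1) - t a)) *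
            Real.exp (R * s (a + 1)) := by
          rw [div_mul_eq_mul_div, le_div_iff₀ hτa]
          linarith
        have h3 := mul_le_mul_of_nonneg_right (E3 haN) (Real.exp_pos (R * s (a + 1))).le
        have h4 : Real.exp (R * τ) * Real.exp (R * s (a + 1)) = Real.exp (R * (s (a + 1) + τ)) := by
          rw [← Real.exp_add]
          congr 1
          ring
        have h5 := log_div_le hxi hR (h2.trans (h3.trans h4.le))
        have h6 := H.gap1 a haN
        linarith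
      · have haN' : a = N := by omega
        have h1 := (hx i hiι).2.2
        rw [haN', H.tN]
        have h2 := H.εpos N le_rfl (U.card - 1)
        rw [haN'] at hεm1
        linarith
  -- Step D: conclusion
  rw [form_shift hU n α (t a) j (tu x R)]
  have hD : |∑ i ∈ U, n j i * (tu x R i - t a)| ≤ N₁ * (ε a (U.card - 1) + τ) := by
    refine (Finset.abs_sum_le_sum_abs _ _).trans ?_
    have h1 : ∑ i ∈ U, |n j i * (tu x R i - t a)| ≤ ∑ i ∈ U, |n j i| * (ε a (U.card - 1) + τ) := by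
      refine Finset.sum_le_sum ?_
      intro i hi
      rw [abs_mul]
      exact mul_le_mul_of_nonneg_left (hC i hi) (abs_nonneg _)
    refine h1.trans ?_
    rw [← Finset.sum_mul]
    refine mul_le_mul_of_nonneg_right ?_ (by linarith)
    refine le_trans ?_ (hN j)
    exact Finset.sum_le_sum_of_subset_of_nonneg (Finset.subset_univ _) (fun _ _ _ => abs_nonneg _)
  have hD' := (abs_le.mp hD).1
  have e : N₁ * (ε a (U.card - 1) + τ) = N₁ * ε a (U.card - 1) + N₁ * τ := by ring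
  have e2 : 4 * N₁ * ε a (U.card - 1) = 4 * (N₁ * ε a (U.card - 1)) := by ring
  linarith

end Setup

end calc1

end Crest.Agent.H3RN
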