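import Crest.Agent.H3Calc

/-! Helper for S0112: invariance of the vacuum under the modular group. -/

set_option autoImplicit false

namespace Crest.Agent.H3

open Crest.OpAlg MeasureTheory Filter
open scoped InnerProductSpace Topology BoundedContinuousFunction

variable {H : Type*} [NormedAddCommGroup H] [InnerProductSpace ℂ H] [CompleteSpace H]

/-- A continuous compactly supported function as a bounded continuous function. -/
noncomputable def cptBCF (g : ℝ → ℂ) (hc : Continuous g) (hs : HasCompactSupport g) :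
    BoundedContinuousFunction ℝ ℂ :=
  BoundedContinuousFunction.ofNormedAddCommGroup g hc
    (Classical.choose (hc.bounded_above_of_compact_support hs))
    (Classical.choose_spec (hc.bounded_above_of_compact_support hs))

@[simp] lemma cptBCF_apply (g : ℝ → ℂ) (hc : Continuous g) (hs : HasCompactSupport g) (u : ℝ) :
    cptBCF g hc hs u = g u := rfl

lemma hasCompactSupport_cptBCF (g : ℝ → ℂ) (hc : Continuous g) (hs : HasCompactSupport g) :
    HasCompactSupport (cptBCF g hc hs : ℝ → ℂ) := hs

/-- conjugate-linear isometries flip the inner product -/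
lemma inner_conj_isometry (J : H ≃ₗᵢ⋆[ℂ] H) (a b : H) : ⟪J a, J b⟫_ℂ = ⟪b, a⟫_ℂ := by
  have hJI : ∀ c : H, J (Complex.I • c) = -(Complex.I • J c) := by
    intro c
    have := J.map_smulₛₗ Complex.I c
    simpa using this
  have h1 : ‖J a + J b‖ = ‖a + b‖ := by rw [← map_add, J.norm_map]
  have h2 : ‖J a - J b‖ = ‖a - b‖ := by rw [← map_sub, J.norm_map]
  have h3 : ‖J a - Complex.I • J b‖ = ‖a + Complex.I • b‖ := by
    rw [← J.norm_map (a + Complex.I • b), map_add, hJI, sub_eq_add_neg]
  have h4 : ‖J a + Complex.I • J b‖ = ‖a - Complex.I • b‖ := by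
    rw [← J.norm_map (a - Complex.I • b), map_sub, hJI, sub_neg_eq_add]
  have h1' : ‖b + a‖ = ‖a + b‖ := by rw [add_comm]
  have h2' : ‖b - a‖ = ‖a - b‖ := norm_sub_rev _ _
  have h3' : ‖b - Complex.I • a‖ = ‖a + Complex.I • b‖ := by
    have : a + Complex.I • b = Complex.I • (b - Complex.I • a) := by
      rw [smul_sub, smul_smul, Complex.I_mul_I]
      simp [add_comm]
    rw [this, norm_smul, Complex.norm_I, one_mul]
  have h4' : ‖b + Complex.I • a‖ = ‖a - Complex.I • b‖ := by
    have : a - Complex.I • b = (-Complex.I) • (b + Complex.I • a) := by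
      rw [smul_add, smul_smul]
      simp
      abel
    rw [this, norm_smul, norm_neg, Complex.norm_I, one_mul]
  rw [inner_eq_sum_norm_sq_div_four (𝕜 := ℂ) (J a) (J b),
    inner_eq_sum_norm_sq_div_four (𝕜 := ℂ) b a]
  simp only [RCLike.I_to_complex]
  rw [h1, h2, h3, h4, h1', h2', h3', h4']

namespace MD
variable (S : ModularDatum H)

local notation "ξ" => S.vac

lemma inner_J_flip (a b : H) : ⟪S.J a, b⟫_ℂ = ⟪S.J b, a⟫_ℂ := by
  have := inner_conj_isometry S.J a (S.J b)
  rwa [S.J_J] at this

/-- graph pairing -/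
lemma halfExp_pairing {x y : H} (h : S.D.HalfExp x y) : ⟪S.J y, ξ⟫_ℂ = ⟪ξ, x⟫_ℂ := by
  have hmem : (x, S.J y) ∈ closure (Set.range fun a : S.M =>
      ((a : H →L[ℂ] H) ξ, star (a : H →L[ℂ] H) ξ)) := by
    rw [S.tomita]
    show S.D.HalfExp x (S.J (S.J y))
    rw [S.J_J]; exact h
  have hcl : IsClosed {p : H × H | ⟪p.2, ξ⟫_ℂ = ⟪ξ, p.1⟫_ℂ} :=
    isClosed_eq (by fun_prop) (by fun_prop)
  have hsub : Set.range (fun a : S.M => ((a : H →L[ℂ] H) ξ, star (a : H →L[ℂ] H) ξ)) ⊆
      {p : H × H | ⟪p.2, ξ⟫_ℂ = ⟪ξ, p.1⟫_ℂ} := by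
    rintro _ ⟨a, rfl⟩
    show ⟪star (a : H →L[ℂ] H) ξ, ξ⟫_ℂ = ⟪ξ, (a : H →L[ℂ] H) ξ⟫_ℂ
    rw [ContinuousLinearMap.star_eq_adjoint, ContinuousLinearMap.adjoint_inner_left]
  exact (closure_minimal hsub hcl) hmem

lemma halfExp_vac : S.D.HalfExp ξ (S.J ξ) := by
  have hmem : (ξ, ξ) ∈ closure (Set.range fun a : S.M =>
      ((a : H →L[ℂ] H) ξ, star (a : H →L[ℂ] H) ξ)) := by
    apply subset_closure
    refine ⟨1, ?_⟩
    simp
  rw [S.tomita] at hmem
  exact hmem

/-- `e^{u/2}` times a cut-off -/
noncomputable def expHalfMul (f : BoundedContinuousFunction ℝ ℂ) (hf : HasCompactSupport (f : ℝ → ℂ)) :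
    BoundedContinuousFunction ℝ ℂ :=
  cptBCF (fun u => f u * ((Real.exp (u / 2) : ℝ) : ℂ)) (by fun_prop) hf.mul_right

lemma expHalfMul_apply (f : BoundedContinuousFunction ℝ ℂ) (hf : HasCompactSupport (f : ℝ → ℂ)) (u : ℝ) :
    expHalfMul f hf u = f u * ((Real.exp (u / 2) : ℝ) : ℂ) := rfl

lemma hasCompactSupport_expHalfMul (f : BoundedContinuousFunction ℝ ℂ)
    (hf : HasCompactSupport (f : ℝ → ℂ)) : HasCompactSupport (expHalfMul f hf : ℝ → ℂ) :=
  hf.mul_right

lemma hasCompactSupport_star (f : BoundedContinuousFunction ℝ ℂ)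
    (hf : HasCompactSupport (f : ℝ → ℂ)) : HasCompactSupport (star f : ℝ → ℂ) := by
  have : (star f : ℝ → ℂ) = (star : ℂ → ℂ) ∘ (f : ℝ → ℂ) := by
    ext u; simp
  rw [this]
  exact hf.comp_left (star_zero ℂ)

lemma halfExp_of_cutoff (g : BoundedContinuousFunction ℝ ℂ) (hg : HasCompactSupport (g : ℝ → ℂ))
    (z : H) : S.D.HalfExp (S.D.apply g z) (S.D.apply (expHalfMul g hg) z) := by
  intro F G hFG
  have h1 : S.D.apply F (S.D.apply (expHalfMul g hg) z) = S.D.apply (F * expHalfMul g hg) z := by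
    rw [map_mul]; rfl
  have h2 : S.D.apply G (S.D.apply g z) = S.D.apply (G * g) z := by
    rw [map_mul]; rfl
  rw [h1, h2]
  congr 2
  ext u
  simp only [BoundedContinuousFunction.coe_mul, Pi.mul_apply, expHalfMul_apply, hFG u]
  ring

/-- `e^{D/2} ξ = J ξ`, in the weak form -/
lemma apply_expHalf_J (f : BoundedContinuousFunction ℝ ℂ) (hf : HasCompactSupport (f : ℝ → ℂ)) :
    S.D.apply (expHalfMul f hf) (S.J ξ) = S.D.apply f ξ := by
  set g := star f with hg
  have hgc : HasCompactSupport (g : ℝ → ℂ) := hasCompactSupport_star f hf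
  have hstar : star (expHalfMul g hgc) = expHalfMul f hf := by
    ext u
    simp only [BoundedContinuousFunction.star_apply, expHalfMul_apply, hg, star_mul', star_star]
    have hr : star ((Real.exp (u / 2) : ℝ) : ℂ) = ((Real.exp (u / 2) : ℝ) : ℂ) := Complex.conj_ofReal _
    rw [hr]
  have hstar' : star g = f := by simp [hg]
  refine ext_inner_left ℂ (fun z => ?_)
  have e1 : ⟪z, S.D.apply (expHalfMul f hf) (S.J ξ)⟫_ℂ =
      ⟪S.D.apply (expHalfMul g hgc) z, S.J ξ⟫_ℂ := by
    rw [← hstar, map_star, ContinuousLinearMap.star_eq_adjoint,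
      ContinuousLinearMap.adjoint_inner_right]
  have e2 : ⟪z, S.D.apply f ξ⟫_ℂ = ⟪S.D.apply g z, ξ⟫_ℂ := by
    conv_lhs => rw [← hstar', map_star]
    rw [ContinuousLinearMap.star_eq_adjoint, ContinuousLinearMap.adjoint_inner_right]
  rw [e1, e2]
  have h := halfExp_pairing S (halfExp_of_cutoff S g hgc z)
  rw [inner_J_flip S] at h
  rw [← inner_conj_symm, ← inner_conj_symm (S.D.apply g z) ξ, h]

/-- `e^{D} ξ = ξ` tested against cut-offs. -/
lemma apply_exp_vac (f : BoundedContinuousFunction ℝ ℂ) (hf : HasCompactSupport (f : ℝ → ℂ)) :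
    S.D.apply (expHalfMul (expHalfMul f hf) (hasCompactSupport_expHalfMul f hf)) ξ = S.D.apply f ξ := by
  rw [← apply_expHalf_J S f hf]
  exact (halfExp_vac S _ _ (fun u => by rw [expHalfMul_apply])).symm

/-- The vacuum is invariant under the modular group. -/
theorem wave_vac (t : ℝ) : S.D.wave t ξ = ξ := by
  have hz : S.D.wave t ξ - ξ = 0 := by
    apply Calc.eq_zero_of_cutoffs S.D
    intro χ hχ
    -- the two difference quotients
    set a : ℝ → ℂ := fun u => LineCalculus.character t u with ha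
    set e : ℝ → ℂ := fun u => ((Real.exp u : ℝ) : ℂ) with he
    have hadiff : Differentiable ℝ a := by
      intro u
      have : a = fun u : ℝ => Complex.exp (Complex.I * ((t * u : ℝ) : ℂ)) := rfl
      rw [this]
      fun_prop
    have hediff : Differentiable ℝ e := by
      intro u
      have : e = fun u : ℝ => ((Real.exp u : ℝ) : ℂ) := rfl
      rw [this]
      exact (Real.hasDerivAt_exp u).ofReal_comp.differentiableAt
    have hcont : ∀ g : ℝ → ℂ, Differentiable ℝ g → Continuous (dslope g 0) := by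
      intro g hg
      rw [continuous_iff_continuousAt]
      intro u
      by_cases hu : u = 0
      · subst hu
        exact continuousAt_dslope_same.2 (hg 0)
      · exact (continuousAt_dslope_of_ne hu).2 (hg.continuous.continuousAt)
    have hA : Continuous (dslope a 0) := hcont a hadiff
    have hB : Continuous (dslope e 0) := hcont e hediff
    have hid : ∀ (g : ℝ → ℂ) (u : ℝ), g u - g 0 = (u : ℂ) * dslope g 0 u := by
      intro g u
      have := sub_smul_dslope g 0 u
      rw [sub_zero] at this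
      rw [← this, Complex.real_smul]
    have he0 : e 0 = 1 := by simp [he]
    have ha0 : a 0 = 1 := by simp [ha]
    have hBne : ∀ u, dslope e 0 u ≠ 0 := by
      intro u h0
      by_cases hu : u = 0
      · subst hu
        rw [dslope_same] at h0
        have h1 : HasDerivAt e ((Real.exp 0 : ℝ) : ℂ) 0 := (Real.hasDerivAt_exp 0).ofReal_comp
        rw [h1.deriv] at h0
        simp at h0
      · have := hid e u
        rw [h0, mul_zero, he0] at this
        have h2 : Real.exp u = 1 := by
          have h3 : ((Real.exp u : ℝ) : ℂ) = 1 := sub_eq_zero.mp this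
          exact_mod_cast h3
        exact hu (by simpa using h2)
    -- the function `f₃ = χ A / B`
    have hf₃c : Continuous (fun u => χ u * (dslope a 0 u / dslope e 0 u)) :=
      χ.continuous.mul (hA.div hB hBne)
    have hf₃s : HasCompactSupport (fun u => χ u * (dslope a 0 u / dslope e 0 u)) := hχ.mul_right
    set f₃ := cptBCF _ hf₃c hf₃s with hf₃
    have hf₃' : HasCompactSupport (f₃ : ℝ → ℂ) := hf₃s
    have key : χ * (LineCalculus.character t - 1) =
        expHalfMul (expHalfMul f₃ hf₃') (hasCompactSupport_expHalfMul f₃ hf₃') - f₃ := by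
      ext u
      simp only [BoundedContinuousFunction.coe_mul, Pi.mul_apply, BoundedContinuousFunction.coe_sub,
        Pi.sub_apply, BoundedContinuousFunction.coe_one, Pi.one_apply, expHalfMul_apply]
      have h1 : LineCalculus.character t u - 1 = (u : ℂ) * dslope a 0 u := by
        have := hid a u
        rwa [ha0] at this
      have h2 : ((Real.exp u : ℝ) : ℂ) - 1 = (u : ℂ) * dslope e 0 u := by
        have := hid e u
        rwa [he0] at this
      have h3 : ((Real.exp (u / 2) : ℝ) : ℂ) * ((Real.exp (u / 2) : ℝ) : ℂ) = ((Real.exp u : ℝ) : ℂ) := by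
        rw [← Complex.ofReal_mul, ← Real.exp_add]
        congr 2
        ring
      rw [h1]
      have h4 : f₃ u = χ u * (dslope a 0 u / dslope e 0 u) := rfl
      rw [h4]
      calc χ u * ((u : ℂ) * dslope a 0 u)
          = χ u * (dslope a 0 u / dslope e 0 u) * ((u : ℂ) * dslope e 0 u) := by
            field_simp [hBne u]
        _ = χ u * (dslope a 0 u / dslope e 0 u) * (((Real.exp u : ℝ) : ℂ) - 1) := by rw [h2]
        _ = χ u * (dslope a 0 u / dslope e 0 u) * ((Real.exp (u / 2) : ℝ) : ℂ) * ((Real.exp (u / 2) : ℝ) : ℂ)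
            - χ u * (dslope a 0 u / dslope e 0 u) := by
            rw [← h3]; ring
    have h5 : S.D.apply χ (S.D.wave t ξ - ξ) = S.D.apply (χ * (LineCalculus.character t - 1)) ξ := by
      have h6 : S.D.wave t ξ - ξ = S.D.apply (LineCalculus.character t - 1) ξ := by
        simp [LineCalculus.wave, map_sub, map_one]
      rw [h6, map_mul]
      rfl
    rw [h5, key, map_sub, _root_.sub_apply, apply_exp_vac S f₃ hf₃', sub_self]
  exact sub_eq_zero.mp hz

lemma flow_mem' (t : ℝ) {a : H →L[ℂ] H} (ha : a ∈ S.M) : S.flow t a ∈ S.M := S.flow_mem t a ha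

lemma flow_apply_vac (t : ℝ) (a : H →L[ℂ] H) : S.flow t a ξ = S.D.wave t (a ξ) := by
  have h := wave_vac S (-t)
  show S.D.wave t (a (S.D.wave (-t) ξ)) = _
  rw [h]

end MD

end Crest.Agent.H3
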