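import Crest.Prelude.Def_AsymptoticConvexity

/-! The obstruction to asymptotically uniformly convex renormings: bounded trees with weakly null
branches bounded below. -/

set_option autoImplicit false

open Filter Topology

namespace Crest.Agent.H4Auc

variable {X : Type} [NormedAddCommGroup X] [NormedSpace ℝ X]

/-- Closed subspaces of finite codimension. -/
def Cof (F : Submodule ℝ X) : Prop := IsClosed (F : Set X) ∧ FiniteDimensional ℝ (X ⧸ F)

lemma cof_top : Cof (⊤ : Submodule ℝ X) := by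
  refine ⟨isClosed_univ, ?_⟩
  infer_instance

/-- Kernels of continuous maps to finite-dimensional spaces. -/
lemma cof_ker {V : Type*} [NormedAddCommGroup V] [NormedSpace ℝ V] [FiniteDimensional ℝ V]
    (T : X →L[ℝ] V) : Cof (LinearMap.ker (T : X →ₗ[ℝ] V)) := by
  refine ⟨?_, ?_⟩
  · have : ((LinearMap.ker (T : X →ₗ[ℝ] V) : Submodule ℝ X) : Set X) = T ⁻¹' {0} := by
      ext x; simp
    rw [this]
    exact isClosed_singleton.preimage T.continuous
  · exact Module.Finite.equiv (T : X →ₗ[ℝ] V).quotKerEquivRange.symm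

/-- A family with an upper square-function estimate is weakly null. -/
lemma weakNull_of_l2 {y : ℕ → X} {K : ℝ} (hK : 0 ≤ K)
    (h : ∀ (B : Finset ℕ) (c : ℕ → ℝ), ‖∑ n ∈ B, c n • y n‖ ≤ K * Real.sqrt (∑ n ∈ B, c n ^ 2))
    (φ : X →L[ℝ] ℝ) : Tendsto (fun n => φ (y n)) atTop (𝓝 0) := by
  set a : ℕ → ℝ := fun n => φ (y n) with ha
  have hbound : ∀ B : Finset ℕ, ∑ n ∈ B, a n ^ 2 ≤ (‖φ‖ * K) ^ 2 := by
    intro B
    set S := ∑ n ∈ B, a n ^ 2 with hS
    have hS0 : 0 ≤ S := Finset.sum_nonneg fun n _ => sq_nonneg _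
    have h1 : S = φ (∑ n ∈ B, a n • y n) := by
      rw [map_sum]
      refine Finset.sum_congr rfl fun n _ => ?_
      rw [map_smul, smul_eq_mul, sq]
    have h2 : S ≤ ‖φ‖ * K * Real.sqrt S := by
      have h3 : φ (∑ n ∈ B, a n • y n) ≤ ‖φ‖ * K * Real.sqrt S := by
        refine (le_abs_self _).trans ?_
        rw [← Real.norm_eq_abs]
        refine (φ.le_opNorm _).trans ?_
        rw [mul_assoc]
        exact mul_le_mul_of_nonneg_left (h B a) (norm_nonneg _)
      rw [h1] at *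
      exact h3
    have hP : 0 ≤ ‖φ‖ * K := mul_nonneg (norm_nonneg _) hK
    by_cases hS1 : S = 0
    · rw [hS1]; positivity
    · have hs : 0 < Real.sqrt S := Real.sqrt_pos.mpr (lt_of_le_of_ne hS0 (Ne.symm hS1))
      have h3 : Real.sqrt S ≤ ‖φ‖ * K := by
        have h4 : Real.sqrt S * Real.sqrt S = S := Real.mul_self_sqrt hS0
        by_contra hcon
        rw [not_le] at hcon
        nlinarith
      calc S = Real.sqrt S ^ 2 := (Real.sq_sqrt hS0).symm
        _ ≤ (‖φ‖ * K) ^ 2 := pow_le_pow_left₀ hs.le h3 2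
  have hsum : Summable (fun n => a n ^ 2) :=
    summable_of_sum_le (fun n => sq_nonneg _) hbound
  have h0 := hsum.tendsto_atTop_zero
  have h1 : Tendsto (fun n => |a n|) atTop (𝓝 0) := by
    have := (Real.continuous_sqrt.tendsto 0).comp h0
    simp only [Real.sqrt_zero] at this
    refine this.congr fun n => ?_
    simp [Real.sqrt_sq_eq_abs]
  exact (tendsto_zero_iff_abs_tendsto_zero _).mpr h1

/-- Weakly null sequences approach every closed subspace of finite codimension. -/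
lemma exists_near {F : Submodule ℝ X} (hF : Cof F) {y : ℕ → X}
    (hy : ∀ φ : X →L[ℝ] ℝ, Tendsto (fun n => φ (y n)) atTop (𝓝 0)) {ε : ℝ} (hε : 0 < ε) :
    ∀ᶠ n in atTop, ∃ z ∈ F, ‖y n - z‖ < ε := by
  have := hF.2
  have : IsClosed (F : Set X) := hF.1
  let π : X →L[ℝ] (X ⧸ F) := (Submodule.mkQ F).mkContinuous 1 (fun x => by
    simpa using Submodule.Quotient.norm_mk_le F x)
  let b := Module.finBasis ℝ (X ⧸ F)
  have hcoord : ∀ i, Tendsto (fun n => b.coord i (π (y n))) atTop (𝓝 0) := by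
    intro i
    let c : (X ⧸ F) →L[ℝ] ℝ := LinearMap.toContinuousLinearMap (b.coord i)
    exact hy (c.comp π)
  have hπ : Tendsto (fun n => π (y n)) atTop (𝓝 0) := by
    have h1 : Tendsto (fun n => ∑ i, b.coord i (π (y n)) • b i) atTop
        (𝓝 (∑ i, (0 : ℝ) • b i)) :=
      tendsto_finsetSum _ fun i _ => (hcoord i).smul_const (b i)
    simp only [zero_smul, Finset.sum_const_zero] at h1
    refine h1.congr fun n => ?_
    exact b.sum_repr _
  have hev : ∀ᶠ n in atTop, ‖π (y n)‖ < ε / 2 := by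
    have := (tendsto_zero_iff_norm_tendsto_zero.mp hπ).eventually (gt_mem_nhds (half_pos hε))
    exact this
  filter_upwards [hev] with n hn
  obtain ⟨m, hm, hm'⟩ := Submodule.Quotient.norm_mk_lt (π (y n)) (half_pos hε)
  refine ⟨y n - m, ?_, ?_⟩
  · have h2 : (Submodule.Quotient.mk (y n) : X ⧸ F) = Submodule.Quotient.mk m := by
      rw [hm]
      rfl
    exact (Submodule.Quotient.eq F).mp h2
  · rw [sub_sub_cancel]
    linarith

/-- The property of equivalent norms, in a form for generic normed spaces. -/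
def EquivN (N : X → ℝ) : Prop :=
  (∀ x y : X, N (x + y) ≤ N x + N y) ∧ (∀ (a : ℝ) (x : X), N (a • x) = |a| * N x) ∧
    ∃ a b : ℝ, 0 < a ∧ ∀ x : X, a * ‖x‖ ≤ N x ∧ N x ≤ b * ‖x‖

/-- Asymptotic uniform convexity, in a form for generic normed spaces. -/
def AUCg (N : X → ℝ) : Prop :=
  ∀ t : ℝ, 0 < t → ∃ c : ℝ, 0 < c ∧ ∀ x : X, N x = 1 → ∃ F : Submodule ℝ X, Cof F ∧
    ∀ y ∈ F, N y = 1 → c ≤ N (x + t • y) - 1

/-- The main obstruction: a game with arbitrarily many rounds. -/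
theorem not_aucg_of_game {N : X → ℝ} (hN : EquivN N) (Sk : ℕ → Set X) {C δ : ℝ} (hδ : 0 < δ)
    (hC : ∀ k, ∀ z ∈ Sk k, ‖z‖ ≤ C) (hne : ∀ k, (Sk k).Nonempty)
    (hgame : ∀ k, ∀ z ∈ Sk (k + 1), ∀ F : Submodule ℝ X, Cof F → ∀ ε : ℝ, 0 < ε →
      ∃ z' ∈ Sk k, ∃ y ∈ F, ‖z' - z - y‖ < ε ∧ δ ≤ ‖y‖) : ¬ AUCg N := by
  intro hA
  obtain ⟨hadd, hsmul, a, b, ha, hab⟩ := hN
  set b' := max b 1 with hb'
  have hb'pos : 0 < b' := lt_of_lt_of_le one_pos (le_max_right _ _)
  have hNle : ∀ x, N x ≤ b' * ‖x‖ := fun x =>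
    (hab x).2.trans (mul_le_mul_of_nonneg_right (le_max_left _ _) (norm_nonneg _))
  have hNge : ∀ x, a * ‖x‖ ≤ N x := fun x => (hab x).1
  set C' := max C 1 with hC'
  have hC'pos : 0 < C' := lt_of_lt_of_le one_pos (le_max_right _ _)
  have hCle : ∀ k, ∀ z ∈ Sk k, ‖z‖ ≤ C' := fun k z hz => (hC k z hz).trans (le_max_left _ _)
  set t₀ := a * δ / (b' * C') with ht₀
  have ht₀pos : 0 < t₀ := by positivity
  obtain ⟨c, hc, hAt⟩ := hA t₀ ht₀pos
  set N₀ := a * δ / 4 with hN₀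
  have hN₀pos : 0 < N₀ := by positivity
  set ε₀ := N₀ * c / (2 * b') with hε₀
  have hε₀pos : 0 < ε₀ := by positivity
  have hstep : ∀ k, ∀ z ∈ Sk (k + 1), N₀ ≤ N z → ∃ z' ∈ Sk k, N z * (1 + c / 2) ≤ N z' := by
    intro k z hz hz0
    set R := N z with hR
    have hRpos : 0 < R := lt_of_lt_of_le hN₀pos hz0
    have hRle : R ≤ b' * C' :=
      (hNle z).trans (mul_le_mul_of_nonneg_left (hCle _ z hz) hb'pos.le)
    have hx : N (R⁻¹ • z) = 1 := by
      rw [hsmul, abs_of_pos (inv_pos.mpr hRpos), ← hR]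
      exact inv_mul_cancel₀ hRpos.ne'
    obtain ⟨F, hF, hFy⟩ := hAt _ hx
    obtain ⟨z', hz', y, hy, hy1, hy2⟩ := hgame k z hz F hF ε₀ hε₀pos
    refine ⟨z', hz', ?_⟩
    set τ := N y with hτ
    have hτge : a * δ ≤ τ := (mul_le_mul_of_nonneg_left hy2 ha.le).trans (hNge y)
    have hτpos : 0 < τ := lt_of_lt_of_le (by positivity) hτge
    have hy₁ : N (τ⁻¹ • y) = 1 := by
      rw [hsmul, abs_of_pos (inv_pos.mpr hτpos), ← hτ]
      exact inv_mul_cancel₀ hτpos.ne'
    have hcy := hFy _ (F.smul_mem _ hy) hy₁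
    set s := τ / R with hs
    have hst : t₀ ≤ s := by
      rw [hs, ht₀]
      exact div_le_div₀ hτpos.le hτge hRpos hRle
    -- convexity
    have hconv : 1 + c ≤ N (R⁻¹ • z + s • τ⁻¹ • y) := by
      set lam := t₀ / s with hlam
      have hspos : 0 < s := lt_of_lt_of_le ht₀pos hst
      have hlam0 : 0 < lam := div_pos ht₀pos hspos
      have hlam1 : lam ≤ 1 := (div_le_one hspos).mpr hst
      have e : R⁻¹ • z + t₀ • τ⁻¹ • y =
          lam • (R⁻¹ • z + s • τ⁻¹ • y) + (1 - lam) • (R⁻¹ • z) := by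
        have e1 : lam * s = t₀ := div_mul_cancel₀ _ hspos.ne'
        rw [smul_add, smul_smul lam s, e1, sub_smul, one_smul]
        abel
      have h1 : 1 + c ≤ N (R⁻¹ • z + t₀ • τ⁻¹ • y) := by linarith
      rw [e] at h1
      have h2 := hadd (lam • (R⁻¹ • z + s • τ⁻¹ • y)) ((1 - lam) • (R⁻¹ • z))
      rw [hsmul, hsmul, hx, abs_of_pos hlam0, abs_of_nonneg (by linarith : 0 ≤ 1 - lam)] at h2
      have h3 : lam * (1 + c) ≤ lam * N (R⁻¹ • z + s • τ⁻¹ • y) := by
        have : c * lam ≤ c := by nlinarith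
        nlinarith
      exact le_of_mul_le_mul_left h3 hlam0
    have e2 : R⁻¹ • z + s • τ⁻¹ • y = R⁻¹ • (z + y) := by
      rw [smul_add, smul_smul s, hs]
      congr 2
      field_simp
    rw [e2, hsmul, abs_of_pos (inv_pos.mpr hRpos)] at hconv
    have h4 : R * (1 + c) ≤ N (z + y) := by
      have := mul_le_mul_of_nonneg_left hconv hRpos.le
      rwa [← mul_assoc, mul_inv_cancel₀ hRpos.ne', one_mul] at this
    have h5 : N (z + y) ≤ N z' + N (-(z' - z - y)) := by
      have := hadd z' (-(z' - z - y))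
      have e3 : z' + -(z' - z - y) = z + y := by abel
      rwa [e3] at this
    have h6 : N (-(z' - z - y)) ≤ b' * ε₀ := by
      have e4 : N (-(z' - z - y)) = N (z' - z - y) := by
        have := hsmul (-1) (z' - z - y)
        simpa using this
      rw [e4]
      exact (hNle _).trans (mul_le_mul_of_nonneg_left hy1.le hb'pos.le)
    have h7 : b' * ε₀ = N₀ * c / 2 := by
      rw [hε₀]
      field_simp
    have h8 : N₀ * c ≤ R * c := mul_le_mul_of_nonneg_right hz0 hc.le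
    nlinarith
  have hiter : ∀ (m k : ℕ), ∀ z ∈ Sk (k + m), N₀ ≤ N z → N z * (1 + c / 2) ^ m ≤ b' * C' := by
    intro m
    induction m with
    | zero =>
      intro k z hz _
      simp only [pow_zero, mul_one]
      exact (hNle z).trans (mul_le_mul_of_nonneg_left (hCle _ z hz) hb'pos.le)
    | succ m ih =>
      intro k z hz hz0
      obtain ⟨z', hz', hzz'⟩ := hstep (k + m) z hz hz0
      have h1 : N₀ ≤ N z' := by
        refine hz0.trans (le_trans ?_ hzz')
        have : 0 ≤ N z := hN₀pos.le.trans hz0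
        nlinarith
      have h2 := ih k z' hz' h1
      have h3 : 0 < (1 + c / 2) ^ m := by positivity
      calc N z * (1 + c / 2) ^ (m + 1) = (N z * (1 + c / 2)) * (1 + c / 2) ^ m := by ring
        _ ≤ N z' * (1 + c / 2) ^ m := mul_le_mul_of_nonneg_right hzz' h3.le
        _ ≤ _ := h2
  -- start
  have hmain : ∀ m : ℕ, N₀ * (1 + c / 2) ^ m ≤ b' * C' := by
    intro m
    obtain ⟨z₀, hz₀⟩ := hne (m + 1)
    obtain ⟨z₁, hz₁, y, _, hy1, hy2⟩ := hgame m z₀ hz₀ ⊤ cof_top (δ / 2) (half_pos hδ)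
    have h1 : δ / 2 ≤ ‖z₁ - z₀‖ := by
      have : ‖y‖ ≤ ‖z₁ - z₀‖ + ‖z₁ - z₀ - y‖ := by
        have e : y = (z₁ - z₀) - (z₁ - z₀ - y) := by abel
        calc ‖y‖ = ‖(z₁ - z₀) - (z₁ - z₀ - y)‖ := by rw [← e]
          _ ≤ _ := norm_sub_le _ _
      linarith
    have h2 : ‖z₁ - z₀‖ ≤ ‖z₁‖ + ‖z₀‖ := norm_sub_le _ _
    have hp : 1 ≤ (1 + c / 2) ^ m := one_le_pow₀ (by linarith)
    have hp0 : 0 < (1 + c / 2) ^ m := by positivity
    by_cases h3 : δ / 4 ≤ ‖z₁‖
    · have h4 : N₀ ≤ N z₁ := by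
        have := hNge z₁
        have h5 : a * (δ / 4) ≤ a * ‖z₁‖ := mul_le_mul_of_nonneg_left h3 ha.le
        calc N₀ = a * (δ / 4) := by rw [hN₀]; ring
          _ ≤ _ := h5.trans this
      have h6 := hiter m 0 z₁ (by simpa using hz₁) h4
      exact (mul_le_mul_of_nonneg_right h4 hp0.le).trans h6
    · have h3' : δ / 4 ≤ ‖z₀‖ := by
        rw [not_le] at h3
        linarith
      have h4 : N₀ ≤ N z₀ := by
        have := hNge z₀
        have h5 : a * (δ / 4) ≤ a * ‖z₀‖ := mul_le_mul_of_nonneg_left h3' ha.le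
        calc N₀ = a * (δ / 4) := by rw [hN₀]; ring
          _ ≤ _ := h5.trans this
      have h6 := hiter (m + 1) 0 z₀ (by simpa using hz₀) h4
      have h7 : (1 + c / 2) ^ m ≤ (1 + c / 2) ^ (m + 1) :=
        pow_le_pow_right₀ (by linarith) (Nat.le_succ m)
      have h8 : N₀ * (1 + c / 2) ^ m ≤ N z₀ * (1 + c / 2) ^ (m + 1) :=
        mul_le_mul h4 h7 hp0.le (hN₀pos.le.trans h4)
      exact h8.trans h6
  -- contradiction
  obtain ⟨m, hm⟩ := exists_nat_gt (b' * C' / N₀ * 2 / c)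
  have h1 := hmain m
  have h2 : 1 + (m : ℝ) * (c / 2) ≤ (1 + c / 2) ^ m := by
    have := one_add_mul_le_pow (a := c / 2) (by linarith) m
    linarith
  have h3 : N₀ * (1 + (m : ℝ) * (c / 2)) ≤ b' * C' :=
    (mul_le_mul_of_nonneg_left h2 hN₀pos.le).trans h1
  have h4 : b' * C' / N₀ * 2 < m * c := (div_lt_iff₀ hc).mp hm
  have h5 : b' * C' * 2 < m * c * N₀ := by
    have h6 : b' * C' / N₀ * 2 * N₀ < m * c * N₀ := mul_lt_mul_of_pos_right h4 hN₀pos
    have h7 : b' * C' / N₀ * 2 * N₀ = b' * C' * 2 := by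
      field_simp
    linarith
  nlinarith

/-- A bounded tree whose branches are weakly null and bounded below. -/
theorem not_aucg_of_tree {N : X → ℝ} (hN : EquivN N) (T : List ℕ → X) {C δ : ℝ} (hδ : 0 < δ)
    (hC : ∀ v, ‖T v‖ ≤ C) (hlow : ∀ v n, δ ≤ ‖T (n :: v) - T v‖)
    (hweak : ∀ v (φ : X →L[ℝ] ℝ), Tendsto (fun n => φ (T (n :: v) - T v)) atTop (𝓝 0)) :
    ¬ AUCg N := by
  refine not_aucg_of_game hN (fun _ => Set.range T) (C := C) (δ := δ / 2) (half_pos hδ) ?_ ?_ ?_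
  · rintro _ _ ⟨v, rfl⟩
    exact hC v
  · intro _
    exact ⟨T [], _, rfl⟩
  · rintro _ _ ⟨v, rfl⟩ F hF ε hε
    have h := exists_near hF (hweak v) (lt_min hε (half_pos hδ))
    obtain ⟨n, hn⟩ := h.exists
    obtain ⟨z, hz, hz'⟩ := hn
    refine ⟨T (n :: v), ⟨_, rfl⟩, z, hz, hz'.trans_le (min_le_left _ _), ?_⟩
    have h1 := hlow v n
    have h2 : ‖T (n :: v) - T v‖ ≤ ‖z‖ + ‖T (n :: v) - T v - z‖ := by
      have e : T (n :: v) - T v = z + (T (n :: v) - T v - z) := by abel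
      calc ‖T (n :: v) - T v‖ = ‖z + (T (n :: v) - T v - z)‖ := by rw [← e]
        _ ≤ _ := norm_add_le _ _
    have h3 : ‖T (n :: v) - T v - z‖ < δ / 2 := hz'.trans_le (min_le_right _ _)
    linarith

/-- The norm is an equivalent norm. -/
lemma equivN_norm : EquivN (fun x : X => ‖x‖) :=
  ⟨fun x y => norm_add_le x y, fun a x => by simp only [norm_smul, Real.norm_eq_abs],
    1, 1, one_pos, fun x => by simp⟩

/-- Without an AUC structure on the norm the space is infinite-dimensional. -/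
lemma infinite_dim_of_not_aucg (h : ¬ AUCg (fun x : X => ‖x‖)) : ¬ FiniteDimensional ℝ X := by
  intro hfd
  apply h
  intro t _
  refine ⟨1, one_pos, fun x _ => ⟨⊥, ⟨?_, ?_⟩, ?_⟩⟩
  · simp
  · exact Module.Finite.equiv (Submodule.quotEquivOfEqBot (⊥ : Submodule ℝ X) rfl).symm
  · intro y hy hy1
    rw [Submodule.mem_bot] at hy
    simp [hy] at hy1

end Crest.Agent.H4Auc

namespace Crest.Agent.H4Auc

open Crest.AnalysisR

lemma equivN_of (E : RealBanach) {N : E.X → ℝ} (h : E.IsEquivNorm N) :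
    @EquivN E.X E.normed E.space N := h

lemma aucg_of (E : RealBanach) {N : E.X → ℝ} (h : E.IsAUC N) :
    @AUCg E.X E.normed E.space N := by
  let _ := E.normed
  let _ := E.space
  intro t ht
  obtain ⟨c, hc, hx⟩ := h t ht
  refine ⟨c, hc, fun x hx1 => ?_⟩
  obtain ⟨F, hF, hy⟩ := hx x hx1
  obtain ⟨S, hS, hcl, hfd⟩ := hF
  subst hS
  exact ⟨S, ⟨hcl, hfd⟩, hy⟩

/-- Cofinite-dimensional closed subspaces give `IsCof` sets. -/
lemma isCof_of (E : RealBanach) :
    letI := E.normed; letI := E.space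
    ∀ S : Submodule ℝ E.X, Cof S → E.IsCof (S : Set E.X) :=
  fun S h => ⟨S, rfl, h.1, h.2⟩

end Crest.Agent.H4Auc
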