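import Mathlib
import Crest.Prelude.Def_FinProb

/-!
Row 56 (S0077 + S0078): interface of the core theorem.  Proof plan in `departures/helper4.md`.
An abstract `r`-uniform "slot system": coordinates `E` with vertex sets in `V`, with an action of
the vertex permutations.  `CoreBound` is the analytic core (proved in `H4Core`), the consumers are
`S0077` and `S0078`.
-/

namespace H4

open Crest.FinProb

/-- Abstract simple `r`-uniform hypergraph slots on vertex set `V`, with relabelling action. -/
structure HG (V E : Type) [Fintype V] [DecidableEq V] [Fintype E] [DecidableEq E] (r : ℕ) where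
  /-- the vertices of a slot -/
  vs : E → Finset V
  vs_card : ∀ e, (vs e).card = r
  vs_inj : Function.Injective vs
  /-- the action of vertex permutations on slots -/
  act : Equiv.Perm V → Equiv.Perm E
  vs_act : ∀ π e, vs (act π e) = (vs e).map π.toEmbedding

/-- Probability that `f` is true. -/
noncomputable def muOf {E : Type} [Fintype E] [DecidableEq E] (p : ℝ) (f : (E → Bool) → Bool) : ℝ :=
  bernoulliProb p {x | f x = true}

/-- Total pivotal influence (no factor `p(1-p)`). -/
noncomputable def infOf {E : Type} [Fintype E] [DecidableEq E] (p : ℝ) (f : (E → Bool) → Bool) : ℝ :=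
  ∑ e : E, bernoulliProb p {x | f (Function.update x e true) ≠ f (Function.update x e false)}

/-- The statement of the analytic core: for a symmetric Boolean `f`, and any `N ≥ 1` with
`N^16 ≤ |V|` and `d ≥ 1` with `(√λ/2)^(d-1) ≥ 1/N` (`λ = p(1-p)`), one of two lower bounds on the
total influence holds. -/
def CoreBound : Prop :=
  ∀ (V E : Type) [Fintype V] [DecidableEq V] [Fintype E] [DecidableEq E] (r : ℕ) (G : HG V E r),
    2 ≤ r → ∀ p : ℝ, 0 < p → p < 1 → ∀ f : (E → Bool) → Bool,
      (∀ (π : Equiv.Perm V) (x : E → Bool), f (x ∘ G.act π) = f x) →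
      ∀ N : ℝ, 1 ≤ N → N ^ 16 ≤ (Fintype.card V : ℝ) →
      ∀ d : ℕ, 1 ≤ d → 1 / N ≤ (Real.sqrt (p * (1 - p)) / 2) ^ (d - 1) →
        muOf p f * (1 - muOf p f) * (d : ℝ) ^ ((r : ℝ) / ((r : ℝ) - 1)) ≤
            2 * r * (p * (1 - p) * infOf p f) ∨
          muOf p f * (1 - muOf p f) * N ≤ 32 * r * (p * (1 - p) * infOf p f)

end H4
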