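import Mathlib
import Crest.Agent.H4Iface

/-!
Row 56: the counting lemma.
-/

set_option autoImplicit false

namespace H4

theorem count_bound {V E : Type} [Fintype V] [DecidableEq V] [Fintype E] [DecidableEq E] {r : ℕ}
    (G : HG V E r) (hr : 2 ≤ r) (S : Finset E) (hS : S.Nonempty) (d : ℕ) (hd : 1 ≤ d)
    (h : ∀ w ∈ S.biUnion G.vs, d ≤ (S.filter (fun e => w ∈ G.vs e)).card) :
    (d : ℝ) ^ ((r : ℝ) / ((r : ℝ) - 1)) ≤ r * S.card := by
  classical
  set U : Finset V := S.biUnion G.vs with hU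
  set v : ℕ := U.card with hv
  -- `U` is nonempty
  obtain ⟨e0, he0⟩ := hS
  have hcard0 : (G.vs e0).card = r := G.vs_card e0
  have hne0 : (G.vs e0).Nonempty := by
    rw [← Finset.card_pos, hcard0]
    omega
  obtain ⟨w0, hw0⟩ := hne0
  have hw0U : w0 ∈ U := Finset.mem_biUnion.mpr ⟨e0, he0, hw0⟩
  have hv1 : 1 ≤ v := Finset.card_pos.mpr ⟨w0, hw0U⟩
  -- degree bound: `d ≤ v ^ (r - 1)`
  have hdeg : d ≤ v ^ (r - 1) := by
    have hd1 := h w0 hw0U
    refine hd1.trans ?_
    -- inject the edges through `w0` into `(r-1)`-subsets of `U.erase w0`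
    have hmaps : ∀ e ∈ S.filter (fun e => w0 ∈ G.vs e),
        (G.vs e).erase w0 ∈ (U.erase w0).powersetCard (r - 1) := by
      intro e he
      obtain ⟨heS, hew⟩ := Finset.mem_filter.mp he
      rw [Finset.mem_powersetCard]
      constructor
      · apply Finset.erase_subset_erase
        intro x hx
        exact Finset.mem_biUnion.mpr ⟨e, heS, hx⟩
      · rw [Finset.card_erase_of_mem hew, G.vs_card]
    have hinj : Set.InjOn (fun e => (G.vs e).erase w0) (S.filter (fun e => w0 ∈ G.vs e) : Set E) := by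
      intro a ha b hb hab
      have ha' : w0 ∈ G.vs a := (Finset.mem_filter.mp (Finset.mem_coe.mp ha)).2
      have hb' : w0 ∈ G.vs b := (Finset.mem_filter.mp (Finset.mem_coe.mp hb)).2
      apply G.vs_inj
      have := congrArg (insert w0) hab
      simpa [Finset.insert_erase ha', Finset.insert_erase hb'] using this
    have hle := Finset.card_le_card_of_injOn _ hmaps hinj
    rw [Finset.card_powersetCard, Finset.card_erase_of_mem hw0U] at hle
    refine hle.trans ?_
    refine (Nat.choose_le_pow _ _).trans ?_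
    exact Nat.pow_le_pow_left (by omega) _
  -- double counting: `v * d ≤ r * |S|`
  have hdouble : v * d ≤ r * S.card := by
    have h1 : ∑ e ∈ S, (G.vs e).card = r * S.card := by
      rw [Finset.sum_congr rfl (fun e _ => G.vs_card e)]
      simp [mul_comm]
    have h2 : ∑ e ∈ S, (G.vs e).card =
        ∑ w ∈ U, (S.filter (fun e => w ∈ G.vs e)).card := by
      have : ∀ e ∈ S, (G.vs e).card = ∑ w ∈ U, if w ∈ G.vs e then 1 else 0 := by
        intro e he
        have hsub : G.vs e ⊆ U := fun x hx => Finset.mem_biUnion.mpr ⟨e, he, hx⟩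
        rw [Finset.sum_ite_mem, Finset.inter_eq_right.mpr hsub]
        simp
      rw [Finset.sum_congr rfl this, Finset.sum_comm]
      refine Finset.sum_congr rfl fun w _ => ?_
      rw [Finset.card_filter]
    calc v * d = ∑ _w ∈ U, d := by simp [hv]
      _ ≤ ∑ w ∈ U, (S.filter (fun e => w ∈ G.vs e)).card := Finset.sum_le_sum h
      _ = r * S.card := by rw [← h2, h1]
  -- real powers
  have hrR : (2 : ℝ) ≤ (r : ℝ) := by exact_mod_cast hr
  have hr1 : 0 < (r : ℝ) - 1 := by linarith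
  have hd0 : (0 : ℝ) < d := by exact_mod_cast hd
  have hpow : (d : ℝ) ^ ((1 : ℝ) / ((r : ℝ) - 1)) ≤ v := by
    have hdv : (d : ℝ) ≤ (v : ℝ) ^ ((r : ℝ) - 1) := by
      have : (d : ℝ) ≤ (v : ℝ) ^ (r - 1) := by exact_mod_cast hdeg
      have hc : ((r - 1 : ℕ) : ℝ) = (r : ℝ) - 1 := by
        rw [Nat.cast_sub (by omega)]
        simp
      rw [← hc, Real.rpow_natCast]
      exact this
    have hv0 : (0 : ℝ) ≤ v := by positivity
    calc (d : ℝ) ^ ((1 : ℝ) / ((r : ℝ) - 1))
        ≤ ((v : ℝ) ^ ((r : ℝ) - 1)) ^ ((1 : ℝ) / ((r : ℝ) - 1)) :=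
          Real.rpow_le_rpow hd0.le hdv (by positivity)
      _ = v := by
          rw [← Real.rpow_mul hv0]
          rw [mul_one_div_cancel hr1.ne', Real.rpow_one]
  have hexp : (r : ℝ) / ((r : ℝ) - 1) = 1 + (1 : ℝ) / ((r : ℝ) - 1) := by
    field_simp
    ring
  rw [hexp, Real.rpow_add hd0, Real.rpow_one]
  have hdoubleR : (v : ℝ) * d ≤ r * S.card := by exact_mod_cast hdouble
  calc (d : ℝ) * (d : ℝ) ^ ((1 : ℝ) / ((r : ℝ) - 1)) ≤ d * v :=
        mul_le_mul_of_nonneg_left hpow hd0.le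
    _ = v * d := mul_comm _ _
    _ ≤ r * S.card := hdoubleR

end H4
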