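import Crest.Agent.H4W6
import Crest.Agent.H4Count

/-!
The core theorem `CoreBound`.
-/

namespace H4

set_option linter.unusedSectionVars false
set_option linter.unusedSimpArgs false

open Crest.FinProb Finset

variable {ι : Type} [Fintype ι] [DecidableEq ι] {p : ℝ}

/-- bernoulliProb as an expectation -/
lemma bProb_eq (E : Set (ι → Bool)) [DecidablePred (· ∈ E)] :
    bernoulliProb p E = Ex p (fun x => if x ∈ E then 1 else 0) := by
  unfold bernoulliProb Ex
  simp only [mul_ite, mul_one, mul_zero]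
  rw [Finset.sum_filter]
  refine Finset.sum_congr rfl fun x _ => ?_
  congr 1

/-- the real-valued version -/
noncomputable def boolF (f : (ι → Bool) → Bool) (x : ι → Bool) : ℝ := if f x = true then 1 else 0

lemma boolF_cases (f : (ι → Bool) → Bool) (x : ι → Bool) : boolF f x = 0 ∨ boolF f x = 1 := by
  unfold boolF
  split_ifs <;> simp

lemma mu_eq (f : (ι → Bool) → Bool) : muOf p f = Ex p (boolF f) := by
  unfold muOf
  rw [bProb_eq]
  rfl

lemma var_eq (hp : Bias p) (f : (ι → Bool) → Bool) :
    muOf p f * (1 - muOf p f) = ∑ S ∈ univ.erase ∅, coef p (boolF f) S ^ 2 := by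
  have h1 := parseval_sq hp (boolF f)
  have h2 : Ex p (fun x => boolF f x ^ 2) = Ex p (boolF f) := by
    congr 1
    funext x
    rcases boolF_cases f x with h | h <;> rw [h] <;> norm_num
  have h3 : ∑ S, coef p (boolF f) S ^ 2 =
      coef p (boolF f) ∅ ^ 2 + ∑ S ∈ univ.erase ∅, coef p (boolF f) S ^ 2 := by
    exact (Finset.add_sum_erase univ (fun S => coef p (boolF f) S ^ 2) (Finset.mem_univ _)).symm
  rw [coef_empty] at h3
  rw [mu_eq]
  rw [h2] at h1
  linarith

lemma inf_one (hp : Bias p) (f : (ι → Bool) → Bool) (e : ι) :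
    Ex p (fun x => (boolF f x - EZ p {e} (boolF f) x) ^ 2) =
      p * (1 - p) * bernoulliProb p {x | f (Function.update x e true) ≠ f (Function.update x e false)} := by
  classical
  rw [bProb_eq, ← Ex_smul, ← Ex_EZ hp {e}]
  congr 1
  funext x
  rw [EZ_single hp]
  have hfree : Free {e} (EZ p {e} (boolF f)) := free_EZ _ _
  have hmem : e ∈ ({e} : Finset ι) := by simp
  rw [free_update hmem hfree, free_update hmem hfree, EZ_single hp]
  simp only [Set.mem_setOf_eq]
  by_cases hpiv : f (Function.update x e true) ≠ f (Function.update x e false)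
  · rw [if_pos hpiv]
    cases h1 : f (Function.update x e true) <;> cases h0 : f (Function.update x e false) <;>
      simp_all [boolF] <;> ring
  · rw [if_neg hpiv]
    push Not at hpiv
    have : boolF f (Function.update x e true) = boolF f (Function.update x e false) := by
      simp only [boolF, hpiv]
    rw [this]
    ring

lemma X_eq (hp : Bias p) (f : (ι → Bool) → Bool) :
    ∑ S : Finset ι, (S.card : ℝ) * coef p (boolF f) S ^ 2 = p * (1 - p) * infOf p f := by
  unfold infOf
  rw [Finset.mul_sum]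
  simp only [← inf_one hp]
  have h1 : ∀ e, Ex p (fun x => (boolF f x - EZ p {e} (boolF f) x) ^ 2) =
      ∑ S, if e ∈ S then coef p (boolF f) S ^ 2 else 0 := by
    intro e
    rw [parseval_sq hp]
    refine Finset.sum_congr rfl fun S _ => ?_
    rw [coef_sub, coef_EZ hp]
    by_cases h : e ∈ S
    · have : ¬ Disjoint S {e} := by
        rw [Finset.not_disjoint_iff]
        exact ⟨e, h, by simp⟩
      simp [h, this]
    · have : Disjoint S {e} := by
        rw [Finset.disjoint_singleton_right]
        exact h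
      simp [h, this]
  simp only [h1]
  rw [Finset.sum_comm]
  refine Finset.sum_congr rfl fun S _ => ?_
  rw [Finset.sum_ite_mem, Finset.univ_inter, Finset.sum_const, nsmul_eq_mul]


variable {V E : Type} [Fintype V] [DecidableEq V] [Fintype E] [DecidableEq E] {r : ℕ}

/-- The core theorem. -/
theorem coreBound : CoreBound := by
  intro V E _ _ _ _ r G hr p hp0 hp1 f hf N hN hn d hd hdN
  have hp : Bias p := ⟨hp0, hp1⟩
  have hlam := lam_pos hp
  have hlam4 : p * (1 - p) ≤ 1 / 4 := by nlinarith [sq_nonneg (p - 1 / 2)]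
  set t := Real.sqrt (p * (1 - p)) with ht
  have ht0 : 0 < t := Real.sqrt_pos.mpr hlam
  have ht2 : t ^ 2 = p * (1 - p) := Real.sq_sqrt hlam.le
  have ht12 : t ≤ 1 / 2 := by
    have : t ^ 2 ≤ (1 / 2) ^ 2 := by rw [ht2]; linarith
    exact (pow_le_pow_iff_left₀ ht0.le (by norm_num) (by norm_num)).mp this
  set ρ := Real.sqrt (t / 2) with hρ
  have hρ0 : 0 < ρ := Real.sqrt_pos.mpr (by positivity)
  have hρ2 : ρ ^ 2 = t / 2 := Real.sq_sqrt (by positivity)
  have h1 : ρ ^ 2 ≤ 1 / 4 := by rw [hρ2]; linarith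
  have h2 : 3 * ρ ^ 4 ≤ p * (1 - p) := by
    have : ρ ^ 4 = (ρ ^ 2) ^ 2 := by ring
    rw [this, hρ2, ← ht2]
    nlinarith [sq_nonneg t]
  have hdN' : 1 / N ≤ (ρ ^ 2) ^ (d - 1) := by
    rw [hρ2]
    exact hdN
  have hr2 : (1 : ℝ) < r := by exact_mod_cast (show 1 < r by omega)
  have hB0 : (0 : ℝ) ≤ (d : ℝ) ^ ((r : ℝ) / ((r : ℝ) - 1)) := by positivity
  have hB : ∀ S : Finset E, S ≠ ∅ → (∀ w ∈ VS G S, d ≤ deg G S w) →
      (d : ℝ) ^ ((r : ℝ) / ((r : ℝ) - 1)) ≤ r * S.card := by
    intro S hS hw
    apply count_bound G hr S (Finset.nonempty_iff_ne_empty.mpr hS) d hd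
    intro w hwS
    have := hw w hwS
    have e : S ∩ star G w = S.filter (fun e => w ∈ G.vs e) := by
      ext e
      simp [mem_star]
    simpa [deg, e] using this
  have hf' : ∀ (π : Equiv.Perm V) (x : E → Bool), boolF f (x ∘ G.act π) = boolF f x := by
    intro π x
    simp only [boolF, hf π x]
  have key := dichotomy (G := G) hp (by omega) (boolF_cases f) hf' h1 h2 hρ0 hN hn hd hdN' hB0 hB
  rw [X_eq hp, ← var_eq hp] at key
  exact key

end H4
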