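import Crest.Prelude.Def_DaugavetL1
import Crest.Agent.H4Auc

/-! Consequences of the Daugavet property for finite-codimensional subspaces. -/

set_option autoImplicit false

open Filter Topology
open Crest.AnalysisR Crest.AnalysisR.L1Subspace

namespace Crest.Agent.H4Daug

open Crest.Agent.H4Auc

variable {X : Type} [NormedAddCommGroup X] [NormedSpace ℝ X]

/-- Every slice of the ball has points almost at distance two from a given unit vector. -/
lemma exists_far (hD : HasDaugavetProperty X) {y : X} (hy : ‖y‖ = 1) (ψ : X →L[ℝ] ℝ) {α : ℝ}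
    {u₀ : X} (hu₀ : ‖u₀‖ ≤ 1) (hα : α < ψ u₀) {δ : ℝ} (hδ : 0 < δ) :
    ∃ u : X, ‖u‖ ≤ 1 ∧ α < ψ u ∧ 2 - δ ≤ ‖y + u‖ := by
  by_cases hψ : ψ = 0
  · refine ⟨y, hy.le, ?_, ?_⟩
    · subst hψ
      simpa using hα
    · rw [← two_smul ℝ y, norm_smul, hy]
      norm_num
      linarith
  have hn : 0 < ‖ψ‖ := norm_pos_iff.mpr hψ
  set ψ' : X →L[ℝ] ℝ := ‖ψ‖⁻¹ • ψ with hψ'
  have hψ'n : ‖ψ'‖ = 1 := by
    rw [hψ', norm_smul, norm_inv, norm_norm, inv_mul_cancel₀ hn.ne']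
  have hle : ∀ v : X, ‖v‖ ≤ 1 → ψ v ≤ ‖ψ‖ := by
    intro v hv
    calc ψ v ≤ |ψ v| := le_abs_self _
      _ = ‖ψ v‖ := rfl
      _ ≤ ‖ψ‖ * ‖v‖ := ψ.le_opNorm v
      _ ≤ ‖ψ‖ * 1 := mul_le_mul_of_nonneg_left hv hn.le
      _ = ‖ψ‖ := mul_one _
  have hαlt : α < ‖ψ‖ := hα.trans_le (hle u₀ hu₀)
  set β := min (δ / 2) ((‖ψ‖ - α) / ‖ψ‖) with hβdef
  have hβ : 0 < β := lt_min (half_pos hδ) (div_pos (sub_pos.mpr hαlt) hn)
  have hβ1 : β ≤ δ / 2 := min_le_left _ _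
  have hβ2 : ‖ψ‖ * (1 - β) ≥ α := by
    have : β ≤ (‖ψ‖ - α) / ‖ψ‖ := min_le_right _ _
    have h2 : ‖ψ‖ * β ≤ ‖ψ‖ - α := by
      have := mul_le_mul_of_nonneg_left this hn.le
      rwa [mul_div_cancel₀ _ hn.ne'] at this
    linarith
  have h1 := hD ψ' y
  rw [ContinuousLinearMap.norm_smulRight_apply, hψ'n, hy] at h1
  obtain ⟨x, hx, hx2⟩ := ContinuousLinearMap.exists_lt_apply_of_lt_opNorm
    (ContinuousLinearMap.id ℝ X + ψ'.smulRight y) (r := 2 - β) (by rw [h1]; linarith)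
  have hx3 : ‖(ContinuousLinearMap.id ℝ X + ψ'.smulRight y) x‖ = ‖x + ψ' x • y‖ := rfl
  rw [hx3] at hx2
  set r := ψ' x with hr
  have hrabs : |r| ≤ ‖x‖ := by
    have := ψ'.le_opNorm x
    rw [hψ'n, one_mul] at this
    exact this
  have h3 : ‖x + r • y‖ ≤ ‖x‖ + |r| := by
    refine (norm_add_le _ _).trans (le_of_eq ?_)
    rw [norm_smul, hy, mul_one, Real.norm_eq_abs]
  have h4 : 1 - β < |r| := by linarith
  have hψx : ψ x = ‖ψ‖ * r := by
    rw [hr, hψ']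
    simp only [smul_apply, smul_eq_mul]
    field_simp
  rcases le_total 0 r with h0 | h0
  · rw [abs_of_nonneg h0] at h4 hrabs
    refine ⟨x, hx.le, ?_, ?_⟩
    · rw [hψx]
      have : ‖ψ‖ * (1 - β) < ‖ψ‖ * r := mul_lt_mul_of_pos_left h4 hn
      linarith
    · have h5 : ‖x + r • y‖ ≤ ‖y + x‖ + (1 - r) := by
        have e : x + r • y = (y + x) - (1 - r) • y := by
          rw [sub_smul, one_smul]
          abel
        rw [e]
        refine (norm_sub_le _ _).trans ?_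
        rw [norm_smul, hy, mul_one, Real.norm_eq_abs, abs_of_nonneg (by linarith)]
      linarith
  · rw [abs_of_nonpos h0] at h4 hrabs
    refine ⟨-x, by rw [norm_neg]; exact hx.le, ?_, ?_⟩
    · rw [map_neg, hψx]
      have : ‖ψ‖ * (1 - β) < ‖ψ‖ * (-r) := mul_lt_mul_of_pos_left h4 hn
      linarith
    · have h5 : ‖x + r • y‖ ≤ ‖y + -x‖ + (1 - (-r)) := by
        have e : x + r • y = -((y + -x) - (1 - (-r)) • y) := by
          rw [sub_smul, one_smul, neg_smul]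
          abel
        rw [e, norm_neg]
        refine (norm_sub_le _ _).trans ?_
        rw [norm_smul, hy, mul_one, Real.norm_eq_abs, abs_of_nonneg (by linarith)]
      linarith

/-- One step of the greedy construction. -/
lemma far_step (hD : HasDaugavetProperty X) {e : X} (he : ‖e‖ = 1) (a : X) {lam : ℝ} (hlam : 0 ≤ lam)
    (ψ : X →L[ℝ] ℝ) {α : ℝ} {u₀ : X} (hu₀ : ‖u₀‖ ≤ 1) (hα : α < ψ u₀) {δ : ℝ} (hδ : 0 < δ) :
    ∃ u : X, ‖u‖ ≤ 1 ∧ α < ψ u ∧ ‖a‖ + lam - max ‖a‖ lam * δ ≤ ‖a + lam • u‖ := by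
  obtain ⟨y, hy, hay⟩ : ∃ y : X, ‖y‖ = 1 ∧ a = ‖a‖ • y := by
    by_cases ha : a = 0
    · exact ⟨e, he, by simp [ha]⟩
    · have h0 : ‖a‖ ≠ 0 := norm_ne_zero_iff.mpr ha
      refine ⟨‖a‖⁻¹ • a, ?_, ?_⟩
      · rw [norm_smul, norm_inv, norm_norm, inv_mul_cancel₀ h0]
      · rw [smul_smul, mul_inv_cancel₀ h0, one_smul]
  obtain ⟨u, hu, hu2, hu3⟩ := exists_far hD hy ψ hu₀ hα hδ
  refine ⟨u, hu, hu2, ?_⟩
  set A := ‖a‖ with hA
  have hA0 : 0 ≤ A := norm_nonneg _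
  rcases le_total lam A with h | h
  · rw [max_eq_left h]
    have e1 : A • (y + u) = (a + lam • u) + (A - lam) • u := by
      rw [smul_add, sub_smul, ← hay]
      abel
    have e2 : A * ‖y + u‖ ≤ ‖a + lam • u‖ + (A - lam) * ‖u‖ := by
      have := norm_add_le (a + lam • u) ((A - lam) • u)
      rw [← e1, norm_smul, norm_smul, Real.norm_eq_abs, Real.norm_eq_abs, abs_of_nonneg hA0,
        abs_of_nonneg (by linarith : 0 ≤ A - lam)] at this
      exact this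
    have e3 : A * (2 - δ) ≤ A * ‖y + u‖ := mul_le_mul_of_nonneg_left hu3 hA0
    have e4 : (A - lam) * ‖u‖ ≤ (A - lam) * 1 :=
      mul_le_mul_of_nonneg_left hu (by linarith)
    nlinarith
  · rw [max_eq_right h]
    have e1 : lam • (y + u) = (a + lam • u) + (lam - A) • y := by
      rw [smul_add, sub_smul]
      nth_rewrite 1 [hay]
      abel
    have e2 : lam * ‖y + u‖ ≤ ‖a + lam • u‖ + (lam - A) * ‖y‖ := by
      have := norm_add_le (a + lam • u) ((lam - A) • y)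
      rw [← e1, norm_smul, norm_smul, Real.norm_eq_abs, Real.norm_eq_abs, abs_of_nonneg hlam,
        abs_of_nonneg (by linarith : 0 ≤ lam - A)] at this
      exact this
    have e3 : lam * (2 - δ) ≤ lam * ‖y + u‖ := mul_le_mul_of_nonneg_left hu3 hlam
    rw [hy, mul_one] at e2
    nlinarith

/-- The greedy construction for a convex combination of slices. -/
lemma far_sum (hD : HasDaugavetProperty X) {e : X} (he : ‖e‖ = 1) {ι : Type*} (t : Finset ι)
    (lam : ι → ℝ) (hlam : ∀ i ∈ t, 0 ≤ lam i) (hsum : ∑ i ∈ t, lam i ≤ 1)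
    (ψ : ι → (X →L[ℝ] ℝ)) (α : ι → ℝ) (u₀ : ι → X) (hu₀ : ∀ i ∈ t, ‖u₀ i‖ ≤ 1)
    (hα : ∀ i ∈ t, α i < ψ i (u₀ i)) (z : X) (hz : ‖z‖ ≤ 1) {δ : ℝ} (hδ : 0 < δ) :
    ∃ u : ι → X, (∀ i ∈ t, ‖u i‖ ≤ 1 ∧ α i < ψ i (u i)) ∧
      ‖z‖ + ∑ i ∈ t, lam i - 2 * t.card * δ ≤ ‖z + ∑ i ∈ t, lam i • u i‖ := by
  classical
  induction t using Finset.induction_on with
  | empty => exact ⟨u₀, by simp, by simp⟩
  | insert i t hi ih =>
    rw [Finset.sum_insert hi] at hsum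
    have hi0 : 0 ≤ lam i := hlam i (Finset.mem_insert_self _ _)
    have ht0 : 0 ≤ ∑ j ∈ t, lam j :=
      Finset.sum_nonneg fun j hj => hlam j (Finset.mem_insert_of_mem hj)
    obtain ⟨u, hu, hu2⟩ := ih (fun j hj => hlam j (Finset.mem_insert_of_mem hj)) (by linarith)
      (fun j hj => hu₀ j (Finset.mem_insert_of_mem hj))
      (fun j hj => hα j (Finset.mem_insert_of_mem hj))
    set a := z + ∑ j ∈ t, lam j • u j with ha
    obtain ⟨v, hv, hv2, hv3⟩ := far_step hD he a hi0 (ψ i) (hu₀ i (Finset.mem_insert_self _ _))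
      (hα i (Finset.mem_insert_self _ _)) hδ
    refine ⟨Function.update u i v, ?_, ?_⟩
    · intro j hj
      by_cases hji : j = i
      · subst hji
        simpa using ⟨hv, hv2⟩
      · rw [Function.update_of_ne hji]
        exact hu j (Finset.mem_of_mem_insert_of_ne hj hji)
    · have e1 : ∑ j ∈ t, lam j • Function.update u i v j = ∑ j ∈ t, lam j • u j := by
        refine Finset.sum_congr rfl fun j hj => ?_
        have : j ≠ i := fun h => hi (h ▸ hj)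
        rw [Function.update_of_ne this]
      rw [Finset.sum_insert hi, Finset.sum_insert hi, Function.update_self, e1]
      have e2 : z + (lam i • v + ∑ j ∈ t, lam j • u j) = a + lam i • v := by
        rw [ha]
        abel
      rw [e2, Finset.card_insert_of_notMem hi]
      have hmax : max ‖a‖ (lam i) ≤ 2 := by
        refine max_le ?_ (by linarith)
        have h1 : ‖∑ j ∈ t, lam j • u j‖ ≤ ∑ j ∈ t, lam j := by
          refine (norm_sum_le _ _).trans (Finset.sum_le_sum fun j hj => ?_)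
          rw [norm_smul, Real.norm_eq_abs, abs_of_nonneg (hlam j (Finset.mem_insert_of_mem hj))]
          have := (hu j hj).1
          have h3 := hlam j (Finset.mem_insert_of_mem hj)
          nlinarith
        have h2 := norm_add_le z (∑ j ∈ t, lam j • u j)
        rw [← ha] at h2
        linarith
      have h3 : max ‖a‖ (lam i) * δ ≤ 2 * δ := mul_le_mul_of_nonneg_right hmax hδ.le
      push_cast
      nlinarith

section Euclid

variable {V : Type} [NormedAddCommGroup V] [InnerProductSpace ℝ V] [CompleteSpace V]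

open scoped InnerProductSpace

/-- Almost-farthest points from a centre. -/
lemma exists_max (T : X →L[ℝ] V) (c : V) {δ : ℝ} (hδ : 0 < δ) :
    ∃ u₀ : X, ‖u₀‖ ≤ 1 ∧ ∀ u : X, ‖u‖ ≤ 1 → ‖T u - c‖ ^ 2 ≤ ‖T u₀ - c‖ ^ 2 + δ := by
  set S : Set ℝ := (fun u => ‖T u - c‖ ^ 2) '' {u : X | ‖u‖ ≤ 1} with hS
  have hne : S.Nonempty := ⟨_, 0, by simp, rfl⟩
  have hbdd : BddAbove S := by
    refine ⟨(‖T‖ + ‖c‖) ^ 2, ?_⟩
    rintro _ ⟨u, hu, rfl⟩
    refine pow_le_pow_left₀ (norm_nonneg _) ?_ 2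
    refine (norm_sub_le _ _).trans (add_le_add_left ?_ _)
    calc ‖T u‖ ≤ ‖T‖ * ‖u‖ := T.le_opNorm u
      _ ≤ ‖T‖ * 1 := mul_le_mul_of_nonneg_left hu (norm_nonneg _)
      _ = ‖T‖ := mul_one _
  obtain ⟨_, ⟨u₀, hu₀, rfl⟩, h⟩ := exists_lt_of_lt_csSup hne (sub_lt_self (sSup S) hδ)
  refine ⟨u₀, hu₀, fun u hu => ?_⟩
  have : ‖T u - c‖ ^ 2 ≤ sSup S := le_csSup hbdd ⟨u, hu, rfl⟩
  simp only at h
  linarith

/-- Exposed-type points. -/
def Qset (T : X →L[ℝ] V) (δ : ℝ) : Set V :=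
  {q | ∃ (c : V) (u₀ : X), ‖u₀‖ ≤ 1 ∧ T u₀ = q ∧
    ∀ u : X, ‖u‖ ≤ 1 → ‖T u - c‖ ^ 2 ≤ ‖q - c‖ ^ 2 + δ}

/-- The image of the ball lies in the closed convex hull of exposed-type points. -/
lemma mem_closure_conv (T : X →L[ℝ] V) {δ : ℝ} (hδ : 0 < δ) {z : X} (hz : ‖z‖ ≤ 1) :
    T z ∈ closure (convexHull ℝ (Qset T δ)) := by
  by_contra hcon
  obtain ⟨f, u, h1, h2⟩ := geometric_hahn_banach_closed_point
    ((convex_convexHull ℝ (Qset T δ)).closure) isClosed_closure hcon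
  set v : V := (InnerProductSpace.toDual ℝ V).symm f with hv
  have hf : ∀ a, f a = ⟪v, a⟫_ℝ := fun a => by
    rw [hv, InnerProductSpace.toDual_symm_apply]
  set κ := f (T z) - u with hκ
  have hκpos : 0 < κ := sub_pos.mpr h2
  set C := ‖T‖ ^ 2 with hC
  have hC0 : 0 ≤ C := by positivity
  set R := (C + δ + 1) / (2 * κ) with hR
  have hRpos : 0 < R := by positivity
  have hRκ : 2 * R * κ = C + δ + 1 := by
    rw [hR]
    field_simp
  obtain ⟨u₀, hu₀, hmax⟩ := exists_max T (-(R • v)) hδ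
  set q := T u₀ with hq
  have hqmem : q ∈ Qset T δ := ⟨-(R • v), u₀, hu₀, rfl, hmax⟩
  have hfq : f q < u := h1 q (subset_closure (subset_convexHull ℝ _ hqmem))
  have h3 := hmax z hz
  have e1 : ∀ a : V, ‖a - -(R • v)‖ ^ 2 = ‖a‖ ^ 2 + 2 * (R * f a) + ‖R • v‖ ^ 2 := by
    intro a
    rw [sub_neg_eq_add, norm_add_sq_real, hf a, real_inner_smul_right, real_inner_comm]
  rw [e1, e1] at h3
  have h4 : ‖q‖ ≤ ‖T‖ := by
    calc ‖q‖ ≤ ‖T‖ * ‖u₀‖ := T.le_opNorm u₀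
      _ ≤ ‖T‖ * 1 := mul_le_mul_of_nonneg_left hu₀ (norm_nonneg _)
      _ = ‖T‖ := mul_one _
  have h5 : ‖q‖ ^ 2 ≤ C := pow_le_pow_left₀ (norm_nonneg _) h4 2
  have h6 : 0 ≤ ‖T z‖ ^ 2 := by positivity
  have h7 : R * κ < R * (f (T z) - f q) := by
    refine mul_lt_mul_of_pos_left ?_ hRpos
    rw [hκ]
    linarith
  nlinarith

/-- Slices at exposed-type points have small image. -/
lemma slice_small (T : X →L[ℝ] V) {δ : ℝ} {c : V} {q : V}
    (hmax : ∀ u : X, ‖u‖ ≤ 1 → ‖T u - c‖ ^ 2 ≤ ‖q - c‖ ^ 2 + δ) {u : X} (hu : ‖u‖ ≤ 1)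
    (h : ⟪q - c, c⟫_ℝ + ‖q - c‖ ^ 2 - δ < ((innerSL ℝ (q - c)).comp T) u) :
    ‖T u - q‖ ^ 2 ≤ 3 * δ := by
  have h1 := hmax u hu
  have e : T u - q = (T u - c) - (q - c) := by abel
  rw [e, norm_sub_sq_real]
  have e2 : ⟪T u - c, q - c⟫_ℝ = ((innerSL ℝ (q - c)).comp T) u - ⟪q - c, c⟫_ℝ := by
    simp only [ContinuousLinearMap.comp_apply, innerSL_apply_apply]
    rw [real_inner_comm, inner_sub_right]
  rw [e2]
  nlinarith

lemma slice_mem (T : X →L[ℝ] V) {δ : ℝ} (hδ : 0 < δ) {c : V} {u₀ : X} :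
    ⟪T u₀ - c, c⟫_ℝ + ‖T u₀ - c‖ ^ 2 - δ < ((innerSL ℝ (T u₀ - c)).comp T) u₀ := by
  simp only [ContinuousLinearMap.comp_apply, innerSL_apply_apply]
  have e : T u₀ = (T u₀ - c) + c := by abel
  have e3 : ⟪T u₀ - c, T u₀⟫_ℝ = ⟪T u₀ - c, (T u₀ - c) + c⟫_ℝ := by rw [← e]
  rw [e3, inner_add_right, real_inner_self_eq_norm_sq]
  linarith

/-- The far point theorem. -/
theorem far_point (hD : HasDaugavetProperty X) {e : X} (he : ‖e‖ = 1) (T : X →L[ℝ] V) {z : X}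
    (hz : ‖z‖ ≤ 1) {ε : ℝ} (hε : 0 < ε) :
    ∃ w : X, ‖w‖ ≤ 1 ∧ ‖T w - T z‖ < ε ∧ 1 + ‖z‖ - ε ≤ ‖w - z‖ := by
  set δ := (ε / 2) ^ 2 / 3 with hδdef
  have hδ : 0 < δ := by positivity
  have h1 := mem_closure_conv T hδ hz
  obtain ⟨p, hp, hpd⟩ := Metric.mem_closure_iff.mp h1 (ε / 2) (half_pos hε)
  rw [convexHull_eq] at hp
  obtain ⟨ι, t, lam, q, hlam, hsum, hq, hpe⟩ := hp
  rw [Finset.centerMass_eq_of_sum_1 _ _ hsum] at hpe
  choose! c u₀ h0 h0' h2 using hq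
  set δ' := ε / (2 * (t.card + 1)) with hδ'
  have hδ'pos : 0 < δ' := by positivity
  obtain ⟨u, hu, hu2⟩ := far_sum hD he t lam hlam hsum.le
    (fun i => (innerSL ℝ (q i - c i)).comp T)
    (fun i => ⟪q i - c i, c i⟫_ℝ + ‖q i - c i‖ ^ 2 - δ) u₀ h0
    (fun i hi => by
      have := slice_mem T hδ (c := c i) (u₀ := u₀ i)
      rw [h0' i hi] at this
      exact this) (-z) (by rwa [norm_neg]) hδ'pos
  refine ⟨∑ i ∈ t, lam i • u i, ?_, ?_, ?_⟩
  · refine (norm_sum_le _ _).trans ?_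
    rw [← hsum]
    refine Finset.sum_le_sum fun i hi => ?_
    rw [norm_smul, Real.norm_eq_abs, abs_of_nonneg (hlam i hi)]
    have := (hu i hi).1
    have h3 := hlam i hi
    nlinarith
  · have hsmall : ∀ i ∈ t, ‖T (u i) - q i‖ ≤ ε / 2 := by
      intro i hi
      have h3 := slice_small T (h2 i hi) (hu i hi).1 (hu i hi).2
      have h4 : 3 * δ = (ε / 2) ^ 2 := by rw [hδdef]; ring
      rw [h4] at h3
      exact (pow_le_pow_iff_left₀ (norm_nonneg _) (by positivity) two_ne_zero).mp h3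
    have e1 : T (∑ i ∈ t, lam i • u i) - p = ∑ i ∈ t, lam i • (T (u i) - q i) := by
      rw [← hpe, map_sum, ← Finset.sum_sub_distrib]
      refine Finset.sum_congr rfl fun i _ => ?_
      rw [map_smul, smul_sub]
    have e2 : ‖T (∑ i ∈ t, lam i • u i) - p‖ ≤ ε / 2 := by
      rw [e1]
      refine (norm_sum_le _ _).trans ?_
      calc ∑ i ∈ t, ‖lam i • (T (u i) - q i)‖ ≤ ∑ i ∈ t, lam i * (ε / 2) := by
            refine Finset.sum_le_sum fun i hi => ?_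
            rw [norm_smul, Real.norm_eq_abs, abs_of_nonneg (hlam i hi)]
            exact mul_le_mul_of_nonneg_left (hsmall i hi) (hlam i hi)
        _ = ε / 2 := by rw [← Finset.sum_mul, hsum, one_mul]
    have e3 : ‖p - T z‖ < ε / 2 := by
      rw [← dist_eq_norm, dist_comm]
      exact hpd
    calc ‖T (∑ i ∈ t, lam i • u i) - T z‖ = ‖(T (∑ i ∈ t, lam i • u i) - p) + (p - T z)‖ := by
          congr 1
          abel
      _ ≤ _ := norm_add_le _ _
      _ < ε := by linarith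
  · rw [hsum, norm_neg] at hu2
    have e1 : -z + ∑ i ∈ t, lam i • u i = ∑ i ∈ t, lam i • u i - z := by abel
    rw [e1] at hu2
    have e2 : 2 * (t.card : ℝ) * δ' ≤ ε := by
      rw [hδ']
      have : (0 : ℝ) < 2 * (t.card + 1) := by positivity
      rw [mul_div_assoc', div_le_iff₀ this]
      nlinarith
    linarith

end Euclid

/-- The far point theorem for finite-codimensional subspaces. -/
theorem far_point_F (hD : HasDaugavetProperty X) {e : X} (he : ‖e‖ = 1) {F : Submodule ℝ X}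
    (hF : Cof F) {z : X} (hz : ‖z‖ ≤ 1) {ε : ℝ} (hε : 0 < ε) :
    ∃ w : X, ‖w‖ ≤ 1 ∧ (∃ y ∈ F, ‖w - z - y‖ < ε) ∧ 1 + ‖z‖ - ε ≤ ‖w - z‖ := by
  have := hF.2
  have : IsClosed (F : Set X) := hF.1
  let π : X →L[ℝ] (X ⧸ F) := (Submodule.mkQ F).mkContinuous 1 (fun x => by
    simpa using Submodule.Quotient.norm_mk_le F x)
  let L : (X ⧸ F) ≃L[ℝ] EuclideanSpace ℝ (Fin (Module.finrank ℝ (X ⧸ F))) := toEuclidean
  let T : X →L[ℝ] EuclideanSpace ℝ (Fin (Module.finrank ℝ (X ⧸ F))) :=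
    (L : (X ⧸ F) →L[ℝ] _).comp π
  let Ls : EuclideanSpace ℝ (Fin (Module.finrank ℝ (X ⧸ F))) →L[ℝ] (X ⧸ F) :=
    L.symm.toContinuousLinearMap
  set K := ‖Ls‖ + 1 with hK
  have hKpos : 0 < K := by positivity
  set ε' := min ε (ε / (2 * K)) with hε'
  have hε'pos : 0 < ε' := lt_min hε (by positivity)
  obtain ⟨w, hw, hw2, hw3⟩ := far_point hD he T hz hε'pos
  refine ⟨w, hw, ?_, by linarith [min_le_left ε (ε / (2 * K))]⟩
  have h1 : ‖π (w - z)‖ < ε / 2 := by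
    have e1 : π (w - z) = Ls (T w - T z) := by
      simp only [T, Ls, ContinuousLinearMap.comp_apply, ← map_sub]
      exact (L.symm_apply_apply _).symm
    rw [e1]
    refine (Ls.le_opNorm _).trans_lt ?_
    have h2 : ‖T w - T z‖ < ε / (2 * K) := hw2.trans_le (min_le_right _ _)
    have h3 : ‖Ls‖ ≤ K := by rw [hK]; linarith
    calc ‖Ls‖ * ‖T w - T z‖ ≤ K * ‖T w - T z‖ :=
          mul_le_mul_of_nonneg_right h3 (norm_nonneg _)
      _ < K * (ε / (2 * K)) := mul_lt_mul_of_pos_left h2 hKpos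
      _ = ε / 2 := by field_simp
  obtain ⟨m, hm, hm'⟩ := Submodule.Quotient.norm_mk_lt (π (w - z)) (half_pos hε)
  refine ⟨w - z - m, ?_, ?_⟩
  · have h2 : (Submodule.Quotient.mk (w - z) : X ⧸ F) = Submodule.Quotient.mk m := by
      rw [hm]
      rfl
    exact (Submodule.Quotient.eq F).mp h2
  · rw [sub_sub_cancel]
    linarith

/-- The one-sided upper estimate. -/
theorem one_sided_le (hD : HasDaugavetProperty X) {e : X} (he : ‖e‖ = 1) {x : X} (hx : ‖x‖ = 1)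
    {F : Submodule ℝ X} (hF : Cof F) {t : ℝ} (ht : 0 < t) {η : ℝ} (hη : 0 < η) :
    ∃ y ∈ F, ‖y‖ = 1 ∧ ‖x + t • y‖ ≤ max 1 (t - 1) + η := by
  set ε₁ := min (1 / 4) (η / (2 + 2 * t)) with hε₁
  have hε₁pos : 0 < ε₁ := lt_min (by norm_num) (by positivity)
  have hε₁1 : ε₁ ≤ 1 / 4 := min_le_left _ _
  have hε₁2 : ε₁ * (2 + 2 * t) ≤ η := by
    have : ε₁ ≤ η / (2 + 2 * t) := min_le_right _ _
    rwa [le_div_iff₀ (by positivity)] at this
  obtain ⟨w, hw, ⟨y₀, hy₀, hv⟩, hfar⟩ := far_point_F hD he hF hx.le hε₁pos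
  set v := w - x - y₀ with hvdef
  rw [hx] at hfar
  have hwx : w - x = y₀ + v := by rw [hvdef]; abel
  set R := ‖y₀‖ with hR
  have hR1 : ‖w - x‖ ≤ R + ‖v‖ := by rw [hwx]; exact norm_add_le _ _
  have hR2 : R ≤ ‖w - x‖ + ‖v‖ := by
    have e1 : y₀ = (w - x) - v := by rw [hwx]; abel
    rw [hR, e1]
    exact norm_sub_le _ _
  have hRge : 3 / 2 ≤ R := by linarith
  have hRpos : 0 < R := by linarith
  refine ⟨R⁻¹ • y₀, F.smul_mem _ hy₀, ?_, ?_⟩
  · rw [norm_smul, norm_inv, norm_norm, inv_mul_cancel₀ hRpos.ne']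
  set s := t / R with hs
  have hspos : 0 < s := by positivity
  have hsR : s * R = t := by rw [hs]; field_simp
  have e1 : x + t • R⁻¹ • y₀ = (x + s • (w - x)) - s • v := by
    rw [smul_smul, hwx, smul_add, add_sub_assoc, add_sub_cancel_right]
    congr 2
  have h1 : ‖x + t • R⁻¹ • y₀‖ ≤ ‖x + s • (w - x)‖ + s * ‖v‖ := by
    rw [e1]
    refine (norm_sub_le _ _).trans ?_
    rw [norm_smul, Real.norm_eq_abs, abs_of_pos hspos]
  rcases le_total s 1 with hs1 | hs1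
  · have e2 : x + s • (w - x) = (1 - s) • x + s • w := by
      rw [smul_sub, sub_smul, one_smul]
      abel
    have h2 : ‖x + s • (w - x)‖ ≤ 1 := by
      rw [e2]
      refine (norm_add_le _ _).trans ?_
      rw [norm_smul, norm_smul, Real.norm_eq_abs, Real.norm_eq_abs, abs_of_nonneg (by linarith),
        abs_of_pos hspos, hx]
      nlinarith
    have h3 : s * ‖v‖ ≤ ε₁ := by
      have := norm_nonneg v
      nlinarith
    have h4 : 1 ≤ max 1 (t - 1) := le_max_left _ _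
    nlinarith
  · have e2 : x + s • (w - x) = w + (s - 1) • (w - x) := by
      rw [sub_smul, one_smul]
      abel
    have h2 : ‖x + s • (w - x)‖ ≤ 1 + (s - 1) * ‖w - x‖ := by
      rw [e2]
      refine (norm_add_le _ _).trans ?_
      rw [norm_smul, Real.norm_eq_abs, abs_of_nonneg (by linarith)]
      linarith
    have h3 : s ≤ t := by
      rw [hs]
      exact div_le_self ht.le (by linarith)
    have h4 : t - 1 ≤ max 1 (t - 1) := le_max_right _ _
    have h5 : (s - 1) * ‖w - x‖ ≤ (s - 1) * (R + ε₁) :=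
      mul_le_mul_of_nonneg_left (by linarith) (by linarith)
    have h6 : s * ‖v‖ ≤ s * ε₁ := mul_le_mul_of_nonneg_left hv.le hspos.le
    have h7 : 2 - 2 * ε₁ ≤ R := by linarith
    have h8 : s * ε₁ ≤ t * ε₁ := mul_le_mul_of_nonneg_right h3 hε₁pos.le
    nlinarith

/-- The midpoint upper estimate. -/
theorem midpoint_le (hD : HasDaugavetProperty X) {e : X} (he : ‖e‖ = 1) {x : X} (hx : ‖x‖ = 1)
    {F : Submodule ℝ X} (hF : Cof F) {t : ℝ} (ht : 0 < t) {η : ℝ} (hη : 0 < η) :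
    ∃ y ∈ F, ‖y‖ = 1 ∧ (‖x + t • y‖ + ‖x - t • y‖) / 2 - 1 ≤ max (t / 2) (t - 1) + η := by
  obtain ⟨y, hy, hy1, h⟩ := one_sided_le hD he hx hF ht hη
  refine ⟨y, hy, hy1, ?_⟩
  have h1 : ‖x - t • y‖ ≤ 1 + t := by
    refine (norm_sub_le _ _).trans (le_of_eq ?_)
    rw [norm_smul, hy1, hx, Real.norm_eq_abs, abs_of_pos ht, mul_one]
  have h2 : t / 2 ≤ max (t / 2) (t - 1) := le_max_left _ _
  have h3 : t - 1 ≤ max (t / 2) (t - 1) := le_max_right _ _
  rcases le_total 1 (t - 1) with h4 | h4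
  · rw [max_eq_right h4] at h
    linarith
  · rw [max_eq_left h4] at h
    linarith

/-- The one-sided lower estimate. -/
theorem one_sided_ge {x : X} (hx : ‖x‖ = 1) {t : ℝ} (ht : 0 < t) :
    ∃ F : Submodule ℝ X, Cof F ∧ ∀ y ∈ F, ‖y‖ = 1 → max 0 (t - 2) ≤ ‖x + t • y‖ - 1 := by
  have hx0 : x ≠ 0 := by
    intro h
    rw [h, norm_zero] at hx
    exact zero_ne_one hx
  obtain ⟨g, hg, hgx⟩ := exists_dual_vector ℝ x (norm_ne_zero_iff.mpr hx0)
  refine ⟨LinearMap.ker (g : X →ₗ[ℝ] ℝ), cof_ker g, fun y hy hy1 => ?_⟩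
  have hy0 : g y = 0 := hy
  refine max_le ?_ ?_
  · have h1 : g (x + t • y) ≤ ‖x + t • y‖ := by
      refine (le_abs_self _).trans ?_
      have := g.le_opNorm (x + t • y)
      rw [hg, one_mul] at this
      exact this
    rw [map_add, map_smul, hy0, smul_zero, add_zero, hgx, hx] at h1
    simpa using h1
  · have h1 : ‖t • y‖ ≤ ‖x + t • y‖ + ‖x‖ := by
      have e : t • y = (x + t • y) - x := by abel
      nth_rewrite 1 [e]
      exact norm_sub_le _ _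
    rw [norm_smul, hy1, hx, Real.norm_eq_abs, abs_of_pos ht, mul_one] at h1
    linarith

/-- No asymptotically uniformly convex renorming. -/
theorem not_aucg (hD : HasDaugavetProperty X) {e : X} (he : ‖e‖ = 1) (N : X → ℝ) (hN : EquivN N) :
    ¬ AUCg N := by
  refine not_aucg_of_game hN (fun _ => {z : X | ‖z‖ ≤ 1}) (C := 1) (δ := 1 / 2) (by norm_num)
    (fun _ z hz => hz) (fun _ => ⟨0, by simp⟩) ?_
  intro _ z hz F hF ε hε
  have hz' : ‖z‖ ≤ 1 := hz
  obtain ⟨w, hw, ⟨y, hy, hy2⟩, hfar⟩ := far_point_F hD he hF hz' (ε := min ε (1 / 4))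
    (lt_min hε (by norm_num))
  refine ⟨w, hw, y, hy, hy2.trans_le (min_le_left _ _), ?_⟩
  have h1 : ‖w - z - y‖ < 1 / 4 := hy2.trans_le (min_le_right _ _)
  have h2 : min ε (1 / 4) ≤ 1 / 4 := min_le_right _ _
  have h3 : ‖w - z‖ ≤ ‖y‖ + ‖w - z - y‖ := by
    have e : w - z = y + (w - z - y) := by abel
    nth_rewrite 1 [e]
    exact norm_add_le _ _
  have h4 := norm_nonneg z
  linarith

end Crest.Agent.H4Daug
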