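import Crest.Prelude.Def_AsymptoticConvexity
import Crest.Agent.H4Auc

/-! `ℓ²`-sums: the two-centre inequality, separability, reflexivity. -/

set_option autoImplicit false

open Filter Topology
open scoped ENNReal

namespace Crest.Agent.H4Sum

open Crest.Agent.H4Auc

section CofLemmas

variable {X : Type} [NormedAddCommGroup X] [NormedSpace ℝ X]

lemma cof_of_ker {V : Type*} [AddCommGroup V] [Module ℝ V] [FiniteDimensional ℝ V]
    (f : X →ₗ[ℝ] V) {F : Submodule ℝ X} (hF : F = LinearMap.ker f) (hc : IsClosed (F : Set X)) :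
    Cof F := by
  refine ⟨hc, ?_⟩
  subst hF
  exact Module.Finite.equiv f.quotKerEquivRange.symm

lemma Cof.inf' {F G : Submodule ℝ X} (hF : Cof F) (hG : Cof G) : Cof (F ⊓ G) := by
  have := hF.2
  have := hG.2
  refine cof_of_ker ((Submodule.mkQ F).prod (Submodule.mkQ G)) ?_ ?_
  · rw [LinearMap.ker_prod, Submodule.ker_mkQ, Submodule.ker_mkQ]
  · rw [Submodule.coe_inf]
    exact hF.1.inter hG.1

lemma Cof.comap' {Y : Type} [NormedAddCommGroup Y] [NormedSpace ℝ Y] (π : X →L[ℝ] Y)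
    {F : Submodule ℝ Y} (hF : Cof F) : Cof (F.comap (π : X →ₗ[ℝ] Y)) := by
  have := hF.2
  refine cof_of_ker ((Submodule.mkQ F).comp (π : X →ₗ[ℝ] Y)) ?_ ?_
  · ext x
    simp
  · exact hF.1.preimage π.continuous

lemma cof_finset_inf {ι : Type*} (Q : Finset ι) (F : ι → Submodule ℝ X) (h : ∀ i ∈ Q, Cof (F i)) :
    Cof (Q.inf F) := by
  classical
  induction Q using Finset.induction_on with
  | empty => exact cof_top
  | insert i Q hi ih =>
    rw [Finset.inf_insert]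
    exact Cof.inf' (h i (Finset.mem_insert_self _ _))
      (ih fun j hj => h j (Finset.mem_insert_of_mem hj))

/-- The two-centre inequality. -/
def TCp (X : Type) [NormedAddCommGroup X] [NormedSpace ℝ X] : Prop :=
  ∀ (x₁ x₂ : X) (ε : ℝ), 0 < ε → ∃ F : Submodule ℝ X, Cof F ∧ ∀ y ∈ F,
    2 * Real.sqrt (‖(1 / 2 : ℝ) • (x₁ + x₂)‖ ^ 2 + ‖y‖ ^ 2 / 4) - ε ≤ ‖x₁ + y‖ + ‖x₂ - y‖

/-- The midpoint bound from the two-centre inequality. -/
theorem midpoint_of_tc (h : TCp X) (x : X) (hx : ‖x‖ = 1) (t : ℝ) {η : ℝ} (hη : 0 < η) :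
    ∃ F : Submodule ℝ X, Cof F ∧ ∀ y ∈ F, ‖y‖ = 1 →
      Real.sqrt (1 + t ^ 2 / 4) - η ≤ (‖x + t • y‖ + ‖x - t • y‖) / 2 := by
  obtain ⟨F, hF, h⟩ := h x x (2 * η) (by positivity)
  refine ⟨F, hF, fun y hy hy1 => ?_⟩
  have h1 := h (t • y) (F.smul_mem t hy)
  have e : (1 / 2 : ℝ) • (x + x) = x := by
    rw [← two_smul ℝ x, smul_smul]
    norm_num
  rw [e, hx, norm_smul, hy1, Real.norm_eq_abs, mul_one, sq_abs, one_pow] at h1
  linarith

end CofLemmas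

lemma sqrt_sq_add_le (p p' q : ℝ) (hp' : 0 ≤ p') (hq : 0 ≤ q) :
    Real.sqrt (p ^ 2 + q) ≤ Real.sqrt (p' ^ 2 + q) + |p - p'| := by
  have hq' : 0 ≤ p' ^ 2 + q := by positivity
  have h1 : 0 ≤ Real.sqrt (p' ^ 2 + q) := Real.sqrt_nonneg _
  have h2 := Real.mul_self_sqrt hq'
  refine Real.sqrt_le_iff.mpr ⟨by positivity, ?_⟩
  have h3 : p' * |p - p'| ≤ Real.sqrt (p' ^ 2 + q) * |p - p'| :=
    mul_le_mul_of_nonneg_right (Real.le_sqrt_of_sq_le (by linarith)) (abs_nonneg _)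
  have h4 : p' * (p - p') ≤ p' * |p - p'| := mul_le_mul_of_nonneg_left (le_abs_self _) hp'
  have h5 : |p - p'| ^ 2 = (p - p') ^ 2 := sq_abs _
  nlinarith

lemma le_sq_of_le_mul_sqrt {S K : ℝ} (hS : 0 ≤ S) (h : S ≤ K * Real.sqrt S) :
    S ≤ K ^ 2 := by
  by_cases hS1 : S = 0
  · rw [hS1]; positivity
  · have hs : 0 < Real.sqrt S := Real.sqrt_pos.mpr (lt_of_le_of_ne hS (Ne.symm hS1))
    have h4 : Real.sqrt S * Real.sqrt S = S := Real.mul_self_sqrt hS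
    have h3 : Real.sqrt S ≤ K := by
      by_contra hcon
      rw [not_le] at hcon
      nlinarith
    calc S = Real.sqrt S ^ 2 := (Real.sq_sqrt hS).symm
      _ ≤ K ^ 2 := pow_le_pow_left₀ hs.le h3 2

section Sum

variable {X : ℕ → Type} [∀ N, NormedAddCommGroup (X N)] [∀ N, NormedSpace ℝ (X N)]

lemma sum_sq_le (z : lp X 2) (s : Finset ℕ) : ∑ i ∈ s, ‖z i‖ ^ 2 ≤ ‖z‖ ^ 2 := by
  have := lp.sum_rpow_le_norm_rpow (p := 2) (by simp) z s
  simpa using this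

lemma summable_sq (z : lp X 2) : Summable fun i => ‖z i‖ ^ 2 := by
  have := (lp.memℓp z).summable (p := 2) (by simp)
  simpa using this

lemma norm_sq_eq (z : lp X 2) : ‖z‖ ^ 2 = ∑' i, ‖z i‖ ^ 2 := by
  have := lp.norm_rpow_eq_tsum (p := 2) (by simp) z
  simpa using this

lemma norm_le_of_sum {z : lp X 2} {C : ℝ} (hC : 0 ≤ C) (h : ∀ s : Finset ℕ, ∑ i ∈ s, ‖z i‖ ^ 2 ≤ C ^ 2) :
    ‖z‖ ≤ C := by
  refine lp.norm_le_of_forall_sum_le (p := 2) (by simp) hC fun s => ?_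
  simpa using h s

lemma memℓp_of_sum {a : ∀ N, X N} {C : ℝ} (h : ∀ s : Finset ℕ, ∑ i ∈ s, ‖a i‖ ^ 2 ≤ C) :
    Memℓp a 2 := by
  refine memℓp_gen' (C := C) fun s => ?_
  simpa using h s

lemma trunc_apply (z : lp X 2) (Q : Finset ℕ) (N : ℕ) :
    (∑ i ∈ Q, lp.single 2 i (z i) : lp X 2) N = if N ∈ Q then z N else 0 := by
  classical
  simp only [lp.coeFn_sum, lp.coeFn_single, Finset.sum_apply, Finset.sum_pi_single]

/-- The two-centre inequality for finitely supported centres. -/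
lemma tc_sum_fin (h : ∀ N, TCp (X N)) (x₁ x₂ : lp X 2) (Q : Finset ℕ) {ε : ℝ} (hε : 0 < ε) :
    ∃ F : Submodule ℝ (lp X 2), Cof F ∧ ∀ y ∈ F, ∀ x₁' x₂' : lp X 2,
      (∀ N, x₁' N = if N ∈ Q then x₁ N else 0) → (∀ N, x₂' N = if N ∈ Q then x₂ N else 0) →
      2 * Real.sqrt (‖(1 / 2 : ℝ) • (x₁' + x₂')‖ ^ 2 + ‖y‖ ^ 2 / 4) - ε ≤ ‖x₁' + y‖ + ‖x₂' - y‖ := by
  classical
  set η' := ε / (Real.sqrt (Q.card + 1)) with hη'
  have hsq : 0 < Real.sqrt (Q.card + 1) := Real.sqrt_pos.mpr (by positivity)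
  have hη'pos : 0 < η' := div_pos hε hsq
  choose F hF hFt using fun N => h N (x₁ N) (x₂ N) η' hη'pos
  let π : ∀ N, lp X 2 →L[ℝ] X N := fun N => lp.evalCLM ℝ X 2 N
  refine ⟨Q.inf fun N => (F N).comap (π N : lp X 2 →ₗ[ℝ] X N),
    cof_finset_inf _ _ fun N _ => Cof.comap' (π N) (hF N), ?_⟩
  intro y hy x₁' x₂' h₁ h₂
  have hyN : ∀ N ∈ Q, y N ∈ F N := fun N hN => (Submodule.mem_finsetInf.mp hy) N hN
  set xb : lp X 2 := (1 / 2 : ℝ) • (x₁' + x₂') with hxb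
  have hxbN : ∀ N, xb N = (1 / 2 : ℝ) • (x₁' N + x₂' N) := fun N => rfl
  -- the three sequences
  let w : ℕ → ℝ := fun N => Real.sqrt (‖xb N‖ ^ 2 + ‖y N‖ ^ 2 / 4)
  have hw2 : ∀ N, w N ^ 2 = ‖xb N‖ ^ 2 + ‖y N‖ ^ 2 / 4 := fun N =>
    Real.sq_sqrt (by positivity)
  have hwsum : HasSum (fun N => w N ^ 2) (‖xb‖ ^ 2 + ‖y‖ ^ 2 / 4) := by
    have h1 := (summable_sq xb).hasSum
    have h2 := ((summable_sq y).hasSum).div_const 4
    rw [← norm_sq_eq] at h1 h2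
    have h3 := h1.add h2
    refine h3.congr_fun ?_ 
    exact fun N => hw2 N
  have hWmem : Memℓp w 2 := by
    refine memℓp_gen ?_
    have := hwsum.summable
    simpa using this
  let W : lp (fun _ : ℕ => ℝ) 2 := ⟨w, hWmem⟩
  have hWnorm : ‖W‖ ^ 2 = ‖xb‖ ^ 2 + ‖y‖ ^ 2 / 4 := by
    rw [norm_sq_eq, ← hwsum.tsum_eq]
    refine tsum_congr fun N => ?_
    change ‖w N‖ ^ 2 = w N ^ 2
    rw [Real.norm_eq_abs, sq_abs]
  let e : ℕ → ℝ := fun N => if N ∈ Q then η' else 0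
  have hesum : ∀ s : Finset ℕ, ∑ i ∈ s, ‖e i‖ ^ 2 ≤ ε ^ 2 := by
    intro s
    have h1 : ∑ i ∈ s, ‖e i‖ ^ 2 ≤ ∑ i ∈ Q, η' ^ 2 := by
      have h2 : ∀ i ∈ s, ‖e i‖ ^ 2 = if i ∈ Q then η' ^ 2 else 0 := by
        intro i _
        simp only [e]
        split_ifs
        · rw [Real.norm_eq_abs, sq_abs]
        · simp
      rw [Finset.sum_congr rfl h2, Finset.sum_ite_mem]
      exact Finset.sum_le_sum_of_subset_of_nonneg Finset.inter_subset_right
        fun _ _ _ => by positivity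
    refine h1.trans ?_
    rw [Finset.sum_const, nsmul_eq_mul, hη', div_pow, Real.sq_sqrt (by positivity)]
    have : (Q.card : ℝ) * (ε ^ 2 / (Q.card + 1)) = ε ^ 2 * ((Q.card : ℝ) / (Q.card + 1)) := by ring
    rw [this]
    have h3 : (Q.card : ℝ) / (Q.card + 1) ≤ 1 := by
      rw [div_le_one (by positivity)]
      linarith
    have h4 : 0 ≤ ε ^ 2 := by positivity
    nlinarith
  let E' : lp (fun _ : ℕ => ℝ) 2 := ⟨e, memℓp_of_sum hesum⟩
  have hEnorm : ‖E'‖ ≤ ε := norm_le_of_sum hε.le hesum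
  -- the pointwise inequality
  have hpt : ∀ N, 2 * w N ≤ ‖(x₁' + y) N‖ + ‖(x₂' - y) N‖ + e N := by
    intro N
    have e1 : (x₁' + y) N = x₁' N + y N := rfl
    have e2 : (x₂' - y) N = x₂' N - y N := rfl
    rw [e1, e2]
    by_cases hN : N ∈ Q
    · have h3 := hFt N (y N) (hyN N hN)
      have h4 : xb N = (1 / 2 : ℝ) • (x₁ N + x₂ N) := by
        rw [hxbN, h₁, h₂, if_pos hN, if_pos hN]
      rw [h₁, h₂, if_pos hN, if_pos hN]
      simp only [w, e, if_pos hN]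
      rw [h4]
      linarith
    · rw [h₁, h₂, if_neg hN, if_neg hN]
      have h4 : xb N = 0 := by
        rw [hxbN, h₁, h₂, if_neg hN, if_neg hN]
        simp
      simp only [w, e, if_neg hN, h4]
      simp only [norm_zero, zero_add, ne_eq, OfNat.ofNat_ne_zero, not_false_eq_true, zero_pow,
        zero_sub, norm_neg, add_zero]
      have h5 : Real.sqrt (‖y N‖ ^ 2 / 4) = ‖y N‖ / 2 := by
        rw [show ‖y N‖ ^ 2 / 4 = (‖y N‖ / 2) ^ 2 by ring]
        exact Real.sqrt_sq (by positivity)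
      rw [h5]
      have := norm_nonneg (y N)
      linarith
  -- assemble
  have hmono : ‖(2 : ℝ) • W‖ ≤
      ‖lp.toNorm (x₁' + y) + lp.toNorm (x₂' - y) + E'‖ := by
    refine lp.norm_mono (by simp) fun N => ?_
    have e1 : ((2 : ℝ) • W) N = 2 * w N := rfl
    have e2 : (lp.toNorm (x₁' + y) + lp.toNorm (x₂' - y) + E') N =
        ‖(x₁' + y) N‖ + ‖(x₂' - y) N‖ + e N := rfl
    rw [e1, e2, Real.norm_eq_abs, Real.norm_eq_abs]
    have hw0 : 0 ≤ w N := Real.sqrt_nonneg _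
    rw [abs_of_nonneg (by positivity)]
    exact (hpt N).trans (le_abs_self _)
  have htri := norm_add₃_le (a := lp.toNorm (x₁' + y)) (b := lp.toNorm (x₂' - y)) (c := E')
  rw [lp.norm_toNorm, lp.norm_toNorm] at htri
  have h2W : ‖(2 : ℝ) • W‖ = 2 * ‖W‖ := by
    rw [norm_smul]
    norm_num
  have hWeq : ‖W‖ = Real.sqrt (‖xb‖ ^ 2 + ‖y‖ ^ 2 / 4) := by
    rw [← hWnorm, Real.sqrt_sq (norm_nonneg _)]
  rw [h2W, hWeq] at hmono
  linarith

/-- The two-centre inequality for `ℓ²`-sums. -/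
theorem tc_sum (h : ∀ N, TCp (X N)) : TCp (lp X 2) := by
  intro x₁ x₂ ε hε
  set η := ε / 8 with hη
  have hηpos : 0 < η := by positivity
  have hs1 := Metric.tendsto_nhds.mp (lp.hasSum_single (p := 2) (by simp) x₁) η hηpos
  have hs2 := Metric.tendsto_nhds.mp (lp.hasSum_single (p := 2) (by simp) x₂) η hηpos
  obtain ⟨Q, hQ1, hQ2⟩ := (hs1.and hs2).exists
  set x₁' : lp X 2 := ∑ i ∈ Q, lp.single 2 i (x₁ i) with hx₁'
  set x₂' : lp X 2 := ∑ i ∈ Q, lp.single 2 i (x₂ i) with hx₂'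
  rw [dist_eq_norm] at hQ1 hQ2
  obtain ⟨F, hF, hFt⟩ := tc_sum_fin h x₁ x₂ Q hηpos
  refine ⟨F, hF, fun y hy => ?_⟩
  have h0 := hFt y hy x₁' x₂' (fun N => trunc_apply x₁ Q N) (fun N => trunc_apply x₂ Q N)
  have n1 : ‖x₁' + y‖ ≤ ‖x₁ + y‖ + η := by
    have e : x₁' + y = (x₁ + y) + (x₁' - x₁) := by abel
    rw [e]
    have := norm_add_le (x₁ + y) (x₁' - x₁)
    linarith
  have n2 : ‖x₂' - y‖ ≤ ‖x₂ - y‖ + η := by
    have e : x₂' - y = (x₂ - y) + (x₂' - x₂) := by abel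
    rw [e]
    have := norm_add_le (x₂ - y) (x₂' - x₂)
    linarith
  have n3 : |‖(1 / 2 : ℝ) • (x₁ + x₂)‖ - ‖(1 / 2 : ℝ) • (x₁' + x₂')‖| ≤ η := by
    refine (abs_norm_sub_norm_le _ _).trans ?_
    have e : (1 / 2 : ℝ) • (x₁ + x₂) - (1 / 2 : ℝ) • (x₁' + x₂') =
        (1 / 2 : ℝ) • (-(x₁' - x₁) + -(x₂' - x₂)) := by
      rw [← smul_sub]
      congr 1
      abel
    rw [e, norm_smul]
    have h3 := norm_add_le (-(x₁' - x₁)) (-(x₂' - x₂))
    rw [norm_neg, norm_neg] at h3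
    have h4 : ‖(1 / 2 : ℝ)‖ = 1 / 2 := by norm_num
    rw [h4]
    linarith
  have n4 := sqrt_sq_add_le ‖(1 / 2 : ℝ) • (x₁ + x₂)‖ ‖(1 / 2 : ℝ) • (x₁' + x₂')‖ (‖y‖ ^ 2 / 4)
    (norm_nonneg _) (by positivity)
  have hε8 : ε = 8 * η := by rw [hη]; ring
  rw [hε8]
  linarith

/-- Separability of `ℓ²`-sums. -/
theorem separable_sum (h : ∀ N, TopologicalSpace.SeparableSpace (X N)) :
    TopologicalSpace.SeparableSpace (lp X 2) := by
  have hS : TopologicalSpace.IsSeparable (⋃ N, Set.range (lp.single (E := X) 2 N)) := by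
    refine TopologicalSpace.IsSeparable.iUnion fun N => ?_
    rw [← Set.image_univ]
    exact (TopologicalSpace.isSeparable_univ_iff.mpr (h N)).image (lp.isometry_single N).continuous
  have hC := (hS.span (R := ℝ)).closure
  rw [← TopologicalSpace.isSeparable_univ_iff]
  refine hC.mono fun z _ => ?_
  refine mem_closure_of_tendsto (lp.hasSum_single (p := 2) (by simp) z) (Eventually.of_forall fun s => ?_)
  refine Submodule.sum_mem _ fun i _ => Submodule.subset_span ?_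
  exact Set.mem_iUnion.mpr ⟨i, _, rfl⟩

section Reflexive

open NormedSpace

lemma attains {Y : Type} [NormedAddCommGroup Y] [NormedSpace ℝ Y]
    (hr : Function.Surjective (inclusionInDoubleDual ℝ Y)) (ψ : StrongDual ℝ Y) :
    ∃ z : Y, ‖z‖ ≤ 1 ∧ ψ z = ‖ψ‖ := by
  obtain ⟨G, hG1, hG2⟩ := exists_dual_vector'' ℝ ψ
  obtain ⟨z, hz⟩ := hr G
  refine ⟨z, ?_, ?_⟩
  · have : ‖z‖ = ‖inclusionInDoubleDual ℝ Y z‖ := ((inclusionInDoubleDualLi ℝ).norm_map z).symm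
    rw [this, hz]
    exact hG1
  · have h1 : inclusionInDoubleDual ℝ Y z ψ = G ψ := by rw [hz]
    rw [dual_def] at h1
    rw [h1, hG2]
    rfl

/-- Projections. -/
noncomputable def prj (X : ℕ → Type) [∀ N, NormedAddCommGroup (X N)] [∀ N, NormedSpace ℝ (X N)]
    (N : ℕ) : lp X 2 →L[ℝ] X N := lp.evalCLM ℝ X 2 N

/-- Injections. -/
noncomputable def inj (X : ℕ → Type) [∀ N, NormedAddCommGroup (X N)] [∀ N, NormedSpace ℝ (X N)]
    (N : ℕ) : X N →L[ℝ] lp X 2 := lp.singleContinuousLinearMap ℝ X 2 N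

@[simp] lemma prj_apply (N : ℕ) (z : lp X 2) : prj X N z = z N := rfl
@[simp] lemma inj_apply (N : ℕ) (v : X N) : inj X N v = lp.single 2 N v := rfl

/-- A finitely supported functional. -/
noncomputable def funB (ψ : ∀ N, StrongDual ℝ (X N)) (B : Finset ℕ) : StrongDual ℝ (lp X 2) :=
  ∑ N ∈ B, (ψ N).comp (prj X N)

lemma funB_apply (ψ : ∀ N, StrongDual ℝ (X N)) (B : Finset ℕ) (z : lp X 2) :
    funB ψ B z = ∑ N ∈ B, ψ N (z N) := by
  simp [funB, sum_apply]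

lemma sum_eval_le (B : Finset ℕ) (a : ℕ → ℝ) (ψ : ∀ N, StrongDual ℝ (X N))
    (hψ : ∀ N ∈ B, ‖ψ N‖ ≤ a N) (z : lp X 2) :
    |∑ N ∈ B, ψ N (z N)| ≤ Real.sqrt (∑ N ∈ B, a N ^ 2) * Real.sqrt (∑ N ∈ B, ‖z N‖ ^ 2) := by
  refine (Finset.abs_sum_le_sum_abs _ _).trans ?_
  refine le_trans (Finset.sum_le_sum fun N hN => ?_) (Real.sum_mul_le_sqrt_mul_sqrt B a fun N => ‖z N‖)
  calc |ψ N (z N)| = ‖ψ N (z N)‖ := rfl
    _ ≤ ‖ψ N‖ * ‖z N‖ := (ψ N).le_opNorm _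
    _ ≤ a N * ‖z N‖ := mul_le_mul_of_nonneg_right (hψ N hN) (norm_nonneg _)

lemma sqrt_sum_le_norm (z : lp X 2) (B : Finset ℕ) : Real.sqrt (∑ N ∈ B, ‖z N‖ ^ 2) ≤ ‖z‖ :=
  Real.sqrt_le_iff.mpr ⟨norm_nonneg _, sum_sq_le z B⟩

lemma sum_single_apply (B : Finset ℕ) (b : ∀ N, X N) (i : ℕ) :
    (∑ N ∈ B, lp.single 2 N (b N) : lp X 2) i = if i ∈ B then b i else 0 := by
  classical
  simp only [lp.coeFn_sum, lp.coeFn_single, Finset.sum_apply, Finset.sum_pi_single]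

lemma dual_bound (hr : ∀ N, Function.Surjective (inclusionInDoubleDual ℝ (X N)))
    (φ : StrongDual ℝ (lp X 2)) (B : Finset ℕ) :
    ∑ N ∈ B, ‖φ.comp (inj X N)‖ ^ 2 ≤ ‖φ‖ ^ 2 := by
  classical
  choose z hz1 hz2 using fun N => attains (hr N) (φ.comp (inj X N))
  set a : ℕ → ℝ := fun N => ‖φ.comp (inj X N)‖ with ha
  set S := ∑ N ∈ B, a N ^ 2 with hS
  have hS0 : 0 ≤ S := Finset.sum_nonneg fun _ _ => by positivity
  set v : lp X 2 := ∑ N ∈ B, lp.single 2 N (a N • z N) with hv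
  have h1 : φ v = S := by
    rw [hv, map_sum, hS]
    refine Finset.sum_congr rfl fun N _ => ?_
    rw [lp.single_smul, map_smul, smul_eq_mul, sq]
    congr 1
    exact hz2 N
  have h2 : ‖v‖ ≤ Real.sqrt S := by
    refine norm_le_of_sum (Real.sqrt_nonneg _) fun s => ?_
    rw [Real.sq_sqrt hS0]
    have h3 : ∀ i ∈ s, ‖v i‖ ^ 2 ≤ if i ∈ B then a i ^ 2 else 0 := by
      intro i _
      rw [hv, sum_single_apply]
      split_ifs
      · rw [norm_smul, Real.norm_eq_abs, abs_of_nonneg (norm_nonneg _)]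
        have h4 : a i * ‖z i‖ ≤ a i * 1 := mul_le_mul_of_nonneg_left (hz1 i) (norm_nonneg _)
        rw [mul_one] at h4
        exact pow_le_pow_left₀ (by positivity) h4 2
      · simp
    refine (Finset.sum_le_sum h3).trans ?_
    rw [Finset.sum_ite_mem]
    exact Finset.sum_le_sum_of_subset_of_nonneg Finset.inter_subset_right fun _ _ _ => by positivity
  have h3 : S ≤ ‖φ‖ * Real.sqrt S := by
    rw [← h1]
    refine (le_abs_self _).trans ?_
    refine (φ.le_opNorm v).trans ?_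
    exact mul_le_mul_of_nonneg_left (by rw [h1]; exact h2) (norm_nonneg _)
  exact le_sq_of_le_mul_sqrt hS0 h3

/-- Reflexivity of `ℓ²`-sums. -/
theorem reflexive_sum (hr : ∀ N, Function.Surjective (inclusionInDoubleDual ℝ (X N))) :
    Function.Surjective (inclusionInDoubleDual ℝ (lp X 2)) := by
  classical
  intro Φ
  let Φn : ∀ N, StrongDual ℝ (StrongDual ℝ (X N)) := fun N =>
    Φ.comp ((ContinuousLinearMap.compL ℝ (lp X 2) (X N) ℝ).flip (prj X N))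
  choose x hx using fun N => hr N (Φn N)
  have hx' : ∀ N (g : StrongDual ℝ (X N)), g (x N) = Φ (g.comp (prj X N)) := by
    intro N g
    have h1 : inclusionInDoubleDual ℝ (X N) (x N) g = Φn N g := by rw [hx]
    rw [dual_def] at h1
    exact h1
  have hPhiB : ∀ (ψ : ∀ N, StrongDual ℝ (X N)) (B : Finset ℕ),
      Φ (funB ψ B) = ∑ N ∈ B, ψ N (x N) := by
    intro ψ B
    rw [funB, map_sum]
    exact Finset.sum_congr rfl fun N _ => (hx' N (ψ N)).symm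
  -- the bound on the candidate
  have hbound : ∀ B : Finset ℕ, ∑ N ∈ B, ‖x N‖ ^ 2 ≤ ‖Φ‖ ^ 2 := by
    intro B
    choose g hg1 hg2 using fun N => exists_dual_vector'' ℝ (x N)
    set S := ∑ N ∈ B, ‖x N‖ ^ 2 with hS
    have hS0 : 0 ≤ S := Finset.sum_nonneg fun _ _ => by positivity
    let ψ : ∀ N, StrongDual ℝ (X N) := fun N => ‖x N‖ • g N
    have h1 : Φ (funB ψ B) = S := by
      rw [hPhiB, hS]
      refine Finset.sum_congr rfl fun N _ => ?_
      simp only [ψ, smul_apply, smul_eq_mul]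
      rw [sq]
      congr 1
      exact hg2 N
    have h2 : ‖funB ψ B‖ ≤ Real.sqrt S := by
      refine ContinuousLinearMap.opNorm_le_bound _ (Real.sqrt_nonneg _) fun z => ?_
      rw [funB_apply, Real.norm_eq_abs]
      refine (sum_eval_le B (fun N => ‖x N‖) ψ (fun N _ => ?_) z).trans ?_
      · simp only [ψ]
        rw [norm_smul, Real.norm_eq_abs, abs_of_nonneg (norm_nonneg _)]
        have := mul_le_mul_of_nonneg_left (hg1 N) (norm_nonneg (x N))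
        rwa [mul_one] at this
      · exact mul_le_mul_of_nonneg_left (sqrt_sum_le_norm z B) (Real.sqrt_nonneg _)
    have h3 : S ≤ ‖Φ‖ * Real.sqrt S := by
      rw [← h1]
      refine (le_abs_self _).trans ?_
      refine (Φ.le_opNorm _).trans ?_
      rw [h1]
      exact mul_le_mul_of_nonneg_left h2 (norm_nonneg _)
    exact le_sq_of_le_mul_sqrt hS0 h3
  let z₀ : lp X 2 := ⟨x, memℓp_of_sum hbound⟩
  refine ⟨z₀, ?_⟩
  ext φ
  rw [dual_def]
  -- approximate the functional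
  set ψ : ∀ N, StrongDual ℝ (X N) := fun N => φ.comp (inj X N) with hψ
  have hsum : Summable fun N => ‖ψ N‖ ^ 2 :=
    summable_of_sum_le (c := ‖φ‖ ^ 2) (fun N => by positivity) (dual_bound hr φ)
  refine eq_of_forall_dist_le ?_
  intro κ hκ
  set δ := κ / (‖Φ‖ + ‖z₀‖ + 1) with hδ
  have hδpos : 0 < δ := by positivity
  obtain ⟨B₀, hB₀⟩ := summable_iff_vanishing.mp hsum (Set.Iio (δ ^ 2))
    (Iio_mem_nhds (by positivity))
  have happrox : ‖φ - funB ψ B₀‖ ≤ δ := by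
    refine ContinuousLinearMap.opNorm_le_bound _ hδpos.le fun z => ?_
    rw [sub_apply, funB_apply, Real.norm_eq_abs]
    have hz := φ.hasSum (lp.hasSum_single (p := 2) (by simp) z)
    have hz2 : Tendsto (fun s : Finset ℕ => |∑ N ∈ s, ψ N (z N) - ∑ N ∈ B₀, ψ N (z N)|) atTop
        (𝓝 |φ z - ∑ N ∈ B₀, ψ N (z N)|) := (Tendsto.sub_const hz _).abs
    refine le_of_tendsto hz2 ?_
    filter_upwards [eventually_ge_atTop B₀] with s hs
    rw [← Finset.sum_sdiff hs, add_sub_cancel_right]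
    refine (sum_eval_le (s \ B₀) (fun N => ‖ψ N‖) ψ (fun _ _ => le_rfl) z).trans ?_
    refine mul_le_mul ?_ (sqrt_sum_le_norm z _) (Real.sqrt_nonneg _) hδpos.le
    have h3 : ∑ N ∈ s \ B₀, ‖ψ N‖ ^ 2 < δ ^ 2 := hB₀ _ Finset.sdiff_disjoint
    exact Real.sqrt_le_iff.mpr ⟨hδpos.le, h3.le⟩
  have hkey : Φ (funB ψ B₀) = funB ψ B₀ z₀ := by
    rw [hPhiB, funB_apply]
  have e : φ z₀ - Φ φ = (φ - funB ψ B₀) z₀ - Φ (φ - funB ψ B₀) := by
    rw [sub_apply, map_sub, hkey]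
    ring
  rw [Real.dist_eq, e]
  have h4 : |(φ - funB ψ B₀) z₀| ≤ δ * ‖z₀‖ :=
    ((φ - funB ψ B₀).le_opNorm z₀).trans (mul_le_mul_of_nonneg_right happrox (norm_nonneg _))
  have h5 : |Φ (φ - funB ψ B₀)| ≤ ‖Φ‖ * δ :=
    (Φ.le_opNorm _).trans (mul_le_mul_of_nonneg_left happrox (norm_nonneg _))
  have h6 : δ * (‖Φ‖ + ‖z₀‖ + 1) = κ := by
    rw [hδ]
    field_simp
  refine (abs_sub _ _).trans ?_
  nlinarith

/-- Reflexivity transfers along linear equivalences. -/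
lemma reflexive_of_equiv {H Y : Type} [NormedAddCommGroup H] [NormedSpace ℝ H]
    [NormedAddCommGroup Y] [NormedSpace ℝ Y] (L : H ≃L[ℝ] Y)
    (hH : Function.Surjective (inclusionInDoubleDual ℝ H)) :
    Function.Surjective (inclusionInDoubleDual ℝ Y) := by
  intro Φ
  let Θ : StrongDual ℝ (StrongDual ℝ H) :=
    Φ.comp ((ContinuousLinearMap.compL ℝ Y H ℝ).flip (L.symm : Y →L[ℝ] H))
  obtain ⟨a, ha⟩ := hH Θ
  refine ⟨L a, ?_⟩
  ext g
  rw [dual_def]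
  have h1 : inclusionInDoubleDual ℝ H a (g.comp (L : H →L[ℝ] Y)) = Θ (g.comp (L : H →L[ℝ] Y)) := by
    rw [ha]
  rw [dual_def] at h1
  have h2 : ((ContinuousLinearMap.compL ℝ Y H ℝ).flip (L.symm : Y →L[ℝ] H))
      (g.comp (L : H →L[ℝ] Y)) = g := by
    ext v
    simp
  simp only [Θ, ContinuousLinearMap.comp_apply, h2] at h1
  exact h1

/-- Hilbert spaces are reflexive. -/
lemma reflexive_hilbert (H : Type) [NormedAddCommGroup H] [InnerProductSpace ℝ H] [CompleteSpace H] :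
    Function.Surjective (inclusionInDoubleDual ℝ H) := by
  intro Φ
  let g : StrongDual ℝ H := Φ.comp
    ((InnerProductSpace.toDual ℝ H : H ≃ₗᵢ⋆[ℝ] StrongDual ℝ H).toContinuousLinearEquiv.toContinuousLinearMap)
  refine ⟨(InnerProductSpace.toDual ℝ H).symm g, ?_⟩
  ext φ
  rw [dual_def]
  have h1 : g ((InnerProductSpace.toDual ℝ H).symm φ) = Φ φ := by
    simp [g]
  rw [← h1, ← InnerProductSpace.toDual_symm_apply (𝕜 := ℝ) (E := H), real_inner_comm,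
    InnerProductSpace.toDual_symm_apply]

end Reflexive

end Sum

end Crest.Agent.H4Sum
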