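import Crest.Agent.H4Tree
import Crest.Agent.H4Sum

/-! The depth-truncated global tree models and their `ℓ²`-sum. -/

set_option autoImplicit false

open Filter Topology
open Crest.AnalysisR Crest.AnalysisR.TreePotential
open scoped ENNReal

namespace Crest.Agent.H4Depth

open Crest.Agent.H4Auc Crest.Agent.H4Tree Crest.Agent.H4Sum

/-- The global condition truncated at depth `N`. -/
def AdmD (N : ℕ) (f : List ℕ → ℝ) : Prop :=
  (∀ A : Finset (List ℕ), ∑ u ∈ A, f u ^ 2 ≤ 1) ∧ ∀ s : List ℕ, N < s.length → f s = 0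

lemma adm_dl {N : ℕ} {s : List ℕ} (h : s.length ≤ N) : AdmD N (dl s) :=
  ⟨fun A => dl_sum_le s A id Function.injective_id, fun u hu => by
    have : u ≠ s := by
      rintro rfl
      omega
    simp [dl, this]⟩

theorem admOK_depth (N : ℕ) : AdmOK (AdmD N) where
  zero := ⟨fun A => zero_sum_le A id, fun _ _ => rfl⟩
  neg := fun f hf => ⟨fun A => neg_sum_le A id (hf.1 A), fun s hs => by simp [hf.2 s hs]⟩
  comb := fun f g h a b A _ hf hg ha hb hab h1 h2 =>
    ⟨fun B => comb_sum ha hb hab h1 h2 B id (hf.1 B) (hg.1 B), fun s hs => by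
      by_cases hsA : s ∈ A
      · rw [h1 s hsA, hf.2 s hs, mul_zero]
      · have := h2 s hsA
        rw [hg.2 s hs, abs_zero, mul_zero] at this
        exact abs_nonpos_iff.mp this⟩
  delta := fun s => by
    by_cases h : s.length ≤ N
    · exact Or.inl (adm_dl h)
    · exact Or.inr fun f hf => hf.2 s (not_le.mp h)
  sib := fun f hf r B => by
    rw [← sum_image_cons]
    exact hf.1 _

instance sp_complete (Adm : (List ℕ → ℝ) → Prop) : CompleteSpace (Sp Adm) :=
  (Submodule.isClosed_topologicalClosure _).completeSpace_coe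

/-- Vertices of depth at most `N`. -/
abbrev Vx (N : ℕ) : Type := {s : List ℕ // s.length ≤ N}

/-- The Hilbert space of a depth. -/
abbrev Hx (N : ℕ) : Type := lp (fun _ : Vx N => ℝ) 2

variable {N : ℕ}

lemma sum_tr_le (f : Tst (AdmD N)) (B : Finset (Vx N)) : ∑ i ∈ B, (f.1 i.1) ^ 2 ≤ 1 := by
  have e : ∑ i ∈ B, (f.1 i.1) ^ 2 = ∑ u ∈ B.map (Function.Embedding.subtype _), f.1 u ^ 2 := by
    rw [Finset.sum_map]
    rfl
  rw [e]
  exact f.2.2.1 _

/-- The restriction of a test to the vertices of depth at most `N`. -/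
noncomputable def tr (f : Tst (AdmD N)) : Hx N :=
  ⟨fun s => f.1 s.1, memℓp_gen' (C := 1) fun B => by
    simpa using sum_tr_le f B⟩

lemma norm_tr_le (f : Tst (AdmD N)) : ‖tr f‖ ≤ 1 := by
  refine lp.norm_le_of_forall_sum_le (p := 2) (by simp) zero_le_one fun B => ?_
  have := sum_tr_le f B
  simpa [tr] using this

/-- The isomorphism with the Hilbert space. -/
noncomputable def psiMap (N : ℕ) : Hx N →L[ℝ] Amb (AdmD N) :=
  LinearMap.mkContinuous
    { toFun := fun a => ⟨fun f => inner ℝ (tr f) a, memℓp_infty ⟨‖a‖, by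
        rintro _ ⟨f, rfl⟩
        refine (norm_inner_le_norm (𝕜 := ℝ) _ _).trans ?_
        have := mul_le_mul_of_nonneg_right (norm_tr_le f) (norm_nonneg a)
        rwa [one_mul] at this⟩⟩
      map_add' := fun a b => by
        ext f
        exact inner_add_right _ _ _
      map_smul' := fun c a => by
        ext f
        exact real_inner_smul_right _ _ _ } 1
    (fun a => by
      rw [one_mul]
      refine lp.norm_le_of_forall_le (norm_nonneg a) fun f => ?_
      refine (norm_inner_le_norm (𝕜 := ℝ) _ _).trans ?_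
      have := mul_le_mul_of_nonneg_right (norm_tr_le f) (norm_nonneg a)
      rwa [one_mul] at this)

lemma psiMap_apply (a : Hx N) (f : Tst (AdmD N)) : psiMap N a f = inner ℝ (tr f) a := rfl

lemma psi_single (s : Vx N) (c : ℝ) :
    psiMap N (lp.single 2 s c) = c • co (AdmD N) s.1 := by
  classical
  ext f
  change inner ℝ (tr f) (lp.single 2 s c) = c * f.1 s.1
  rw [lp.inner_single_right]
  change inner ℝ (f.1 s.1) c = _
  simp [mul_comm]

lemma psi_mem (a : Hx N) : psiMap N a ∈ Sp (AdmD N) := by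
  have hs := (psiMap N).hasSum (lp.hasSum_single (p := 2) (by simp) a)
  refine mem_closure_of_tendsto hs (Eventually.of_forall fun s => ?_)
  refine Submodule.sum_mem _ fun i _ => ?_
  change psiMap N (lp.single 2 i (a i)) ∈ Submodule.span ℝ (Set.range (co (AdmD N)))
  rw [psi_single]
  exact Submodule.smul_mem _ _ (Submodule.subset_span ⟨_, rfl⟩)

/-- Vertices on a root path. -/
def pth : List ℕ → Finset (List ℕ)
  | [] => {[]}
  | a :: v => insert (a :: v) (pth v)

lemma mem_pth {s u : List ℕ} : u ∈ pth s ↔ u <:+ s := by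
  induction s with
  | nil => simp [pth]
  | cons a v ih =>
    simp only [pth, Finset.mem_insert, ih, List.suffix_cons_iff]

lemma pot_eq (g : List ℕ → ℝ) (s : List ℕ) : pathPotential g s = ∑ u ∈ pth s, g u := by
  induction s with
  | nil => simp [pth, pathPotential]
  | cons a v ih =>
    have h : a :: v ∉ pth v := by
      rw [mem_pth]
      intro h1
      have := h1.length_le
      simp at this
    simp only [pathPotential, pth]
    rw [Finset.sum_insert h, ih]
    ring

lemma pot_sq_le {g : List ℕ → ℝ} {C : ℝ} (hS : ∀ A : Finset (List ℕ), ∑ u ∈ A, g u ^ 2 ≤ C)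
    (h0 : ∀ s : List ℕ, N < s.length → g s = 0) (s : List ℕ) :
    (pathPotential g s) ^ 2 ≤ (N + 1) * C := by
  classical
  set T := (pth s).filter (fun u => u.length ≤ N) with hT
  have h1 : pathPotential g s = ∑ u ∈ T, g u := by
    rw [pot_eq, hT, Finset.sum_filter_of_ne]
    intro u _ hu
    by_contra hcon
    exact hu (h0 u (not_le.mp hcon))
  have hcard : (T.card : ℝ) ≤ N + 1 := by
    have h2 : T.card ≤ (Finset.range (N + 1)).card := by
      refine Finset.card_le_card_of_injOn (fun u => u.length) ?_ ?_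
      · intro u hu
        have := (Finset.mem_filter.mp hu).2
        simp only [Finset.coe_range, Set.mem_Iio]
        omega
      · intro u hu u' hu' huu'
        have h3 := mem_pth.mp (Finset.mem_filter.mp hu).1
        have h4 := mem_pth.mp (Finset.mem_filter.mp hu').1
        have h5 : u.length = u'.length := huu'
        exact (List.suffix_of_suffix_length_le h3 h4 h5.le).eq_of_length h5
    rw [Finset.card_range] at h2
    exact_mod_cast h2
  rw [h1]
  refine (sq_sum_le_card_mul_sum_sq).trans ?_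
  have h6 : 0 ≤ ∑ u ∈ T, g u ^ 2 := Finset.sum_nonneg fun _ _ => by positivity
  have h7 := hS T
  have h8 : (0 : ℝ) ≤ N + 1 := by positivity
  nlinarith

/-- The lower estimate of the isomorphism. -/
theorem psi_lower (a : Hx N) : ‖a‖ ≤ Real.sqrt (N + 1) * ‖psiMap N a‖ := by
  classical
  by_cases ha : a = 0
  · simp [ha]
  set r := ‖a‖ with hr
  have hrpos : 0 < r := norm_pos_iff.mpr ha
  set c := Real.sqrt (N + 1) with hc
  have hcpos : 0 < c := Real.sqrt_pos.mpr (by positivity)
  have hc2 : c ^ 2 = N + 1 := Real.sq_sqrt (by positivity)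
  set κ := (c * r)⁻¹ with hκ
  have hκpos : 0 < κ := by positivity
  let f : List ℕ → ℝ := fun u => if h : u.length ≤ N then κ * a ⟨u, h⟩ else 0
  have hf1 : ∀ s : Vx N, f s.1 = κ * a s := fun s => by
    simp only [f, dif_pos s.2]
  have hf0 : ∀ s : List ℕ, N < s.length → f s = 0 := fun s hs => by
    simp only [f, dif_neg (not_le.mpr hs)]
  have hS : ∀ A : Finset (List ℕ), ∑ u ∈ A, f u ^ 2 ≤ 1 / (N + 1) := by
    intro A
    have e1 : ∑ u ∈ A, f u ^ 2 = ∑ u ∈ A.filter (fun u => u.length ≤ N), f u ^ 2 := by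
      rw [Finset.sum_filter_of_ne]
      intro u _ hu
      by_contra hcon
      exact hu (by rw [hf0 u (not_le.mp hcon)]; simp)
    rw [e1, ← Finset.sum_subtype_eq_sum_filter]
    have e2 : ∑ x ∈ A.subtype (fun u => u.length ≤ N), f x.1 ^ 2 =
        κ ^ 2 * ∑ x ∈ A.subtype (fun u => u.length ≤ N), ‖a x‖ ^ 2 := by
      rw [Finset.mul_sum]
      refine Finset.sum_congr rfl fun x _ => ?_
      rw [hf1, mul_pow, Real.norm_eq_abs, sq_abs]
    rw [e2]
    have e3 : ∑ x ∈ A.subtype (fun u => u.length ≤ N), ‖a x‖ ^ 2 ≤ r ^ 2 := by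
      have := lp.sum_rpow_le_norm_rpow (p := 2) (by simp) a (A.subtype fun u => u.length ≤ N)
      simpa using this
    have e4 : κ ^ 2 * r ^ 2 = 1 / (N + 1) := by
      rw [hκ, ← hc2]
      field_simp
    rw [← e4]
    exact mul_le_mul_of_nonneg_left e3 (by positivity)
  have hNpos : (0 : ℝ) < N + 1 := by positivity
  have hone : (1 : ℝ) / (N + 1) ≤ 1 := by
    rw [div_le_one hNpos]
    linarith [(Nat.cast_nonneg N : (0 : ℝ) ≤ N)]
  let T : Tst (AdmD N) := ⟨f, fun s => by
      have h1 := pot_sq_le hS hf0 s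
      have h2 : ((N : ℝ) + 1) * (1 / (N + 1)) = 1 := by field_simp
      rw [h2] at h1
      exact (sq_le_one_iff_abs_le_one _).mp h1,
    fun A => (hS A).trans hone, hf0⟩
  have htr : tr T = κ • a := by
    ext s
    exact hf1 s
  have h1 : psiMap N a T = κ * r ^ 2 := by
    rw [psiMap_apply, htr, real_inner_smul_left, real_inner_self_eq_norm_sq]
  have h2 : κ * r ^ 2 ≤ ‖psiMap N a‖ := by
    rw [← h1]
    exact (le_abs_self _).trans (abs_apply_le T (psiMap N a))
  have h3 : κ * r ^ 2 * c = r := by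
    rw [hκ]
    field_simp
  calc r = κ * r ^ 2 * c := h3.symm
    _ ≤ ‖psiMap N a‖ * c := mul_le_mul_of_nonneg_right h2 hcpos.le
    _ = c * ‖psiMap N a‖ := mul_comm _ _

/-- Each depth model is reflexive. -/
theorem reflexive_depth (N : ℕ) :
    Function.Surjective (NormedSpace.inclusionInDoubleDual ℝ (Sp (AdmD N))) := by
  let Ψ : Hx N →L[ℝ] Sp (AdmD N) := (psiMap N).codRestrict (Sp (AdmD N)) psi_mem
  have hΨ : ∀ a, ((Ψ a : Sp (AdmD N)) : Amb (AdmD N)) = psiMap N a := fun a => rfl
  have hK : ∀ a, ‖a‖ ≤ (Real.toNNReal (Real.sqrt (N + 1)) : ℝ) * ‖Ψ a‖ := by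
    intro a
    rw [Real.coe_toNNReal _ (Real.sqrt_nonneg _)]
    exact psi_lower a
  have hanti : AntilipschitzWith (Real.toNNReal (Real.sqrt (N + 1))) Ψ :=
    AddMonoidHomClass.antilipschitz_of_bound Ψ hK
  have hinj : Ψ.ker = ⊥ := LinearMap.ker_eq_bot.mpr hanti.injective
  have hclosed : IsClosed (Set.range Ψ) := hanti.isClosed_range Ψ.uniformContinuous
  have hrange : Ψ.range = ⊤ := by
    rw [eq_top_iff]
    rintro ⟨z, hz⟩ _
    -- the range in the ambient space is closed and contains the coordinates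
    have hcl2 : IsClosed (Set.range (psiMap N)) := by
      have hanti2 : AntilipschitzWith (Real.toNNReal (Real.sqrt (N + 1))) (psiMap N) :=
        AddMonoidHomClass.antilipschitz_of_bound (psiMap N) (by
          intro a
          rw [Real.coe_toNNReal _ (Real.sqrt_nonneg _)]
          exact psi_lower a)
      exact hanti2.isClosed_range (psiMap N).uniformContinuous
    have hle : Sp (AdmD N) ≤ LinearMap.range (psiMap N : Hx N →ₗ[ℝ] Amb (AdmD N)) := by
      apply Submodule.topologicalClosure_minimal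
      · rw [Submodule.span_le]
        rintro _ ⟨s, rfl⟩
        by_cases hs : s.length ≤ N
        · refine ⟨lp.single 2 ⟨s, hs⟩ 1, ?_⟩
          have := psi_single (⟨s, hs⟩ : Vx N) 1
          rw [one_smul] at this
          exact this
        · refine ⟨0, ?_⟩
          ext f
          change (psiMap N 0) f = f.1 s
          rw [map_zero, f.2.2.2 s (not_le.mp hs)]
          rfl
      · exact hcl2
    obtain ⟨a, ha⟩ := hle hz
    refine ⟨a, ?_⟩
    exact Subtype.ext ha
  let L : Hx N ≃L[ℝ] Sp (AdmD N) := ContinuousLinearEquiv.ofBijective Ψ hinj hrange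
  exact reflexive_of_equiv L (reflexive_hilbert (Hx N))

/-- The space of the statement. -/
abbrev Xs : ℕ → Type := fun N => Sp (AdmD N)

/-- Trees in the sum. -/
noncomputable def Tk (K : ℕ) (v : List ℕ) : lp Xs 2 :=
  lp.single 2 K ⟨tv (AdmD K) v, tv_mem v⟩

/-- Increments in the sum. -/
noncomputable def Yk (K : ℕ) (v : List ℕ) (n : ℕ) : lp Xs 2 :=
  lp.single 2 K ⟨co (AdmD K) (n :: v), co_mem _⟩

lemma Tk_sub (K : ℕ) (v : List ℕ) (n : ℕ) : Tk K (n :: v) - Tk K v = Yk K v n := by
  rw [Tk, Tk, Yk, ← lp.single_sub]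
  congr 1
  apply Subtype.ext
  change tv (AdmD K) v + co (AdmD K) (n :: v) - tv (AdmD K) v = co (AdmD K) (n :: v)
  abel

lemma norm_Tk_le (K : ℕ) (v : List ℕ) : ‖Tk K v‖ ≤ 1 := by
  rw [Tk, lp.norm_single (by simp)]
  exact norm_tv_le v

lemma one_le_norm_Yk {K : ℕ} {v : List ℕ} {n : ℕ} (h : (n :: v).length ≤ K) : 1 ≤ ‖Yk K v n‖ := by
  rw [Yk, lp.norm_single (by simp)]
  exact one_le_norm_co (adm_dl h)

lemma norm_sum_Yk_le (K : ℕ) (v : List ℕ) (B : Finset ℕ) (c : ℕ → ℝ) :
    ‖∑ n ∈ B, c n • Yk K v n‖ ≤ 1 * Real.sqrt (∑ n ∈ B, c n ^ 2) := by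
  rw [one_mul]
  have e : ∑ n ∈ B, c n • Yk K v n =
      inj Xs K (∑ n ∈ B, c n • (⟨co (AdmD K) (n :: v), co_mem _⟩ : Sp (AdmD K))) := by
    rw [map_sum]
    refine Finset.sum_congr rfl fun n _ => ?_
    rw [map_smul]
    rfl
  rw [e, inj_apply, lp.norm_single (by simp)]
  have h2 : ‖∑ n ∈ B, c n • (⟨co (AdmD K) (n :: v), co_mem _⟩ : Sp (AdmD K))‖ =
      ‖((∑ n ∈ B, c n • (⟨co (AdmD K) (n :: v), co_mem _⟩ : Sp (AdmD K)) : Sp (AdmD K)) :
        Amb (AdmD K))‖ := rfl
  rw [h2, Submodule.coe_sum]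
  exact norm_sum_co_le (admOK_depth K) v B c

/-- No equivalent norm on the sum is asymptotically uniformly convex. -/
theorem not_aucg_sum (M : lp Xs 2 → ℝ) (hM : EquivN M) : ¬ AUCg M := by
  refine not_aucg_of_game hM (fun k => {z | ∃ K v, (List.length v) + k ≤ K ∧ z = Tk K v})
    (C := 1) (δ := 1 / 2) (by norm_num) ?_ ?_ ?_
  · rintro k _ ⟨K, v, _, rfl⟩
    exact norm_Tk_le K v
  · intro k
    exact ⟨Tk k [], k, [], by simp, rfl⟩
  · rintro k _ ⟨K, v, hlen, rfl⟩ F hF ε hε
    have hweak : ∀ φ : lp Xs 2 →L[ℝ] ℝ, Tendsto (fun n => φ (Yk K v n)) atTop (𝓝 0) :=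
      fun φ => weakNull_of_l2 (y := fun n => Yk K v n) zero_le_one (norm_sum_Yk_le K v) φ
    have h := exists_near hF hweak (lt_min hε (by norm_num : (0 : ℝ) < 1 / 2))
    obtain ⟨n, z, hz, hz'⟩ := h.exists
    have hlen' : (n :: v).length + k ≤ K := by
      simp only [List.length_cons]
      omega
    refine ⟨Tk K (n :: v), ⟨K, n :: v, hlen', rfl⟩, z, hz, ?_, ?_⟩
    · rw [Tk_sub]
      exact hz'.trans_le (min_le_left _ _)
    · have h1 := one_le_norm_Yk (K := K) (v := v) (n := n) (by omega)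
      have h2 : ‖Yk K v n - z‖ < 1 / 2 := hz'.trans_le (min_le_right _ _)
      have h3 : ‖Yk K v n‖ ≤ ‖z‖ + ‖Yk K v n - z‖ := by
        have e : Yk K v n = z + (Yk K v n - z) := by abel
        nth_rewrite 1 [e]
        exact norm_add_le _ _
      linarith

/-- The two-centre inequality in the sum. -/
theorem tc_Xs : TCp (lp Xs 2) :=
  tc_sum fun N x₁ x₂ _ hε => two_centre' (admOK_depth N) x₁ x₂ hε

theorem separable_Xs : TopologicalSpace.SeparableSpace (lp Xs 2) :=
  separable_sum fun _ => separable_Sp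

theorem reflexive_Xs : Function.Surjective (NormedSpace.inclusionInDoubleDual ℝ (lp Xs 2)) :=
  reflexive_sum reflexive_depth

end Crest.Agent.H4Depth
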