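import Crest.Prelude.Def_Diamond
import Crest.Agent.H4Sum

/-! Distortion of the countably branching diamonds in reflexive spaces with the two-centre
inequality. -/

set_option autoImplicit false

open Filter Topology
open Crest.AnalysisR

namespace Crest.Agent.H4Dia

open Crest.Agent.H4Auc Crest.Agent.H4Sum NormedSpace

/-! ### Graph facts -/

lemma src_ne_tgt (k : ℕ) (e : DiamondEdge k) : diamondSrc k e ≠ diamondTgt k e := by
  cases k with
  | zero => simp [diamondSrc, diamondTgt]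
  | succ k =>
    obtain ⟨e', i, b⟩ := e
    cases b <;> simp [diamondSrc, diamondTgt]

lemma adj_edge (k : ℕ) (e : DiamondEdge k) :
    (diamondGraph k).Adj (diamondSrc k e) (diamondTgt k e) := by
  rw [diamondGraph, SimpleGraph.fromRel_adj]
  exact ⟨src_ne_tgt k e, Or.inl ⟨e, rfl, rfl⟩⟩

/-- Edges of the first half of the two-edge paths. -/
lemma adj_first (k : ℕ) (e : DiamondEdge k) (i : ℕ) :
    (diamondGraph (k + 1)).Adj (Sum.inl (diamondSrc k e)) (Sum.inr (e, i)) :=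
  adj_edge (k + 1) (e, i, false)

/-- Edges of the second half of the two-edge paths. -/
lemma adj_second (k : ℕ) (e : DiamondEdge k) (i : ℕ) :
    (diamondGraph (k + 1)).Adj (Sum.inr (e, i)) (Sum.inl (diamondTgt k e)) :=
  adj_edge (k + 1) (e, i, true)

lemma adj_cases {k : ℕ} {x y : DiamondVertex k} (h : (diamondGraph k).Adj x y) :
    ∃ e : DiamondEdge k, (x = diamondSrc k e ∧ y = diamondTgt k e) ∨
      (y = diamondSrc k e ∧ x = diamondTgt k e) := by
  rw [diamondGraph, SimpleGraph.fromRel_adj] at h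
  rcases h.2 with ⟨e, h1, h2⟩ | ⟨e, h1, h2⟩
  · exact ⟨e, Or.inl ⟨h1.symm, h2.symm⟩⟩
  · exact ⟨e, Or.inr ⟨h1.symm, h2.symm⟩⟩

lemma adj_succ {k : ℕ} {x y : DiamondVertex (k + 1)} (h : (diamondGraph (k + 1)).Adj x y) :
    ∃ (e : DiamondEdge k) (i : ℕ), (x = Sum.inl (diamondSrc k e) ∧ y = Sum.inr (e, i)) ∨
      (x = Sum.inr (e, i) ∧ y = Sum.inl (diamondTgt k e)) ∨
      (y = Sum.inl (diamondSrc k e) ∧ x = Sum.inr (e, i)) ∨
      (y = Sum.inr (e, i) ∧ x = Sum.inl (diamondTgt k e)) := by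
  obtain ⟨⟨e, i, b⟩, h1⟩ := adj_cases h
  refine ⟨e, i, ?_⟩
  cases b <;> simp only [diamondSrc, diamondTgt, cond_false, cond_true] at h1
  · rcases h1 with h1 | h1
    · exact Or.inl h1
    · exact Or.inr (Or.inr (Or.inl h1))
  · rcases h1 with h1 | h1
    · exact Or.inr (Or.inl h1)
    · exact Or.inr (Or.inr (Or.inr h1))

/-- Adjacent old vertices remain connected after subdivision. -/
lemma reachable_lift_adj {k : ℕ} {u v : DiamondVertex k} (h : (diamondGraph k).Adj u v) :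
    (diamondGraph (k + 1)).Reachable (Sum.inl u) (Sum.inl v) := by
  obtain ⟨e, h1⟩ := adj_cases h
  have hr : (diamondGraph (k + 1)).Reachable (Sum.inl (diamondSrc k e)) (Sum.inl (diamondTgt k e)) :=
    (adj_first k e 0).reachable.trans (adj_second k e 0).reachable
  rcases h1 with ⟨rfl, rfl⟩ | ⟨rfl, rfl⟩
  · exact hr
  · exact hr.symm

lemma reachable_lift {k : ℕ} {u v : DiamondVertex k} (h : (diamondGraph k).Reachable u v) :
    (diamondGraph (k + 1)).Reachable (Sum.inl u) (Sum.inl v) := by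
  obtain ⟨w⟩ := h
  induction w with
  | nil => exact SimpleGraph.Reachable.refl _
  | cons h _ ih => exact (reachable_lift_adj h).trans ih

/-- Diamonds are connected. -/
theorem reachable_all (k : ℕ) (u v : DiamondVertex k) : (diamondGraph k).Reachable u v := by
  induction k with
  | zero =>
    have h : (diamondGraph 0).Reachable false true := (adj_edge 0 ()).reachable
    change Bool at u v
    cases u <;> cases v
    · exact SimpleGraph.Reachable.refl _
    · exact h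
    · exact h.symm
    · exact SimpleGraph.Reachable.refl _
  | succ k ih =>
    have hbase : ∀ x : DiamondVertex (k + 1), ∃ p : DiamondVertex k,
        (diamondGraph (k + 1)).Reachable x (Sum.inl p) := by
      intro x
      rcases x with p | ⟨e, i⟩
      · exact ⟨p, SimpleGraph.Reachable.refl _⟩
      · exact ⟨diamondSrc k e, (adj_first k e i).reachable.symm⟩
    obtain ⟨p, hp⟩ := hbase u
    obtain ⟨q, hq⟩ := hbase v
    exact hp.trans ((reachable_lift (ih p q)).trans hq.symm)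

/-- Lipschitz functions on a graph bound the distance from below. -/
lemma dist_lip {V : Type*} (G : SimpleGraph V) (φ : V → ℤ) (h : ∀ x y, G.Adj x y → |φ x - φ y| ≤ 1)
    {x y : V} (hr : G.Reachable x y) : |φ x - φ y| ≤ G.dist x y := by
  obtain ⟨w, hw⟩ := hr.exists_walk_length_eq_dist
  rw [← hw]
  clear hw hr
  induction w with
  | nil => simp
  | cons hadj _ ih =>
    rename_i u v w'
    have h1 := h _ _ hadj
    rw [SimpleGraph.Walk.length_cons]
    push_cast
    rw [abs_le] at h1 ih ⊢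
    constructor <;> linarith [h1.1, h1.2, ih.1, ih.2]

lemma dist_adj_diff (k : ℕ) (e : DiamondEdge k) (v : DiamondVertex k) :
    |((diamondGraph k).dist (diamondSrc k e) v : ℤ) - (diamondGraph k).dist (diamondTgt k e) v| ≤ 1 := by
  have h1 : (diamondGraph k).dist (diamondSrc k e) (diamondTgt k e) = 1 :=
    SimpleGraph.dist_eq_one_iff_adj.mpr (adj_edge k e)
  have h2 : (diamondGraph k).dist (diamondTgt k e) (diamondSrc k e) = 1 :=
    SimpleGraph.dist_eq_one_iff_adj.mpr (adj_edge k e).symm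
  have h3 : (diamondGraph k).dist (diamondSrc k e) v ≤
      (diamondGraph k).dist (diamondSrc k e) (diamondTgt k e) +
        (diamondGraph k).dist (diamondTgt k e) v :=
    (adj_edge k e).reachable.dist_triangle_left v
  have h4 : (diamondGraph k).dist (diamondTgt k e) v ≤
      (diamondGraph k).dist (diamondTgt k e) (diamondSrc k e) +
        (diamondGraph k).dist (diamondSrc k e) v :=
    (adj_edge k e).symm.reachable.dist_triangle_left v
  rw [abs_le]
  omega

/-- Subdivision at least doubles the distance of old vertices. -/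
theorem dist_inl_ge (k : ℕ) (u v : DiamondVertex k) :
    2 * diamondDist k u v ≤ diamondDist (k + 1) (Sum.inl u) (Sum.inl v) := by
  let φ : DiamondVertex (k + 1) → ℤ := fun x =>
    match x with
    | Sum.inl p => 2 * (diamondGraph k).dist p v
    | Sum.inr (e, _) =>
      2 * min ((diamondGraph k).dist (diamondSrc k e) v : ℤ) ((diamondGraph k).dist (diamondTgt k e) v) + 1
  have hφ : ∀ x y, (diamondGraph (k + 1)).Adj x y → |φ x - φ y| ≤ 1 := by
    intro x y hxy
    obtain ⟨e, i, h1⟩ := adj_succ hxy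
    have hd := dist_adj_diff k e v
    rw [abs_le] at hd
    rcases h1 with ⟨rfl, rfl⟩ | ⟨rfl, rfl⟩ | ⟨rfl, rfl⟩ | ⟨rfl, rfl⟩ <;> simp only [φ] <;>
      rw [abs_le] <;> omega
  have h2 := dist_lip _ φ hφ (reachable_all (k + 1) (Sum.inl u) (Sum.inl v))
  simp only [φ, SimpleGraph.dist_self] at h2
  have h3 : (2 * ((diamondGraph k).dist u v : ℤ) - 2 * ((0 : ℕ) : ℤ)) = 2 * (diamondGraph k).dist u v := by
    simp
  rw [h3, abs_of_nonneg (by positivity)] at h2
  unfold diamondDist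
  exact_mod_cast h2

/-- Two distinct midpoints of an edge are at distance at least two. -/
theorem dist_inr_ge (k : ℕ) (e : DiamondEdge k) {i i' : ℕ} (hi : i ≠ i') :
    2 ≤ diamondDist (k + 1) (Sum.inr (e, i)) (Sum.inr (e, i')) := by
  have hne : (Sum.inr (e, i) : DiamondVertex (k + 1)) ≠ Sum.inr (e, i') := by
    intro h
    exact hi (by simpa using h)
  have hna : ¬ (diamondGraph (k + 1)).Adj (Sum.inr (e, i)) (Sum.inr (e, i')) := by
    intro h
    obtain ⟨e', i'', h1⟩ := adj_succ h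
    rcases h1 with ⟨h2, _⟩ | ⟨_, h2⟩ | ⟨h2, _⟩ | ⟨_, h2⟩ <;> simp at h2
  exact (reachable_all (k + 1) _ _).one_lt_dist_of_ne_of_not_adj hne hna

/-! ### Weak compactness -/

variable {X : Type} [NormedAddCommGroup X] [NormedSpace ℝ X]

/-- A bounded sequence in a reflexive space has a weak cluster point. -/
lemma exists_cluster (hr : Function.Surjective (inclusionInDoubleDual ℝ X)) (m : ℕ → X) {C : ℝ}
    (hC : ∀ i, ‖m i‖ ≤ C) :
    ∃ c : X, ∀ (S : Finset (StrongDual ℝ X)) (ε : ℝ), 0 < ε →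
      ∃ᶠ i in atTop, ∀ φ ∈ S, |φ (m i) - φ c| < ε := by
  let g : ℕ → WeakDual ℝ (StrongDual ℝ X) := fun i =>
    StrongDual.toWeakDual (inclusionInDoubleDual ℝ X (m i))
  have hK := WeakDual.isCompact_closedBall (𝕜 := ℝ) (E := StrongDual ℝ X) 0 C
  have hg : ∀ i, g i ∈ WeakDual.toStrongDual ⁻¹' Metric.closedBall (0 : StrongDual ℝ (StrongDual ℝ X)) C := by
    intro i
    have h0 : ‖inclusionInDoubleDual ℝ X (m i)‖ ≤ C := (double_dual_bound ℝ X (m i)).trans (hC i)
    have h1 : dist (inclusionInDoubleDual ℝ X (m i)) 0 = ‖inclusionInDoubleDual ℝ X (m i)‖ :=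
      dist_zero_right (inclusionInDoubleDual ℝ X (m i))
    have h2 : inclusionInDoubleDual ℝ X (m i) ∈
        Metric.closedBall (0 : StrongDual ℝ (StrongDual ℝ X)) C :=
      Metric.mem_closedBall.mpr (h1.trans_le h0)
    exact h2
  obtain ⟨a, _, ha⟩ := hK.exists_mapClusterPt_of_frequently (l := atTop) (f := g)
    (Frequently.of_forall hg)
  obtain ⟨c, hc⟩ := hr (WeakDual.toStrongDual a)
  refine ⟨c, fun S ε hε => ?_⟩
  have hU : ∀ᶠ Ψ in 𝓝 a, ∀ φ ∈ S, |Ψ φ - a φ| < ε := by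
    refine (Finset.eventually_all S).mpr fun φ _ => ?_
    have h1 : Continuous fun Ψ : WeakDual ℝ (StrongDual ℝ X) => |Ψ φ - a φ| :=
      ((WeakDual.eval_continuous φ).sub continuous_const).abs
    have h2 : Tendsto (fun Ψ : WeakDual ℝ (StrongDual ℝ X) => |Ψ φ - a φ|) (𝓝 a) (𝓝 0) := by
      have := h1.tendsto a
      simpa using this
    exact h2.eventually (gt_mem_nhds hε)
  have h3 := ha.frequently hU
  refine h3.mono fun i hi φ hφ => ?_
  have h4 := hi φ hφ
  have e1 : g i φ = φ (m i) := rfl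
  have e2 : a φ = φ c := by
    have : (WeakDual.toStrongDual a) φ = inclusionInDoubleDual ℝ X c φ := by rw [hc]
    exact this
  rwa [e1, e2] at h4

/-- Closed subspaces of finite codimension are controlled by finitely many functionals. -/
lemma near_of_functionals {F : Submodule ℝ X} (hF : Cof F) {ε : ℝ} (hε : 0 < ε) :
    ∃ (S : Finset (StrongDual ℝ X)) (ε' : ℝ), 0 < ε' ∧
      ∀ v : X, (∀ φ ∈ S, |φ v| < ε') → ∃ z ∈ F, ‖v - z‖ < ε := by
  classical
  have := hF.2
  have : IsClosed (F : Set X) := hF.1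
  let π : X →L[ℝ] (X ⧸ F) := (Submodule.mkQ F).mkContinuous 1 (fun x => by
    simpa using Submodule.Quotient.norm_mk_le F x)
  let b := Module.finBasis ℝ (X ⧸ F)
  let ψ : Fin (Module.finrank ℝ (X ⧸ F)) → StrongDual ℝ X := fun j =>
    (LinearMap.toContinuousLinearMap (b.coord j)).comp π
  set M := ∑ j, ‖b j‖ with hM
  have hM0 : 0 ≤ M := Finset.sum_nonneg fun _ _ => norm_nonneg _
  refine ⟨Finset.univ.image ψ, ε / (2 * (M + 1)), by positivity, fun v hv => ?_⟩
  have hπ : ‖π v‖ < ε / 2 := by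
    have e : π v = ∑ j, (ψ j v) • b j := by
      exact (b.sum_repr (π v)).symm
    rw [e]
    have h1 : ∀ j ∈ (Finset.univ : Finset (Fin (Module.finrank ℝ (X ⧸ F)))),
        ‖(ψ j v) • b j‖ ≤ ε / (2 * (M + 1)) * ‖b j‖ := by
      intro j _
      rw [norm_smul]
      refine mul_le_mul_of_nonneg_right ?_ (norm_nonneg _)
      exact (hv (ψ j) (Finset.mem_image_of_mem _ (Finset.mem_univ j))).le
    refine ((norm_sum_le _ _).trans (Finset.sum_le_sum h1)).trans_lt ?_
    rw [← Finset.mul_sum, ← hM]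
    have h2 : ε / (2 * (M + 1)) * M < ε / 2 := by
      rw [div_mul_eq_mul_div, div_lt_iff₀ (by positivity)]
      nlinarith
    exact h2
  obtain ⟨m, hm, hm'⟩ := Submodule.Quotient.norm_mk_lt (π v) (half_pos hε)
  refine ⟨v - m, ?_, ?_⟩
  · have h2 : (Submodule.Quotient.mk v : X ⧸ F) = Submodule.Quotient.mk m := by
      rw [hm]
      rfl
    exact (Submodule.Quotient.eq F).mp h2
  · rw [sub_sub_cancel]
    linarith

/-- One step of the descent along the diamond. -/
theorem edge_step (hT : TCp X) (hr : Function.Surjective (inclusionInDoubleDual ℝ X)) (a b : X)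
    (m : ℕ → X) {C L : ℝ} (hC : ∀ i, ‖m i‖ ≤ C) (hsep : ∀ i i', i ≠ i' → L ≤ ‖m i - m i'‖)
    (hL : 0 ≤ L) {ε : ℝ} (hε : 0 < ε) :
    ∃ i, Real.sqrt (‖b - a‖ ^ 2 / 4 + L ^ 2 / 16) - ε ≤ max ‖m i - a‖ ‖b - m i‖ := by
  obtain ⟨c, hc⟩ := exists_cluster hr m hC
  obtain ⟨F, hF, hTF⟩ := hT (c - a) (b - c) ε hε
  set ε₂ := ε / 4 with hε₂
  have hε₂pos : 0 < ε₂ := by positivity
  obtain ⟨S, ε', hε', hS⟩ := near_of_functionals hF hε₂pos
  have hfr := hc S ε' hε'
  have hgood : ∃ᶠ i in atTop, ∃ z ∈ F, ‖m i - c - z‖ < ε₂ := by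
    refine hfr.mono fun i hi => hS _ fun φ hφ => ?_
    rw [map_sub]
    exact hi φ hφ
  have hsel : ∃ i, ∃ z ∈ F, ‖m i - c - z‖ < ε₂ ∧ L / 2 ≤ ‖m i - c‖ := by
    obtain ⟨i, -, z, hz, hz2⟩ := Filter.Frequently.forall_exists_of_atTop hgood 0
    obtain ⟨i', hi', z', hz', hz2'⟩ := Filter.Frequently.forall_exists_of_atTop hgood (i + 1)
    have hne : i ≠ i' := by omega
    have h1 := hsep i i' hne
    have h2 : ‖m i - m i'‖ ≤ ‖m i - c‖ + ‖m i' - c‖ := by
      have e : m i - m i' = (m i - c) - (m i' - c) := by abel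
      rw [e]
      exact norm_sub_le _ _
    by_cases h3 : L / 2 ≤ ‖m i - c‖
    · exact ⟨i, z, hz, hz2, h3⟩
    · refine ⟨i', z', hz', hz2', ?_⟩
      rw [not_le] at h3
      linarith
  obtain ⟨i, z, hz, hz2, hz3⟩ := hsel
  refine ⟨i, ?_⟩
  have h1 := hTF z hz
  have e0 : (1 / 2 : ℝ) • (c - a + (b - c)) = (1 / 2 : ℝ) • (b - a) := by
    congr 1
    abel
  have e0' : ‖(1 / 2 : ℝ) • (b - a)‖ ^ 2 = ‖b - a‖ ^ 2 / 4 := by
    rw [norm_smul]
    norm_num
    ring
  rw [e0, e0'] at h1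
  have n1 : ‖c - a + z‖ ≤ ‖m i - a‖ + ε₂ := by
    have e : c - a + z = (m i - a) - (m i - c - z) := by abel
    rw [e]
    have := norm_sub_le (m i - a) (m i - c - z)
    linarith
  have n2 : ‖b - c - z‖ ≤ ‖b - m i‖ + ε₂ := by
    have e : b - c - z = (b - m i) + (m i - c - z) := by abel
    rw [e]
    have := norm_add_le (b - m i) (m i - c - z)
    linarith
  have n3 : L / 2 - ε₂ ≤ ‖z‖ := by
    have e : m i - c = z + (m i - c - z) := by abel
    have := norm_add_le z (m i - c - z)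
    rw [← e] at this
    linarith
  have hmax1 := le_max_left ‖m i - a‖ ‖b - m i‖
  have hmax2 := le_max_right ‖m i - a‖ ‖b - m i‖
  have hA : 0 ≤ ‖b - a‖ ^ 2 / 4 := by positivity
  have n4 : Real.sqrt (‖b - a‖ ^ 2 / 4 + L ^ 2 / 16) ≤
      Real.sqrt (‖b - a‖ ^ 2 / 4 + ‖z‖ ^ 2 / 4) + ε₂ / 2 := by
    by_cases h4 : L / 2 ≤ ‖z‖
    · have h5 : Real.sqrt (‖b - a‖ ^ 2 / 4 + L ^ 2 / 16) ≤ Real.sqrt (‖b - a‖ ^ 2 / 4 + ‖z‖ ^ 2 / 4) := by
        refine Real.sqrt_le_sqrt ?_
        have : (L / 2) ^ 2 ≤ ‖z‖ ^ 2 := pow_le_pow_left₀ (by positivity) h4 2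
        nlinarith
      linarith
    · rw [not_le] at h4
      have h5 := sqrt_sq_add_le (L / 4) (‖z‖ / 2) (‖b - a‖ ^ 2 / 4) (by positivity) hA
      have e1 : (L / 4) ^ 2 + ‖b - a‖ ^ 2 / 4 = ‖b - a‖ ^ 2 / 4 + L ^ 2 / 16 := by ring
      have e2 : (‖z‖ / 2) ^ 2 + ‖b - a‖ ^ 2 / 4 = ‖b - a‖ ^ 2 / 4 + ‖z‖ ^ 2 / 4 := by ring
      rw [e1, e2] at h5
      have e3 : |L / 4 - ‖z‖ / 2| ≤ ε₂ / 2 := by
        rw [abs_le]
        constructor <;> linarith
      linarith
  have hε4 : ε = 4 * ε₂ := by rw [hε₂]; ring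
  rw [hε4] at h1 ⊢
  linarith

/-! ### Induction on the diamonds -/

/-- The induction over the depth of the diamond. -/
theorem diamond_P (hT : TCp X) (hr : Function.Surjective (inclusionInDoubleDual ℝ X)) (k : ℕ) :
    ∀ (f : DiamondVertex k → X) (s : ℝ), 0 < s →
      (∀ u v, s * (diamondDist k u v : ℝ) ≤ ‖f u - f v‖) →
      (∃ B : ℝ, ∀ e, ‖f (diamondSrc k e) - f (diamondTgt k e)‖ ≤ B) →
      ∀ ε : ℝ, 0 < ε → ∃ e : DiamondEdge k,
        s ^ 2 * (1 + (k : ℝ) / 4) - ε ≤ ‖f (diamondSrc k e) - f (diamondTgt k e)‖ ^ 2 := by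
  induction k with
  | zero =>
    intro f s hs hlow _ ε hε
    refine ⟨(), ?_⟩
    have h1 : diamondDist 0 (diamondSrc 0 ()) (diamondTgt 0 ()) = 1 :=
      SimpleGraph.dist_eq_one_iff_adj.mpr (adj_edge 0 ())
    have h2 := hlow (diamondSrc 0 ()) (diamondTgt 0 ())
    rw [h1] at h2
    simp only [Nat.cast_one, mul_one] at h2
    have h3 : s ^ 2 ≤ ‖f (diamondSrc 0 ()) - f (diamondTgt 0 ())‖ ^ 2 :=
      pow_le_pow_left₀ hs.le h2 2
    simp only [Nat.cast_zero, zero_div, add_zero, mul_one]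
    linarith
  | succ k ih =>
    intro f s hs hlow hB ε hε
    obtain ⟨B, hB⟩ := hB
    let g : DiamondVertex k → X := fun p => f (Sum.inl p)
    have hg : ∀ u v, (2 * s) * (diamondDist k u v : ℝ) ≤ ‖g u - g v‖ := by
      intro u v
      refine le_trans ?_ (hlow (Sum.inl u) (Sum.inl v))
      have h1 : ((2 * diamondDist k u v : ℕ) : ℝ) ≤ diamondDist (k + 1) (Sum.inl u) (Sum.inl v) := by
        exact_mod_cast dist_inl_ge k u v
      push_cast at h1
      nlinarith
    have hB' : ∃ B' : ℝ, ∀ e, ‖g (diamondSrc k e) - g (diamondTgt k e)‖ ≤ B' := by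
      refine ⟨2 * B, fun e => ?_⟩
      have h1 := hB (e, 0, false)
      have h2 := hB (e, 0, true)
      simp only [diamondSrc, diamondTgt, cond_false, cond_true] at h1 h2
      have e1 : g (diamondSrc k e) - g (diamondTgt k e) =
          (f (Sum.inl (diamondSrc k e)) - f (Sum.inr (e, 0))) +
            (f (Sum.inr (e, 0)) - f (Sum.inl (diamondTgt k e))) := by
        simp only [g]
        abel
      rw [e1]
      have := norm_add_le (f (Sum.inl (diamondSrc k e)) - f (Sum.inr (e, 0)))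
        (f (Sum.inr (e, 0)) - f (Sum.inl (diamondTgt k e)))
      linarith
    obtain ⟨e, he⟩ := ih g (2 * s) (by positivity) hg hB' (2 * ε) (by positivity)
    set a := g (diamondSrc k e) with ha
    set b := g (diamondTgt k e) with hb
    let m : ℕ → X := fun i => f (Sum.inr (e, i))
    have hm : ∀ i, ‖m i‖ ≤ ‖a‖ + B := by
      intro i
      have h1 := hB (e, i, false)
      simp only [diamondSrc, diamondTgt, cond_false] at h1
      have e1 : m i = a - (f (Sum.inl (diamondSrc k e)) - f (Sum.inr (e, i))) := by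
        simp only [m, ha, g]
        abel
      rw [e1]
      have := norm_sub_le a (f (Sum.inl (diamondSrc k e)) - f (Sum.inr (e, i)))
      linarith
    have hsep : ∀ i i', i ≠ i' → 2 * s ≤ ‖m i - m i'‖ := by
      intro i i' hii
      refine le_trans ?_ (hlow (Sum.inr (e, i)) (Sum.inr (e, i')))
      have h1 : ((2 : ℕ) : ℝ) ≤ diamondDist (k + 1) (Sum.inr (e, i)) (Sum.inr (e, i')) := by
        exact_mod_cast dist_inr_ge k e hii
      push_cast at h1
      nlinarith
    set Q := ‖b - a‖ ^ 2 / 4 + (2 * s) ^ 2 / 16 with hQ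
    have hQ0 : s ^ 2 / 4 ≤ Q := by
      rw [hQ]
      have : 0 ≤ ‖b - a‖ ^ 2 / 4 := by positivity
      nlinarith
    have hQpos : 0 ≤ Q := le_trans (by positivity) hQ0
    set rQ := Real.sqrt Q with hrQ
    have hrQ2 : rQ * rQ = Q := Real.mul_self_sqrt hQpos
    have hrQ0 : 0 ≤ rQ := Real.sqrt_nonneg _
    have hrQs : s / 2 ≤ rQ := by
      refine Real.le_sqrt_of_sq_le ?_
      nlinarith
    set ε₂ := min (ε / (4 * (rQ + 1))) (s / 2) with hε₂
    have hε₂pos : 0 < ε₂ := lt_min (by positivity) (by positivity)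
    obtain ⟨i, hi⟩ := edge_step hT hr a b m hm hsep (by positivity) hε₂pos
    rw [← hQ] at hi
    have hε₂1 : ε₂ ≤ ε / (4 * (rQ + 1)) := min_le_left _ _
    have hε₂2 : ε₂ ≤ s / 2 := min_le_right _ _
    have hε₂3 : ε₂ * (2 * rQ) ≤ ε / 2 := by
      have h1 : ε₂ * (4 * (rQ + 1)) ≤ ε := by
        rwa [le_div_iff₀ (by positivity)] at hε₂1
      nlinarith
    -- lower bound on the new edge
    have hbig : ∀ R : ℝ, rQ - ε₂ ≤ R → s ^ 2 * (1 + ((k + 1 : ℕ) : ℝ) / 4) - ε ≤ R ^ 2 := by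
      intro R hR
      have h1 : (rQ - ε₂) ^ 2 ≤ R ^ 2 := pow_le_pow_left₀ (by linarith) hR 2
      have h2 : ‖b - a‖ ^ 2 = ‖a - b‖ ^ 2 := by rw [norm_sub_rev]
      have h3 : (2 * s) ^ 2 * (1 + (k : ℝ) / 4) - 2 * ε ≤ ‖a - b‖ ^ 2 := he
      have h4 : Q - ε / 2 ≤ R ^ 2 := by nlinarith [sq_nonneg ε₂]
      have h5 : Q = ‖a - b‖ ^ 2 / 4 + s ^ 2 / 4 := by
        rw [hQ, h2]
        ring
      have h6 : s ^ 2 * (1 + (((k + 1 : ℕ) : ℝ)) / 4) = (2 * s) ^ 2 * (1 + (k : ℝ) / 4) / 4 + s ^ 2 / 4 := by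
        push_cast
        ring
      rw [h6]
      linarith
    rcases le_total ‖m i - a‖ ‖b - m i‖ with hle | hle
    · rw [max_eq_right hle] at hi
      refine ⟨(e, i, true), ?_⟩
      simp only [diamondSrc, diamondTgt, cond_true]
      have e1 : ‖f (Sum.inr (e, i)) - f (Sum.inl (diamondTgt k e))‖ = ‖b - m i‖ := by
        rw [norm_sub_rev]
      rw [e1]
      exact hbig _ hi
    · rw [max_eq_left hle] at hi
      refine ⟨(e, i, false), ?_⟩
      simp only [diamondSrc, diamondTgt, cond_false]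
      have e1 : ‖f (Sum.inl (diamondSrc k e)) - f (Sum.inr (e, i))‖ = ‖m i - a‖ := by
        rw [norm_sub_rev]
      rw [e1]
      exact hbig _ hi

/-- The distortion bound. -/
theorem diamond_bound (hT : TCp X) (hr : Function.Surjective (inclusionInDoubleDual ℝ X)) (k : ℕ)
    (f : DiamondVertex k → X) (D s : ℝ) (hs : 0 < s)
    (h : ∀ u v, s * (diamondDist k u v : ℝ) ≤ ‖f u - f v‖ ∧
      ‖f u - f v‖ ≤ D * s * (diamondDist k u v : ℝ)) : 1 + (k : ℝ) / 4 ≤ D ^ 2 := by
  have hd1 : ∀ e, diamondDist k (diamondSrc k e) (diamondTgt k e) = 1 := fun e =>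
    SimpleGraph.dist_eq_one_iff_adj.mpr (adj_edge k e)
  have hedge : ∀ e, ‖f (diamondSrc k e) - f (diamondTgt k e)‖ ≤ D * s := by
    intro e
    have := (h (diamondSrc k e) (diamondTgt k e)).2
    rwa [hd1, Nat.cast_one, mul_one] at this
  have hall : ∀ ε : ℝ, 0 < ε → s ^ 2 * (1 + (k : ℝ) / 4) - ε ≤ (D * s) ^ 2 := by
    intro ε hε
    obtain ⟨e, he⟩ := diamond_P hT hr k f s hs (fun u v => (h u v).1) ⟨D * s, hedge⟩ ε hε
    have h1 : ‖f (diamondSrc k e) - f (diamondTgt k e)‖ ^ 2 ≤ (D * s) ^ 2 :=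
      pow_le_pow_left₀ (norm_nonneg _) (hedge e) 2
    linarith
  have h2 : s ^ 2 * (1 + (k : ℝ) / 4) ≤ (D * s) ^ 2 :=
    le_of_forall_pos_le_add fun ε hε => by linarith [hall ε hε]
  have hs2 : 0 < s ^ 2 := by positivity
  rw [mul_pow, mul_comm (D ^ 2)] at h2
  exact le_of_mul_le_mul_left h2 hs2

end Crest.Agent.H4Dia
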