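import Mathlib
import Crest.Agent.H4Iface
import Crest.Prelude.Def_RandomGraph

/-!
Row 56, outer layer for S0077: graph instantiation, Russo's formula and the logit argument.
The numeric bound `NumBound` (proved from the core in `H4Num`) is a hypothesis here.
-/

set_option autoImplicit false

namespace H4

open Crest.FinProb Crest.CombinatoricsR.RandomGraph

/-- The statement of `H4.num_bound hc`. -/
def NumBound : Prop :=
  ∀ (V E : Type) [Fintype V] [DecidableEq V] [Fintype E] [DecidableEq E] (r : ℕ) (G : HG V E r),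
    2 ≤ r → ∀ p : ℝ, 0 < p → p < 1 → ∀ f : (E → Bool) → Bool,
      (∀ (π : Equiv.Perm V) (x : E → Bool), f (x ∘ G.act π) = f x) →
      2 ≤ Fintype.card V → (1 ≤ Real.log (Fintype.card V) ∨ r = 2) →
      muOf p f * (1 - muOf p f) ≤
        (4096 * r) / Real.log (Fintype.card V) ^ ((r : ℝ) / ((r : ℝ) - 1)) * infOf p f

/-! ### Russo's formula -/

section Russo

variable {E : Type} [Fintype E] [DecidableEq E]

/-- Coordinate weight. -/
def cw (t : ℝ) (ω : E → Bool) (e : E) : ℝ := if ω e then t else 1 - t

/-- The weight without coordinate `e`. -/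
noncomputable def cA (e : E) (t : ℝ) (ω : E → Bool) : ℝ :=
  ∏ e' ∈ Finset.univ.erase e, cw t ω e'

lemma russo_weight_eq (e : E) (t : ℝ) (ω : E → Bool) :
    bernoulliWeight t ω = cw t ω e * cA e t ω := by
  unfold bernoulliWeight cA
  rw [Finset.mul_prod_erase Finset.univ (fun i => cw t ω i) (Finset.mem_univ e)]
  rfl

lemma cA_update (e : E) (t : ℝ) (ω : E → Bool) (b : Bool) :
    cA e t (Function.update ω e b) = cA e t ω := by
  unfold cA
  refine Finset.prod_congr rfl fun e' he' => ?_
  unfold cw
  rw [Function.update_of_ne (Finset.ne_of_mem_erase he')]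

/-- Fold a sum over outcomes along the flip of coordinate `e`. -/
lemma sum_flip (e : E) (g : (E → Bool) → ℝ) :
    ∑ ω, g ω = ∑ ω, if ω e = true then g ω + g (Function.update ω e false) else 0 := by
  classical
  have h1 : ∑ ω, g ω = ∑ ω ∈ Finset.univ.filter (fun ω : E → Bool => ω e = true), g ω +
      ∑ ω ∈ Finset.univ.filter (fun ω : E → Bool => ¬ ω e = true), g ω :=
    (Finset.sum_filter_add_sum_filter_not _ _ _).symm
  have h2 : ∑ ω ∈ Finset.univ.filter (fun ω : E → Bool => ¬ ω e = true), g ω =
      ∑ ω ∈ Finset.univ.filter (fun ω : E → Bool => ω e = true), g (Function.update ω e false) := by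
    symm
    refine Finset.sum_nbij' (fun ω => Function.update ω e false)
      (fun ω => Function.update ω e true) ?_ ?_ ?_ ?_ ?_
    · intro ω _; simp
    · intro ω hω; simp
    · intro ω hω
      have hω' : ω e = true := by simpa using hω
      funext x
      by_cases hx : x = e
      · subst hx; simp [hω']
      · simp [Function.update_of_ne hx]
    · intro ω hω
      have hω' : ω e = false := by simpa using hω
      funext x
      by_cases hx : x = e
      · subst hx; simp [hω']
      · simp [Function.update_of_ne hx]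
    · intro ω _; rfl
  rw [h1, h2, ← Finset.sum_add_distrib, Finset.sum_ite, Finset.sum_const_zero, add_zero]

lemma update_flip_true (e : E) (ω : E → Bool) (h : ω e = true) :
    Function.update ω e true = ω := by
  funext x
  by_cases hx : x = e
  · subst hx; simp [h]
  · simp [Function.update_of_ne hx]

/-- The per-coordinate identity behind Russo's formula. -/
lemma russo_coord (f : (E → Bool) → Bool) (hf : ∀ x y : E → Bool, x ≤ y → f x ≤ f y)
    (e : E) (t : ℝ) :
    (∑ ω : E → Bool, if f ω = true then cA e t ω * (if ω e then (1 : ℝ) else -1) else 0) =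
      bernoulliProb t {x | f (Function.update x e true) ≠ f (Function.update x e false)} := by
  classical
  unfold bernoulliProb
  rw [Finset.sum_filter]
  rw [sum_flip e (fun ω => if f ω = true then cA e t ω * (if ω e then (1 : ℝ) else -1) else 0)]
  conv_rhs => rw [sum_flip e]
  refine Finset.sum_congr rfl fun ω _ => ?_
  by_cases h : ω e = true
  · simp only [h, if_true]
    have hA : cA e t (Function.update ω e false) = cA e t ω := cA_update e t ω false
    have hW1 : bernoulliWeight t ω = t * cA e t ω := by
      rw [russo_weight_eq e t ω]; simp [cw, h]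
    have hW2 : bernoulliWeight t (Function.update ω e false) = (1 - t) * cA e t ω := by
      rw [russo_weight_eq e t _, hA]; simp [cw]
    have hu1 : Function.update ω e true = ω := update_flip_true e ω h
    have hu2 : Function.update (Function.update ω e false) e true = ω := by
      rw [Function.update_idem, hu1]
    have hu3 : Function.update (Function.update ω e false) e false = Function.update ω e false := by
      rw [Function.update_idem]
    have hle : f (Function.update ω e false) ≤ f ω := by
      apply hf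
      intro x
      by_cases hx : x = e
      · subst hx; simp [h]
      · simp [Function.update_of_ne hx]
    have hflip : (Function.update ω e false) e = false := by simp
    simp only [Set.mem_setOf_eq, hu1, hu2, hu3, hA, hW1, hW2, hflip]
    cases hfa : f ω <;> cases hfb : f (Function.update ω e false) <;>
      first
        | (exfalso; rw [hfa, hfb] at hle; exact absurd hle (by decide))
        | (simp_all <;> ring)
  · simp [h]

lemma hasDerivAt_weight (ω : E → Bool) (t : ℝ) :
    HasDerivAt (fun t => bernoulliWeight t ω)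
      (∑ e, cA e t ω * (if ω e then (1 : ℝ) else -1)) t := by
  have h : ∀ e ∈ (Finset.univ : Finset E), HasDerivAt (fun t => cw t ω e)
      (if ω e then (1 : ℝ) else -1) t := by
    intro e _
    unfold cw
    by_cases h : ω e = true
    · simpa [h] using hasDerivAt_id' t
    · simpa [h] using (hasDerivAt_id' t).const_sub 1
  have := HasDerivAt.fun_finsetProd h
  simpa [bernoulliWeight, cA, cw, smul_eq_mul] using this

/-- Russo's formula for monotone `f`. -/
theorem hasDerivAt_muOf (f : (E → Bool) → Bool) (hf : ∀ x y : E → Bool, x ≤ y → f x ≤ f y)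
    (t : ℝ) : HasDerivAt (fun t => muOf t f) (infOf t f) t := by
  classical
  have hmu : (fun t => muOf t f) = fun t => ∑ ω : E → Bool,
      (if f ω = true then bernoulliWeight t ω else 0) := by
    funext s
    unfold muOf bernoulliProb
    rw [Finset.sum_filter]
    refine Finset.sum_congr rfl fun ω _ => ?_
    by_cases h : f ω = true <;> simp [h]
  rw [hmu]
  have hd : HasDerivAt (fun t => ∑ ω : E → Bool, (if f ω = true then bernoulliWeight t ω else 0))
      (∑ ω : E → Bool, if f ω = true then
        (∑ e, cA e t ω * (if ω e then (1 : ℝ) else -1)) else 0) t := by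
    refine HasDerivAt.fun_sum fun ω _ => ?_
    by_cases h : f ω = true
    · simpa [h] using hasDerivAt_weight ω t
    · simpa [h] using hasDerivAt_const t (0 : ℝ)
  convert hd using 1
  unfold infOf
  rw [← Finset.sum_congr rfl (fun e _ => russo_coord f hf e t)]
  rw [Finset.sum_comm]
  refine Finset.sum_congr rfl fun ω _ => ?_
  by_cases h : f ω = true <;> simp [h]

lemma bernoulliWeight_nonneg {t : ℝ} (h0 : 0 ≤ t) (h1 : t ≤ 1) (ω : E → Bool) :
    0 ≤ bernoulliWeight t ω := by
  unfold bernoulliWeight
  refine Finset.prod_nonneg fun e _ => ?_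
  split_ifs <;> linarith

lemma bernoulliProb_nonneg {t : ℝ} (h0 : 0 ≤ t) (h1 : t ≤ 1) (S : Set (E → Bool)) :
    0 ≤ bernoulliProb t S := by
  unfold bernoulliProb
  exact Finset.sum_nonneg fun ω _ => bernoulliWeight_nonneg h0 h1 ω

lemma infOf_nonneg {t : ℝ} (h0 : 0 ≤ t) (h1 : t ≤ 1) (f : (E → Bool) → Bool) :
    0 ≤ infOf t f :=
  Finset.sum_nonneg fun _ _ => bernoulliProb_nonneg h0 h1 _

/-- At `t = 0` only the empty configuration has weight. -/
lemma muOf_zero (f : (E → Bool) → Bool) (hf : f (fun _ => false) = false) : muOf 0 f = 0 := by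
  classical
  unfold muOf bernoulliProb
  refine Finset.sum_eq_zero fun ω hω => ?_
  have hω' : f ω = true := by simpa using hω
  have : ∃ e, ω e = true := by
    by_contra hne
    have : ω = fun _ => false := by
      funext e
      by_contra hc
      exact hne ⟨e, by simpa using hc⟩
    rw [this, hf] at hω'
    exact Bool.noConfusion hω'
  obtain ⟨e, he⟩ := this
  unfold bernoulliWeight
  exact Finset.prod_eq_zero (Finset.mem_univ e) (by simp [he])

/-- At `t = 1` the full configuration has weight one. -/
lemma one_le_muOf_one (f : (E → Bool) → Bool) (hf : f (fun _ => true) = true) : 1 ≤ muOf 1 f := by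
  classical
  unfold muOf bernoulliProb
  have hmem : (fun _ => true) ∈ Finset.univ.filter (· ∈ {x : E → Bool | f x = true}) := by
    simp [hf]
  have := Finset.single_le_sum (f := fun ω => bernoulliWeight (1 : ℝ) ω)
    (fun ω _ => bernoulliWeight_nonneg (by norm_num) le_rfl ω) hmem
  have hw : bernoulliWeight (1 : ℝ) (fun _ : E => true) = 1 := by
    simp [bernoulliWeight]
  rw [hw] at this
  simpa using this

end Russo

/-! ### The graph slot system -/

section Graph

variable (n : ℕ)

/-- Relabelling of edge slots. -/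
def edgeAct (π : Equiv.Perm (Fin n)) : Equiv.Perm (EdgeSlot n) where
  toFun z := ⟨Sym2.map π z.1, by rw [Sym2.isDiag_map π.injective]; exact z.2⟩
  invFun z := ⟨Sym2.map π.symm z.1, by rw [Sym2.isDiag_map π.symm.injective]; exact z.2⟩
  left_inv z := by
    apply Subtype.ext
    simp [Sym2.map_map]
  right_inv z := by
    apply Subtype.ext
    simp [Sym2.map_map]

/-- The slot system of the binomial random graph. -/
def edgeHG : HG (Fin n) (EdgeSlot n) 2 where
  vs z := z.1.toFinset
  vs_card z := Sym2.card_toFinset_of_not_isDiag z.1 z.2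
  vs_inj := by
    intro a b hab
    apply Subtype.ext
    apply Sym2.ext
    intro x
    have := Finset.ext_iff.mp hab x
    simpa [Sym2.mem_toFinset] using this
  act := edgeAct n
  vs_act π z := by
    ext x
    simp only [edgeAct, Sym2.mem_toFinset, Sym2.mem_map, Finset.mem_map, Equiv.coe_toEmbedding,
      Equiv.coe_fn_mk]

variable {n}

lemma graphOf_adj (ω : EdgeSlot n → Bool) (i j : Fin n) :
    (graphOf ω).Adj i j ↔ ∃ h : ¬ (s(i, j) : Sym2 (Fin n)).IsDiag, ω ⟨s(i, j), h⟩ = true := by
  unfold graphOf
  rw [SimpleGraph.fromEdgeSet_adj]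
  constructor
  · rintro ⟨h, -⟩; exact h
  · intro h
    refine ⟨h, ?_⟩
    obtain ⟨hd, -⟩ := h
    intro hij
    exact hd (by simp [hij])

lemma bool_true_le {b : Bool} (h : true ≤ b) : b = true := by
  cases b
  · exact absurd h (by decide)
  · rfl

lemma graphOf_mono {ω ω' : EdgeSlot n → Bool} (h : ω ≤ ω') : graphOf ω ≤ graphOf ω' := by
  intro i j hij
  rw [graphOf_adj] at hij ⊢
  obtain ⟨hd, hω⟩ := hij
  refine ⟨hd, ?_⟩
  have := h ⟨s(i, j), hd⟩
  rw [hω] at this
  exact bool_true_le this

lemma graphOf_false : graphOf (fun _ : EdgeSlot n => false) = ⊥ := by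
  ext i j
  rw [graphOf_adj]
  simp

lemma le_graphOf_true (G : SimpleGraph (Fin n)) : G ≤ graphOf (fun _ : EdgeSlot n => true) := by
  intro i j hij
  rw [graphOf_adj]
  refine ⟨?_, rfl⟩
  simpa using hij.ne

lemma map_graphOf_act (π : Equiv.Perm (Fin n)) (ω : EdgeSlot n → Bool) :
    (graphOf (ω ∘ edgeAct n π)).map π.toEmbedding = graphOf ω := by
  ext i j
  rw [SimpleGraph.map_adj, graphOf_adj]
  constructor
  · rintro ⟨a, b, hab, rfl, rfl⟩
    rw [graphOf_adj] at hab
    obtain ⟨hd, hω⟩ := hab
    refine ⟨?_, ?_⟩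
    · have : ¬ a = b := by simpa using hd
      simpa using this
    · simpa [edgeAct] using hω
  · rintro ⟨hd, hω⟩
    refine ⟨π.symm i, π.symm j, ?_, by simp, by simp⟩
    rw [graphOf_adj]
    have hij : ¬ i = j := by simpa using hd
    refine ⟨by simpa using hij, ?_⟩
    simpa [edgeAct] using hω

end Graph

/-! ### The logit argument -/

/-- The boolean function of a graph property. -/
noncomputable def propF {n : ℕ} (P : Set (SimpleGraph (Fin n))) (ω : EdgeSlot n → Bool) : Bool :=
  haveI := Classical.propDecidable (graphOf ω ∈ P)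
  decide (graphOf ω ∈ P)

lemma propF_eq_true {n : ℕ} (P : Set (SimpleGraph (Fin n))) (ω : EdgeSlot n → Bool) :
    propF P ω = true ↔ graphOf ω ∈ P := by
  unfold propF
  simp

lemma gnpProb_eq_muOf {n : ℕ} (P : Set (SimpleGraph (Fin n))) (t : ℝ) :
    gnpProb n t P = muOf t (propF P) := by
  unfold gnpProb muOf
  congr 1
  ext ω
  exact (propF_eq_true P ω).symm

/-- S0077 from the numeric bound. -/
theorem s0077_of_num (hnum : NumBound) (n : ℕ) (hn : 2 ≤ n)
    (P : Set (SimpleGraph (Fin n)))
    (hsymm : ∀ σ : Equiv.Perm (Fin n), ∀ G : SimpleGraph (Fin n), G ∈ P → G.map σ.toEmbedding ∈ P)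
    (hmono : ∀ G G' : SimpleGraph (Fin n), G ≤ G' → G ∈ P → G' ∈ P)
    (hne : P.Nonempty) (hnu : P ≠ Set.univ) (ε : ℝ) (hε0 : 0 < ε) (hε : ε < 1 / 2)
    (p q : ℝ) (hp0 : 0 ≤ p) (hp1 : p ≤ 1) (hq0 : 0 ≤ q) (hq1 : q ≤ 1)
    (hp : ε ≤ gnpProb n p P)
    (hq : p + 2 ^ 19 / Real.log n ^ 2 * Real.log (1 / (2 * ε)) ≤ q) :
    1 - ε ≤ gnpProb n q P := by
  classical
  set f : (EdgeSlot n → Bool) → Bool := propF P with hf
  rw [gnpProb_eq_muOf] at hp ⊢
  -- the logarithm of `n`
  have hL : 0 < Real.log n := Real.log_pos (by exact_mod_cast (by omega : 1 < n))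
  set L := Real.log n with hLdef
  -- monotonicity of `f`
  have hfmono : ∀ x y : EdgeSlot n → Bool, x ≤ y → f x ≤ f y := by
    intro x y hxy
    by_cases hx : f x = true
    · have hy : f y = true := by
        rw [hf, propF_eq_true] at hx ⊢
        exact hmono _ _ (graphOf_mono hxy) hx
      rw [hx, hy]
    · have : f x = false := by simpa using hx
      rw [this]
      exact Bool.false_le _
  -- symmetry of `f`
  have hfsymm : ∀ (π : Equiv.Perm (Fin n)) (x : EdgeSlot n → Bool),
      f (x ∘ (edgeHG n).act π) = f x := by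
    intro π x
    have h1 : graphOf (x ∘ edgeAct n π) ∈ P ↔ graphOf x ∈ P := by
      constructor
      · intro h
        rw [← map_graphOf_act π x]
        exact hsymm π _ h
      · intro h
        have h2 := map_graphOf_act π⁻¹ (x ∘ edgeAct n π)
        have h3 : (x ∘ edgeAct n π) ∘ edgeAct n π⁻¹ = x := by
          funext z
          simp only [Function.comp_apply]
          congr 1
          apply Subtype.ext
          simp [edgeAct, Sym2.map_map]
        rw [h3] at h2
        rw [← h2]
        exact hsymm π⁻¹ _ h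
    have h4 : (f (x ∘ (edgeHG n).act π) = true) ↔ (f x = true) := by
      rw [hf, propF_eq_true, propF_eq_true]
      exact h1
    cases hA : f (x ∘ (edgeHG n).act π) <;> cases hB : f x <;> simp_all
  -- the numeric bound
  have hbound : ∀ t : ℝ, 0 < t → t < 1 →
      muOf t f * (1 - muOf t f) ≤ 8192 / L ^ 2 * infOf t f := by
    intro t ht0 ht1
    have h := hnum (Fin n) (EdgeSlot n) 2 (edgeHG n) le_rfl t ht0 ht1 f hfsymm
      (by simpa using hn) (Or.inr rfl)
    have he : (((2 : ℕ) : ℝ) / (((2 : ℕ) : ℝ) - 1)) = (2 : ℝ) := by norm_num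
    rw [he, Real.rpow_two, Fintype.card_fin] at h
    have h8 : (4096 * ((2 : ℕ) : ℝ)) = 8192 := by norm_num
    rw [h8] at h
    exact h
  -- derivative and monotonicity
  have hderiv : ∀ t, HasDerivAt (fun t => muOf t f) (infOf t f) t :=
    fun t => hasDerivAt_muOf f hfmono t
  have hmonoOn : MonotoneOn (fun t => muOf t f) (Set.Icc 0 1) := by
    apply monotoneOn_of_deriv_nonneg (convex_Icc 0 1)
    · exact fun t _ => (hderiv t).continuousAt.continuousWithinAt
    · exact fun t _ => (hderiv t).differentiableAt.differentiableWithinAt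
    · intro t ht
      rw [interior_Icc] at ht
      rw [(hderiv t).deriv]
      exact infOf_nonneg ht.1.le ht.2.le f
  -- endpoints
  have hf0 : f (fun _ => false) = false := by
    by_contra hc
    have hc' : f (fun _ => false) = true := by simpa using hc
    rw [hf, propF_eq_true, graphOf_false] at hc'
    apply hnu
    ext G
    simp only [Set.mem_univ, iff_true]
    exact hmono ⊥ G bot_le hc'
  have hf1 : f (fun _ => true) = true := by
    rw [hf, propF_eq_true]
    obtain ⟨G, hG⟩ := hne
    exact hmono G _ (le_graphOf_true G) hG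
  have hmu0 := muOf_zero f hf0
  have hmu1 := one_le_muOf_one f hf1
  -- contradiction
  by_contra hcon
  have hcon' : muOf q f < 1 - ε := not_le.mp hcon
  have hT : 1 < 1 / (2 * ε) := by
    rw [lt_div_iff₀ (by positivity)]
    linarith
  have hlogT : 0 < Real.log (1 / (2 * ε)) := Real.log_pos hT
  set T := 1 / (2 * ε) with hTdef
  have hqp : (2 : ℝ) ^ 19 / L ^ 2 * Real.log T ≤ q - p := by linarith
  have hpos : 0 < (2 : ℝ) ^ 19 / L ^ 2 * Real.log T := by positivity
  have hpq : p < q := by linarith
  have hp_pos : 0 < p := by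
    rcases hp0.lt_or_eq with h | h
    · exact h
    · exfalso
      rw [← h, hmu0] at hp
      linarith
  have hq_lt : q < 1 := by
    rcases hq1.lt_or_eq with h | h
    · exact h
    · exfalso
      rw [h] at hcon'
      linarith
  -- on `[p, q]` the function stays in `[ε, 1 - ε)`
  have hrange : ∀ t ∈ Set.Icc p q, ε ≤ muOf t f ∧ muOf t f < 1 - ε := by
    intro t ht
    have h1 : muOf p f ≤ muOf t f :=
      hmonoOn ⟨hp0, hp1⟩ ⟨by linarith [ht.1], by linarith [ht.2]⟩ ht.1
    have h2 : muOf t f ≤ muOf q f :=
      hmonoOn ⟨by linarith [ht.1], by linarith [ht.2]⟩ ⟨hq0, hq1⟩ ht.2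
    exact ⟨by linarith, by linarith⟩
  -- the logit
  set Λ : ℝ → ℝ := fun t => Real.log (muOf t f) - Real.log (1 - muOf t f) with hΛ
  have hΛderiv : ∀ t ∈ Set.Icc p q, HasDerivAt Λ
      (infOf t f / muOf t f - (-infOf t f) / (1 - muOf t f)) t := by
    intro t ht
    obtain ⟨h1, h2⟩ := hrange t ht
    have hm0 : muOf t f ≠ 0 := ne_of_gt (by linarith)
    have hm1 : 1 - muOf t f ≠ 0 := ne_of_gt (by linarith)
    exact ((hderiv t).log hm0).sub ((((hderiv t).const_sub 1)).log hm1)
  obtain ⟨c, hc, hcslope⟩ := exists_hasDerivAt_eq_slope Λ _ hpq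
    (fun t ht => (hΛderiv t ht).continuousAt.continuousWithinAt)
    (fun t ht => hΛderiv t ⟨ht.1.le, ht.2.le⟩)
  have hcI : c ∈ Set.Icc p q := ⟨hc.1.le, hc.2.le⟩
  obtain ⟨hc1, hc2⟩ := hrange c hcI
  have hc0 : 0 < c := by linarith [hc.1]
  have hc1' : c < 1 := by linarith [hc.2]
  have hmc : 0 < muOf c f := by linarith
  have hmc' : 0 < 1 - muOf c f := by linarith
  have hslope : L ^ 2 / 8192 ≤
      infOf c f / muOf c f - (-infOf c f) / (1 - muOf c f) := by
    have hb := hbound c hc0 hc1'
    have he : infOf c f / muOf c f - (-infOf c f) / (1 - muOf c f) =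
        infOf c f / (muOf c f * (1 - muOf c f)) := by
      field_simp
      ring
    rw [he, le_div_iff₀ (by positivity)]
    have hL2 : 0 < L ^ 2 := by positivity
    have : L ^ 2 / 8192 * (8192 / L ^ 2 * infOf c f) = infOf c f := by
      field_simp
    calc L ^ 2 / 8192 * (muOf c f * (1 - muOf c f))
        ≤ L ^ 2 / 8192 * (8192 / L ^ 2 * infOf c f) :=
          mul_le_mul_of_nonneg_left hb (by positivity)
      _ = infOf c f := this
  -- lower bound for the increment
  have hincr : 64 * Real.log T ≤ Λ q - Λ p := by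
    have hqp' : 0 < q - p := by linarith
    rw [hcslope, le_div_iff₀ hqp'] at hslope
    have hL2 : 0 < L ^ 2 := by positivity
    have h1 : L ^ 2 / 8192 * ((2 : ℝ) ^ 19 / L ^ 2 * Real.log T) ≤ L ^ 2 / 8192 * (q - p) :=
      mul_le_mul_of_nonneg_left hqp (by positivity)
    have h2 : L ^ 2 / 8192 * ((2 : ℝ) ^ 19 / L ^ 2 * Real.log T) = 64 * Real.log T := by
      field_simp
      norm_num
    linarith
  -- upper bound for the increment
  have hεpos' : 0 < 1 - ε := by linarith
  have hup : Λ q - Λ p ≤ 2 * (Real.log (1 - ε) - Real.log ε) := by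
    obtain ⟨hq1', hq2'⟩ := hrange q ⟨hpq.le, le_rfl⟩
    obtain ⟨hp1', hp2'⟩ := hrange p ⟨le_rfl, hpq.le⟩
    have a1 : Real.log (muOf q f) ≤ Real.log (1 - ε) :=
      Real.log_le_log (by linarith) hq2'.le
    have a2 : Real.log ε ≤ Real.log (1 - muOf q f) :=
      Real.log_le_log hε0 (by linarith)
    have a3 : Real.log ε ≤ Real.log (muOf p f) := Real.log_le_log hε0 hp1'
    have a4 : Real.log (1 - muOf p f) ≤ Real.log (1 - ε) :=
      Real.log_le_log (by linarith) (by linarith)
    simp only [hΛ]
    linarith
  have hTsq : Real.log (1 - ε) - Real.log ε ≤ 2 * Real.log T := by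
    rw [← Real.log_div (by linarith) (by linarith)]
    have : 2 * Real.log T = Real.log (T ^ 2) := by
      rw [Real.log_pow]; norm_num
    rw [this]
    apply Real.log_le_log (by positivity)
    rw [hTdef]
    rw [div_le_iff₀ hε0]
    field_simp
    nlinarith [sq_nonneg (1 - 2 * ε)]
  nlinarith

end H4
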