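import Mathlib
import Crest.Agent.H4Iface
import Crest.Agent.H4Russo
import Crest.Prelude.Def_HypergraphCube

/-!
Row 56: S0078 from the numeric bound.
-/

set_option autoImplicit false

namespace H4

open Crest.FinProb Crest.CombinatoricsR.HypergraphCube

/-- Relabelling of hyperedge slots as a permutation. -/
def hyperAct (n r : ℕ) (π : Equiv.Perm (Fin n)) : Equiv.Perm (HyperedgeSlot n r) where
  toFun := relabelSlot π
  invFun := relabelSlot π.symm
  left_inv e := by
    apply Subtype.ext
    simp [relabelSlot, Finset.map_map]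
  right_inv e := by
    apply Subtype.ext
    simp [relabelSlot, Finset.map_map]

/-- The slot system of the `r`-uniform hypergraph. -/
def hyperHG (n r : ℕ) : HG (Fin n) (HyperedgeSlot n r) r where
  vs e := e.1
  vs_card e := e.2
  vs_inj := Subtype.val_injective
  act := hyperAct n r
  vs_act _ _ := rfl

theorem s0078_of_num (hnum : NumBound) (r : ℕ) (hr : 3 ≤ r) :
    ∃ C : ℝ, ∀ n : ℕ, r ≤ n → ∀ p : ℝ, 0 < p → p < 1 →
      ∀ f : (HyperedgeSlot n r → Bool) → Bool,
        IsSymmetric f →
          probTrue p f * (1 - probTrue p f) ≤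
            C / Real.log n ^ ((r : ℝ) / ((r : ℝ) - 1)) * totalInfluence p f := by
  refine ⟨4096 * r, fun n hn p hp hp1 f hf => ?_⟩
  have hn3 : 3 ≤ n := by omega
  have hlog : 1 ≤ Real.log (Fintype.card (Fin n)) := by
    rw [Fintype.card_fin, Real.le_log_iff_exp_le (by positivity)]
    have h3 : (3 : ℝ) ≤ n := by exact_mod_cast hn3
    have := Real.exp_one_lt_d9
    linarith
  have h := hnum (Fin n) (HyperedgeSlot n r) r (hyperHG n r) (by omega) p hp hp1 f
    (fun π x => hf π x) (by simp; omega) (Or.inl hlog)
  rw [Fintype.card_fin] at h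
  exact h

end H4
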