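import Crest.Prelude.Def_DaugavetL1
import Crest.Agent.H4Auc

/-! The midpoint lower bound for measure compact subspaces of `L¹`. -/

set_option autoImplicit false

open MeasureTheory Filter Topology
open Crest.AnalysisR Crest.AnalysisR.L1Subspace
open scoped ENNReal

namespace Crest.Agent.H4L1

open Crest.Agent.H4Auc

variable {Ω : Type} [MeasurableSpace Ω] {P : Measure Ω} [IsProbabilityMeasure P]

/-- The sign of a class. -/
noncomputable def sg (g : Lp ℝ 1 P) : Ω → ℝ := fun ω => if 0 ≤ g ω then 1 else -1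

lemma measurable_coe (g : Lp ℝ 1 P) : Measurable (g : Ω → ℝ) :=
  (Lp.stronglyMeasurable g).measurable

lemma measurable_sg (g : Lp ℝ 1 P) : Measurable (sg g) :=
  Measurable.ite (measurableSet_le measurable_const (measurable_coe g)) measurable_const
    measurable_const

lemma abs_sg (g : Lp ℝ 1 P) (ω : Ω) : |sg g ω| = 1 := by
  unfold sg
  split_ifs <;> simp

lemma coe_mul_sg (g : Lp ℝ 1 P) (ω : Ω) : g ω * sg g ω = |g ω| := by
  unfold sg
  split_ifs with h
  · rw [abs_of_nonneg h, mul_one]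
  · rw [abs_of_neg (not_le.mp h)]
    ring

lemma integrable_coe (g : Lp ℝ 1 P) : Integrable (g : Ω → ℝ) P := L1.integrable_coeFn g

lemma integrable_mul_sg (z g : Lp ℝ 1 P) : Integrable (fun ω => z ω * sg g ω) P :=
  (integrable_coe z).mul_bdd (c := 1) (measurable_sg g).aestronglyMeasurable
    (Eventually.of_forall fun ω => by rw [Real.norm_eq_abs, abs_sg])

/-- The norming functional of a class. -/
noncomputable def phi (g : Lp ℝ 1 P) : Lp ℝ 1 P →L[ℝ] ℝ :=
  LinearMap.mkContinuous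
    { toFun := fun z => ∫ ω, z ω * sg g ω ∂P
      map_add' := fun u v => by
        rw [← integral_add (integrable_mul_sg u g) (integrable_mul_sg v g)]
        refine integral_congr_ae ?_
        filter_upwards [Lp.coeFn_add u v] with ω h
        rw [h, Pi.add_apply]
        ring
      map_smul' := fun c u => by
        simp only [RingHom.id_apply, smul_eq_mul]
        rw [← integral_const_mul]
        refine integral_congr_ae ?_
        filter_upwards [Lp.coeFn_smul c u] with ω h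
        rw [h, Pi.smul_apply, smul_eq_mul]
        ring } 1
    (fun z => by
      simp only [LinearMap.coe_mk, AddHom.coe_mk, one_mul]
      rw [L1.norm_eq_integral_norm]
      refine (norm_integral_le_integral_norm _).trans (le_of_eq ?_)
      refine integral_congr_ae (Eventually.of_forall fun ω => ?_)
      simp only
      rw [norm_mul, Real.norm_eq_abs (sg g ω), abs_sg, mul_one])

lemma phi_apply (g z : Lp ℝ 1 P) : phi g z = ∫ ω, z ω * sg g ω ∂P := rfl

/-- Absolute continuity of the integral. -/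
lemma abs_cont (u : Lp ℝ 1 P) {ε : ℝ} (hε : 0 < ε) :
    ∃ δ : ℝ, 0 < δ ∧ ∀ S : Set Ω, MeasurableSet S → P S < ENNReal.ofReal δ →
      ∫ ω in S, |u ω| ∂P < ε := by
  have hfin : ∫⁻ ω, ENNReal.ofReal |u ω| ∂P ≠ ∞ := (integrable_coe u).abs.lintegral_lt_top.ne
  obtain ⟨δ, hδ, h⟩ := exists_pos_setLIntegral_lt_of_measure_lt hfin
    (ε := ENNReal.ofReal ε) (by simpa using hε)
  obtain ⟨r, hr0, hr1⟩ := ENNReal.lt_iff_exists_nnreal_btwn.mp hδ
  refine ⟨r, by exact_mod_cast hr0, fun S hS hPS => ?_⟩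
  have h1 : P S < δ := by
    refine hPS.trans_le ?_
    rw [ENNReal.ofReal_coe_nnreal]
    exact hr1.le
  have h2 := h S h1
  rw [integral_eq_lintegral_of_nonneg_ae (Eventually.of_forall fun ω => abs_nonneg _)
    (integrable_coe u).abs.aestronglyMeasurable.restrict]
  exact ENNReal.toReal_lt_of_lt_ofReal h2

/-- Extracting a parameter from the metric of convergence in measure. -/
lemma exists_of_measureDist_lt {y g : Lp ℝ 1 P} {ε : ℝ} (h : measureDist P y g < ε) :
    ∃ a : ℝ, 0 < a ∧ a < ε ∧ P {z | a < |(y : Ω → ℝ) z - (g : Ω → ℝ) z|} < ENNReal.ofReal a := by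
  have hne : {a : ℝ | 0 < a ∧ P {z | a < |(y : Ω → ℝ) z - (g : Ω → ℝ) z|} < ENNReal.ofReal a}.Nonempty := by
    refine ⟨2, by norm_num, ?_⟩
    refine (prob_le_one).trans_lt ?_
    rw [show (1 : ℝ≥0∞) = ENNReal.ofReal 1 by simp]
    exact (ENNReal.ofReal_lt_ofReal_iff (by norm_num)).mpr (by norm_num)
  obtain ⟨a, ha, ha2⟩ := exists_lt_of_csInf_lt hne h
  exact ⟨a, ha.1, ha2, ha.2⟩

lemma norm_add_smul (u v : Lp ℝ 1 P) (t : ℝ) : ‖u + t • v‖ = ∫ ω, |u ω + t * v ω| ∂P := by
  rw [L1.norm_eq_integral_norm]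
  refine integral_congr_ae ?_
  filter_upwards [Lp.coeFn_add u (t • v), Lp.coeFn_smul t v] with ω h1 h2
  rw [h1, Pi.add_apply, h2, Pi.smul_apply, smul_eq_mul, Real.norm_eq_abs]

lemma norm_sub_smul (u v : Lp ℝ 1 P) (t : ℝ) : ‖u - t • v‖ = ∫ ω, |u ω - t * v ω| ∂P := by
  rw [L1.norm_eq_integral_norm]
  refine integral_congr_ae ?_
  filter_upwards [Lp.coeFn_sub u (t • v), Lp.coeFn_smul t v] with ω h1 h2
  rw [h1, Pi.sub_apply, h2, Pi.smul_apply, smul_eq_mul, Real.norm_eq_abs]

lemma integrable_abs_coe (u : Lp ℝ 1 P) : Integrable (fun ω => |u ω|) P := (integrable_coe u).abs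

/-- The mass of a function orthogonal to the sign of a nearby class. -/
lemma half_mass {y g : Lp ℝ 1 P} (hy : ‖y‖ = 1) (h0 : phi g y = 0) {a : ℝ} (_ha : 0 < a)
    {S : Set Ω} (hS : MeasurableSet S) (hSdef : ∀ ω, ω ∉ S → |y ω - g ω| ≤ a) :
    1 / 2 - a ≤ ∫ ω in S, |y ω| ∂P := by
  have hint : Integrable (fun ω => |y ω| - 2 * a - 2 * S.indicator (fun ω => |y ω|) ω) P := by
    refine ((integrable_abs_coe y).sub (integrable_const _)).sub ?_
    exact ((integrable_abs_coe y).indicator hS).const_mul 2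
  have hle : ∫ ω, (|y ω| - 2 * a - 2 * S.indicator (fun ω => |y ω|) ω) ∂P ≤
      ∫ ω, y ω * sg g ω ∂P := by
    refine integral_mono hint (integrable_mul_sg y g) fun ω => ?_
    simp only
    have hsg : |sg g ω| = 1 := abs_sg g ω
    by_cases hω : ω ∈ S
    · rw [Set.indicator_of_mem hω]
      have h1 : -|y ω| ≤ y ω * sg g ω := by
        have : |y ω * sg g ω| = |y ω| := by rw [abs_mul, hsg, mul_one]
        rw [← this]
        exact neg_abs_le _
      linarith
    · rw [Set.indicator_of_notMem hω]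
      have h1 := hSdef ω hω
      have h2 : y ω * sg g ω = |g ω| + (y ω - g ω) * sg g ω := by
        rw [← coe_mul_sg g ω]
        ring
      have h3 : -a ≤ (y ω - g ω) * sg g ω := by
        have : |(y ω - g ω) * sg g ω| ≤ a := by rwa [abs_mul, hsg, mul_one]
        exact (abs_le.mp this).1
      have h4 : |y ω| ≤ |g ω| + |y ω - g ω| := by
        have e : y ω = g ω + (y ω - g ω) := by ring
        nth_rewrite 1 [e]
        exact abs_add_le _ _
      rw [h2]
      linarith
  rw [← phi_apply, h0] at hle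
  have i1 : Integrable (fun ω => |y ω| - 2 * a) P := (integrable_abs_coe y).sub (integrable_const _)
  have i2 : Integrable (fun ω => 2 * S.indicator (fun ω => |y ω|) ω) P :=
    ((integrable_abs_coe y).indicator hS).const_mul 2
  have e0 : ∫ ω, (|y ω| - 2 * a - 2 * S.indicator (fun ω => |y ω|) ω) ∂P =
      ∫ ω, |y ω| ∂P - 2 * a - 2 * ∫ ω in S, |y ω| ∂P := by
    have e3 : ∫ _ω, 2 * a ∂P = 2 * a := by simp
    have e4 : ∫ ω, 2 * S.indicator (fun ω => |y ω|) ω ∂P = 2 * ∫ ω in S, |y ω| ∂P := by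
      rw [integral_const_mul, integral_indicator hS]
    rw [integral_sub i1 i2, integral_sub (integrable_abs_coe y) (integrable_const _), e3, e4]
  rw [e0] at hle
  have e1 : ∫ ω, |y ω| ∂P = 1 := by
    rw [← hy, L1.norm_eq_integral_norm]
    rfl
  rw [e1] at hle
  linarith

/-- The pointwise estimate integrated. -/
lemma avg_ge (u v : Lp ℝ 1 P) {t : ℝ} (ht : 0 < t) {S : Set Ω} (hS : MeasurableSet S) :
    ‖u‖ - ∫ ω in S, |u ω| ∂P + t * ∫ ω in S, |v ω| ∂P ≤ (‖u + t • v‖ + ‖u - t • v‖) / 2 := by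
  have hI1 : Integrable (fun ω => |u ω + t * v ω|) P :=
    ((integrable_coe u).add ((integrable_coe v).const_mul t)).abs
  have hI2 : Integrable (fun ω => |u ω - t * v ω|) P :=
    ((integrable_coe u).sub ((integrable_coe v).const_mul t)).abs
  have hJ : Integrable (fun ω => |u ω| - S.indicator (fun ω => |u ω|) ω +
      t * S.indicator (fun ω => |v ω|) ω) P :=
    ((integrable_abs_coe u).sub ((integrable_abs_coe u).indicator hS)).add
      (((integrable_abs_coe v).indicator hS).const_mul t)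
  have hle : ∫ ω, (|u ω| - S.indicator (fun ω => |u ω|) ω + t * S.indicator (fun ω => |v ω|) ω) ∂P ≤
      ∫ ω, (|u ω + t * v ω| + |u ω - t * v ω|) / 2 ∂P := by
    refine integral_mono hJ ((hI1.add hI2).div_const 2) fun ω => ?_
    simp only
    have h1 : 2 * |u ω| ≤ |u ω + t * v ω| + |u ω - t * v ω| := by
      have := abs_add_le (u ω + t * v ω) (u ω - t * v ω)
      have e : u ω + t * v ω + (u ω - t * v ω) = 2 * u ω := by ring
      rw [e, abs_mul, abs_two] at this
      exact this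
    have h2 : 2 * (t * |v ω|) ≤ |u ω + t * v ω| + |u ω - t * v ω| := by
      have h3 := abs_add_le (u ω + t * v ω) (-(u ω - t * v ω))
      rw [abs_neg, ← sub_eq_add_neg] at h3
      have e : u ω + t * v ω - (u ω - t * v ω) = 2 * (t * v ω) := by ring
      rw [e, abs_mul, abs_mul, abs_two, abs_of_pos ht] at h3
      exact h3
    by_cases hω : ω ∈ S
    · rw [Set.indicator_of_mem hω, Set.indicator_of_mem hω]
      linarith
    · rw [Set.indicator_of_notMem hω, Set.indicator_of_notMem hω]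
      linarith
  have i1 : Integrable (fun ω => |u ω| - S.indicator (fun ω => |u ω|) ω) P :=
    (integrable_abs_coe u).sub ((integrable_abs_coe u).indicator hS)
  have i2 : Integrable (fun ω => t * S.indicator (fun ω => |v ω|) ω) P :=
    ((integrable_abs_coe v).indicator hS).const_mul t
  have e0 : ∫ ω, (|u ω| - S.indicator (fun ω => |u ω|) ω + t * S.indicator (fun ω => |v ω|) ω) ∂P =
      ∫ ω, |u ω| ∂P - ∫ ω in S, |u ω| ∂P + t * ∫ ω in S, |v ω| ∂P := by
    rw [integral_add i1 i2, integral_sub (integrable_abs_coe u) ((integrable_abs_coe u).indicator hS),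
      integral_const_mul, integral_indicator hS, integral_indicator hS]
  have e2 : ∫ ω, (|u ω + t * v ω| + |u ω - t * v ω|) / 2 ∂P = (‖u + t • v‖ + ‖u - t • v‖) / 2 := by
    rw [integral_div, integral_add hI1 hI2, ← norm_add_smul, ← norm_sub_smul]
  rw [e0, e2] at hle
  have e1 : ∫ ω, |u ω| ∂P = ‖u‖ := by
    rw [L1.norm_eq_integral_norm]
    rfl
  rwa [e1] at hle

/-- The midpoint lower bound. -/
theorem midpoint_ge (E : Submodule ℝ (Lp ℝ 1 P)) (htb : UnitBallTotallyBoundedInMeasure P E)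
    (x : E) (hx : ‖x‖ = 1) {t : ℝ} (ht : 0 < t) {η : ℝ} (hη : 0 < η) :
    ∃ F : Submodule ℝ E, Cof F ∧ ∀ y ∈ F, ‖y‖ = 1 →
      1 + t / 2 - η ≤ (‖x + t • y‖ + ‖x - t • y‖) / 2 := by
  obtain ⟨δ, hδ, hac⟩ := abs_cont (x : Lp ℝ 1 P) (half_pos hη)
  set ε₀ := min δ (η / (2 * t)) with hε₀
  have hε₀pos : 0 < ε₀ := lt_min hδ (by positivity)
  obtain ⟨s, -, hnet⟩ := htb ε₀ hε₀pos
  let T : E →L[ℝ] (s → ℝ) :=
    ContinuousLinearMap.pi fun g => (phi g.1).comp E.subtypeL
  refine ⟨LinearMap.ker (T : E →ₗ[ℝ] (s → ℝ)), cof_ker T, fun y hy hy1 => ?_⟩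
  have hy1' : ‖(y : Lp ℝ 1 P)‖ = 1 := hy1
  obtain ⟨g, hg, hgd⟩ := hnet y y.2 hy1.le
  obtain ⟨a, ha, ha2, ha3⟩ := exists_of_measureDist_lt hgd
  have hphi : phi g (y : Lp ℝ 1 P) = 0 := by
    have h3 : T y = 0 := hy
    exact congrFun h3 ⟨g, hg⟩
  set S : Set Ω := {z | a < |(y : Lp ℝ 1 P) z - g z|} with hS
  have hSm : MeasurableSet S :=
    measurableSet_lt measurable_const ((measurable_coe _).sub (measurable_coe g)).abs
  have k1 := half_mass hy1' hphi ha hSm (fun ω hω => not_lt.mp hω)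
  have hPS : P S < ENNReal.ofReal δ :=
    ha3.trans_le (ENNReal.ofReal_le_ofReal ((ha2.le).trans (min_le_left _ _)))
  have k2 := hac S hSm hPS
  have k3 := avg_ge (x : Lp ℝ 1 P) (y : Lp ℝ 1 P) ht hSm
  have hx' : ‖(x : Lp ℝ 1 P)‖ = 1 := hx
  rw [hx'] at k3
  have e1 : ‖x + t • y‖ = ‖(x : Lp ℝ 1 P) + t • (y : Lp ℝ 1 P)‖ := rfl
  have e2 : ‖x - t • y‖ = ‖(x : Lp ℝ 1 P) - t • (y : Lp ℝ 1 P)‖ := rfl
  rw [e1, e2]
  have k4 : t * (1 / 2 - a) ≤ t * ∫ ω in S, |(y : Lp ℝ 1 P) ω| ∂P :=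
    mul_le_mul_of_nonneg_left k1 ht.le
  have k5 : t * a ≤ η / 2 := by
    have h1 : a ≤ η / (2 * t) := ha2.le.trans (min_le_right _ _)
    rw [le_div_iff₀ (by positivity)] at h1
    linarith
  linarith

end Crest.Agent.H4L1
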