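import Mathlib
import Crest.Agent.H4Iface
import Crest.Agent.H4Russo

/-!
Row 56: the numeric bound, from the statement `CoreBound` of the analytic core.
-/

set_option autoImplicit false

namespace H4

open Crest.FinProb

/-- `√λ · log (2/√λ) ≤ 2` for `λ > 0`. -/
lemma sqrt_mul_log_le {a : ℝ} (ha : 0 < a) : a * Real.log (2 / a) ≤ 2 := by
  have hx : 0 < 2 / a := by positivity
  have h1 : Real.log (2 / a) ≤ 2 / a - 1 := Real.log_le_sub_one_of_pos hx
  have h2 : a * (2 / a - 1) = 2 - a := by field_simp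
  have h3 : a * Real.log (2 / a) ≤ a * (2 / a - 1) := mul_le_mul_of_nonneg_left h1 ha.le
  linarith

theorem num_bound (hc : CoreBound) (V E : Type) [Fintype V] [DecidableEq V] [Fintype E]
    [DecidableEq E] (r : ℕ) (G : HG V E r) (hr : 2 ≤ r) (p : ℝ) (hp : 0 < p) (hp1 : p < 1)
    (f : (E → Bool) → Bool) (hf : ∀ (π : Equiv.Perm V) (x : E → Bool), f (x ∘ G.act π) = f x)
    (hn : 2 ≤ Fintype.card V) (hL : 1 ≤ Real.log (Fintype.card V) ∨ r = 2) :
    muOf p f * (1 - muOf p f) ≤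
      (4096 * r) / Real.log (Fintype.card V) ^ ((r : ℝ) / ((r : ℝ) - 1)) * infOf p f := by
  set n : ℝ := (Fintype.card V : ℝ) with hndef
  have hn1 : 1 < n := by
    have : (2 : ℝ) ≤ n := by
      rw [hndef]
      exact_mod_cast hn
    linarith
  have hn0 : 0 < n := by linarith
  set L : ℝ := Real.log n with hLdef
  have hLpos : 0 < L := Real.log_pos hn1
  set I : ℝ := infOf p f with hIdef
  have hI : 0 ≤ I := infOf_nonneg hp.le hp1.le f
  set σ2 : ℝ := muOf p f * (1 - muOf p f) with hσ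
  have hrR : (2 : ℝ) ≤ (r : ℝ) := by exact_mod_cast hr
  have hr1 : 0 < (r : ℝ) - 1 := by linarith
  set β : ℝ := (r : ℝ) / ((r : ℝ) - 1) with hβ
  have hβ2 : β ≤ 2 := by
    rw [hβ, div_le_iff₀ hr1]
    linarith
  have hβ0 : 0 < β := by
    rw [hβ]
    exact div_pos (by linarith) hr1
  have hLβ : 0 < L ^ β := Real.rpow_pos_of_pos hLpos β
  have hrhs_nonneg : 0 ≤ (4096 * (r : ℝ)) / L ^ β * I := by positivity
  -- trivial case
  rcases le_or_gt σ2 0 with hs | hs
  · linarith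
  -- main case: it suffices to bound `σ2 * L^β`
  suffices hmain : σ2 * L ^ β ≤ 4096 * (r : ℝ) * I by
    have : (4096 * (r : ℝ)) / L ^ β * I = (4096 * (r : ℝ) * I) / L ^ β := by ring
    rw [this, le_div_iff₀ hLβ]
    exact hmain
  -- parameters
  set lam : ℝ := p * (1 - p) with hlam
  have hlam0 : 0 < lam := mul_pos hp (by linarith)
  have hlam4 : lam ≤ 1 / 4 := by
    rw [hlam]
    nlinarith [sq_nonneg (p - 1 / 2)]
  set a : ℝ := Real.sqrt lam with ha
  have ha0 : 0 < a := Real.sqrt_pos.mpr hlam0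
  have ha2 : a ^ 2 = lam := Real.sq_sqrt hlam0.le
  have ha12 : a ≤ 1 / 2 := by
    have : a ^ 2 ≤ (1 / 2) ^ 2 := by rw [ha2]; norm_num; linarith
    exact (abs_le_of_sq_le_sq' this (by norm_num)).2
  set ℓ : ℝ := Real.log (2 / a) with hℓ
  have hℓ1 : 1 ≤ ℓ := by
    rw [hℓ, Real.le_log_iff_exp_le (by positivity)]
    have h4 : (4 : ℝ) ≤ 2 / a := by
      rw [le_div_iff₀ ha0]
      linarith
    have he : Real.exp 1 ≤ 4 := by
      have := Real.exp_one_lt_d9
      linarith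
    linarith
  have hℓ0 : 0 < ℓ := by linarith
  set N : ℝ := Real.exp (L / 16) with hN
  have hN1 : 1 ≤ N := Real.one_le_exp (by positivity)
  have hN16 : N ^ 16 ≤ n := by
    rw [hN, ← Real.exp_nat_mul]
    have : ((16 : ℕ) : ℝ) * (L / 16) = L := by
      push_cast
      ring
    rw [this, hLdef, Real.exp_log hn0]
  set x : ℝ := L / (16 * ℓ) with hx
  have hx0 : 0 ≤ x := by positivity
  set d : ℕ := ⌊x⌋₊ + 1 with hd
  have hd1 : 1 ≤ d := by omega
  have hdx : x ≤ (d : ℝ) := by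
    rw [hd]
    push_cast
    exact (Nat.lt_floor_add_one x).le
  have hdpow : 1 / N ≤ (Real.sqrt (p * (1 - p)) / 2) ^ (d - 1) := by
    have hd' : d - 1 = ⌊x⌋₊ := by omega
    rw [hd']
    have hbase : Real.sqrt (p * (1 - p)) / 2 = Real.exp (-ℓ) := by
      rw [← hlam, ← ha, hℓ, Real.exp_neg, Real.exp_log (by positivity)]
      field_simp
    rw [hbase, ← Real.exp_nat_mul, hN, one_div, ← Real.exp_neg]
    apply Real.exp_le_exp.mpr
    have hfl : (⌊x⌋₊ : ℝ) ≤ x := Nat.floor_le hx0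
    have h1 : (⌊x⌋₊ : ℝ) * ℓ ≤ x * ℓ := mul_le_mul_of_nonneg_right hfl hℓ0.le
    have h2 : x * ℓ = L / 16 := by
      rw [hx]
      field_simp
    nlinarith
  have hcore := hc V E r G hr p hp hp1 f hf N hN1 hN16 d hd1 hdpow
  rcases hcore with h1 | h2
  · -- case 1
    have hσpow : σ2 * (d : ℝ) ^ β ≤ 2 * r * (lam * I) := h1
    have hdβ : (L / (16 * ℓ)) ^ β ≤ (d : ℝ) ^ β :=
      Real.rpow_le_rpow hx0 hdx hβ0.le
    have hsplit : (L / (16 * ℓ)) ^ β = L ^ β / (16 * ℓ) ^ β :=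
      Real.div_rpow hLpos.le (by positivity) β
    have h16 : (1 : ℝ) ≤ 16 * ℓ := by linarith
    have h16pos : 0 < (16 * ℓ) ^ β := Real.rpow_pos_of_pos (by linarith) β
    have h16le : (16 * ℓ) ^ β ≤ (16 * ℓ) ^ 2 := by
      have := Real.rpow_le_rpow_of_exponent_le h16 hβ2
      simpa using this
    have hLle : L ^ β ≤ (d : ℝ) ^ β * (16 * ℓ) ^ β := by
      have : L ^ β / (16 * ℓ) ^ β ≤ (d : ℝ) ^ β := by rw [← hsplit]; exact hdβ
      rwa [div_le_iff₀ h16pos] at this
    have hlamℓ : lam * ℓ ^ 2 ≤ 4 := by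
      have h := sqrt_mul_log_le ha0
      have h' : a * ℓ ≤ 2 := h
      have hnn : 0 ≤ a * ℓ := by positivity
      have : (a * ℓ) ^ 2 ≤ 2 ^ 2 := pow_le_pow_left₀ hnn h' 2
      rw [mul_pow, ha2] at this
      linarith
    calc σ2 * L ^ β ≤ σ2 * ((d : ℝ) ^ β * (16 * ℓ) ^ β) :=
          mul_le_mul_of_nonneg_left hLle hs.le
      _ = (σ2 * (d : ℝ) ^ β) * (16 * ℓ) ^ β := by ring
      _ ≤ (2 * r * (lam * I)) * (16 * ℓ) ^ β :=
          mul_le_mul_of_nonneg_right hσpow h16pos.le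
      _ ≤ (2 * r * (lam * I)) * (16 * ℓ) ^ 2 :=
          mul_le_mul_of_nonneg_left h16le (by positivity)
      _ = 512 * r * I * (lam * ℓ ^ 2) := by ring
      _ ≤ 512 * r * I * 4 := mul_le_mul_of_nonneg_left hlamℓ (by positivity)
      _ ≤ 4096 * r * I := by nlinarith [mul_nonneg (by linarith : (0 : ℝ) ≤ r) hI]
  · -- case 2
    have hσN : σ2 * N ≤ 32 * r * (lam * I) := h2
    have hσN' : σ2 * N ≤ 8 * r * I := by
      have : lam * I ≤ 1 / 4 * I := mul_le_mul_of_nonneg_right hlam4 hI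
      have hr0 : (0 : ℝ) ≤ 32 * r := by positivity
      calc σ2 * N ≤ 32 * r * (lam * I) := hσN
        _ ≤ 32 * r * (1 / 4 * I) := mul_le_mul_of_nonneg_left this hr0
        _ = 8 * r * I := by ring
    have hNL : L ^ 2 / 512 ≤ N := by
      have h := Real.quadratic_le_exp_of_nonneg (x := L / 16) (by positivity)
      have : L ^ 2 / 512 = (L / 16) ^ 2 / 2 := by ring
      rw [this]
      have hL16 : 0 ≤ L / 16 := by positivity
      rw [hN]
      linarith
    have hLβ2 : L ^ β ≤ L ^ 2 := by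
      rcases hL with hL1 | hr2
      · have := Real.rpow_le_rpow_of_exponent_le hL1 hβ2
        simpa using this
      · have hβe : β = 2 := by
          rw [hβ, hr2]
          norm_num
        rw [hβe]
        simp
    calc σ2 * L ^ β ≤ σ2 * L ^ 2 := mul_le_mul_of_nonneg_left hLβ2 hs.le
      _ = 512 * (σ2 * (L ^ 2 / 512)) := by ring
      _ ≤ 512 * (σ2 * N) := by
          have := mul_le_mul_of_nonneg_left hNL hs.le
          linarith
      _ ≤ 512 * (8 * r * I) := by linarith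
      _ = 4096 * r * I := by ring

/-- The hypothesis of `s0077_of_num`. -/
theorem numBound_of_core (hc : CoreBound) : NumBound := by
  intro V E _ _ _ _ r G hr p hp hp1 f hf hn hL
  exact num_bound hc V E r G hr p hp hp1 f hf hn hL

end H4
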