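import Crest.Prelude.Def_TreeProducts
import Crest.Agent.H4Auc

set_option autoImplicit false

open MeasureTheory ProbabilityTheory Filter Topology
open Crest.AnalysisR Crest.AnalysisR.TreeProduct

namespace Crest.Agent.H4Prod

open Crest.Agent.H4Auc

variable {Ω : Type} [MeasurableSpace Ω] {μ : Measure Ω} [IsProbabilityMeasure μ]
  {W : List ℕ → Ω → ℝ} {ν : Measure ℝ} [IsProbabilityMeasure ν]

/-- Non-root vertices on the root path. -/
def path : List ℕ → Finset (List ℕ)
  | [] => ∅
  | a :: v => insert (a :: v) (path v)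

lemma length_le_of_mem_path {v u : List ℕ} (h : u ∈ path v) : u.length ≤ v.length := by
  induction v with
  | nil => simp [path] at h
  | cons a v ih =>
    simp only [path, Finset.mem_insert] at h
    rcases h with rfl | h
    · exact le_rfl
    · exact (ih h).trans (by simp)

lemma ne_nil_of_mem_path {v u : List ℕ} (h : u ∈ path v) : u ≠ [] := by
  induction v with
  | nil => simp [path] at h
  | cons a v ih =>
    simp only [path, Finset.mem_insert] at h
    rcases h with rfl | h
    · simp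
    · exact ih h

lemma cons_notMem_path (a : ℕ) (v : List ℕ) : a :: v ∉ path v := fun h => by
  have := length_le_of_mem_path h
  simp at this

lemma pathProduct_eq (W : List ℕ → Ω → ℝ) (v : List ℕ) :
    pathProduct W v = fun z => ∏ u ∈ path v, W u z := by
  induction v with
  | nil => funext z; simp [pathProduct, path]
  | cons a v ih =>
    funext z
    simp only [pathProduct, path]
    rw [Finset.prod_insert (cons_notMem_path a v), ih]
    ring

lemma measurable_pathProduct (hWm : ∀ v, Measurable (W v)) (v : List ℕ) :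
    Measurable (pathProduct W v) := by
  rw [pathProduct_eq]
  exact Finset.measurable_fun_prod _ fun u _ => hWm u

/-- Independence of the path product from increments at other vertices. -/
lemma indep_path (hWm : ∀ v, Measurable (W v)) (hI : iIndepFun W μ) {v : List ℕ}
    {T : Finset (List ℕ)} (hT : Disjoint (path v) T) (ψ : ((i : T) → ℝ) → ℝ) (hψ : Measurable ψ) :
    IndepFun (pathProduct W v) (fun z => ψ (fun i : T => W i z)) μ := by
  have h := iIndepFun.indepFun_finset (path v) T hT hI hWm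
  have h2 := h.comp (φ := fun x : (path v → ℝ) => ∏ i, x i) (ψ := ψ)
    (Finset.measurable_prod _ fun i _ => measurable_pi_apply i) hψ
  have e : pathProduct W v = (fun x : (path v → ℝ) => ∏ i, x i) ∘ fun a (i : path v) => W i a := by
    rw [pathProduct_eq]
    funext z
    simp only [Function.comp]
    rw [Finset.prod_coe_sort (path v) (fun u => W u z)]
  rw [e]
  exact h2

/-- The increment sum. -/
def Qf (W : List ℕ → Ω → ℝ) (T : Finset (List ℕ)) (d : List ℕ → ℝ) : Ω → ℝ :=
  fun z => ∑ u ∈ T, d u * (W u z - 1)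

lemma indep_path_Q (hWm : ∀ v, Measurable (W v)) (hI : iIndepFun W μ) {v : List ℕ}
    {T : Finset (List ℕ)} (hT : Disjoint (path v) T) (d : List ℕ → ℝ) :
    IndepFun (pathProduct W v) (Qf W T d) μ := by
  have h := indep_path (μ := μ) hWm hI hT (fun x => ∑ i : T, d i * (x i - 1))
    (Finset.measurable_sum _ fun i _ => (measurable_pi_apply i).sub_const 1 |>.const_mul _)
  have e : Qf W T d = fun z => ∑ i : T, d i * (W i z - 1) := by
    funext z
    simp only [Qf]
    rw [Finset.sum_coe_sort T (fun u => d u * (W u z - 1))]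
  rw [e]
  exact h

/-- Moments of the generators. -/
structure Hyp (ν : Measure ℝ) (μ : Measure Ω) (W : List ℕ → Ω → ℝ) : Prop where
  hWm : ∀ v, Measurable (W v)
  hI : iIndepFun W μ
  hmap : ∀ v, v ≠ [] → Measure.map (W v) μ = ν
  hpos : ν (Set.Ioi 0) = 1
  hmean : ∫ x, x ∂ν = 1
  hm2 : Integrable (fun x : ℝ => x ^ 2) ν
  hnc : ∀ c : ℝ, ν ≠ Measure.dirac c

variable (H : Hyp ν μ W)
include H

lemma memLp_W {u : List ℕ} (hu : u ≠ []) : MemLp (W u) 2 μ := by
  have h1 : MemLp (id : ℝ → ℝ) 2 ν :=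
    (memLp_two_iff_integrable_sq aestronglyMeasurable_id).mpr H.hm2
  rw [← H.hmap u hu] at h1
  exact (memLp_map_measure_iff aestronglyMeasurable_id (H.hWm u).aemeasurable).mp h1

lemma integrable_W {u : List ℕ} (hu : u ≠ []) : Integrable (W u) μ :=
  (memLp_W H hu).integrable (by norm_num)

lemma integral_W {u : List ℕ} (hu : u ≠ []) : ∫ z, W u z ∂μ = 1 := by
  have h := H.hmean
  rw [← H.hmap u hu] at h
  rwa [integral_map (H.hWm u).aemeasurable (f := fun x => x) aestronglyMeasurable_id] at h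

lemma ae_pos_W {u : List ℕ} (hu : u ≠ []) : ∀ᵐ z ∂μ, 0 < W u z := by
  have h1 : ∀ᵐ x ∂ν, x ∈ Set.Ioi (0 : ℝ) := by
    rw [ae_iff]
    have := (prob_compl_eq_zero_iff (μ := ν) (measurableSet_Ioi (a := (0 : ℝ)))).mpr H.hpos
    exact this
  rw [← H.hmap u hu] at h1
  exact (ae_map_iff (H.hWm u).aemeasurable measurableSet_Ioi).mp h1

/-- The `L¹`-distance of a generator from one. -/
noncomputable def delta0 (ν : Measure ℝ) : ℝ := ∫ x, |x - 1| ∂ν

omit [IsProbabilityMeasure μ] in
lemma integrable_id_nu [IsProbabilityMeasure μ] : Integrable (fun x : ℝ => x) ν := by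
  have h1 : MemLp (id : ℝ → ℝ) 2 ν :=
    (memLp_two_iff_integrable_sq aestronglyMeasurable_id).mpr H.hm2
  exact h1.integrable (by norm_num)

lemma delta0_pos : 0 < delta0 ν := by
  have hint : Integrable (fun x : ℝ => |x - 1|) ν :=
    ((integrable_id_nu H).sub (integrable_const 1)).abs
  refine lt_of_le_of_ne (integral_nonneg fun x => abs_nonneg _) ?_
  intro h0
  have h1 := (integral_eq_zero_iff_of_nonneg (fun x => abs_nonneg _) hint).mp h0.symm
  have h2 : ∀ᵐ x ∂ν, x ∈ ({1} : Set ℝ) := by
    filter_upwards [h1] with x hx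
    have : |x - 1| = 0 := hx
    rw [abs_eq_zero] at this
    simp only [Set.mem_singleton_iff]
    linarith
  have h3 : ν = Measure.dirac 1 := by
    have h4 := Measure.restrict_eq_self_of_ae_mem h2
    rw [Measure.restrict_singleton] at h4
    have h5 : ν {1} = 1 := by
      rw [ae_iff] at h2
      exact (prob_compl_eq_zero_iff (μ := ν) (measurableSet_singleton (1 : ℝ))).mp h2
    rw [h5, one_smul] at h4
    exact h4.symm
  exact H.hnc 1 h3

lemma integral_abs_W_sub {u : List ℕ} (hu : u ≠ []) : ∫ z, |W u z - 1| ∂μ = delta0 ν := by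
  unfold delta0
  rw [← H.hmap u hu]
  rw [integral_map (H.hWm u).aemeasurable (f := fun x => |x - 1|)
    ((continuous_abs.comp (continuous_id.sub continuous_const)).aestronglyMeasurable)]

lemma path_facts (v : List ℕ) :
    Integrable (pathProduct W v) μ ∧ ∫ z, pathProduct W v z ∂μ = 1 ∧
      ∀ᵐ z ∂μ, 0 ≤ pathProduct W v z := by
  induction v with
  | nil => 
    refine ⟨integrable_const (1 : ℝ), ?_, ?_⟩
    · simp [pathProduct]
    · filter_upwards with z
      simp [pathProduct]
  | cons a v ih =>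
    obtain ⟨h1, h2, h3⟩ := ih
    have hu : a :: v ≠ [] := by simp
    have hind : IndepFun (pathProduct W v) (W (a :: v)) μ := by
      have hT : Disjoint (path v) ({a :: v} : Finset (List ℕ)) :=
        Finset.disjoint_singleton_right.mpr (cons_notMem_path a v)
      exact indep_path H.hWm H.hI hT (fun x => x ⟨a :: v, Finset.mem_singleton_self _⟩)
        (measurable_pi_apply _)
    have e : pathProduct W (a :: v) = pathProduct W v * W (a :: v) := rfl
    refine ⟨?_, ?_, ?_⟩
    · rw [e]
      exact hind.integrable_mul h1 (integrable_W H hu)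
    · have := hind.integral_fun_mul_eq_mul_integral h1.aestronglyMeasurable
        (integrable_W H hu).aestronglyMeasurable
      have e2 : ∫ z, pathProduct W (a :: v) z ∂μ = ∫ z, pathProduct W v z * W (a :: v) z ∂μ := rfl
      rw [e2, this, h2, integral_W H hu, one_mul]
    · filter_upwards [h3, ae_pos_W H hu] with z hz1 hz2
      exact mul_nonneg hz1 hz2.le

lemma memLp_Qf {T : Finset (List ℕ)} (hT : ∀ u ∈ T, u ≠ []) (d : List ℕ → ℝ) :
    MemLp (Qf W T d) 2 μ := by
  unfold Qf
  refine memLp_finsetSum T fun u hu => ?_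
  exact ((memLp_W H (hT u hu)).sub (memLp_const 1)).const_mul (d u)

lemma integral_Qf {T : Finset (List ℕ)} (hT : ∀ u ∈ T, u ≠ []) (d : List ℕ → ℝ) :
    ∫ z, Qf W T d z ∂μ = 0 := by
  unfold Qf
  rw [integral_finsetSum]
  · refine Finset.sum_eq_zero fun u hu => ?_
    rw [integral_const_mul, integral_sub (integrable_W H (hT u hu)) (integrable_const 1),
      integral_W H (hT u hu)]
    simp
  · intro u hu
    exact ((integrable_W H (hT u hu)).sub (integrable_const 1)).const_mul _

lemma var_Qf {T : Finset (List ℕ)} (hT : ∀ u ∈ T, u ≠ []) (d : List ℕ → ℝ) :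
    Var[Qf W T d; μ] = (∑ u ∈ T, d u ^ 2) * Var[id; ν] := by
  have e : Qf W T d = ∑ u ∈ T, fun z => d u * (W u z - 1) := by
    funext z
    simp [Qf, Finset.sum_apply]
  rw [e, IndepFun.variance_sum, Finset.sum_mul]
  · refine Finset.sum_congr rfl fun u hu => ?_
    rw [variance_const_mul, variance_sub_const (H.hWm u).aestronglyMeasurable, ← H.hmap u (hT u hu),
      variance_id_map (H.hWm u).aemeasurable]
  · intro u hu
    exact ((memLp_W H (hT u hu)).sub (memLp_const 1)).const_mul (d u)
  · intro u hu u' hu' huu'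
    have := H.hI.indepFun huu'
    exact this.comp (φ := fun x => d u * (x - 1)) (ψ := fun x => d u' * (x - 1))
      ((measurable_id.sub_const 1).const_mul _) ((measurable_id.sub_const 1).const_mul _)

omit [IsProbabilityMeasure ν] H in
lemma abs_int_sq_le {Q : Ω → ℝ} (hQ : MemLp Q 2 μ) (h0 : ∫ z, Q z ∂μ = 0) :
    (∫ z, |Q z| ∂μ) ^ 2 ≤ Var[Q; μ] := by
  have hQ' : MemLp (fun z => |Q z|) 2 μ := hQ.norm
  have h1 := variance_nonneg (fun z => |Q z|) μ
  rw [variance_eq_sub hQ'] at h1
  rw [variance_eq_sub hQ]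
  have h2 : ∫ z, ((fun z => |Q z|) ^ 2) z ∂μ = ∫ z, (Q ^ 2) z ∂μ := by
    refine integral_congr_ae (Eventually.of_forall fun z => ?_)
    simp [sq_abs]
  have h3 : ∫ z, Q z ∂μ = 0 := h0
  simp only [h3] at *
  rw [h2] at h1
  simp only [ne_eq, OfNat.ofNat_ne_zero, not_false_eq_true, zero_pow, sub_zero]
  linarith

/-- The class of a path product. -/
noncomputable def cls (v : List ℕ) : Lp ℝ 1 μ :=
  (memLp_one_iff_integrable.mpr (path_facts H v).1).toLp _

lemma cls_ae (v : List ℕ) : (cls H v : Ω → ℝ) =ᵐ[μ] pathProduct W v := MemLp.coeFn_toLp _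

/-- The tree in the span. -/
noncomputable def Tv (v : List ℕ) : productSpan μ W :=
  ⟨cls H v, Submodule.le_topologicalClosure _ (Submodule.subset_span ⟨v, cls_ae H v⟩)⟩

lemma norm_Tv (v : List ℕ) : ‖Tv H v‖ = 1 := by
  have h1 : ‖Tv H v‖ = ‖cls H v‖ := rfl
  rw [h1, L1.norm_eq_integral_norm]
  obtain ⟨_, h2, h3⟩ := path_facts H v
  rw [← h2]
  refine integral_congr_ae ?_
  filter_upwards [cls_ae H v, h3] with z hz1 hz2
  rw [hz1, Real.norm_eq_abs, abs_of_nonneg hz2]

/-- Increment combinations. -/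
lemma sum_ae (v : List ℕ) (B : Finset ℕ) (c : ℕ → ℝ) :
    ((∑ n ∈ B, c n • (Tv H (n :: v) - Tv H v) : productSpan μ W) : Lp ℝ 1 μ) =ᵐ[μ]
      fun z => pathProduct W v z * ∑ n ∈ B, c n * (W (n :: v) z - 1) := by
  classical
  induction B using Finset.induction_on with
  | empty =>
    simp only [Finset.sum_empty, ZeroMemClass.coe_zero, mul_zero]
    exact Lp.coeFn_zero _ 1 μ
  | insert n B hn ih =>
    rw [Finset.sum_insert hn]
    have h1 : ((c n • (Tv H (n :: v) - Tv H v) + ∑ n ∈ B, c n • (Tv H (n :: v) - Tv H v) :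
        productSpan μ W) : Lp ℝ 1 μ) =
        c n • (cls H (n :: v) - cls H v) +
          ((∑ n ∈ B, c n • (Tv H (n :: v) - Tv H v) : productSpan μ W) : Lp ℝ 1 μ) := rfl
    rw [h1]
    filter_upwards [Lp.coeFn_add (c n • (cls H (n :: v) - cls H v))
        ((∑ n ∈ B, c n • (Tv H (n :: v) - Tv H v) : productSpan μ W) : Lp ℝ 1 μ),
      Lp.coeFn_smul (c n) (cls H (n :: v) - cls H v),
      Lp.coeFn_sub (cls H (n :: v)) (cls H v), ih, cls_ae H (n :: v), cls_ae H v]
      with z h1 h2 h3 h4 h5 h6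
    rw [h1, Pi.add_apply, h2, Pi.smul_apply, h3, Pi.sub_apply, h4, h5, h6, Finset.sum_insert hn]
    simp only [pathProduct, smul_eq_mul]
    ring

lemma norm_sum (v : List ℕ) (B : Finset ℕ) (c : ℕ → ℝ) :
    ‖∑ n ∈ B, c n • (Tv H (n :: v) - Tv H v)‖ =
      ∫ z, |Qf W (B.image (fun n => n :: v)) (fun u => c (u.headD 0)) z| ∂μ := by
  classical
  set T := B.image (fun n => n :: v) with hT
  set d : List ℕ → ℝ := fun u => c (u.headD 0) with hd
  have hQ : ∀ z, Qf W T d z = ∑ n ∈ B, c n * (W (n :: v) z - 1) := by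
    intro z
    simp only [Qf, hT, hd]
    rw [Finset.sum_image]
    · simp
    · intro a _ b _ hab
      simpa using hab
  have hTd : Disjoint (path v) T := by
    rw [Finset.disjoint_left]
    intro u hu hu'
    rw [hT, Finset.mem_image] at hu'
    obtain ⟨n, _, rfl⟩ := hu'
    exact cons_notMem_path n v hu
  have hTne : ∀ u ∈ T, u ≠ [] := by
    intro u hu
    rw [hT, Finset.mem_image] at hu
    obtain ⟨n, _, rfl⟩ := hu
    simp
  have hind := (indep_path_Q H.hWm H.hI hTd d).comp (φ := id) (ψ := fun x => |x|) measurable_id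
    measurable_abs
  obtain ⟨h1, h2, h3⟩ := path_facts H v
  have hQm : Measurable (Qf W T d) := by
    unfold Qf
    exact Finset.measurable_fun_sum _ fun u _ => ((H.hWm u).sub_const 1).const_mul _
  have h4 := IndepFun.integral_fun_mul_eq_mul_integral hind
    (by simpa using h1.aestronglyMeasurable) (hQm.abs.aestronglyMeasurable)
  have h5 : ∫ z, (id ∘ pathProduct W v) z ∂μ = 1 := h2
  rw [h5, one_mul] at h4
  have h6 : ‖∑ n ∈ B, c n • (Tv H (n :: v) - Tv H v)‖ =
      ‖((∑ n ∈ B, c n • (Tv H (n :: v) - Tv H v) : productSpan μ W) : Lp ℝ 1 μ)‖ := rfl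
  rw [h6, L1.norm_eq_integral_norm]
  have h7 : ∫ z, |Qf W T d z| ∂μ = ∫ z, ((fun x => |x|) ∘ Qf W T d) z ∂μ := rfl
  rw [h7, ← h4]
  refine integral_congr_ae ?_
  filter_upwards [sum_ae H v B c, h3] with z hz1 hz2
  rw [hz1, Real.norm_eq_abs, abs_mul, abs_of_nonneg hz2, ← hQ]
  rfl

lemma norm_increment (v : List ℕ) (n : ℕ) : ‖Tv H (n :: v) - Tv H v‖ = delta0 ν := by
  classical
  have h := norm_sum H v {n} (fun _ => 1)
  simp only [Finset.sum_singleton, one_smul, Finset.image_singleton] at h
  rw [h, ← integral_abs_W_sub H (u := n :: v) (by simp)]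
  refine integral_congr_ae (Eventually.of_forall fun z => ?_)
  simp [Qf]

lemma norm_sum_le (v : List ℕ) (B : Finset ℕ) (c : ℕ → ℝ) :
    ‖∑ n ∈ B, c n • (Tv H (n :: v) - Tv H v)‖ ≤
      Real.sqrt (Var[id; ν]) * Real.sqrt (∑ n ∈ B, c n ^ 2) := by
  classical
  rw [norm_sum]
  set T := B.image (fun n => n :: v) with hT
  set d : List ℕ → ℝ := fun u => c (u.headD 0) with hd
  have hTne : ∀ u ∈ T, u ≠ [] := by
    intro u hu
    rw [hT, Finset.mem_image] at hu
    obtain ⟨n, _, rfl⟩ := hu
    simp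
  have h1 := abs_int_sq_le (memLp_Qf H hTne d) (integral_Qf H hTne d)
  rw [var_Qf H hTne] at h1
  have h2 : ∑ u ∈ T, d u ^ 2 = ∑ n ∈ B, c n ^ 2 := by
    rw [hT, Finset.sum_image]
    · simp [hd]
    · intro a _ b _ hab
      simpa using hab
  rw [h2] at h1
  rw [← Real.sqrt_mul (variance_nonneg _ _), mul_comm]
  exact Real.le_sqrt_of_sq_le h1

/-- The main theorem of the row in terms of the generic properties. -/
theorem not_aucg (N : productSpan μ W → ℝ) (hN : EquivN N) : ¬ AUCg N := by
  refine not_aucg_of_tree hN (Tv H) (C := 1) (δ := delta0 ν) (delta0_pos H)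
    (fun v => (norm_Tv H v).le) (fun v n => (norm_increment H v n).ge) ?_
  intro v φ
  exact weakNull_of_l2 (y := fun n => Tv H (n :: v) - Tv H v) (Real.sqrt_nonneg _)
    (norm_sum_le H v) φ

end Crest.Agent.H4Prod
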