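import Crest.Prelude.Def_TreePotentials
import Crest.Agent.H4Auc

/-! Generic bounded potential spaces on the countably branching tree. -/

set_option autoImplicit false

open Filter Topology
open Crest.AnalysisR Crest.AnalysisR.TreePotential

namespace Crest.Agent.H4Tree

open Crest.Agent.H4Auc

/-- The indicator family of a vertex. -/
noncomputable def dl (s : List ℕ) : List ℕ → ℝ := fun u => if u = s then 1 else 0

/-- The properties of square-sum constraints. -/
structure AdmOK (Adm : (List ℕ → ℝ) → Prop) : Prop where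
  zero : Adm (fun _ => 0)
  neg : ∀ f, Adm f → Adm (fun s => - f s)
  comb : ∀ (f g h : List ℕ → ℝ) (a b : ℝ) (A : Finset (List ℕ)), [] ∈ A → Adm f → Adm g →
    0 ≤ a → 0 ≤ b → a ^ 2 + b ^ 2 ≤ 1 → (∀ s ∈ A, h s = a * f s) →
    (∀ s, s ∉ A → |h s| ≤ b * |g s|) → Adm h
  delta : ∀ s, Adm (dl s) ∨ ∀ f, Adm f → f s = 0
  sib : ∀ f, Adm f → ∀ (r : List ℕ) (B : Finset ℕ), ∑ n ∈ B, f (n :: r) ^ 2 ≤ 1

/-- Tests. -/
def Tst (Adm : (List ℕ → ℝ) → Prop) : Type :=
  {f : List ℕ → ℝ // (∀ s : List ℕ, |pathPotential f s| ≤ 1) ∧ Adm f}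

lemma abs_le_two (g : List ℕ → ℝ) (hg : ∀ u, |pathPotential g u| ≤ 1) (s : List ℕ) : |g s| ≤ 2 := by
  cases s with
  | nil =>
    have h0 := hg []
    simp only [pathPotential] at h0
    linarith
  | cons a v =>
    have h1 := hg (a :: v)
    have h2 := hg v
    simp only [pathPotential] at h1
    rw [abs_le] at h1 h2 ⊢
    constructor <;> linarith [h1.1, h1.2, h2.1, h2.2]

/-- The ambient space. -/
abbrev Amb (Adm : (List ℕ → ℝ) → Prop) : Type := lp (fun _ : Tst Adm => ℝ) ⊤

/-- Coordinate vectors. -/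
noncomputable def co (Adm : (List ℕ → ℝ) → Prop) (s : List ℕ) : Amb Adm :=
  ⟨fun f => f.1 s, memℓp_infty ⟨2, by
    rintro _ ⟨f, rfl⟩
    simpa [Real.norm_eq_abs] using abs_le_two f.1 f.2.1 s⟩⟩

/-- The space. -/
noncomputable def Sp (Adm : (List ℕ → ℝ) → Prop) : Submodule ℝ (Amb Adm) :=
  (Submodule.span ℝ (Set.range (co Adm))).topologicalClosure

variable {Adm : (List ℕ → ℝ) → Prop}

/-- Evaluation at a test. -/
noncomputable def evl (f : Tst Adm) : Amb Adm →L[ℝ] ℝ := lp.evalCLM ℝ (fun _ => ℝ) ⊤ f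

@[simp] lemma evl_apply (f : Tst Adm) (z : Amb Adm) : evl f z = z f := rfl

@[simp] lemma evl_co (f : Tst Adm) (s : List ℕ) : evl f (co Adm s) = f.1 s := rfl

lemma abs_apply_le (f : Tst Adm) (z : Amb Adm) : |z f| ≤ ‖z‖ :=
  lp.norm_apply_le_norm ENNReal.top_ne_zero z f

lemma vanish_on_Sp (Λ : Amb Adm →L[ℝ] ℝ) (h : ∀ s, Λ (co Adm s) = 0) {z : Amb Adm}
    (hz : z ∈ Sp Adm) : Λ z = 0 := by
  have h1 : Sp Adm ≤ LinearMap.ker (Λ : Amb Adm →ₗ[ℝ] ℝ) := by
    apply Submodule.topologicalClosure_minimal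
    · rw [Submodule.span_le]
      rintro _ ⟨s, rfl⟩
      simp [h]
    · exact ContinuousLinearMap.isClosed_ker Λ
  exact h1 hz

lemma pot_neg (f : List ℕ → ℝ) (s : List ℕ) :
    pathPotential (fun s => - f s) s = - pathPotential f s := by
  induction s with
  | nil => rfl
  | cons a v ih =>
    simp only [pathPotential, ih]
    ring

lemma pot_zero (s : List ℕ) : pathPotential (fun _ => (0 : ℝ)) s = 0 := by
  induction s with
  | nil => rfl
  | cons a v ih =>
    simp only [pathPotential, ih]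
    ring

/-- Negation of a test. -/
def negT (hA : AdmOK Adm) (f : Tst Adm) : Tst Adm :=
  ⟨fun s => - f.1 s, fun s => by rw [pot_neg, abs_neg]; exact f.2.1 s, hA.neg _ f.2.2⟩

/-- The zero test. -/
def zeroT (hA : AdmOK Adm) : Tst Adm :=
  ⟨fun _ => 0, fun s => by rw [pot_zero]; simp, hA.zero⟩

lemma apply_negT (hA : AdmOK Adm) (f : Tst Adm) {z : Amb Adm} (hz : z ∈ Sp Adm) :
    z (negT hA f) = - z f := by
  have := vanish_on_Sp (evl (negT hA f) + evl f) (fun s => by
    simp only [add_apply, evl_co]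
    simp [negT]) hz
  simp only [add_apply, evl_apply] at this
  linarith

lemma apply_zeroT (hA : AdmOK Adm) {z : Amb Adm} (hz : z ∈ Sp Adm) : z (zeroT hA) = 0 := by
  have := vanish_on_Sp (evl (zeroT hA)) (fun s => rfl) hz
  simpa using this

/-- Norming tests. -/
lemma exists_norming (hA : AdmOK Adm) {z : Amb Adm} (hz : z ∈ Sp Adm) {ε : ℝ} (hε : 0 < ε) :
    ∃ f : Tst Adm, ‖z‖ - ε ≤ z f := by
  by_contra hcon
  push Not at hcon
  have h0 : 0 ≤ ‖z‖ - ε := by
    have := hcon (zeroT hA)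
    rw [apply_zeroT hA hz] at this
    exact this.le
  have h1 : ‖z‖ ≤ ‖z‖ - ε := by
    refine lp.norm_le_of_forall_le h0 fun f => ?_
    rw [Real.norm_eq_abs, abs_le]
    constructor
    · have := hcon (negT hA f)
      rw [apply_negT hA f hz] at this
      linarith
    · exact (hcon f).le
  linarith

/-- Clamping. -/
noncomputable def clamp (v : ℝ) : ℝ := max (-1) (min 1 v)

lemma clamp_of_le {v : ℝ} (h : 1 ≤ v) : clamp v = 1 := by
  unfold clamp; rw [min_eq_left h]; exact max_eq_right (by norm_num)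

lemma clamp_of_ge {v : ℝ} (h : v ≤ -1) : clamp v = -1 := by
  unfold clamp; rw [min_eq_right (by linarith)]; exact max_eq_left h

lemma clamp_of_abs_le {v : ℝ} (h : |v| ≤ 1) : clamp v = v := by
  rw [abs_le] at h
  unfold clamp; rw [min_eq_right h.2]; exact max_eq_right h.1

lemma clamp_mono {v w : ℝ} (h : v ≤ w) : clamp v ≤ clamp w := by
  unfold clamp
  exact max_le_max le_rfl (min_le_min le_rfl h)

lemma clamp_sub_le {v w : ℝ} (h : v ≤ w) : clamp w - clamp v ≤ w - v := by
  rcases le_total v (-1) with h1 | h1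
  · rw [clamp_of_ge h1]
    rcases le_total w (-1) with h2 | h2
    · rw [clamp_of_ge h2]
      linarith
    · rcases le_total w 1 with h3 | h3
      · rw [clamp_of_abs_le (abs_le.mpr ⟨h2, h3⟩)]
        linarith
      · rw [clamp_of_le h3]
        linarith
  · rcases le_total v 1 with h2 | h2
    · rw [clamp_of_abs_le (abs_le.mpr ⟨h1, h2⟩)]
      rcases le_total w 1 with h3 | h3
      · rw [clamp_of_abs_le (abs_le.mpr ⟨by linarith, h3⟩)]
      · rw [clamp_of_le h3]
        linarith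
    · rw [clamp_of_le h2, clamp_of_le (h2.trans h)]
      linarith

/-- The interpolation kernel. -/
noncomputable def Psi (u r : ℝ) : ℝ := r / 2 + (clamp (u + r) + clamp (u - r)) / 2

lemma Psi_zero {u : ℝ} (hu : |u| ≤ 1) : Psi u 0 = u := by
  unfold Psi
  simp only [add_zero, sub_zero, clamp_of_abs_le hu]
  ring

lemma Psi_odd (u r : ℝ) : Psi u r - Psi u (-r) = r := by
  unfold Psi
  simp only [sub_neg_eq_add, ← sub_eq_add_neg]
  ring

lemma Psi_mono (u : ℝ) {r r' : ℝ} (h : r' ≤ r) : Psi u r' ≤ Psi u r := by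
  unfold Psi
  have h1 := clamp_mono (show u + r' ≤ u + r by linarith)
  have h2 := clamp_sub_le (show u - r ≤ u - r' by linarith)
  linarith

lemma Psi_sub_le (u : ℝ) {r r' : ℝ} (h : r' ≤ r) : Psi u r - Psi u r' ≤ r - r' := by
  unfold Psi
  have h1 := clamp_sub_le (show u + r' ≤ u + r by linarith)
  have h2 := clamp_mono (show u - r ≤ u - r' by linarith)
  linarith

lemma Psi_lip (u r r' : ℝ) : |Psi u r - Psi u r'| ≤ |r - r'| := by
  rcases le_total r' r with h | h
  · rw [abs_of_nonneg (sub_nonneg.mpr (Psi_mono u h)), abs_of_nonneg (sub_nonneg.mpr h)]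
    exact Psi_sub_le u h
  · rw [abs_sub_comm, abs_sub_comm r, abs_of_nonneg (sub_nonneg.mpr (Psi_mono u h)),
      abs_of_nonneg (sub_nonneg.mpr h)]
    exact Psi_sub_le u h

lemma Psi_bound {u r : ℝ} (hu : |u| ≤ 1) (hr : |r| ≤ 2) : |Psi u r| ≤ 1 := by
  rw [abs_le] at hu hr ⊢
  have h1 : Psi u r ≤ Psi u 2 := Psi_mono u hr.2
  have h2 : Psi u (-2) ≤ Psi u r := Psi_mono u hr.1
  have h3 : Psi u 2 = 1 := by
    unfold Psi
    rw [clamp_of_le (by linarith), clamp_of_ge (by linarith)]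
    norm_num
  have h4 : Psi u (-2) = -1 := by
    unfold Psi
    rw [show u + -2 = u - 2 by ring, show u - -2 = u + 2 by ring, clamp_of_ge (by linarith),
      clamp_of_le (by linarith)]
    norm_num
  constructor <;> linarith

/-- Deepest suffix in a finite set. -/
def ell (A : Finset (List ℕ)) : List ℕ → List ℕ
  | [] => []
  | c :: v => if c :: v ∈ A then c :: v else ell A v

lemma ell_mem {A : Finset (List ℕ)} (h0 : [] ∈ A) (s : List ℕ) : ell A s ∈ A := by
  induction s with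
  | nil => exact h0
  | cons c v ih =>
    simp only [ell]
    split_ifs with h
    · exact h
    · exact ih

lemma ell_self {A : Finset (List ℕ)} {s : List ℕ} (hs : s ∈ A) : ell A s = s := by
  cases s with
  | nil => rfl
  | cons c v => simp only [ell, if_pos hs]

lemma ell_cons {A : Finset (List ℕ)} {c : ℕ} {v : List ℕ} (hs : c :: v ∉ A) :
    ell A (c :: v) = ell A v := by
  simp only [ell, if_neg hs]

section Pot

variable (A : Finset (List ℕ)) (f g : List ℕ → ℝ) (a b σ : ℝ)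

/-- The interpolated potential. -/
noncomputable def Pot (s : List ℕ) : ℝ :=
  Psi (a * pathPotential f (ell A s)) (σ * b * (pathPotential g s - pathPotential g (ell A s)))

/-- The coefficient family of the interpolated potential. -/
noncomputable def hOf : List ℕ → ℝ
  | [] => Pot A f g a b σ []
  | c :: v => Pot A f g a b σ (c :: v) - Pot A f g a b σ v

lemma pot_hOf (s : List ℕ) : pathPotential (hOf A f g a b σ) s = Pot A f g a b σ s := by
  induction s with
  | nil => rfl
  | cons c v ih =>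
    simp only [pathPotential, ih, hOf]
    ring

variable {A f g a b σ}

lemma Pot_on (hf : ∀ s, |pathPotential f s| ≤ 1) (ha : 0 ≤ a) (ha1 : a ≤ 1) {s : List ℕ}
    (hs : s ∈ A) : Pot A f g a b σ s = a * pathPotential f s := by
  unfold Pot
  rw [ell_self hs, sub_self, mul_zero, Psi_zero]
  rw [abs_mul, abs_of_nonneg ha]
  have := hf s
  have h2 := abs_nonneg (pathPotential f s)
  nlinarith

lemma hOf_on (hf : ∀ s, |pathPotential f s| ≤ 1) (ha : 0 ≤ a) (ha1 : a ≤ 1)
    (hcl : ∀ c v, c :: v ∈ A → v ∈ A) (h0 : [] ∈ A) {s : List ℕ} (hs : s ∈ A) :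
    hOf A f g a b σ s = a * f s := by
  cases s with
  | nil =>
    simp only [hOf]
    rw [Pot_on hf ha ha1 h0]
    rfl
  | cons c v =>
    simp only [hOf]
    rw [Pot_on hf ha ha1 hs, Pot_on hf ha ha1 (hcl c v hs)]
    simp only [pathPotential]
    ring

lemma hOf_off (hσ : |σ| = 1) (hb : 0 ≤ b) (h0 : [] ∈ A) {s : List ℕ} (hs : s ∉ A) :
    |hOf A f g a b σ s| ≤ b * |g s| := by
  cases s with
  | nil => exact absurd h0 hs
  | cons c v =>
    simp only [hOf, Pot]
    rw [ell_cons hs]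
    refine (Psi_lip _ _ _).trans (le_of_eq ?_)
    have e : σ * b * (pathPotential g (c :: v) - pathPotential g (ell A v)) -
        σ * b * (pathPotential g v - pathPotential g (ell A v)) = σ * (b * g (c :: v)) := by
      simp only [pathPotential]
      ring
    rw [e, abs_mul, hσ, one_mul, abs_mul, abs_of_nonneg hb]

lemma hOf_diff_off (h0 : [] ∈ A) {s : List ℕ} (hs : s ∉ A) :
    hOf A f g a b 1 s - hOf A f g a b (-1) s = b * g s := by
  cases s with
  | nil => exact absurd h0 hs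
  | cons c v =>
    simp only [hOf, Pot]
    rw [ell_cons hs]
    set u := a * pathPotential f (ell A v)
    set w := pathPotential g (ell A v)
    have h1 := Psi_odd u (1 * b * (pathPotential g (c :: v) - w))
    have h2 := Psi_odd u (1 * b * (pathPotential g v - w))
    have e1 : -1 * b * (pathPotential g (c :: v) - w) = -(1 * b * (pathPotential g (c :: v) - w)) := by
      ring
    have e2 : -1 * b * (pathPotential g v - w) = -(1 * b * (pathPotential g v - w)) := by ring
    rw [e1, e2]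
    simp only [pathPotential] at h1 ⊢
    linarith

lemma Pot_bound (hf : ∀ s, |pathPotential f s| ≤ 1) (hg : ∀ s, |pathPotential g s| ≤ 1)
    (hσ : |σ| = 1) (ha : 0 ≤ a) (ha1 : a ≤ 1) (hb : 0 ≤ b) (hb1 : b ≤ 1) (s : List ℕ) :
    |Pot A f g a b σ s| ≤ 1 := by
  unfold Pot
  refine Psi_bound ?_ ?_
  · rw [abs_mul, abs_of_nonneg ha]
    have := hf (ell A s)
    have h2 := abs_nonneg (pathPotential f (ell A s))
    nlinarith
  · rw [abs_mul, abs_mul, hσ, one_mul, abs_of_nonneg hb]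
    have h1 : |pathPotential g s - pathPotential g (ell A s)| ≤ 2 := by
      have h2 := hg s
      have h3 := hg (ell A s)
      rw [abs_le] at h2 h3 ⊢
      constructor <;> linarith [h2.1, h2.2, h3.1, h3.2]
    have h2 := abs_nonneg (pathPotential g s - pathPotential g (ell A s))
    nlinarith

end Pot

/-- The interpolated test. -/
noncomputable def hT (hA : AdmOK Adm) (A : Finset (List ℕ)) (h0 : [] ∈ A)
    (hcl : ∀ c v, c :: v ∈ A → v ∈ A) (f g : Tst Adm) (a b σ : ℝ) (hσ : |σ| = 1) (ha : 0 ≤ a)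
    (hb : 0 ≤ b) (hab : a ^ 2 + b ^ 2 ≤ 1) : Tst Adm :=
  have ha1 : a ≤ 1 := by nlinarith [sq_nonneg b]
  have hb1 : b ≤ 1 := by nlinarith [sq_nonneg a]
  ⟨hOf A f.1 g.1 a b σ, fun s => by
      rw [pot_hOf]
      exact Pot_bound f.2.1 g.2.1 hσ ha ha1 hb hb1 s,
    hA.comb f.1 g.1 _ a b A h0 f.2.2 g.2.2 ha hb hab
      (fun s hs => hOf_on f.2.1 ha ha1 hcl h0 hs) (fun s hs => hOf_off hσ hb h0 hs)⟩

/-- Finite support of elements of the algebraic span. -/
lemma finite_supp {z : Amb Adm} (hz : z ∈ Submodule.span ℝ (Set.range (co Adm))) :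
    ∃ S : Finset (List ℕ), ∀ Λ : Amb Adm →L[ℝ] ℝ, (∀ s ∈ S, Λ (co Adm s) = 0) → Λ z = 0 := by
  classical
  induction hz using Submodule.span_induction with
  | mem x hx =>
    obtain ⟨s, rfl⟩ := hx
    exact ⟨{s}, fun Λ h => h s (Finset.mem_singleton_self s)⟩
  | zero => exact ⟨∅, fun Λ _ => map_zero Λ⟩
  | add x y _ _ hx hy =>
    obtain ⟨S₁, h₁⟩ := hx
    obtain ⟨S₂, h₂⟩ := hy
    refine ⟨S₁ ∪ S₂, fun Λ h => ?_⟩
    rw [map_add, h₁ Λ (fun s hs => h s (Finset.mem_union_left _ hs)),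
      h₂ Λ (fun s hs => h s (Finset.mem_union_right _ hs)), add_zero]
  | smul c x _ hx =>
    obtain ⟨S, h⟩ := hx
    exact ⟨S, fun Λ hΛ => by rw [map_smul, h Λ hΛ, smul_zero]⟩

/-- Approximation by finitely supported elements. -/
lemma exists_approx {z : Amb Adm} (hz : z ∈ Sp Adm) {η : ℝ} (hη : 0 < η) :
    ∃ z' : Amb Adm, ‖z - z'‖ < η ∧ ∃ S : Finset (List ℕ), ∀ Λ : Amb Adm →L[ℝ] ℝ,
      (∀ s ∈ S, Λ (co Adm s) = 0) → Λ z' = 0 := by
  have hz' : z ∈ closure ((Submodule.span ℝ (Set.range (co Adm)) : Submodule ℝ (Amb Adm)) :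
      Set (Amb Adm)) := hz
  obtain ⟨z', hz'1, hz'2⟩ := Metric.mem_closure_iff.mp hz' η hη
  refine ⟨z', ?_, finite_supp hz'1⟩
  rwa [← dist_eq_norm]

/-- A finite suffix-closed set containing the root and a given set. -/
noncomputable def clo (S : Finset (List ℕ)) : Finset (List ℕ) :=
  insert [] (S.biUnion fun s => s.tails.toFinset)

lemma nil_mem_clo (S : Finset (List ℕ)) : [] ∈ clo S := Finset.mem_insert_self _ _

lemma subset_clo (S : Finset (List ℕ)) : S ⊆ clo S := by
  intro s hs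
  refine Finset.mem_insert_of_mem (Finset.mem_biUnion.mpr ⟨s, hs, ?_⟩)
  simp

lemma clo_closed (S : Finset (List ℕ)) (c : ℕ) (v : List ℕ) (h : c :: v ∈ clo S) : v ∈ clo S := by
  unfold clo at h ⊢
  rw [Finset.mem_insert] at h
  rcases h with h | h
  · simp at h
  · obtain ⟨s, hs, hs'⟩ := Finset.mem_biUnion.mp h
    refine Finset.mem_insert_of_mem (Finset.mem_biUnion.mpr ⟨s, hs, ?_⟩)
    simp only [List.mem_toFinset, List.mem_tails] at hs' ⊢
    exact (List.suffix_cons c v).trans hs'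

lemma pot_dl (s v : List ℕ) : pathPotential (dl s) v = if s <:+ v then 1 else 0 := by
  induction v with
  | nil =>
    simp only [pathPotential, dl, List.suffix_nil]
    by_cases h : s = []
    · simp [h]
    · simp [h, Ne.symm h]
  | cons c v ih =>
    simp only [pathPotential, ih, dl, List.suffix_cons_iff]
    by_cases h : c :: v = s
    · have h2 : ¬ s <:+ v := by
        intro h3
        have := h3.length_le
        rw [← h] at this
        simp at this
      simp [h, h2]
    · have h3 : ¬ s = c :: v := fun h' => h h'.symm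
      simp [h, h3]

lemma dl_pot_bound (s v : List ℕ) : |pathPotential (dl s) v| ≤ 1 := by
  rw [pot_dl]
  split_ifs <;> simp

/-- The coordinate test. -/
noncomputable def dT (s : List ℕ) (h : Adm (dl s)) : Tst Adm := ⟨dl s, dl_pot_bound s, h⟩

/-- Evaluation bound with approximate support. -/
lemma near_eval {x x' : Amb Adm} (p q : Tst Adm) {a η : ℝ} (ha0 : 0 ≤ a) (ha1 : a ≤ 1)
    (hx : ‖x - x'‖ < η) (h0 : (evl p - a • evl q) x' = 0) : a * x q - 2 * η ≤ x p := by
  have h1 : x' p = a * x' q := by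
    simp only [sub_apply, evl_apply, smul_apply, smul_eq_mul] at h0
    linarith
  have h2 := abs_apply_le p (x - x')
  have h3 := abs_apply_le q (x - x')
  have e1 : (x - x') p = x p - x' p := rfl
  have e2 : (x - x') q = x q - x' q := rfl
  rw [e1] at h2
  rw [e2] at h3
  rw [abs_le] at h2 h3
  nlinarith [h2.1, h2.2, h3.1, h3.2]

/-- The two-centre inequality. -/
theorem two_centre (hA : AdmOK Adm) (x₁ x₂ : Sp Adm) {ε : ℝ} (hε : 0 < ε) :
    ∃ F : Submodule ℝ (Sp Adm), Cof F ∧ ∀ y ∈ F, ∀ a b : ℝ, 0 ≤ a → 0 ≤ b → a ^ 2 + b ^ 2 ≤ 1 →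
      2 * a * ‖(1 / 2 : ℝ) • (x₁ + x₂)‖ + b * ‖y‖ - ε ≤ ‖x₁ + y‖ + ‖x₂ - y‖ := by
  classical
  set η := ε / 7 with hηdef
  have hη : 0 < η := by positivity
  obtain ⟨x₁', h₁, S₁, hS₁⟩ := exists_approx x₁.2 hη
  obtain ⟨x₂', h₂, S₂, hS₂⟩ := exists_approx x₂.2 hη
  set A := clo (S₁ ∪ S₂) with hAdef
  have h0 : [] ∈ A := nil_mem_clo _
  have hcl : ∀ c v, c :: v ∈ A → v ∈ A := clo_closed _
  have hS₁A : ∀ s ∈ S₁, s ∈ A := fun s hs => subset_clo _ (Finset.mem_union_left _ hs)
  have hS₂A : ∀ s ∈ S₂, s ∈ A := fun s hs => subset_clo _ (Finset.mem_union_right _ hs)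
  set A' := A.filter (fun s => Adm (dl s)) with hA'def
  have hA'adm : ∀ i : A', Adm (dl i.1) := fun i => (Finset.mem_filter.mp i.2).2
  let T : Sp Adm →L[ℝ] (A' → ℝ) :=
    ContinuousLinearMap.pi fun i => (evl (dT i.1 (hA'adm i))).comp (Sp Adm).subtypeL
  refine ⟨LinearMap.ker (T : Sp Adm →ₗ[ℝ] (A' → ℝ)), cof_ker T, ?_⟩
  intro y hy a b ha hb hab
  have ha1 : a ≤ 1 := by nlinarith [sq_nonneg b]
  have hb1 : b ≤ 1 := by nlinarith [sq_nonneg a]
  have hy0 : ∀ i : A', (y : Amb Adm) (dT i.1 (hA'adm i)) = 0 := by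
    intro i
    have h3 : T y = 0 := hy
    exact congrFun h3 i
  obtain ⟨f, hf⟩ := exists_norming hA ((1 / 2 : ℝ) • (x₁ + x₂)).2 hη
  obtain ⟨g, hg⟩ := exists_norming hA y.2 hη
  set hp := hT hA A h0 hcl f g a b 1 (by simp) ha hb hab with hpdef
  set hm := hT hA A h0 hcl f g a b (-1) (by simp) ha hb hab with hmdef
  have hpon : ∀ s ∈ A, hp.1 s = a * f.1 s := fun s hs => hOf_on f.2.1 ha ha1 hcl h0 hs
  have hmon : ∀ s ∈ A, hm.1 s = a * f.1 s := fun s hs => hOf_on f.2.1 ha ha1 hcl h0 hs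
  have hdiff : ∀ s, s ∉ A → hp.1 s - hm.1 s = b * g.1 s := fun s hs => hOf_diff_off h0 hs
  have k1 : a * (x₁ : Amb Adm) f - 2 * η ≤ (x₁ : Amb Adm) hp := by
    refine near_eval hp f ha ha1 h₁ (hS₁ _ fun s hs => ?_)
    simp only [sub_apply, smul_apply, evl_co, smul_eq_mul]
    rw [hpon s (hS₁A s hs)]
    ring
  have k2 : a * (x₂ : Amb Adm) f - 2 * η ≤ (x₂ : Amb Adm) hm := by
    refine near_eval hm f ha ha1 h₂ (hS₂ _ fun s hs => ?_)
    simp only [sub_apply, smul_apply, evl_co, smul_eq_mul]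
    rw [hmon s (hS₂A s hs)]
    ring
  have k3 : (y : Amb Adm) hp - (y : Amb Adm) hm = b * (y : Amb Adm) g := by
    let Λ : Amb Adm →L[ℝ] ℝ := evl hp - evl hm - b • evl g +
      ∑ i : A', (b * g.1 i.1) • evl (dT i.1 (hA'adm i))
    have hΛ : ∀ s, Λ (co Adm s) = 0 := by
      intro s
      simp only [Λ, add_apply, sub_apply, smul_apply, evl_co, smul_eq_mul,
        sum_apply]
      have e : ∑ i : A', b * g.1 i.1 * (dT (Adm := Adm) i.1 (hA'adm i)).1 s =
          if s ∈ A' then b * g.1 s else 0 := by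
        have e1 : ∀ i : A', b * g.1 i.1 * (dT (Adm := Adm) i.1 (hA'adm i)).1 s =
            (fun i => if s = i then b * g.1 i else 0) i.1 := by
          intro i
          simp only [dT, dl]
          by_cases h : s = i.1
          · simp [h]
          · simp [h]
        rw [Finset.sum_congr rfl (fun i _ => e1 i), Finset.sum_coe_sort A' (fun i => if s = i then b * g.1 i else 0),
          Finset.sum_ite_eq]
      rw [e]
      by_cases hs : s ∈ A
      · rw [hpon s hs, hmon s hs]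
        by_cases hs' : s ∈ A'
        · rw [if_pos hs']
          ring
        · rw [if_neg hs']
          have hg0 : g.1 s = 0 := by
            rcases hA.delta s with h | h
            · exact absurd (Finset.mem_filter.mpr ⟨hs, h⟩) hs'
            · exact h _ g.2.2
          rw [hg0]
          ring
      · have hs' : s ∉ A' := fun h => hs (Finset.mem_filter.mp h).1
        rw [if_neg hs', hdiff s hs]
        ring
    have h3 := vanish_on_Sp Λ hΛ y.2
    simp only [Λ, add_apply, sub_apply, smul_apply, evl_apply, smul_eq_mul,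
      sum_apply, hy0, mul_zero, Finset.sum_const_zero, add_zero] at h3
    linarith
  have n1 : (x₁ : Amb Adm) hp + (y : Amb Adm) hp ≤ ‖x₁ + y‖ :=
    (le_abs_self _).trans (abs_apply_le hp ((x₁ : Amb Adm) + y))
  have n2 : (x₂ : Amb Adm) hm - (y : Amb Adm) hm ≤ ‖x₂ - y‖ :=
    (le_abs_self _).trans (abs_apply_le hm ((x₂ : Amb Adm) - y))
  have hf' : ‖(1 / 2 : ℝ) • (x₁ + x₂)‖ - η ≤ (1 / 2 : ℝ) * ((x₁ : Amb Adm) f + (x₂ : Amb Adm) f) := hf
  have m1 : a * (‖(1 / 2 : ℝ) • (x₁ + x₂)‖ - η) ≤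
      a * ((1 / 2 : ℝ) * ((x₁ : Amb Adm) f + (x₂ : Amb Adm) f)) :=
    mul_le_mul_of_nonneg_left hf' ha
  have m2 : b * (‖y‖ - η) ≤ b * (y : Amb Adm) g := mul_le_mul_of_nonneg_left hg hb
  have m3 : a * η ≤ η := by nlinarith
  have m4 : b * η ≤ η := by nlinarith
  have hε7 : ε = 7 * η := by rw [hηdef]; ring
  rw [hε7]
  nlinarith

/-- The two-centre inequality, optimized over the parameters. -/
theorem two_centre' (hA : AdmOK Adm) (x₁ x₂ : Sp Adm) {ε : ℝ} (hε : 0 < ε) :
    ∃ F : Submodule ℝ (Sp Adm), Cof F ∧ ∀ y ∈ F,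
      2 * Real.sqrt (‖(1 / 2 : ℝ) • (x₁ + x₂)‖ ^ 2 + ‖y‖ ^ 2 / 4) - ε ≤ ‖x₁ + y‖ + ‖x₂ - y‖ := by
  obtain ⟨F, hF, h⟩ := two_centre hA x₁ x₂ hε
  refine ⟨F, hF, fun y hy => ?_⟩
  set X := ‖(1 / 2 : ℝ) • (x₁ + x₂)‖ with hX
  set Y := ‖y‖ with hY
  have hX0 : 0 ≤ X := norm_nonneg _
  have hY0 : 0 ≤ Y := norm_nonneg _
  set Q := X ^ 2 + Y ^ 2 / 4 with hQ
  have hQ0 : 0 ≤ Q := by positivity
  set R := Real.sqrt Q with hR
  have hR2 : R * R = Q := Real.mul_self_sqrt hQ0
  by_cases hR0 : R = 0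
  · rw [hR0]
    have := norm_nonneg (x₁ + y)
    have := norm_nonneg (x₂ - y)
    linarith
  · have hRpos : 0 < R := lt_of_le_of_ne (Real.sqrt_nonneg _) (Ne.symm hR0)
    have h1 := h y hy (X / R) (Y / 2 / R) (by positivity) (by positivity) (by
      have : (X / R) ^ 2 + (Y / 2 / R) ^ 2 = Q / (R * R) := by
        rw [hQ]
        field_simp
        ring
      rw [this, hR2, div_self]
      intro h0
      rw [← hR2] at h0
      exact hR0 (mul_self_eq_zero.mp h0))
    have h2 : 2 * (X / R) * X + Y / 2 / R * Y = 2 * R := by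
      have : 2 * (X / R) * X + Y / 2 / R * Y = 2 * Q / R := by
        rw [hQ]
        field_simp
        ring
      rw [this, ← hR2]
      field_simp
    linarith

/-- The midpoint bound. -/
theorem midpoint_bound (hA : AdmOK Adm) (x : Sp Adm) (hx : ‖x‖ = 1) (t : ℝ) {η : ℝ} (hη : 0 < η) :
    ∃ F : Submodule ℝ (Sp Adm), Cof F ∧ ∀ y ∈ F, ‖y‖ = 1 →
      Real.sqrt (1 + t ^ 2 / 4) - η ≤ (‖x + t • y‖ + ‖x - t • y‖) / 2 := by
  obtain ⟨F, hF, h⟩ := two_centre' hA x x (ε := 2 * η) (by positivity)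
  refine ⟨F, hF, fun y hy hy1 => ?_⟩
  have h1 := h (t • y) (F.smul_mem t hy)
  have e : (1 / 2 : ℝ) • (x + x) = x := by
    rw [← two_smul ℝ x, smul_smul]
    norm_num
  rw [e, hx, norm_smul, hy1, Real.norm_eq_abs, mul_one, sq_abs, one_pow] at h1
  linarith

/-- The tree of potentials. -/
noncomputable def tv (Adm : (List ℕ → ℝ) → Prop) : List ℕ → Amb Adm
  | [] => co Adm []
  | c :: v => tv Adm v + co Adm (c :: v)

lemma co_mem (s : List ℕ) : co Adm s ∈ Sp Adm :=
  Submodule.le_topologicalClosure _ (Submodule.subset_span ⟨s, rfl⟩)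

lemma tv_mem (v : List ℕ) : tv Adm v ∈ Sp Adm := by
  induction v with
  | nil => exact co_mem _
  | cons c v ih => exact (Sp Adm).add_mem ih (co_mem _)

lemma tv_apply (f : Tst Adm) (v : List ℕ) : tv Adm v f = pathPotential f.1 v := by
  induction v with
  | nil => rfl
  | cons c v ih =>
    have : tv Adm (c :: v) f = tv Adm v f + f.1 (c :: v) := rfl
    rw [this, ih]
    rfl

lemma norm_tv_le (v : List ℕ) : ‖tv Adm v‖ ≤ 1 := by
  refine lp.norm_le_of_forall_le zero_le_one fun f => ?_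
  rw [Real.norm_eq_abs, tv_apply]
  exact f.2.1 v

lemma one_le_norm_co {s : List ℕ} (h : Adm (dl s)) : 1 ≤ ‖co Adm s‖ := by
  have h1 := abs_apply_le (dT s h) (co Adm s)
  have h2 : (co Adm s) (dT s h) = 1 := by
    change dl s s = 1
    simp [dl]
  rw [h2] at h1
  simpa using h1

lemma norm_sum_co_le (hA : AdmOK Adm) (v : List ℕ) (B : Finset ℕ) (c : ℕ → ℝ) :
    ‖∑ n ∈ B, c n • co Adm (n :: v)‖ ≤ Real.sqrt (∑ n ∈ B, c n ^ 2) := by
  refine lp.norm_le_of_forall_le (Real.sqrt_nonneg _) fun f => ?_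
  have e : (∑ n ∈ B, c n • co Adm (n :: v)) f = ∑ n ∈ B, c n * f.1 (n :: v) := by
    calc (∑ n ∈ B, c n • co Adm (n :: v)) f = evl f (∑ n ∈ B, c n • co Adm (n :: v)) := rfl
      _ = ∑ n ∈ B, evl f (c n • co Adm (n :: v)) := map_sum _ _ _
      _ = ∑ n ∈ B, c n * f.1 (n :: v) := Finset.sum_congr rfl fun n _ => by
        rw [map_smul]
        rfl
  rw [e, Real.norm_eq_abs]
  apply Real.abs_le_sqrt
  have h1 := Finset.sum_mul_sq_le_sq_mul_sq B c (fun n => f.1 (n :: v))
  have h2 := hA.sib f.1 f.2.2 v B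
  have h3 : 0 ≤ ∑ n ∈ B, c n ^ 2 := Finset.sum_nonneg fun n _ => sq_nonneg _
  nlinarith

/-- No equivalent norm is asymptotically uniformly convex. -/
theorem not_aucg_tree (hA : AdmOK Adm) (hadm : ∀ n v, Adm (dl (n :: v))) (N : Sp Adm → ℝ)
    (hN : EquivN N) : ¬ AUCg N := by
  let T : List ℕ → Sp Adm := fun v => ⟨tv Adm v, tv_mem v⟩
  have hinc : ∀ n v, ((T (n :: v) - T v : Sp Adm) : Amb Adm) = co Adm (n :: v) := by
    intro n v
    change tv Adm v + co Adm (n :: v) - tv Adm v = co Adm (n :: v)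
    abel
  refine not_aucg_of_tree hN T (C := 1) (δ := 1) one_pos (fun v => norm_tv_le v) ?_ ?_
  · intro v n
    have : ‖T (n :: v) - T v‖ = ‖((T (n :: v) - T v : Sp Adm) : Amb Adm)‖ := rfl
    rw [this, hinc]
    exact one_le_norm_co (hadm n v)
  · intro v φ
    refine weakNull_of_l2 (y := fun n => T (n :: v) - T v) (K := 1) zero_le_one ?_ φ
    intro B c
    rw [one_mul]
    have h1 : ‖∑ n ∈ B, c n • (T (n :: v) - T v)‖ =
        ‖((∑ n ∈ B, c n • (T (n :: v) - T v) : Sp Adm) : Amb Adm)‖ := rfl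
    rw [h1, Submodule.coe_sum]
    simp only [Submodule.coe_smul, hinc]
    exact norm_sum_co_le hA v B c

/-- Separability. -/
lemma separable_Sp : TopologicalSpace.SeparableSpace (Sp Adm) := by
  have h : TopologicalSpace.IsSeparable (Sp Adm : Set (Amb Adm)) :=
    ((Set.countable_range (co Adm)).isSeparable.span (R := ℝ)).closure
  exact h.separableSpace

/-! ### The four models -/

lemma comb_sum {ι : Type*} {f g h : List ℕ → ℝ} {a b : ℝ} {A : Finset (List ℕ)} (ha : 0 ≤ a)
    (hb : 0 ≤ b) (hab : a ^ 2 + b ^ 2 ≤ 1) (h1 : ∀ s ∈ A, h s = a * f s)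
    (h2 : ∀ s, s ∉ A → |h s| ≤ b * |g s|) (B : Finset ι) (w : ι → List ℕ)
    (hf : ∑ i ∈ B, f (w i) ^ 2 ≤ 1) (hg : ∑ i ∈ B, g (w i) ^ 2 ≤ 1) :
    ∑ i ∈ B, h (w i) ^ 2 ≤ 1 := by
  have hp : ∀ i ∈ B, h (w i) ^ 2 ≤ a ^ 2 * f (w i) ^ 2 + b ^ 2 * g (w i) ^ 2 := by
    intro i _
    by_cases hs : w i ∈ A
    · rw [h1 _ hs, mul_pow]
      nlinarith [mul_nonneg (sq_nonneg b) (sq_nonneg (g (w i)))]
    · have h3 := h2 _ hs
      have h4 : h (w i) ^ 2 ≤ (b * |g (w i)|) ^ 2 := by
        rw [← sq_abs (h (w i))]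
        exact pow_le_pow_left₀ (abs_nonneg _) h3 2
      rw [mul_pow, sq_abs] at h4
      nlinarith [mul_nonneg (sq_nonneg a) (sq_nonneg (f (w i)))]
  calc ∑ i ∈ B, h (w i) ^ 2 ≤ ∑ i ∈ B, (a ^ 2 * f (w i) ^ 2 + b ^ 2 * g (w i) ^ 2) :=
        Finset.sum_le_sum hp
    _ = a ^ 2 * ∑ i ∈ B, f (w i) ^ 2 + b ^ 2 * ∑ i ∈ B, g (w i) ^ 2 := by
        rw [Finset.sum_add_distrib, Finset.mul_sum, Finset.mul_sum]
    _ ≤ a ^ 2 * 1 + b ^ 2 * 1 := by
        gcongr
    _ ≤ 1 := by linarith

lemma dl_sum_le {ι : Type*} (s : List ℕ) (B : Finset ι) (w : ι → List ℕ)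
    (hw : Function.Injective w) : ∑ i ∈ B, dl s (w i) ^ 2 ≤ 1 := by
  by_cases h : ∃ i₀ ∈ B, w i₀ = s
  · obtain ⟨i₀, hi₀, hs⟩ := h
    rw [Finset.sum_eq_single i₀]
    · simp [dl, hs]
    · intro i _ hne
      have : w i ≠ s := fun h' => hne (hw (h'.trans hs.symm))
      simp [dl, this]
    · intro hn
      exact absurd hi₀ hn
  · push Not at h
    rw [Finset.sum_eq_zero]
    · exact zero_le_one
    · intro i hi
      simp [dl, h i hi]

lemma cons_injective' (r : List ℕ) : Function.Injective (fun n : ℕ => n :: r) := by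
  intro a b hab
  simpa using hab

lemma neg_sum_le {ι : Type*} {f : List ℕ → ℝ} (B : Finset ι) (w : ι → List ℕ)
    (hf : ∑ i ∈ B, f (w i) ^ 2 ≤ 1) : ∑ i ∈ B, (- f (w i)) ^ 2 ≤ 1 := by
  simpa using hf

lemma zero_sum_le {ι : Type*} (B : Finset ι) (w : ι → List ℕ) :
    ∑ i ∈ B, (fun _ => (0 : ℝ)) (w i) ^ 2 ≤ 1 := by
  simp

/-- The rootless sibling model. -/
theorem admOK_rootless : AdmOK (ExtraCondition .rootlessSibling) where
  zero := ⟨rfl, fun r A => zero_sum_le A (fun n => n :: r)⟩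
  neg := fun f hf => ⟨by simp [hf.1], fun r A => neg_sum_le A (fun n => n :: r) (hf.2 r A)⟩
  comb := fun f g h a b A h0 hf hg ha hb hab h1 h2 =>
    ⟨by rw [h1 _ h0, hf.1, mul_zero],
      fun r B => comb_sum ha hb hab h1 h2 B (fun n => n :: r) (hf.2 r B) (hg.2 r B)⟩
  delta := fun s => by
    cases s with
    | nil => exact Or.inr fun f hf => hf.1
    | cons c v =>
      exact Or.inl ⟨by simp [dl], fun r B => dl_sum_le _ B _ (cons_injective' r)⟩
  sib := fun f hf r B => hf.2 r B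

/-- The rooted sibling model. -/
theorem admOK_rooted : AdmOK (ExtraCondition .rootedSibling) where
  zero := fun r A => zero_sum_le A (fun n => n :: r)
  neg := fun f hf r A => neg_sum_le A (fun n => n :: r) (hf r A)
  comb := fun f g h a b A h0 hf hg ha hb hab h1 h2 r B =>
    comb_sum ha hb hab h1 h2 B (fun n => n :: r) (hf r B) (hg r B)
  delta := fun s => Or.inl fun r B => dl_sum_le _ B _ (cons_injective' r)
  sib := fun f hf r B => hf r B

/-- Children form antichains. -/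
lemma antichain_image (r : List ℕ) (B : Finset ℕ) :
    IsTreeAntichain (B.image fun n => n :: r) := by
  intro u hu v hv huv hs
  rw [Finset.mem_image] at hu hv
  obtain ⟨a, _, rfl⟩ := hu
  obtain ⟨b, _, rfl⟩ := hv
  exact huv (hs.eq_of_length (by simp))

lemma sum_image_cons (f : List ℕ → ℝ) (r : List ℕ) (B : Finset ℕ) :
    ∑ u ∈ B.image (fun n => n :: r), f u ^ 2 = ∑ n ∈ B, f (n :: r) ^ 2 := by
  rw [Finset.sum_image]
  intro a _ b _ hab
  exact cons_injective' r hab

/-- The antichain model. -/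
theorem admOK_antichain : AdmOK (ExtraCondition .antichain) where
  zero := ⟨by simp, fun A _ => zero_sum_le A id⟩
  neg := fun f hf => ⟨by
      have : Function.support (fun s => - f s) = Function.support f := Function.support_neg _
      rw [this]
      exact hf.1, fun A hA => neg_sum_le A id (hf.2 A hA)⟩
  comb := fun f g h a b A h0 hf hg ha hb hab h1 h2 => by
    refine ⟨?_, fun B hB => comb_sum ha hb hab h1 h2 B id (hf.2 B hB) (hg.2 B hB)⟩
    refine (A.finite_toSet.union hg.1).subset ?_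
    intro s hs
    by_cases hsA : s ∈ A
    · exact Or.inl hsA
    · refine Or.inr ?_
      intro hg0
      have := h2 s hsA
      rw [hg0, abs_zero, mul_zero] at this
      exact hs (abs_nonpos_iff.mp this)
  delta := fun s => Or.inl ⟨(Set.finite_singleton s).subset (by
      intro u hu
      by_contra h
      exact hu (by
        have h' : u ≠ s := by simpa using h
        simp only [dl]
        rw [if_neg h'])), fun A _ => dl_sum_le s A id Function.injective_id⟩
  sib := fun f hf r B => by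
    rw [← sum_image_cons]
    exact hf.2 _ (antichain_image r B)

/-- The global model. -/
theorem admOK_global : AdmOK (ExtraCondition .global) where
  zero := fun A => zero_sum_le A id
  neg := fun f hf A => neg_sum_le A id (hf A)
  comb := fun f g h a b A h0 hf hg ha hb hab h1 h2 B =>
    comb_sum ha hb hab h1 h2 B id (hf B) (hg B)
  delta := fun s => Or.inl fun A => dl_sum_le s A id Function.injective_id
  sib := fun f hf r B => by
    rw [← sum_image_cons]
    exact hf _

theorem admOK_model (m : PotentialModel) : AdmOK (ExtraCondition m) := by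
  cases m
  · exact admOK_rootless
  · exact admOK_rooted
  · exact admOK_antichain
  · exact admOK_global

theorem adm_dl_cons (m : PotentialModel) (n : ℕ) (v : List ℕ) : ExtraCondition m (dl (n :: v)) := by
  cases m
  · exact ⟨by simp [dl], fun r B => dl_sum_le _ B _ (cons_injective' r)⟩
  · exact fun r B => dl_sum_le _ B _ (cons_injective' r)
  · exact ⟨(Set.finite_singleton (n :: v)).subset (by
      intro u hu
      by_contra h
      exact hu (by
        have h' : u ≠ n :: v := by simpa using h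
        simp only [dl]
        rw [if_neg h'])), fun A _ => dl_sum_le _ A id Function.injective_id⟩
  · exact fun A => dl_sum_le _ A id Function.injective_id

end Crest.Agent.H4Tree
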