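import Mathlib
import Crest.Prelude.Def_FinProb

/-!
Walsh analysis on the `p`-biased cube `ι → Bool`, in explicit finite sums.

`Ex p g`: expectation.  `chi p S`: the orthonormal Walsh function.  `coef p g S`: coefficient.
`EZ p Z g x`: integrate out the coordinates in `Z`, a function of `x`.
`M p c g`: the Fourier multiplier with symbol `c`.
-/

namespace H4

set_option linter.unusedSectionVars false
set_option linter.unusedSimpArgs false

open Crest.FinProb Finset

section Basic

variable {ι : Type*} [Fintype ι] [DecidableEq ι]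

/-- One coin weight. -/
def w1 (p : ℝ) (b : Bool) : ℝ := if b then p else 1 - p

@[simp] lemma w1_true (p : ℝ) : w1 p true = p := rfl
@[simp] lemma w1_false (p : ℝ) : w1 p false = 1 - p := rfl

lemma weight_eq (p : ℝ) (x : ι → Bool) : bernoulliWeight p x = ∏ i, w1 p (x i) := rfl

lemma sum_prod_bool (h : ι → Bool → ℝ) :
    ∑ x : ι → Bool, ∏ i, h i (x i) = ∏ i, (h i true + h i false) := by
  have := (Finset.prod_univ_sum (t := fun _ : ι => (Finset.univ : Finset Bool))
    (f := fun i b => h i b))
  simp only [Fintype.piFinset_univ, Fintype.sum_bool] at this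
  exact this.symm

/-- normalised one-coordinate character -/
noncomputable def phi (p : ℝ) (b : Bool) : ℝ :=
  if b then (1 - p) / Real.sqrt (p * (1 - p)) else -p / Real.sqrt (p * (1 - p))

/-- `hp` : the bias in the open interval -/
abbrev Bias (p : ℝ) : Prop := 0 < p ∧ p < 1

section Phi
variable {p : ℝ} (hp : Bias p)
include hp

lemma lam_pos : 0 < p * (1 - p) := mul_pos hp.1 (by linarith [hp.2])

lemma w1_pos (b : Bool) : 0 < w1 p b := by
  cases b
  · simpa using hp.2
  · simpa using hp.1

lemma w1_nonneg (b : Bool) : 0 ≤ w1 p b := (w1_pos hp b).le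

lemma sq_s : Real.sqrt (p * (1 - p)) ^ 2 = p * (1 - p) := Real.sq_sqrt (lam_pos hp).le

lemma s_pos : 0 < Real.sqrt (p * (1 - p)) := Real.sqrt_pos.mpr (lam_pos hp)

lemma phi_mean : p * phi p true + (1 - p) * phi p false = 0 := by
  have := s_pos hp
  simp only [phi, if_true, Bool.false_eq_true, if_false]
  field_simp
  ring

lemma phi_true_sq : phi p true ^ 2 = (1 - p) / p := by
  have h := s_pos hp
  have h2 := sq_s hp
  have h3 := hp.1.ne'
  have h4 : (1 - p) ≠ 0 := by linarith [hp.2]
  simp only [phi, if_true]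
  rw [div_pow, h2]
  field_simp

lemma phi_false_sq : phi p false ^ 2 = p / (1 - p) := by
  have h := s_pos hp
  have h2 := sq_s hp
  have h3 := hp.1.ne'
  have h4 : (1 - p) ≠ 0 := by linarith [hp.2]
  simp only [phi, Bool.false_eq_true, if_false]
  rw [div_pow, h2, neg_sq]
  field_simp

lemma phi_tf : phi p true * phi p false = -1 := by
  have h := s_pos hp
  have h2 := sq_s hp
  simp only [phi, if_true, Bool.false_eq_true, if_false]
  rw [div_mul_div_comm, ← sq, h2]
  have h3 := (lam_pos hp).ne'
  rw [show (1 - p) * -p = -(p * (1 - p)) by ring, neg_div, div_self h3]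

lemma phi_var : p * phi p true ^ 2 + (1 - p) * phi p false ^ 2 = 1 := by
  rw [phi_true_sq hp, phi_false_sq hp]
  have h3 := hp.1.ne'
  have h4 : (1 - p) ≠ 0 := by linarith [hp.2]
  field_simp
  ring

/-- two-point completeness -/
lemma two_point (b c : Bool) : (if b = c then (1 : ℝ) else 0) = w1 p c * (1 + phi p b * phi p c) := by
  have h3 := hp.1.ne'
  have h4 : (1 - p) ≠ 0 := by linarith [hp.2]
  cases b <;> cases c
  · simp only [if_true, w1_false]
    rw [← sq, phi_false_sq hp]
    field_simp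
    ring
  · simp only [w1_true, Bool.false_eq_true, if_false]
    rw [mul_comm (phi p false), phi_tf hp]; ring
  · simp only [w1_false, Bool.true_eq_false, if_false]
    rw [phi_tf hp]; ring
  · simp only [if_true, w1_true]
    rw [← sq, phi_true_sq hp]
    field_simp
    ring

end Phi

variable (p : ℝ)

/-- Expectation. -/
noncomputable def Ex (g : (ι → Bool) → ℝ) : ℝ := ∑ x, bernoulliWeight p x * g x

/-- Walsh function. -/
noncomputable def chi (S : Finset ι) (x : ι → Bool) : ℝ := ∏ e ∈ S, phi p (x e)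

/-- Walsh coefficient. -/
noncomputable def coef (g : (ι → Bool) → ℝ) (S : Finset ι) : ℝ := Ex p (fun x => g x * chi p S x)

/-- Fourier multiplier. -/
noncomputable def M (c : Finset ι → ℝ) (g : (ι → Bool) → ℝ) (x : ι → Bool) : ℝ :=
  ∑ S, c S * coef p g S * chi p S x

/-- overlay -/
def ov (Z : Finset ι) (x y : ι → Bool) : ι → Bool := fun e => if e ∈ Z then y e else x e

/-- Integrate out the coordinates in `Z`. -/
noncomputable def EZ (Z : Finset ι) (g : (ι → Bool) → ℝ) (x : ι → Bool) : ℝ :=
  ∑ y, bernoulliWeight p y * g (ov Z x y)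

variable {p}

lemma chi_eq_prod (S : Finset ι) (x : ι → Bool) :
    chi p S x = ∏ e, (if e ∈ S then phi p (x e) else 1) := by
  rw [Finset.prod_ite_mem, Finset.univ_inter]; rfl

@[simp] lemma chi_empty (x : ι → Bool) : chi p (∅ : Finset ι) x = 1 := by simp [chi]

lemma chi_insert {e : ι} {S : Finset ι} (he : e ∉ S) (x : ι → Bool) :
    chi p (insert e S) x = phi p (x e) * chi p S x := by
  simp [chi, Finset.prod_insert he]

lemma weight_nonneg (hp : Bias p) (x : ι → Bool) : 0 ≤ bernoulliWeight p x := by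
  rw [weight_eq]
  exact Finset.prod_nonneg fun i _ => w1_nonneg hp _

lemma weight_pos (hp : Bias p) (x : ι → Bool) : 0 < bernoulliWeight p x := by
  rw [weight_eq]
  exact Finset.prod_pos fun i _ => w1_pos hp _

lemma sum_weight : ∑ x : ι → Bool, bernoulliWeight p x = 1 := by
  simp only [weight_eq]
  rw [sum_prod_bool (fun _ b => w1 p b)]
  simp

lemma Ex_const (c : ℝ) : Ex p (fun _ : ι → Bool => c) = c := by
  simp only [Ex, ← Finset.sum_mul, sum_weight, one_mul]

lemma Ex_add (g h : (ι → Bool) → ℝ) : Ex p (fun x => g x + h x) = Ex p g + Ex p h := by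
  simp only [Ex, mul_add, Finset.sum_add_distrib]

lemma Ex_sub (g h : (ι → Bool) → ℝ) : Ex p (fun x => g x - h x) = Ex p g - Ex p h := by
  simp only [Ex, mul_sub, Finset.sum_sub_distrib]

lemma Ex_smul (c : ℝ) (g : (ι → Bool) → ℝ) : Ex p (fun x => c * g x) = c * Ex p g := by
  simp only [Ex, Finset.mul_sum]
  exact Finset.sum_congr rfl fun _ _ => by ring

lemma Ex_sum {κ : Type*} (s : Finset κ) (g : κ → (ι → Bool) → ℝ) :
    Ex p (fun x => ∑ k ∈ s, g k x) = ∑ k ∈ s, Ex p (g k) := by
  simp only [Ex, Finset.mul_sum]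
  exact Finset.sum_comm

lemma Ex_mono (hp : Bias p) {g h : (ι → Bool) → ℝ} (hgh : ∀ x, g x ≤ h x) : Ex p g ≤ Ex p h :=
  Finset.sum_le_sum fun x _ => mul_le_mul_of_nonneg_left (hgh x) (weight_nonneg hp x)

lemma Ex_nonneg (hp : Bias p) {g : (ι → Bool) → ℝ} (hg : ∀ x, 0 ≤ g x) : 0 ≤ Ex p g :=
  Finset.sum_nonneg fun x _ => mul_nonneg (weight_nonneg hp x) (hg x)

/-- expectation of `chi S * chi T` -/
lemma chi_ortho (hp : Bias p) (S T : Finset ι) :
    Ex p (fun x => chi p S x * chi p T x) = if S = T then 1 else 0 := by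
  have key : ∀ x : ι → Bool, bernoulliWeight p x * (chi p S x * chi p T x) =
      ∏ i, (w1 p (x i) * ((if i ∈ S then phi p (x i) else 1) * (if i ∈ T then phi p (x i) else 1))) := by
    intro x
    rw [weight_eq, chi_eq_prod, chi_eq_prod, ← Finset.prod_mul_distrib, ← Finset.prod_mul_distrib]
  simp only [Ex, key]
  rw [sum_prod_bool (fun i b => w1 p b * ((if i ∈ S then phi p b else 1) * (if i ∈ T then phi p b else 1)))]
  have hfac : ∀ i, (w1 p true * ((if i ∈ S then phi p true else 1) * (if i ∈ T then phi p true else 1)) +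
      w1 p false * ((if i ∈ S then phi p false else 1) * (if i ∈ T then phi p false else 1))) =
      if (i ∈ S ↔ i ∈ T) then 1 else 0 := by
    intro i
    by_cases h1 : i ∈ S <;> by_cases h2 : i ∈ T <;> simp only [h1, h2, if_true, if_false, w1_true, w1_false, iff_true, true_iff, iff_false, false_iff, not_true, not_false_eq_true, iff_self]
    · have := phi_var hp; nlinarith
    · have := phi_mean hp; linarith
    · have := phi_mean hp; linarith
    · ring
  simp only [hfac]
  split_ifs with h
  · subst h; simp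
  · have : ∃ i, ¬ (i ∈ S ↔ i ∈ T) := by
      by_contra hcon
      push Not at hcon
      exact h (Finset.ext hcon)
    obtain ⟨i, hi⟩ := this
    exact Finset.prod_eq_zero (Finset.mem_univ i) (by simp [hi])

/-- completeness relation -/
lemma completeness (hp : Bias p) (x y : ι → Bool) :
    (∑ S, chi p S x * chi p S y) * bernoulliWeight p y = if x = y then 1 else 0 := by
  have h1 : (if x = y then (1 : ℝ) else 0) = ∏ i, (if x i = y i then (1 : ℝ) else 0) := by
    by_cases h : x = y
    · subst h; simp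
    · rw [if_neg h]
      have : ∃ i, x i ≠ y i := by
        by_contra hcon
        push Not at hcon
        exact h (funext hcon)
      obtain ⟨i, hi⟩ := this
      exact (Finset.prod_eq_zero (Finset.mem_univ i) (by simp [hi])).symm
  rw [h1]
  simp only [two_point hp]
  rw [Finset.prod_mul_distrib, ← weight_eq, mul_comm, Finset.prod_one_add, Finset.powerset_univ]
  congr 1
  refine Finset.sum_congr rfl fun S _ => ?_
  simp only [chi, Finset.prod_mul_distrib]

/-- Walsh inversion -/
lemma inversion (hp : Bias p) (g : (ι → Bool) → ℝ) (x : ι → Bool) :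
    g x = ∑ S, coef p g S * chi p S x := by
  have h1 : g x = ∑ y, g y * (if x = y then (1 : ℝ) else 0) := by
    simp [Finset.sum_ite_eq]
  rw [h1]
  simp only [← completeness hp x, coef, Ex, Finset.sum_mul, Finset.mul_sum]
  rw [Finset.sum_comm]
  refine Finset.sum_congr rfl fun S _ => Finset.sum_congr rfl fun y _ => ?_
  ring

/-- Parseval -/
lemma parseval (hp : Bias p) (g h : (ι → Bool) → ℝ) :
    Ex p (fun x => g x * h x) = ∑ S, coef p g S * coef p h S := by
  have : ∀ x, g x * h x = ∑ S, coef p h S * (g x * chi p S x) := by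
    intro x
    conv_lhs => rw [inversion hp h x]
    rw [Finset.mul_sum]
    exact Finset.sum_congr rfl fun _ _ => by ring
  simp only [this]
  rw [Ex_sum]
  refine Finset.sum_congr rfl fun S _ => ?_
  rw [Ex_smul]
  simp only [coef]
  ring

lemma parseval_sq (hp : Bias p) (g : (ι → Bool) → ℝ) :
    Ex p (fun x => g x ^ 2) = ∑ S, coef p g S ^ 2 := by
  simp only [sq]
  exact parseval hp g g

lemma coef_empty (g : (ι → Bool) → ℝ) : coef p g ∅ = Ex p g := by
  simp [coef]

lemma coef_ext (hp : Bias p) {g h : (ι → Bool) → ℝ} (H : ∀ S, coef p g S = coef p h S) : g = h := by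
  funext x
  rw [inversion hp g x, inversion hp h x]
  simp only [H]

lemma coef_add (g h : (ι → Bool) → ℝ) (S : Finset ι) :
    coef p (fun x => g x + h x) S = coef p g S + coef p h S := by
  simp only [coef, add_mul, Ex_add]

lemma coef_sub (g h : (ι → Bool) → ℝ) (S : Finset ι) :
    coef p (fun x => g x - h x) S = coef p g S - coef p h S := by
  simp only [coef, sub_mul, Ex_sub]

lemma coef_smul (c : ℝ) (g : (ι → Bool) → ℝ) (S : Finset ι) :
    coef p (fun x => c * g x) S = c * coef p g S := by
  simp only [coef, mul_assoc, Ex_smul]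

lemma coef_sum {κ : Type*} (s : Finset κ) (g : κ → (ι → Bool) → ℝ) (S : Finset ι) :
    coef p (fun x => ∑ k ∈ s, g k x) S = ∑ k ∈ s, coef p (g k) S := by
  simp only [coef, Finset.sum_mul, Ex_sum]

lemma coef_chi (hp : Bias p) (S T : Finset ι) : coef p (chi p T) S = if T = S then 1 else 0 :=
  chi_ortho hp T S

lemma coef_M (hp : Bias p) (c : Finset ι → ℝ) (g : (ι → Bool) → ℝ) (S : Finset ι) :
    coef p (M p c g) S = c S * coef p g S := by
  have : M p c g = fun x => ∑ T, (c T * coef p g T) * chi p T x := rfl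
  rw [this, coef_sum]
  simp only [coef_smul, coef_chi hp]
  simp

lemma M_M (hp : Bias p) (c d : Finset ι → ℝ) (g : (ι → Bool) → ℝ) :
    M p c (M p d g) = M p (fun S => c S * d S) g := by
  apply coef_ext hp
  intro S
  simp only [coef_M hp]
  ring

lemma M_one (hp : Bias p) (g : (ι → Bool) → ℝ) : M p (fun _ => 1) g = g := by
  apply coef_ext hp
  intro S
  simp only [coef_M hp, one_mul]

lemma M_congr (hp : Bias p) {c d : Finset ι → ℝ} {g : (ι → Bool) → ℝ}
    (H : ∀ S, coef p g S ≠ 0 → c S = d S) : M p c g = M p d g := by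
  apply coef_ext hp
  intro S
  simp only [coef_M hp]
  by_cases h : coef p g S = 0
  · simp [h]
  · rw [H S h]

lemma M_chi (hp : Bias p) (c : Finset ι → ℝ) (S : Finset ι) (x : ι → Bool) :
    M p c (chi p S) x = c S * chi p S x := by
  simp only [M, coef_chi hp]
  rw [Finset.sum_eq_single S]
  · simp
  · intro T _ hT
    simp [Ne.symm hT]
  · simp

/-! ### Fibre expectation -/

lemma ov_empty (x y : ι → Bool) : ov (∅ : Finset ι) x y = x := by
  funext e; simp [ov]

lemma ov_univ (x y : ι → Bool) : ov (univ : Finset ι) x y = y := by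
  funext e; simp [ov]

lemma ov_ov (Z : Finset ι) (x y z : ι → Bool) : ov Z (ov Z x y) z = ov Z x z := by
  funext e; by_cases h : e ∈ Z <;> simp [ov, h]

lemma EZ_eq_Ex (x : ι → Bool) (g : (ι → Bool) → ℝ) : EZ p (univ : Finset ι) g x = Ex p g := by
  simp [EZ, Ex, ov_univ]

lemma EZ_empty (g : (ι → Bool) → ℝ) (x : ι → Bool) : EZ p (∅ : Finset ι) g x = g x := by
  simp only [EZ, ov_empty, ← Finset.sum_mul, sum_weight, one_mul]

lemma EZ_const (Z : Finset ι) (c : ℝ) (x : ι → Bool) : EZ p Z (fun _ => c) x = c := by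
  simp only [EZ, ← Finset.sum_mul, sum_weight, one_mul]

lemma EZ_add (Z : Finset ι) (g h : (ι → Bool) → ℝ) (x : ι → Bool) :
    EZ p Z (fun y => g y + h y) x = EZ p Z g x + EZ p Z h x := by
  simp only [EZ, mul_add, Finset.sum_add_distrib]

lemma EZ_sub (Z : Finset ι) (g h : (ι → Bool) → ℝ) (x : ι → Bool) :
    EZ p Z (fun y => g y - h y) x = EZ p Z g x - EZ p Z h x := by
  simp only [EZ, mul_sub, Finset.sum_sub_distrib]

lemma EZ_smul (Z : Finset ι) (c : ℝ) (g : (ι → Bool) → ℝ) (x : ι → Bool) :
    EZ p Z (fun y => c * g y) x = c * EZ p Z g x := by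
  simp only [EZ, Finset.mul_sum]
  exact Finset.sum_congr rfl fun _ _ => by ring

lemma EZ_sum {κ : Type*} (Z : Finset ι) (s : Finset κ) (g : κ → (ι → Bool) → ℝ) (x : ι → Bool) :
    EZ p Z (fun y => ∑ k ∈ s, g k y) x = ∑ k ∈ s, EZ p Z (g k) x := by
  simp only [EZ, Finset.mul_sum]
  exact Finset.sum_comm

lemma EZ_mono (hp : Bias p) (Z : Finset ι) {g h : (ι → Bool) → ℝ} (hgh : ∀ x, g x ≤ h x)
    (x : ι → Bool) : EZ p Z g x ≤ EZ p Z h x :=
  Finset.sum_le_sum fun y _ => mul_le_mul_of_nonneg_left (hgh _) (weight_nonneg hp y)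

lemma EZ_nonneg (hp : Bias p) (Z : Finset ι) {g : (ι → Bool) → ℝ} (hg : ∀ x, 0 ≤ g x)
    (x : ι → Bool) : 0 ≤ EZ p Z g x :=
  Finset.sum_nonneg fun y _ => mul_nonneg (weight_nonneg hp y) (hg _)

lemma EZ_abs_le (hp : Bias p) (Z : Finset ι) (g : (ι → Bool) → ℝ) (x : ι → Bool) :
    |EZ p Z g x| ≤ EZ p Z (fun y => |g y|) x := by
  refine (Finset.abs_sum_le_sum_abs _ _).trans (le_of_eq ?_)
  refine Finset.sum_congr rfl fun y _ => ?_
  rw [abs_mul, abs_of_nonneg (weight_nonneg hp y)]

/-- Cauchy–Schwarz for the fibre expectation. -/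
lemma EZ_cs (hp : Bias p) (Z : Finset ι) {r F K : (ι → Bool) → ℝ}
    (hF : ∀ y, 0 ≤ F y) (hK : ∀ y, 0 ≤ K y) (hr : ∀ y, r y ^ 2 = F y * K y) (x : ι → Bool) :
    EZ p Z r x ^ 2 ≤ EZ p Z F x * EZ p Z K x := by
  refine Finset.sum_sq_le_sum_mul_sum_of_sq_eq_mul _
    (fun y _ => mul_nonneg (weight_nonneg hp y) (hF _))
    (fun y _ => mul_nonneg (weight_nonneg hp y) (hK _)) ?_
  intro y _
  rw [mul_pow, hr]
  ring

/-- The fibre expectation of a Walsh function. -/
lemma EZ_chi (hp : Bias p) (Z S : Finset ι) (x : ι → Bool) :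
    EZ p Z (chi p S) x = if Disjoint S Z then chi p S x else 0 := by
  have key : ∀ y : ι → Bool, bernoulliWeight p y * chi p S (ov Z x y) =
      ∏ i, (w1 p (y i) * (if i ∈ S then phi p (if i ∈ Z then y i else x i) else 1)) := by
    intro y
    rw [weight_eq, chi_eq_prod, ← Finset.prod_mul_distrib]
    rfl
  simp only [EZ, key]
  rw [sum_prod_bool (fun i b => w1 p b * (if i ∈ S then phi p (if i ∈ Z then b else x i) else 1))]
  have hfac : ∀ i, (w1 p true * (if i ∈ S then phi p (if i ∈ Z then true else x i) else 1) +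
      w1 p false * (if i ∈ S then phi p (if i ∈ Z then false else x i) else 1)) =
      if i ∈ S then (if i ∈ Z then 0 else phi p (x i)) else 1 := by
    intro i
    by_cases h1 : i ∈ S <;> by_cases h2 : i ∈ Z <;> simp only [h1, h2, if_true, if_false, w1_true, w1_false]
    · exact phi_mean hp
    · ring
    · ring
    · ring
  simp only [hfac]
  split_ifs with h
  · rw [chi_eq_prod]
    refine Finset.prod_congr rfl fun i _ => ?_
    by_cases h1 : i ∈ S
    · have h2 : i ∉ Z := Finset.disjoint_left.mp h h1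
      simp [h1, h2]
    · simp [h1]
  · obtain ⟨i, h1, h2⟩ := Finset.not_disjoint_iff.mp h
    exact Finset.prod_eq_zero (Finset.mem_univ i) (by simp [h1, h2])

/-- Expansion of `EZ`. -/
lemma EZ_eq_M (hp : Bias p) (Z : Finset ι) (g : (ι → Bool) → ℝ) :
    EZ p Z g = M p (fun S => if Disjoint S Z then 1 else 0) g := by
  funext x
  have h1 : g = fun y => ∑ S, coef p g S * chi p S y := by
    funext y; exact inversion hp g y
  conv_lhs => rw [h1]
  rw [EZ_sum]
  simp only [EZ_smul, EZ_chi hp, M]
  refine Finset.sum_congr rfl fun S _ => ?_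
  split_ifs <;> ring

lemma coef_EZ (hp : Bias p) (Z : Finset ι) (g : (ι → Bool) → ℝ) (S : Finset ι) :
    coef p (EZ p Z g) S = if Disjoint S Z then coef p g S else 0 := by
  rw [EZ_eq_M hp, coef_M hp]
  split_ifs <;> ring

lemma EZ_EZ (hp : Bias p) (Z Z' : Finset ι) (g : (ι → Bool) → ℝ) :
    EZ p Z (EZ p Z' g) = EZ p (Z ∪ Z') g := by
  apply coef_ext hp
  intro S
  simp only [coef_EZ hp, Finset.disjoint_union_right]
  by_cases h1 : Disjoint S Z <;> by_cases h2 : Disjoint S Z' <;> simp [h1, h2]

lemma Ex_EZ (hp : Bias p) (Z : Finset ι) (g : (ι → Bool) → ℝ) : Ex p (EZ p Z g) = Ex p g := by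
  rw [← coef_empty, ← coef_empty, coef_EZ hp]
  simp

/-- `g` does not depend on the coordinates in `Z`. -/
def Free (Z : Finset ι) (g : (ι → Bool) → ℝ) : Prop := ∀ x y, g (ov Z x y) = g x

lemma free_EZ (Z : Finset ι) (g : (ι → Bool) → ℝ) : Free Z (EZ p Z g) := by
  intro x y
  simp only [EZ, ov_ov]

lemma EZ_of_free {Z : Finset ι} {g : (ι → Bool) → ℝ} (hg : Free Z g) : EZ p Z g = g := by
  funext x
  have : ∀ y, bernoulliWeight p y * g (ov Z x y) = bernoulliWeight p y * g x := fun y => by rw [hg]
  simp only [EZ, this, ← Finset.sum_mul, sum_weight, one_mul]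

lemma coef_free (hp : Bias p) {Z S : Finset ι} {g : (ι → Bool) → ℝ} (hg : Free Z g)
    (hS : ¬ Disjoint S Z) : coef p g S = 0 := by
  rw [← EZ_of_free (p := p) hg, coef_EZ hp, if_neg hS]

lemma free_of_coef (hp : Bias p) {Z : Finset ι} {g : (ι → Bool) → ℝ}
    (H : ∀ S, ¬ Disjoint S Z → coef p g S = 0) : Free Z g := by
  have : EZ p Z g = g := by
    apply coef_ext hp
    intro S
    rw [coef_EZ hp]
    split_ifs with h
    · rfl
    · exact (H S h).symm
  rw [← this]
  exact free_EZ Z g

lemma free_M (hp : Bias p) {Z : Finset ι} {g : (ι → Bool) → ℝ} (hg : Free Z g)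
    (c : Finset ι → ℝ) : Free Z (M p c g) := by
  apply free_of_coef hp
  intro S hS
  rw [coef_M hp, coef_free hp hg hS, mul_zero]

/-- module property -/
lemma EZ_mul_free {Z : Finset ι} {a : (ι → Bool) → ℝ} (ha : Free Z a) (g : (ι → Bool) → ℝ)
    (x : ι → Bool) : EZ p Z (fun y => a y * g y) x = a x * EZ p Z g x := by
  simp only [EZ, Finset.mul_sum]
  refine Finset.sum_congr rfl fun y _ => ?_
  rw [ha]; ring

lemma Ex_mul_free (hp : Bias p) {Z : Finset ι} {a : (ι → Bool) → ℝ} (ha : Free Z a)
    (g : (ι → Bool) → ℝ) : Ex p (fun x => EZ p Z g x * a x) = Ex p (fun x => g x * a x) := by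
  have : (fun x => EZ p Z g x * a x) = EZ p Z (fun y => a y * g y) := by
    funext x
    rw [EZ_mul_free ha, mul_comm]
  rw [this, Ex_EZ hp]
  simp only [mul_comm]

/-- Single coordinate formula. -/
lemma EZ_single (hp : Bias p) (e : ι) (g : (ι → Bool) → ℝ) (x : ι → Bool) :
    EZ p {e} g x = p * g (Function.update x e true) + (1 - p) * g (Function.update x e false) := by
  have hov : ∀ y : ι → Bool, ov {e} x y = Function.update x e (y e) := by
    intro y
    funext i
    by_cases h : i = e
    · subst h; simp [ov]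
    · simp [ov, h]
  have key : ∀ y : ι → Bool, bernoulliWeight p y * g (ov {e} x y) =
      ∏ i, (w1 p (y i) * (if i = e then g (Function.update x e (y i)) else 1)) := by
    intro y
    rw [weight_eq, Finset.prod_mul_distrib, hov]
    congr 1
    rw [Finset.prod_ite_eq' Finset.univ e]
    simp
  simp only [EZ, key]
  rw [sum_prod_bool (fun i b => w1 p b * (if i = e then g (Function.update x e b) else 1))]
  rw [Finset.prod_eq_single e]
  · simp
  · intro i _ hi
    simp [hi]
  · simp

lemma free_update {Z : Finset ι} {g : (ι → Bool) → ℝ} {e : ι} (he : e ∈ Z) (hg : Free Z g)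
    (x : ι → Bool) (b : Bool) : g (Function.update x e b) = g x := by
  have : Function.update x e b = ov Z x (fun i => if i = e then b else x i) := by
    funext i
    by_cases h : i = e
    · subst h; simp [ov, he]
    · simp [ov, h]
  rw [this, hg]

end Basic

end H4
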