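import Crest.Agent.H4W1

/-!
Hypercontractivity (Bonami) for biased bits, pointwise on fibres, and its dual form.
-/

namespace H4

set_option linter.unusedSectionVars false
set_option linter.unusedSimpArgs false

open Crest.FinProb Finset

variable {ι : Type*} [Fintype ι] [DecidableEq ι] {p : ℝ}

/-- noise symbol on the coordinates in `Z` -/
noncomputable def cN (ρ : ℝ) (Z S : Finset ι) : ℝ := ρ ^ (S ∩ Z).card

lemma M_add (hp : Bias p) (c : Finset ι → ℝ) (g h : (ι → Bool) → ℝ) :
    M p c (fun x => g x + h x) = fun x => M p c g x + M p c h x := by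
  funext x
  simp only [M, coef_add, ← Finset.sum_add_distrib]
  exact Finset.sum_congr rfl fun _ _ => by ring

lemma M_sub (hp : Bias p) (c : Finset ι → ℝ) (g h : (ι → Bool) → ℝ) :
    M p c (fun x => g x - h x) = fun x => M p c g x - M p c h x := by
  funext x
  simp only [M, coef_sub, ← Finset.sum_sub_distrib]
  exact Finset.sum_congr rfl fun _ _ => by ring

lemma M_smul (hp : Bias p) (c : Finset ι → ℝ) (r : ℝ) (g : (ι → Bool) → ℝ) :
    M p c (fun x => r * g x) = fun x => r * M p c g x := by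
  funext x
  simp only [M, coef_smul, Finset.mul_sum]
  exact Finset.sum_congr rfl fun _ _ => by ring

lemma M_sum {κ : Type*} (hp : Bias p) (c : Finset ι → ℝ) (s : Finset κ) (g : κ → (ι → Bool) → ℝ) :
    M p c (fun x => ∑ k ∈ s, g k x) = fun x => ∑ k ∈ s, M p c (g k) x := by
  funext x
  simp only [M, coef_sum, Finset.mul_sum, Finset.sum_mul]
  exact Finset.sum_comm

lemma M_of_free (hp : Bias p) {e : ι} {a : (ι → Bool) → ℝ} (ha : Free {e} a)
    {c c' : Finset ι → ℝ} (hc : ∀ S, e ∉ S → c S = c' S) : M p c a = M p c' a := by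
  apply M_congr hp
  intro S hS
  apply hc
  intro he
  apply hS
  apply coef_free hp ha
  rw [Finset.not_disjoint_iff]
  exact ⟨e, he, by simp⟩

lemma M_mul_phi (hp : Bias p) {e : ι} {a : (ι → Bool) → ℝ} (ha : Free {e} a)
    {c c' : Finset ι → ℝ} {κ : ℝ} (hc : ∀ S, e ∉ S → c (insert e S) = κ * c' S) :
    M p c (fun x => phi p (x e) * a x) = fun x => κ * phi p (x e) * M p c' a x := by
  have h1 : (fun x => phi p (x e) * a x) =
      fun x => ∑ S, coef p a S * (phi p (x e) * chi p S x) := by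
    funext x
    conv_lhs => rw [inversion hp a x]
    rw [Finset.mul_sum]
    exact Finset.sum_congr rfl fun _ _ => by ring
  rw [h1, M_sum hp]
  funext x
  have h4 : ∀ S, M p c (fun y => coef p a S * (phi p (y e) * chi p S y)) x =
      coef p a S * M p c (fun y => phi p (y e) * chi p S y) x := fun S =>
    congrFun (M_smul hp c (coef p a S) (fun y => phi p (y e) * chi p S y)) x
  simp only [h4]
  conv_rhs => rw [M, Finset.mul_sum]
  refine Finset.sum_congr rfl fun S _ => ?_
  by_cases he : e ∈ S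
  · have : coef p a S = 0 := by
      apply coef_free hp ha
      rw [Finset.not_disjoint_iff]
      exact ⟨e, he, by simp⟩
    simp [this]
  · have h2 : (fun x : ι → Bool => phi p (x e) * chi p S x) = chi p (insert e S) := by
      funext y
      rw [chi_insert he]
    rw [h2, M_chi hp, hc S he, chi_insert he]
    ring

lemma moment4_le (hp : Bias p) :
    p * phi p true ^ 4 + (1 - p) * phi p false ^ 4 ≤ 1 / (p * (1 - p)) := by
  have h3 := hp.1
  have h4 : 0 < 1 - p := by linarith [hp.2]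
  have e1 : phi p true ^ 4 = ((1 - p) / p) ^ 2 := by rw [← phi_true_sq hp]; ring
  have e2 : phi p false ^ 4 = (p / (1 - p)) ^ 2 := by rw [← phi_false_sq hp]; ring
  rw [e1, e2, le_div_iff₀ (mul_pos h3 h4)]
  have : (p * ((1 - p) / p) ^ 2 + (1 - p) * (p / (1 - p)) ^ 2) * (p * (1 - p)) =
      (1 - p) ^ 3 + p ^ 3 := by
    field_simp
  rw [this]
  nlinarith [mul_pos h3 h4]

lemma moment3_sq_le (hp : Bias p) :
    (p * phi p true ^ 3 + (1 - p) * phi p false ^ 3) ^ 2 ≤ 1 / (p * (1 - p)) := by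
  have h3 := hp.1
  have h4 : 0 < 1 - p := by linarith [hp.2]
  have hs := s_pos hp
  have hs2 := sq_s hp
  have e : p * phi p true ^ 3 + (1 - p) * phi p false ^ 3 = (1 - 2 * p) / Real.sqrt (p * (1 - p)) := by
    have e1 : phi p true ^ 3 = phi p true * ((1 - p) / p) := by rw [← phi_true_sq hp]; ring
    have e2 : phi p false ^ 3 = phi p false * (p / (1 - p)) := by rw [← phi_false_sq hp]; ring
    rw [e1, e2]
    simp only [phi, if_true, Bool.false_eq_true, if_false]
    field_simp
    ring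
  rw [e, div_pow, hs2]
  apply div_le_div_of_nonneg_right _ (mul_pos h3 h4).le
  nlinarith

/-- one-bit expansion -/
lemma one_bit (hp : Bias p) (A B ρ : ℝ) :
    p * (A + ρ * phi p true * B) ^ 4 + (1 - p) * (A + ρ * phi p false * B) ^ 4 ≤
      A ^ 4 + 8 * ρ ^ 2 * (A ^ 2 * B ^ 2) + (3 * ρ ^ 4 / (p * (1 - p))) * B ^ 4 := by
  set t := phi p true
  set f := phi p false
  have m1 : p * t + (1 - p) * f = 0 := phi_mean hp
  have m2 : p * t ^ 2 + (1 - p) * f ^ 2 = 1 := phi_var hp
  set m3 := p * t ^ 3 + (1 - p) * f ^ 3 with hm3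
  set m4 := p * t ^ 4 + (1 - p) * f ^ 4 with hm4
  have h3 : m3 ^ 2 ≤ 1 / (p * (1 - p)) := moment3_sq_le hp
  have h4 : m4 ≤ 1 / (p * (1 - p)) := moment4_le hp
  have expand : p * (A + ρ * t * B) ^ 4 + (1 - p) * (A + ρ * f * B) ^ 4 =
      A ^ 4 + 4 * A ^ 3 * ρ * B * (p * t + (1 - p) * f) + 6 * A ^ 2 * ρ ^ 2 * B ^ 2 * (p * t ^ 2 + (1 - p) * f ^ 2)
        + 4 * A * ρ ^ 3 * B ^ 3 * m3 + ρ ^ 4 * B ^ 4 * m4 := by
    rw [hm3, hm4]; ring
  rw [expand, m1, m2]
  have e : (3 * ρ ^ 4 / (p * (1 - p))) * B ^ 4 = ρ ^ 4 * B ^ 4 * (1 / (p * (1 - p))) +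
      2 * (ρ ^ 4 * B ^ 4 * (1 / (p * (1 - p)))) := by ring
  rw [e]
  have hρB : 0 ≤ ρ ^ 4 * B ^ 4 := by positivity
  have h5 : ρ ^ 4 * B ^ 4 * m4 ≤ ρ ^ 4 * B ^ 4 * (1 / (p * (1 - p))) :=
    mul_le_mul_of_nonneg_left h4 hρB
  have h6 : ρ ^ 4 * B ^ 4 * m3 ^ 2 ≤ ρ ^ 4 * B ^ 4 * (1 / (p * (1 - p))) :=
    mul_le_mul_of_nonneg_left h3 hρB
  have h7 : 4 * A * ρ ^ 3 * B ^ 3 * m3 ≤ 2 * ρ ^ 2 * (A ^ 2 * B ^ 2) + 2 * (ρ ^ 4 * B ^ 4 * m3 ^ 2) := by
    have : 0 ≤ 2 * (ρ * B) ^ 2 * (A - ρ * B * m3) ^ 2 := by positivity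
    nlinarith [this]
  nlinarith

/-- fibrewise Bonami `2 → 4` -/
theorem bonami (hp : Bias p) {ρ : ℝ} (h1 : ρ ^ 2 ≤ 1 / 4) (h2 : 3 * ρ ^ 4 ≤ p * (1 - p))
    (Z : Finset ι) : ∀ (h : (ι → Bool) → ℝ) (x : ι → Bool),
    EZ p Z (fun y => (M p (cN ρ Z) h y) ^ 4) x ≤ (EZ p Z (fun y => h y ^ 2) x) ^ 2 := by
  induction Z using Finset.induction_on with
  | empty =>
    intro h x
    have : M p (cN ρ (∅ : Finset ι)) h = h := by
      have : cN ρ (∅ : Finset ι) = fun _ => (1 : ℝ) := by
        funext S; simp [cN]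
      rw [this, M_one hp]
    rw [this, EZ_empty, EZ_empty]
    exact le_of_eq (by ring)
  | insert e Z he ih =>
    intro h x
    set h0 := EZ p {e} h with hh0
    set h1' := EZ p {e} (fun y => phi p (y e) * h y) with hh1
    have free0 : Free {e} h0 := free_EZ _ _
    have free1 : Free {e} h1' := free_EZ _ _
    have hem : e ∈ ({e} : Finset ι) := by simp
    -- decomposition
    have decomp : h = fun y => h0 y + phi p (y e) * h1' y := by
      funext y
      have t1 := phi_true_sq hp
      have t2 := phi_false_sq hp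
      have t3 := phi_tf hp
      have hp0 := hp.1.ne'
      have hp1 : (1 - p) ≠ 0 := by linarith [hp.2]
      simp only [hh0, hh1, EZ_single hp, Function.update_self]
      cases hy : y e
      · have : Function.update y e false = y := by
          rw [← hy, Function.update_eq_self]
        rw [this]
        set a := h (Function.update y e true)
        set b := h y
        have e1 : p * phi p true * phi p false = - p := by
          rw [mul_assoc, t3]; ring
        have e2 : (1 - p) * phi p false ^ 2 = p := by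
          rw [t2]; field_simp
        have : p * a + (1 - p) * b + phi p false * (p * (phi p true * a) + (1 - p) * (phi p false * b)) =
            a * (p + p * phi p true * phi p false) + b * ((1 - p) + (1 - p) * phi p false ^ 2) := by ring
        rw [this, e1, e2]
        ring
      · have : Function.update y e true = y := by
          rw [← hy, Function.update_eq_self]
        rw [this]
        set a := h y
        set b := h (Function.update y e false)
        have e1 : (1 - p) * phi p true * phi p false = - (1 - p) := by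
          rw [mul_assoc, t3]; ring
        have e2 : p * phi p true ^ 2 = 1 - p := by
          rw [t1]; field_simp
        have : p * a + (1 - p) * b + phi p true * (p * (phi p true * a) + (1 - p) * (phi p false * b)) =
            a * (p + p * phi p true ^ 2) + b * ((1 - p) + (1 - p) * phi p true * phi p false) := by ring
        rw [this, e1, e2]
        ring
    -- square sum
    have sqsum : ∀ y, h0 y ^ 2 + h1' y ^ 2 = EZ p {e} (fun z => h z ^ 2) y := by
      intro y
      have t1 := phi_true_sq hp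
      have t2 := phi_false_sq hp
      have t3 := phi_tf hp
      have hp0 := hp.1.ne'
      have hp1 : (1 - p) ≠ 0 := by linarith [hp.2]
      simp only [hh0, hh1, EZ_single hp, Function.update_self]
      set a := h (Function.update y e true)
      set b := h (Function.update y e false)
      have e1 : (p * a + (1 - p) * b) ^ 2 + (p * (phi p true * a) + (1 - p) * (phi p false * b)) ^ 2 =
          p ^ 2 * a ^ 2 * (1 + phi p true ^ 2) + (1 - p) ^ 2 * b ^ 2 * (1 + phi p false ^ 2) +
            2 * a * b * p * (1 - p) * (1 + phi p true * phi p false) := by ring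
      rw [e1, t1, t2, t3]
      field_simp
      ring
    -- action of the noise
    have hT : M p (cN ρ (insert e Z)) h =
        fun y => M p (cN ρ Z) h0 y + ρ * phi p (y e) * M p (cN ρ Z) h1' y := by
      conv_lhs => rw [decomp]
      rw [M_add hp]
      funext y
      congr 1
      · rw [M_of_free hp free0 (c' := cN ρ Z)]
        intro S hS
        simp only [cN]
        rw [Finset.inter_insert_of_notMem hS]
      · have := M_mul_phi hp free1 (c := cN ρ (insert e Z)) (c' := cN ρ Z) (κ := ρ) (by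
          intro S hS
          simp only [cN]
          rw [Finset.insert_inter_of_mem (Finset.mem_insert_self _ _),
            Finset.inter_insert_of_notMem hS, Finset.card_insert_of_notMem]
          · rw [pow_succ]; ring
          · intro hmem
            exact hS (Finset.mem_inter.mp hmem).1)
        exact congrFun this y
    set A := M p (cN ρ Z) h0 with hA
    set B := M p (cN ρ Z) h1' with hB
    have freeA : Free {e} A := free_M hp free0 _
    have freeB : Free {e} B := free_M hp free1 _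
    have hunion : insert e Z = Z ∪ {e} := by
      rw [Finset.insert_eq, Finset.union_comm]
    -- integrate out e
    have hstep : ∀ y, EZ p {e} (fun z => (M p (cN ρ (insert e Z)) h z) ^ 4) y ≤
        A y ^ 4 + 8 * ρ ^ 2 * (A y ^ 2 * B y ^ 2) + B y ^ 4 := by
      intro y
      rw [hT, EZ_single hp]
      simp only [Function.update_self]
      rw [free_update hem freeA, free_update hem freeB, free_update hem freeA, free_update hem freeB]
      have := one_bit hp (A y) (B y) ρ
      have hB4 : 0 ≤ B y ^ 4 := by positivity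
      have hcoef : 3 * ρ ^ 4 / (p * (1 - p)) ≤ 1 := by
        rw [div_le_one (lam_pos hp)]
        exact h2
      have : (3 * ρ ^ 4 / (p * (1 - p))) * B y ^ 4 ≤ B y ^ 4 := by
        nlinarith
      have e1 : ρ * phi p true * B y = ρ * phi p true * B y := rfl
      linarith
    rw [hunion, ← EZ_EZ hp, ← EZ_EZ hp]
    rw [← hunion]
    have hs1 := EZ_mono hp Z hstep x
    refine hs1.trans ?_
    set α := EZ p Z (fun y => h0 y ^ 2) x with hα
    set β := EZ p Z (fun y => h1' y ^ 2) x with hβ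
    have hα0 : 0 ≤ α := EZ_nonneg hp Z (fun _ => by positivity) x
    have hβ0 : 0 ≤ β := EZ_nonneg hp Z (fun _ => by positivity) x
    have ihA : EZ p Z (fun y => A y ^ 4) x ≤ α ^ 2 := ih h0 x
    have ihB : EZ p Z (fun y => B y ^ 4) x ≤ β ^ 2 := ih h1' x
    have hAB0 : 0 ≤ EZ p Z (fun y => A y ^ 2 * B y ^ 2) x := EZ_nonneg hp Z (fun _ => by positivity) x
    have hcs : EZ p Z (fun y => A y ^ 2 * B y ^ 2) x ≤ α * β := by
      have hc := EZ_cs (p := p) hp Z (r := fun y => A y ^ 2 * B y ^ 2) (F := fun y => A y ^ 4)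
        (K := fun y => B y ^ 4) (fun _ => by positivity) (fun _ => by positivity)
        (fun y => by ring) x
      have hA0 : 0 ≤ EZ p Z (fun y => A y ^ 4) x := EZ_nonneg hp Z (fun _ => by positivity) x
      have hB0 : 0 ≤ EZ p Z (fun y => B y ^ 4) x := EZ_nonneg hp Z (fun _ => by positivity) x
      have : EZ p Z (fun y => A y ^ 2 * B y ^ 2) x ^ 2 ≤ (α * β) ^ 2 := by
        calc _ ≤ _ := hc
          _ ≤ α ^ 2 * β ^ 2 := mul_le_mul ihA ihB hB0 (by positivity)
          _ = _ := by ring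
      exact (pow_le_pow_iff_left₀ hAB0 (by positivity) (by norm_num)).mp this
    have hsum : EZ p Z (fun z => EZ p {e} (fun w => h w ^ 2) z) x = α + β := by
      rw [hα, hβ, ← EZ_add]
      congr 1
      funext y
      exact (sqsum y).symm
    rw [hsum]
    have e1 : EZ p Z (fun y => A y ^ 4 + 8 * ρ ^ 2 * (A y ^ 2 * B y ^ 2) + B y ^ 4) x =
        EZ p Z (fun y => A y ^ 4) x + 8 * ρ ^ 2 * EZ p Z (fun y => A y ^ 2 * B y ^ 2) x +
          EZ p Z (fun y => B y ^ 4) x := by
      rw [EZ_add, EZ_add, EZ_smul]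
    rw [e1]
    have h8 : 8 * ρ ^ 2 * EZ p Z (fun y => A y ^ 2 * B y ^ 2) x ≤ 2 * (α * β) := by
      have : 8 * ρ ^ 2 ≤ 2 := by linarith
      calc 8 * ρ ^ 2 * EZ p Z (fun y => A y ^ 2 * B y ^ 2) x ≤ 2 * EZ p Z (fun y => A y ^ 2 * B y ^ 2) x :=
            mul_le_mul_of_nonneg_right this hAB0
        _ ≤ 2 * (α * β) := by linarith
    nlinarith

lemma EZ_chi_chi (hp : Bias p) (Z S S' : Finset ι) (x : ι → Bool) (hne : S ∩ Z ≠ S' ∩ Z) :
    EZ p Z (fun y => chi p S y * chi p S' y) x = 0 := by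
  have key : ∀ y : ι → Bool, bernoulliWeight p y * (chi p S (ov Z x y) * chi p S' (ov Z x y)) =
      ∏ i, (w1 p (y i) * ((if i ∈ S then phi p (if i ∈ Z then y i else x i) else 1) *
        (if i ∈ S' then phi p (if i ∈ Z then y i else x i) else 1))) := by
    intro y
    rw [weight_eq, chi_eq_prod, chi_eq_prod, ← Finset.prod_mul_distrib, ← Finset.prod_mul_distrib]
    rfl
  simp only [EZ, key]
  rw [sum_prod_bool (fun i b => w1 p b * ((if i ∈ S then phi p (if i ∈ Z then b else x i) else 1) *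
        (if i ∈ S' then phi p (if i ∈ Z then b else x i) else 1)))]
  have : ∃ i, i ∈ Z ∧ ¬ (i ∈ S ↔ i ∈ S') := by
    by_contra hcon
    push Not at hcon
    apply hne
    ext i
    simp only [Finset.mem_inter]
    constructor
    · rintro ⟨a, b⟩
      exact ⟨(hcon i b).mp a, b⟩
    · rintro ⟨a, b⟩
      exact ⟨(hcon i b).mpr a, b⟩
  obtain ⟨i, hiZ, hi⟩ := this
  apply Finset.prod_eq_zero (Finset.mem_univ i)
  have hm := phi_mean hp
  by_cases h1 : i ∈ S <;> by_cases h2 : i ∈ S' <;> simp_all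

lemma EZ_selfadj (hp : Bias p) (Z : Finset ι) {c : Finset ι → ℝ}
    (hc : ∀ S S', S ∩ Z = S' ∩ Z → c S = c S') (g h : (ι → Bool) → ℝ) (x : ι → Bool) :
    EZ p Z (fun y => g y * M p c h y) x = EZ p Z (fun y => M p c g y * h y) x := by
  have e1 : (fun y => g y * M p c h y) =
      fun y => ∑ S, ∑ S', (coef p g S * (c S' * coef p h S')) * (chi p S y * chi p S' y) := by
    funext y
    conv_lhs => rw [inversion hp g y]
    rw [M, Finset.sum_mul_sum]
    refine Finset.sum_congr rfl fun _ _ => Finset.sum_congr rfl fun _ _ => by ring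
  have e2 : (fun y => M p c g y * h y) =
      fun y => ∑ S, ∑ S', (c S * coef p g S * coef p h S') * (chi p S y * chi p S' y) := by
    funext y
    conv_lhs => rw [inversion hp h y]
    rw [M, Finset.sum_mul_sum]
    refine Finset.sum_congr rfl fun _ _ => Finset.sum_congr rfl fun _ _ => by ring
  rw [e1, e2]
  simp only [EZ_sum, EZ_smul]
  refine Finset.sum_congr rfl fun S _ => Finset.sum_congr rfl fun S' _ => ?_
  by_cases hS : S ∩ Z = S' ∩ Z
  · rw [hc S S' hS]; ring
  · rw [EZ_chi_chi hp Z S S' x hS]; ring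

lemma cN_inter {ρ : ℝ} {Z S S' : Finset ι} (h : S ∩ Z = S' ∩ Z) : cN ρ Z S = cN ρ Z S' := by
  simp only [cN, h]

/-- The dual form of hypercontractivity on a fibre. -/
theorem bonami_dual (hp : Bias p) {ρ : ℝ} (h1 : ρ ^ 2 ≤ 1 / 4) (h2 : 3 * ρ ^ 4 ≤ p * (1 - p))
    (Z : Finset ι) (G : (ι → Bool) → ℝ) (x : ι → Bool) :
    EZ p Z (fun y => (M p (cN ρ Z) G y) ^ 2) x ≤
      EZ p Z (fun y => |G y|) x * Real.sqrt (EZ p Z (fun y => G y ^ 2) x) := by
  set U := M p (cN ρ Z) G with hU
  set W := M p (cN ρ Z) U with hW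
  set Y := EZ p Z (fun y => U y ^ 2) x with hY
  set A := EZ p Z (fun y => |G y|) x with hA
  set B := EZ p Z (fun y => G y ^ 2) x with hB
  set Q := EZ p Z (fun y => |G y| * W y ^ 2) x with hQ
  set R := EZ p Z (fun y => |G y| * |W y|) x with hR
  set D := EZ p Z (fun y => W y ^ 4) x with hD
  have hY0 : 0 ≤ Y := EZ_nonneg hp Z (fun _ => by positivity) x
  have hA0 : 0 ≤ A := EZ_nonneg hp Z (fun _ => by positivity) x
  have hB0 : 0 ≤ B := EZ_nonneg hp Z (fun _ => by positivity) x
  have hQ0 : 0 ≤ Q := EZ_nonneg hp Z (fun _ => by positivity) x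
  have hR0 : 0 ≤ R := EZ_nonneg hp Z (fun _ => by positivity) x
  have hD0 : 0 ≤ D := EZ_nonneg hp Z (fun _ => by positivity) x
  have hYR : Y ≤ R := by
    have e : Y = EZ p Z (fun y => G y * W y) x := by
      rw [hY, hW, EZ_selfadj hp Z (fun _ _ => cN_inter)]
      simp only [sq]
      rfl
    rw [e]
    apply EZ_mono hp Z
    intro y
    rw [← abs_mul]
    exact le_abs_self _
  have cs1 : R ^ 2 ≤ A * Q := EZ_cs hp Z (fun _ => abs_nonneg _) (fun _ => by positivity)
    (fun y => by
      rw [mul_pow, sq_abs (W y)]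
      ring) x
  have cs2 : Q ^ 2 ≤ B * D := EZ_cs hp Z (fun _ => by positivity) (fun _ => by positivity)
    (fun y => by
      rw [mul_pow, sq_abs]
      ring) x
  have hDY : D ≤ Y ^ 2 := bonami hp h1 h2 Z U x
  by_cases hYpos : Y = 0
  · rw [hYpos]
    positivity
  have hYp : 0 < Y := lt_of_le_of_ne hY0 (Ne.symm hYpos)
  -- Y^4 ≤ A^2 B Y^2
  have h4 : Y ^ 4 ≤ A ^ 2 * B * Y ^ 2 := by
    have s1 : Y ^ 2 ≤ R ^ 2 := pow_le_pow_left₀ hY0 hYR 2
    have s2 : Y ^ 2 ≤ A * Q := s1.trans cs1
    have s3 : (Y ^ 2) ^ 2 ≤ (A * Q) ^ 2 := pow_le_pow_left₀ (by positivity) s2 2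
    have s4 : (A * Q) ^ 2 = A ^ 2 * Q ^ 2 := by ring
    have s5 : A ^ 2 * Q ^ 2 ≤ A ^ 2 * (B * D) := mul_le_mul_of_nonneg_left cs2 (by positivity)
    have s6 : A ^ 2 * (B * D) ≤ A ^ 2 * (B * Y ^ 2) :=
      mul_le_mul_of_nonneg_left (mul_le_mul_of_nonneg_left hDY hB0) (by positivity)
    calc Y ^ 4 = (Y ^ 2) ^ 2 := by ring
      _ ≤ (A * Q) ^ 2 := s3
      _ = A ^ 2 * Q ^ 2 := s4
      _ ≤ A ^ 2 * (B * D) := s5
      _ ≤ A ^ 2 * (B * Y ^ 2) := s6
      _ = A ^ 2 * B * Y ^ 2 := by ring
  have h5 : Y ^ 2 ≤ A ^ 2 * B := by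
    have hY2 : 0 < Y ^ 2 := by positivity
    have : Y ^ 2 * Y ^ 2 ≤ (A ^ 2 * B) * Y ^ 2 := by nlinarith
    exact le_of_mul_le_mul_right this hY2
  have h6 : A * Real.sqrt B = Real.sqrt (A ^ 2 * B) := by
    rw [Real.sqrt_mul (by positivity), Real.sqrt_sq hA0]
  rw [h6]
  exact Real.le_sqrt_of_sq_le h5

/-- Jensen on a fibre. -/
lemma EZ_abs_le_sqrt (hp : Bias p) (Z : Finset ι) (G : (ι → Bool) → ℝ) (x : ι → Bool) :
    EZ p Z (fun y => |G y|) x ≤ Real.sqrt (EZ p Z (fun y => G y ^ 2) x) := by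
  apply Real.le_sqrt_of_sq_le
  have := EZ_cs (p := p) hp Z (r := fun y => |G y|) (F := fun _ => 1) (K := fun y => G y ^ 2)
    (fun _ => by positivity) (fun _ => by positivity) (fun y => by rw [sq_abs]; ring) x
  rwa [EZ_const, one_mul] at this

end H4
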