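import Crest.Agent.H4W2
import Crest.Agent.H4Iface

/-!
Vertex noise on a slot system.
-/

namespace H4

set_option linter.unusedSectionVars false
set_option linter.unusedSimpArgs false

open Crest.FinProb Finset

variable {V E : Type} [Fintype V] [DecidableEq V] [Fintype E] [DecidableEq E] {r : ℕ}
  (G : HG V E r)

/-- The slots through `w`. -/
def star (w : V) : Finset E := univ.filter (fun e => w ∈ G.vs e)

/-- Vertices touched by a set of slots. -/
def VS (S : Finset E) : Finset V := S.biUnion G.vs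

/-- Number of vertices touched. -/
def vc (S : Finset E) : ℕ := (VS G S).card

/-- Slots touching a marked vertex. -/
def Zb (b : V → Bool) : Finset E := univ.filter (fun e => ∃ v ∈ G.vs e, b v = true)

variable {G}

lemma mem_star {w : V} {e : E} : e ∈ star G w ↔ w ∈ G.vs e := by simp [star]

lemma mem_VS {S : Finset E} {w : V} : w ∈ VS G S ↔ ∃ e ∈ S, w ∈ G.vs e := by simp [VS]

lemma disjoint_star {S : Finset E} {w : V} : Disjoint S (star G w) ↔ w ∉ VS G S := by
  rw [Finset.disjoint_left, mem_VS]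
  constructor
  · rintro h ⟨e, he, hw⟩
    exact h he (mem_star.mpr hw)
  · intro h e he he'
    exact h ⟨e, he, mem_star.mp he'⟩

lemma disjoint_Zb {S : Finset E} {b : V → Bool} :
    Disjoint S (Zb G b) ↔ ∀ v ∈ VS G S, b v = false := by
  rw [Finset.disjoint_left]
  constructor
  · intro h v hv
    obtain ⟨e, he, hve⟩ := mem_VS.mp hv
    by_contra hb
    have hb' : b v = true := by simpa using hb
    exact h he (by simp only [Zb, Finset.mem_filter, Finset.mem_univ, true_and]; exact ⟨v, hve, hb'⟩)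
  · intro h e he he'
    simp only [Zb, Finset.mem_filter, Finset.mem_univ, true_and] at he'
    obtain ⟨v, hv, hb⟩ := he'
    have := h v (mem_VS.mpr ⟨e, he, hv⟩)
    simp [this] at hb

lemma sum_Zb {γ : ℝ} (S : Finset E) :
    ∑ b : V → Bool, bernoulliWeight γ b * (if Disjoint S (Zb G b) then 1 else 0) =
      (1 - γ) ^ vc G S := by
  have key : ∀ b : V → Bool, bernoulliWeight γ b * (if Disjoint S (Zb G b) then (1 : ℝ) else 0) =
      ∏ v, (w1 γ (b v) * (if v ∈ VS G S then (if b v then 0 else 1) else 1)) := by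
    intro b
    rw [weight_eq, Finset.prod_mul_distrib]
    congr 1
    by_cases h : Disjoint S (Zb G b)
    · rw [if_pos h]
      have h' := disjoint_Zb.mp h
      symm
      apply Finset.prod_eq_one
      intro v _
      by_cases hv : v ∈ VS G S
      · simp [hv, h' v hv]
      · simp [hv]
    · rw [if_neg h]
      rw [disjoint_Zb] at h
      push Not at h
      obtain ⟨v, hv, hb⟩ := h
      symm
      apply Finset.prod_eq_zero (Finset.mem_univ v)
      simp [hv, hb]
  simp only [key]
  rw [sum_prod_bool (fun v c => w1 γ c * (if v ∈ VS G S then (if c then 0 else 1) else 1))]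
  have hfac : ∀ v, (w1 γ true * (if v ∈ VS G S then (if true = true then (0:ℝ) else 1) else 1) +
      w1 γ false * (if v ∈ VS G S then (if false = true then (0:ℝ) else 1) else 1)) =
      if v ∈ VS G S then 1 - γ else 1 := by
    intro v
    by_cases hv : v ∈ VS G S <;> simp [hv]
  refine (Finset.prod_congr rfl (fun v _ => hfac v)).trans ?_
  rw [Finset.prod_ite_mem, Finset.univ_inter, Finset.prod_const]
  rfl

/-- The vertex noise operator: average over random marks of `EZ` on the slots touching a mark. -/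
noncomputable def Tn (p γ : ℝ) (G : HG V E r) (g : (E → Bool) → ℝ) (x : E → Bool) : ℝ :=
  ∑ b : V → Bool, bernoulliWeight γ b * EZ p (Zb G b) g x

variable {p γ : ℝ} (hp : Bias p) (hγ : Bias γ)

include hp in
lemma Tn_eq_M (g : (E → Bool) → ℝ) : Tn p γ G g = M p (fun S => (1 - γ) ^ vc G S) g := by
  funext x
  simp only [Tn, EZ_eq_M hp, M, Finset.mul_sum]
  rw [Finset.sum_comm]
  refine Finset.sum_congr rfl fun S _ => ?_
  rw [← sum_Zb S, Finset.sum_mul, Finset.sum_mul]
  refine Finset.sum_congr rfl fun b _ => ?_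
  ring

include hp in
lemma coef_Tn (g : (E → Bool) → ℝ) (S : Finset E) :
    coef p (Tn p γ G g) S = (1 - γ) ^ vc G S * coef p g S := by
  rw [Tn_eq_M hp, coef_M hp]

include hp hγ in
lemma Tn_mono {g h : (E → Bool) → ℝ} (hgh : ∀ x, g x ≤ h x) (x : E → Bool) :
    Tn p γ G g x ≤ Tn p γ G h x :=
  Finset.sum_le_sum fun b _ =>
    mul_le_mul_of_nonneg_left (EZ_mono hp _ hgh x) (weight_nonneg hγ b)

lemma Tn_const (c : ℝ) (x : E → Bool) : Tn p γ G (fun _ => c) x = c := by
  simp only [Tn, EZ_const, ← Finset.sum_mul, sum_weight, one_mul]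

include hp hγ in
lemma Tn_abs (g : (E → Bool) → ℝ) (x : E → Bool) :
    |Tn p γ G g x| ≤ Tn p γ G (fun y => |g y|) x := by
  refine (Finset.abs_sum_le_sum_abs _ _).trans ?_
  refine Finset.sum_le_sum fun b _ => ?_
  rw [abs_mul, abs_of_nonneg (weight_nonneg hγ b)]
  exact mul_le_mul_of_nonneg_left (EZ_abs_le hp _ _ _) (weight_nonneg hγ b)

include hp in
lemma Tn_EZ (Z : Finset E) (g : (E → Bool) → ℝ) :
    Tn p γ G (EZ p Z g) = EZ p Z (Tn p γ G g) := by
  apply coef_ext hp
  intro S
  rw [coef_Tn hp, coef_EZ hp, coef_EZ hp, coef_Tn hp]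
  split_ifs <;> simp

include hp in
lemma Ex_Tn (g : (E → Bool) → ℝ) : Ex p (Tn p γ G g) = Ex p g := by
  rw [← coef_empty, coef_Tn hp, coef_empty]
  simp [vc, VS]

include hp in
lemma Tn_sub (g h : (E → Bool) → ℝ) :
    Tn p γ G (fun x => g x - h x) = fun x => Tn p γ G g x - Tn p γ G h x := by
  simp only [Tn_eq_M hp, M_sub hp]

include hp in
lemma Tn_smul (c : ℝ) (g : (E → Bool) → ℝ) :
    Tn p γ G (fun x => c * g x) = fun x => c * Tn p γ G g x := by
  simp only [Tn_eq_M hp, M_smul hp]

include hp in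
lemma free_Tn {Z : Finset E} {g : (E → Bool) → ℝ} (hg : Free Z g) : Free Z (Tn p γ G g) := by
  rw [Tn_eq_M hp]
  exact free_M hp hg _

/-- `star` contains the marks -/
lemma Zb_update (b : V → Bool) (w : V) :
    Zb G (Function.update b w true) = Zb G b ∪ star G w := by
  ext e
  simp only [Zb, star, Finset.mem_filter, Finset.mem_univ, true_and, Finset.mem_union]
  constructor
  · rintro ⟨v, hv, hb⟩
    by_cases h : v = w
    · subst h; exact Or.inr hv
    · rw [Function.update_of_ne h] at hb
      exact Or.inl ⟨v, hv, hb⟩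
  · rintro (⟨v, hv, hb⟩ | h)
    · by_cases hvw : v = w
      · subst hvw; exact ⟨v, hv, by simp⟩
      · exact ⟨v, hv, by rwa [Function.update_of_ne hvw]⟩
    · exact ⟨w, h, by simp⟩

/-! ### Symmetry -/

/-- reindexing of the fibre integral -/
lemma weight_comp {ι : Type*} [Fintype ι] (a : Equiv.Perm ι) (y : ι → Bool) (t : ℝ) :
    bernoulliWeight t (y ∘ a) = bernoulliWeight t y := by
  unfold bernoulliWeight
  exact Equiv.prod_comp a (fun i => if y i then t else 1 - t)

/-- the equivalence of precomposition -/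
def compEquiv {ι : Type*} (a : Equiv.Perm ι) : (ι → Bool) ≃ (ι → Bool) where
  toFun y := y ∘ a
  invFun y := y ∘ a.symm
  left_inv y := by funext i; simp
  right_inv y := by funext i; simp

lemma EZ_comp (a : Equiv.Perm E) (Z Z' : Finset E) (hZ : ∀ e, e ∈ Z' ↔ a e ∈ Z)
    (h : (E → Bool) → ℝ) (x : E → Bool) :
    EZ p Z (fun y => h (y ∘ a)) x = EZ p Z' h (x ∘ a) := by
  simp only [EZ]
  refine Fintype.sum_equiv (compEquiv a) _ _ ?_
  intro y
  have e1 : bernoulliWeight p (compEquiv a y) = bernoulliWeight p y := weight_comp a y p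
  have e2 : ov Z x y ∘ a = ov Z' (x ∘ a) (compEquiv a y) := by
    funext e
    simp only [ov, Function.comp, compEquiv, Equiv.coe_fn_mk, hZ]
  rw [e1, e2]

lemma Ex_comp (a : Equiv.Perm E) (h : (E → Bool) → ℝ) :
    Ex p (fun y => h (y ∘ a)) = Ex p h := by
  simp only [Ex]
  refine Fintype.sum_equiv (compEquiv a) _ _ ?_
  intro y
  have e1 : bernoulliWeight p (compEquiv a y) = bernoulliWeight p y := weight_comp a y p
  rw [e1]
  rfl

/-- the action of a vertex permutation commutes with the vertex noise -/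
lemma Tn_comp (π : Equiv.Perm V) (h : (E → Bool) → ℝ) (x : E → Bool) :
    Tn p γ G (fun y => h (y ∘ G.act π)) x = Tn p γ G h (x ∘ G.act π) := by
  simp only [Tn]
  refine Fintype.sum_equiv (compEquiv π) _ _ ?_
  intro b
  have e1 : bernoulliWeight γ (compEquiv π b) = bernoulliWeight γ b := weight_comp π b γ
  rw [e1, EZ_comp (G.act π) (Zb G b) (Zb G (compEquiv π b))]
  intro e
  have h1 : e ∈ Zb G (compEquiv π b) ↔ ∃ v ∈ G.vs e, b (π v) = true := by
    unfold Zb
    rw [Finset.mem_filter]
    simp [compEquiv]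
  have h2 : G.act π e ∈ Zb G b ↔ ∃ v ∈ G.vs (G.act π e), b v = true := by simp [Zb]
  rw [h1, h2, G.vs_act]
  constructor
  · rintro ⟨v, hv, hb⟩
    exact ⟨π v, Finset.mem_map.mpr ⟨v, hv, rfl⟩, hb⟩
  · rintro ⟨v, hv, hb⟩
    obtain ⟨u, hu, rfl⟩ := Finset.mem_map.mp hv
    exact ⟨u, hu, hb⟩

end H4
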