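import Crest.Agent.H4W3

/-!
The objects attached to a Boolean function and the pointwise estimates.
-/

namespace H4

set_option linter.unusedSectionVars false
set_option linter.unusedSimpArgs false

open Crest.FinProb Finset

variable {V E : Type} [Fintype V] [DecidableEq V] [Fintype E] [DecidableEq E] {r : ℕ}

/-- conditional mean given the bits off the star of `w` -/
noncomputable def qw (p : ℝ) (G : HG V E r) (f : (E → Bool) → ℝ) (w : V) : (E → Bool) → ℝ :=
  EZ p (star G w) f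

/-- conditional variance given the bits off the star of `w` -/
noncomputable def uw (p : ℝ) (G : HG V E r) (f : (E → Bool) → ℝ) (w : V) (x : E → Bool) : ℝ :=
  qw p G f w x * (1 - qw p G f w x)

/-- smoothed conditional variance -/
noncomputable def tw (p γ : ℝ) (G : HG V E r) (f : (E → Bool) → ℝ) (w : V) : (E → Bool) → ℝ :=
  Tn p γ G (uw p G f w)

/-- vertex derivative of the smoothed function -/
noncomputable def Gw (p γ : ℝ) (G : HG V E r) (f : (E → Bool) → ℝ) (w : V) (x : E → Bool) : ℝ :=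
  Tn p γ G f x - EZ p (star G w) (Tn p γ G f) x

variable {G : HG V E r} {p γ : ℝ} {f : (E → Bool) → ℝ}

section
variable (hp : Bias p) (hγ : Bias γ) (hf : ∀ x, f x = 0 ∨ f x = 1)
include hp hf

lemma f_nonneg (x : E → Bool) : 0 ≤ f x := by
  rcases hf x with h | h <;> rw [h] <;> norm_num

lemma f_le_one (x : E → Bool) : f x ≤ 1 := by
  rcases hf x with h | h <;> rw [h] <;> norm_num

lemma f_sq (x : E → Bool) : f x ^ 2 = f x := by
  rcases hf x with h | h <;> rw [h] <;> norm_num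

lemma qw_nonneg (w : V) (x : E → Bool) : 0 ≤ qw p G f w x :=
  EZ_nonneg hp _ (f_nonneg hp hf) x

lemma qw_le_one (w : V) (x : E → Bool) : qw p G f w x ≤ 1 := by
  have := EZ_mono (p := p) hp (star G w) (g := f) (h := fun _ => 1) (f_le_one hp hf) x
  rwa [EZ_const] at this

lemma uw_nonneg (w : V) (x : E → Bool) : 0 ≤ uw p G f w x :=
  mul_nonneg (qw_nonneg hp hf w x) (by linarith [qw_le_one (G := G) hp hf w x])

lemma uw_sq_le (w : V) (x : E → Bool) : uw p G f w x ^ 2 ≤ uw p G f w x / 4 := by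
  have h0 := uw_nonneg (G := G) hp hf w x
  have h1 : uw p G f w x ≤ 1 / 4 := by
    simp only [uw]
    nlinarith [sq_nonneg (qw p G f w x - 1 / 2)]
  nlinarith

omit hp hf in
lemma free_qw (w : V) : Free (star G w) (qw p G f w) := free_EZ _ _

omit hp hf in
lemma free_uw (w : V) : Free (star G w) (uw p G f w) := by
  intro x y
  simp only [uw, free_qw w x y]

lemma EZ_abs_sub (w : V) : (EZ p (star G w) fun y => |f y - qw p G f w y|) =
    fun x => 2 * uw p G f w x := by
  funext x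
  have h0 : ∀ y, |f y - qw p G f w y| =
      (1 - qw p G f w y) * f y + qw p G f w y * (1 - f y) := by
    intro y
    have h1 := qw_nonneg (G := G) hp hf w y
    have h2 := qw_le_one (G := G) hp hf w y
    rcases hf y with h | h <;> rw [h]
    · rw [sub_eq_add_neg, zero_add, abs_neg, abs_of_nonneg h1]; ring
    · rw [abs_of_nonneg (by linarith)]; ring
  simp only [h0]
  have hfree1 : Free (star G w) (fun y => 1 - qw p G f w y) := by
    intro a b
    simp only [free_qw w a b]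
  rw [EZ_add, EZ_mul_free hfree1, EZ_mul_free (free_qw w), EZ_sub, EZ_const]
  change (1 - qw p G f w x) * qw p G f w x + qw p G f w x * (1 - qw p G f w x) = _
  simp only [uw]
  ring

lemma EZ_sq_sub (w : V) : (EZ p (star G w) fun y => (f y - qw p G f w y) ^ 2) = uw p G f w := by
  funext x
  have h0 : ∀ y, (f y - qw p G f w y) ^ 2 =
      (1 - 2 * qw p G f w y) * f y + qw p G f w y * qw p G f w y := by
    intro y
    have := f_sq hp hf y
    nlinarith
  simp only [h0]
  have hfree1 : Free (star G w) (fun y => 1 - 2 * qw p G f w y) := by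
    intro a b
    simp only [free_qw w a b]
  rw [EZ_add, EZ_mul_free hfree1, EZ_mul_free (free_qw w), EZ_of_free (free_qw w)]
  change (1 - 2 * qw p G f w x) * qw p G f w x + qw p G f w x * qw p G f w x = _
  simp only [uw]
  ring

omit hf in
lemma Gw_eq (w : V) : Gw p γ G f w = Tn p γ G (fun y => f y - qw p G f w y) := by
  rw [Tn_sub hp]
  funext x
  simp only [Gw, qw, Tn_EZ hp]

omit hp hf in
lemma coef_sub_qw (hp : Bias p) (w : V) (S : Finset E) :
    coef p (fun y => f y - qw p G f w y) S = if w ∈ VS G S then coef p f S else 0 := by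
  rw [coef_sub]
  simp only [qw, coef_EZ hp, disjoint_star]
  by_cases h : w ∈ VS G S <;> simp [h]

omit hf in
lemma coef_Gw (w : V) (S : Finset E) :
    coef p (Gw p γ G f w) S = if w ∈ VS G S then (1 - γ) ^ vc G S * coef p f S else 0 := by
  rw [Gw_eq hp, coef_Tn hp, coef_sub_qw hp]
  split_ifs <;> ring

include hγ

lemma Tn_f_mem (x : E → Bool) : 0 ≤ Tn p γ G f x ∧ Tn p γ G f x ≤ 1 := by
  constructor
  · have := Tn_mono (G := G) hp hγ (g := fun _ => 0) (h := f) (f_nonneg hp hf) x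
    rwa [Tn_const] at this
  · have := Tn_mono (G := G) hp hγ (g := f) (h := fun _ => 1) (f_le_one hp hf) x
    rwa [Tn_const] at this

lemma Gw_abs_le (w : V) (x : E → Bool) : |Gw p γ G f w x| ≤ 1 := by
  have h1 := Tn_f_mem (G := G) hp hγ hf x
  have h2 : 0 ≤ EZ p (star G w) (Tn p γ G f) x :=
    EZ_nonneg hp _ (fun y => (Tn_f_mem hp hγ hf y).1) x
  have h3 : EZ p (star G w) (Tn p γ G f) x ≤ 1 := by
    have := EZ_mono (p := p) hp (star G w) (g := Tn p γ G f) (h := fun _ => 1)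
      (fun y => (Tn_f_mem hp hγ hf y).2) x
    rwa [EZ_const] at this
  simp only [Gw]
  rw [abs_le]
  constructor <;> linarith [h1.1, h1.2]

lemma Gw_sq_le (w : V) (x : E → Bool) : Gw p γ G f w x ^ 2 ≤ 1 := by
  have := Gw_abs_le (G := G) hp hγ hf w x
  have h2 := abs_nonneg (Gw p γ G f w x)
  rw [← sq_abs]
  nlinarith

lemma tw_nonneg (w : V) (x : E → Bool) : 0 ≤ tw p γ G f w x := by
  have := Tn_mono (G := G) hp hγ (g := fun _ => 0) (h := uw p G f w) (uw_nonneg hp hf w) x
  rwa [Tn_const] at this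

omit hγ hf in
lemma free_tw (w : V) : Free (star G w) (tw p γ G f w) := free_Tn hp (free_uw w)

omit hγ hf in
lemma Ex_tw (w : V) : Ex p (tw p γ G f w) = Ex p (uw p G f w) := Ex_Tn hp _

lemma EZ_abs_Gw_le (w : V) (x : E → Bool) :
    EZ p (star G w) (fun y => |Gw p γ G f w y|) x ≤ 2 * tw p γ G f w x := by
  have h1 : ∀ y, |Gw p γ G f w y| ≤ Tn p γ G (fun z => |f z - qw p G f w z|) y := by
    intro y
    rw [Gw_eq hp]
    exact Tn_abs hp hγ _ y
  refine (EZ_mono hp _ h1 x).trans (le_of_eq ?_)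
  rw [← Tn_EZ hp, EZ_abs_sub hp hf, Tn_smul hp]
  rfl

omit hγ in
lemma Ex_sq_sub (w : V) : Ex p (fun y => (f y - qw p G f w y) ^ 2) = Ex p (uw p G f w) := by
  rw [← Ex_EZ hp (star G w), EZ_sq_sub hp hf]

lemma gamma_pow_le (k : ℕ) : (1 - γ) ^ k ≤ 1 :=
  pow_le_one₀ (by linarith [hγ.2]) (by linarith [hγ.1])

lemma Ex_sq_Gw_le (w : V) : Ex p (fun y => Gw p γ G f w y ^ 2) ≤ Ex p (uw p G f w) := by
  rw [← Ex_sq_sub hp hf w, parseval_sq hp, parseval_sq hp]
  refine Finset.sum_le_sum fun S _ => ?_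
  rw [coef_Gw hp, coef_sub_qw hp]
  split_ifs
  · have h0 : 0 ≤ (1 - γ) ^ vc G S := pow_nonneg (by linarith [hγ.2]) _
    have h1 := gamma_pow_le (p := p) hp hγ hf (vc G S)
    rw [mul_pow]
    have : ((1 - γ) ^ vc G S) ^ 2 ≤ 1 := pow_le_one₀ h0 h1
    nlinarith [sq_nonneg (coef p f S)]
  · simp

end

/-- The pointwise split. -/
lemma split_pt {a b τ s : ℝ} (hs : 0 < s) (ha0 : 0 ≤ a) (hab : a ≤ b) (haτ : a ≤ 2 * τ) (hτ : 0 ≤ τ) :
    a * b ≤ s * (τ + b ^ 2) + b ^ 2 * (if s ^ 2 ≤ τ then 1 else 0) := by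
  have hb : 0 ≤ b := ha0.trans hab
  by_cases h : s ^ 2 ≤ τ
  · rw [if_pos h]
    have : a * b ≤ b * b := mul_le_mul_of_nonneg_right hab hb
    have h2 : 0 ≤ s * (τ + b ^ 2) := by positivity
    nlinarith
  · rw [if_neg h]
    push Not at h
    have h1 : a * b ≤ 2 * τ * b := mul_le_mul_of_nonneg_right haτ hb
    have h3 : s * (2 * τ * b) ≤ s * (s * (τ + b ^ 2)) := by
      have : 0 ≤ (τ - s * b) ^ 2 := sq_nonneg _
      have h4 : τ ^ 2 ≤ s ^ 2 * τ := by nlinarith
      nlinarith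
    have h5 : 2 * τ * b ≤ s * (τ + b ^ 2) := le_of_mul_le_mul_left h3 hs
    linarith

/-- The per-vertex bound: hypercontractivity on the star plus the split at `τ ≥ s²`. -/
theorem per_w (hp : Bias p) (hγ : Bias γ) (hf : ∀ x, f x = 0 ∨ f x = 1) {ρ s : ℝ}
    (h1 : ρ ^ 2 ≤ 1 / 4) (h2 : 3 * ρ ^ 4 ≤ p * (1 - p)) (hs : 0 < s) (w : V) :
    Ex p (fun x => (M p (cN ρ (star G w)) (Gw p γ G f w) x) ^ 2) ≤
      2 * s * Ex p (uw p G f w) +
        Ex p (fun x => Gw p γ G f w x ^ 2 * (if s ^ 2 ≤ tw p γ G f w x then 1 else 0)) := by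
  set Z := star G w with hZ
  set g := Gw p γ G f w with hg
  set τ := tw p γ G f w with hτ
  set B := EZ p Z (fun y => g y ^ 2) with hB
  have hB0 : ∀ x, 0 ≤ B x := fun x => EZ_nonneg hp _ (fun _ => by positivity) x
  rw [← Ex_EZ hp Z]
  have hpt : ∀ x, EZ p Z (fun y => (M p (cN ρ Z) g y) ^ 2) x ≤
      s * (τ x + B x) + B x * (if s ^ 2 ≤ τ x then 1 else 0) := by
    intro x
    have hd := bonami_dual hp h1 h2 Z g x
    have hab := EZ_abs_le_sqrt hp Z g x
    have haτ := EZ_abs_Gw_le (G := G) hp hγ hf w x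
    have ha0 : 0 ≤ EZ p Z (fun y => |g y|) x := EZ_nonneg hp _ (fun _ => abs_nonneg _) x
    have := split_pt hs ha0 hab haτ (tw_nonneg hp hγ hf w x)
    rw [Real.sq_sqrt (hB0 x)] at this
    exact hd.trans this
  refine (Ex_mono hp hpt).trans ?_
  rw [Ex_add, Ex_smul, Ex_add]
  have e1 : Ex p B = Ex p (fun y => g y ^ 2) := Ex_EZ hp _ _
  have e2 : Ex p τ = Ex p (uw p G f w) := Ex_tw hp w
  have e3 : Ex p (fun x => B x * (if s ^ 2 ≤ τ x then (1 : ℝ) else 0)) =
      Ex p (fun x => g x ^ 2 * (if s ^ 2 ≤ τ x then 1 else 0)) := by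
    apply Ex_mul_free hp
    intro x y
    have : τ (ov Z x y) = τ x := free_tw hp w x y
    simp only [this]
  have e4 : Ex p (fun y => g y ^ 2) ≤ Ex p (uw p G f w) := Ex_sq_Gw_le hp hγ hf w
  rw [e1, e2, e3]
  have := mul_le_mul_of_nonneg_left e4 hs.le
  nlinarith

end H4
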