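import Crest.Agent.H4W4

/-!
Symmetry: closeness of the smoothed conditional variances; the pointwise bound on
`∑ (D_w g)²`; assembly of the star bound.
-/

namespace H4

set_option linter.unusedSectionVars false
set_option linter.unusedSimpArgs false

open Crest.FinProb Finset

variable {V E : Type} [Fintype V] [DecidableEq V] [Fintype E] [DecidableEq E] {r : ℕ}
variable {G : HG V E r} {p γ : ℝ} {f : (E → Bool) → ℝ}

lemma star_swap (w w' : V) (e : E) : G.act (Equiv.swap w w') e ∈ star G w' ↔ e ∈ star G w := by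
  simp only [mem_star, G.vs_act, Finset.mem_map]
  constructor
  · rintro ⟨u, hu, hu2⟩
    have : u = w := by
      have := congrArg (Equiv.swap w w') hu2
      simpa using this
    exact this ▸ hu
  · intro h
    exact ⟨w, h, by simp⟩

lemma qw_swap (hsym : ∀ (π : Equiv.Perm V) (x : E → Bool), f (x ∘ G.act π) = f x) (w w' : V)
    (x : E → Bool) :
    qw p G f w' x = qw p G f w (x ∘ G.act (Equiv.swap w w')) := by
  have h1 : f = fun y => f (y ∘ G.act (Equiv.swap w w')) := by
    funext y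
    exact (hsym _ y).symm
  simp only [qw]
  conv_lhs => rw [h1]
  exact EZ_comp _ _ _ (fun e => (star_swap w w' e).symm) f x

lemma uw_swap (hsym : ∀ (π : Equiv.Perm V) (x : E → Bool), f (x ∘ G.act π) = f x) (w w' : V)
    (x : E → Bool) :
    uw p G f w' x = uw p G f w (x ∘ G.act (Equiv.swap w w')) := by
  simp only [uw, qw_swap hsym w w' x]

lemma tw_swap (hsym : ∀ (π : Equiv.Perm V) (x : E → Bool), f (x ∘ G.act π) = f x) (w w' : V)
    (x : E → Bool) :
    tw p γ G f w' x = tw p γ G f w (x ∘ G.act (Equiv.swap w w')) := by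
  simp only [tw]
  have : uw p G f w' = fun y => uw p G f w (y ∘ G.act (Equiv.swap w w')) := by
    funext y
    exact uw_swap hsym w w' y
  rw [this]
  exact Tn_comp _ _ _

lemma act_fix (w w' : V) (e : E) (h1 : e ∉ star G w) (h2 : e ∉ star G w') :
    G.act (Equiv.swap w w') e = e := by
  apply G.vs_inj
  rw [G.vs_act]
  ext u
  simp only [Finset.mem_map]
  constructor
  · rintro ⟨t, ht, rfl⟩
    have h3 : t ≠ w := fun h => h1 (mem_star.mpr (h ▸ ht))
    have h4 : t ≠ w' := fun h => h2 (mem_star.mpr (h ▸ ht))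
    simpa [Equiv.swap_apply_of_ne_of_ne h3 h4] using ht
  · intro hu
    have h3 : u ≠ w := fun h => h1 (mem_star.mpr (h ▸ hu))
    have h4 : u ≠ w' := fun h => h2 (mem_star.mpr (h ▸ hu))
    exact ⟨u, hu, by simp [Equiv.swap_apply_of_ne_of_ne h3 h4]⟩

/-- pairwise closeness -/
lemma close_pair (hp : Bias p) (hsym : ∀ (π : Equiv.Perm V) (x : E → Bool), f (x ∘ G.act π) = f x)
    (w w' : V) :
    Ex p (fun x => (tw p γ G f w x - tw p γ G f w' x) ^ 2) ≤
      4 * Ex p (fun x => (tw p γ G f w x - EZ p (star G w') (tw p γ G f w) x) ^ 2) := by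
  set a := G.act (Equiv.swap w w') with ha
  set h := tw p γ G f w with hh
  set d := EZ p (star G w') h with hd
  have hfree : Free (star G w ∪ star G w') d := by
    apply free_of_coef hp
    intro S hS
    rw [hd, coef_EZ hp]
    split_ifs with h1
    · have h2 : ¬ Disjoint S (star G w) := by
        intro h2
        exact hS (Finset.disjoint_union_right.mpr ⟨h2, h1⟩)
      exact coef_free hp (free_tw hp w) h2
    · rfl
  have hda : ∀ x : E → Bool, d (x ∘ a) = d x := by
    intro x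
    have : x ∘ a = ov (star G w ∪ star G w') x (x ∘ a) := by
      funext e
      by_cases he : e ∈ star G w ∪ star G w'
      · simp only [ov, if_pos he]
      · simp only [ov, if_neg he, Function.comp]
        rw [Finset.mem_union, not_or] at he
        rw [ha, act_fix w w' e he.1 he.2]
    rw [this]
    exact hfree x _
  have hpt : ∀ x, (h x - tw p γ G f w' x) ^ 2 ≤
      2 * (h x - d x) ^ 2 + 2 * (h (x ∘ a) - d (x ∘ a)) ^ 2 := by
    intro x
    rw [tw_swap hsym w w' x, hda x]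
    change (h x - h (x ∘ a)) ^ 2 ≤ _
    nlinarith [sq_nonneg ((h x - d x) + (h (x ∘ a) - d x))]
  refine (Ex_mono hp hpt).trans (le_of_eq ?_)
  rw [Ex_add, Ex_smul, Ex_smul]
  have : Ex p (fun x => (h (x ∘ a) - d (x ∘ a)) ^ 2) = Ex p (fun x => (h x - d x) ^ 2) :=
    Ex_comp a (fun x => (h x - d x) ^ 2)
  rw [this]
  ring

lemma vc_bound (hγ : Bias γ) (k : ℕ) : (k : ℝ) * (1 - γ) ^ (2 * k) ≤ 1 / (2 * γ) := by
  have hγ0 := hγ.1
  have hγ1 := hγ.2
  have h1 : 1 + ((2 * k : ℕ) : ℝ) * γ ≤ (1 + γ) ^ (2 * k) :=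
    one_add_mul_le_pow (by linarith) _
  have h2 : (1 - γ) ^ (2 * k) * (1 + γ) ^ (2 * k) ≤ 1 := by
    rw [← mul_pow]
    apply pow_le_one₀
    · nlinarith
    · nlinarith
  have h3 : 0 ≤ (1 - γ) ^ (2 * k) := pow_nonneg (by linarith) _
  rw [le_div_iff₀ (by positivity)]
  have h4 : (1 - γ) ^ (2 * k) * (1 + ((2 * k : ℕ) : ℝ) * γ) ≤ 1 :=
    (mul_le_mul_of_nonneg_left h1 h3).trans h2
  push_cast at h4
  nlinarith

/-- the sum over `w'` of the squared distances -/
lemma sum_close (hp : Bias p) (hγ : Bias γ) (hf : ∀ x, f x = 0 ∨ f x = 1)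
    (hsym : ∀ (π : Equiv.Perm V) (x : E → Bool), f (x ∘ G.act π) = f x) (w : V) :
    ∑ w' : V, Ex p (fun x => (tw p γ G f w x - tw p γ G f w' x) ^ 2) ≤
      Ex p (uw p G f w) / (2 * γ) := by
  set u := uw p G f w with hu
  have h1 : ∀ w', Ex p (fun x => (tw p γ G f w x - EZ p (star G w') (tw p γ G f w) x) ^ 2) =
      ∑ S, (if w' ∈ VS G S then ((1 - γ) ^ vc G S * coef p u S) ^ 2 else 0) := by
    intro w'
    rw [parseval_sq hp]
    refine Finset.sum_congr rfl fun S _ => ?_
    rw [coef_sub]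
    simp only [coef_EZ hp, disjoint_star]
    have : coef p (tw p γ G f w) S = (1 - γ) ^ vc G S * coef p u S := coef_Tn hp _ _
    rw [this]
    by_cases h : w' ∈ VS G S <;> simp [h]
  have h2 : ∑ w', Ex p (fun x => (tw p γ G f w x - EZ p (star G w') (tw p γ G f w) x) ^ 2) =
      ∑ S, ((vc G S : ℝ) * (1 - γ) ^ (2 * vc G S)) * coef p u S ^ 2 := by
    simp only [h1]
    rw [Finset.sum_comm]
    refine Finset.sum_congr rfl fun S _ => ?_
    rw [Finset.sum_ite_mem, Finset.univ_inter, Finset.sum_const, nsmul_eq_mul]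
    simp only [vc]
    ring
  have h3 : ∑ S, ((vc G S : ℝ) * (1 - γ) ^ (2 * vc G S)) * coef p u S ^ 2 ≤
      (1 / (2 * γ)) * Ex p (fun x => u x ^ 2) := by
    rw [parseval_sq hp, Finset.mul_sum]
    exact Finset.sum_le_sum fun S _ =>
      mul_le_mul_of_nonneg_right (vc_bound hγ _) (sq_nonneg _)
  have h4 : Ex p (fun x => u x ^ 2) ≤ Ex p u / 4 := by
    have := Ex_mono (p := p) hp (g := fun x => u x ^ 2) (h := fun x => (1 / 4) * u x)
      (fun x => by
        have := uw_sq_le (G := G) hp hf w x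
        simp only [hu]
        linarith)
    rwa [Ex_smul, show (1 / 4 : ℝ) * Ex p u = Ex p u / 4 by ring] at this
  have hγ0 := hγ.1
  calc ∑ w', Ex p (fun x => (tw p γ G f w x - tw p γ G f w' x) ^ 2)
      ≤ ∑ w', 4 * Ex p (fun x => (tw p γ G f w x - EZ p (star G w') (tw p γ G f w) x) ^ 2) :=
        Finset.sum_le_sum fun w' _ => close_pair hp hsym w w'
    _ = 4 * ∑ S, ((vc G S : ℝ) * (1 - γ) ^ (2 * vc G S)) * coef p u S ^ 2 := by
        rw [← Finset.mul_sum, h2]
    _ ≤ 4 * ((1 / (2 * γ)) * (Ex p u / 4)) := by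
        apply mul_le_mul_of_nonneg_left _ (by norm_num)
        exact h3.trans (mul_le_mul_of_nonneg_left h4 (by positivity))
    _ = Ex p u / (2 * γ) := by ring

/-! ### The bound on `∑ (D_w g)²` -/

lemma level_one_bound (hγ : Bias γ) (F : (V → Bool) → ℝ) (hF0 : ∀ b, 0 ≤ F b) (hF1 : ∀ b, F b ≤ 1) :
    ∑ w : V, coef γ F {w} ^ 2 ≤ 1 / 4 := by
  have h1 := parseval_sq hγ F
  have h2 : coef γ F ∅ ^ 2 + ∑ w : V, coef γ F {w} ^ 2 ≤ ∑ S, coef γ F S ^ 2 := by
    have hsub : ∑ S ∈ insert ∅ (Finset.univ.image (fun w : V => ({w} : Finset V))), coef γ F S ^ 2 ≤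
        ∑ S, coef γ F S ^ 2 :=
      Finset.sum_le_univ_sum_of_nonneg (fun S => sq_nonneg _)
    rw [Finset.sum_insert (by simp), Finset.sum_image (by
      intro a _ b _ hab
      simpa using hab)] at hsub
    exact hsub
  have h3 : Ex γ (fun x => F x ^ 2) ≤ Ex γ F := Ex_mono hγ (fun b => by
    have := hF0 b
    have := hF1 b
    nlinarith)
  rw [coef_empty] at h2
  nlinarith [sq_nonneg (Ex γ F - 1 / 2)]

lemma Gw_formula (hp : Bias p) (hγ : Bias γ) (w : V) (x : E → Bool) :
    Gw p γ G f w x =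
      Ex γ (fun b : V → Bool => EZ p (Zb G b) f x - EZ p (Zb G (Function.update b w true)) f x) := by
  rw [Ex_sub]
  simp only [Gw]
  congr 1
  rw [← Tn_EZ hp]
  simp only [Tn, Ex, EZ_EZ hp, Zb_update]

lemma Ex_diff_eq (hγ : Bias γ) (F : (V → Bool) → ℝ) (w : V) :
    Ex γ (fun b => F b - F (Function.update b w true)) =
      -((1 - γ) / Real.sqrt (γ * (1 - γ))) * coef γ F {w} := by
  have hs := s_pos hγ
  have hs2 := sq_s hγ
  have hc : coef γ F {w} = Ex γ (fun b => F b * phi γ (b w)) := by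
    simp [coef, chi]
  rw [hc, ← Ex_smul, ← Ex_EZ hγ {w}]
  rw [← Ex_EZ hγ {w} (fun x => _ * (F x * phi γ (x w)))]
  congr 1
  funext b
  simp only [EZ_single hγ, Function.update_self, Function.update_idem]
  have h1 : γ * phi γ true = Real.sqrt (γ * (1 - γ)) := by
    simp only [phi, if_true]
    field_simp
    rw [hs2]
  have h2 : (1 - γ) * phi γ false = - Real.sqrt (γ * (1 - γ)) := by
    simp only [phi, Bool.false_eq_true, if_false]
    field_simp
    rw [hs2]
  set s := Real.sqrt (γ * (1 - γ))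
  set F1 := F (Function.update b w true)
  set F0 := F (Function.update b w false)
  have key : γ * (-((1 - γ) / s) * (F1 * phi γ true)) + (1 - γ) * (-((1 - γ) / s) * (F0 * phi γ false)) =
      (-((1 - γ) / s)) * (F1 * (γ * phi γ true) + F0 * ((1 - γ) * phi γ false)) := by ring
  rw [key, h1, h2]
  field_simp
  ring

/-- The pointwise bound on the sum of squared vertex derivatives. -/
theorem Gamma_bound (hp : Bias p) (hγ : Bias γ) (hf : ∀ x, f x = 0 ∨ f x = 1) (x : E → Bool) :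
    ∑ w : V, Gw p γ G f w x ^ 2 ≤ 1 / (4 * γ) := by
  set F : (V → Bool) → ℝ := fun b => EZ p (Zb G b) f x with hF
  have hF0 : ∀ b, 0 ≤ F b := fun b => EZ_nonneg hp _ (f_nonneg hp hf) x
  have hF1 : ∀ b, F b ≤ 1 := fun b => by
    have := EZ_mono (p := p) hp (Zb G b) (g := f) (h := fun _ => 1) (f_le_one hp hf) x
    rwa [EZ_const] at this
  have hs := s_pos hγ
  have hs2 := sq_s hγ
  have hγ0 := hγ.1
  have hγ1 : 0 < 1 - γ := by linarith [hγ.2]
  have h1 : ∀ w, Gw p γ G f w x ^ 2 = ((1 - γ) / γ) * coef γ F {w} ^ 2 := by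
    intro w
    rw [Gw_formula hp hγ w x]
    have := Ex_diff_eq hγ F w
    simp only [hF] at this ⊢
    rw [this, mul_pow, neg_sq, div_pow, hs2]
    field_simp
  simp only [h1]
  rw [← Finset.mul_sum]
  have h2 := level_one_bound hγ F hF0 hF1
  have h3 : (1 - γ) / γ * ∑ w : V, coef γ F {w} ^ 2 ≤ (1 - γ) / γ * (1 / 4) :=
    mul_le_mul_of_nonneg_left h2 (by positivity)
  refine h3.trans ?_
  rw [div_mul_div_comm, mul_one]
  apply div_le_div₀ (by norm_num) (by linarith) (by positivity)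
  nlinarith

/-! ### Assembly -/

/-- the star bound in physical space -/
theorem star_bound (hp : Bias p) (hγ : Bias γ) (hf : ∀ x, f x = 0 ∨ f x = 1)
    (hsym : ∀ (π : Equiv.Perm V) (x : E → Bool), f (x ∘ G.act π) = f x) {ρ s : ℝ}
    (h1 : ρ ^ 2 ≤ 1 / 4) (h2 : 3 * ρ ^ 4 ≤ p * (1 - p)) (hs : 0 < s)
    (hn : 0 < Fintype.card V) :
    ∑ w : V, Ex p (fun x => (M p (cN ρ (star G w)) (Gw p γ G f w) x) ^ 2) ≤
      (∑ w : V, Ex p (uw p G f w)) *
        (2 * s + 1 / (2 * γ * s ^ 2 * Fintype.card V) + 2 / (γ * s ^ 4 * Fintype.card V)) := by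
  set n : ℝ := (Fintype.card V : ℝ) with hn'
  have hn0 : 0 < n := by
    rw [hn']
    exact_mod_cast hn
  have hγ0 := hγ.1
  set A := ∑ w : V, Ex p (uw p G f w) with hA
  set τbar : (E → Bool) → ℝ := fun x => (1 / n) * ∑ w : V, tw p γ G f w x with hτbar
  have hτbar0 : ∀ x, 0 ≤ τbar x := fun x => mul_nonneg (by positivity)
    (Finset.sum_nonneg fun w _ => tw_nonneg hp hγ hf w x)
  have hExτ : Ex p τbar = A / n := by
    rw [hτbar, Ex_smul, Ex_sum]
    simp only [Ex_tw hp]
    rw [hA]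
    ring
  -- pointwise splitting for one vertex
  have hs4 : 0 < s ^ 4 := by positivity
  have hs2 : 0 < s ^ 2 := by positivity
  have hpt : ∀ w x, Gw p γ G f w x ^ 2 * (if s ^ 2 ≤ tw p γ G f w x then 1 else 0) ≤
      Gw p γ G f w x ^ 2 * (if s ^ 2 / 2 ≤ τbar x then 1 else 0) +
        (4 / s ^ 4) * (tw p γ G f w x - τbar x) ^ 2 := by
    intro w x
    have hG1 := Gw_sq_le (G := G) hp hγ hf w x
    have hG0 : 0 ≤ Gw p γ G f w x ^ 2 := sq_nonneg _
    have hq : 0 ≤ (4 / s ^ 4) * (tw p γ G f w x - τbar x) ^ 2 := by positivity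
    by_cases ha : s ^ 2 ≤ tw p γ G f w x
    · rw [if_pos ha]
      by_cases hb : s ^ 2 / 2 ≤ τbar x
      · rw [if_pos hb]
        linarith
      · rw [if_neg hb]
        push Not at hb
        have h3 : s ^ 2 / 2 ≤ tw p γ G f w x - τbar x := by linarith
        have h4 : (s ^ 2 / 2) ^ 2 ≤ (tw p γ G f w x - τbar x) ^ 2 :=
          pow_le_pow_left₀ (by positivity) h3 2
        have h5 : 1 ≤ (4 / s ^ 4) * (tw p γ G f w x - τbar x) ^ 2 := by
          rw [div_mul_eq_mul_div, le_div_iff₀ hs4]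
          nlinarith
        linarith
    · rw [if_neg ha]
      have : 0 ≤ Gw p γ G f w x ^ 2 * (if s ^ 2 / 2 ≤ τbar x then (1 : ℝ) else 0) := by
        split_ifs <;> positivity
      linarith
  -- the part on `R`
  have hR : ∑ w : V, Ex p (fun x => Gw p γ G f w x ^ 2 * (if s ^ 2 / 2 ≤ τbar x then 1 else 0)) ≤
      (1 / (4 * γ)) * ((2 / s ^ 2) * (A / n)) := by
    rw [← Ex_sum, ← hExτ, ← Ex_smul, ← Ex_smul]
    apply Ex_mono hp
    intro x
    rw [← Finset.sum_mul]
    have hΓ := Gamma_bound (G := G) hp hγ hf x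
    have hΓ0 : 0 ≤ ∑ w : V, Gw p γ G f w x ^ 2 := Finset.sum_nonneg fun _ _ => sq_nonneg _
    by_cases hb : s ^ 2 / 2 ≤ τbar x
    · rw [if_pos hb, mul_one]
      refine hΓ.trans ?_
      apply le_mul_of_one_le_right (by positivity)
      rw [div_mul_eq_mul_div, le_div_iff₀ hs2]
      linarith
    · rw [if_neg hb, mul_zero]
      have := hτbar0 x
      positivity
  -- the deviations
  have hdev : ∀ w x, (tw p γ G f w x - τbar x) ^ 2 ≤
      (1 / n) * ∑ w' : V, (tw p γ G f w x - tw p γ G f w' x) ^ 2 := by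
    intro w x
    have e1 : tw p γ G f w x - τbar x = (1 / n) * ∑ w' : V, (tw p γ G f w x - tw p γ G f w' x) := by
      rw [Finset.sum_sub_distrib, Finset.sum_const, Finset.card_univ, nsmul_eq_mul, ← hn']
      simp only [hτbar]
      field_simp
    rw [e1, mul_pow]
    have e2 := sq_sum_le_card_mul_sum_sq (s := (Finset.univ : Finset V))
      (f := fun w' => tw p γ G f w x - tw p γ G f w' x)
    rw [Finset.card_univ, ← hn'] at e2
    calc (1 / n) ^ 2 * (∑ w' : V, (tw p γ G f w x - tw p γ G f w' x)) ^ 2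
        ≤ (1 / n) ^ 2 * (n * ∑ w' : V, (tw p γ G f w x - tw p γ G f w' x) ^ 2) :=
          mul_le_mul_of_nonneg_left e2 (by positivity)
      _ = _ := by field_simp
  have hdev2 : ∑ w : V, Ex p (fun x => (tw p γ G f w x - τbar x) ^ 2) ≤ A / (2 * γ * n) := by
    have e1 : ∀ w, Ex p (fun x => (tw p γ G f w x - τbar x) ^ 2) ≤
        (1 / n) * (Ex p (uw p G f w) / (2 * γ)) := by
      intro w
      refine (Ex_mono hp (hdev w)).trans ?_
      rw [Ex_smul, Ex_sum]
      exact mul_le_mul_of_nonneg_left (sum_close hp hγ hf hsym w) (by positivity)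
    refine (Finset.sum_le_sum fun w _ => e1 w).trans (le_of_eq ?_)
    rw [← Finset.mul_sum, ← Finset.sum_div, ← hA]
    field_simp
  -- final
  calc ∑ w : V, Ex p (fun x => (M p (cN ρ (star G w)) (Gw p γ G f w) x) ^ 2)
      ≤ ∑ w : V, (2 * s * Ex p (uw p G f w) +
          Ex p (fun x => Gw p γ G f w x ^ 2 * (if s ^ 2 ≤ tw p γ G f w x then 1 else 0))) :=
        Finset.sum_le_sum fun w _ => per_w hp hγ hf h1 h2 hs w
    _ ≤ ∑ w : V, (2 * s * Ex p (uw p G f w) +
          (Ex p (fun x => Gw p γ G f w x ^ 2 * (if s ^ 2 / 2 ≤ τbar x then 1 else 0)) +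
            (4 / s ^ 4) * Ex p (fun x => (tw p γ G f w x - τbar x) ^ 2))) := by
        refine Finset.sum_le_sum fun w _ => ?_
        have := Ex_mono hp (hpt w)
        rw [Ex_add, Ex_smul] at this
        linarith
    _ = 2 * s * A + (∑ w : V, Ex p (fun x => Gw p γ G f w x ^ 2 * (if s ^ 2 / 2 ≤ τbar x then 1 else 0)) +
          (4 / s ^ 4) * ∑ w : V, Ex p (fun x => (tw p γ G f w x - τbar x) ^ 2)) := by
        rw [Finset.sum_add_distrib, Finset.sum_add_distrib, ← Finset.mul_sum, ← Finset.mul_sum]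
    _ ≤ 2 * s * A + ((1 / (4 * γ)) * ((2 / s ^ 2) * (A / n)) + (4 / s ^ 4) * (A / (2 * γ * n))) := by
        have := mul_le_mul_of_nonneg_left hdev2 (show 0 ≤ 4 / s ^ 4 by positivity)
        linarith
    _ = A * (2 * s + 1 / (2 * γ * s ^ 2 * n) + 2 / (γ * s ^ 4 * n)) := by
        field_simp
        ring

end H4
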