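import Crest.Agent.H4W5

/-!
Fourier identities and the dichotomy.
-/

namespace H4

set_option linter.unusedSectionVars false
set_option linter.unusedSimpArgs false

open Crest.FinProb Finset

variable {V E : Type} [Fintype V] [DecidableEq V] [Fintype E] [DecidableEq E] {r : ℕ}
variable {G : HG V E r} {p γ : ℝ} {f : (E → Bool) → ℝ}

/-- degree of `w` in a set of slots -/
def deg (G : HG V E r) (S : Finset E) (w : V) : ℕ := (S ∩ star G w).card

/-- `∑_w E u_w` in Fourier terms -/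
lemma sum_uw_eq (hp : Bias p) (hf : ∀ x, f x = 0 ∨ f x = 1) :
    ∑ w : V, Ex p (uw p G f w) = ∑ S, (vc G S : ℝ) * coef p f S ^ 2 := by
  have h1 : ∀ w, Ex p (uw p G f w) = ∑ S, if w ∈ VS G S then coef p f S ^ 2 else 0 := by
    intro w
    rw [← Ex_sq_sub hp hf w, parseval_sq hp]
    refine Finset.sum_congr rfl fun S _ => ?_
    rw [coef_sub_qw hp]
    split_ifs <;> simp
  simp only [h1]
  rw [Finset.sum_comm]
  refine Finset.sum_congr rfl fun S _ => ?_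
  rw [Finset.sum_ite_mem, Finset.univ_inter, Finset.sum_const, nsmul_eq_mul]
  rfl

lemma coef_noise_Gw (hp : Bias p) (ρ : ℝ) (w : V) (S : Finset E) :
    coef p (M p (cN ρ (star G w)) (Gw p γ G f w)) S =
      if w ∈ VS G S then ρ ^ deg G S w * ((1 - γ) ^ vc G S * coef p f S) else 0 := by
  rw [coef_M hp, coef_Gw hp]
  simp only [cN, deg]
  split_ifs <;> simp

/-- the star sum in Fourier terms -/
lemma sum_noise_eq (hp : Bias p) (ρ : ℝ) :
    ∑ w : V, Ex p (fun x => (M p (cN ρ (star G w)) (Gw p γ G f w) x) ^ 2) =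
      ∑ S, coef p f S ^ 2 * ((1 - γ) ^ (2 * vc G S) * ∑ w ∈ VS G S, (ρ ^ 2) ^ deg G S w) := by
  have h1 : ∀ w, Ex p (fun x => (M p (cN ρ (star G w)) (Gw p γ G f w) x) ^ 2) =
      ∑ S, if w ∈ VS G S then coef p f S ^ 2 * ((1 - γ) ^ (2 * vc G S) * (ρ ^ 2) ^ deg G S w) else 0 := by
    intro w
    rw [parseval_sq hp]
    refine Finset.sum_congr rfl fun S _ => ?_
    rw [coef_noise_Gw hp]
    split_ifs
    · ring
    · simp
  simp only [h1]
  rw [Finset.sum_comm]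
  refine Finset.sum_congr rfl fun S _ => ?_
  rw [Finset.sum_ite_mem, Finset.univ_inter, Finset.mul_sum, Finset.mul_sum]

lemma vc_le (S : Finset E) : vc G S ≤ r * S.card := by
  have : vc G S ≤ ∑ e ∈ S, (G.vs e).card := Finset.card_biUnion_le
  simp only [G.vs_card, Finset.sum_const, smul_eq_mul] at this
  linarith [mul_comm r S.card]

/-- numeric core of the dichotomy -/
lemma numeric_core {A X σ r' N n γ s Q : ℝ} (hσ : 0 < σ) (hX : 0 < X) (hr' : 0 < r')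
    (hN : 1 ≤ N) (hn : N ^ 16 ≤ n) (hγ : γ = σ / (16 * r' * X)) (hs : s = 1 / N ^ 2)
    (hlt : 32 * r' * X < N * σ) (hA0 : 0 ≤ A) (hA : A ≤ r' * X)
    (hQ : Q ≤ A * (2 * s + 1 / (2 * γ * s ^ 2 * n) + 2 / (γ * s ^ 4 * n))) :
    2 * N * Q ≤ σ / 4 := by
  have hN0 : 0 < N := by linarith
  have hγ0 : 0 < γ := by rw [hγ]; positivity
  have hn0 : 0 < n := lt_of_lt_of_le (by positivity) hn
  have hs0 : 0 < s := by rw [hs]; positivity
  have hN1 : 1 ≤ N ^ 8 := one_le_pow₀ hN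
  have h1 : 1 / (2 * γ * s ^ 2 * n) ≤ 1 / (2 * γ * N ^ 8) := by
    apply one_div_le_one_div_of_le (by positivity)
    have : s ^ 2 * n ≥ N ^ 12 := by
      rw [hs]
      have e : (1 / N ^ 2) ^ 2 * n = n / N ^ 4 := by field_simp
      rw [e, ge_iff_le, le_div_iff₀ (by positivity)]
      calc N ^ 12 * N ^ 4 = N ^ 16 := by ring
        _ ≤ n := hn
    have h2 : N ^ 8 ≤ s ^ 2 * n := by
      refine le_trans ?_ this
      exact pow_le_pow_right₀ hN (by norm_num)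
    calc 2 * γ * N ^ 8 ≤ 2 * γ * (s ^ 2 * n) := mul_le_mul_of_nonneg_left h2 (by positivity)
      _ = 2 * γ * s ^ 2 * n := by ring
  have h2 : 2 / (γ * s ^ 4 * n) ≤ 2 / (γ * N ^ 8) := by
    apply div_le_div_of_nonneg_left (by norm_num) (by positivity)
    have : N ^ 8 ≤ s ^ 4 * n := by
      rw [hs]
      have e : (1 / N ^ 2) ^ 4 * n = n / N ^ 8 := by field_simp
      rw [e, le_div_iff₀ (by positivity)]
      calc N ^ 8 * N ^ 8 = N ^ 16 := by ring
        _ ≤ n := hn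
    calc γ * N ^ 8 ≤ γ * (s ^ 4 * n) := mul_le_mul_of_nonneg_left this hγ0.le
      _ = γ * s ^ 4 * n := by ring
  have h3 : Q ≤ A * (2 * s + 1 / (2 * γ * N ^ 8) + 2 / (γ * N ^ 8)) :=
    hQ.trans (mul_le_mul_of_nonneg_left (by linarith) hA0)
  -- write κ = r' X / σ
  set κ := r' * X / σ with hκ
  have hκ0 : 0 < κ := by positivity
  have hκN : κ ≤ N / 32 := by
    rw [hκ, div_le_div_iff₀ hσ (by norm_num)]
    nlinarith
  have hAκ : A ≤ κ * σ := by
    rw [hκ]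
    field_simp
    exact hA
  have hγi : 1 / γ = 16 * κ := by
    rw [hγ, hκ]
    field_simp
  have e1 : 2 * N * (A * (2 * s + 1 / (2 * γ * N ^ 8) + 2 / (γ * N ^ 8))) =
      A * (4 / N + (5 / N ^ 7) * (1 / γ)) := by
    rw [hs]
    field_simp
    ring
  have h4 : 2 * N * Q ≤ A * (4 / N + (5 / N ^ 7) * (1 / γ)) := by
    rw [← e1]
    exact mul_le_mul_of_nonneg_left h3 (by positivity)
  refine h4.trans ?_
  rw [hγi]
  have h5 : A * (4 / N + 5 / N ^ 7 * (16 * κ)) ≤ κ * σ * (4 / N + 5 / N ^ 7 * (16 * κ)) :=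
    mul_le_mul_of_nonneg_right hAκ (by positivity)
  refine h5.trans ?_
  have h6 : κ * (4 / N) ≤ 1 / 8 := by
    rw [mul_div_assoc', div_le_iff₀ hN0]
    linarith
  have h7 : κ * (5 / N ^ 7 * (16 * κ)) ≤ 1 / 8 := by
    have e2 : κ * (5 / N ^ 7 * (16 * κ)) = 80 * κ ^ 2 / N ^ 7 := by
      field_simp
      ring
    rw [e2, div_le_iff₀ (by positivity)]
    have h8 : κ ^ 2 ≤ (N / 32) ^ 2 := pow_le_pow_left₀ hκ0.le hκN 2
    have h9 : N ^ 2 ≤ N ^ 7 := pow_le_pow_right₀ hN (by norm_num)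
    have e3 : (N / 32) ^ 2 = N ^ 2 / 1024 := by ring
    rw [e3] at h8
    nlinarith
  have e4 : κ * σ * (4 / N + 5 / N ^ 7 * (16 * κ)) = σ * (κ * (4 / N) + κ * (5 / N ^ 7 * (16 * κ))) := by
    ring
  rw [e4]
  have : κ * (4 / N) + κ * (5 / N ^ 7 * (16 * κ)) ≤ 1 / 4 := by linarith
  nlinarith

/-- abstract accounting: from the star bound to the dichotomy. -/
lemma accounting {J : Type} [Fintype J] [DecidableEq J] (J0 : J) (c cd vv Qt gg : J → ℝ) {σ X A B N r' γ : ℝ}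
    (hc0 : ∀ S, 0 ≤ c S) (hcd0 : ∀ S, 0 ≤ cd S) (hvv0 : ∀ S, 0 ≤ vv S) (hQt0 : ∀ S, 0 ≤ Qt S)
    (hgg0 : ∀ S, 0 ≤ gg S)
    (hσ : σ = ∑ S ∈ univ.erase J0, c S) (hX : X = ∑ S, cd S * c S) (hA : A = ∑ S, vv S * c S)
    (hB0 : 0 ≤ B) (hN : 0 < N) (hr' : 0 < r') (hγ : 0 < γ)
    (hpt : ∀ S, S ≠ J0 → c S ≤ 4 * γ * (vv S * c S) + 2 * N * Qt S + gg S)
    (hnum : 2 * N * (∑ S, Qt S) ≤ σ / 4) (h4 : 4 * γ * A ≤ σ / 4)
    (hBgg : ∀ S, B * gg S ≤ r' * (cd S * c S)) :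
    σ * B ≤ 2 * r' * X := by
  have hsumgg : σ ≤ 4 * γ * A + 2 * N * (∑ S, Qt S) + ∑ S, gg S := by
    have e1 : σ ≤ ∑ S ∈ univ.erase J0, (4 * γ * (vv S * c S) + 2 * N * Qt S + gg S) := by
      rw [hσ]
      exact Finset.sum_le_sum fun S hS => hpt S (Finset.mem_erase.mp hS).1
    refine e1.trans ?_
    have e2 : ∑ S ∈ univ.erase J0, (4 * γ * (vv S * c S) + 2 * N * Qt S + gg S) ≤
        ∑ S, (4 * γ * (vv S * c S) + 2 * N * Qt S + gg S) :=
      Finset.sum_le_univ_sum_of_nonneg fun S => by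
        have h5 : 0 ≤ 4 * γ * (vv S * c S) := by have := hc0 S; have := hvv0 S; positivity
        have h6 : 0 ≤ 2 * N * Qt S := by have := hQt0 S; positivity
        linarith [hgg0 S]
    refine e2.trans (le_of_eq ?_)
    rw [Finset.sum_add_distrib, Finset.sum_add_distrib, ← Finset.mul_sum, ← Finset.mul_sum, hA]
  have hgoodmass : σ / 2 ≤ ∑ S, gg S := by linarith
  have hBgg2 : B * ∑ S, gg S ≤ r' * X := by
    rw [Finset.mul_sum, hX, Finset.mul_sum]
    exact Finset.sum_le_sum fun S _ => hBgg S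
  have : B * (σ / 2) ≤ r' * X := (mul_le_mul_of_nonneg_left hgoodmass hB0).trans hBgg2
  linarith

/-- The dichotomy in Fourier form. -/
theorem dichotomy (hp : Bias p) (hr : 1 ≤ r) (hf : ∀ x, f x = 0 ∨ f x = 1)
    (hsym : ∀ (π : Equiv.Perm V) (x : E → Bool), f (x ∘ G.act π) = f x) {ρ N B : ℝ} {d : ℕ}
    (h1 : ρ ^ 2 ≤ 1 / 4) (h2 : 3 * ρ ^ 4 ≤ p * (1 - p)) (hρ : 0 < ρ) (hN : 1 ≤ N)
    (hn : N ^ 16 ≤ (Fintype.card V : ℝ)) (hd : 1 ≤ d) (hdN : 1 / N ≤ (ρ ^ 2) ^ (d - 1))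
    (hB0 : 0 ≤ B)
    (hB : ∀ S : Finset E, S ≠ ∅ → (∀ w ∈ VS G S, d ≤ deg G S w) → B ≤ r * S.card) :
    (∑ S ∈ univ.erase ∅, coef p f S ^ 2) * B ≤ 2 * r * ∑ S, (S.card : ℝ) * coef p f S ^ 2 ∨
      (∑ S ∈ univ.erase ∅, coef p f S ^ 2) * N ≤ 32 * r * ∑ S, (S.card : ℝ) * coef p f S ^ 2 := by
  obtain ⟨c, hc⟩ : ∃ c : Finset E → ℝ, ∀ S, c S = coef p f S ^ 2 := ⟨_, fun _ => rfl⟩
  simp only [← hc]
  have hc0 : ∀ S, 0 ≤ c S := fun S => by rw [hc]; exact sq_nonneg _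
  obtain ⟨σ, hσ⟩ : ∃ σ, σ = ∑ S ∈ univ.erase ∅, c S := ⟨_, rfl⟩
  obtain ⟨X, hX⟩ : ∃ X, X = ∑ S : Finset E, (S.card : ℝ) * c S := ⟨_, rfl⟩
  rw [← hσ, ← hX]
  have hσ0 : 0 ≤ σ := by
    rw [hσ]
    exact Finset.sum_nonneg fun S _ => hc0 S
  have hr0 : (0 : ℝ) < r := by exact_mod_cast hr
  have hX0 : 0 ≤ X := by
    rw [hX]
    exact Finset.sum_nonneg fun S _ => mul_nonneg (by positivity) (hc0 S)
  have hσX : σ ≤ X := by
    have : σ ≤ ∑ S ∈ univ.erase ∅, (S.card : ℝ) * c S := by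
      rw [hσ]
      refine Finset.sum_le_sum fun S hS => ?_
      have hne : S ≠ ∅ := (Finset.mem_erase.mp hS).1
      have : (1 : ℝ) ≤ S.card := by
        have : 1 ≤ S.card := Finset.card_pos.mpr (Finset.nonempty_iff_ne_empty.mpr hne)
        exact_mod_cast this
      nlinarith [hc0 S]
    refine this.trans ?_
    rw [hX]
    exact Finset.sum_le_univ_sum_of_nonneg fun S => mul_nonneg (by positivity) (hc0 S)
  by_cases hcase : σ * N ≤ 32 * r * X
  · exact Or.inr hcase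
  left
  push Not at hcase
  have hN0 : 0 < N := by linarith
  have hσpos : 0 < σ := by
    by_contra hcon
    have : σ = 0 := le_antisymm (not_lt.mp hcon) hσ0
    rw [this, zero_mul] at hcase
    have : 0 ≤ 32 * (r : ℝ) * X := by positivity
    linarith
  have hXpos : 0 < X := lt_of_lt_of_le hσpos hσX
  obtain ⟨γ, hγdef⟩ : ∃ γ, γ = σ / (16 * r * X) := ⟨_, rfl⟩
  have hr1 : (1 : ℝ) ≤ r := by exact_mod_cast hr
  have hγ0 : 0 < γ := by rw [hγdef]; positivity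
  have hγ1 : γ ≤ 1 / 16 := by
    rw [hγdef, div_le_div_iff₀ (by positivity) (by norm_num)]
    nlinarith
  have hγb : Bias γ := ⟨hγ0, by linarith⟩
  have hn0 : 0 < Fintype.card V := by
    have : (0 : ℝ) < Fintype.card V := lt_of_lt_of_le (by positivity) hn
    exact_mod_cast this
  obtain ⟨s, hs⟩ : ∃ s, s = 1 / N ^ 2 := ⟨_, rfl⟩
  have hs0 : 0 < s := by rw [hs]; positivity
  have hstar := star_bound (G := G) hp hγb hf hsym h1 h2 hs0 hn0
  rw [sum_noise_eq hp, sum_uw_eq hp hf] at hstar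
  simp only [← hc] at hstar
  obtain ⟨A, hA⟩ : ∃ A, A = ∑ S : Finset E, (vc G S : ℝ) * c S := ⟨_, rfl⟩
  obtain ⟨Qt, hQt⟩ : ∃ Qt : Finset E → ℝ, ∀ S, Qt S =
      c S * ((1 - γ) ^ (2 * vc G S) * ∑ w ∈ VS G S, (ρ ^ 2) ^ deg G S w) := ⟨_, fun _ => rfl⟩
  simp only [← hQt, ← hA] at hstar
  have hγ1' : 0 ≤ 1 - γ := by linarith
  have hQt0 : ∀ S, 0 ≤ Qt S := fun S => by
    rw [hQt]
    exact mul_nonneg (hc0 S)
      (mul_nonneg (pow_nonneg hγ1' _) (Finset.sum_nonneg fun _ _ => by positivity))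
  have hA0 : 0 ≤ A := by
    rw [hA]
    exact Finset.sum_nonneg fun S _ => mul_nonneg (by positivity) (hc0 S)
  have hAX : A ≤ r * X := by
    rw [hX, hA, Finset.mul_sum]
    refine Finset.sum_le_sum fun S _ => ?_
    have : (vc G S : ℝ) ≤ r * S.card := by exact_mod_cast vc_le S
    calc (vc G S : ℝ) * c S ≤ (r * S.card) * c S := mul_le_mul_of_nonneg_right this (hc0 S)
      _ = _ := by ring
  have hnum : 2 * N * (∑ S, Qt S) ≤ σ / 4 :=
    numeric_core hσpos hXpos hr0 hN hn hγdef hs (by rw [mul_comm N]; exact hcase) hA0 hAX hstar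
  have h4γA : 4 * γ * A ≤ σ / 4 := by
    have : 4 * γ * A ≤ 4 * γ * (r * X) := mul_le_mul_of_nonneg_left hAX (by positivity)
    refine this.trans (le_of_eq ?_)
    rw [hγdef]
    field_simp
    norm_num
  -- the good sets
  classical
  have hρ2 : 0 < ρ ^ 2 := by positivity
  have hρ21 : ρ ^ 2 ≤ 1 := by linarith
  obtain ⟨gg, hgg⟩ : ∃ gg : Finset E → ℝ, ∀ S, gg S =
      if (S ≠ ∅ ∧ ∀ w ∈ VS G S, d ≤ deg G S w) then c S else 0 := ⟨_, fun _ => rfl⟩
  have hgg0 : ∀ S, 0 ≤ gg S := fun S => by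
    rw [hgg]
    split_ifs
    · exact hc0 S
    · exact le_rfl
  have hpt : ∀ S, S ≠ ∅ → c S ≤ 4 * γ * ((vc G S : ℝ) * c S) + 2 * N * Qt S + gg S := by
    intro S hSne
    by_cases h41 : 1 < 4 * γ * vc G S
    · have h5 : c S ≤ 4 * γ * (vc G S * c S) := by nlinarith [hc0 S]
      have h6 : 0 ≤ 2 * N * Qt S := by have := hQt0 S; positivity
      linarith [hgg0 S]
    push Not at h41
    have hhalf : 1 / 2 ≤ (1 - γ) ^ (2 * vc G S) := by
      have := one_add_mul_le_pow (a := -γ) (by linarith) (2 * vc G S)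
      have e : (1 : ℝ) + -γ = 1 - γ := by ring
      rw [e] at this
      push_cast at this
      nlinarith
    by_cases hg : ∀ w ∈ VS G S, d ≤ deg G S w
    · have e : gg S = c S := by rw [hgg, if_pos ⟨hSne, hg⟩]
      have h5 : 0 ≤ 4 * γ * ((vc G S : ℝ) * c S) := by have := hc0 S; positivity
      have h6 : 0 ≤ 2 * N * Qt S := by have := hQt0 S; positivity
      linarith
    · push Not at hg
      obtain ⟨w, hw, hwd⟩ := hg
      have hpow : 1 / N ≤ (ρ ^ 2) ^ deg G S w := by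
        refine hdN.trans ?_
        apply pow_le_pow_of_le_one hρ2.le hρ21
        omega
      have hsum : 1 / N ≤ ∑ w ∈ VS G S, (ρ ^ 2) ^ deg G S w := by
        refine hpow.trans ?_
        exact Finset.single_le_sum (f := fun w => (ρ ^ 2) ^ deg G S w) (fun _ _ => by positivity) hw
      have hprod : (1 / 2) * (1 / N) ≤ (1 - γ) ^ (2 * vc G S) * ∑ w ∈ VS G S, (ρ ^ 2) ^ deg G S w :=
        mul_le_mul hhalf hsum (by positivity) (pow_nonneg hγ1' _)
      have h7 : c S * ((1 / 2) * (1 / N)) ≤ Qt S := by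
        rw [hQt]
        exact mul_le_mul_of_nonneg_left hprod (hc0 S)
      have h8 : c S ≤ 2 * N * Qt S := by
        have : 2 * N * (c S * ((1 / 2) * (1 / N))) ≤ 2 * N * Qt S :=
          mul_le_mul_of_nonneg_left h7 (by positivity)
        have e : 2 * N * (c S * ((1 / 2) * (1 / N))) = c S := by
          field_simp
        linarith
      have h5 : 0 ≤ 4 * γ * ((vc G S : ℝ) * c S) := by have := hc0 S; positivity
      linarith [hgg0 S]
  refine accounting (∅ : Finset E) c (fun S => (S.card : ℝ)) (fun S => (vc G S : ℝ)) Qt gg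
    hc0 (fun _ => by positivity) (fun _ => by positivity) hQt0 hgg0 hσ hX hA hB0 hN0 hr0 hγ0
    hpt hnum h4γA ?_
  intro S
  rw [hgg]
  split_ifs with hg
  · have := hB S hg.1 hg.2
    calc B * c S ≤ (r * S.card) * c S := mul_le_mul_of_nonneg_right this (hc0 S)
      _ = _ := by ring
  · rw [mul_zero]
    exact mul_nonneg (by positivity) (mul_nonneg (by positivity) (hc0 S))

end H4
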