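import Mathlib

/-!
Balls of a simple graph around a set of centres.
-/

set_option autoImplicit false
set_option linter.unusedSectionVars false
set_option linter.unusedVariables false

namespace Crest.Agent.H5SL

section Ball

variable {V : Type*} {G : SimpleGraph V} {c : Set V}

/-- balls around a set of centres -/
def ballS (G : SimpleGraph V) (c : Set V) : ℕ → Set V
  | 0 => c
  | k + 1 => ballS G c k ∪ {x | ∃ u ∈ ballS G c k, G.Adj u x}

lemma ballS_subset_succ (k : ℕ) : ballS G c k ⊆ ballS G c (k + 1) :=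
  Set.subset_union_left

lemma ballS_mono : Monotone (ballS G c) :=
  monotone_nat_of_le_succ ballS_subset_succ

lemma ballS_finite (hc : c.Finite) (hlf : ∀ v, (G.neighborSet v).Finite) (k : ℕ) :
    (ballS G c k).Finite := by
  induction k with
  | zero => exact hc
  | succ k ih =>
    refine ih.union ?_
    have : {x | ∃ u ∈ ballS G c k, G.Adj u x} = ⋃ u ∈ ballS G c k, G.neighborSet u := by
      ext x
      simp [SimpleGraph.mem_neighborSet]
    rw [this]
    exact ih.biUnion fun u _ => hlf u

lemma mem_ballS_of_walk {x u : V} (p : G.Walk u x) :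
    ∀ k, u ∈ ballS G c k → x ∈ ballS G c (k + p.length) := by
  induction p with
  | nil => intro k hu; simpa using hu
  | cons h q ih =>
    intro k hu
    have h1 := ih (k + 1) (Or.inr ⟨_, hu, h⟩)
    rw [SimpleGraph.Walk.length_cons]
    convert h1 using 2
    ring

lemma exists_mem_ballS (hG : G.Connected) {u : V} (hu : u ∈ c) (x : V) : ∃ k, x ∈ ballS G c k := by
  obtain ⟨p⟩ := hG.preconnected u x
  exact ⟨0 + p.length, mem_ballS_of_walk p 0 hu⟩

/-- Balls around connected sets are connected. -/
theorem ballS_connected (hc : (G.induce c).Connected) (k : ℕ) :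
    (G.induce (ballS G c k)).Connected := by
  induction k with
  | zero => exact hc
  | succ k ih =>
    obtain ⟨⟨b₀, hb₀⟩⟩ := ih.nonempty
    have hle : ballS G c k ≤ ballS G c (k + 1) := ballS_subset_succ k
    let ι := SimpleGraph.induceHomOfLE G hle
    have hin : ∀ x (hx : x ∈ ballS G c k),
        (G.induce (ballS G c (k + 1))).Reachable ⟨x, hle hx⟩ ⟨b₀, hle hb₀⟩ := by
      intro x hx
      exact (ih.preconnected ⟨x, hx⟩ ⟨b₀, hb₀⟩).map ι.toHom
    have hall : ∀ x : ballS G c (k + 1),
        (G.induce (ballS G c (k + 1))).Reachable x ⟨b₀, hle hb₀⟩ := by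
      rintro ⟨x, hx⟩
      rcases hx with hx | ⟨u, hu, hadj⟩
      · exact hin x hx
      · have h1 : (G.induce (ballS G c (k + 1))).Adj ⟨x, Or.inr ⟨u, hu, hadj⟩⟩ ⟨u, hle hu⟩ := hadj.symm
        exact h1.reachable.trans (hin u hu)
    have : Nonempty (ballS G c (k + 1)) := ⟨⟨b₀, hle hb₀⟩⟩
    exact { preconnected := fun x y => (hall x).trans (hall y).symm, nonempty := this }

/-- The centre of an edge is connected. -/
lemma connected_edge_center {u v : V} (h : G.Adj u v) :
    (G.induce {x | x ∈ s(u, v)}).Connected := by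
  have hu : u ∈ {x | x ∈ s(u, v)} := by simp
  have hv : v ∈ {x | x ∈ s(u, v)} := by simp
  have hall : ∀ x : {x | x ∈ s(u, v)}, (G.induce {x | x ∈ s(u, v)}).Reachable x ⟨u, hu⟩ := by
    rintro ⟨x, hx⟩
    have hx' : x = u ∨ x = v := by simpa using hx
    rcases hx' with h1 | h1
    · subst h1
      exact SimpleGraph.Reachable.refl _
    · subst h1
      have h2 : (G.induce {y | y ∈ s(u, x)}).Adj ⟨x, hx⟩ ⟨u, hu⟩ := h.symm
      exact h2.reachable
  have : Nonempty ({x | x ∈ s(u, v)} : Set V) := ⟨⟨u, hu⟩⟩
  exact { preconnected := fun x y => (hall x).trans (hall y).symm, nonempty := this }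

lemma connected_singleton_center (u : V) : (G.induce {u}).Connected := by
  have : Nonempty ({u} : Set V) := ⟨⟨u, rfl⟩⟩
  refine { preconnected := ?_, nonempty := this }
  rintro ⟨x, hx⟩ ⟨y, hy⟩
  have hx' : x = u := hx
  have hy' : y = u := hy
  subst hx'
  subst hy'
  exact SimpleGraph.Reachable.refl _

/-- Relabelling of balls. -/
lemma ballS_comap (σ : Equiv.Perm V) (k : ℕ) :
    ballS (G.comap σ) (σ ⁻¹' c) k = σ ⁻¹' ballS G c k := by
  induction k with
  | zero => rfl
  | succ k ih =>
    simp only [ballS]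
    rw [ih, Set.preimage_union]
    congr 1
    ext x
    simp only [Set.mem_ofPred_eq, Set.mem_preimage, SimpleGraph.comap_adj]
    constructor
    · rintro ⟨u, hu, h⟩
      exact ⟨σ u, hu, h⟩
    · rintro ⟨u, hu, h⟩
      refine ⟨σ.symm u, by simpa using hu, by simpa using h⟩

end Ball

end Crest.Agent.H5SL
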