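import Crest.Agent.H5SLSchwarz

/-!
Multi-affine stable polynomials: negative correlation and the slope bound, and the resulting
sup-norm Lipschitz bound for tilted means.
-/

set_option autoImplicit false

open Complex Filter Metric Set Topology Finset
open scoped ComplexConjugate

namespace Crest.Agent.H5SL

set_option linter.unusedSectionVars false

variable {ι : Type*} [DecidableEq ι]

/-- generating polynomial of a mass function on subsets of `V`. -/
noncomputable def stP (p : Finset ι → ℝ) (V : Finset ι) (z : ι → ℂ) : ℂ :=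
  ∑ S ∈ V.powerset, (p S : ℂ) * ∏ i ∈ S, z i

/-- non-vanishing on the product of upper half planes. -/
def Stable (p : Finset ι → ℝ) (V : Finset ι) : Prop :=
  ∀ z : ι → ℂ, (∀ i ∈ V, 0 < (z i).im) → stP p V z ≠ 0

/-- one-variable split. -/
lemma stP_insert (p : Finset ι → ℝ) {V : Finset ι} {e : ι} (he : e ∉ V) (z : ι → ℂ) :
    stP p (insert e V) z =
      (∑ S ∈ V.powerset, (p S : ℂ) * ∏ i ∈ S, z i) +
        z e * ∑ S ∈ V.powerset, (p (insert e S) : ℂ) * ∏ i ∈ S, z i := by
  unfold stP
  rw [Finset.sum_powerset_insert he, Finset.mul_sum]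
  congr 1
  apply Finset.sum_congr rfl
  intro S hS
  have : e ∉ S := fun h => he (Finset.mem_powerset.1 hS h)
  rw [Finset.prod_insert this]
  ring

lemma prod_update_of_notMem {z : ι → ℂ} {e : ι} {s : ℂ} {S : Finset ι} (h : e ∉ S) :
    ∏ i ∈ S, Function.update z e s i = ∏ i ∈ S, z i := by
  apply Finset.prod_congr rfl
  intro i hi
  rw [Function.update_of_ne]
  rintro rfl
  exact h hi

section NC

/-- The negative-correlation inequality between the four coefficients. -/
theorem coef_nc {p : Finset ι → ℝ} {V : Finset ι} {e f : ι} (hp : ∀ S, 0 ≤ p S)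
    (hst : Stable p (insert e (insert f V))) (hef : e ≠ f) (heV : e ∉ V) (hfV : f ∉ V)
    {lam : ι → ℝ} (hlam : ∀ i, 0 < lam i) :
    (∑ S ∈ V.powerset, p S * ∏ i ∈ S, lam i) *
        (∑ S ∈ V.powerset, p (insert e (insert f S)) * ∏ i ∈ S, lam i) ≤
      (∑ S ∈ V.powerset, p (insert e S) * ∏ i ∈ S, lam i) *
        (∑ S ∈ V.powerset, p (insert f S) * ∏ i ∈ S, lam i) := by
  set a := ∑ S ∈ V.powerset, p S * ∏ i ∈ S, lam i with ha
  set d := ∑ S ∈ V.powerset, p (insert e (insert f S)) * ∏ i ∈ S, lam i with hd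
  set b := ∑ S ∈ V.powerset, p (insert e S) * ∏ i ∈ S, lam i with hb
  set c := ∑ S ∈ V.powerset, p (insert f S) * ∏ i ∈ S, lam i with hc
  have hprodnn : ∀ S : Finset ι, 0 ≤ ∏ i ∈ S, lam i :=
    fun S => Finset.prod_nonneg fun i _ => (hlam i).le
  have hb0 : 0 ≤ b := Finset.sum_nonneg fun S _ => mul_nonneg (hp _) (hprodnn S)
  have hc0 : 0 ≤ c := Finset.sum_nonneg fun S _ => mul_nonneg (hp _) (hprodnn S)
  have ha0 : 0 ≤ a := Finset.sum_nonneg fun S _ => mul_nonneg (hp _) (hprodnn S)
  have hd0 : 0 ≤ d := Finset.sum_nonneg fun S _ => mul_nonneg (hp _) (hprodnn S)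
  by_contra hcon
  push Not at hcon
  have hdpos : 0 < d := by
    rcases hd0.lt_or_eq with h | h
    · exact h
    · exfalso
      rw [← h] at hcon
      have : 0 ≤ b * c := mul_nonneg hb0 hc0
      simp at hcon
      linarith
  -- coefficient functions of δ
  let zd : ℝ → ι → ℂ := fun δ i => (lam i : ℂ) + Complex.I * δ
  let cf : (Finset ι → Finset ι) → ℝ → ℂ := fun T δ =>
    ∑ S ∈ V.powerset, (p (T S) : ℂ) * ∏ i ∈ S, zd δ i
  have hcfc : ∀ T, Continuous (cf T) := by
    intro T
    simp only [cf, zd]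
    fun_prop
  have hcf0 : ∀ T, cf T 0 = ((∑ S ∈ V.powerset, p (T S) * ∏ i ∈ S, lam i : ℝ) : ℂ) := by
    intro T
    simp [cf, zd]
  have hA : cf id 0 = (a : ℂ) := by simpa [ha] using hcf0 id
  have hB : cf (fun S => insert e S) 0 = (b : ℂ) := hcf0 _
  have hC : cf (fun S => insert f S) 0 = (c : ℂ) := hcf0 _
  have hD : cf (fun S => insert e (insert f S)) 0 = (d : ℂ) := hcf0 _
  let den : ℝ → ℂ := fun δ => cf (fun S => insert e S) δ + cf (fun S => insert e (insert f S)) δ * Complex.I
  let num : ℝ → ℂ := fun δ => cf id δ + cf (fun S => insert f S) δ * Complex.I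
  have hdenc : Continuous den := by
    simp only [den]
    exact (hcfc _).add ((hcfc _).mul continuous_const)
  have hnumc : Continuous num := by
    simp only [num]
    exact (hcfc _).add ((hcfc _).mul continuous_const)
  have hden0 : den 0 = (b : ℂ) + (d : ℂ) * Complex.I := by simp only [den, hB, hD]
  have hnum0 : num 0 = (a : ℂ) + (c : ℂ) * Complex.I := by simp only [num, hA, hC]
  have hden0ne : den 0 ≠ 0 := by
    rw [hden0]
    intro h
    have := congrArg Complex.im h
    simp at this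
    linarith
  have himτ : 0 < (-(num 0 / den 0)).im := by
    rw [hden0, hnum0]
    have hns : 0 < Complex.normSq ((b : ℂ) + (d : ℂ) * Complex.I) := by
      apply Complex.normSq_pos.2
      rw [← hden0]; exact hden0ne
    rw [Complex.neg_im, Complex.div_im]
    simp only [Complex.add_re, Complex.add_im, Complex.mul_re, Complex.mul_im, Complex.ofReal_re,
      Complex.ofReal_im, Complex.I_re, Complex.I_im, mul_zero, mul_one, add_zero,
      zero_add, sub_self]
    have : -(c * b / Complex.normSq ((b : ℂ) + (d : ℂ) * Complex.I) -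
        a * d / Complex.normSq ((b : ℂ) + (d : ℂ) * Complex.I)) =
        (a * d - b * c) / Complex.normSq ((b : ℂ) + (d : ℂ) * Complex.I) := by
      ring
    rw [this]
    exact div_pos (by linarith) hns
  -- small δ
  have hev : ∀ᶠ δ in 𝓝[>] (0:ℝ), 0 < (-(num δ / den δ)).im ∧ den δ ≠ 0 := by
    have h1 : ContinuousAt (fun δ => (-(num δ / den δ)).im) 0 := by
      have : ContinuousAt (fun δ => num δ / den δ) 0 :=
        hnumc.continuousAt.div hdenc.continuousAt hden0ne
      exact Complex.continuous_im.continuousAt.comp this.neg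
    have h2 : ∀ᶠ δ in 𝓝 (0:ℝ), 0 < (-(num δ / den δ)).im := h1.eventually (lt_mem_nhds himτ)
    have h3 : ∀ᶠ δ in 𝓝 (0:ℝ), den δ ≠ 0 := hdenc.continuousAt.eventually_ne hden0ne
    exact ((h2.and h3).filter_mono nhdsWithin_le_nhds)
  have hne : (𝓝[>] (0:ℝ)).NeBot := inferInstance
  obtain ⟨δ, ⟨hδ1, hδ2⟩, hδ3⟩ := (hev.and self_mem_nhdsWithin).exists
  have hδ3' : (0:ℝ) < δ := hδ3
  set τ := -(num δ / den δ) with hτ
  let z : ι → ℂ := Function.update (Function.update (zd δ) f Complex.I) e τ
  have hzim : ∀ i ∈ insert e (insert f V), 0 < (z i).im := by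
    intro i hi
    simp only [z]
    by_cases h1 : i = e
    · subst h1; rw [Function.update_self]; exact hδ1
    · rw [Function.update_of_ne h1]
      by_cases h2 : i = f
      · subst h2; rw [Function.update_self]; simp
      · rw [Function.update_of_ne h2]
        simp [zd, hδ3']
  apply hst z hzim
  have hfV' : e ∉ insert f V := by
    simp [hef, heV]
  rw [stP_insert p hfV' z]
  have hzV : ∀ S ∈ V.powerset, ∏ i ∈ S, z i = ∏ i ∈ S, zd δ i := by
    intro S hS
    have hSV := Finset.mem_powerset.1 hS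
    apply Finset.prod_congr rfl
    intro i hi
    have h1 : i ≠ e := fun h => heV (h ▸ hSV hi)
    have h2 : i ≠ f := fun h => hfV (h ▸ hSV hi)
    simp only [z]
    rw [Function.update_of_ne h1, Function.update_of_ne h2]
  have hze : z e = τ := by simp [z]
  have hzf : z f = Complex.I := by
    simp only [z]
    rw [Function.update_of_ne hef.symm, Function.update_self]
  rw [Finset.sum_powerset_insert hfV, Finset.sum_powerset_insert hfV, hze]
  have s1 : ∑ S ∈ V.powerset, (p S : ℂ) * ∏ i ∈ S, z i = cf id δ := by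
    apply Finset.sum_congr rfl
    intro S hS
    rw [hzV S hS]
    simp
  have s2 : ∑ S ∈ V.powerset, (p (insert f S) : ℂ) * ∏ i ∈ insert f S, z i =
      cf (fun S => insert f S) δ * Complex.I := by
    simp only [cf]
    rw [Finset.sum_mul]
    apply Finset.sum_congr rfl
    intro S hS
    have hfS : f ∉ S := fun h => hfV (Finset.mem_powerset.1 hS h)
    rw [Finset.prod_insert hfS, hzf, hzV S hS]
    ring
  have s3 : ∑ S ∈ V.powerset, (p (insert e S) : ℂ) * ∏ i ∈ S, z i =
      cf (fun S => insert e S) δ := by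
    apply Finset.sum_congr rfl
    intro S hS
    rw [hzV S hS]
  have s4 : ∑ S ∈ V.powerset, (p (insert e (insert f S)) : ℂ) * ∏ i ∈ insert f S, z i =
      cf (fun S => insert e (insert f S)) δ * Complex.I := by
    simp only [cf]
    rw [Finset.sum_mul]
    apply Finset.sum_congr rfl
    intro S hS
    have hfS : f ∉ S := fun h => hfV (Finset.mem_powerset.1 hS h)
    rw [Finset.prod_insert hfS, hzf, hzV S hS]
    ring
  rw [s1, s2, s3, s4]
  have hτd : τ * den δ = - num δ := by
    rw [hτ]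
    field_simp
  simp only [den, num] at hτd
  linear_combination hτd

end NC

section Slope

/-- the slope inequality for real coefficient sums. -/
theorem coef_slope {p : Finset ι → ℝ} {V : Finset ι} {e : ι} (hp : ∀ S, 0 ≤ p S)
    (hst : Stable p (insert e V)) (heV : e ∉ V) {lam : ι → ℝ} (hlam : ∀ i, 0 < lam i) :
    |(∑ S ∈ V.powerset, p S * (∏ i ∈ S, lam i) * (S.card : ℝ)) *
        (∑ S ∈ V.powerset, p (insert e S) * ∏ i ∈ S, lam i) -
      (∑ S ∈ V.powerset, p S * ∏ i ∈ S, lam i) *
        (∑ S ∈ V.powerset, p (insert e S) * (∏ i ∈ S, lam i) * (S.card : ℝ))| ≤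
      (∑ S ∈ V.powerset, p S * ∏ i ∈ S, lam i) *
        (∑ S ∈ V.powerset, p (insert e S) * ∏ i ∈ S, lam i) := by
  set α := ∑ S ∈ V.powerset, p S * ∏ i ∈ S, lam i with hα
  set β := ∑ S ∈ V.powerset, p (insert e S) * ∏ i ∈ S, lam i with hβ
  set α₁ := ∑ S ∈ V.powerset, p S * (∏ i ∈ S, lam i) * (S.card : ℝ) with hα₁
  set β₁ := ∑ S ∈ V.powerset, p (insert e S) * (∏ i ∈ S, lam i) * (S.card : ℝ) with hβ₁
  have hprodpos : ∀ S : Finset ι, 0 < ∏ i ∈ S, lam i :=
    fun S => Finset.prod_pos fun i _ => hlam i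
  have hα0 : 0 ≤ α := Finset.sum_nonneg fun S _ => mul_nonneg (hp _) (hprodpos S).le
  have hβ0 : 0 ≤ β := Finset.sum_nonneg fun S _ => mul_nonneg (hp _) (hprodpos S).le
  by_cases hβz : β = 0
  · -- trivial case: all terms vanish
    have hterm : ∀ S ∈ V.powerset, p (insert e S) * ∏ i ∈ S, lam i = 0 := by
      have := (Finset.sum_eq_zero_iff_of_nonneg
        (fun S _ => mul_nonneg (hp (insert e S)) (hprodpos S).le)).1 hβz
      exact this
    have hβ₁z : β₁ = 0 := by
      apply Finset.sum_eq_zero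
      intro S hS
      rw [hterm S hS, zero_mul]
    rw [hβz, hβ₁z]
    simp
  have hβpos : 0 < β := lt_of_le_of_ne hβ0 (Ne.symm hβz)
  -- the polynomial functions
  let A : ℂ → ℂ := fun t => ∑ S ∈ V.powerset, ((p S * ∏ i ∈ S, lam i : ℝ) : ℂ) * t ^ S.card
  let B : ℂ → ℂ := fun t => ∑ S ∈ V.powerset, ((p (insert e S) * ∏ i ∈ S, lam i : ℝ) : ℂ) * t ^ S.card
  have hA : Differentiable ℂ A := by simp only [A]; fun_prop
  have hB : Differentiable ℂ B := by simp only [B]; fun_prop
  have hAc : ∀ t, A (conj t) = conj (A t) := by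
    intro t
    simp only [A, map_sum, map_mul, map_pow, Complex.conj_ofReal]
  have hBc : ∀ t, B (conj t) = conj (B t) := by
    intro t
    simp only [B, map_sum, map_mul, map_pow, Complex.conj_ofReal]
  have hreal : ∀ (c : Finset ι → ℝ) (x : ℝ),
      (∑ S ∈ V.powerset, ((c S : ℝ) : ℂ) * (x : ℂ) ^ S.card) =
        ((∑ S ∈ V.powerset, c S * x ^ S.card : ℝ) : ℂ) := by
    intro c x
    push_cast
    rfl
  have hApos : ∀ x : ℝ, 0 < x → 0 ≤ (A x).re := by
    intro x hx
    simp only [A]
    rw [hreal]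
    rw [Complex.ofReal_re]
    exact Finset.sum_nonneg fun S _ =>
      mul_nonneg (mul_nonneg (hp _) (hprodpos S).le) (pow_nonneg hx.le _)
  have hBpos : ∀ x : ℝ, 0 < x → 0 < (B x).re := by
    intro x hx
    simp only [B]
    rw [hreal]
    rw [Complex.ofReal_re]
    have hex : ∃ S ∈ V.powerset, 0 < p (insert e S) * ∏ i ∈ S, lam i := by
      by_contra hno
      push Not at hno
      apply hβz
      apply Finset.sum_eq_zero
      intro S hS
      exact le_antisymm (hno S hS) (mul_nonneg (hp _) (hprodpos S).le)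
    obtain ⟨S, hS, hSpos⟩ := hex
    apply Finset.sum_pos' (fun S _ =>
      mul_nonneg (mul_nonneg (hp _) (hprodpos S).le) (pow_nonneg hx.le _))
    exact ⟨S, hS, mul_pos hSpos (pow_pos hx _)⟩
  have hstab : ∀ t z : ℂ, 0 < t.im → 0 < z.im → A t + z * B t ≠ 0 := by
    intro t z ht hz
    have h := hst (Function.update (fun i => (lam i : ℂ) * t) e z) (by
      intro i _
      by_cases hi : i = e
      · subst hi; simpa using hz
      · rw [Function.update_of_ne hi]
        simp
        exact mul_pos (hlam i) ht)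
    rw [stP_insert p heV] at h
    have e1 : ∑ S ∈ V.powerset, (p S : ℂ) * ∏ i ∈ S, Function.update (fun i => (lam i : ℂ) * t) e z i
        = A t := by
      apply Finset.sum_congr rfl
      intro S hS
      have heS : e ∉ S := fun h => heV (Finset.mem_powerset.1 hS h)
      rw [prod_update_of_notMem heS, Finset.prod_mul_distrib, Finset.prod_const]
      push_cast
      ring
    have e2 : ∑ S ∈ V.powerset, (p (insert e S) : ℂ) *
        ∏ i ∈ S, Function.update (fun i => (lam i : ℂ) * t) e z i = B t := by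
      apply Finset.sum_congr rfl
      intro S hS
      have heS : e ∉ S := fun h => heV (Finset.mem_powerset.1 hS h)
      rw [prod_update_of_notMem heS, Finset.prod_mul_distrib, Finset.prod_const]
      push_cast
      ring
    rw [e1, e2, Function.update_self] at h
    exact h
  have hsb := slope_bound hA hB hAc hBc hstab hApos hBpos
  have hderiv : ∀ c : Finset ι → ℝ,
      HasDerivAt (fun t : ℂ => ∑ S ∈ V.powerset, ((c S : ℝ) : ℂ) * t ^ S.card)
        ((∑ S ∈ V.powerset, c S * (S.card : ℝ) : ℝ) : ℂ) 1 := by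
    intro c
    have : HasDerivAt (fun t : ℂ => ∑ S ∈ V.powerset, ((c S : ℝ) : ℂ) * t ^ S.card)
        (∑ S ∈ V.powerset, ((c S : ℝ) : ℂ) * ((S.card : ℂ) * (1:ℂ) ^ (S.card - 1))) 1 := by
      apply HasDerivAt.fun_sum
      intro S _
      exact (hasDerivAt_pow _ _).const_mul _
    convert this using 1
    push_cast
    simp
  have hdA : deriv A 1 = (α₁ : ℂ) := by
    have := (hderiv (fun S => p S * ∏ i ∈ S, lam i)).deriv
    simpa [A, hα₁] using this
  have hdB : deriv B 1 = (β₁ : ℂ) := by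
    have := (hderiv (fun S => p (insert e S) * ∏ i ∈ S, lam i)).deriv
    simpa [B, hβ₁] using this
  have hA1 : A 1 = (α : ℂ) := by simp [A, hα]
  have hB1 : B 1 = (β : ℂ) := by simp [B, hβ]
  rw [hdA, hdB, hA1, hB1] at hsb
  simp only [Complex.ofReal_re] at hsb
  have : ((α₁ : ℂ) * (β : ℂ) - (α : ℂ) * (β₁ : ℂ)) = ((α₁ * β - α * β₁ : ℝ) : ℂ) := by
    push_cast; ring
  rw [this, Complex.norm_real] at hsb
  exact hsb

end Slope

section Tilt

/-- tilted weight -/
noncomputable def wt (p : Finset ι → ℝ) (y : ι → ℝ) (S : Finset ι) : ℝ :=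
  p S * Real.exp (2 * ∑ i ∈ S, y i)

/-- partition function -/
noncomputable def tW (p : Finset ι → ℝ) (V : Finset ι) (y : ι → ℝ) : ℝ :=
  ∑ S ∈ V.powerset, wt p y S

/-- tilted expectation -/
noncomputable def tE (p : Finset ι → ℝ) (V : Finset ι) (g : Finset ι → ℝ) (y : ι → ℝ) : ℝ :=
  (∑ S ∈ V.powerset, wt p y S * g S) / tW p V y

/-- occupation indicator -/
def ind (e : ι) (S : Finset ι) : ℝ := if e ∈ S then 1 else 0

/-- tilted occupation probability -/
noncomputable def tT (p : Finset ι → ℝ) (V : Finset ι) (e : ι) (y : ι → ℝ) : ℝ :=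
  tE p V (ind e) y

/-- tilted covariance of two occupation indicators -/
noncomputable def tCov (p : Finset ι → ℝ) (V : Finset ι) (e f : ι) (y : ι → ℝ) : ℝ :=
  tE p V (fun S => ind e S * ind f S) y - tE p V (ind e) y * tE p V (ind f) y

lemma wt_nonneg {p : Finset ι → ℝ} (hp : ∀ S, 0 ≤ p S) (y : ι → ℝ) (S : Finset ι) :
    0 ≤ wt p y S := mul_nonneg (hp S) (Real.exp_pos _).le

lemma tW_pos {p : Finset ι → ℝ} {V : Finset ι} (hp : ∀ S, 0 ≤ p S)
    (hpos : ∃ S ∈ V.powerset, 0 < p S) (y : ι → ℝ) : 0 < tW p V y := by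
  obtain ⟨S, hS, hSp⟩ := hpos
  exact Finset.sum_pos' (fun S _ => wt_nonneg hp y S) ⟨S, hS, mul_pos hSp (Real.exp_pos _)⟩

lemma wt_eq_prod (p : Finset ι → ℝ) (y : ι → ℝ) (S : Finset ι) :
    wt p y S = p S * ∏ i ∈ S, Real.exp (2 * y i) := by
  unfold wt
  rw [← Real.exp_sum, Finset.mul_sum]

lemma sum_powerset_two {β : Type*} [AddCommMonoid β] {V : Finset ι} {e f : ι} (hef : e ≠ f)
    (heV : e ∉ V) (hfV : f ∉ V) (g : Finset ι → β) :
    ∑ S ∈ (insert e (insert f V)).powerset, g S =
      ∑ S ∈ V.powerset, (g S + g (insert f S) + g (insert e S) + g (insert e (insert f S))) := by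
  have h1 : e ∉ insert f V := by simp [hef, heV]
  rw [Finset.sum_powerset_insert h1, Finset.sum_powerset_insert hfV, Finset.sum_powerset_insert hfV]
  simp only [Finset.sum_add_distrib]
  abel

lemma tE_sum_eq {p : Finset ι → ℝ} {V : Finset ι} (g : Finset ι → ℝ) (y : ι → ℝ) :
    tE p V g y * tW p V y = ∑ S ∈ V.powerset, wt p y S * g S ∨ tW p V y = 0 := by
  by_cases h : tW p V y = 0
  · right; exact h
  · left
    unfold tE
    field_simp

/-- negative correlation under every tilt. -/
theorem tCov_nonpos {p : Finset ι → ℝ} {V : Finset ι} (hp : ∀ S, 0 ≤ p S)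
    (hst : Stable p V) {e f : ι} (he : e ∈ V) (hf : f ∈ V) (hef : e ≠ f) (y : ι → ℝ)
    (hpos : ∃ S ∈ V.powerset, 0 < p S) : tCov p V e f y ≤ 0 := by
  set V' := (V.erase e).erase f with hV'
  have heV' : e ∉ V' := by simp [hV']
  have hfV' : f ∉ V' := by simp [hV']
  have hV : insert e (insert f V') = V := by
    rw [hV', Finset.insert_erase, Finset.insert_erase he]
    exact Finset.mem_erase.2 ⟨hef.symm, hf⟩
  have hW := tW_pos hp hpos y
  have hst' : Stable p (insert e (insert f V')) := by rw [hV]; exact hst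
  let lam : ι → ℝ := fun i => Real.exp (2 * y i)
  have hlam : ∀ i, 0 < lam i := fun i => Real.exp_pos _
  have hnc := coef_nc hp hst' hef heV' hfV' hlam
  set a := ∑ S ∈ V'.powerset, p S * ∏ i ∈ S, lam i with ha
  set d := ∑ S ∈ V'.powerset, p (insert e (insert f S)) * ∏ i ∈ S, lam i with hd
  set b := ∑ S ∈ V'.powerset, p (insert e S) * ∏ i ∈ S, lam i with hb
  set c := ∑ S ∈ V'.powerset, p (insert f S) * ∏ i ∈ S, lam i with hc
  have hmemS : ∀ S ∈ V'.powerset, e ∉ S ∧ f ∉ S := by
    intro S hS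
    have := Finset.mem_powerset.1 hS
    exact ⟨fun h => heV' (this h), fun h => hfV' (this h)⟩
  have hwt : ∀ S ∈ V'.powerset,
      wt p y S = p S * ∏ i ∈ S, lam i ∧
      wt p y (insert f S) = lam f * (p (insert f S) * ∏ i ∈ S, lam i) ∧
      wt p y (insert e S) = lam e * (p (insert e S) * ∏ i ∈ S, lam i) ∧
      wt p y (insert e (insert f S)) = lam e * lam f * (p (insert e (insert f S)) * ∏ i ∈ S, lam i) := by
    intro S hS
    obtain ⟨h1, h2⟩ := hmemS S hS
    have h3 : e ∉ insert f S := by simp [hef, h1]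
    refine ⟨wt_eq_prod p y S, ?_, ?_, ?_⟩
    · rw [wt_eq_prod, Finset.prod_insert h2]; ring
    · rw [wt_eq_prod, Finset.prod_insert h1]; ring
    · rw [wt_eq_prod, Finset.prod_insert h3, Finset.prod_insert h2]; ring
  have hWval : tW p V y = a + lam f * c + lam e * b + lam e * lam f * d := by
    unfold tW
    rw [← hV, sum_powerset_two hef heV' hfV']
    rw [ha, hb, hc, hd, Finset.mul_sum, Finset.mul_sum, Finset.mul_sum, ← Finset.sum_add_distrib,
      ← Finset.sum_add_distrib, ← Finset.sum_add_distrib]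
    apply Finset.sum_congr rfl
    intro S hS
    obtain ⟨h1, h2, h3, h4⟩ := hwt S hS
    rw [h1, h2, h3, h4]
  have hU : ∀ g : Finset ι → ℝ, ∀ ga gf ge gef : ℝ,
      (∀ S ∈ V'.powerset, g S = ga ∧ g (insert f S) = gf ∧ g (insert e S) = ge ∧
        g (insert e (insert f S)) = gef) →
      ∑ S ∈ V.powerset, wt p y S * g S =
        a * ga + lam f * c * gf + lam e * b * ge + lam e * lam f * d * gef := by
    intro g ga gf ge gef hg
    rw [← hV, sum_powerset_two hef heV' hfV']
    rw [ha, hb, hc, hd, Finset.sum_mul, Finset.mul_sum, Finset.sum_mul, Finset.mul_sum, Finset.sum_mul,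
      Finset.mul_sum, Finset.sum_mul, ← Finset.sum_add_distrib, ← Finset.sum_add_distrib,
      ← Finset.sum_add_distrib]
    apply Finset.sum_congr rfl
    intro S hS
    obtain ⟨h1, h2, h3, h4⟩ := hwt S hS
    obtain ⟨g1, g2, g3, g4⟩ := hg S hS
    rw [h1, h2, h3, h4, g1, g2, g3, g4]
  have hinde : ∑ S ∈ V.powerset, wt p y S * ind e S = lam e * b + lam e * lam f * d := by
    have := hU (ind e) 0 0 1 1 (by
      intro S hS
      obtain ⟨h1, h2⟩ := hmemS S hS
      simp [ind, h1, hef])
    rw [this]; ring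
  have hindf : ∑ S ∈ V.powerset, wt p y S * ind f S = lam f * c + lam e * lam f * d := by
    have := hU (ind f) 0 1 0 1 (by
      intro S hS
      obtain ⟨h1, h2⟩ := hmemS S hS
      simp [ind, h2, hef.symm])
    rw [this]; ring
  have hindef : ∑ S ∈ V.powerset, wt p y S * (ind e S * ind f S) = lam e * lam f * d := by
    have := hU (fun S => ind e S * ind f S) 0 0 0 1 (by
      intro S hS
      obtain ⟨h1, h2⟩ := hmemS S hS
      simp [ind, h1, h2, hef, hef.symm])
    rw [this]; ring
  unfold tCov tE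
  rw [hinde, hindf, hindef]
  rw [div_mul_div_comm, div_sub_div _ _ hW.ne' (mul_pos hW hW).ne']
  apply div_nonpos_of_nonpos_of_nonneg _ (by positivity)
  rw [hWval]
  have hle := hlam e
  have hlf := hlam f
  have : (lam e * lam f * d) * ((a + lam f * c + lam e * b + lam e * lam f * d) *
        (a + lam f * c + lam e * b + lam e * lam f * d)) -
      (a + lam f * c + lam e * b + lam e * lam f * d) *
        ((lam e * b + lam e * lam f * d) * (lam f * c + lam e * lam f * d)) =
      (lam e * lam f) * (a + lam f * c + lam e * b + lam e * lam f * d) * (a * d - b * c) := by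
    ring
  rw [this]
  have hWn : 0 ≤ a + lam f * c + lam e * b + lam e * lam f * d := by
    rw [← hWval]; exact hW.le
  apply mul_nonpos_of_nonneg_of_nonpos (by positivity)
  linarith

lemma ind_sum_eq_card {V : Finset ι} {S : Finset ι} (hS : S ⊆ V) (a : ι → ℝ) :
    ∑ i ∈ V, a i * ind i S = ∑ i ∈ S, a i := by
  have : ∀ i ∈ V, a i * ind i S = if i ∈ S then a i else 0 := by
    intro i _
    unfold ind
    split_ifs <;> simp
  rw [Finset.sum_congr rfl this, Finset.sum_ite_mem, Finset.inter_eq_right.2 hS]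

lemma tE_nonneg {p : Finset ι → ℝ} {V : Finset ι} (hp : ∀ S, 0 ≤ p S) {g : Finset ι → ℝ}
    (hg : ∀ S, 0 ≤ g S) (y : ι → ℝ) : 0 ≤ tE p V g y := by
  unfold tE
  apply div_nonneg
  · exact Finset.sum_nonneg fun S _ => mul_nonneg (wt_nonneg hp y S) (hg S)
  · exact Finset.sum_nonneg fun S _ => wt_nonneg hp y S

lemma tE_one {p : Finset ι → ℝ} {V : Finset ι} (hp : ∀ S, 0 ≤ p S)
    (hpos : ∃ S ∈ V.powerset, 0 < p S) (y : ι → ℝ) : tE p V (fun _ => 1) y = 1 := by
  unfold tE
  simp only [mul_one]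
  exact div_self (tW_pos hp hpos y).ne'

lemma ind_nonneg (e : ι) (S : Finset ι) : 0 ≤ ind e S := by
  unfold ind; split_ifs <;> norm_num

lemma ind_le_one (e : ι) (S : Finset ι) : ind e S ≤ 1 := by
  unfold ind; split_ifs <;> norm_num

lemma tT_le_one {p : Finset ι → ℝ} {V : Finset ι} (hp : ∀ S, 0 ≤ p S)
    (hpos : ∃ S ∈ V.powerset, 0 < p S) (e : ι) (y : ι → ℝ) : tT p V e y ≤ 1 := by
  unfold tT tE
  rw [div_le_one (tW_pos hp hpos y)]
  unfold tW
  apply Finset.sum_le_sum
  intro S _
  exact mul_le_of_le_one_right (wt_nonneg hp y S) (ind_le_one e S)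

lemma tT_nonneg {p : Finset ι → ℝ} {V : Finset ι} (hp : ∀ S, 0 ≤ p S) (e : ι) (y : ι → ℝ) :
    0 ≤ tT p V e y := tE_nonneg hp (ind_nonneg e) y

/-- The slope inequality, in terms of covariances. -/
theorem sum_tCov_bound {p : Finset ι → ℝ} {V : Finset ι} (hp : ∀ S, 0 ≤ p S)
    (hst : Stable p V) {e : ι} (he : e ∈ V) (y : ι → ℝ)
    (hpos : ∃ S ∈ V.powerset, 0 < p S) :
    |∑ f ∈ V.erase e, tCov p V e f y| ≤ tT p V e y * (1 - tT p V e y) := by
  set V' := V.erase e with hV'
  have heV' : e ∉ V' := by simp [hV']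
  have hV : insert e V' = V := Finset.insert_erase he
  have hW := tW_pos hp hpos y
  have hst' : Stable p (insert e V') := by rw [hV]; exact hst
  let lam : ι → ℝ := fun i => Real.exp (2 * y i)
  have hlam : ∀ i, 0 < lam i := fun i => Real.exp_pos _
  have hsl := coef_slope hp hst' heV' hlam
  set α := ∑ S ∈ V'.powerset, p S * ∏ i ∈ S, lam i with hα
  set β := ∑ S ∈ V'.powerset, p (insert e S) * ∏ i ∈ S, lam i with hβ
  set α₁ := ∑ S ∈ V'.powerset, p S * (∏ i ∈ S, lam i) * (S.card : ℝ) with hα₁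
  set β₁ := ∑ S ∈ V'.powerset, p (insert e S) * (∏ i ∈ S, lam i) * (S.card : ℝ) with hβ₁
  have hmemS : ∀ S ∈ V'.powerset, e ∉ S := by
    intro S hS h
    exact heV' (Finset.mem_powerset.1 hS h)
  have hwt : ∀ S ∈ V'.powerset,
      wt p y S = p S * ∏ i ∈ S, lam i ∧
      wt p y (insert e S) = lam e * (p (insert e S) * ∏ i ∈ S, lam i) := by
    intro S hS
    have h1 := hmemS S hS
    refine ⟨wt_eq_prod p y S, ?_⟩
    rw [wt_eq_prod, Finset.prod_insert h1]; ring
  have hsum : ∀ g : Finset ι → ℝ, ∑ S ∈ V.powerset, wt p y S * g S =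
      ∑ S ∈ V'.powerset, (p S * (∏ i ∈ S, lam i)) * g S +
        lam e * ∑ S ∈ V'.powerset, (p (insert e S) * ∏ i ∈ S, lam i) * g (insert e S) := by
    intro g
    rw [← hV, Finset.sum_powerset_insert heV', Finset.mul_sum]
    congr 1
    · apply Finset.sum_congr rfl
      intro S hS
      rw [(hwt S hS).1]
    · apply Finset.sum_congr rfl
      intro S hS
      rw [(hwt S hS).2]
      ring
  have hWval : tW p V y = α + lam e * β := by
    unfold tW
    have := hsum (fun _ => 1)
    simpa using this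
  have hinde : ∑ S ∈ V.powerset, wt p y S * ind e S = lam e * β := by
    rw [hsum (ind e)]
    have h1 : ∑ S ∈ V'.powerset, (p S * (∏ i ∈ S, lam i)) * ind e S = 0 := by
      apply Finset.sum_eq_zero
      intro S hS
      simp [ind, hmemS S hS]
    have h2 : ∑ S ∈ V'.powerset, (p (insert e S) * ∏ i ∈ S, lam i) * ind e (insert e S) = β := by
      rw [hβ]
      apply Finset.sum_congr rfl
      intro S _
      simp [ind]
    rw [h1, h2, zero_add]
  have hN : ∑ S ∈ V.powerset, wt p y S * ((S.erase e).card : ℝ) = α₁ + lam e * β₁ := by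
    rw [hsum (fun S => ((S.erase e).card : ℝ))]
    congr 1
    · apply Finset.sum_congr rfl
      intro S hS
      rw [Finset.erase_eq_of_notMem (hmemS S hS)]
    · congr 1
      apply Finset.sum_congr rfl
      intro S hS
      rw [Finset.erase_insert (hmemS S hS)]
  have hNe : ∑ S ∈ V.powerset, wt p y S * (ind e S * ((S.erase e).card : ℝ)) = lam e * β₁ := by
    rw [hsum (fun S => ind e S * ((S.erase e).card : ℝ))]
    have h1 : ∑ S ∈ V'.powerset, (p S * (∏ i ∈ S, lam i)) * (ind e S * ((S.erase e).card : ℝ)) = 0 := by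
      apply Finset.sum_eq_zero
      intro S hS
      simp [ind, hmemS S hS]
    have h2 : ∑ S ∈ V'.powerset, (p (insert e S) * ∏ i ∈ S, lam i) *
        (ind e (insert e S) * (((insert e S).erase e).card : ℝ)) = β₁ := by
      rw [hβ₁]
      apply Finset.sum_congr rfl
      intro S hS
      rw [Finset.erase_insert (hmemS S hS)]
      simp [ind]
    rw [h1, h2, zero_add]
  -- sum of the indicators
  have hindsum : ∀ S ∈ V.powerset, ∑ f ∈ V', ind f S = ((S.erase e).card : ℝ) := by
    intro S hS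
    have hsub : S.erase e ⊆ V' := Finset.erase_subset_erase e (Finset.mem_powerset.1 hS)
    have h1 : ∀ f ∈ V', ind f S = ind f (S.erase e) := by
      intro f hf
      have hfe : f ≠ e := by
        rintro rfl
        exact heV' hf
      unfold ind
      simp [hfe]
    rw [Finset.sum_congr rfl h1]
    have := ind_sum_eq_card hsub (fun _ => (1:ℝ))
    simp only [one_mul, Finset.sum_const, nsmul_eq_mul, mul_one] at this
    exact this
  have hsumcov : ∑ f ∈ V', tCov p V e f y =
      (lam e * β₁) / tW p V y - (lam e * β) / tW p V y * ((α₁ + lam e * β₁) / tW p V y) := by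
    unfold tCov tE
    rw [Finset.sum_sub_distrib]
    congr 1
    · rw [← Finset.sum_div, ← hNe]
      congr 1
      rw [Finset.sum_comm]
      apply Finset.sum_congr rfl
      intro S hS
      rw [← hindsum S hS, Finset.mul_sum, Finset.mul_sum]
    · rw [hinde, ← Finset.mul_sum]
      congr 1
      rw [← Finset.sum_div, ← hN]
      congr 1
      rw [Finset.sum_comm]
      apply Finset.sum_congr rfl
      intro S hS
      rw [← hindsum S hS, Finset.mul_sum]
  have hTval : tT p V e y = lam e * β / tW p V y := by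
    unfold tT tE
    rw [hinde]
  rw [hsumcov, hTval]
  have hle := hlam e
  have hα0 : 0 ≤ α := Finset.sum_nonneg fun S _ =>
    mul_nonneg (hp _) (Finset.prod_nonneg fun i _ => (hlam i).le)
  have hβ0 : 0 ≤ β := Finset.sum_nonneg fun S _ =>
    mul_nonneg (hp _) (Finset.prod_nonneg fun i _ => (hlam i).le)
  rw [hWval] at hW ⊢
  set W := α + lam e * β with hWdef
  have e1 : lam e * β₁ / W - lam e * β / W * ((α₁ + lam e * β₁) / W) =
      lam e * (α * β₁ - α₁ * β) / W ^ 2 := by
    rw [hWdef]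
    rw [hWdef] at hW
    field_simp
    ring
  have e2 : lam e * β / W * (1 - lam e * β / W) = lam e * (α * β) / W ^ 2 := by
    rw [hWdef]
    rw [hWdef] at hW
    field_simp
    ring
  rw [e1, e2, abs_div, abs_of_pos (by positivity : 0 < W ^ 2), abs_mul, abs_of_pos hle]
  apply div_le_div_of_nonneg_right _ (by positivity)
  apply mul_le_mul_of_nonneg_left _ hle.le
  rw [abs_sub_comm]
  exact hsl

/-- the total `ℓ¹` covariance bound -/
theorem sum_abs_tCov_le {p : Finset ι → ℝ} {V : Finset ι} (hp : ∀ S, 0 ≤ p S)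
    (hst : Stable p V) {e : ι} (he : e ∈ V) (y : ι → ℝ)
    (hpos : ∃ S ∈ V.powerset, 0 < p S) :
    ∑ f ∈ V, |tCov p V e f y| ≤ 1 / 2 := by
  have h1 := sum_tCov_bound hp hst he y hpos
  set P := tT p V e y with hP
  have hself : tCov p V e e y = P * (1 - P) := by
    unfold tCov
    have : (fun S => ind e S * ind e S) = ind e := by
      ext S
      unfold ind
      split_ifs <;> simp
    rw [this]
    have : tE p V (ind e) y = P := rfl
    rw [this]
    ring
  have hP0 : 0 ≤ P := tT_nonneg hp e y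
  have hP1 : P ≤ 1 := tT_le_one hp hpos e y
  have hsplit : ∑ f ∈ V, |tCov p V e f y| =
      |tCov p V e e y| + ∑ f ∈ V.erase e, |tCov p V e f y| :=
    (Finset.add_sum_erase V (fun f => |tCov p V e f y|) he).symm
  have hneg : ∑ f ∈ V.erase e, |tCov p V e f y| = - ∑ f ∈ V.erase e, tCov p V e f y := by
    rw [← Finset.sum_neg_distrib]
    apply Finset.sum_congr rfl
    intro f hf
    obtain ⟨hfe, hfV⟩ := Finset.mem_erase.1 hf
    exact abs_of_nonpos (tCov_nonpos hp hst he hfV hfe.symm y hpos)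
  rw [hsplit, hneg, hself, abs_of_nonneg (mul_nonneg hP0 (by linarith))]
  have h2 : - ∑ f ∈ V.erase e, tCov p V e f y ≤ P * (1 - P) := by
    have := neg_abs_le (∑ f ∈ V.erase e, tCov p V e f y)
    linarith
  nlinarith [sq_nonneg (P - 1 / 2)]

/-- derivative of the tilted mean along a line -/
theorem tT_hasDerivAt {p : Finset ι → ℝ} {V : Finset ι} (hp : ∀ S, 0 ≤ p S)
    (hpos : ∃ S ∈ V.powerset, 0 < p S) (e : ι) (y a : ι → ℝ) (τ : ℝ) :
    HasDerivAt (fun τ : ℝ => tT p V e (fun i => y i + τ * a i))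
      (2 * ∑ f ∈ V, a f * tCov p V e f (fun i => y i + τ * a i)) τ := by
  set yτ : ι → ℝ := fun i => y i + τ * a i with hyτ
  have hwtd : ∀ S : Finset ι, HasDerivAt (fun τ : ℝ => wt p (fun i => y i + τ * a i) S)
      (wt p yτ S * (2 * ∑ i ∈ S, a i)) τ := by
    intro S
    unfold wt
    have h1 : HasDerivAt (fun τ : ℝ => 2 * ∑ i ∈ S, (y i + τ * a i)) (2 * ∑ i ∈ S, a i) τ := by
      apply HasDerivAt.const_mul
      apply HasDerivAt.fun_sum
      intro i _
      simpa using ((hasDerivAt_id τ).mul_const (a i)).const_add (y i)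
    have h2 := (h1.exp).const_mul (p S)
    exact h2.congr_deriv (by simp only [hyτ]; ring)
  have hW : HasDerivAt (fun τ : ℝ => tW p V (fun i => y i + τ * a i))
      (∑ S ∈ V.powerset, wt p yτ S * (2 * ∑ i ∈ S, a i)) τ := by
    unfold tW
    apply HasDerivAt.fun_sum
    intro S _
    exact hwtd S
  have hU : HasDerivAt (fun τ : ℝ => ∑ S ∈ V.powerset, wt p (fun i => y i + τ * a i) S * ind e S)
      (∑ S ∈ V.powerset, wt p yτ S * (2 * ∑ i ∈ S, a i) * ind e S) τ := by
    apply HasDerivAt.fun_sum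
    intro S _
    exact (hwtd S).mul_const _
  have hWpos := tW_pos hp hpos yτ
  have h3 := hU.fun_div hW hWpos.ne'
  have hfun : (fun τ : ℝ => tT p V e (fun i => y i + τ * a i)) =
      fun τ : ℝ => (∑ S ∈ V.powerset, wt p (fun i => y i + τ * a i) S * ind e S) /
        tW p V (fun i => y i + τ * a i) := rfl
  rw [hfun]
  refine h3.congr_deriv ?_
  -- algebra
  have hA : ∀ S ∈ V.powerset, ∑ i ∈ S, a i = ∑ f ∈ V, a f * ind f S := by
    intro S hS
    rw [ind_sum_eq_card (Finset.mem_powerset.1 hS)]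
  have e1 : ∑ S ∈ V.powerset, wt p yτ S * (2 * ∑ i ∈ S, a i) * ind e S =
      2 * ∑ f ∈ V, a f * ∑ S ∈ V.powerset, wt p yτ S * (ind e S * ind f S) := by
    have : ∀ f ∈ V, a f * ∑ S ∈ V.powerset, wt p yτ S * (ind e S * ind f S) =
        ∑ S ∈ V.powerset, a f * (wt p yτ S * (ind e S * ind f S)) := fun f _ => Finset.mul_sum _ _ _
    rw [Finset.sum_congr rfl this, Finset.sum_comm, Finset.mul_sum]
    apply Finset.sum_congr rfl
    intro S hS
    rw [hA S hS, Finset.mul_sum, Finset.mul_sum, Finset.mul_sum, Finset.sum_mul]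
    apply Finset.sum_congr rfl
    intro f _
    ring
  have e2 : ∑ S ∈ V.powerset, wt p yτ S * (2 * ∑ i ∈ S, a i) =
      2 * ∑ f ∈ V, a f * ∑ S ∈ V.powerset, wt p yτ S * ind f S := by
    have : ∀ f ∈ V, a f * ∑ S ∈ V.powerset, wt p yτ S * ind f S =
        ∑ S ∈ V.powerset, a f * (wt p yτ S * ind f S) := fun f _ => Finset.mul_sum _ _ _
    rw [Finset.sum_congr rfl this, Finset.sum_comm, Finset.mul_sum]
    apply Finset.sum_congr rfl
    intro S hS
    rw [hA S hS, Finset.mul_sum, Finset.mul_sum, Finset.mul_sum]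
    apply Finset.sum_congr rfl
    intro f _
    ring
  rw [e1, e2]
  unfold tCov tE
  simp only [mul_sub, Finset.sum_sub_distrib]
  have hWne := hWpos.ne'
  set W := tW p V yτ
  set U := ∑ S ∈ V.powerset, wt p yτ S * ind e S
  have e3 : ∀ f, a f * (U / W * ((∑ S ∈ V.powerset, wt p yτ S * ind f S) / W)) =
      U / W ^ 2 * (a f * ∑ S ∈ V.powerset, wt p yτ S * ind f S) := by
    intro f
    field_simp
  have e4 : ∀ f, a f * ((∑ S ∈ V.powerset, wt p yτ S * (ind e S * ind f S)) / W) =
      (a f * ∑ S ∈ V.powerset, wt p yτ S * (ind e S * ind f S)) / W := by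
    intro f
    ring
  simp only [e3, e4, ← Finset.mul_sum, ← Finset.sum_div]
  field_simp

/-- **Sup-norm Lipschitz bound for tilted occupation probabilities of stable mass functions.** -/
theorem tT_lipschitz {p : Finset ι → ℝ} {V : Finset ι} (hp : ∀ S, 0 ≤ p S)
    (hst : Stable p V) {e : ι} (he : e ∈ V) (hpos : ∃ S ∈ V.powerset, 0 < p S)
    (y y' : ι → ℝ) (C : ℝ) (hC : ∀ f ∈ V, |y f - y' f| ≤ C) :
    |tT p V e y - tT p V e y'| ≤ C := by
  have hC0 : 0 ≤ C := (abs_nonneg _).trans (hC e he)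
  set a : ι → ℝ := fun i => y i - y' i with ha
  let g : ℝ → ℝ := fun τ => tT p V e (fun i => y' i + τ * a i)
  let g' : ℝ → ℝ := fun τ => 2 * ∑ f ∈ V, a f * tCov p V e f (fun i => y' i + τ * a i)
  have hg : ∀ τ ∈ (univ : Set ℝ), HasDerivWithinAt g (g' τ) univ τ := fun τ _ =>
    (tT_hasDerivAt hp hpos e y' a τ).hasDerivWithinAt
  have hb : ∀ τ ∈ (univ : Set ℝ), ‖g' τ‖ ≤ C := by
    intro τ _
    have h1 := sum_abs_tCov_le hp hst he (fun i => y' i + τ * a i) hpos
    have h2 : |∑ f ∈ V, a f * tCov p V e f (fun i => y' i + τ * a i)| ≤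
        ∑ f ∈ V, C * |tCov p V e f (fun i => y' i + τ * a i)| := by
      refine (Finset.abs_sum_le_sum_abs _ _).trans (Finset.sum_le_sum ?_)
      intro f hf
      rw [abs_mul]
      exact mul_le_mul_of_nonneg_right (hC f hf) (abs_nonneg _)
    rw [← Finset.mul_sum] at h2
    simp only [g', Real.norm_eq_abs, abs_mul, abs_two]
    nlinarith
  have hmv := Convex.norm_image_sub_le_of_norm_hasDerivWithin_le hg hb convex_univ
    (mem_univ (0:ℝ)) (mem_univ (1:ℝ))
  simp only [sub_zero, norm_one, mul_one, Real.norm_eq_abs] at hmv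
  have h0 : g 0 = tT p V e y' := by simp [g]
  have h1 : g 1 = tT p V e y := by
    simp only [g, one_mul, ha]
    congr 1
    ext i
    ring
  rwa [h0, h1] at hmv

end Tilt

end Crest.Agent.H5SL
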