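import Crest.Agent.H5SLWiener
import Crest.Agent.H5SLStable

/-!
The bridge between tilted means of a law on configurations, the tilted occupation probabilities of
its cylinder masses and stability of the generating polynomials.
-/

set_option autoImplicit false
set_option linter.unusedSectionVars false
set_option linter.unusedVariables false

open MeasureTheory ProbabilityTheory Complex Filter Topology Set
open scoped NNReal ENNReal

namespace Crest.Agent.H5SL

section Bridge

variable {X : Type*} [DecidableEq X] (ν : Measure (X → Bool)) [IsProbabilityMeasure ν]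

/-- The tilt of a configuration -/
noncomputable def tiltExp (V : Finset X) (y : X → ℝ) (x : X → Bool) : ℝ :=
  Real.exp (∑ f ∈ V, y f * spin (x f))

lemma measurable_tiltExp (V : Finset X) (y : X → ℝ) : Measurable (tiltExp V y) := by
  unfold tiltExp
  apply Real.measurable_exp.comp
  apply Finset.measurable_sum
  intro f _
  exact measurable_const.mul (measurable_spin.comp (measurable_pi_apply f))

/-- integrals of functions of a finite window -/
lemma integral_restr (V : Finset X) (F : (V → Bool) → ℝ) :
    ∫ x, F (fun f : V => x f) ∂ν = ∑ z, pV ν V z * F z := by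
  have hF : Measurable F := measurable_of_countable _
  have h := integral_map (μ := ν) (measurable_restr V).aemeasurable
    (f := F) hF.aestronglyMeasurable
  rw [← h]
  change ∫ z, F z ∂(mV ν V) = _
  rw [integral_fintype .of_finite]
  exact Finset.sum_congr rfl fun z _ => by simp [pV, smul_eq_mul]

theorem meanOn_eq_integral (V : Finset X) {e : X} (he : e ∈ V) (y : X → ℝ) :
    meanOn ν V e y = (∫ x, spin (x e) * tiltExp V y x ∂ν) / ∫ x, tiltExp V y x ∂ν := by
  set p := pV ν V with hp
  have hwts : Wts p := wts_pV ν V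
  let e' : V := ⟨e, he⟩
  let yV : V → ℝ := fun f => y f
  have htilt : ∀ x : X → Bool, tiltExp V y x =
      (fun z : V → Bool => Real.exp (dotR (spinV z) yV)) (fun f : V => x f) := by
    intro x
    unfold tiltExp dotR spinV
    simp only [yV]
    congr 1
    rw [← Finset.sum_coe_sort V]
    exact Finset.sum_congr rfl fun f _ => mul_comm _ _
  have hden : ∫ x, tiltExp V y x ∂ν = Zf p yV := by
    simp_rw [htilt]
    rw [integral_restr ν V (fun z : V → Bool => Real.exp (dotR (spinV z) yV))]
    rfl
  have hnum : ∫ x, spin (x e) * tiltExp V y x ∂ν = mf p e' yV * Zf p yV := by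
    have h1 : ∀ x : X → Bool, spin (x e) * tiltExp V y x =
        (fun z : V → Bool => spin (z e') * Real.exp (dotR (spinV z) yV)) (fun f : V => x f) := by
      intro x
      rw [htilt]
    simp_rw [h1]
    rw [integral_restr ν V (fun z : V → Bool => spin (z e') * Real.exp (dotR (spinV z) yV))]
    unfold mf post
    rw [Finset.sum_mul]
    apply Finset.sum_congr rfl
    intro z _
    have := (hwts.Zf_pos yV).ne'
    field_simp
    simp only [hp]
    ring
  rw [hnum, hden, mul_div_cancel_right₀ _ (hwts.Zf_pos yV).ne']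
  simp only [meanOn, he, dif_pos]
  rfl

/-- the cylinder masses of a law on a finite window. -/
noncomputable def cylP (V : Finset X) (S : Finset X) : ℝ :=
  (ν {ω | ∀ i ∈ V, (ω i = true ↔ i ∈ S)}).toReal

lemma cylP_nonneg (V S : Finset X) : 0 ≤ cylP ν V S := ENNReal.toReal_nonneg

/-- The occupied part of a window. -/
def occ (V : Finset X) (x : X → Bool) : Finset X := V.filter (fun f => x f = true)

lemma occ_mem (V : Finset X) (x : X → Bool) : occ V x ∈ V.powerset :=
  Finset.mem_powerset.2 (Finset.filter_subset _ _)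

lemma measurableSet_cyl (V S : Finset X) : MeasurableSet {ω : X → Bool | ∀ i ∈ V, (ω i = true ↔ i ∈ S)} := by
  have : {ω : X → Bool | ∀ i ∈ V, (ω i = true ↔ i ∈ S)} =
      ⋂ i ∈ V, {ω : X → Bool | ω i = true ↔ i ∈ S} := by
    ext ω; simp
  rw [this]
  refine Finset.measurableSet_biInter V fun i _ => ?_
  have hmm : Measurable (fun ω : X → Bool => ω i) := measurable_pi_apply i
  by_cases hi : i ∈ S
  · simp only [hi, iff_true]
    exact hmm (measurableSet_singleton true)
  · simp only [hi, iff_false]
    have : {ω : X → Bool | ¬ ω i = true} = (fun ω : X → Bool => ω i) ⁻¹' {false} := by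
      ext ω; simp
    rw [this]
    exact hmm (measurableSet_singleton false)

lemma occ_eq_iff (V : Finset X) {S : Finset X} (hS : S ⊆ V) (x : X → Bool) :
    occ V x = S ↔ ∀ i ∈ V, (x i = true ↔ i ∈ S) := by
  unfold occ
  constructor
  · rintro rfl i hi
    simp [hi]
  · intro h
    ext i
    simp only [Finset.mem_filter]
    constructor
    · rintro ⟨hi, hx⟩
      exact (h i hi).1 hx
    · intro hi
      exact ⟨hS hi, (h i (hS hi)).2 hi⟩

/-- integrals of functions of the occupied part of a window -/
theorem integral_occ (V : Finset X) (G : Finset X → ℝ) :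
    ∫ x, G (occ V x) ∂ν = ∑ S ∈ V.powerset, cylP ν V S * G S := by
  have h1 : ∀ x : X → Bool, G (occ V x) = ∑ S ∈ V.powerset,
      ({ω : X → Bool | ∀ i ∈ V, (ω i = true ↔ i ∈ S)}.indicator (fun _ => G S)) x := by
    intro x
    rw [Finset.sum_eq_single (occ V x)]
    · have : x ∈ {ω : X → Bool | ∀ i ∈ V, (ω i = true ↔ i ∈ occ V x)} :=
        (occ_eq_iff V (Finset.mem_powerset.1 (occ_mem V x)) x).1 rfl
      rw [indicator_of_mem this]
    · intro S hS hne
      apply indicator_of_notMem
      intro hx
      exact hne ((occ_eq_iff V (Finset.mem_powerset.1 hS) x).2 hx).symm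
    · intro h
      exact absurd (occ_mem V x) h
  simp_rw [h1]
  rw [integral_finsetSum]
  · apply Finset.sum_congr rfl
    intro S _
    rw [integral_indicator (measurableSet_cyl V S), setIntegral_const]
    simp [cylP, Measure.real]
  · intro S _
    exact (integrable_const (G S)).indicator (measurableSet_cyl V S)

lemma sum_cylP (V : Finset X) : ∑ S ∈ V.powerset, cylP ν V S = 1 := by
  have h := integral_occ ν V (fun _ => 1)
  simp at h
  exact h.symm

lemma tilt_occ (V : Finset X) (y : X → ℝ) (x : X → Bool) :
    tiltExp V y x = Real.exp (-∑ f ∈ V, y f) * Real.exp (2 * ∑ i ∈ occ V x, y i) := by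
  unfold tiltExp occ
  rw [← Real.exp_add]
  congr 1
  rw [Finset.sum_filter, Finset.mul_sum, ← Finset.sum_neg_distrib, ← Finset.sum_add_distrib]
  apply Finset.sum_congr rfl
  intro f _
  cases h : x f <;> simp [spin] <;> ring

lemma spin_occ (V : Finset X) {e : X} (he : e ∈ V) (x : X → Bool) :
    spin (x e) = 2 * ind e (occ V x) - 1 := by
  unfold ind occ
  cases h : x e <;> simp [spin, he, h] <;> norm_num

/-- The tilted mean in terms of the occupation probabilities. -/
theorem meanOn_eq_tT (V : Finset X) {e : X} (he : e ∈ V) (y : X → ℝ) :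
    meanOn ν V e y = 2 * tT (cylP ν V) V e y - 1 := by
  rw [meanOn_eq_integral ν V he]
  set c := Real.exp (-∑ f ∈ V, y f) with hc
  have hc0 : c ≠ 0 := (Real.exp_pos _).ne'
  have hden : ∫ x, tiltExp V y x ∂ν = c * tW (cylP ν V) V y := by
    simp_rw [tilt_occ]
    rw [integral_const_mul]
    congr 1
    have := integral_occ ν V (fun S => Real.exp (2 * ∑ i ∈ S, y i))
    rw [this]
    rfl
  have hnum : ∫ x, spin (x e) * tiltExp V y x ∂ν =
      c * (2 * (∑ S ∈ V.powerset, wt (cylP ν V) y S * ind e S) - tW (cylP ν V) V y) := by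
    have h1 : ∀ x : X → Bool, spin (x e) * tiltExp V y x = c * (fun S =>
        (2 * ind e S - 1) * Real.exp (2 * ∑ i ∈ S, y i)) (occ V x) := by
      intro x
      rw [spin_occ V he, tilt_occ]
      ring
    simp_rw [h1]
    rw [integral_const_mul, integral_occ ν V (fun S =>
        (2 * ind e S - 1) * Real.exp (2 * ∑ i ∈ S, y i))]
    congr 1
    unfold tW wt
    rw [Finset.mul_sum, ← Finset.sum_sub_distrib]
    apply Finset.sum_congr rfl
    intro S _
    ring
  rw [hden, hnum]
  unfold tT tE
  have hW : tW (cylP ν V) V y ≠ 0 := by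
    apply ne_of_gt
    apply tW_pos (cylP_nonneg ν V)
    by_contra hne
    push Not at hne
    have : ∑ S ∈ V.powerset, cylP ν V S ≤ 0 := Finset.sum_nonpos hne
    rw [sum_cylP] at this
    linarith
  field_simp

lemma exists_cylP_pos (V : Finset X) : ∃ S ∈ V.powerset, 0 < cylP ν V S := by
  by_contra hne
  push Not at hne
  have : ∑ S ∈ V.powerset, cylP ν V S ≤ 0 := Finset.sum_nonpos hne
  rw [sum_cylP] at this
  linarith

/-- Lipschitz bound for the tilted means under stability. -/
theorem meanOn_lipschitz (V : Finset X) (hst : Stable (cylP ν V) V) (e : X) (y y' : X → ℝ) (C : ℝ)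
    (hC : ∀ f, |y f - y' f| ≤ C) : |meanOn ν V e y - meanOn ν V e y'| ≤ 2 * C := by
  have hC0 : 0 ≤ C := (abs_nonneg _).trans (hC e)
  by_cases he : e ∈ V
  · rw [meanOn_eq_tT ν V he, meanOn_eq_tT ν V he]
    have h := tT_lipschitz (cylP_nonneg ν V) hst he (exists_cylP_pos ν V) y y' C (fun f _ => hC f)
    have : 2 * tT (cylP ν V) V e y - 1 - (2 * tT (cylP ν V) V e y' - 1) =
        2 * (tT (cylP ν V) V e y - tT (cylP ν V) V e y') := by ring
    rw [this, abs_mul]
    simp only [abs_two]
    linarith
  · simp [meanOn, he, hC0]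

lemma limsup_le_add_of_le {u v : ℕ → ℝ} {c : ℝ} (hu : ∀ n, |u n| ≤ 1) (hv : ∀ n, |v n| ≤ 1)
    (h : ∀ n, u n ≤ v n + c) : limsup u atTop ≤ limsup v atTop + c := by
  have hb1 : IsBoundedUnder (· ≥ ·) atTop u := isBoundedUnder_of ⟨-1, fun n => (abs_le.1 (hu n)).1⟩
  have hb2 : IsBoundedUnder (· ≤ ·) atTop u := isBoundedUnder_of ⟨1, fun n => (abs_le.1 (hu n)).2⟩
  have hb3 : IsBoundedUnder (· ≤ ·) atTop v := isBoundedUnder_of ⟨1, fun n => (abs_le.1 (hv n)).2⟩
  have hb4 : IsBoundedUnder (· ≥ ·) atTop v := isBoundedUnder_of ⟨-1, fun n => (abs_le.1 (hv n)).1⟩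
  by_contra hcontra
  have hgt : limsup v atTop < limsup u atTop - c := by
    have := not_le.1 hcontra
    linarith
  obtain ⟨a, ha1, ha2⟩ := exists_between hgt
  have h2 : ∀ᶠ n in atTop, v n < a := eventually_lt_of_limsup_lt ha1 hb3
  have h3 : ∀ᶠ n in atTop, u n < a + c := by
    filter_upwards [h2] with n hn
    have := h n
    linarith
  have h4 : limsup u atTop ≤ a + c :=
    limsup_le_of_le hb1.isCoboundedUnder_le (h3.mono fun n hn => hn.le)
  linarith

lemma abs_limsup_sub_le {u v : ℕ → ℝ} {c : ℝ} (hu : ∀ n, |u n| ≤ 1) (hv : ∀ n, |v n| ≤ 1)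
    (h : ∀ n, |u n - v n| ≤ c) : |limsup u atTop - limsup v atTop| ≤ c := by
  rw [abs_le]
  constructor
  · have := limsup_le_add_of_le hv hu (c := c) (fun n => by
      have := (abs_le.1 (h n)).1
      linarith)
    linarith
  · have := limsup_le_add_of_le hu hv (c := c) (fun n => by
      have := (abs_le.1 (h n)).2
      linarith)
    linarith

/-- The drift built from the windows. -/
noncomputable def driftOf (ν : Measure (X → Bool)) (U : X → ℕ → Finset X) (e : X) (y : X → ℝ) : ℝ :=
  limsup (fun n => meanOn ν (U e n) e y) atTop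

/-- the data for a law with stable marginals -/
theorem driftData_of_stable (hst : ∀ V : Finset X, Stable (cylP ν V) V) (U : X → ℕ → Finset X)
    (hm : ∀ e, Monotone (U e)) (hex : ∀ e f, ∃ n, f ∈ U e n) :
    DriftData ν (driftOf ν U) U 2 where
  L_nonneg := by norm_num
  lip := by
    intro e y y' C hC
    exact abs_limsup_sub_le (fun n => abs_meanOn_le ν _ e y) (fun n => abs_meanOn_le ν _ e y')
      (fun n => meanOn_lipschitz ν _ (hst _) e y y' C hC)
  mono := hm
  exh := hex
  lim := fun e y => rfl

end Bridge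

end Crest.Agent.H5SL
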