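import Crest.Agent.H5SLFinite

/-!
Noise codes: dyadic values of a path, the extension to real times and the consequences of the
Wiener axioms.
-/

set_option autoImplicit false
set_option linter.unusedSectionVars false

open MeasureTheory ProbabilityTheory Complex Filter Topology
open scoped NNReal ENNReal

namespace Crest.Agent.H5SL

/-- A noise code: `v n j` is the value of a path at the dyadic time `j / 2 ^ n`. -/
abbrev Code := ℕ → ℕ → ℝ

/-- dyadic mesh -/
noncomputable def eps (n : ℕ) : ℝ≥0 := (1 / 2) ^ n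

lemma eps_ne_zero (n : ℕ) : eps n ≠ 0 := by
  unfold eps; positivity

lemma eps_coe (n : ℕ) : (eps n : ℝ) = 1 / 2 ^ n := by
  unfold eps; push_cast; simp

/-- extension of a code to real times -/
noncomputable def extCode (v : Code) (s : ℝ) : ℝ :=
  limsup (fun n => v n ⌊s * 2 ^ n⌋₊) atTop

lemma measurable_eval_floor (n : ℕ) :
    Measurable (fun q : Code × ℝ => q.1 n ⌊q.2 * 2 ^ n⌋₊) := by
  have h1 : Measurable (fun q : Code × ℕ => q.1 n q.2) := by
    apply measurable_from_prod_countable_left
    intro k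
    exact (measurable_pi_apply k).comp (measurable_pi_apply n)
  have h2 : Measurable (fun q : Code × ℝ => (q.1, ⌊q.2 * 2 ^ n⌋₊)) :=
    measurable_fst.prodMk (Nat.measurable_floor.comp (measurable_snd.mul_const _))
  exact h1.comp h2

lemma measurable_extCode : Measurable (fun q : Code × ℝ => extCode q.1 q.2) :=
  Measurable.limsup (fun n => measurable_eval_floor n)

/-- The Wiener axioms for a law on codes. -/
structure IsWiener (w : Measure Code) : Prop where
  prob : IsProbabilityMeasure w
  consistent : ∀ᵐ v ∂w, (∀ n j, v (n + 1) (2 * j) = v n j) ∧ (∀ n, v n 0 = 0)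
  incr : ∀ n K, w.map (fun v (k : Fin K) => v n (k + 1) - v n k) =
    Measure.pi (fun _ => gaussianReal 0 (eps n))

lemma measurable_code (n k : ℕ) : Measurable (fun v : Code => v n k) := by
  fun_prop

/-- consistent codes -/
def Consistent (v : Code) : Prop := (∀ n j, v (n + 1) (2 * j) = v n j) ∧ (∀ n, v n 0 = 0)

lemma Consistent.refine {v : Code} (hv : Consistent v) (n r j : ℕ) :
    v (n + r) (2 ^ r * j) = v n j := by
  induction r with
  | zero => simp
  | succ r ih =>
    have : 2 ^ (r + 1) * j = 2 * (2 ^ r * j) := by ring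
    rw [← add_assoc, this, hv.1, ih]

lemma floor_dyadic (n r j : ℕ) :
    ⌊((j : ℝ) / 2 ^ n) * 2 ^ (n + r)⌋₊ = 2 ^ r * j := by
  have : ((j : ℝ) / 2 ^ n) * 2 ^ (n + r) = ((2 ^ r * j : ℕ) : ℝ) := by
    push_cast
    rw [pow_add]
    field_simp
  rw [this, Nat.floor_natCast]

/-- The extension agrees with the code at dyadic times. -/
lemma Consistent.ext_dyadic {v : Code} (hv : Consistent v) (n j : ℕ) :
    extCode v ((j : ℝ) / 2 ^ n) = v n j := by
  unfold extCode
  apply Tendsto.limsup_eq
  apply tendsto_const_nhds.congr'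
  filter_upwards [eventually_ge_atTop n] with m hm
  obtain ⟨r, rfl⟩ := Nat.exists_eq_add_of_le hm
  rw [floor_dyadic, hv.refine]

namespace IsWiener

variable {w : Measure Code} (hw : IsWiener w)
include hw

lemma ae_consistent : ∀ᵐ v ∂w, Consistent v := hw.consistent

lemma measurable_incrVec (n K : ℕ) :
    Measurable (fun (v : Code) (k : Fin K) => v n (k + 1) - v n k) := by
  refine measurable_pi_iff.2 fun k => ?_
  exact (measurable_code n _).sub (measurable_code n _)

/-- Each increment has the Gaussian law. -/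
lemma map_incr (n k : ℕ) : w.map (fun v => v n (k + 1) - v n k) = gaussianReal 0 (eps n) := by
  have h1 := hw.incr n (k + 1)
  have h2 := measurePreserving_eval (fun _ : Fin (k + 1) => gaussianReal 0 (eps n)) (Fin.last k)
  rw [← h1] at h2
  have h3 := h2.map_eq
  rw [Measure.map_map (measurable_pi_apply _) (hw.measurable_incrVec n _)] at h3
  simpa [Function.comp_def] using h3

/-- Characteristic function of a code value. -/
lemma charFun_value (n j : ℕ) (θ : ℝ) :
    ∫ v, cexp (I * ((θ * v n j : ℝ) : ℂ)) ∂w =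
      ((Real.exp (-((eps n : ℝ) * (j * θ ^ 2)) / 2) : ℝ) : ℂ) := by
  have hprob := hw.prob
  have h1 := integral_gam_charFun (U := Fin j) (eps n) (fun _ => θ)
  have h2 : gam (Fin j) (eps n) = w.map (fun v (k : Fin j) => v n (k + 1) - v n k) := by
    rw [hw.incr]; rfl
  rw [h2, integral_map (hw.measurable_incrVec n j).aemeasurable (by
    apply Measurable.aestronglyMeasurable
    apply Complex.measurable_exp.comp
    apply measurable_const.mul
    exact Complex.measurable_ofReal.comp (measurable_dotR_right _))] at h1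
  have h3 : ∀ᵐ v ∂w, cexp (I * ((θ * v n j : ℝ) : ℂ)) =
      cexp (I * ((dotR (fun _ : Fin j => θ) (fun k : Fin j => v n (k + 1) - v n k) : ℝ) : ℂ)) := by
    filter_upwards [hw.ae_consistent] with v hv
    congr 3
    unfold dotR
    rw [← Finset.mul_sum]
    congr 1
    rw [Fin.sum_univ_eq_sum_range (fun k => v n (k + 1) - v n k) j, Finset.sum_range_sub, hv.2]
    simp
  rw [integral_congr_ae h3, h1]
  congr 3
  simp

/-- `E |x| ≤ √ε` for centered Gaussians. -/
lemma integral_abs_gaussian (ε : ℝ≥0) (hε : ε ≠ 0) :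
    ∫ x, |x| ∂(gaussianReal 0 ε) ≤ Real.sqrt ε := by
  have hε' : (0:ℝ) < ε := by exact_mod_cast pos_iff_ne_zero.2 hε
  have hs : 0 < Real.sqrt ε := Real.sqrt_pos.2 hε'
  have hsq : Real.sqrt ε * Real.sqrt ε = ε := Real.mul_self_sqrt hε'.le
  have hvar : ∫ x, x ^ 2 ∂(gaussianReal 0 ε) = ε := by
    have h1 := variance_fun_id_gaussianReal (μ := 0) (v := ε)
    rw [variance_of_integral_eq_zero aemeasurable_id' (by simp)] at h1
    exact h1
  have hint2 : Integrable (fun x : ℝ => x ^ 2) (gaussianReal 0 ε) :=
    (memLp_id_gaussianReal (μ := 0) (v := ε) 2).integrable_sq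
  have hb : ∀ x : ℝ, |x| ≤ Real.sqrt ε / 2 + x ^ 2 / (2 * Real.sqrt ε) := by
    intro x
    have h0 : 0 ≤ (|x| - Real.sqrt ε) ^ 2 := sq_nonneg _
    have h1 : |x| ^ 2 = x ^ 2 := sq_abs x
    have : Real.sqrt ε / 2 + x ^ 2 / (2 * Real.sqrt ε) - |x| =
        (|x| - Real.sqrt ε) ^ 2 / (2 * Real.sqrt ε) := by
      field_simp
      nlinarith [h1]
    have h3 : 0 ≤ (|x| - Real.sqrt ε) ^ 2 / (2 * Real.sqrt ε) := by positivity
    linarith
  have hintabs : Integrable (fun x : ℝ => |x|) (gaussianReal 0 ε) :=
    (memLp_id_gaussianReal (μ := 0) (v := ε) 1 |>.integrable le_rfl).abs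
  calc ∫ x, |x| ∂(gaussianReal 0 ε) ≤ ∫ x, (Real.sqrt ε / 2 + x ^ 2 / (2 * Real.sqrt ε)) ∂(gaussianReal 0 ε) := by
        apply integral_mono hintabs _ hb
        exact (integrable_const _).add (hint2.div_const _)
    _ = Real.sqrt ε / 2 + (∫ x, x ^ 2 ∂(gaussianReal 0 ε)) / (2 * Real.sqrt ε) := by
        rw [integral_add (integrable_const _) (hint2.div_const _), integral_const, integral_div]
        simp
    _ = Real.sqrt ε := by
        rw [hvar]
        field_simp
        nlinarith

/-- the `ℓ¹` bound for a single increment -/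
lemma lintegral_enorm_incr (n k : ℕ) :
    ∫⁻ v, ‖v n (k + 1) - v n k‖ₑ ∂w ≤ ENNReal.ofReal ((Real.sqrt (1 / 2)) ^ n) := by
  have hm : Measurable (fun v : Code => v n (k + 1) - v n k) :=
    (measurable_code n _).sub (measurable_code n _)
  have h1 : ∫⁻ v, ‖v n (k + 1) - v n k‖ₑ ∂w = ∫⁻ x, ‖x‖ₑ ∂(gaussianReal 0 (eps n)) := by
    rw [← hw.map_incr n k, lintegral_map (by fun_prop) hm]
  rw [h1]
  have hint : Integrable (fun x : ℝ => x) (gaussianReal 0 (eps n)) :=
    (memLp_id_gaussianReal (μ := 0) (v := eps n) 1).integrable le_rfl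
  rw [← ofReal_integral_norm_eq_lintegral_enorm hint]
  apply ENNReal.ofReal_le_ofReal
  have h2 := hw.integral_abs_gaussian (eps n) (eps_ne_zero n)
  simp only [Real.norm_eq_abs]
  refine h2.trans (le_of_eq ?_)
  rw [eps_coe]
  have : (1 : ℝ) / 2 ^ n = (1 / 2) ^ n := by simp
  rw [this, Real.sqrt_eq_iff_mul_self_eq (by positivity) (by positivity)]
  rw [← mul_pow, Real.mul_self_sqrt (by norm_num)]

end IsWiener

lemma floor_succ_cases (s : ℝ) (hs : 0 ≤ s) (n : ℕ) :
    ⌊s * 2 ^ (n + 1)⌋₊ = 2 * ⌊s * 2 ^ n⌋₊ ∨ ⌊s * 2 ^ (n + 1)⌋₊ = 2 * ⌊s * 2 ^ n⌋₊ + 1 := by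
  set a := s * 2 ^ n with ha
  have ha0 : 0 ≤ a := by positivity
  have h2 : s * 2 ^ (n + 1) = 2 * a := by rw [ha, pow_succ]; ring
  rw [h2]
  have h3 := Nat.floor_le ha0
  have h4 := Nat.lt_floor_add_one a
  have h5 : 2 * ⌊a⌋₊ ≤ ⌊2 * a⌋₊ := by
    apply Nat.le_floor
    push_cast
    linarith
  have h6 : ⌊2 * a⌋₊ < 2 * ⌊a⌋₊ + 2 := by
    rw [Nat.floor_lt (by positivity)]
    push_cast
    linarith
  omega

namespace IsWiener

variable {w : Measure Code} (hw : IsWiener w)
include hw

/-- almost sure convergence of the dyadic floors at a fixed real time. -/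
theorem ae_tendsto_floor (s : ℝ) (hs : 0 ≤ s) :
    ∀ᵐ v ∂w, Tendsto (fun n => v n ⌊s * 2 ^ n⌋₊) atTop (𝓝 (extCode v s)) := by
  set b : ℕ → ℕ := fun n => ⌊s * 2 ^ n⌋₊ with hb
  let g : ℕ → Code → ℝ≥0∞ := fun n v => ‖v (n + 1) (2 * b n + 1) - v (n + 1) (2 * b n)‖ₑ
  have hgm : ∀ n, Measurable (g n) := by
    intro n
    have : Measurable (fun v : Code => v (n + 1) (2 * b n + 1) - v (n + 1) (2 * b n)) :=
      (measurable_code _ _).sub (measurable_code _ _)
    exact this.enorm
  have hsum : ∫⁻ v, ∑' n, g n v ∂w < ⊤ := by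
    rw [lintegral_tsum (fun n => (hgm n).aemeasurable)]
    have hr : Real.sqrt (1 / 2) < 1 := by
      rw [Real.sqrt_lt' (by norm_num)]
      norm_num
    have hr0 : 0 ≤ Real.sqrt (1 / 2) := Real.sqrt_nonneg _
    have h1 : ∀ n, ∫⁻ v, g n v ∂w ≤ ENNReal.ofReal ((Real.sqrt (1 / 2)) ^ (n + 1)) := by
      intro n
      exact hw.lintegral_enorm_incr (n + 1) (2 * b n)
    refine lt_of_le_of_lt (ENNReal.tsum_le_tsum h1) ?_
    have hsm : Summable (fun n : ℕ => (Real.sqrt (1 / 2)) ^ (n + 1)) :=
      (summable_nat_add_iff 1).2 (summable_geometric_of_lt_one hr0 hr)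
    rw [← ENNReal.ofReal_tsum_of_nonneg (fun n => by positivity) hsm]
    exact ENNReal.ofReal_lt_top
  have hae : ∀ᵐ v ∂w, ∑' n, g n v < ⊤ := ae_lt_top
    (Measurable.tsum hgm) hsum.ne
  filter_upwards [hae, hw.ae_consistent] with v hv hcons
  -- the sequence is Cauchy
  have hdist : ∀ n, dist (v n (b n)) (v (n + 1) (b (n + 1))) ≤ (g n v).toReal := by
    intro n
    have hlt : g n v ≠ ⊤ := enorm_ne_top
    have e1 : v n (b n) = v (n + 1) (2 * b n) := (hcons.1 n (b n)).symm
    rw [e1, Real.dist_eq]
    have h0 : (g n v).toReal = |v (n + 1) (2 * b n + 1) - v (n + 1) (2 * b n)| := by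
      simp only [g]
      rw [toReal_enorm, Real.norm_eq_abs]
    rw [h0]
    rcases floor_succ_cases s hs n with h | h
    · simp only [hb] at h ⊢
      rw [h]
      simp
    · simp only [hb] at h ⊢
      rw [h, abs_sub_comm]
  have hsummable : Summable (fun n => (g n v).toReal) :=
    ENNReal.summable_toReal hv.ne
  have hcauchy : CauchySeq (fun n => v n (b n)) :=
    cauchySeq_of_dist_le_of_summable _ hdist hsummable
  obtain ⟨L, hL⟩ := cauchySeq_tendsto_of_complete hcauchy
  have hext : extCode v s = L := hL.limsup_eq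
  rw [hext]
  exact hL

/-- The law of the extension at a fixed time. -/
theorem map_extCode (s : ℝ≥0) : w.map (fun v => extCode v s) = gaussianReal 0 s := by
  have hprob := hw.prob
  have hmeas : Measurable (fun v : Code => extCode v (s : ℝ)) := by
    have h1 : Measurable (fun v : Code => (v, (s : ℝ))) := measurable_id.prodMk measurable_const
    have h2 := measurable_extCode.comp h1
    exact h2
  have : IsProbabilityMeasure (w.map (fun v => extCode v s)) :=
    Measure.isProbabilityMeasure_map hmeas.aemeasurable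
  apply Measure.ext_of_charFun
  ext θ
  rw [charFun_gaussianReal, charFun_apply_real, integral_map hmeas.aemeasurable (by
    apply Measurable.aestronglyMeasurable
    fun_prop)]
  -- limit
  set b : ℕ → ℕ := fun n => ⌊(s : ℝ) * 2 ^ n⌋₊ with hb
  have hlim1 : Tendsto (fun n => ∫ v, cexp (I * ((θ * v n (b n) : ℝ) : ℂ)) ∂w) atTop
      (𝓝 (∫ v, cexp (I * ((θ * extCode v s : ℝ) : ℂ)) ∂w)) := by
    apply tendsto_integral_of_dominated_convergence (fun _ => (1:ℝ))
    · intro n
      apply Measurable.aestronglyMeasurable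
      apply Complex.measurable_exp.comp
      apply measurable_const.mul
      apply Complex.measurable_ofReal.comp
      exact measurable_const.mul (measurable_code _ _)
    · exact integrable_const _
    · intro n
      filter_upwards with v
      rw [mul_comm, Complex.norm_exp_ofReal_mul_I]
    · filter_upwards [hw.ae_tendsto_floor s s.2] with v hv
      apply Tendsto.cexp
      apply Tendsto.const_mul
      apply Complex.continuous_ofReal.continuousAt.tendsto.comp
      exact hv.const_mul θ
  have hval : ∀ n, ∫ v, cexp (I * ((θ * v n (b n) : ℝ) : ℂ)) ∂w =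
      ((Real.exp (-((eps n : ℝ) * (b n * θ ^ 2)) / 2) : ℝ) : ℂ) := fun n => hw.charFun_value n (b n) θ
  simp_rw [hval] at hlim1
  have hbn : Tendsto (fun n => (eps n : ℝ) * (b n : ℝ)) atTop (𝓝 s) := by
    have h1 : ∀ n, (s : ℝ) - eps n ≤ (eps n : ℝ) * (b n : ℝ) := by
      intro n
      have h2 := Nat.lt_floor_add_one ((s : ℝ) * 2 ^ n)
      rw [eps_coe]
      have h3 : (0:ℝ) < 2 ^ n := by positivity
      have h4 : (s : ℝ) = ((s : ℝ) * 2 ^ n) * (1 / 2 ^ n) := by field_simp
      calc (s : ℝ) - 1 / 2 ^ n = ((s : ℝ) * 2 ^ n - 1) * (1 / 2 ^ n) := by field_simp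
        _ ≤ (b n : ℝ) * (1 / 2 ^ n) := by
            apply mul_le_mul_of_nonneg_right _ (by positivity)
            simp only [hb]
            linarith
        _ = _ := by ring
    have h2 : ∀ n, (eps n : ℝ) * (b n : ℝ) ≤ s := by
      intro n
      have h2 := Nat.floor_le (by positivity : 0 ≤ (s : ℝ) * 2 ^ n)
      rw [eps_coe]
      have h3 : (0:ℝ) < 2 ^ n := by positivity
      calc 1 / 2 ^ n * (b n : ℝ) ≤ 1 / 2 ^ n * ((s : ℝ) * 2 ^ n) := by
            apply mul_le_mul_of_nonneg_left _ (by positivity)
            simpa [hb] using h2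
        _ = s := by field_simp
    have h3 : Tendsto (fun n => (s : ℝ) - eps n) atTop (𝓝 s) := by
      have h4 : Tendsto (fun n => (eps n : ℝ)) atTop (𝓝 0) := by
        have : (fun n => (eps n : ℝ)) = fun n => ((1:ℝ) / 2) ^ n := by
          ext n; rw [eps_coe]; simp
        rw [this]
        exact tendsto_pow_atTop_nhds_zero_of_lt_one (by norm_num) (by norm_num)
      simpa using tendsto_const_nhds.sub h4
    exact tendsto_of_tendsto_of_tendsto_of_le_of_le h3 tendsto_const_nhds h1 h2
  have hlim2 : Tendsto (fun n => ((Real.exp (-((eps n : ℝ) * (b n * θ ^ 2)) / 2) : ℝ) : ℂ)) atTop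
      (𝓝 ((Real.exp (-((s : ℝ) * θ ^ 2) / 2) : ℝ) : ℂ)) := by
    apply Complex.continuous_ofReal.continuousAt.tendsto.comp
    apply Real.continuous_exp.continuousAt.tendsto.comp
    have h5 : Tendsto (fun n => ((eps n : ℝ) * (b n : ℝ)) * θ ^ 2) atTop (𝓝 ((s : ℝ) * θ ^ 2)) :=
      hbn.mul_const _
    have h6 := (h5.neg).div_const (2:ℝ)
    refine h6.congr fun n => ?_
    ring
  have huniq := tendsto_nhds_unique hlim1 hlim2
  have e1 : ∀ v : Code, cexp ((θ : ℂ) * ((extCode v s : ℝ) : ℂ) * I) =
      cexp (I * ((θ * extCode v s : ℝ) : ℂ)) := by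
    intro v
    congr 1
    push_cast
    ring
  simp_rw [e1]
  rw [huniq]
  push_cast
  congr 1
  simp
  ring

/-- strong law at integer times -/
theorem ae_tendsto_div : ∀ᵐ v ∂w, Tendsto (fun k : ℕ => v 0 k / (k : ℝ)) atTop (𝓝 0) := by
  have hprob := hw.prob
  let X : ℕ → Code → ℝ := fun k v => v 0 (k + 1) - v 0 k
  have hXm : ∀ k, Measurable (X k) := fun k =>
    (measurable_code 0 _).sub (measurable_code 0 _)
  have hlaw : ∀ k, w.map (X k) = gaussianReal 0 (eps 0) := fun k => hw.map_incr 0 k
  have hint : Integrable (X 0) w := by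
    have : Integrable id (w.map (X 0)) := by
      rw [hlaw 0]
      exact (memLp_id_gaussianReal (μ := 0) (v := eps 0) 1).integrable le_rfl
    exact (integrable_map_measure aemeasurable_id.aestronglyMeasurable (hXm 0).aemeasurable).1 this
  have hmean : w[X 0] = 0 := by
    have h1 : ∫ x, id x ∂(w.map (X 0)) = ∫ v, id (X 0 v) ∂w :=
      integral_map (hXm 0).aemeasurable aestronglyMeasurable_id
    rw [hlaw 0] at h1
    simp only [id] at h1
    rw [← h1]
    exact integral_id_gaussianReal
  have hident : ∀ i, IdentDistrib (X i) (X 0) w w := by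
    intro i
    refine ⟨(hXm i).aemeasurable, (hXm 0).aemeasurable, ?_⟩
    rw [hlaw, hlaw]
  have hindep : Pairwise (Function.onFun (fun f g => IndepFun f g w) X) := by
    intro i j hij
    let K := max i j + 1
    have hK1 : i < K := by omega
    have hK2 : j < K := by omega
    have hi : iIndepFun (fun (k : Fin K) (v : Code) => X k v) w := by
      rw [iIndepFun_iff_map_fun_eq_pi_map (fun k : Fin K => (hXm k).aemeasurable)]
      rw [show (fun v : Code => fun k : Fin K => X k v) = (fun v (k : Fin K) => v 0 (k + 1) - v 0 k) from rfl,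
        hw.incr 0 K]
      congr 1
      ext1 k
      exact (hlaw k).symm
    have := hi.indepFun (i := ⟨i, hK1⟩) (j := ⟨j, hK2⟩) (by simpa [Fin.ext_iff] using hij)
    exact this
  have hslln := strong_law_ae_real X hint hindep hident
  filter_upwards [hslln, hw.ae_consistent] with v hv hcons
  rw [hmean] at hv
  refine hv.congr fun n => ?_
  congr 1
  simp only [X]
  rw [Finset.sum_range_sub, hcons.2]
  simp

end IsWiener

/-- Swapping the indices of a double product of one measure. -/
theorem pi_pi_swap {A B : Type*} [Fintype A] [Fintype B] (G : Measure ℝ) [IsProbabilityMeasure G] :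
    (Measure.pi (fun _ : A => Measure.pi (fun _ : B => G))).map (fun f b a => f a b) =
      Measure.pi (fun _ : B => Measure.pi (fun _ : A => G)) := by
  classical
  have hm : Measurable (fun (f : A → B → ℝ) (b : B) (a : A) => f a b) := by
    refine measurable_pi_iff.2 fun b => measurable_pi_iff.2 fun a => ?_
    exact (measurable_pi_apply b).comp (measurable_pi_apply a)
  symm
  apply Measure.pi_eq_generateFrom
    (C := fun _ : B => Set.pi Set.univ '' Set.pi Set.univ (fun _ : A => {s : Set ℝ | MeasurableSet s}))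
  · intro b
    exact generateFrom_pi
  · intro b
    exact isPiSystem_pi
  · intro b
    exact Measure.FiniteSpanningSetsIn.pi (fun _ => G.toFiniteSpanningSetsIn)
  · intro s hs
    choose t ht hts using hs
    have hmt : ∀ b a, MeasurableSet (t b a) := fun b a => ht b a (Set.mem_univ a)
    have hset : (fun (f : A → B → ℝ) (b : B) (a : A) => f a b) ⁻¹' (Set.pi Set.univ s) =
        Set.pi Set.univ (fun a => Set.pi Set.univ (fun b => t b a)) := by
      ext f
      simp only [Set.mem_preimage, Set.mem_pi, Set.mem_univ, forall_true_left]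
      constructor
      · intro h a b
        have := h b
        rw [← hts b] at this
        exact this a (Set.mem_univ a)
      · intro h b
        rw [← hts b]
        intro a _
        exact h a b
    rw [Measure.map_apply hm (MeasurableSet.univ_pi (fun b => by
      rw [← hts b]
      exact MeasurableSet.univ_pi (hmt b))), hset, Measure.pi_pi]
    have h1 : ∀ a, (Measure.pi fun _ : B => G) (Set.pi Set.univ (fun b => t b a)) = ∏ b, G (t b a) :=
      fun a => Measure.pi_pi _ _
    have h2 : ∀ b, (Measure.pi fun _ : A => G) (s b) = ∏ a, G (t b a) := by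
      intro b
      rw [← hts b, Measure.pi_pi]
    simp_rw [h1, h2]
    exact Finset.prod_comm

/-- The law of the level-`n` noise matrix for finitely many independent codes. -/
theorem IsWiener.map_noise {w : Measure Code} (hw : IsWiener w) {U : Type*} [Fintype U] (n K : ℕ) :
    (Measure.pi (fun _ : U => w)).map (fun v (j : Fin K) (e : U) => v e n (j + 1) - v e n j) =
      Measure.pi (fun _ : Fin K => gam U (eps n)) := by
  have hprob := hw.prob
  have h1 : (Measure.pi (fun _ : U => w)).map (fun (v : U → Code) (e : U) (j : Fin K) => v e n (j + 1) - v e n j) =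
      Measure.pi (fun _ : U => Measure.pi (fun _ : Fin K => gaussianReal 0 (eps n))) := by
    rw [Measure.pi_map_pi (fun _ => (hw.measurable_incrVec n K).aemeasurable)]
    congr 1
    ext1 e
    exact hw.incr n K
  have hm1 : Measurable (fun (v : U → Code) (e : U) (j : Fin K) => v e n (j + 1) - v e n j) := by
    refine measurable_pi_iff.2 fun e => measurable_pi_iff.2 fun j => ?_
    exact ((measurable_code n _).comp (measurable_pi_apply e)).sub
      ((measurable_code n _).comp (measurable_pi_apply e))
  have hm2 : Measurable (fun (f : U → Fin K → ℝ) (j : Fin K) (e : U) => f e j) := by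
    refine measurable_pi_iff.2 fun j => measurable_pi_iff.2 fun e => ?_
    exact (measurable_pi_apply j).comp (measurable_pi_apply e)
  have h2 := pi_pi_swap (A := U) (B := Fin K) (gaussianReal 0 (eps n))
  rw [← h1, Measure.map_map hm2 hm1] at h2
  exact h2

/-- The law at a fixed real time for finitely many independent codes. -/
theorem IsWiener.map_ext_vec {w : Measure Code} (hw : IsWiener w) {U : Type*} [Fintype U] (s : ℝ≥0) :
    (Measure.pi (fun _ : U => w)).map (fun v (e : U) => extCode (v e) s) = gam U s := by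
  have hprob := hw.prob
  have hm : Measurable (fun v : Code => extCode v (s : ℝ)) := by
    have h1 : Measurable (fun v : Code => (v, (s : ℝ))) := measurable_id.prodMk measurable_const
    have h2 := measurable_extCode.comp h1
    exact h2
  rw [Measure.pi_map_pi (fun _ => hm.aemeasurable)]
  unfold gam
  congr 1
  ext1 e
  exact hw.map_extCode s

end Crest.Agent.H5SL
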