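import Crest.Agent.H5SLStable

/-!
Conditioning a stable law on an edge keeps it stable; negative correlation of an occupation event
with the event of containing a finite set; monotonicity of inclusion probabilities under
decreasing tilts.
-/

set_option autoImplicit false
set_option linter.unusedSectionVars false
set_option linter.unusedVariables false

open Filter Topology

namespace Crest.Agent.H5SL

section CondNC

variable {ι : Type*} [DecidableEq ι]

/-- Conditioning on `g` preserves stability. -/
theorem stable_cond {p : Finset ι → ℝ} {V : Finset ι} {g : ι} (hg : g ∉ V) (hp : ∀ S, 0 ≤ p S)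
    (hst : Stable p (insert g V)) (hpos : ∃ S ∈ V.powerset, 0 < p (insert g S)) :
    Stable (fun S => p (insert g S)) V := by
  intro z hz
  -- choose the line
  set M : ℝ := ∑ i ∈ V, (|(z i).re| + 1) / (z i).im with hMdef
  have hM : ∀ i ∈ V, 0 < (z i).re + (z i).im * M := by
    intro i hi
    have h1 := hz i hi
    have h2 : (|(z i).re| + 1) / (z i).im ≤ M :=
      Finset.single_le_sum (f := fun i => (|(z i).re| + 1) / (z i).im)
        (fun j hj => div_nonneg (by positivity) (hz j hj).le) hi
    have h3 : |(z i).re| + 1 ≤ (z i).im * M := by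
      rwa [div_le_iff₀' h1] at h2
    have h4 := neg_abs_le (z i).re
    linarith
  let line : ι → ℂ → ℂ := fun i t =>
    (((z i).re + (z i).im * M - (z i).im : ℝ) : ℂ) + ((z i).im : ℂ) * t
  have hline_im : ∀ i ∈ V, ∀ t : ℂ, 0 < t.im → 0 < (line i t).im := by
    intro i hi t ht
    simp only [line, Complex.add_im, Complex.ofReal_im, zero_add, Complex.mul_im, Complex.ofReal_re,
      add_zero, Complex.ofReal_im, zero_mul]
    exact mul_pos (hz i hi) ht
  let A : ℂ → ℂ := fun t => ∑ S ∈ V.powerset, (p S : ℂ) * ∏ i ∈ S, line i t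
  let B : ℂ → ℂ := fun t => ∑ S ∈ V.powerset, (p (insert g S) : ℂ) * ∏ i ∈ S, line i t
  have hA : Differentiable ℂ A := by
    simp only [A, line]
    fun_prop
  have hB : Differentiable ℂ B := by
    simp only [B, line]
    fun_prop
  have hstab : ∀ t z' : ℂ, 0 < t.im → 0 < z'.im → A t + z' * B t ≠ 0 := by
    intro t z' ht hz'
    let Z : ι → ℂ := Function.update (fun i => line i t) g z'
    have hZ : ∀ i ∈ insert g V, 0 < (Z i).im := by
      intro i hi
      by_cases h : i = g
      · subst h
        simpa [Z] using hz'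
      · have hiV : i ∈ V := by
          rcases Finset.mem_insert.1 hi with h2 | h2
          · exact absurd h2 h
          · exact h2
        simp only [Z, Function.update_of_ne h]
        exact hline_im i hiV t ht
    have h1 := hst Z hZ
    rw [stP_insert p hg] at h1
    have h2 : ∀ S ∈ V.powerset, ∏ i ∈ S, Z i = ∏ i ∈ S, line i t := by
      intro S hS
      have hgS : g ∉ S := fun h => hg (Finset.mem_powerset.1 hS h)
      exact prod_update_of_notMem hgS
    have h3 : Z g = z' := by simp [Z]
    rw [h3] at h1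
    have h4 : ∑ S ∈ V.powerset, (p S : ℂ) * ∏ i ∈ S, Z i = A t :=
      Finset.sum_congr rfl fun S hS => by rw [h2 S hS]
    have h5 : ∑ S ∈ V.powerset, (p (insert g S) : ℂ) * ∏ i ∈ S, Z i = B t :=
      Finset.sum_congr rfl fun S hS => by rw [h2 S hS]
    rw [h4, h5] at h1
    exact h1
  have hB1 : B 1 ≠ 0 := by
    have h1 : B 1 = ((∑ S ∈ V.powerset, p (insert g S) * ∏ i ∈ S, ((z i).re + (z i).im * M) : ℝ) : ℂ) := by
      simp only [B, line]
      push_cast
      apply Finset.sum_congr rfl
      intro S _
      congr 1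
      apply Finset.prod_congr rfl
      intro i _
      ring
    rw [h1]
    norm_cast
    apply ne_of_gt
    obtain ⟨S₀, hS₀, hS₀p⟩ := hpos
    apply Finset.sum_pos'
    · intro S hS
      exact mul_nonneg (hp _) (Finset.prod_nonneg fun i hi =>
        (hM i (Finset.mem_powerset.1 hS hi)).le)
    · exact ⟨S₀, hS₀, mul_pos hS₀p (Finset.prod_pos fun i hi =>
        hM i (Finset.mem_powerset.1 hS₀ hi))⟩
  have hfinal := stable_B_ne hA hB hstab hB1 (t₀ := ((1 - M : ℝ) : ℂ) + Complex.I) (by simp)
  have hval : ∀ i, line i (((1 - M : ℝ) : ℂ) + Complex.I) = z i := by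
    intro i
    apply Complex.ext
    · simp [line]
      ring
    · simp [line]
  simp only [B, hval] at hfinal
  exact hfinal

/-- indicator of containing `F` -/
def indF (F S : Finset ι) : ℝ := if F ⊆ S then 1 else 0

lemma indF_nonneg (F S : Finset ι) : 0 ≤ indF F S := by
  unfold indF; split_ifs <;> norm_num

/-- the weight of the configurations containing `F` -/
noncomputable def Ninc (p : Finset ι → ℝ) (V : Finset ι) (y : ι → ℝ) (F : Finset ι) : ℝ :=
  ∑ S ∈ V.powerset, wt p y S * indF F S

lemma Ninc_nonneg {p : Finset ι → ℝ} (hp : ∀ S, 0 ≤ p S) (V : Finset ι) (y : ι → ℝ) (F : Finset ι) :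
    0 ≤ Ninc p V y F :=
  Finset.sum_nonneg fun S _ => mul_nonneg (wt_nonneg hp y S) (indF_nonneg F S)

lemma Ninc_empty (p : Finset ι → ℝ) (V : Finset ι) (y : ι → ℝ) : Ninc p V y ∅ = tW p V y := by
  unfold Ninc tW indF
  simp

/-- Splitting off an element. -/
lemma Ninc_insert {p : Finset ι → ℝ} {V : Finset ι} {g : ι} (hg : g ∉ V) (y : ι → ℝ)
    {G : Finset ι} (hG : g ∉ G) :
    Ninc p (insert g V) y (insert g G) =
      Real.exp (2 * y g) * Ninc (fun S => p (insert g S)) V y G := by
  unfold Ninc
  rw [Finset.sum_powerset_insert hg, Finset.mul_sum]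
  have h1 : ∑ S ∈ V.powerset, wt p y S * indF (insert g G) S = 0 := by
    apply Finset.sum_eq_zero
    intro S hS
    have hgS : g ∉ S := fun h => hg (Finset.mem_powerset.1 hS h)
    have : indF (insert g G) S = 0 := by
      unfold indF
      rw [if_neg]
      intro h
      exact hgS (h (Finset.mem_insert_self g G))
    rw [this, mul_zero]
  rw [h1, zero_add]
  apply Finset.sum_congr rfl
  intro S hS
  have hgS : g ∉ S := fun h => hg (Finset.mem_powerset.1 hS h)
  have h2 : indF (insert g G) (insert g S) = indF G S := by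
    unfold indF
    have : insert g G ⊆ insert g S ↔ G ⊆ S := by
      constructor
      · intro h x hx
        have := h (Finset.mem_insert_of_mem hx)
        rcases Finset.mem_insert.1 this with h3 | h3
        · exact absurd (h3 ▸ hx) hG
        · exact h3
      · exact Finset.insert_subset_insert g
    simp only [this]
  have h3 : wt p y (insert g S) = Real.exp (2 * y g) * wt (fun S => p (insert g S)) y S := by
    unfold wt
    rw [Finset.sum_insert hgS, mul_add, Real.exp_add]
    ring
  rw [h2, h3]
  ring

lemma indF_pair (e f : ι) (S : Finset ι) : indF {e, f} S = ind e S * ind f S := by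
  unfold indF ind
  by_cases he : e ∈ S <;> by_cases hf : f ∈ S <;> simp [he, hf, Finset.insert_subset_iff]

lemma indF_single (e : ι) (S : Finset ι) : indF {e} S = ind e S := by
  unfold indF ind
  simp

/-- Rayleigh's inequality for the weights. -/
theorem Ninc_pair {p : Finset ι → ℝ} {V : Finset ι} (hp : ∀ S, 0 ≤ p S) (hst : Stable p V)
    {e f : ι} (he : e ∈ V) (hf : f ∈ V) (hef : e ≠ f) (y : ι → ℝ) :
    Ninc p V y {e, f} * Ninc p V y ∅ ≤ Ninc p V y {e} * Ninc p V y {f} := by
  by_cases hpos : ∃ S ∈ V.powerset, 0 < p S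
  · have h1 := tCov_nonpos hp hst he hf hef y hpos
    have hW := tW_pos hp hpos y
    unfold tCov tE at h1
    rw [Ninc_empty]
    have h2 : Ninc p V y {e, f} = ∑ S ∈ V.powerset, wt p y S * (ind e S * ind f S) :=
      Finset.sum_congr rfl fun S _ => by rw [indF_pair]
    have h3 : Ninc p V y {e} = ∑ S ∈ V.powerset, wt p y S * ind e S :=
      Finset.sum_congr rfl fun S _ => by rw [indF_single]
    have h4 : Ninc p V y {f} = ∑ S ∈ V.powerset, wt p y S * ind f S :=
      Finset.sum_congr rfl fun S _ => by rw [indF_single]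
    rw [h2, h3, h4]
    rw [div_mul_div_comm, sub_nonpos, div_le_div_iff₀ hW (mul_pos hW hW)] at h1
    have h5 := mul_le_mul_of_nonneg_right h1 (le_refl (0:ℝ))
    nlinarith [mul_pos hW hW, h1, hW]
  · push Not at hpos
    have hzero : ∀ S ∈ V.powerset, p S = 0 := fun S hS => le_antisymm (hpos S hS) (hp S)
    have hN : ∀ F, Ninc p V y F = 0 := by
      intro F
      apply Finset.sum_eq_zero
      intro S hS
      simp [wt, hzero S hS]
    simp [hN]

/-- **Negative correlation** of an edge with the event of containing a finite set. -/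
theorem nc_multi (F : Finset ι) : ∀ {p : Finset ι → ℝ} {V : Finset ι}, (∀ S, 0 ≤ p S) → Stable p V →
    F ⊆ V → ∀ {f : ι}, f ∈ V → f ∉ F → ∀ y : ι → ℝ,
      Ninc p V y (insert f F) * Ninc p V y ∅ ≤ Ninc p V y F * Ninc p V y {f} := by
  induction F using Finset.induction_on with
  | empty =>
    intro p V hp hst hF f hf hfF y
    have : insert f (∅ : Finset ι) = {f} := rfl
    rw [this, mul_comm]
  | insert g F' hgF' ih =>
    intro p V hp hst hF f hf hfF y
    have hgV : g ∈ V := hF (Finset.mem_insert_self g F')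
    have hF'V : F' ⊆ V := fun x hx => hF (Finset.mem_insert_of_mem hx)
    have hfg : f ≠ g := fun h => hfF (h ▸ Finset.mem_insert_self g F')
    have hfF' : f ∉ F' := fun h => hfF (Finset.mem_insert_of_mem h)
    set V' := V.erase g with hV'
    have hgV' : g ∉ V' := by simp [hV']
    have hVeq : insert g V' = V := Finset.insert_erase hgV
    have hst' : Stable p (insert g V') := by rw [hVeq]; exact hst
    set q : Finset ι → ℝ := fun S => p (insert g S) with hq
    have hq0 : ∀ S, 0 ≤ q S := fun S => hp _
    have hfV' : f ∈ V' := Finset.mem_erase.2 ⟨hfg, hf⟩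
    have hF'V' : F' ⊆ V' := fun x hx => Finset.mem_erase.2
      ⟨fun h => hgF' (h ▸ hx), hF'V hx⟩
    have hE := Real.exp_pos (2 * y g)
    have hins : ∀ G : Finset ι, g ∉ G → Ninc p V y (insert g G) = Real.exp (2 * y g) * Ninc q V' y G := by
      intro G hG
      rw [← hVeq]
      exact Ninc_insert hgV' y hG
    have h1 : insert f (insert g F') = insert g (insert f F') := Finset.insert_comm _ _ _
    have hgfF' : g ∉ insert f F' := by
      simp only [Finset.mem_insert, not_or]
      exact ⟨hfg.symm, hgF'⟩
    rw [h1, hins _ hgfF', hins _ hgF']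
    by_cases hpos : ∃ S ∈ V'.powerset, 0 < q S
    · have hstq : Stable q V' := stable_cond hgV' hp hst' hpos
      have hIH := ih hq0 hstq hF'V' hfV' hfF' y
      -- translate
      have h2 : Ninc p V y {g} = Real.exp (2 * y g) * Ninc q V' y ∅ := by
        have := hins ∅ (by simp)
        simpa using this
      have h3 : Ninc p V y {g, f} = Real.exp (2 * y g) * Ninc q V' y {f} := by
        exact hins {f} (by simpa using hfg.symm)
      have hN0 : 0 < Ninc q V' y ∅ := by
        rw [Ninc_empty]
        exact tW_pos hq0 hpos y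
      have hR := Ninc_pair hp hst hgV hf hfg.symm y
      rw [h2, h3] at hR
      -- combine
      have hfinal : (Real.exp (2 * y g) * Ninc q V' y (insert f F')) * Ninc p V y ∅ *
            (Real.exp (2 * y g) * Ninc q V' y ∅) ≤
          (Real.exp (2 * y g) * Ninc q V' y F') * Ninc p V y {f} *
            (Real.exp (2 * y g) * Ninc q V' y ∅) := by
        have hA : 0 ≤ Ninc p V y ∅ := Ninc_nonneg hp V y ∅
        calc (Real.exp (2 * y g) * Ninc q V' y (insert f F')) * Ninc p V y ∅ *
              (Real.exp (2 * y g) * Ninc q V' y ∅)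
            = (Ninc q V' y (insert f F') * Ninc q V' y ∅) *
                (Real.exp (2 * y g) * Real.exp (2 * y g) * Ninc p V y ∅) := by ring
          _ ≤ (Ninc q V' y F' * Ninc q V' y {f}) *
                (Real.exp (2 * y g) * Real.exp (2 * y g) * Ninc p V y ∅) :=
              mul_le_mul_of_nonneg_right hIH (by positivity)
          _ = (Real.exp (2 * y g) * Ninc q V' y F') *
                ((Real.exp (2 * y g) * Ninc q V' y {f}) * Ninc p V y ∅) := by ring
          _ ≤ (Real.exp (2 * y g) * Ninc q V' y F') *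
                ((Real.exp (2 * y g) * Ninc q V' y ∅) * Ninc p V y {f}) :=
              mul_le_mul_of_nonneg_left hR
                (mul_nonneg hE.le (Ninc_nonneg hq0 V' y F'))
          _ = _ := by ring
      exact le_of_mul_le_mul_right hfinal (mul_pos hE hN0)
    · push Not at hpos
      have hzero : ∀ S ∈ V'.powerset, q S = 0 := fun S hS => le_antisymm (hpos S hS) (hq0 S)
      have hN : ∀ G, Ninc q V' y G = 0 := by
        intro G
        apply Finset.sum_eq_zero
        intro S hS
        simp [wt, hzero S hS]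
      simp [hN]

/-- the decreasing tilt on the edges of `O` -/
noncomputable def Ytilt (O : Finset ι) (s : ℝ) : ι → ℝ := fun i => if i ∈ O then -s else 0

lemma wt_Ytilt (p : Finset ι → ℝ) (O : Finset ι) (s : ℝ) (S : Finset ι) :
    wt p (Ytilt O s) S = p S * Real.exp (-(2 * s * ((S ∩ O).card : ℝ))) := by
  unfold wt Ytilt
  congr 2
  have h1 : ∑ i ∈ S, (if i ∈ O then -s else 0) = ∑ i ∈ S.filter (· ∈ O), -s := by
    rw [Finset.sum_filter]
  rw [h1, Finset.sum_const, ← Finset.filter_mem_eq_inter, nsmul_eq_mul]
  ring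

/-- derivative of the weights along the tilt -/
lemma hasDerivAt_Ninc (p : Finset ι → ℝ) (V O : Finset ι) (F : Finset ι) (s : ℝ) :
    HasDerivAt (fun s => Ninc p V (Ytilt O s) F)
      (-2 * ∑ f ∈ O, Ninc p V (Ytilt O s) (insert f F)) s := by
  have h1 : ∀ S : Finset ι, HasDerivAt (fun s => wt p (Ytilt O s) S * indF F S)
      (-2 * ∑ f ∈ O, wt p (Ytilt O s) S * indF (insert f F) S) s := by
    intro S
    have h2 : (fun s => wt p (Ytilt O s) S * indF F S) = fun s =>
        (p S * indF F S) * Real.exp (-(2 * s * ((S ∩ O).card : ℝ))) := by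
      ext s
      rw [wt_Ytilt]
      ring
    rw [h2]
    have h3 : HasDerivAt (fun s : ℝ => -(2 * s * ((S ∩ O).card : ℝ))) (-(2 * ((S ∩ O).card : ℝ))) s := by
      have := (((hasDerivAt_id' s).const_mul (2:ℝ)).mul_const ((S ∩ O).card : ℝ)).fun_neg
      exact this.congr_deriv (by ring)
    have h4 := (h3.exp).const_mul (p S * indF F S)
    refine h4.congr_deriv ?_
    have h5 : ∑ f ∈ O, wt p (Ytilt O s) S * indF (insert f F) S =
        wt p (Ytilt O s) S * (indF F S * ((S ∩ O).card : ℝ)) := by
      rw [← Finset.mul_sum]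
      congr 1
      have h6 : ∀ f ∈ O, indF (insert f F) S = indF F S * (if f ∈ S then 1 else 0) := by
        intro f _
        unfold indF
        by_cases hF : F ⊆ S <;> by_cases hf : f ∈ S <;>
          simp [hF, hf, Finset.insert_subset_iff]
      rw [Finset.sum_congr rfl h6, ← Finset.mul_sum]
      congr 1
      rw [← Finset.sum_filter, Finset.sum_const, nsmul_eq_mul, mul_one]
      congr 2
      ext x
      simp [and_comm]
    rw [h5, wt_Ytilt]
    ring
  unfold Ninc
  have h7 := HasDerivAt.fun_sum (u := V.powerset) (fun S _ => h1 S)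
  refine h7.congr_deriv ?_
  rw [← Finset.mul_sum, Finset.sum_comm]

/-- **Monotonicity**: lowering the weights of `O` raises the probability of containing `F`. -/
theorem monotone_ratio {p : Finset ι → ℝ} {V O F : Finset ι} (hp : ∀ S, 0 ≤ p S) (hst : Stable p V)
    (hpos : ∃ S ∈ V.powerset, 0 < p S) (hF : F ⊆ V) (hO : O ⊆ V) (hOF : ∀ f ∈ O, f ∉ F) :
    Monotone (fun s => Ninc p V (Ytilt O s) F / Ninc p V (Ytilt O s) ∅) := by
  have hb : ∀ s, 0 < Ninc p V (Ytilt O s) ∅ := by
    intro s
    rw [Ninc_empty]
    exact tW_pos hp hpos _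
  have hder : ∀ s, HasDerivAt (fun s => Ninc p V (Ytilt O s) F / Ninc p V (Ytilt O s) ∅)
      ((-2 * (∑ f ∈ O, Ninc p V (Ytilt O s) (insert f F)) * Ninc p V (Ytilt O s) ∅ -
        Ninc p V (Ytilt O s) F * (-2 * ∑ f ∈ O, Ninc p V (Ytilt O s) (insert f ∅))) /
        Ninc p V (Ytilt O s) ∅ ^ 2) s := fun s =>
    (hasDerivAt_Ninc p V O F s).div (hasDerivAt_Ninc p V O ∅ s) (hb s).ne'
  apply monotone_of_deriv_nonneg
  · exact fun s => (hder s).differentiableAt
  · intro s
    rw [(hder s).deriv]
    apply div_nonneg _ (by positivity)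
    have h1 : ∀ f ∈ O, Ninc p V (Ytilt O s) (insert f F) * Ninc p V (Ytilt O s) ∅ ≤
        Ninc p V (Ytilt O s) F * Ninc p V (Ytilt O s) (insert f ∅) := by
      intro f hf
      exact nc_multi F hp hst hF (hO hf) (hOF f hf) _
    have h2 := Finset.sum_le_sum h1
    rw [← Finset.sum_mul, ← Finset.mul_sum] at h2
    linarith

end CondNC

end Crest.Agent.H5SL
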