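import Crest.Agent.H5SLFSF
import Crest.Prelude.Def_GraphTables

/-!
The drift of the free uniform spanning forest computed from finite balls of a graph: a definition
jointly measurable in the adjacency table and the tilt, equivariant under relabelling vertices.
-/

set_option autoImplicit false
set_option linter.unusedSectionVars false
set_option linter.unusedVariables false

open MeasureTheory Filter Topology Crest.ProbabilityR.SpanningTrees Crest.ProbabilityR.GraphTables
open scoped ENNReal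

namespace Crest.Agent.H5SL

section Defs

/-- the endpoints of an unordered pair -/
def ctr (e : Sym2 ℕ) : Set ℕ := {x | x ∈ e}

open Classical in
/-- the ball around a pair, when finite -/
noncomputable def winS (G : SimpleGraph ℕ) (e : Sym2 ℕ) (k : ℕ) : Finset ℕ :=
  if h : (ballS G (ctr e) k).Finite then h.toFinset else ∅

open Classical in
/-- indicator of spanning trees from finite data -/
noncomputable def treeIndE (E : Finset (Sym2 ℕ)) (S : Finset ℕ) (A : Finset (Sym2 ℕ)) : ℝ :=
  if A ⊆ E ∧ ((SimpleGraph.fromEdgeSet (A : Set (Sym2 ℕ))).induce (S : Set ℕ)).IsTree then 1 else 0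

lemma treeInd_eq (G : SimpleGraph ℕ) (S : Finset ℕ) : treeInd G S = treeIndE (edgesIn G S) S := by
  ext A
  unfold treeInd treeIndE IsSpanningTreeOn
  congr

/-- the tilted mean for finite data -/
noncomputable def Mfin (E : Finset (Sym2 ℕ)) (S : Finset ℕ) (V₀ : Finset (Sym2 ℕ)) (e : Sym2 ℕ)
    (y : Sym2 ℕ → ℝ) : ℝ :=
  2 * tT (treeIndE E S) E e (tiltOn V₀ y) - 1

/-- the tilted mean on the ball of radius `R` with tilt on the ball of radius `r` -/
noncomputable def MG (G : SimpleGraph ℕ) (e : Sym2 ℕ) (r R : ℕ) (y : Sym2 ℕ → ℝ) : ℝ :=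
  Mfin (edgesIn G (winS G e R)) (winS G e R) (edgesIn G (winS G e r)) e y

/-- the drift -/
noncomputable def DG (G : SimpleGraph ℕ) (e : Sym2 ℕ) (y : Sym2 ℕ → ℝ) : ℝ :=
  limsup (fun r => limsup (fun R => MG G e r R y) atTop) atTop

end Defs

section Meas

lemma measurable_of_partition {α β ι : Type*} [MeasurableSpace α] [MeasurableSpace β] [Countable ι]
    (l : α → ι) (hl : ∀ i, MeasurableSet (l ⁻¹' {i})) {f : α → β} (g : ι → α → β)
    (hg : ∀ i, Measurable (g i)) (h : ∀ x, f x = g (l x) x) : Measurable f := by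
  intro s hs
  have : f ⁻¹' s = ⋃ i, (l ⁻¹' {i} ∩ g i ⁻¹' s) := by
    ext x
    simp only [Set.mem_preimage, Set.mem_iUnion, Set.mem_inter_iff, Set.mem_singleton_iff]
    constructor
    · intro hx
      exact ⟨l x, rfl, by rw [← h]; exact hx⟩
    · rintro ⟨i, rfl, hx⟩
      rw [h]; exact hx
  rw [this]
  exact MeasurableSet.iUnion fun i => (hl i).inter (hg i hs)

lemma measurableSet_adj (u v : ℕ) : MeasurableSet {A : ℕ → ℕ → Bool | (graphOfTable A).Adj u v} := by
  unfold graphOfTable
  simp only [SimpleGraph.fromRel_adj]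
  have h0 : ∀ a b : ℕ, MeasurableSet {A : ℕ → ℕ → Bool | A a b = true} := by
    intro a b
    have h : Measurable (fun A : ℕ → ℕ → Bool => A a b) :=
      (measurable_pi_apply b).comp (measurable_pi_apply a)
    exact h (measurableSet_singleton true)
  have h1 := h0 u v
  have h2 := h0 v u
  by_cases huv : u = v
  · simp [huv]
  · simp only [ne_eq, huv, not_false_eq_true, true_and]
    exact h1.union h2

lemma measurableSet_mem_ball (c : Set ℕ) (k x : ℕ) :
    MeasurableSet {A : ℕ → ℕ → Bool | x ∈ ballS (graphOfTable A) c k} := by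
  induction k generalizing x with
  | zero =>
    by_cases hx : x ∈ c
    · simp [ballS, hx]
    · simp [ballS, hx]
  | succ k ih =>
    have : {A : ℕ → ℕ → Bool | x ∈ ballS (graphOfTable A) c (k + 1)} =
        {A | x ∈ ballS (graphOfTable A) c k} ∪
          ⋃ u : ℕ, ({A | u ∈ ballS (graphOfTable A) c k} ∩ {A | (graphOfTable A).Adj u x}) := by
      ext A
      simp only [ballS, Set.mem_ofPred_eq, Set.mem_union, Set.mem_iUnion, Set.mem_inter_iff]
    rw [this]
    exact (ih x).union (MeasurableSet.iUnion fun u => (ih u).inter (measurableSet_adj u x))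

lemma measurableSet_ball_eq (c : Set ℕ) (k : ℕ) (a : Set ℕ) :
    MeasurableSet {A : ℕ → ℕ → Bool | ballS (graphOfTable A) c k = a} := by
  have : {A : ℕ → ℕ → Bool | ballS (graphOfTable A) c k = a} =
      ⋂ x : ℕ, {A | x ∈ ballS (graphOfTable A) c k ↔ x ∈ a} := by
    ext A
    simp only [Set.mem_ofPred_eq, Set.mem_iInter, Set.ext_iff]
  rw [this]
  refine MeasurableSet.iInter fun x => ?_
  by_cases hx : x ∈ a
  · simp only [hx, iff_true]
    exact measurableSet_mem_ball c k x
  · simp only [hx, iff_false]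
    exact (measurableSet_mem_ball c k x).compl

lemma measurableSet_ball_finite (c : Set ℕ) (k : ℕ) :
    MeasurableSet {A : ℕ → ℕ → Bool | (ballS (graphOfTable A) c k).Finite} := by
  have : {A : ℕ → ℕ → Bool | (ballS (graphOfTable A) c k).Finite} =
      ⋃ a : Finset ℕ, {A | ballS (graphOfTable A) c k = (a : Set ℕ)} := by
    ext A
    simp only [Set.mem_ofPred_eq, Set.mem_iUnion]
    constructor
    · intro h
      exact ⟨h.toFinset, h.coe_toFinset.symm⟩
    · rintro ⟨a, ha⟩
      rw [ha]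
      exact a.finite_toSet
  rw [this]
  exact MeasurableSet.iUnion fun a => measurableSet_ball_eq c k _

lemma measurableSet_winS_eq (e : Sym2 ℕ) (k : ℕ) (a : Finset ℕ) :
    MeasurableSet {A : ℕ → ℕ → Bool | winS (graphOfTable A) e k = a} := by
  classical
  have : {A : ℕ → ℕ → Bool | winS (graphOfTable A) e k = a} =
      {A | ballS (graphOfTable A) (ctr e) k = (a : Set ℕ)} ∪
        ({A | (ballS (graphOfTable A) (ctr e) k).Finite}ᶜ ∩ {A | a = ∅}) := by
    ext A
    simp only [Set.mem_ofPred_eq, Set.mem_union, Set.mem_inter_iff, Set.mem_compl_iff, winS]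
    by_cases h : (ballS (graphOfTable A) (ctr e) k).Finite
    · rw [dif_pos h]
      simp only [h, not_true_eq_false, false_and, or_false]
      constructor
      · intro h2
        rw [← h2]
        exact h.coe_toFinset.symm
      · intro h2
        apply Finset.coe_injective
        rw [← h2]
        exact h.coe_toFinset
    · rw [dif_neg h]
      simp only [h, not_false_eq_true, true_and]
      constructor
      · intro h2
        exact Or.inr h2.symm
      · rintro (h2 | h2)
        · exfalso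
          apply h
          rw [h2]
          exact a.finite_toSet
        · exact h2.symm
  rw [this]
  refine (measurableSet_ball_eq _ _ _).union ((measurableSet_ball_finite _ _).compl.inter ?_)
  by_cases ha : a = ∅ <;> simp [ha]

lemma measurableSet_edgesIn_eq (a : Finset ℕ) (c : Finset (Sym2 ℕ)) :
    MeasurableSet {A : ℕ → ℕ → Bool | edgesIn (graphOfTable A) a = c} := by
  classical
  have : {A : ℕ → ℕ → Bool | edgesIn (graphOfTable A) a = c} =
      ⋂ z : Sym2 ℕ, {A | z ∈ edgesIn (graphOfTable A) a ↔ z ∈ c} := by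
    ext A
    simp only [Set.mem_ofPred_eq, Set.mem_iInter, Finset.ext_iff]
  rw [this]
  refine MeasurableSet.iInter fun z => ?_
  have hz : MeasurableSet {A : ℕ → ℕ → Bool | z ∈ edgesIn (graphOfTable A) a} := by
    induction z using Sym2.ind with
    | h u v =>
      simp only [mk_mem_edgesIn]
      by_cases hu : u ∈ a
      · by_cases hv : v ∈ a
        · simp only [hu, hv, true_and]
          exact measurableSet_adj u v
        · simp [hv]
      · simp [hu]
  by_cases hc : z ∈ c
  · simp only [hc, iff_true]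
    exact hz
  · simp only [hc, iff_false]
    exact hz.compl

lemma measurable_tiltOn_coord (V₀ : Finset (Sym2 ℕ)) (i : Sym2 ℕ) :
    Measurable (fun y : Sym2 ℕ → ℝ => tiltOn V₀ y i) := by
  unfold tiltOn
  split_ifs
  · exact measurable_pi_apply i
  · exact measurable_const

lemma measurable_Mfin (E : Finset (Sym2 ℕ)) (S : Finset ℕ) (V₀ : Finset (Sym2 ℕ)) (e : Sym2 ℕ) :
    Measurable (Mfin E S V₀ e) := by
  unfold Mfin tT tE tW wt
  refine Measurable.sub_const (Measurable.const_mul (Measurable.div ?_ ?_) _) _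
  · refine Finset.measurable_sum _ fun A _ => ?_
    refine Measurable.mul_const (Measurable.const_mul (Real.measurable_exp.comp
      (Measurable.const_mul (Finset.measurable_sum _ fun i _ => measurable_tiltOn_coord V₀ i) _)) _) _
  · refine Finset.measurable_sum _ fun A _ => ?_
    refine Measurable.const_mul (Real.measurable_exp.comp
      (Measurable.const_mul (Finset.measurable_sum _ fun i _ => measurable_tiltOn_coord V₀ i) _)) _

theorem measurable_MG (e : Sym2 ℕ) (r R : ℕ) :
    Measurable (fun p : (ℕ → ℕ → Bool) × (Sym2 ℕ → ℝ) => MG (graphOfTable p.1) e r R p.2) := by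
  classical
  let l : (ℕ → ℕ → Bool) × (Sym2 ℕ → ℝ) → Finset ℕ × Finset ℕ × Finset (Sym2 ℕ) × Finset (Sym2 ℕ) :=
    fun p => (winS (graphOfTable p.1) e R, winS (graphOfTable p.1) e r,
      edgesIn (graphOfTable p.1) (winS (graphOfTable p.1) e R),
      edgesIn (graphOfTable p.1) (winS (graphOfTable p.1) e r))
  refine measurable_of_partition l ?_
    (fun i p => Mfin i.2.2.1 i.1 i.2.2.2 e p.2) ?_ ?_
  · rintro ⟨a, b, c, d⟩
    have : l ⁻¹' {(a, b, c, d)} = Prod.fst ⁻¹'
        ({A | winS (graphOfTable A) e R = a} ∩ {A | winS (graphOfTable A) e r = b} ∩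
          {A | edgesIn (graphOfTable A) a = c} ∩ {A | edgesIn (graphOfTable A) b = d}) := by
      ext p
      simp only [Set.mem_preimage, Set.mem_singleton_iff, Prod.mk.injEq, Set.mem_inter_iff,
        Set.mem_ofPred_eq, l]
      constructor
      · rintro ⟨h1, h2, h3, h4⟩
        rw [← h1, ← h2]
        exact ⟨⟨⟨rfl, rfl⟩, h1 ▸ h3⟩, h2 ▸ h4⟩
      · rintro ⟨⟨⟨h1, h2⟩, h3⟩, h4⟩
        rw [h1, h2]
        exact ⟨rfl, rfl, h3, h4⟩
    rw [this]
    exact measurable_fst (((measurableSet_winS_eq e R a).inter (measurableSet_winS_eq e r b)).inter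
      (measurableSet_edgesIn_eq a c) |>.inter (measurableSet_edgesIn_eq b d))
  · intro i
    exact (measurable_Mfin _ _ _ _).comp measurable_snd
  · intro p
    rfl

theorem measurable_DG (e : Sym2 ℕ) :
    Measurable (fun p : (ℕ → ℕ → Bool) × (Sym2 ℕ → ℝ) => DG (graphOfTable p.1) e p.2) := by
  unfold DG
  exact Measurable.limsup fun r => Measurable.limsup fun R => measurable_MG e r R

end Meas

section EquivS

lemma sum_powerset_map {ι ι' : Type*} [DecidableEq ι] [DecidableEq ι'] (τ : ι' ↪ ι) (V' : Finset ι')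
    (g : Finset ι → ℝ) :
    ∑ A ∈ (V'.map τ).powerset, g A = ∑ A ∈ V'.powerset, g (A.map τ) := by
  refine Finset.sum_bij' (fun A _ => A.preimage τ τ.injective.injOn) (fun A _ => A.map τ) ?_ ?_ ?_ ?_ ?_
  · intro A hA
    rw [Finset.mem_powerset] at hA ⊢
    intro x hx
    have := hA (Finset.mem_preimage.1 hx)
    simpa using this
  · intro A hA
    rw [Finset.mem_powerset] at hA ⊢
    exact Finset.map_subset_map.2 hA
  · intro A hA
    rw [Finset.mem_powerset] at hA
    ext x
    simp only [Finset.mem_map, Finset.mem_preimage]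
    constructor
    · rintro ⟨a, ha, rfl⟩
      exact ha
    · intro hx
      obtain ⟨a, _, rfl⟩ := Finset.mem_map.1 (hA hx)
      exact ⟨a, hx, rfl⟩
  · intro A _
    ext x
    simp
  · intro A hA
    rw [Finset.mem_powerset] at hA
    congr 1
    ext x
    simp only [Finset.mem_map, Finset.mem_preimage]
    constructor
    · intro hx
      obtain ⟨a, _, rfl⟩ := Finset.mem_map.1 (hA hx)
      exact ⟨a, hx, rfl⟩
    · rintro ⟨a, ha, rfl⟩
      exact ha

lemma tT_map {ι ι' : Type*} [DecidableEq ι] [DecidableEq ι'] (τ : ι' ↪ ι) (p : Finset ι → ℝ)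
    (p' : Finset ι' → ℝ) (V' : Finset ι') (hp : ∀ A, p (A.map τ) = p' A) (e : ι') (y : ι → ℝ)
    (y' : ι' → ℝ) (hy : ∀ i, y (τ i) = y' i) :
    tT p (V'.map τ) (τ e) y = tT p' V' e y' := by
  have hwt : ∀ A : Finset ι', wt p y (A.map τ) = wt p' y' A := by
    intro A
    unfold wt
    rw [hp, Finset.sum_map]
    simp only [hy]
  have hind : ∀ A : Finset ι', ind (τ e) (A.map τ) = ind e A := by
    intro A
    unfold ind
    simp only [Finset.mem_map']
  unfold tT tE tW
  rw [sum_powerset_map, sum_powerset_map]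
  simp only [hwt, hind]

variable (σ : Equiv.Perm ℕ)

/-- the action on unordered pairs -/
def shE : Sym2 ℕ ↪ Sym2 ℕ := ⟨Sym2.map σ, Sym2.map.injective σ.injective⟩

@[simp] lemma shE_apply (z : Sym2 ℕ) : shE σ z = Sym2.map σ z := rfl

lemma shE_surj (z : Sym2 ℕ) : ∃ z', shE σ z' = z := by
  refine ⟨Sym2.map σ.symm z, ?_⟩
  induction z using Sym2.ind with
  | h a b => simp

lemma ctr_map (e : Sym2 ℕ) : σ ⁻¹' ctr (Sym2.map σ e) = ctr e := by
  induction e using Sym2.ind with
  | h a b =>
    ext x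
    simp [ctr]

lemma winS_map (G : SimpleGraph ℕ) (e : Sym2 ℕ) (k : ℕ) :
    winS G (Sym2.map σ e) k = (winS (G.comap σ) e k).map σ.toEmbedding := by
  classical
  have hb : ballS (G.comap σ) (ctr e) k = σ ⁻¹' ballS G (ctr (Sym2.map σ e)) k := by
    rw [← ballS_comap, ctr_map]
  unfold winS
  by_cases h : (ballS G (ctr (Sym2.map σ e)) k).Finite
  · have h' : (ballS (G.comap σ) (ctr e) k).Finite := by
      rw [hb]
      exact h.preimage σ.injective.injOn
    rw [dif_pos h, dif_pos h']
    ext x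
    simp only [Set.Finite.mem_toFinset, Finset.mem_map, Equiv.coe_toEmbedding]
    constructor
    · intro hx
      refine ⟨σ.symm x, ?_, by simp⟩
      rw [hb]
      simpa using hx
    · rintro ⟨a, ha, rfl⟩
      rw [hb] at ha
      exact ha
  · have h' : ¬ (ballS (G.comap σ) (ctr e) k).Finite := by
      rw [hb]
      intro h2
      apply h
      have := h2.image σ
      rwa [Set.image_preimage_eq _ σ.surjective] at this
    rw [dif_neg h, dif_neg h']
    simp

lemma edgesIn_map (G : SimpleGraph ℕ) (S : Finset ℕ) :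
    edgesIn G (S.map σ.toEmbedding) = (edgesIn (G.comap σ) S).map (shE σ) := by
  ext z
  obtain ⟨z', rfl⟩ := shE_surj σ z
  rw [Finset.mem_map' (shE σ)]
  induction z' using Sym2.ind with
  | h a b =>
    simp only [shE_apply, Sym2.map_mk, mk_mem_edgesIn]
    have h1 : ∀ x, σ x ∈ S.map σ.toEmbedding ↔ x ∈ S := fun x => by
      rw [← Equiv.coe_toEmbedding, Finset.mem_map']
    simp only [SimpleGraph.comap_adj, h1]

lemma treeIndE_map (E S : _) (A : Finset (Sym2 ℕ)) :
    treeIndE (E.map (shE σ)) (S.map σ.toEmbedding) (A.map (shE σ)) = treeIndE E S A := by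
  classical
  unfold treeIndE
  have h1 : A.map (shE σ) ⊆ E.map (shE σ) ↔ A ⊆ E := Finset.map_subset_map
  have iso : (SimpleGraph.fromEdgeSet (A : Set (Sym2 ℕ))).induce (S : Set ℕ) ≃g
      (SimpleGraph.fromEdgeSet ((A.map (shE σ) : Finset _) : Set (Sym2 ℕ))).induce
        ((S.map σ.toEmbedding : Finset ℕ) : Set ℕ) := by
    refine ⟨Equiv.subtypeEquiv σ ?_, ?_⟩
    · intro a
      simp only [Finset.mem_coe]
      rw [← Equiv.coe_toEmbedding, Finset.mem_map']
    · intro a b
      simp only [SimpleGraph.comap_adj, Function.Embedding.subtype_apply, Equiv.subtypeEquiv_apply,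
        SimpleGraph.fromEdgeSet_adj, Finset.mem_coe, ne_eq]
      have h2 : s(σ a.1, σ b.1) = shE σ s(a.1, b.1) := by simp
      rw [h2, Finset.mem_map', σ.injective.eq_iff]
  exact if_congr (and_congr h1 iso.isTree_iff.symm) rfl rfl

lemma tiltOn_map (V₀ : Finset (Sym2 ℕ)) (y : Sym2 ℕ → ℝ) (i : Sym2 ℕ) :
    tiltOn (V₀.map (shE σ)) y (shE σ i) = tiltOn V₀ (y ∘ Sym2.map σ) i := by
  unfold tiltOn
  have h1 : Sym2.map σ i ∈ V₀.map (shE σ) ↔ i ∈ V₀ := Finset.mem_map' (shE σ)
  simp only [h1, Function.comp, shE_apply]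

lemma Mfin_map (E S V₀ : _) (e : Sym2 ℕ) (y : Sym2 ℕ → ℝ) :
    Mfin (E.map (shE σ)) (S.map σ.toEmbedding) (V₀.map (shE σ)) (Sym2.map σ e) y =
      Mfin E S V₀ e (y ∘ Sym2.map σ) := by
  unfold Mfin
  congr 2
  exact tT_map (shE σ) _ _ E (treeIndE_map σ E S) e _ _ (tiltOn_map σ V₀ y)

lemma MG_map (G : SimpleGraph ℕ) (e : Sym2 ℕ) (r R : ℕ) (y : Sym2 ℕ → ℝ) :
    MG G (Sym2.map σ e) r R y = MG (G.comap σ) e r R (y ∘ Sym2.map σ) := by
  unfold MG
  rw [winS_map, winS_map, edgesIn_map, edgesIn_map, Mfin_map]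

/-- equivariance of the drift -/
theorem DG_map (G : SimpleGraph ℕ) (e : Sym2 ℕ) (y : Sym2 ℕ → ℝ) :
    DG G (Sym2.map σ e) y = DG (G.comap σ) e (y ∘ Sym2.map σ) := by
  unfold DG
  simp only [MG_map]

end EquivS

section Limit

variable {G : SimpleGraph ℕ}

lemma ctr_finite (e : Sym2 ℕ) : (ctr e).Finite := by
  induction e using Sym2.ind with
  | h a b =>
    have : ctr s(a, b) = {a, b} := by
      ext x
      simp [ctr]
    rw [this]
    exact Set.toFinite _

lemma coe_winS (hlf : ∀ v, (G.neighborSet v).Finite) (e : Sym2 ℕ) (k : ℕ) :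
    (winS G e k : Set ℕ) = ballS G (ctr e) k := by
  have h := ballS_finite (G := G) (ctr_finite e) hlf k
  unfold winS
  rw [dif_pos h]
  exact h.coe_toFinset

lemma mem_winS (hlf : ∀ v, (G.neighborSet v).Finite) {e : Sym2 ℕ} {k x : ℕ} :
    x ∈ winS G e k ↔ x ∈ ballS G (ctr e) k := by
  rw [← coe_winS hlf e k]
  rfl

lemma winS_mono (hlf : ∀ v, (G.neighborSet v).Finite) (e : Sym2 ℕ) : Monotone (winS G e) := by
  intro a b hab x hx
  rw [mem_winS hlf] at hx ⊢
  exact ballS_mono hab hx

lemma winS_connected (hlf : ∀ v, (G.neighborSet v).Finite) {e : Sym2 ℕ} (he : e ∈ G.edgeSet) (k : ℕ) :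
    (G.induce (winS G e k : Set ℕ)).Connected := by
  rw [coe_winS hlf]
  apply ballS_connected
  induction e using Sym2.ind with
  | h a b => exact connected_edge_center he

lemma mem_edgesIn_winS (hlf : ∀ v, (G.neighborSet v).Finite) {e : Sym2 ℕ} (he : e ∈ G.edgeSet) (k : ℕ) :
    e ∈ edgesIn G (winS G e k) := by
  induction e using Sym2.ind with
  | h a b =>
    refine mk_mem_edgesIn.2 ⟨?_, ?_, he⟩
    · rw [mem_winS hlf]
      exact ballS_mono (Nat.zero_le k) (show a ∈ ballS G (ctr s(a, b)) 0 by simp [ballS, ctr])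
    · rw [mem_winS hlf]
      exact ballS_mono (Nat.zero_le k) (show b ∈ ballS G (ctr s(a, b)) 0 by simp [ballS, ctr])

lemma winS_exhaust (hG : G.Connected) (hlf : ∀ v, (G.neighborSet v).Finite) (e : Sym2 ℕ) (x : ℕ) :
    ∃ k, x ∈ winS G e k := by
  induction e using Sym2.ind with
  | h a b =>
    obtain ⟨k, hk⟩ := exists_mem_ballS (c := ctr s(a, b)) hG (u := a) (by simp [ctr]) x
    exact ⟨k, (mem_winS hlf).2 hk⟩

lemma MG_eq_meanOn (hlf : ∀ v, (G.neighborSet v).Finite) {e : Sym2 ℕ} (he : e ∈ G.edgeSet) (r R : ℕ)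
    (y : Sym2 ℕ → ℝ) :
    MG G e r R y = meanOn (ustLaw G (winS G e R)) (edgesIn G (winS G e r)) e y := by
  have h := meanOn_ustLaw (winS_connected hlf he R) (mem_edgesIn_winS hlf he r) y
  rw [h]
  unfold MG Mfin
  rw [treeInd_eq]

lemma abs_MG_le (hlf : ∀ v, (G.neighborSet v).Finite) {e : Sym2 ℕ} (he : e ∈ G.edgeSet) (r R : ℕ)
    (y : Sym2 ℕ → ℝ) : |MG G e r R y| ≤ 1 := by
  have := ustLaw_prob (winS_connected hlf he R)
  rw [MG_eq_meanOn hlf he]
  exact abs_meanOn_le _ _ _ _

lemma MG_lipschitz (hlf : ∀ v, (G.neighborSet v).Finite) {e : Sym2 ℕ} (he : e ∈ G.edgeSet) (r R : ℕ)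
    (y y' : Sym2 ℕ → ℝ) (C : ℝ) (hC : ∀ f ∈ G.edgeSet, |y f - y' f| ≤ C) :
    |MG G e r R y - MG G e r R y'| ≤ 2 * C := by
  unfold MG Mfin
  rw [← treeInd_eq]
  have hC0 : 0 ≤ C := (abs_nonneg _).trans (hC e he)
  have h := tT_lipschitz (p := treeInd G (winS G e R)) (V := edgesIn G (winS G e R))
    (treeInd_nonneg G _) (stable_treeInd (winS_connected hlf he R)) (mem_edgesIn_winS hlf he R)
    (exists_tree (winS_connected hlf he R)) (tiltOn (edgesIn G (winS G e r)) y)
    (tiltOn (edgesIn G (winS G e r)) y') C (by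
      intro f _
      unfold tiltOn
      split_ifs with hf
      · exact hC f (mem_edgesIn.1 hf).2
      · simpa using hC0)
  have h2 : (2 * tT (treeInd G (winS G e R)) (edgesIn G (winS G e R)) e (tiltOn (edgesIn G (winS G e r)) y) - 1) -
      (2 * tT (treeInd G (winS G e R)) (edgesIn G (winS G e R)) e (tiltOn (edgesIn G (winS G e r)) y') - 1) =
      2 * (tT (treeInd G (winS G e R)) (edgesIn G (winS G e R)) e (tiltOn (edgesIn G (winS G e r)) y) -
        tT (treeInd G (winS G e R)) (edgesIn G (winS G e R)) e (tiltOn (edgesIn G (winS G e r)) y')) := by ring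
  rw [h2, abs_mul, abs_two]
  linarith

/-- The convergence of the tilted means as the outer window grows. -/
lemma tendsto_MG (hG : G.Connected) (hlf : ∀ v, (G.neighborSet v).Finite) {e : Sym2 ℕ}
    (he : e ∈ G.edgeSet) (r : ℕ) (y : Sym2 ℕ → ℝ) {ν : Measure (Sym2 ℕ → Bool)} [IsProbabilityMeasure ν]
    (hν : ∀ F : Finset (Sym2 ℕ), (F : Set (Sym2 ℕ)) ⊆ G.edgeSet → incP ν F = rhoInf G F) :
    Tendsto (fun R => MG G e r R y) atTop (𝓝 (meanOn ν (edgesIn G (winS G e r)) e y)) := by
  have : ∀ R, IsProbabilityMeasure (ustLaw G (winS G e R)) := fun R =>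
    ustLaw_prob (winS_connected hlf he R)
  simp_rw [MG_eq_meanOn hlf he]
  apply tendsto_meanOn_of_incP ν _ (mem_edgesIn_winS hlf he r)
  intro F hF
  have hFG : (F : Set (Sym2 ℕ)) ⊆ G.edgeSet := fun z hz => (mem_edgesIn.1 (hF hz)).2
  rw [hν F hFG]
  simp_rw [incP_ustLaw]
  exact tendsto_ust (winS_mono hlf e) (winS_exhaust hG hlf e)
    (fun n => winS_connected hlf he n) hFG

lemma MG_congr {e : Sym2 ℕ} (r R : ℕ) {y y' : Sym2 ℕ → ℝ}
    (h : ∀ f ∈ G.edgeSet, y f = y' f) : MG G e r R y = MG G e r R y' := by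
  unfold MG Mfin
  congr 3
  funext f
  unfold tiltOn
  split_ifs with hf
  · exact h f (mem_edgesIn.1 hf).2
  · rfl

lemma DG_congr {e : Sym2 ℕ} {y y' : Sym2 ℕ → ℝ}
    (h : ∀ f ∈ G.edgeSet, y f = y' f) : DG G e y = DG G e y' := by
  unfold DG
  simp only [MG_congr _ _ h]

end Limit

section Transfer

variable (G : SimpleGraph ℕ)

open Classical in
/-- extension by zero off the edges -/
noncomputable def extY (y : G.edgeSet → ℝ) : Sym2 ℕ → ℝ :=
  fun z => if h : z ∈ G.edgeSet then y ⟨z, h⟩ else 0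

lemma extY_val (y : G.edgeSet → ℝ) (e : G.edgeSet) : extY G y e.1 = y e := by
  unfold extY
  rw [dif_pos e.2]

lemma extY_of_mem (y : Sym2 ℕ → ℝ) {f : Sym2 ℕ} (hf : f ∈ G.edgeSet) :
    extY G (fun e : G.edgeSet => y e.1) f = y f := by
  unfold extY
  rw [dif_pos hf]

/-- the drift on the edge index set -/
noncomputable def DI (e : G.edgeSet) (y : G.edgeSet → ℝ) : ℝ := DG G e.1 (extY G y)

open Classical in
/-- the windows on the edge index set -/
noncomputable def UI (e : G.edgeSet) (n : ℕ) : Finset G.edgeSet :=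
  (edgesIn G (winS G e.1 n)).subtype (· ∈ G.edgeSet)

/-- restriction of configurations to edges -/
noncomputable def nuI (ν : Measure (Sym2 ℕ → Bool)) : Measure (G.edgeSet → Bool) :=
  ν.map (fun ω (f : G.edgeSet) => ω f.1)

lemma measurable_resI : Measurable (fun (ω : Sym2 ℕ → Bool) (f : G.edgeSet) => ω f.1) :=
  measurable_pi_iff.2 fun f => measurable_pi_apply _

instance nuI_prob (ν : Measure (Sym2 ℕ → Bool)) [IsProbabilityMeasure ν] :
    IsProbabilityMeasure (nuI G ν) :=
  Measure.isProbabilityMeasure_map (measurable_resI G).aemeasurable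

open Classical in
lemma meanOn_nuI (ν : Measure (Sym2 ℕ → Bool)) [IsProbabilityMeasure ν] (V : Finset (Sym2 ℕ))
    (hV : ∀ f ∈ V, f ∈ G.edgeSet) (e : G.edgeSet) (he : e.1 ∈ V) (y : G.edgeSet → ℝ) :
    meanOn (nuI G ν) (V.subtype (· ∈ G.edgeSet)) e y = meanOn ν V e.1 (extY G y) := by
  have he' : e ∈ V.subtype (· ∈ G.edgeSet) := Finset.mem_subtype.2 he
  rw [meanOn_eq_integral _ _ he', meanOn_eq_integral _ _ he]
  have htilt : ∀ x : Sym2 ℕ → Bool, tiltExp (V.subtype (· ∈ G.edgeSet)) y (fun f => x f.1) =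
      tiltExp V (extY G y) x := by
    intro x
    unfold tiltExp
    congr 1
    have h1 := Finset.sum_subtype_of_mem (s := V) (p := (· ∈ G.edgeSet))
      (fun f => extY G y f * spin (x f)) hV
    rw [← h1]
    apply Finset.sum_congr rfl
    intro f _
    rw [extY_val]
  unfold nuI
  rw [integral_map (measurable_resI G).aemeasurable, integral_map (measurable_resI G).aemeasurable]
  · simp only [htilt]
  · exact (measurable_tiltExp _ _).aestronglyMeasurable
  · exact ((measurable_spin.comp (measurable_pi_apply e)).mul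
      (measurable_tiltExp _ _)).aestronglyMeasurable

theorem driftData_DI (hG : G.Connected) (hlf : ∀ v, (G.neighborSet v).Finite)
    {ν : Measure (Sym2 ℕ → Bool)} [IsProbabilityMeasure ν]
    (hν : ∀ F : Finset (Sym2 ℕ), (F : Set (Sym2 ℕ)) ⊆ G.edgeSet → incP ν F = rhoInf G F) :
    DriftData (nuI G ν) (DI G) (UI G) 2 where
  L_nonneg := by norm_num
  lip := by
    intro e y y' C hC
    unfold DI DG
    have hb : ∀ (y : Sym2 ℕ → ℝ) r, |limsup (fun R => MG G e.1 r R y) atTop| ≤ 1 :=
      fun y r => abs_limsup_le fun R => abs_MG_le hlf e.2 r R y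
    refine abs_limsup_sub_le (fun r => hb _ r) (fun r => hb _ r) fun r => ?_
    refine abs_limsup_sub_le (fun R => abs_MG_le hlf e.2 r R _) (fun R => abs_MG_le hlf e.2 r R _)
      fun R => ?_
    refine MG_lipschitz hlf e.2 r R _ _ C ?_
    intro f hf
    unfold extY
    rw [dif_pos hf, dif_pos hf]
    exact hC _
  mono := by
    classical
    intro e a b hab f hf
    unfold UI at hf ⊢
    rw [Finset.mem_subtype] at hf ⊢
    exact edgesIn_mono (winS_mono hlf e.1 hab) hf
  exh := by
    classical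
    intro e f
    obtain ⟨f, hf⟩ := f
    unfold UI
    induction f using Sym2.ind with
    | h a b =>
      obtain ⟨k₁, hk₁⟩ := winS_exhaust hG hlf e.1 a
      obtain ⟨k₂, hk₂⟩ := winS_exhaust hG hlf e.1 b
      refine ⟨max k₁ k₂, Finset.mem_subtype.2 (mk_mem_edgesIn.2 ⟨?_, ?_, hf⟩)⟩
      · exact winS_mono hlf e.1 (le_max_left _ _) hk₁
      · exact winS_mono hlf e.1 (le_max_right _ _) hk₂
  lim := by
    classical
    intro e y
    unfold DI DG
    congr 1
    funext r
    unfold UI
    rw [meanOn_nuI G ν _ (fun f hf => (mem_edgesIn.1 hf).2) e (mem_edgesIn_winS hlf e.2 r) y]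
    exact (tendsto_MG hG hlf e.2 r _ hν).limsup_eq

end Transfer

end Crest.Agent.H5SL
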