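import Crest.Agent.H5SLWiener
import Crest.Agent.H5SLGraphDrift
import Crest.Prelude.Def_Labels

/-!
Independent noise on the edges of a locally finite graph read from independent vertex labels,
equivariantly: an edge reads a fresh coordinate of the label of its lower endpoint, at a position
given by the rank of the other endpoint among the neighbours.
-/

set_option autoImplicit false
set_option linter.unusedSectionVars false
set_option linter.unusedVariables false

open MeasureTheory Filter Topology Crest.ProbabilityR.GraphTables Crest.ProbabilityR.Labels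
open scoped ENNReal

namespace Crest.Agent.H5SL

section Rank

/-- the rank of `v` among the neighbours of `u` -/
noncomputable def rankE (G : SimpleGraph ℕ) (a : ℕ → unitInterval) (u v : ℕ) : ℕ :=
  Set.ncard {w | G.Adj u w ∧ a w < a v}

lemma measurableSet_ncard_eq {Q : Type*} [MeasurableSpace Q] (P : Q → ℕ → Prop)
    (hP : ∀ w, MeasurableSet {q | P q w}) (k : ℕ) :
    MeasurableSet {q | {w | P q w}.ncard = k} := by
  classical
  have hT : ∀ T : Finset ℕ, MeasurableSet {q | {w | P q w} = (T : Set ℕ)} := by
    intro T
    have : {q | {w | P q w} = (T : Set ℕ)} = ⋂ w : ℕ, {q | P q w ↔ w ∈ T} := by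
      ext q
      simp only [Set.mem_ofPred_eq, Set.mem_iInter, Set.ext_iff, Finset.mem_coe]
    rw [this]
    refine MeasurableSet.iInter fun w => ?_
    by_cases hw : w ∈ T
    · simp only [hw, iff_true]
      exact hP w
    · simp only [hw, iff_false]
      exact (hP w).compl
  have hpos : ∀ k : ℕ, k ≠ 0 → MeasurableSet {q | {w | P q w}.ncard = k} := by
    intro k hk
    have : {q | {w | P q w}.ncard = k} = ⋃ T : Finset ℕ, ⋃ _ : T.card = k, {q | {w | P q w} = (T : Set ℕ)} := by
      ext q
      simp only [Set.mem_ofPred_eq, Set.mem_iUnion, exists_prop]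
      constructor
      · intro h
        have hfin : {w | P q w}.Finite := Set.finite_of_ncard_ne_zero (by rw [h]; exact hk)
        refine ⟨hfin.toFinset, ?_, hfin.coe_toFinset.symm⟩
        rw [← Set.ncard_eq_toFinset_card _ hfin]
        exact h
      · rintro ⟨T, hT', h⟩
        rw [h, Set.ncard_coe_finset]
        exact hT'
    rw [this]
    exact MeasurableSet.iUnion fun T => MeasurableSet.iUnion fun _ => hT T
  by_cases hk : k = 0
  · subst hk
    have : {q | {w | P q w}.ncard = 0} = (⋃ k : {k : ℕ // k ≠ 0}, {q | {w | P q w}.ncard = k.1})ᶜ := by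
      ext q
      simp only [Set.mem_ofPred_eq, Set.mem_compl_iff, Set.mem_iUnion, not_exists]
      constructor
      · intro h k hk
        rw [h] at hk
        exact k.2 hk.symm
      · intro h
        by_contra h2
        exact h ⟨_, h2⟩ rfl
    rw [this]
    exact (MeasurableSet.iUnion fun k : {k : ℕ // k ≠ 0} => hpos k.1 k.2).compl
  · exact hpos k hk

lemma measurableSet_rankE (u v k : ℕ) :
    MeasurableSet {q : (ℕ → ℕ → Bool) × (ℕ → unitInterval) | rankE (graphOfTable q.1) q.2 u v = k} := by
  refine measurableSet_ncard_eq (fun (q : (ℕ → ℕ → Bool) × (ℕ → unitInterval)) w =>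
    (graphOfTable q.1).Adj u w ∧ q.2 w < q.2 v) ?_ k
  intro w
  have h1 : MeasurableSet {q : (ℕ → ℕ → Bool) × (ℕ → unitInterval) | (graphOfTable q.1).Adj u w} :=
    measurable_fst (measurableSet_adj u w)
  have h2 : MeasurableSet {q : (ℕ → ℕ → Bool) × (ℕ → unitInterval) | q.2 w < q.2 v} :=
    measurableSet_lt ((measurable_pi_apply w).comp measurable_snd)
      ((measurable_pi_apply v).comp measurable_snd)
  exact h1.inter h2

lemma rankE_comap (σ : Equiv.Perm ℕ) (G : SimpleGraph ℕ) (a : ℕ → unitInterval) (u v : ℕ) :
    rankE (G.comap σ) (a ∘ σ) u v = rankE G a (σ u) (σ v) := by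
  unfold rankE
  have : {w | G.Adj (σ u) w ∧ a w < a (σ v)} = σ '' {w | (G.comap σ).Adj u w ∧ (a ∘ σ) w < (a ∘ σ) v} := by
    ext w
    constructor
    · intro hw
      exact ⟨σ.symm w, by simpa using hw, by simp⟩
    · rintro ⟨w', hw', rfl⟩
      exact hw'
  rw [this, Set.ncard_image_of_injective _ σ.injective]

lemma rankE_lt {G : SimpleGraph ℕ} {a : ℕ → unitInterval} {u v v' : ℕ}
    (hlf : (G.neighborSet u).Finite) (hv : G.Adj u v) (h : a v < a v') :
    rankE G a u v < rankE G a u v' := by
  unfold rankE
  apply Set.ncard_lt_ncard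
  · constructor
    · rintro w ⟨h1, h2⟩
      exact ⟨h1, h2.trans h⟩
    · intro h3
      have := h3 ⟨hv, h⟩
      exact lt_irrefl _ this.2
  · exact hlf.subset fun w hw => hw.1

end Rank

section Code

variable (f : unitInterval → Code)

/-- the code of a pair -/
noncomputable def nc (G : SimpleGraph ℕ) (a : ℕ → unitInterval) (b : ℕ × ℕ → unitInterval) (u v : ℕ) :
    Code :=
  if a u < a v then f (b (u, rankE G a u v))
  else if a v < a u then f (b (v, rankE G a v u)) else 0

lemma nc_symm (G : SimpleGraph ℕ) (a : ℕ → unitInterval) (b : ℕ × ℕ → unitInterval) (u v : ℕ) :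
    nc f G a b u v = nc f G a b v u := by
  unfold nc
  by_cases h1 : a u < a v
  · rw [if_pos h1, if_neg (lt_asymm h1), if_pos h1]
  · rw [if_neg h1]
    by_cases h2 : a v < a u
    · rw [if_pos h2, if_pos h2]
    · rw [if_neg h2, if_neg h2, if_neg h1]

/-- the code of an unordered pair -/
noncomputable def codeE (G : SimpleGraph ℕ) (a : ℕ → unitInterval) (b : ℕ × ℕ → unitInterval) :
    Sym2 ℕ → Code :=
  Sym2.lift ⟨nc f G a b, nc_symm f G a b⟩

@[simp] lemma codeE_mk (G : SimpleGraph ℕ) (a : ℕ → unitInterval) (b : ℕ × ℕ → unitInterval) (u v : ℕ) :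
    codeE f G a b s(u, v) = nc f G a b u v := rfl

lemma codeE_comap (σ : Equiv.Perm ℕ) (G : SimpleGraph ℕ) (a : ℕ → unitInterval)
    (b : ℕ × ℕ → unitInterval) (z : Sym2 ℕ) :
    codeE f (G.comap σ) (a ∘ σ) (fun q => b (σ q.1, q.2)) z = codeE f G a b (Sym2.map σ z) := by
  induction z using Sym2.ind with
  | h u v =>
    simp only [codeE_mk, Sym2.map_mk]
    unfold nc
    simp only [rankE_comap, Function.comp]

lemma measurable_nc (hf : Measurable f) (u v : ℕ) :
    Measurable (fun q : (ℕ → ℕ → Bool) × (ℕ → unitInterval) × (ℕ × ℕ → unitInterval) =>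
      nc f (graphOfTable q.1) q.2.1 q.2.2 u v) := by
  have hleaf : ∀ u v : ℕ, Measurable (fun q : (ℕ → ℕ → Bool) × (ℕ → unitInterval) × (ℕ × ℕ → unitInterval) =>
      f (q.2.2 (u, rankE (graphOfTable q.1) q.2.1 u v))) := by
    intro u v
    refine measurable_of_partition (fun q : (ℕ → ℕ → Bool) × (ℕ → unitInterval) × (ℕ × ℕ → unitInterval) =>
      rankE (graphOfTable q.1) q.2.1 u v) ?_ (fun k q => f (q.2.2 (u, k))) ?_ ?_
    · intro k
      have hm : Measurable (fun q : (ℕ → ℕ → Bool) × (ℕ → unitInterval) × (ℕ × ℕ → unitInterval) =>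
          (q.1, q.2.1)) := measurable_fst.prodMk (measurable_fst.comp measurable_snd)
      exact hm (measurableSet_rankE u v k)
    · intro k
      exact hf.comp ((measurable_pi_apply _).comp (measurable_snd.comp measurable_snd))
    · intro q
      rfl
  have hlt : ∀ u v : ℕ, MeasurableSet {q : (ℕ → ℕ → Bool) × (ℕ → unitInterval) × (ℕ × ℕ → unitInterval) |
      q.2.1 u < q.2.1 v} := by
    intro u v
    exact measurableSet_lt ((measurable_pi_apply u).comp (measurable_fst.comp measurable_snd))
      ((measurable_pi_apply v).comp (measurable_fst.comp measurable_snd))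
  unfold nc
  exact Measurable.ite (hlt u v) (hleaf u v) (Measurable.ite (hlt v u) (hleaf v u) measurable_const)

lemma measurable_codeE (hf : Measurable f) (z : Sym2 ℕ) :
    Measurable (fun q : (ℕ → ℕ → Bool) × (ℕ → unitInterval) × (ℕ × ℕ → unitInterval) =>
      codeE f (graphOfTable q.1) q.2.1 q.2.2 z) := by
  induction z using Sym2.ind with
  | h u v => exact measurable_nc f hf u v

/-- the position read by a pair -/
noncomputable def ownR (G : SimpleGraph ℕ) (a : ℕ → unitInterval) (u v : ℕ) : ℕ × ℕ :=
  if a u < a v then (u, rankE G a u v)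
  else if a v < a u then (v, rankE G a v u) else (0, 0)

lemma ownR_symm (G : SimpleGraph ℕ) (a : ℕ → unitInterval) (u v : ℕ) : ownR G a u v = ownR G a v u := by
  unfold ownR
  by_cases h1 : a u < a v
  · rw [if_pos h1, if_neg (lt_asymm h1), if_pos h1]
  · rw [if_neg h1]
    by_cases h2 : a v < a u
    · rw [if_pos h2, if_pos h2]
    · rw [if_neg h2, if_neg h2, if_neg h1]

/-- the position read by an unordered pair -/
noncomputable def own (G : SimpleGraph ℕ) (a : ℕ → unitInterval) : Sym2 ℕ → ℕ × ℕ :=
  Sym2.lift ⟨ownR G a, ownR_symm G a⟩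

@[simp] lemma own_mk (G : SimpleGraph ℕ) (a : ℕ → unitInterval) (u v : ℕ) :
    own G a s(u, v) = ownR G a u v := rfl

lemma codeE_eq_own {G : SimpleGraph ℕ} {a : ℕ → unitInterval} (ha : Function.Injective a)
    (b : ℕ × ℕ → unitInterval) {z : Sym2 ℕ} (hz : z ∈ G.edgeSet) :
    codeE f G a b z = f (b (own G a z)) := by
  induction z using Sym2.ind with
  | h u v =>
    have huv : u ≠ v := G.ne_of_adj hz
    have hne : a u ≠ a v := fun h => huv (ha h)
    simp only [codeE_mk, own_mk]
    unfold nc ownR
    rcases lt_or_gt_of_ne hne with h | h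
    · rw [if_pos h, if_pos h]
    · rw [if_neg (lt_asymm h), if_pos h, if_neg (lt_asymm h), if_pos h]

lemma own_inj {G : SimpleGraph ℕ} {a : ℕ → unitInterval} (hlf : ∀ v, (G.neighborSet v).Finite)
    (ha : Function.Injective a) : Set.InjOn (own G a) G.edgeSet := by
  have key : ∀ z ∈ G.edgeSet, ∃ u v, z = s(u, v) ∧ G.Adj u v ∧ a u < a v ∧ own G a z = (u, rankE G a u v) := by
    intro z hz
    induction z using Sym2.ind with
    | h u v =>
      have huv : u ≠ v := G.ne_of_adj hz
      have hne : a u ≠ a v := fun h => huv (ha h)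
      rcases lt_or_gt_of_ne hne with h | h
      · refine ⟨u, v, rfl, hz, h, ?_⟩
        simp only [own_mk, ownR, if_pos h]
      · refine ⟨v, u, Sym2.eq_swap, SimpleGraph.Adj.symm hz, h, ?_⟩
        simp only [own_mk, ownR, if_neg (lt_asymm h), if_pos h]
  intro z hz z' hz' hzz
  obtain ⟨u, v, rfl, hadj, hlt, hown⟩ := key z hz
  obtain ⟨u', v', rfl, hadj', hlt', hown'⟩ := key z' hz'
  rw [hown, hown'] at hzz
  obtain ⟨rfl, hr⟩ := Prod.mk.inj hzz
  have hvv : v = v' := by
    by_contra hne
    have hane : a v ≠ a v' := fun h => hne (ha h)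
    rcases lt_or_gt_of_ne hane with h | h
    · have := rankE_lt (hlf u) hadj h
      omega
    · have := rankE_lt (hlf u) hadj' h
      omega
  rw [hvv]

end Code

section Law

instance labelMeasure_prob (X : Type*) : IsProbabilityMeasure (labelMeasure X) := by
  unfold labelMeasure
  infer_instance

/-- merging two families of labels -/
def mergeL (p : (ℕ → unitInterval) × (ℕ × ℕ → unitInterval)) (j : ℕ × Option ℕ) : unitInterval :=
  j.2.elim (p.1 j.1) (fun i => p.2 (j.1, i))

lemma measurable_mergeL : Measurable mergeL := by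
  refine measurable_pi_iff.2 ?_
  rintro ⟨v, o⟩
  cases o with
  | none => exact (measurable_pi_apply v).comp measurable_fst
  | some i => exact (measurable_pi_apply (v, i)).comp measurable_snd

/-- splitting a family of labels -/
def splitL (z : ℕ × Option ℕ → unitInterval) : (ℕ → unitInterval) × (ℕ × ℕ → unitInterval) :=
  (fun v => z (v, none), fun q => z (q.1, some q.2))

lemma measurable_splitL : Measurable splitL := by
  refine Measurable.prodMk ?_ ?_
  · exact measurable_pi_iff.2 fun v => measurable_pi_apply _
  · exact measurable_pi_iff.2 fun q => measurable_pi_apply _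

theorem map_mergeL :
    ((labelMeasure ℕ).prod (labelMeasure (ℕ × ℕ))).map mergeL = labelMeasure (ℕ × Option ℕ) := by
  classical
  refine Measure.eq_infinitePi _ ?_
  intro s t ht
  let f₁ : ℕ → ℕ × Option ℕ := fun v => (v, none)
  let f₂ : ℕ × ℕ → ℕ × Option ℕ := fun q => (q.1, some q.2)
  have hf₁ : Function.Injective f₁ := fun a b h => (Prod.mk.inj h).1
  have hf₂ : Function.Injective f₂ := by
    rintro ⟨a, b⟩ ⟨c, d⟩ h
    obtain ⟨h1, h2⟩ := Prod.mk.inj h
    have h3 : b = d := Option.some.inj h2
    rw [show a = c from h1, h3]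
  let s₁ := s.preimage f₁ hf₁.injOn
  let s₂ := s.preimage f₂ hf₂.injOn
  have hpre : mergeL ⁻¹' Set.pi s t =
      (Set.pi s₁ (fun v => t (f₁ v))) ×ˢ (Set.pi s₂ (fun q => t (f₂ q))) := by
    ext ⟨a, b⟩
    simp only [Set.mem_preimage, Set.mem_pi, Finset.mem_coe, Set.mem_prod]
    constructor
    · intro h
      refine ⟨fun v hv => ?_, fun q hq => ?_⟩
      · exact h (f₁ v) (Finset.mem_preimage.1 hv)
      · exact h (f₂ q) (Finset.mem_preimage.1 hq)
    · rintro ⟨h1, h2⟩ ⟨v, o⟩ hj
      cases o with
      | none => exact h1 v (Finset.mem_preimage.2 hj)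
      | some i => exact h2 (v, i) (Finset.mem_preimage.2 hj)
  rw [Measure.map_apply measurable_mergeL (MeasurableSet.pi s.countable_toSet fun i _ => ht i), hpre,
    Measure.prod_prod]
  unfold labelMeasure
  rw [Measure.infinitePi_pi _ (fun i _ => ht _), Measure.infinitePi_pi _ (fun i _ => ht _)]
  have hprod1 : ∏ v ∈ s₁, (volume : Measure unitInterval) (t (f₁ v)) =
      ∏ j ∈ s.filter (· ∈ Set.range f₁), (volume : Measure unitInterval) (t j) :=
    Finset.prod_preimage' f₁ s hf₁.injOn (fun j => (volume : Measure unitInterval) (t j))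
  have hprod2 : ∏ q ∈ s₂, (volume : Measure unitInterval) (t (f₂ q)) =
      ∏ j ∈ s.filter (· ∈ Set.range f₂), (volume : Measure unitInterval) (t j) :=
    Finset.prod_preimage' f₂ s hf₂.injOn (fun j => (volume : Measure unitInterval) (t j))
  rw [hprod1, hprod2]
  have hcompl : s.filter (· ∈ Set.range f₂) = s.filter (fun j => ¬ j ∈ Set.range f₁) := by
    apply Finset.filter_congr
    rintro ⟨v, o⟩ _
    cases o with
    | none =>
      simp only [Set.mem_range, f₁, f₂, not_exists]
      constructor
      · rintro ⟨q, hq⟩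
        simp at hq
      · intro h
        exact absurd rfl (h v)
    | some i =>
      simp only [Set.mem_range, f₁, f₂, not_exists]
      constructor
      · intro _ x hx
        simp at hx
      · intro _
        exact ⟨(v, i), rfl⟩
  rw [hcompl]
  exact Finset.prod_filter_mul_prod_filter_not _ _ _

theorem map_splitL :
    (labelMeasure (ℕ × Option ℕ)).map splitL = (labelMeasure ℕ).prod (labelMeasure (ℕ × ℕ)) := by
  rw [← map_mergeL, Measure.map_map measurable_splitL measurable_mergeL]
  have : splitL ∘ mergeL = id := by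
    ext p <;> rfl
  rw [this, Measure.map_id]

lemma ae_injective : ∀ᵐ a ∂(labelMeasure ℕ), Function.Injective a := by
  have h : ∀ u v : ℕ, u ≠ v → ∀ᵐ a ∂(labelMeasure ℕ), a u ≠ a v := by
    intro u v huv
    have h1 := Measure.infinitePi_map_eval_prod (P := fun _ : ℕ => (volume : Measure unitInterval)) huv
    have hd : MeasurableSet {p : unitInterval × unitInterval | p.1 = p.2} :=
      measurableSet_eq_fun measurable_fst measurable_snd
    have h2 : ((volume : Measure unitInterval).prod volume) {p : unitInterval × unitInterval | p.1 = p.2} = 0 := by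
      rw [Measure.prod_apply hd]
      have : ∀ x : unitInterval, (volume : Measure unitInterval) (Prod.mk x ⁻¹' {p : unitInterval × unitInterval | p.1 = p.2}) = 0 := by
        intro x
        have h3 : Prod.mk x ⁻¹' {p : unitInterval × unitInterval | p.1 = p.2} = {x} := by
          ext y
          simp [eq_comm]
        rw [h3]
        exact measure_singleton x
      simp [this]
    rw [← h1, Measure.map_apply (by fun_prop) hd] at h2
    rw [ae_iff]
    simpa [labelMeasure] using h2
  have h3 : ∀ᵐ a ∂(labelMeasure ℕ), ∀ u v : ℕ, u ≠ v → a u ≠ a v := by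
    rw [ae_all_iff]
    intro u
    rw [ae_all_iff]
    intro v
    by_cases huv : u = v
    · exact Eventually.of_forall fun a h => absurd huv h
    · filter_upwards [h u v huv] with a ha _
      exact ha
  filter_upwards [h3] with a ha u v huv
  by_contra hne
  exact ha u v hne huv

variable (f : unitInterval → Code)

/-- The noise on the edges given two independent families of labels. -/
theorem law_codeE (hf : Measurable f) (hfw : (volume : Measure unitInterval).map f = wienerLaw)
    (G : SimpleGraph ℕ) (hlf : ∀ v, (G.neighborSet v).Finite) :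
    ((labelMeasure ℕ).prod (labelMeasure (ℕ × ℕ))).map
        (fun (p : (ℕ → unitInterval) × (ℕ × ℕ → unitInterval)) (e : G.edgeSet) => codeE f G p.1 p.2 e.1) =
      wI G.edgeSet wienerLaw := by
  have hw := isWiener_wienerLaw.prob
  -- measurability of the total map
  have hT : Measurable (fun (p : (ℕ → unitInterval) × (ℕ × ℕ → unitInterval)) (e : G.edgeSet) =>
      codeE f G p.1 p.2 e.1) := by
    refine measurable_pi_iff.2 fun e => ?_
    have h1 := measurable_codeE f hf e.1
    have h2 : Measurable (fun p : (ℕ → unitInterval) × (ℕ × ℕ → unitInterval) =>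
        ((tableOf G, p) : (ℕ → ℕ → Bool) × (ℕ → unitInterval) × (ℕ × ℕ → unitInterval))) :=
      measurable_const.prodMk measurable_id
    have h3 := h1.comp h2
    have h4 : graphOfTable (tableOf G) = G := by
      ext u v
      unfold graphOfTable tableOf
      simp only [SimpleGraph.fromRel_adj, decide_eq_true_eq]
      constructor
      · rintro ⟨_, h | h⟩
        · exact h
        · exact SimpleGraph.Adj.symm h
      · intro h
        exact ⟨G.ne_of_adj h, Or.inl h⟩
    simp only [Function.comp_def, h4] at h3
    exact h3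
  refine Measure.ext fun B hB => ?_
  rw [Measure.map_apply hT hB, Measure.prod_apply (hT hB)]
  have hfib : ∀ᵐ a ∂(labelMeasure ℕ),
      labelMeasure (ℕ × ℕ) (Prod.mk a ⁻¹' ((fun (p : (ℕ → unitInterval) × (ℕ × ℕ → unitInterval)) (e : G.edgeSet) =>
        codeE f G p.1 p.2 e.1) ⁻¹' B)) = wI G.edgeSet wienerLaw B := by
    filter_upwards [ae_injective] with a ha
    let ι : G.edgeSet → ℕ × ℕ := fun e => own G a e.1
    have hι : Function.Injective ι := by
      intro e e' h
      exact Subtype.ext (own_inj hlf ha e.2 e'.2 h)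
    have h1 : (labelMeasure (ℕ × ℕ)).map (fun b (e : G.edgeSet) => b (ι e)) =
        Measure.infinitePi (fun _ : G.edgeSet => (volume : Measure unitInterval)) :=
      Measure.map_infinitePi_infinitePi_of_inj hι
    have h2 : (Measure.infinitePi (fun _ : G.edgeSet => (volume : Measure unitInterval))).map
        (fun c e => f (c e)) = wI G.edgeSet wienerLaw := by
      have := Measure.infinitePi_map_pi (fun _ : G.edgeSet => (volume : Measure unitInterval))
        (f := fun _ => f) (fun _ => hf)
      rw [this, hfw]
    have hm1 : Measurable (fun (b : ℕ × ℕ → unitInterval) (e : G.edgeSet) => b (ι e)) :=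
      measurable_pi_iff.2 fun e => measurable_pi_apply _
    have hm2 : Measurable (fun (c : G.edgeSet → unitInterval) (e : G.edgeSet) => f (c e)) :=
      measurable_pi_iff.2 fun e => hf.comp (measurable_pi_apply _)
    rw [← h2, ← h1, Measure.map_map hm2 hm1, Measure.map_apply (hm2.comp hm1) hB]
    congr 1
    ext b
    simp only [Set.mem_preimage, Function.comp]
    have : (fun e : G.edgeSet => codeE f G a b e.1) = fun e => f (b (ι e)) := by
      funext e
      exact codeE_eq_own f ha b e.2
    rw [this]
  rw [lintegral_congr_ae hfib]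
  simp

end Law

section Noise

/-- Equivariant edge noise from vertex labels. -/
theorem exists_edge_noise : ∃ code : SimpleGraph ℕ → (ℕ → unitInterval) → Sym2 ℕ → Code,
    (∀ z, Measurable (fun p : (ℕ → ℕ → Bool) × (ℕ → unitInterval) => code (graphOfTable p.1) p.2 z)) ∧
    (∀ (σ : Equiv.Perm ℕ) (G : SimpleGraph ℕ) (x : ℕ → unitInterval) (z : Sym2 ℕ),
      code (G.comap σ) (x ∘ σ) z = code G x (Sym2.map σ z)) ∧
    (∀ G : SimpleGraph ℕ, (∀ v, (G.neighborSet v).Finite) →
      (labelMeasure ℕ).map (fun x (e : G.edgeSet) => code G x e.1) = wI G.edgeSet wienerLaw) := by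
  obtain ⟨f, hf, hfw⟩ := exists_code_map
  have hK : IsProbabilityMeasure (labelMeasure (Option ℕ)) := inferInstance
  obtain ⟨g, hg, hgl⟩ := Measure.exists_measurable_map_eq (labelMeasure (Option ℕ))
  let z : (ℕ → unitInterval) → ℕ × Option ℕ → unitInterval := fun x j => g (x j.1) j.2
  have hz : Measurable z := by
    refine measurable_pi_iff.2 fun j => ?_
    exact (measurable_pi_apply j.2).comp (hg.comp (measurable_pi_apply j.1))
  have hzl : (labelMeasure ℕ).map z = labelMeasure (ℕ × Option ℕ) := by
    have h1 : (labelMeasure ℕ).map (fun x v => g (x v)) =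
        Measure.infinitePi (fun _ : ℕ => labelMeasure (Option ℕ)) := by
      have := Measure.infinitePi_map_pi (fun _ : ℕ => (volume : Measure unitInterval))
        (f := fun _ => g) (fun _ => hg)
      unfold labelMeasure at this ⊢
      rw [this]
      simp only [hgl, labelMeasure]
    have h2 := Measure.infinitePi_map_curry_symm (ι := ℕ) (κ := Option ℕ) (X := unitInterval)
      (fun _ _ => (volume : Measure unitInterval))
    have h3 : z = (MeasurableEquiv.curry ℕ (Option ℕ) unitInterval).symm ∘ (fun x v => g (x v)) := by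
      funext x j
      rfl
    have hm : Measurable (fun (x : ℕ → unitInterval) v => g (x v)) :=
      measurable_pi_iff.2 fun v => hg.comp (measurable_pi_apply v)
    rw [h3, ← Measure.map_map (MeasurableEquiv.measurable _) hm, h1]
    exact h2
  let aOf : (ℕ → unitInterval) → ℕ → unitInterval := fun x v => g (x v) none
  let bOf : (ℕ → unitInterval) → ℕ × ℕ → unitInterval := fun x q => g (x q.1) (some q.2)
  have hab : Measurable (fun x => (aOf x, bOf x)) := by
    refine Measurable.prodMk ?_ ?_
    · exact measurable_pi_iff.2 fun v => (measurable_pi_apply _).comp (hg.comp (measurable_pi_apply v))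
    · exact measurable_pi_iff.2 fun q => (measurable_pi_apply _).comp (hg.comp (measurable_pi_apply q.1))
  have habl : (labelMeasure ℕ).map (fun x => (aOf x, bOf x)) =
      (labelMeasure ℕ).prod (labelMeasure (ℕ × ℕ)) := by
    rw [← map_splitL, ← hzl, Measure.map_map measurable_splitL hz]
    rfl
  refine ⟨fun G x z => codeE f G (aOf x) (bOf x) z, ?_, ?_, ?_⟩
  · intro z
    have h1 := measurable_codeE f hf z
    have h2 : Measurable (fun p : (ℕ → ℕ → Bool) × (ℕ → unitInterval) =>
        ((p.1, aOf p.2, bOf p.2) : (ℕ → ℕ → Bool) × (ℕ → unitInterval) × (ℕ × ℕ → unitInterval))) :=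
      measurable_fst.prodMk (hab.comp measurable_snd)
    exact h1.comp h2
  · intro σ G x z
    exact codeE_comap f σ G (aOf x) (bOf x) z
  · intro G hlf
    have h1 := law_codeE f hf hfw G hlf
    rw [← habl] at h1
    have hT : Measurable (fun (p : (ℕ → unitInterval) × (ℕ × ℕ → unitInterval)) (e : G.edgeSet) =>
        codeE f G p.1 p.2 e.1) := by
      refine measurable_pi_iff.2 fun e => ?_
      have h1 := measurable_codeE f hf e.1
      have h2 : Measurable (fun p : (ℕ → unitInterval) × (ℕ × ℕ → unitInterval) =>
          ((tableOf G, p) : (ℕ → ℕ → Bool) × (ℕ → unitInterval) × (ℕ × ℕ → unitInterval))) :=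
        measurable_const.prodMk measurable_id
      have h3 := h1.comp h2
      have h4 : graphOfTable (tableOf G) = G := by
        ext u v
        unfold graphOfTable tableOf
        simp only [SimpleGraph.fromRel_adj, decide_eq_true_eq]
        constructor
        · rintro ⟨_, h | h⟩
          · exact h
          · exact SimpleGraph.Adj.symm h
        · intro h
          exact ⟨G.ne_of_adj h, Or.inl h⟩
      simp only [Function.comp_def, h4] at h3
      exact h3
    rw [Measure.map_map hT hab] at h1
    exact h1

end Noise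

end Crest.Agent.H5SL
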