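import Crest.Agent.H5SLPicard

/-!
The stochastic localization engine: from a law `ν` on `X → Bool` to a map from noise codes to
configurations pushing the product Wiener law to `ν`.
-/

set_option autoImplicit false
set_option linter.unusedSectionVars false
set_option linter.unusedVariables false
set_option warn.classDefReducibility false

open MeasureTheory ProbabilityTheory Complex Filter Topology Set
open scoped NNReal ENNReal

namespace Crest.Agent.H5SL

section FiniteBayes

variable {U : Type*} [Fintype U] [DecidableEq U]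

/-- Cameron-Martin, real version. -/
lemma integral_gam_shift_real {ε : ℝ≥0} (hε : ε ≠ 0) (a : U → ℝ) {F : (U → ℝ) → ℝ}
    (hF : Measurable F) :
    ∫ ξ, F (fun e => (ε : ℝ) * a e + ξ e) ∂(gam U ε) =
      ∫ d, Real.exp (dotR a d - ε * (∑ e, a e ^ 2) / 2) * F d ∂(gam U ε) := by
  have hF' : Measurable (fun d => ((F d : ℝ) : ℂ)) := Complex.measurable_ofReal.comp hF
  have h := integral_gam_shift hε a hF'
  have h1 : ∫ ξ, ((F (fun e => (ε : ℝ) * a e + ξ e) : ℝ) : ℂ) ∂(gam U ε) =
      ((∫ ξ, F (fun e => (ε : ℝ) * a e + ξ e) ∂(gam U ε) : ℝ) : ℂ) := integral_ofReal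
  have h2 : ∫ d, ((Real.exp (dotR a d - ε * (∑ e, a e ^ 2) / 2) : ℝ) : ℂ) * ((F d : ℝ) : ℂ) ∂(gam U ε) =
      ((∫ d, Real.exp (dotR a d - ε * (∑ e, a e ^ 2) / 2) * F d ∂(gam U ε) : ℝ) : ℂ) := by
    refine (integral_congr_ae (Eventually.of_forall fun d => ?_)).trans integral_ofReal
    exact (Complex.ofReal_mul _ _).symm
  rw [h1, h2] at h
  exact_mod_cast h

/-- one-time Bayes identity. -/
theorem bayes_finite {μ : Measure (U → Bool)} [IsProbabilityMeasure μ]
    (hp : Wts (fun z => μ.real {z})) {ε : ℝ≥0} (hε : ε ≠ 0) (e : U)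
    {G : (U → ℝ) → ℝ} (hG : Measurable G) {C : ℝ} (hGb : ∀ d, |G d| ≤ C) :
    ∫ q, G (fun f => (ε : ℝ) * spinV q.1 f + q.2 f) *
        mf (fun z => μ.real {z}) e (fun f => (ε : ℝ) * spinV q.1 f + q.2 f) ∂(μ.prod (gam U ε)) =
      ∫ q, G (fun f => (ε : ℝ) * spinV q.1 f + q.2 f) * spin (q.1 e) ∂(μ.prod (gam U ε)) := by
  set p : (U → Bool) → ℝ := fun z => μ.real {z} with hpdef
  have hmf : Measurable (mf p e) := hp.measurable_mf e
  have hpath : Measurable (fun q : (U → Bool) × (U → ℝ) => fun f => (ε : ℝ) * spinV q.1 f + q.2 f) := by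
    refine measurable_pi_iff.2 fun f => ?_
    refine Measurable.add (measurable_const.mul ?_) ((measurable_pi_apply f).comp measurable_snd)
    exact measurable_spin.comp ((measurable_pi_apply f).comp measurable_fst)
  have hC : 0 ≤ C := (abs_nonneg _).trans (hGb 0)
  have hspinm : Measurable (fun q : (U → Bool) × (U → ℝ) => spin (q.1 e)) :=
    measurable_spin.comp ((measurable_pi_apply e).comp measurable_fst)
  have hint1 : Integrable (fun q : (U → Bool) × (U → ℝ) =>
      G (fun f => (ε : ℝ) * spinV q.1 f + q.2 f) *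
        mf p e (fun f => (ε : ℝ) * spinV q.1 f + q.2 f)) (μ.prod (gam U ε)) := by
    refine Integrable.of_bound (C := C) ((hG.comp hpath).mul (hmf.comp hpath)).aestronglyMeasurable ?_
    filter_upwards with q
    rw [norm_mul, Real.norm_eq_abs, Real.norm_eq_abs]
    calc _ ≤ C * 1 := mul_le_mul (hGb _) (hp.abs_mf_le e _) (abs_nonneg _) hC
      _ = C := mul_one C
  have hint2 : Integrable (fun q : (U → Bool) × (U → ℝ) =>
      G (fun f => (ε : ℝ) * spinV q.1 f + q.2 f) * spin (q.1 e)) (μ.prod (gam U ε)) := by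
    refine Integrable.of_bound (C := C) ((hG.comp hpath).mul hspinm).aestronglyMeasurable ?_
    filter_upwards with q
    rw [norm_mul, Real.norm_eq_abs, Real.norm_eq_abs, abs_spin, mul_one]
    exact hGb _
  rw [integral_prod _ hint1, integral_prod _ hint2]
  rw [integral_fintype .of_finite, integral_fintype .of_finite]
  have hshift : ∀ (z : U → Bool) (F : (U → ℝ) → ℝ), Measurable F →
      ∫ ξ, F (fun f => (ε : ℝ) * spinV z f + ξ f) ∂(gam U ε) =
      ∫ d, Real.exp (dotR (spinV z) d - ε * (Fintype.card U : ℝ) / 2) * F d ∂(gam U ε) := by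
    intro z F hF
    have := integral_gam_shift_real hε (spinV z) hF
    rw [sum_spinV_sq] at this
    exact this
  have hdens : ∀ z : U → Bool, Integrable
      (fun d => Real.exp (dotR (spinV z) d - ε * (Fintype.card U : ℝ) / 2)) (gam U ε) := by
    intro z
    have h2 := integrable_gam_density hε (spinV z)
    rw [sum_spinV_sq] at h2
    exact h2
  have hmul : ∀ (z : U → Bool) {F : (U → ℝ) → ℝ} {B : ℝ}, Measurable F → (∀ d, |F d| ≤ B) →
      Integrable (fun d => Real.exp (dotR (spinV z) d - ε * (Fintype.card U : ℝ) / 2) * F d)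
        (gam U ε) := by
    intro z F B hF hb
    refine (hdens z).mul_bdd (c := B) hF.aestronglyMeasurable ?_
    filter_upwards with d
    exact hb d
  have hGmf : Measurable (fun d => G d * mf p e d) := hG.mul hmf
  have hGmfb : ∀ d, |G d * mf p e d| ≤ C := by
    intro d
    rw [abs_mul]
    calc _ ≤ C * 1 := mul_le_mul (hGb _) (hp.abs_mf_le e _) (abs_nonneg _) hC
      _ = C := mul_one C
  have h1 : ∀ z : U → Bool,
      ∫ ξ, G (fun f => (ε : ℝ) * spinV z f + ξ f) *
        mf p e (fun f => (ε : ℝ) * spinV z f + ξ f) ∂(gam U ε) =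
      ∫ d, Real.exp (dotR (spinV z) d - ε * (Fintype.card U : ℝ) / 2) * (G d * mf p e d) ∂(gam U ε) :=
    fun z => hshift z _ hGmf
  have h2 : ∀ z : U → Bool,
      ∫ ξ, G (fun f => (ε : ℝ) * spinV z f + ξ f) * spin (z e) ∂(gam U ε) =
      spin (z e) * ∫ d, Real.exp (dotR (spinV z) d - ε * (Fintype.card U : ℝ) / 2) * G d ∂(gam U ε) := by
    intro z
    rw [integral_mul_const, hshift z _ hG, mul_comm]
  simp only [smul_eq_mul]
  simp_rw [h1, h2]
  -- move the sums inside
  have h3 : ∑ z : U → Bool, p z * ∫ d, Real.exp (dotR (spinV z) d - ε * (Fintype.card U : ℝ) / 2) *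
      (G d * mf p e d) ∂(gam U ε) =
      ∫ d, ∑ z : U → Bool, p z * (Real.exp (dotR (spinV z) d - ε * (Fintype.card U : ℝ) / 2) *
      (G d * mf p e d)) ∂(gam U ε) := by
    rw [integral_finsetSum]
    · apply Finset.sum_congr rfl
      intro z _
      rw [integral_const_mul]
    · intro z _
      exact (hmul z hGmf hGmfb).const_mul _
  have h4 : ∑ z : U → Bool, p z * (spin (z e) * ∫ d, Real.exp (dotR (spinV z) d - ε * (Fintype.card U : ℝ) / 2) *
      G d ∂(gam U ε)) =
      ∫ d, ∑ z : U → Bool, p z * (spin (z e) * (Real.exp (dotR (spinV z) d - ε * (Fintype.card U : ℝ) / 2) *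
      G d)) ∂(gam U ε) := by
    rw [integral_finsetSum]
    · apply Finset.sum_congr rfl
      intro z _
      rw [integral_const_mul, integral_const_mul]
    · intro z _
      exact ((hmul z hG hGb).const_mul _).const_mul _
  rw [h3, h4]
  congr 1
  ext d
  have hZ := (hp.Zf_pos d).ne'
  have hsum : ∑ z : U → Bool, p z * Real.exp (dotR (spinV z) d) * spin (z e) =
      mf p e d * Zf p d := by
    unfold mf post
    rw [Finset.sum_mul]
    apply Finset.sum_congr rfl
    intro z _
    field_simp
  have hexp : ∀ z : U → Bool, Real.exp (dotR (spinV z) d - ε * (Fintype.card U : ℝ) / 2) =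
      Real.exp (dotR (spinV z) d) * Real.exp (-(ε * (Fintype.card U : ℝ) / 2)) := by
    intro z
    rw [← Real.exp_add]
    congr 1
  simp_rw [hexp]
  have hl : ∑ z : U → Bool, p z * (Real.exp (dotR (spinV z) d) * Real.exp (-(ε * (Fintype.card U : ℝ) / 2)) *
      (G d * mf p e d)) = Zf p d * (Real.exp (-(ε * (Fintype.card U : ℝ) / 2)) * (G d * mf p e d)) := by
    unfold Zf
    rw [Finset.sum_mul]
    apply Finset.sum_congr rfl
    intro z _
    ring
  have hr : ∑ z : U → Bool, p z * (spin (z e) * (Real.exp (dotR (spinV z) d) *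
      Real.exp (-(ε * (Fintype.card U : ℝ) / 2)) * G d)) =
      (∑ z : U → Bool, p z * Real.exp (dotR (spinV z) d) * spin (z e)) *
        (Real.exp (-(ε * (Fintype.card U : ℝ) / 2)) * G d) := by
    rw [Finset.sum_mul]
    apply Finset.sum_congr rfl
    intro z _
    ring
  rw [hl, hr, hsum]
  ring

end FiniteBayes

section Engine

variable {X : Type*} [DecidableEq X]

/-- finite marginal of a configuration law -/
noncomputable def mV (ν : Measure (X → Bool)) (V : Finset X) : Measure (V → Bool) :=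
  ν.map (fun x (f : V) => x f)

/-- marginal masses -/
noncomputable def pV (ν : Measure (X → Bool)) (V : Finset X) : (V → Bool) → ℝ :=
  fun z => (mV ν V).real {z}

lemma measurable_restr (V : Finset X) :
    Measurable (fun (x : X → Bool) (f : V) => x f) :=
  measurable_pi_iff.2 fun f => measurable_pi_apply _

instance mV_prob (ν : Measure (X → Bool)) [IsProbabilityMeasure ν] (V : Finset X) :
    IsProbabilityMeasure (mV ν V) :=
  Measure.isProbabilityMeasure_map (measurable_restr V).aemeasurable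

lemma wts_pV (ν : Measure (X → Bool)) [IsProbabilityMeasure ν] (V : Finset X) : Wts (pV ν V) := by
  constructor
  · intro x
    exact measureReal_nonneg
  · unfold pV
    have h := sum_measureReal_singleton (μ := mV ν V) (Finset.univ : Finset (V → Bool))
    rw [h]
    simp

/-- The tilted mean of the spin at `e` given observation `y` on the finite set `V`. -/
noncomputable def meanOn (ν : Measure (X → Bool)) (V : Finset X) (e : X) (y : X → ℝ) : ℝ :=
  if he : e ∈ V then mf (pV ν V) ⟨e, he⟩ (fun f : V => y f) else 0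

variable (ν : Measure (X → Bool)) [IsProbabilityMeasure ν]

lemma abs_meanOn_le (V : Finset X) (e : X) (y : X → ℝ) : |meanOn ν V e y| ≤ 1 := by
  unfold meanOn
  split_ifs with he
  · exact (wts_pV ν V).abs_mf_le _ _
  · simp

lemma measurable_meanOn (V : Finset X) (e : X) : Measurable (meanOn ν V e) := by
  unfold meanOn
  split_ifs with he
  · have h1 : Measurable (fun (y : X → ℝ) (f : V) => y f) :=
      measurable_pi_iff.2 fun f => measurable_pi_apply _
    exact ((wts_pV ν V).measurable_mf _).comp h1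
  · exact measurable_const

/-- The observation at time `s`. -/
noncomputable def Yo (ω : (X → Bool) × (X → Code)) (s : ℝ) : X → ℝ :=
  fun e => s * spin (ω.1 e) + extCode (ω.2 e) s

lemma measurable_Yo_coord (e : X) :
    Measurable (fun q : ((X → Bool) × (X → Code)) × ℝ => Yo q.1 q.2 e) := by
  unfold Yo
  apply Measurable.add
  · exact measurable_snd.mul (measurable_spin.comp
      ((measurable_pi_apply e).comp (measurable_fst.comp measurable_fst)))
  · have h1 : Measurable (fun q : ((X → Bool) × (X → Code)) × ℝ => (q.1.2 e, q.2)) :=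
      ((measurable_pi_apply e).comp (measurable_snd.comp measurable_fst)).prodMk measurable_snd
    have h2 := measurable_extCode.comp h1
    exact h2

lemma measurable_Yo : Measurable (fun q : ((X → Bool) × (X → Code)) × ℝ => Yo q.1 q.2) :=
  measurable_pi_iff.2 measurable_Yo_coord

lemma measurable_Yo_time (s : ℝ) : Measurable (fun ω : (X → Bool) × (X → Code) => Yo ω s) := by
  have h1 : Measurable (fun ω : (X → Bool) × (X → Code) => (ω, s)) :=
    measurable_id.prodMk measurable_const
  exact measurable_Yo.comp h1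

lemma measurable_Yo_section (ω : (X → Bool) × (X → Code)) : Measurable (Yo ω) := by
  have h1 : Measurable (fun s : ℝ => (ω, s)) := measurable_const.prodMk measurable_id
  exact measurable_Yo.comp h1

/-- restriction of the sample -/
def rV (V : Finset X) (ω : (X → Bool) × (X → Code)) : (V → Bool) × (V → Code) :=
  (fun f => ω.1 f, fun f => ω.2 f)

lemma measurable_rV (V : Finset X) : Measurable (rV (X := X) V) := by
  unfold rV
  exact ((measurable_restr V).comp measurable_fst).prodMk
    ((measurable_pi_iff.2 fun f => measurable_pi_apply _).comp measurable_snd)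

variable {w : Measure Code}

/-- product of the noise laws -/
noncomputable abbrev wI (X : Type*) (w : Measure Code) : Measure (X → Code) :=
  Measure.infinitePi (fun _ : X => w)

/-- The sample law. -/
noncomputable abbrev PP (ν : Measure (X → Bool)) (w : Measure Code) :
    Measure ((X → Bool) × (X → Code)) := ν.prod (wI X w)

/-- restriction of the law -/
lemma map_rV (hw : IsWiener w) (V : Finset X) :
    (PP ν w).map (rV V) =
      (mV ν V).prod (Measure.pi (fun _ : V => w)) := by
  have hprob := hw.prob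
  have h1 : rV (X := X) V = Prod.map (fun (x : X → Bool) (f : V) => x f)
      (fun (v : X → Code) (f : V) => v f) := rfl
  have hm2 : Measurable (fun (v : X → Code) (f : V) => v f) :=
    measurable_pi_iff.2 fun f => measurable_pi_apply _
  rw [h1, ← Measure.map_prod_map _ _ (measurable_restr V) hm2]
  congr 1
  exact Measure.infinitePi_map_restrict (X := fun _ : X => Code) (fun _ : X => w) (I := V)

/-- the process with finite-window drift -/
noncomputable def BV (V : Finset X) (e : X) (t : ℝ) (ω : (X → Bool) × (X → Code)) : ℝ :=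
  Yo ω t e - ∫ s in (0:ℝ)..t, meanOn ν V e (Yo ω s)

/-- restricted drift equals the finite innovation process -/
lemma bI_rV (V : Finset X) (f : V) (t : ℝ) (ω : (X → Bool) × (X → Code)) :
    bI (pV ν V) (rV V ω).1 (rV V ω).2 f t = BV ν V f t ω := by
  unfold bI BV
  have h1 : ∀ s, yPr (rV V ω).1 (rV V ω).2 s = fun g : V => Yo ω s g := fun s => rfl
  simp_rw [h1]
  congr 1
  apply intervalIntegral.integral_congr
  intro s _
  simp only [meanOn, f.2, dif_pos]

/-- innovation theorem on a window. -/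
theorem innov_V (hw : IsWiener w) (V : Finset X) (n L : ℕ) (ϑ : ℕ → X → ℝ) :
    ∫ ω, cexp (I * ((∑ l ∈ Finset.range L, ∑ e ∈ V, ϑ l e *
        (BV ν V e (((l + 1 : ℕ) : ℝ) / 2 ^ n) ω - BV ν V e ((l : ℝ) / 2 ^ n) ω) : ℝ) : ℂ))
        ∂(PP ν w) =
      ((Real.exp (-((eps n : ℝ) * ∑ l ∈ Finset.range L, ∑ e ∈ V, ϑ l e ^ 2) / 2) : ℝ) : ℂ) := by
  have hprob := hw.prob
  have h := innov_charFun (μ := mV ν V) (U := V) hw (wts_pV ν V) n L (fun l f => ϑ l f)
  have hwts := wts_pV ν V
  rw [← map_rV ν hw V, integral_map (measurable_rV V).aemeasurable] at h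
  · have hsum2 : ∑ l ∈ Finset.range L, ∑ e : V, ϑ l e ^ 2 = ∑ l ∈ Finset.range L, ∑ e ∈ V, ϑ l e ^ 2 := by
      apply Finset.sum_congr rfl
      intro l _
      exact Finset.sum_coe_sort V (fun e => ϑ l e ^ 2)
    rw [hsum2] at h
    rw [← h]
    apply integral_congr_ae
    filter_upwards with ω
    congr 3
    apply Finset.sum_congr rfl
    intro l _
    unfold dotR
    have h3 := Finset.sum_coe_sort V (fun e => ϑ l e *
        (BV ν V e (((l + 1 : ℕ) : ℝ) / 2 ^ n) ω - BV ν V e ((l : ℝ) / 2 ^ n) ω))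
    rw [← h3]
    apply Finset.sum_congr rfl
    intro f _
    change _ = ϑ l f * (bI (pV ν V) (rV V ω).1 (rV V ω).2 f _ - bI (pV ν V) (rV V ω).1 (rV V ω).2 f _)
    rw [bI_rV, bI_rV]
  · apply Measurable.aestronglyMeasurable
    apply Complex.measurable_exp.comp
    apply measurable_const.mul
    apply Complex.measurable_ofReal.comp
    apply measurable_sum_dotR L _ (fun l f (ω : (V → Bool) × (V → Code)) =>
      bI (pV ν V) ω.1 ω.2 f (((l + 1 : ℕ) : ℝ) / 2 ^ n) - bI (pV ν V) ω.1 ω.2 f ((l : ℝ) / 2 ^ n))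
    intro l f
    exact (measurable_bI hwts f _).sub (measurable_bI hwts f _)


/-- the observation on the window `V` at time `s` -/
noncomputable def YV (V : Finset X) (s : ℝ) (ω : (X → Bool) × (X → Code)) : V → ℝ :=
  fun f => Yo ω s f

lemma measurable_YV (V : Finset X) (s : ℝ) : Measurable (YV (X := X) V s) :=
  measurable_pi_iff.2 fun f => (measurable_pi_apply (f : X)).comp (measurable_Yo_time s)

/-- the σ-algebra of the observation on `V` at time `s` -/
noncomputable def sigV (V : Finset X) (s : ℝ) : MeasurableSpace ((X → Bool) × (X → Code)) :=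
  MeasurableSpace.comap (YV V s) MeasurableSpace.pi

lemma sigV_le (V : Finset X) (s : ℝ) :
    sigV V s ≤ (inferInstance : MeasurableSpace ((X → Bool) × (X → Code))) :=
  (measurable_YV V s).comap_le

/-- One-time Bayes. -/
theorem condExp_meanOn (hw : IsWiener w) (V : Finset X) {e : X} (he : e ∈ V) {s : ℝ≥0} (hs : s ≠ 0) :
    (fun ω => meanOn ν V e (Yo ω s)) =ᵐ[PP ν w] (PP ν w)[fun ω => spin (ω.1 e) | sigV V s] := by
  have hprob := hw.prob
  set P := PP ν w with hP
  set p := pV ν V with hpdef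
  have hwts : Wts p := wts_pV ν V
  let e' : V := ⟨e, he⟩
  have hgeq : (fun ω => meanOn ν V e (Yo ω s)) = fun ω => mf p e' (YV V s ω) := by
    ext ω
    simp only [meanOn, he, dif_pos]
    rfl
  have hmf : Measurable (mf p e') := hwts.measurable_mf e'
  have hspinm : Measurable (fun ω : (X → Bool) × (X → Code) => spin (ω.1 e)) :=
    measurable_spin.comp ((measurable_pi_apply e).comp measurable_fst)
  rw [hgeq]
  refine ae_eq_condExp_of_forall_setIntegral_eq (sigV_le V s) ?_ ?_ ?_ ?_
  · refine Integrable.of_bound hspinm.aestronglyMeasurable 1 ?_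
    filter_upwards with ω
    rw [Real.norm_eq_abs, abs_spin]
  · intro A _ _
    refine Integrable.of_bound (C := 1) ?_ ?_
    · exact (hmf.comp (measurable_YV V s)).aestronglyMeasurable
    · filter_upwards with ω
      exact hwts.abs_mf_le _ _
  · intro A hA _
    obtain ⟨B, hB, rfl⟩ := hA
    have hAm : MeasurableSet (YV V s ⁻¹' B) := measurable_YV V s hB
    rw [← integral_indicator hAm, ← integral_indicator hAm]
    -- transfer to the finite model
    let Ξ : (X → Bool) × (X → Code) → (V → Bool) × (V → ℝ) :=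
      fun ω => ((rV V ω).1, fun f => extCode ((rV V ω).2 f) s)
    have hext : Measurable (fun v : Code => extCode v (s : ℝ)) := by
      have h1 : Measurable (fun v : Code => (v, (s : ℝ))) := measurable_id.prodMk measurable_const
      have h2 := measurable_extCode.comp h1
      exact h2
    have hΞ2 : Measurable (fun (v : V → Code) (f : V) => extCode (v f) s) :=
      measurable_pi_iff.2 fun f => hext.comp (measurable_pi_apply f)
    have hΞm : Measurable Ξ := by
      refine (measurable_fst.comp (measurable_rV V)).prodMk ?_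
      exact hΞ2.comp (measurable_snd.comp (measurable_rV V))
    have hlaw : P.map Ξ = (mV ν V).prod (gam V s) := by
      have h1 : Ξ = (Prod.map id (fun (v : V → Code) (f : V) => extCode (v f) s)) ∘ rV V := rfl
      rw [h1, ← Measure.map_map (measurable_id.prodMap hΞ2) (measurable_rV V), hP, map_rV ν hw V,
        ← Measure.map_prod_map _ _ measurable_id hΞ2, Measure.map_id, hw.map_ext_vec s]
    let G : (V → ℝ) → ℝ := B.indicator 1
    have hG : Measurable G := measurable_one.indicator hB
    have hGb : ∀ d, |G d| ≤ 1 := by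
      intro d
      simp only [G, indicator, Pi.one_apply]
      split_ifs <;> simp
    have hpath : Measurable (fun q : (V → Bool) × (V → ℝ) =>
        fun f => (s : ℝ) * spinV q.1 f + q.2 f) := by
      refine measurable_pi_iff.2 fun f => ?_
      refine Measurable.add (measurable_const.mul ?_) ((measurable_pi_apply f).comp measurable_snd)
      exact measurable_spin.comp ((measurable_pi_apply f).comp measurable_fst)
    have hYΞ : ∀ ω, (fun f => (s : ℝ) * spinV (Ξ ω).1 f + (Ξ ω).2 f) = YV V s ω := fun ω => rfl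
    have hb := bayes_finite (μ := mV ν V) hwts (ε := s) hs e' hG hGb
    have hm1 : Measurable (fun q : (V → Bool) × (V → ℝ) => G (fun f => (s : ℝ) * spinV q.1 f + q.2 f) *
        mf (fun z => (mV ν V).real {z}) e' (fun f => (s : ℝ) * spinV q.1 f + q.2 f)) :=
      (hG.comp hpath).mul (hmf.comp hpath)
    have hm2 : Measurable (fun q : (V → Bool) × (V → ℝ) =>
        G (fun f => (s : ℝ) * spinV q.1 f + q.2 f) * spin (q.1 e')) :=
      (hG.comp hpath).mul (measurable_spin.comp ((measurable_pi_apply e').comp measurable_fst))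
    rw [← hlaw, integral_map hΞm.aemeasurable hm1.aestronglyMeasurable,
      integral_map hΞm.aemeasurable hm2.aestronglyMeasurable] at hb
    have hl : (YV V s ⁻¹' B).indicator (fun ω => mf p e' (YV V s ω)) = fun ω =>
        G (fun f => (s : ℝ) * spinV (Ξ ω).1 f + (Ξ ω).2 f) *
        mf (fun z => (mV ν V).real {z}) e' (fun f => (s : ℝ) * spinV (Ξ ω).1 f + (Ξ ω).2 f) := by
      ext ω
      rw [hYΞ]
      by_cases hω : YV V s ω ∈ B
      · simp [G, indicator, hω, p]
        rfl
      · simp [G, indicator, hω]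
    have hr : (YV V s ⁻¹' B).indicator (fun ω => spin (ω.1 e)) = fun ω =>
        G (fun f => (s : ℝ) * spinV (Ξ ω).1 f + (Ξ ω).2 f) * spin ((Ξ ω).1 e') := by
      ext ω
      rw [hYΞ]
      by_cases hω : YV V s ω ∈ B
      · simp [G, indicator, hω, Ξ, rV, e']
      · simp [G, indicator, hω]
    rw [hl, hr]
    exact hb
  · have h1 : Measurable[sigV V s] (YV V s) := comap_measurable _
    have h2 : Measurable[sigV V s] (fun ω => mf p e' (YV V s ω)) := hmf.comp h1
    exact (h2.stronglyMeasurable).aestronglyMeasurable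

/-- the σ-algebra of the full observation at time `s` -/
noncomputable def sigI (s : ℝ) : MeasurableSpace ((X → Bool) × (X → Code)) :=
  MeasurableSpace.comap (fun ω => Yo ω s) MeasurableSpace.pi

lemma sigV_mono {V V' : Finset X} (h : V ⊆ V') (s : ℝ) : sigV V s ≤ sigV V' s := by
  have h1 : YV (X := X) V s = (fun (y : V' → ℝ) (f : V) => y ⟨f, h f.2⟩) ∘ YV V' s := rfl
  have h2 : Measurable (fun (y : V' → ℝ) (f : V) => y ⟨f, h f.2⟩) :=
    measurable_pi_iff.2 fun f => measurable_pi_apply _
  unfold sigV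
  rw [h1, ← MeasurableSpace.comap_comp]
  exact MeasurableSpace.comap_mono h2.comap_le

lemma sigV_le_sigI (V : Finset X) (s : ℝ) : sigV V s ≤ sigI s := by
  have h1 : YV (X := X) V s = (fun (y : X → ℝ) (f : V) => y f) ∘ (fun ω => Yo ω s) := rfl
  have h2 : Measurable (fun (y : X → ℝ) (f : V) => y f) :=
    measurable_pi_iff.2 fun f => measurable_pi_apply _
  unfold sigV sigI
  rw [h1, ← MeasurableSpace.comap_comp]
  exact MeasurableSpace.comap_mono h2.comap_le

lemma iSup_sigV (V : ℕ → Finset X) (hex : ∀ f, ∃ n, f ∈ V n) (s : ℝ) :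
    ⨆ n, sigV (V n) s = sigI (X := X) s := by
  apply le_antisymm
  · exact iSup_le fun n => sigV_le_sigI _ s
  · unfold sigI MeasurableSpace.pi
    rw [MeasurableSpace.comap_iSup]
    refine iSup_le fun f => ?_
    obtain ⟨n, hn⟩ := hex f
    refine le_trans ?_ (le_iSup _ n)
    rw [MeasurableSpace.comap_comp]
    have h1 : (fun b : X → ℝ => b f) ∘ (fun ω => Yo ω s) =
        (fun (y : V n → ℝ) => y ⟨f, hn⟩) ∘ YV (V n) s := rfl
    rw [h1, ← MeasurableSpace.comap_comp]
    apply MeasurableSpace.comap_mono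
    exact (measurable_pi_apply _).comap_le

/-- Lévy upward theorem for the tilted means. -/
theorem tendsto_meanOn_aux (hw : IsWiener w) (V : ℕ → Finset X) (hV : Monotone V)
    (hex : ∀ f, ∃ n, f ∈ V n) {e : X} (he : ∀ n, e ∈ V n) {s : ℝ≥0} (hs : s ≠ 0) :
    ∀ᵐ ω ∂(PP ν w), Tendsto (fun n => meanOn ν (V n) e (Yo ω s)) atTop
      (𝓝 (((PP ν w)[fun ω => spin (ω.1 e) | sigI (s : ℝ)]) ω)) := by
  have hprob := hw.prob
  let ℱ : Filtration ℕ (inferInstance : MeasurableSpace ((X → Bool) × (X → Code))) :=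
    { seq := fun n => sigV (V n) s
      mono' := fun m n hmn => sigV_mono (hV hmn) s
      le' := fun n => sigV_le (V n) s }
  have h1 := tendsto_ae_condExp (μ := PP ν w) (ℱ := ℱ) (fun ω => spin (ω.1 e))
  have h2 : ∀ᵐ ω ∂(PP ν w), ∀ n, meanOn ν (V n) e (Yo ω s) =
      ((PP ν w)[fun ω => spin (ω.1 e) | sigV (V n) s]) ω := by
    rw [ae_all_iff]
    intro n
    exact condExp_meanOn ν hw (V n) (he n) hs
  have h3 : ⨆ n, ℱ n = sigI (X := X) (s : ℝ) := iSup_sigV V hex s
  rw [h3] at h1
  filter_upwards [h1, h2] with ω hω1 hω2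
  simp_rw [hω2]
  exact hω1

theorem tendsto_meanOn (hw : IsWiener w) (V : ℕ → Finset X) (hV : Monotone V)
    (hex : ∀ f, ∃ n, f ∈ V n) (e : X) {s : ℝ≥0} (hs : s ≠ 0) :
    ∀ᵐ ω ∂(PP ν w), Tendsto (fun n => meanOn ν (V n) e (Yo ω s)) atTop
      (𝓝 (((PP ν w)[fun ω => spin (ω.1 e) | sigI (s : ℝ)]) ω)) := by
  obtain ⟨n0, hn0⟩ := hex e
  have hV' : Monotone (fun n => V (n + n0)) := fun a b hab => hV (by omega)
  have hex' : ∀ f, ∃ n, f ∈ V (n + n0) := by
    intro f
    obtain ⟨n, hn⟩ := hex f
    exact ⟨n, hV (by omega) hn⟩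
  have he' : ∀ n, e ∈ V (n + n0) := fun n => hV (by omega) hn0
  filter_upwards [tendsto_meanOn_aux ν hw _ hV' hex' he' hs] with ω hω
  exact (tendsto_add_atTop_iff_nat n0).1 hω

/-- Two exhaustions give the same limit. -/
theorem tendsto_meanOn_limsup (hw : IsWiener w) (V U : ℕ → Finset X) (hV : Monotone V)
    (hexV : ∀ f, ∃ n, f ∈ V n) (hU : Monotone U) (hexU : ∀ f, ∃ n, f ∈ U n) (e : X)
    {s : ℝ≥0} (hs : s ≠ 0) :
    ∀ᵐ ω ∂(PP ν w), Tendsto (fun n => meanOn ν (V n) e (Yo ω s)) atTop
      (𝓝 (limsup (fun n => meanOn ν (U n) e (Yo ω s)) atTop)) := by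
  filter_upwards [tendsto_meanOn ν hw V hV hexV e hs, tendsto_meanOn ν hw U hU hexU e hs]
    with ω h1 h2
  rw [h2.limsup_eq]
  exact h1


lemma abs_limsup_le {u : ℕ → ℝ} (h : ∀ n, |u n| ≤ 1) : |limsup u atTop| ≤ 1 := by
  have hb1 : IsBoundedUnder (· ≤ ·) atTop u := isBoundedUnder_of ⟨1, fun n => (abs_le.1 (h n)).2⟩
  have hb2 : IsBoundedUnder (· ≥ ·) atTop u := isBoundedUnder_of ⟨-1, fun n => (abs_le.1 (h n)).1⟩
  rw [abs_le]
  constructor
  · exact le_limsup_of_frequently_le (Frequently.of_forall fun n => (abs_le.1 (h n)).1) hb1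
  · exact limsup_le_of_le hb2.isCoboundedUnder_le (Eventually.of_forall fun n => (abs_le.1 (h n)).2)

/-- The hypotheses on a drift. -/
structure DriftData (ν : Measure (X → Bool)) (D : X → (X → ℝ) → ℝ) (U : X → ℕ → Finset X) (L : ℝ) :
    Prop where
  L_nonneg : 0 ≤ L
  lip : ∀ e y y' C, (∀ f, |y f - y' f| ≤ C) → |D e y - D e y'| ≤ L * C
  mono : ∀ e, Monotone (U e)
  exh : ∀ e f, ∃ n, f ∈ U e n
  lim : ∀ e y, D e y = limsup (fun n => meanOn ν (U e n) e y) atTop

variable {ν} {D : X → (X → ℝ) → ℝ} {U : X → ℕ → Finset X} {L : ℝ}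

lemma DriftData.abs_le (hD : DriftData ν D U L) (e : X) (y : X → ℝ) : |D e y| ≤ 1 := by
  rw [hD.lim]
  exact abs_limsup_le fun n => abs_meanOn_le ν _ e y

lemma DriftData.measurable (hD : DriftData ν D U L) (e : X) : Measurable (D e) := by
  have : D e = fun y => limsup (fun n => meanOn ν (U e n) e y) atTop := by
    ext y; exact hD.lim e y
  rw [this]
  exact Measurable.limsup fun n => measurable_meanOn ν _ e

theorem DriftData.tendsto (hD : DriftData ν D U L) (hw : IsWiener w) (V : ℕ → Finset X)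
    (hV : Monotone V) (hex : ∀ f, ∃ n, f ∈ V n) (e : X) {s : ℝ≥0} (hs : s ≠ 0) :
    ∀ᵐ ω ∂(PP ν w), Tendsto (fun n => meanOn ν (V n) e (Yo ω s)) atTop (𝓝 (D e (Yo ω s))) := by
  filter_upwards [tendsto_meanOn_limsup ν hw V (U e) hV hex (hD.mono e) (hD.exh e) e hs] with ω hω
  rw [hD.lim]
  exact hω

/-- the observed innovation process -/
noncomputable def Bo (D : X → (X → ℝ) → ℝ) (e : X) (t : ℝ) (ω : (X → Bool) × (X → Code)) : ℝ :=
  Yo ω t e - ∫ s in Ioc 0 t, D e (Yo ω s)

lemma measurable_D_Yo (hD : DriftData ν D U L) (e : X) :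
    Measurable (fun q : ((X → Bool) × (X → Code)) × ℝ => D e (Yo q.1 q.2)) :=
  (hD.measurable e).comp measurable_Yo

lemma measurable_Bo (hD : DriftData ν D U L) (e : X) (t : ℝ) : Measurable (Bo D e t) := by
  unfold Bo
  apply Measurable.sub
  · exact (measurable_pi_apply e).comp (measurable_Yo_time t)
  · have h := (measurable_D_Yo hD e).stronglyMeasurable.integral_prod_right'
      (ν := volume.restrict (Ioc 0 t))
    exact h.measurable

/-- the gap between finite-window drifts and the limit drift -/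
noncomputable def gapD (ν : Measure (X → Bool)) (D : X → (X → ℝ) → ℝ) (V : Finset X) (e : X) (t : ℝ)
    (ω : (X → Bool) × (X → Code)) : ℝ :=
  ∫ s in Ioc 0 t, |meanOn ν V e (Yo ω s) - D e (Yo ω s)|

lemma abs_gap_le (hD : DriftData ν D U L) (V : Finset X) (e : X) (y : X → ℝ) :
    |meanOn ν V e y - D e y| ≤ 2 := by
  have h1 := abs_meanOn_le ν V e y
  have h2 := hD.abs_le e y
  have h3 := abs_sub (meanOn ν V e y) (D e y)
  linarith

lemma measurable_gap_integrandD (hD : DriftData ν D U L) (V : Finset X) (e : X) :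
    Measurable (fun q : ((X → Bool) × (X → Code)) × ℝ =>
      |meanOn ν V e (Yo q.1 q.2) - D e (Yo q.1 q.2)|) :=
  ((measurable_meanOn ν V e).comp measurable_Yo).sub (measurable_D_Yo hD e) |>.abs

lemma measurable_gapD (hD : DriftData ν D U L) (V : Finset X) (e : X) (t : ℝ) :
    Measurable (gapD ν D V e t) := by
  have h := (measurable_gap_integrandD hD V e).stronglyMeasurable.integral_prod_right'
    (ν := volume.restrict (Ioc 0 t))
  exact h.measurable

lemma gapD_nonneg (V : Finset X) (e : X) (t : ℝ) (ω : (X → Bool) × (X → Code)) :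
    0 ≤ gapD ν D V e t ω :=
  integral_nonneg fun _ => abs_nonneg _

lemma gapD_le (hD : DriftData ν D U L) (V : Finset X) (e : X) {t : ℝ} (ht : 0 ≤ t)
    (ω : (X → Bool) × (X → Code)) : gapD ν D V e t ω ≤ 2 * t := by
  have h := norm_integral_le_of_norm_le_const (μ := volume.restrict (Ioc 0 t)) (C := 2)
    (f := fun s => |meanOn ν V e (Yo ω s) - D e (Yo ω s)|)
    (Eventually.of_forall fun s => by
      rw [Real.norm_eq_abs, abs_abs]
      exact abs_gap_le hD V e _)
  simp only [Measure.real, Measure.restrict_apply MeasurableSet.univ, univ_inter, Real.volume_Ioc,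
    sub_zero, ENNReal.toReal_ofReal ht] at h
  have h2 := le_abs_self (gapD ν D V e t ω)
  unfold gapD at h2 ⊢
  rw [Real.norm_eq_abs] at h
  linarith

lemma abs_Bo_sub_BV_le (hD : DriftData ν D U L) (V : Finset X) (e : X) {t : ℝ} (ht : 0 ≤ t)
    (ω : (X → Bool) × (X → Code)) : |Bo D e t ω - BV ν V e t ω| ≤ gapD ν D V e t ω := by
  unfold Bo BV gapD
  rw [intervalIntegral.integral_of_le ht]
  have hi1 : IntegrableOn (fun s => meanOn ν V e (Yo ω s)) (Ioc 0 t) := by
    refine Integrable.of_bound (C := 1) ?_ ?_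
    · exact ((measurable_meanOn ν V e).comp (measurable_Yo_section ω)).aestronglyMeasurable
    · filter_upwards with s
      exact abs_meanOn_le ν V e _
  have hi2 : IntegrableOn (fun s => D e (Yo ω s)) (Ioc 0 t) := by
    refine Integrable.of_bound (C := 1) ?_ ?_
    · exact ((hD.measurable e).comp (measurable_Yo_section ω)).aestronglyMeasurable
    · filter_upwards with s
      exact hD.abs_le e _
  have h1 : Yo ω t e - (∫ s in Ioc 0 t, D e (Yo ω s)) -
      (Yo ω t e - ∫ s in Ioc 0 t, meanOn ν V e (Yo ω s)) =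
      ∫ s in Ioc 0 t, (meanOn ν V e (Yo ω s) - D e (Yo ω s)) := by
    rw [integral_sub hi1 hi2]
    ring
  rw [h1]
  exact abs_integral_le_integral_abs

/-- The expected gap tends to zero. -/
theorem tendsto_integral_gapD (hD : DriftData ν D U L) (hw : IsWiener w) (V : ℕ → Finset X)
    (hV : Monotone V) (hex : ∀ f, ∃ n, f ∈ V n) (e : X) {t : ℝ} (ht : 0 ≤ t) :
    Tendsto (fun m => ∫ ω, gapD ν D (V m) e t ω ∂(PP ν w)) atTop (𝓝 0) := by
  have hprob := hw.prob
  set P := PP ν w with hP
  have hswap : ∀ m, ∫ ω, gapD ν D (V m) e t ω ∂P =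
      ∫ s in Ioc 0 t, ∫ ω, |meanOn ν (V m) e (Yo ω s) - D e (Yo ω s)| ∂P := by
    intro m
    unfold gapD
    apply integral_integral_swap
    have hm := measurable_gap_integrandD hD (V m) e
    refine Integrable.of_bound hm.aestronglyMeasurable 2 ?_
    filter_upwards with q
    simp only [Function.uncurry]
    rw [Real.norm_eq_abs, abs_abs]
    exact abs_gap_le hD _ e _
  simp_rw [hswap]
  have hlim : ∀ s ∈ Ioc 0 t, Tendsto
      (fun m => ∫ ω, |meanOn ν (V m) e (Yo ω s) - D e (Yo ω s)| ∂P) atTop (𝓝 0) := by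
    intro s hs
    have key : Tendsto
        (fun m => ∫ ω, |meanOn ν (V m) e (Yo ω s) - D e (Yo ω s)| ∂P) atTop
        (𝓝 (∫ ω : (X → Bool) × (X → Code), (0:ℝ) ∂P)) := ?_
    · simpa using key
    apply tendsto_integral_of_dominated_convergence (fun _ => (2:ℝ))
    · intro m
      have h1 : Measurable (fun ω : (X → Bool) × (X → Code) => (ω, s)) :=
        measurable_id.prodMk measurable_const
      have h2 := (measurable_gap_integrandD hD (V m) e).comp h1
      exact h2.aestronglyMeasurable
    · exact integrable_const _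
    · intro m
      filter_upwards with ω
      rw [Real.norm_eq_abs, abs_abs]
      exact abs_gap_le hD _ e _
    · obtain ⟨s', hs'⟩ : ∃ s' : ℝ≥0, (s' : ℝ) = s := ⟨⟨s, hs.1.le⟩, rfl⟩
      have hs0 : s' ≠ 0 := by
        rintro rfl
        have h0 : s = 0 := by simpa using hs'.symm
        exact hs.1.ne' h0
      subst hs'
      filter_upwards [hD.tendsto hw V hV hex e hs0] with ω hω
      have h4 := (hω.sub_const (D e (Yo ω s'))).abs
      simpa using h4
  have key : Tendsto
      (fun m => ∫ s in Ioc 0 t, ∫ ω, |meanOn ν (V m) e (Yo ω s) - D e (Yo ω s)| ∂P) atTop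
      (𝓝 (∫ s in Ioc 0 t, (0:ℝ))) := ?_
  · simpa using key
  apply tendsto_integral_of_dominated_convergence (fun _ => (2:ℝ))
  · intro m
    have hm := (measurable_gap_integrandD hD (V m) e).stronglyMeasurable
    have h1 : Measurable (fun q : ℝ × ((X → Bool) × (X → Code)) => (q.2, q.1)) :=
      measurable_snd.prodMk measurable_fst
    have hm2 := hm.comp_measurable h1
    have h2 := hm2.integral_prod_right' (ν := P)
    exact h2.aestronglyMeasurable
  · exact (integrable_const _)
  · intro m
    filter_upwards with s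
    have h := norm_integral_le_of_norm_le_const (μ := P) (C := 2)
      (f := fun ω => |meanOn ν (V m) e (Yo ω s) - D e (Yo ω s)|)
      (Eventually.of_forall fun ω => by
        rw [Real.norm_eq_abs, abs_abs]
        exact abs_gap_le hD _ e _)
    simpa using h
  · rw [ae_restrict_iff' measurableSet_Ioc]
    filter_upwards with s hs
    exact hlim s hs

lemma exists_exhaustion [Countable X] : ∃ V : ℕ → Finset X, Monotone V ∧ ∀ e, ∃ n, e ∈ V n := by
  obtain ⟨g, hg⟩ := exists_injective_nat X
  refine ⟨fun n => (Finset.range n).preimage g hg.injOn, ?_, ?_⟩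
  · intro a b hab x hx
    simp only [Finset.mem_preimage, Finset.mem_range] at hx ⊢
    omega
  · intro e
    exact ⟨g e + 1, by simp⟩

lemma sum_ite_mem_subset {J V : Finset X} (hJV : J ⊆ V) (a b : X → ℝ) :
    ∑ e ∈ V, (if e ∈ J then a e else 0) * b e = ∑ e ∈ J, a e * b e := by
  rw [← Finset.sum_subset hJV]
  · exact Finset.sum_congr rfl fun e he => by simp [he]
  · intro e _ he
    simp [he]

lemma sum_ite_mem_subset_sq {J V : Finset X} (hJV : J ⊆ V) (a : X → ℝ) :
    ∑ e ∈ V, (if e ∈ J then a e else 0) ^ 2 = ∑ e ∈ J, a e ^ 2 := by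
  rw [← Finset.sum_subset hJV]
  · exact Finset.sum_congr rfl fun e he => by simp [he]
  · intro e _ he
    simp [he]

/-- **Char function of the observed innovation process.** -/
theorem bo_charFun [Countable X] (hD : DriftData ν D U L) (hw : IsWiener w) (J : Finset X) (n K : ℕ)
    (ϑ : ℕ → X → ℝ) :
    ∫ ω, cexp (I * ((∑ l ∈ Finset.range K, ∑ e ∈ J, ϑ l e *
        (Bo D e (((l + 1 : ℕ) : ℝ) / 2 ^ n) ω - Bo D e ((l : ℝ) / 2 ^ n) ω) : ℝ) : ℂ)) ∂(PP ν w) =
      ((Real.exp (-((eps n : ℝ) * ∑ l ∈ Finset.range K, ∑ e ∈ J, ϑ l e ^ 2) / 2) : ℝ) : ℂ) := by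
  have hprob := hw.prob
  set P := PP ν w with hP
  set t : ℕ → ℝ := fun k => (k : ℝ) / 2 ^ n with ht
  have ht0 : ∀ k, 0 ≤ t k := fun k => by simp only [ht]; positivity
  set target : ℂ := ((Real.exp (-((eps n : ℝ) * ∑ l ∈ Finset.range K, ∑ e ∈ J, ϑ l e ^ 2) / 2) : ℝ) : ℂ)
    with htarget
  obtain ⟨ex, hexm, hexh⟩ := exists_exhaustion (X := X)
  let V : ℕ → Finset X := fun m => J ∪ ex m
  have hVm : Monotone V := fun a b hab => Finset.union_subset_union_right (hexm hab)
  have hVh : ∀ f, ∃ n, f ∈ V n := by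
    intro f
    obtain ⟨n, hn⟩ := hexh f
    exact ⟨n, Finset.mem_union_right _ hn⟩
  have hJV : ∀ m, J ⊆ V m := fun m => Finset.subset_union_left
  let ϑ' : ℕ → X → ℝ := fun l e => if e ∈ J then ϑ l e else 0
  let fB : (X → Bool) × (X → Code) → ℝ := fun ω =>
    ∑ l ∈ Finset.range K, ∑ e ∈ J, ϑ l e * (Bo D e (t (l + 1)) ω - Bo D e (t l) ω)
  let fA : ℕ → (X → Bool) × (X → Code) → ℝ := fun m ω =>
    ∑ l ∈ Finset.range K, ∑ e ∈ J, ϑ l e *
      (BV ν (V m) e (t (l + 1)) ω - BV ν (V m) e (t l) ω)
  let G : ℕ → (X → Bool) × (X → Code) → ℝ := fun m ω =>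
    ∑ l ∈ Finset.range K, ∑ e ∈ J, |ϑ l e| *
      (gapD ν D (V m) e (t (l + 1)) ω + gapD ν D (V m) e (t l) ω)
  have hfB : Measurable fB := by
    apply Finset.measurable_sum
    intro l _
    apply Finset.measurable_sum
    intro e _
    exact measurable_const.mul ((measurable_Bo hD e _).sub (measurable_Bo hD e _))
  have hBVm : ∀ (W : Finset X) (e : X) (a : ℝ), Measurable (BV ν W e a) := by
    intro W e a
    unfold BV
    apply Measurable.sub
    · exact (measurable_pi_apply e).comp (measurable_Yo_time a)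
    · simp_rw [intervalIntegral.intervalIntegral_eq_integral_uIoc]
      have hm := ((measurable_meanOn ν W e).comp measurable_Yo).stronglyMeasurable.integral_prod_right'
        (ν := volume.restrict (uIoc 0 a))
      simp only [smul_eq_mul]
      exact measurable_const.mul hm.measurable
  have hfA : ∀ m, Measurable (fA m) := by
    intro m
    apply Finset.measurable_sum
    intro l _
    apply Finset.measurable_sum
    intro e _
    exact measurable_const.mul ((hBVm _ e _).sub (hBVm _ e _))
  have hgapint : ∀ m e k, Integrable (gapD ν D (V m) e (t k)) P := by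
    intro m e k
    refine Integrable.of_bound (measurable_gapD hD (V m) e _).aestronglyMeasurable (2 * t k) ?_
    filter_upwards with ω
    rw [Real.norm_eq_abs, abs_of_nonneg (gapD_nonneg _ e _ ω)]
    exact gapD_le hD _ e (ht0 k) ω
  have hcx : ∀ {g : (X → Bool) × (X → Code) → ℝ}, Measurable g →
      Integrable (fun ω => cexp (I * ((g ω : ℝ) : ℂ))) P := by
    intro g hg
    refine Integrable.of_bound ?_ 1 ?_
    · apply Measurable.aestronglyMeasurable
      exact Complex.measurable_exp.comp (measurable_const.mul (Complex.measurable_ofReal.comp hg))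
    · filter_upwards with ω
      rw [mul_comm, Complex.norm_exp_ofReal_mul_I]
  -- the finite-window value
  have hvalA : ∀ m, ∫ ω, cexp (I * ((fA m ω : ℝ) : ℂ)) ∂P = target := by
    intro m
    have h := innov_V ν hw (V m) n K ϑ'
    have hq : ∑ l ∈ Finset.range K, ∑ e ∈ V m, ϑ' l e ^ 2 =
        ∑ l ∈ Finset.range K, ∑ e ∈ J, ϑ l e ^ 2 :=
      Finset.sum_congr rfl fun l _ => sum_ite_mem_subset_sq (hJV m) (ϑ l)
    rw [hq] at h
    rw [htarget, ← h]
    apply integral_congr_ae
    filter_upwards with ω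
    congr 3
    apply Finset.sum_congr rfl
    intro l _
    exact (sum_ite_mem_subset (hJV m) (ϑ l) _).symm
  -- Step B
  have hstepB : ∀ m, ‖(∫ ω, cexp (I * ((fB ω : ℝ) : ℂ)) ∂P) - ∫ ω, cexp (I * ((fA m ω : ℝ) : ℂ)) ∂P‖ ≤
      ∫ ω, G m ω ∂P := by
    intro m
    rw [← integral_sub (hcx hfB) (hcx (hfA m))]
    refine (norm_integral_le_integral_norm _).trans ?_
    apply integral_mono_of_nonneg
    · filter_upwards with ω
      exact norm_nonneg _
    · apply integrable_finsetSum
      intro l _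
      apply integrable_finsetSum
      intro e _
      exact ((hgapint _ e _).add (hgapint _ e _)).const_mul _
    · filter_upwards with ω
      refine (norm_cexp_sub_le _ _).trans ?_
      simp only [fB, fA, G]
      rw [← Finset.sum_sub_distrib]
      refine (Finset.abs_sum_le_sum_abs _ _).trans (Finset.sum_le_sum ?_)
      intro l _
      rw [← Finset.sum_sub_distrib]
      refine (Finset.abs_sum_le_sum_abs _ _).trans (Finset.sum_le_sum ?_)
      intro e _
      rw [← mul_sub, abs_mul]
      apply mul_le_mul_of_nonneg_left _ (abs_nonneg _)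
      have h1 := abs_Bo_sub_BV_le hD (V m) e (ht0 (l + 1)) ω
      have h2 := abs_Bo_sub_BV_le hD (V m) e (ht0 l) ω
      have h4 : Bo D e (t (l + 1)) ω - Bo D e (t l) ω -
          (BV ν (V m) e (t (l + 1)) ω - BV ν (V m) e (t l) ω) =
          (Bo D e (t (l + 1)) ω - BV ν (V m) e (t (l + 1)) ω) -
          (Bo D e (t l) ω - BV ν (V m) e (t l) ω) := by ring
      rw [h4]
      exact (abs_sub _ _).trans (add_le_add h1 h2)
  have hGlim : Tendsto (fun m => ∫ ω, G m ω ∂P) atTop (𝓝 0) := by
    have h1 : ∀ m, ∫ ω, G m ω ∂P = ∑ l ∈ Finset.range K, ∑ e ∈ J, |ϑ l e| *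
        ((∫ ω, gapD ν D (V m) e (t (l + 1)) ω ∂P) + ∫ ω, gapD ν D (V m) e (t l) ω ∂P) := by
      intro m
      simp only [G]
      rw [integral_finsetSum]
      · apply Finset.sum_congr rfl
        intro l _
        rw [integral_finsetSum]
        · apply Finset.sum_congr rfl
          intro e _
          rw [integral_const_mul, integral_add (hgapint _ e _) (hgapint _ e _)]
        · intro e _
          exact ((hgapint _ e _).add (hgapint _ e _)).const_mul _
      · intro l _
        apply integrable_finsetSum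
        intro e _
        exact ((hgapint _ e _).add (hgapint _ e _)).const_mul _
    simp_rw [h1]
    have h2 : (0:ℝ) = ∑ l ∈ Finset.range K, ∑ e ∈ J, |ϑ l e| * ((0:ℝ) + 0) := by simp
    rw [h2]
    apply tendsto_finsetSum
    intro l _
    apply tendsto_finsetSum
    intro e _
    apply Tendsto.const_mul
    exact (tendsto_integral_gapD hD hw V hVm hVh e (ht0 (l + 1))).add
      (tendsto_integral_gapD hD hw V hVm hVh e (ht0 l))
  have hzero : ‖(∫ ω, cexp (I * ((fB ω : ℝ) : ℂ)) ∂P) - target‖ ≤ 0 := by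
    refine ge_of_tendsto' hGlim fun m => ?_
    have := hstepB m
    rwa [hvalA m] at this
  have hzero' : (∫ ω, cexp (I * ((fB ω : ℝ) : ℂ)) ∂P) - target = 0 :=
    norm_le_zero_iff.1 hzero
  have hres := sub_eq_zero.1 hzero'
  exact hres


/-- level `N` increments on a finite window -/
def Tinc (J : Finset X) (N K : ℕ) (v : X → Code) : Fin K → J → ℝ :=
  fun k e => v e N (k + 1) - v e N k

lemma measurable_Tinc (J : Finset X) (N K : ℕ) : Measurable (Tinc J N K) := by
  refine measurable_pi_iff.2 fun k => measurable_pi_iff.2 fun e => ?_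
  unfold Tinc
  exact ((measurable_code N _).comp (measurable_pi_apply (e : X))).sub
    ((measurable_code N _).comp (measurable_pi_apply (e : X)))

/-- uniqueness of laws by characteristic functions -/
theorem ext_pi_pi {A B : Type*} [Fintype A] [Fintype B] {m1 m2 : Measure (A → B → ℝ)}
    [IsFiniteMeasure m1] [IsFiniteMeasure m2]
    (h : ∀ θ : A → B → ℝ, ∫ x, cexp (I * ((∑ a, dotR (θ a) (x a) : ℝ) : ℂ)) ∂m1 =
      ∫ x, cexp (I * ((∑ a, dotR (θ a) (x a) : ℝ) : ℂ)) ∂m2) : m1 = m2 := by
  classical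
  refine Measure.ext_of_charFunDual (funext fun L => ?_)
  rw [charFunDual_apply, charFunDual_apply]
  let θ : A → B → ℝ := fun a b => L (Pi.single a (Pi.single b 1))
  have hL : ∀ v : A → B → ℝ, L v = ∑ a, dotR (θ a) (v a) := by
    intro v
    have hv : v = ∑ a, ∑ b, v a b • (Pi.single a (Pi.single b 1) : A → B → ℝ) := by
      ext a' b'
      simp only [Finset.sum_apply, Pi.smul_apply, Pi.single_apply, smul_eq_mul]
      rw [Finset.sum_eq_single a']
      · rw [Finset.sum_eq_single b']
        · simp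
        · intro b _ hb
          simp [Ne.symm hb]
        · simp
      · intro a _ ha
        simp [Ne.symm ha]
      · simp
    conv_lhs => rw [hv]
    rw [map_sum]
    apply Finset.sum_congr rfl
    intro a _
    rw [map_sum]
    unfold dotR
    apply Finset.sum_congr rfl
    intro b _
    rw [map_smul, smul_eq_mul, mul_comm]
  have hconv : ∀ v : A → B → ℝ, cexp (((L v : ℝ) : ℂ) * I) =
      cexp (I * ((∑ a, dotR (θ a) (v a) : ℝ) : ℂ)) := by
    intro v
    rw [hL, mul_comm]
  simp_rw [hconv]
  exact h θ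

/-- char function of the array of independent Gaussians -/
theorem charFun_pi_gam {A B : Type*} [Fintype A] [Fintype B] (ε : ℝ≥0) (θ : A → B → ℝ) :
    ∫ x, cexp (I * ((∑ a, dotR (θ a) (x a) : ℝ) : ℂ)) ∂(Measure.pi (fun _ : A => gam B ε)) =
      ((Real.exp (-((ε : ℝ) * ∑ a, ∑ b, θ a b ^ 2) / 2) : ℝ) : ℂ) := by
  classical
  have h1 : ∀ x : A → B → ℝ, cexp (I * ((∑ a, dotR (θ a) (x a) : ℝ) : ℂ)) =
      ∏ a, cexp (I * ((dotR (θ a) (x a) : ℝ) : ℂ)) := by
    intro x
    rw [← Complex.exp_sum, ← Finset.mul_sum]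
    push_cast
    rfl
  simp_rw [h1]
  have h2 := integral_fintype_prod_eq_prod (μ := fun _ : A => gam B ε)
    (f := fun (a : A) (x : B → ℝ) => cexp (I * ((dotR (θ a) x : ℝ) : ℂ)))
  rw [h2]
  simp_rw [integral_gam_charFun]
  rw [← Complex.ofReal_prod, ← Real.exp_sum]
  congr 2
  rw [Finset.mul_sum, ← Finset.sum_div, Finset.sum_neg_distrib, neg_div]

/-- Projective uniqueness for laws on consistent code families. -/
theorem ext_of_incr [Countable X] {m1 m2 : Measure (X → Code)} [IsProbabilityMeasure m1]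
    [IsProbabilityMeasure m2]
    (h1 : ∀ᵐ v ∂m1, ∀ e, Consistent (v e)) (h2 : ∀ᵐ v ∂m2, ∀ e, Consistent (v e))
    (h : ∀ (J : Finset X) (N K : ℕ), m1.map (Tinc J N K) = m2.map (Tinc J N K)) : m1 = m2 := by
  let Φ : (X → Code) → (X × ℕ × ℕ → ℝ) := fun v q => v q.1 q.2.1 q.2.2
  let Ψ : (X × ℕ × ℕ → ℝ) → (X → Code) := fun u e n j => u (e, n, j)
  have hΦ : Measurable Φ := by
    refine measurable_pi_iff.2 fun q => ?_
    exact (measurable_code q.2.1 q.2.2).comp (measurable_pi_apply q.1)
  have hΨ : Measurable Ψ := by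
    refine measurable_pi_iff.2 fun e => measurable_pi_iff.2 fun n => measurable_pi_iff.2 fun j => ?_
    exact measurable_pi_apply _
  have hΨΦ : Ψ ∘ Φ = id := rfl
  have key : ∀ (m : Measure (X → Code)) (J' : Finset (X × ℕ × ℕ)) (N K : ℕ) (JJ : Finset X),
      (∀ q ∈ J', q.1 ∈ JJ ∧ q.2.1 ≤ N ∧ 2 ^ (N - q.2.1) * q.2.2 ≤ K) →
      (∀ᵐ v ∂m, ∀ e, Consistent (v e)) →
      (m.map Φ).map J'.restrict =
        (m.map (Tinc JJ N K)).map (fun (x : Fin K → JJ → ℝ) (q : J') =>
          ∑ k ∈ Finset.range (2 ^ (N - q.1.2.1) * q.1.2.2),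
            (if hk : k < K ∧ q.1.1 ∈ JJ then x ⟨k, hk.1⟩ ⟨q.1.1, hk.2⟩ else 0)) := by
    intro m J' N K JJ hJ hm
    have hψ : Measurable (fun (x : Fin K → JJ → ℝ) (q : J') =>
        ∑ k ∈ Finset.range (2 ^ (N - q.1.2.1) * q.1.2.2),
          (if hk : k < K ∧ q.1.1 ∈ JJ then x ⟨k, hk.1⟩ ⟨q.1.1, hk.2⟩ else 0)) := by
      refine measurable_pi_iff.2 fun q => ?_
      apply Finset.measurable_sum
      intro k _
      by_cases hk : k < K ∧ q.1.1 ∈ JJ
      · simp only [hk]
        exact (measurable_pi_apply _).comp (measurable_pi_apply _)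
      · simp only [hk, dif_neg, not_false_eq_true]
        exact measurable_const
    rw [Measure.map_map (Finset.measurable_restrict J') hΦ,
      Measure.map_map hψ (measurable_Tinc JJ N K)]
    apply Measure.map_congr
    filter_upwards [hm] with v hv
    ext q
    simp only [Function.comp, Finset.restrict, Φ]
    obtain ⟨hq1, hq2, hq3⟩ := hJ q.1 q.2
    set e := q.1.1
    set n := q.1.2.1
    set j := q.1.2.2
    have hr := (hv e).refine n (N - n) j
    rw [Nat.add_sub_cancel' hq2] at hr
    have hsum : ∑ k ∈ Finset.range (2 ^ (N - n) * j),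
        (if hk : k < K ∧ e ∈ JJ then Tinc JJ N K v ⟨k, hk.1⟩ ⟨e, hk.2⟩ else 0) =
        ∑ k ∈ Finset.range (2 ^ (N - n) * j), (v e N (k + 1) - v e N k) := by
      apply Finset.sum_congr rfl
      intro k hk
      have hk2 : k < K := lt_of_lt_of_le (Finset.mem_range.1 hk) hq3
      simp only [hk2, hq1, and_self, dif_pos, Tinc]
    rw [hsum, Finset.sum_range_sub, (hv e).2 N, sub_zero, hr]
  have hproj : m1.map Φ = m2.map Φ := by
    have : IsProbabilityMeasure (m1.map Φ) := Measure.isProbabilityMeasure_map hΦ.aemeasurable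
    have : IsProbabilityMeasure (m2.map Φ) := Measure.isProbabilityMeasure_map hΦ.aemeasurable
    refine IsProjectiveLimit.unique (P := fun J' => (m1.map Φ).map J'.restrict) (fun J' => rfl)
      (fun J' => ?_)
    let N := J'.sup (fun q => q.2.1)
    let K := J'.sup (fun q => 2 ^ (N - q.2.1) * q.2.2)
    let JJ := J'.image Prod.fst
    have hJ : ∀ q ∈ J', q.1 ∈ JJ ∧ q.2.1 ≤ N ∧ 2 ^ (N - q.2.1) * q.2.2 ≤ K := by
      intro q hq
      refine ⟨Finset.mem_image_of_mem _ hq, ?_, ?_⟩
      · exact Finset.le_sup (f := fun q : X × ℕ × ℕ => q.2.1) hq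
      · exact Finset.le_sup (f := fun q : X × ℕ × ℕ => 2 ^ (N - q.2.1) * q.2.2) hq
    change (m2.map Φ).map J'.restrict = (m1.map Φ).map J'.restrict
    rw [key m1 J' N K JJ hJ h1, key m2 J' N K JJ hJ h2, h JJ N K]
  have : m1 = (m1.map Φ).map Ψ := by
    rw [Measure.map_map hΨ hΦ, hΨΦ, Measure.map_id]
  rw [this, hproj, Measure.map_map hΨ hΦ, hΨΦ, Measure.map_id]

/-- the code of the observed innovation process -/
noncomputable def Rr (D : X → (X → ℝ) → ℝ) (ω : (X → Bool) × (X → Code)) : X → Code :=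
  fun e n j => Bo D e ((j : ℝ) / 2 ^ n) ω

lemma measurable_Rr (hD : DriftData ν D U L) : Measurable (Rr D) :=
  measurable_pi_iff.2 fun e => measurable_pi_iff.2 fun n => measurable_pi_iff.2 fun j =>
    measurable_Bo hD e _

/-- Law of the increments of the observed innovation code. -/
theorem law_incr_R [Countable X] (hD : DriftData ν D U L) (hw : IsWiener w) (J : Finset X) (N K : ℕ) :
    (PP ν w).map (Tinc J N K ∘ Rr D) = Measure.pi (fun _ : Fin K => gam J (eps N)) := by
  have hprob := hw.prob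
  have hm : Measurable (Tinc J N K ∘ Rr D) := (measurable_Tinc J N K).comp (measurable_Rr hD)
  have : IsProbabilityMeasure ((PP ν w).map (Tinc J N K ∘ Rr D)) :=
    Measure.isProbabilityMeasure_map hm.aemeasurable
  apply ext_pi_pi
  intro θ
  rw [charFun_pi_gam]
  have hFm : Measurable (fun x : Fin K → J → ℝ => cexp (I * ((∑ a, dotR (θ a) (x a) : ℝ) : ℂ))) := by
    apply Complex.measurable_exp.comp
    apply measurable_const.mul
    apply Complex.measurable_ofReal.comp
    apply Finset.measurable_sum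
    intro a _
    exact (measurable_dotR_right _).comp (measurable_pi_apply a)
  rw [integral_map hm.aemeasurable hFm.aestronglyMeasurable]
  let ϑ : ℕ → X → ℝ := fun l e => if h : l < K ∧ e ∈ J then θ ⟨l, h.1⟩ ⟨e, h.2⟩ else 0
  have hϑ : ∀ (a : Fin K) (e : J), ϑ a e = θ a e := by
    intro a e
    simp only [ϑ, a.2, e.2, and_self, dif_pos]
  have h := bo_charFun hD hw J N K ϑ
  have hq : ∑ l ∈ Finset.range K, ∑ e ∈ J, ϑ l e ^ 2 = ∑ a, ∑ b, θ a b ^ 2 := by
    rw [Finset.sum_range]
    apply Finset.sum_congr rfl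
    intro a _
    rw [← Finset.sum_coe_sort J]
    apply Finset.sum_congr rfl
    intro e _
    rw [hϑ]
  rw [hq] at h
  rw [← h]
  apply integral_congr_ae
  filter_upwards with ω
  congr 3
  rw [Finset.sum_range]
  apply Finset.sum_congr rfl
  intro a _
  rw [← Finset.sum_coe_sort J]
  unfold dotR
  apply Finset.sum_congr rfl
  intro e _
  rw [hϑ]
  rfl

lemma law_incr_wI [Countable X] (hw : IsWiener w) (J : Finset X) (N K : ℕ) :
    (wI X w).map (Tinc J N K) = Measure.pi (fun _ : Fin K => gam J (eps N)) := by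
  have hprob := hw.prob
  have h1 : Tinc J N K = (fun (v : J → Code) (k : Fin K) (e : J) => v e N (k + 1) - v e N k) ∘
      (fun (v : X → Code) (f : J) => v f) := rfl
  have hm2 : Measurable (fun (v : X → Code) (f : J) => v f) :=
    measurable_pi_iff.2 fun f => measurable_pi_apply _
  have hm3 : Measurable (fun (v : J → Code) (k : Fin K) (e : J) => v e N (k + 1) - v e N k) := by
    refine measurable_pi_iff.2 fun k => measurable_pi_iff.2 fun e => ?_
    exact ((measurable_code N _).comp (measurable_pi_apply e)).sub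
      ((measurable_code N _).comp (measurable_pi_apply e))
  rw [h1, ← Measure.map_map hm3 hm2]
  have h2 : (wI X w).map (fun (v : X → Code) (f : J) => v f) = Measure.pi (fun _ : J => w) :=
    Measure.infinitePi_map_restrict (X := fun _ : X => Code) (fun _ : X => w) (I := J)
  rw [h2]
  exact hw.map_noise N K

lemma ae_consistent_wI [Countable X] (hw : IsWiener w) :
    ∀ᵐ v ∂(wI X w), ∀ e, Consistent (v e) := by
  have hprob := hw.prob
  rw [ae_all_iff]
  intro e
  exact (measurePreserving_eval_infinitePi (X := fun _ : X => Code) (fun _ : X => w) e).quasiMeasurePreserving.ae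
    hw.ae_consistent

lemma measurableSet_consistent [Countable X] : MeasurableSet {v : X → Code | ∀ e, Consistent (v e)} := by
  have : {v : X → Code | ∀ e, Consistent (v e)} =
      ⋂ e, ((⋂ n, ⋂ j, {v : X → Code | v e (n + 1) (2 * j) = v e n j}) ∩
        ⋂ n, {v : X → Code | v e n 0 = 0}) := by
    ext v
    simp [Consistent, Set.mem_iInter]
  rw [this]
  refine MeasurableSet.iInter fun e => MeasurableSet.inter ?_ ?_
  · refine MeasurableSet.iInter fun n => MeasurableSet.iInter fun j => ?_
    exact measurableSet_eq_fun ((measurable_code _ _).comp (measurable_pi_apply e))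
      ((measurable_code _ _).comp (measurable_pi_apply e))
  · refine MeasurableSet.iInter fun n => ?_
    exact measurableSet_eq_fun ((measurable_code _ _).comp (measurable_pi_apply e)) measurable_const

lemma extCode_zero {v : Code} (hv : Consistent v) : extCode v 0 = 0 := by
  have h := hv.ext_dyadic 0 0
  simpa [hv.2 0] using h

lemma Yo_zero {ω : (X → Bool) × (X → Code)} {e : X} (hv : Consistent (ω.2 e)) : Yo ω 0 e = 0 := by
  unfold Yo
  rw [extCode_zero hv]
  simp

lemma consistent_Rr {ω : (X → Bool) × (X → Code)} {e : X} (hv : Consistent (ω.2 e)) :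
    Consistent (Rr D ω e) := by
  constructor
  · intro n j
    unfold Rr
    have : (((2 * j : ℕ) : ℝ) / 2 ^ (n + 1)) = (j : ℝ) / 2 ^ n := by
      push_cast
      rw [pow_succ]
      field_simp
    rw [this]
  · intro n
    unfold Rr Bo
    simp [Yo_zero hv]

/-- The law of the code of the observed innovation is the product Wiener law. -/
theorem map_Rr [Countable X] (hD : DriftData ν D U L) (hw : IsWiener w) :
    (PP ν w).map (Rr D) = wI X w := by
  have hprob := hw.prob
  have hm := measurable_Rr hD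
  have : IsProbabilityMeasure ((PP ν w).map (Rr D)) :=
    Measure.isProbabilityMeasure_map hm.aemeasurable
  apply ext_of_incr
  · rw [ae_map_iff hm.aemeasurable measurableSet_consistent]
    have h1 : ∀ᵐ ω ∂(PP ν w), ∀ e, Consistent (ω.2 e) :=
      Measure.quasiMeasurePreserving_snd.ae (ae_consistent_wI hw)
    filter_upwards [h1] with ω hω e
    exact consistent_Rr (hω e)
  · exact ae_consistent_wI hw
  · intro J N K
    rw [Measure.map_map (measurable_Tinc J N K) hm, law_incr_R hD hw, law_incr_wI hw]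


/-- Good noise for a.e. time. -/
lemma ae_ae_floor (hw : IsWiener w) :
    ∀ᵐ v ∂w, ∀ᵐ s ∂(volume.restrict (Ioi (0:ℝ))),
      ∃ ℓ, Tendsto (fun n => v n ⌊s * 2 ^ n⌋₊) atTop (𝓝 ℓ) := by
  have hprob := hw.prob
  have hS : MeasurableSet {q : Code × ℝ | ∃ ℓ, Tendsto (fun n => q.1 n ⌊q.2 * 2 ^ n⌋₊) atTop (𝓝 ℓ)} :=
    measurableSet_exists_tendsto (f := fun n (q : Code × ℝ) => q.1 n ⌊q.2 * 2 ^ n⌋₊)
      (fun n => measurable_eval_floor n)
  refine (Measure.ae_ae_comm (μ := w) (ν := volume.restrict (Ioi (0:ℝ)))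
    (p := fun v s => ∃ ℓ, Tendsto (fun n => v n ⌊s * 2 ^ n⌋₊) atTop (𝓝 ℓ)) hS).2 ?_
  rw [ae_restrict_iff' measurableSet_Ioi]
  filter_upwards with s hs
  filter_upwards [hw.ae_tendsto_floor s (le_of_lt hs)] with v hv
  exact ⟨_, hv⟩

/-- The primitive of the drift along the path. -/
lemma tendsto_g (hD : DriftData ν D U L) (ω : (X → Bool) × (X → Code)) (e : X) {s : ℝ} (hs : 0 ≤ s) :
    Tendsto (fun m => ∫ r in Ioc 0 (fl m s), D e (Yo ω r)) atTop
      (𝓝 (∫ r in Ioc 0 s, D e (Yo ω r))) := by
  have hint : ∀ a b : ℝ, IntervalIntegrable (fun r => D e (Yo ω r)) volume a b := by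
    intro a b
    refine (intervalIntegrable_const (c := (1:ℝ))).mono_fun' ?_ ?_
    · exact ((hD.measurable e).comp (measurable_Yo_section ω)).aestronglyMeasurable
    · filter_upwards with r
      exact hD.abs_le e _
  have hcont : Continuous (fun t => ∫ r in (0:ℝ)..t, D e (Yo ω r)) :=
    intervalIntegral.continuous_primitive hint 0
  have h1 : ∀ t : ℝ, 0 ≤ t → ∫ r in Ioc 0 t, D e (Yo ω r) = ∫ r in (0:ℝ)..t, D e (Yo ω r) := by
    intro t ht
    rw [intervalIntegral.integral_of_le ht]
  rw [h1 s hs]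
  simp_rw [h1 _ (fl_nonneg _ s)]
  exact hcont.continuousAt.tendsto.comp (tendsto_fl hs)

/-- Recovery of the signal from the innovation code. -/
theorem out_Rr [Countable X] (hD : DriftData ν D U L) (hw : IsWiener w) :
    ∀ᵐ ω ∂(PP ν w), (fun e => outB (sol D (fun f s => extCode (Rr D ω f) s) e)) = ω.1 := by
  have hprob := hw.prob
  have h1 : ∀ᵐ ω ∂(PP ν w), ∀ e, Consistent (ω.2 e) :=
    Measure.quasiMeasurePreserving_snd.ae (ae_consistent_wI hw)
  have h2 : ∀ᵐ ω ∂(PP ν w), ∀ e, Tendsto (fun k : ℕ => ω.2 e 0 k / (k : ℝ)) atTop (𝓝 0) := by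
    have h20 : ∀ᵐ v ∂(wI X w), ∀ e, Tendsto (fun k : ℕ => v e 0 k / (k : ℝ)) atTop (𝓝 0) := by
      rw [ae_all_iff]
      intro e
      exact (measurePreserving_eval_infinitePi (X := fun _ : X => Code) (fun _ : X => w) e).quasiMeasurePreserving.ae
        hw.ae_tendsto_div
    exact Measure.quasiMeasurePreserving_snd.ae h20
  have h3 : ∀ᵐ ω ∂(PP ν w), ∀ e, ∀ᵐ s ∂(volume.restrict (Ioi (0:ℝ))),
      ∃ ℓ, Tendsto (fun n => ω.2 e n ⌊s * 2 ^ n⌋₊) atTop (𝓝 ℓ) := by
    have h30 : ∀ᵐ v ∂(wI X w), ∀ e, ∀ᵐ s ∂(volume.restrict (Ioi (0:ℝ))),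
        ∃ ℓ, Tendsto (fun n => v e n ⌊s * 2 ^ n⌋₊) atTop (𝓝 ℓ) := by
      rw [ae_all_iff]
      intro e
      exact (measurePreserving_eval_infinitePi (X := fun _ : X => Code) (fun _ : X => w) e).quasiMeasurePreserving.ae
        (ae_ae_floor hw)
    exact Measure.quasiMeasurePreserving_snd.ae h30
  filter_upwards [h1, h2, h3] with ω hc hd hf
  have hf' : ∀ᵐ s ∂(volume.restrict (Ioi (0:ℝ))), ∀ e,
      ∃ ℓ, Tendsto (fun n => ω.2 e n ⌊s * 2 ^ n⌋₊) atTop (𝓝 ℓ) := ae_all_iff.2 hf
  set N : X → ℝ → ℝ := fun f s => extCode (Rr D ω f) s with hN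
  set g : X → ℝ → ℝ := fun e t => ∫ r in Ioc 0 t, D e (Yo ω r) with hg
  set Y : X → ℝ → ℝ := fun f s => Yo ω s f with hY
  have hYm : ∀ f, Measurable (Y f) := fun f =>
    (measurable_pi_apply f).comp (measurable_Yo_section ω)
  have hNm : ∀ f, Measurable (N f) := by
    intro f
    have h4 : Measurable (fun s : ℝ => (Rr D ω f, s)) := measurable_const.prodMk measurable_id
    have h5 := measurable_extCode.comp h4
    exact h5
  have hae : ∀ᵐ s ∂(volume.restrict (Ioi (0:ℝ))), ∀ f, N f s + g f s = Y f s := by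
    filter_upwards [hf', ae_restrict_mem measurableSet_Ioi] with s hs hs0 f
    obtain ⟨ℓ, hℓ⟩ := hs f
    have hs0' : (0:ℝ) ≤ s := le_of_lt hs0
    have hlim : Tendsto (fun n => ω.2 f n ⌊s * 2 ^ n⌋₊) atTop (𝓝 (extCode (ω.2 f) s)) := by
      have : extCode (ω.2 f) s = ℓ := hℓ.limsup_eq
      rw [this]
      exact hℓ
    have heq : ∀ n, Rr D ω f n ⌊s * 2 ^ n⌋₊ =
        fl n s * spin (ω.1 f) + ω.2 f n ⌊s * 2 ^ n⌋₊ - g f (fl n s) := by
      intro n
      simp only [Rr, Bo, Yo, hg]
      have h6 : (⌊s * 2 ^ n⌋₊ : ℝ) / 2 ^ n = fl n s := rfl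
      rw [h6]
      have h7 : extCode (ω.2 f) (fl n s) = ω.2 f n ⌊s * 2 ^ n⌋₊ := (hc f).ext_dyadic n _
      rw [h7]
    have hlim2 : Tendsto (fun n => Rr D ω f n ⌊s * 2 ^ n⌋₊) atTop
        (𝓝 (s * spin (ω.1 f) + extCode (ω.2 f) s - g f s)) := by
      simp_rw [heq]
      exact (((tendsto_fl hs0').mul_const _).add hlim).sub (tendsto_g hD ω f hs0')
    have hN' : N f s = s * spin (ω.1 f) + extCode (ω.2 f) s - g f s := hlim2.limsup_eq
    rw [hN']
    simp only [hY, Yo]
    ring
  have hpic : ∀ e t, 0 ≤ t → picLim D N e t = g e t := by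
    intro e t ht
    exact (pic_tendsto hD.L_nonneg hD.measurable hD.abs_le hD.lip hNm hYm
      (g := g) (fun e t => rfl) hae e ht).limsup_eq
  funext e
  apply outB_eq_of_tendsto
  have hsol : ∀ k : ℕ, sol D N e k = k * spin (ω.1 e) + ω.2 e 0 k := by
    intro k
    unfold sol
    rw [hpic e k (Nat.cast_nonneg k)]
    have h8 : N e k = Bo D e k ω := by
      have h9 := (consistent_Rr (D := D) (hc e)).ext_dyadic 0 k
      simp only [pow_zero, div_one] at h9
      simp only [hN]
      rw [h9]
      simp [Rr]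
    rw [h8]
    simp only [Bo, hg, Yo]
    have h10 := (hc e).ext_dyadic 0 k
    simp only [pow_zero, div_one] at h10
    rw [h10]
    ring
  have hspin : Tendsto (fun k : ℕ => spin (ω.1 e) + ω.2 e 0 k / (k : ℝ)) atTop
      (𝓝 (spin (ω.1 e) + 0)) := tendsto_const_nhds.add (hd e)
  rw [add_zero] at hspin
  refine hspin.congr' ?_
  filter_upwards [eventually_ge_atTop 1] with k hk
  have hk0 : (k : ℝ) ≠ 0 := by
    have : 0 < k := hk
    positivity
  rw [hsol]
  field_simp

/-- The output map of the engine. -/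
noncomputable def PhiE (D : X → (X → ℝ) → ℝ) (c : X → Code) : X → Bool :=
  fun e => outB (sol D (fun f s => extCode (c f) s) e)

lemma measurable_PhiE [Countable X] (hD : DriftData ν D U L) : Measurable (PhiE D) := by
  refine measurable_pi_iff.2 fun e => ?_
  have hDq : ∀ e, Measurable (fun r : (X → Code) × (X → ℝ) => D e r.2) := fun e =>
    (hD.measurable e).comp measurable_snd
  have hNq : ∀ f, Measurable (fun r : (X → Code) × ℝ => extCode (r.1 f) r.2) := by
    intro f
    have h1 : Measurable (fun r : (X → Code) × ℝ => (r.1 f, r.2)) :=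
      ((measurable_pi_apply f).comp measurable_fst).prodMk measurable_snd
    have h2 := measurable_extCode.comp h1
    exact h2
  have h := measurable_outB_sol (Q := X → Code) (D := fun _ => D)
      (N := fun c f s => extCode (c f) s) hDq hNq e
  exact h

/-- **The engine.** -/
theorem engine [Countable X] (hD : DriftData ν D U L) (hw : IsWiener w) :
    (wI X w).map (PhiE D) = ν := by
  have hprob := hw.prob
  rw [← map_Rr hD hw, Measure.map_map (measurable_PhiE hD) (measurable_Rr hD)]
  have h1 : Measure.map (PhiE D ∘ Rr D) (PP ν w) = Measure.map Prod.fst (PP ν w) := by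
    apply Measure.map_congr
    filter_upwards [out_Rr hD hw] with ω hω
    exact hω
  rw [h1]
  simp [Measure.map_fst_prod]

end Engine

end Crest.Agent.H5SL
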