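import Crest.Agent.H5SLTreeMono
import Crest.Agent.H5SLBall
import Crest.Agent.H5SLBridge

/-!
The free uniform spanning forest of a connected locally finite graph: the limit of inclusion
probabilities along exhaustions and a law on configurations with these inclusion probabilities.
-/

set_option autoImplicit false
set_option linter.unusedSectionVars false
set_option linter.unusedVariables false

open MeasureTheory Filter Topology Crest.ProbabilityR.SpanningTrees
open scoped ENNReal

namespace Crest.Agent.H5SL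

section FSF

variable {V : Type*} [DecidableEq V] {G : SimpleGraph V} {S : Finset V}

/-- The limit of the inclusion probabilities. -/
noncomputable def rhoInf (G : SimpleGraph V) (F : Finset (Sym2 V)) : ℝ :=
  sInf {x | ∃ S₀ : Finset V, (G.induce (S₀ : Set V)).Connected ∧ F ⊆ edgesIn G S₀ ∧
    x = ustContains G S₀ F}

lemma ustContains_nonneg (G : SimpleGraph V) (S : Finset V) (F : Finset (Sym2 V)) :
    0 ≤ ustContains G S F := by
  rw [ustContains_eq]
  positivity

lemma ustContains_le_one (G : SimpleGraph V) (S : Finset V) (F : Finset (Sym2 V)) :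
    ustContains G S F ≤ 1 := by
  classical
  rw [ustContains_eq]
  apply div_le_one_of_le₀ _ (by positivity)
  exact_mod_cast Finset.card_filter_le _ _

lemma exists_mem_edgesIn_of_exhaust {S : ℕ → Finset V} (hm : Monotone S) (hex : ∀ v, ∃ n, v ∈ S n)
    {F : Finset (Sym2 V)} (hF : (F : Set (Sym2 V)) ⊆ G.edgeSet) :
    ∃ n₀, ∀ n ≥ n₀, F ⊆ edgesIn G (S n) := by
  classical
  induction F using Finset.induction_on with
  | empty => exact ⟨0, fun n _ => Finset.empty_subset _⟩
  | insert e F' he ih =>
    have hF' : (F' : Set (Sym2 V)) ⊆ G.edgeSet := fun x hx => hF (by simp [Finset.mem_coe.1 hx])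
    obtain ⟨n₁, h₁⟩ := ih hF'
    have heG : e ∈ G.edgeSet := hF (by simp)
    induction e using Sym2.ind with
    | h a b =>
      obtain ⟨na, hna⟩ := hex a
      obtain ⟨nb, hnb⟩ := hex b
      refine ⟨max n₁ (max na nb), fun n hn => ?_⟩
      rw [Finset.insert_subset_iff]
      refine ⟨?_, h₁ n (le_trans (le_max_left _ _) hn)⟩
      refine mk_mem_edgesIn.2 ⟨hm ?_ hna, hm ?_ hnb, heG⟩
      · exact le_trans (le_trans (le_max_left _ _) (le_max_right _ _)) hn
      · exact le_trans (le_trans (le_max_right _ _) (le_max_right _ _)) hn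

lemma exists_subset_of_exhaust {S : ℕ → Finset V} (hm : Monotone S) (hex : ∀ v, ∃ n, v ∈ S n)
    (T : Finset V) : ∃ n, T ⊆ S n := by
  classical
  induction T using Finset.induction_on with
  | empty => exact ⟨0, Finset.empty_subset _⟩
  | insert a s _ ih =>
    obtain ⟨n₁, h₁⟩ := ih
    obtain ⟨n₂, h₂⟩ := hex a
    refine ⟨max n₁ n₂, ?_⟩
    rw [Finset.insert_subset_iff]
    exact ⟨hm (le_max_right _ _) h₂, h₁.trans (hm (le_max_left _ _))⟩

/-- Inclusion probabilities converge along exhaustions. -/
theorem tendsto_ust {S : ℕ → Finset V} (hm : Monotone S) (hex : ∀ v, ∃ n, v ∈ S n)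
    (hc : ∀ n, (G.induce (S n : Set V)).Connected) {F : Finset (Sym2 V)}
    (hF : (F : Set (Sym2 V)) ⊆ G.edgeSet) :
    Tendsto (fun n => ustContains G (S n) F) atTop (𝓝 (rhoInf G F)) := by
  obtain ⟨n₀, hn₀⟩ := exists_mem_edgesIn_of_exhaust hm hex hF
  let u : ℕ → ℝ := fun n => ustContains G (S (n + n₀)) F
  have hanti : Antitone u := by
    apply antitone_nat_of_succ_le
    intro n
    have h1 : S (n + n₀) ⊆ S (n + 1 + n₀) := hm (by omega)
    exact ust_mono h1 (hc _) (hc _) (hn₀ _ (by omega))
  have hbdd : BddBelow (Set.range u) := ⟨0, by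
    rintro _ ⟨n, rfl⟩
    exact ustContains_nonneg _ _ _⟩
  have hlim := tendsto_atTop_ciInf hanti hbdd
  have hfam : BddBelow {x | ∃ S₀ : Finset V, (G.induce (S₀ : Set V)).Connected ∧ F ⊆ edgesIn G S₀ ∧
      x = ustContains G S₀ F} := ⟨0, by
    rintro _ ⟨S₀, _, _, rfl⟩
    exact ustContains_nonneg _ _ _⟩
  have heq : ⨅ n, u n = rhoInf G F := by
    apply le_antisymm
    · apply le_csInf
      · exact ⟨_, S n₀, hc _, hn₀ _ le_rfl, rfl⟩
      · rintro _ ⟨S₀, hS₀, hFS₀, rfl⟩
        -- `S₀` is inside a large `S n`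
        obtain ⟨n₁, hn₁⟩ := exists_subset_of_exhaust hm hex S₀
        have hn : S₀ ⊆ S (n₁ + n₀) := hn₁.trans (hm (by omega))
        exact (ciInf_le hbdd n₁).trans (ust_mono hn hS₀ (hc _) hFS₀)
    · apply le_ciInf
      intro n
      exact csInf_le hfam ⟨_, hc _, hn₀ _ (by omega), rfl⟩
  rw [heq] at hlim
  exact (tendsto_add_atTop_iff_nat n₀).1 hlim


variable [Countable V]

/-- The indicator configuration of an edge set. -/
def cfg (A : Finset (Sym2 V)) : Sym2 V → Bool := fun e => decide (e ∈ A)

/-- The uniform spanning tree of a piece as a law on configurations. -/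
noncomputable def ustLaw (G : SimpleGraph V) (S : Finset V) : Measure (Sym2 V → Bool) :=
  ((TT G S).card : ℝ≥0∞)⁻¹ • ∑ A ∈ TT G S, Measure.dirac (cfg A)

lemma TT_nonempty (hS : (G.induce (S : Set V)).Connected) : (TT G S).Nonempty := by
  obtain ⟨A, hA, hAp⟩ := exists_tree hS
  refine ⟨A, mem_TT.2 ?_⟩
  by_contra hne
  unfold treeInd at hAp
  simp [hne] at hAp

omit [DecidableEq V] [Countable V] in
/-- The event of containing `F` -/
def evF {X : Type*} (F : Finset X) : Set (X → Bool) := {ω | ∀ e ∈ F, ω e = true}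

omit [DecidableEq V] [Countable V] in
lemma isClopen_evF {X : Type*} (F : Finset X) : IsClopen (evF F) := by
  have : evF F = ⋂ e ∈ F, (fun ω : X → Bool => ω e) ⁻¹' {true} := by
    ext ω; simp [evF]
  rw [this]
  exact isClopen_biInter_finset fun e _ => (isClopen_discrete _).preimage (continuous_apply e)

omit [DecidableEq V] [Countable V] in
lemma measurableSet_evF {X : Type*} (F : Finset X) : MeasurableSet (evF F) := by
  have : evF F = ⋂ e ∈ F, (fun ω : X → Bool => ω e) ⁻¹' {true} := by
    ext ω; simp [evF]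
  rw [this]
  refine Finset.measurableSet_biInter F fun e _ => ?_
  exact (measurable_pi_apply e) (measurableSet_singleton true)

omit [DecidableEq V] [Countable V] in
/-- The mass of the event of containing `F` -/
noncomputable def incP {X : Type*} (ν : Measure (X → Bool)) (F : Finset X) : ℝ := (ν (evF F)).toReal

lemma mem_cfg_evF {A F : Finset (Sym2 V)} : cfg A ∈ evF F ↔ F ⊆ A := by
  simp only [evF, Set.mem_ofPred_eq, cfg, decide_eq_true_eq]
  rfl

open Classical in
lemma ustLaw_apply {C : Set (Sym2 V → Bool)} (hC : MeasurableSet C) :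
    ustLaw G S C = ((TT G S).card : ℝ≥0∞)⁻¹ * (((TT G S).filter (fun A => cfg A ∈ C)).card : ℝ≥0∞) := by
  classical
  unfold ustLaw
  rw [Measure.smul_apply, Measure.finsetSum_apply, smul_eq_mul]
  congr 1
  simp_rw [Measure.dirac_apply' _ hC]
  rw [Finset.card_filter]
  push_cast
  apply Finset.sum_congr rfl
  intro A _
  simp [Set.indicator]

theorem ustLaw_prob (hS : (G.induce (S : Set V)).Connected) : IsProbabilityMeasure (ustLaw G S) := by
  constructor
  rw [ustLaw_apply MeasurableSet.univ]
  have hne : ((TT G S).card : ℝ≥0∞) ≠ 0 := by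
    have := (TT_nonempty hS).card_pos
    exact_mod_cast this.ne'
  simp only [Set.mem_univ, Finset.filter_true]
  exact ENNReal.inv_mul_cancel hne (by simp)

lemma incP_ustLaw (G : SimpleGraph V) (S : Finset V) (F : Finset (Sym2 V)) :
    incP (ustLaw G S) F = ustContains G S F := by
  classical
  unfold incP
  rw [ustLaw_apply (measurableSet_evF F), ustContains_eq, ENNReal.toReal_mul, ENNReal.toReal_inv]
  simp only [ENNReal.toReal_natCast, mem_cfg_evF]
  rw [div_eq_inv_mul]

/-- **The free uniform spanning forest.** -/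
theorem exists_fsf (hG : G.Connected) (hlf : ∀ v, (G.neighborSet v).Finite) :
    ∃ ν : Measure (Sym2 V → Bool), IsProbabilityMeasure ν ∧
      ∀ F : Finset (Sym2 V), (F : Set (Sym2 V)) ⊆ G.edgeSet → incP ν F = rhoInf G F := by
  classical
  obtain ⟨x₀⟩ := hG.nonempty
  have hfin := ballS_finite (G := G) (Set.finite_singleton x₀) hlf
  let S : ℕ → Finset V := fun n => (hfin n).toFinset
  have hmem : ∀ n x, x ∈ S n ↔ x ∈ ballS G {x₀} n := fun n x => (hfin n).mem_toFinset
  have hm : Monotone S := by
    intro a b hab x hx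
    rw [hmem] at hx ⊢
    exact ballS_mono hab hx
  have hex : ∀ v, ∃ n, v ∈ S n := by
    intro v
    obtain ⟨n, hn⟩ := exists_mem_ballS (c := {x₀}) hG (Set.mem_singleton x₀) v
    exact ⟨n, (hmem n v).2 hn⟩
  have hc : ∀ n, (G.induce (S n : Set V)).Connected := by
    intro n
    have h1 : (S n : Set V) = ballS G {x₀} n := (hfin n).coe_toFinset
    rw [h1]
    exact ballS_connected (connected_singleton_center x₀) n
  let νs : ℕ → ProbabilityMeasure (Sym2 V → Bool) := fun n =>
    ⟨ustLaw G (S n), ustLaw_prob (hc n)⟩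
  let 𝓤 : Ultrafilter ℕ := hyperfilter ℕ
  let ν : ProbabilityMeasure (Sym2 V → Bool) := (𝓤.map νs).lim
  have hlim : Tendsto νs 𝓤 (𝓝 ν) := by
    have := (𝓤.map νs).le_nhds_lim
    exact this
  refine ⟨(ν : Measure (Sym2 V → Bool)), inferInstance, ?_⟩
  intro F hF
  have h1 := ProbabilityMeasure.tendsto_iff_forall_integral_tendsto.1 hlim
    (BoundedContinuousFunction.indicator (evF F) (isClopen_evF F))
  simp only [BoundedContinuousFunction.indicator_apply] at h1
  have h2 : ∀ μ : ProbabilityMeasure (Sym2 V → Bool),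
      ∫ ω, (evF F).indicator 1 ω ∂(μ : Measure (Sym2 V → Bool)) =
        incP (μ : Measure (Sym2 V → Bool)) F := by
    intro μ
    rw [integral_indicator_one (measurableSet_evF F)]
    rfl
  simp_rw [h2] at h1
  have h3 : ∀ n, incP ((νs n : ProbabilityMeasure _) : Measure (Sym2 V → Bool)) F = ustContains G (S n) F :=
    fun n => incP_ustLaw G (S n) F
  simp_rw [h3] at h1
  have h4 := tendsto_ust hm hex hc hF
  have h5 : (𝓤 : Filter ℕ) ≤ atTop := by
    have := Filter.hyperfilter_le_cofinite (α := ℕ)
    rwa [Nat.cofinite_eq_atTop] at this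
  exact tendsto_nhds_unique h1 (h4.mono_left h5)

end FSF

section InclExcl

variable {X : Type*} [DecidableEq X] (ν : Measure (X → Bool)) [IsProbabilityMeasure ν]

/-- Inclusion-exclusion for cylinder masses. -/
theorem cylP_eq_sum_incP (W S : Finset X) (hS : S ⊆ W) :
    cylP ν W S = ∑ T ∈ (W \ S).powerset, (-1 : ℝ) ^ T.card * incP ν (S ∪ T) := by
  classical
  have hpt : ∀ ω : X → Bool,
      ({ω : X → Bool | ∀ i ∈ W, (ω i = true ↔ i ∈ S)}.indicator (fun _ => (1:ℝ))) ω =
        ∑ T ∈ (W \ S).powerset, (-1 : ℝ) ^ T.card * ((evF (S ∪ T)).indicator (fun _ => (1:ℝ))) ω := by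
    intro ω
    by_cases hSω : ∀ e ∈ S, ω e = true
    · set O := (W \ S).filter (fun i => ω i = true) with hO
      have h1 : ∀ T ∈ (W \ S).powerset, (-1 : ℝ) ^ T.card * ((evF (S ∪ T)).indicator (fun _ => (1:ℝ))) ω =
          if T ⊆ O then (-1 : ℝ) ^ T.card else 0 := by
        intro T hT
        have hTsub := Finset.mem_powerset.1 hT
        by_cases hTO : T ⊆ O
        · rw [if_pos hTO, Set.indicator_of_mem, mul_one]
          intro e he
          rcases Finset.mem_union.1 he with h | h
          · exact hSω e h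
          · exact (Finset.mem_filter.1 (hTO h)).2
        · rw [if_neg hTO, Set.indicator_of_notMem, mul_zero]
          intro h
          apply hTO
          intro e he
          exact Finset.mem_filter.2 ⟨hTsub he, h e (Finset.mem_union_right _ he)⟩
      rw [Finset.sum_congr rfl h1, ← Finset.sum_filter]
      have h2 : (W \ S).powerset.filter (fun T => T ⊆ O) = O.powerset := by
        ext T
        simp only [Finset.mem_filter, Finset.mem_powerset]
        exact ⟨fun h => h.2, fun h => ⟨h.trans (Finset.filter_subset _ _), h⟩⟩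
      have h2b : ∑ a ∈ O.powerset, (-1 : ℝ) ^ a.card = if O = ∅ then 1 else 0 := by
        have := Finset.sum_powerset_neg_one_pow_card (x := O)
        have h3 : ((∑ m ∈ O.powerset, (-1 : ℤ) ^ m.card : ℤ) : ℝ) = ((if O = ∅ then 1 else 0 : ℤ) : ℝ) := by
          rw [this]
        push_cast at h3
        exact h3
      rw [h2, h2b]
      by_cases hOe : O = ∅
      · rw [if_pos hOe, Set.indicator_of_mem]
        intro i hi
        constructor
        · intro h
          by_contra hne
          have : i ∈ O := Finset.mem_filter.2 ⟨Finset.mem_sdiff.2 ⟨hi, hne⟩, h⟩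
          rw [hOe] at this
          simp at this
        · exact fun h => hSω i h
      · rw [if_neg hOe, Set.indicator_of_notMem]
        obtain ⟨i, hi⟩ := Finset.nonempty_iff_ne_empty.2 hOe
        obtain ⟨h3, h4⟩ := Finset.mem_filter.1 hi
        obtain ⟨h5, h6⟩ := Finset.mem_sdiff.1 h3
        intro h
        exact h6 ((h i h5).1 h4)
    · rw [Set.indicator_of_notMem]
      · symm
        apply Finset.sum_eq_zero
        intro T _
        rw [Set.indicator_of_notMem, mul_zero]
        intro h
        exact hSω fun e he => h e (Finset.mem_union_left _ he)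
      · intro h
        exact hSω fun e he => (h e (hS he)).2 he
  have hmC := measurableSet_cyl (X := X) W S
  have h3 : cylP ν W S = ∫ ω, ({ω : X → Bool | ∀ i ∈ W, (ω i = true ↔ i ∈ S)}.indicator (fun _ => (1:ℝ))) ω ∂ν := by
    rw [integral_indicator hmC, setIntegral_const]
    simp [cylP, Measure.real]
  rw [h3]
  simp_rw [hpt]
  rw [integral_finsetSum]
  · apply Finset.sum_congr rfl
    intro T _
    rw [integral_const_mul, integral_indicator (measurableSet_evF _), setIntegral_const]
    simp [incP, Measure.real]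
  · intro T _
    exact ((integrable_const (1:ℝ)).indicator (measurableSet_evF _)).const_mul _

/-- Convergence of the tilted means from convergence of inclusion masses. -/
theorem tendsto_meanOn_of_incP {νs : ℕ → Measure (X → Bool)} [∀ n, IsProbabilityMeasure (νs n)]
    (W : Finset X) {e : X} (he : e ∈ W) (y : X → ℝ)
    (h : ∀ F, F ⊆ W → Tendsto (fun n => incP (νs n) F) atTop (𝓝 (incP ν F))) :
    Tendsto (fun n => meanOn (νs n) W e y) atTop (𝓝 (meanOn ν W e y)) := by
  classical
  simp_rw [meanOn_eq_tT _ W he]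
  have hcyl : ∀ S ∈ W.powerset, Tendsto (fun n => cylP (νs n) W S) atTop (𝓝 (cylP ν W S)) := by
    intro S hS
    have hSW := Finset.mem_powerset.1 hS
    simp_rw [cylP_eq_sum_incP _ W S hSW]
    apply tendsto_finsetSum
    intro T hT
    apply Tendsto.const_mul
    apply h
    apply Finset.union_subset hSW
    exact (Finset.mem_powerset.1 hT).trans Finset.sdiff_subset
  apply Tendsto.sub_const
  apply Tendsto.const_mul
  unfold tT tE tW wt
  apply Tendsto.div
  · apply tendsto_finsetSum
    intro S hS
    exact ((hcyl S hS).mul_const _).mul_const _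
  · apply tendsto_finsetSum
    intro S hS
    exact (hcyl S hS).mul_const _
  · exact (tW_pos (cylP_nonneg ν W) (exists_cylP_pos ν W) y).ne'

end InclExcl

section MeanUST

variable {V : Type*} [DecidableEq V] [Countable V] {G : SimpleGraph V} {S : Finset V}

/-- restriction of a tilt to a window -/
noncomputable def tiltOn {ι : Type*} [DecidableEq ι] (W : Finset ι) (y : ι → ℝ) : ι → ℝ :=
  fun i => if i ∈ W then y i else 0

lemma integral_ustLaw (G : SimpleGraph V) (S : Finset V) (f : (Sym2 V → Bool) → ℝ) :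
    ∫ x, f x ∂(ustLaw G S) = ((TT G S).card : ℝ)⁻¹ * ∑ A ∈ TT G S, f (cfg A) := by
  unfold ustLaw
  rw [integral_smul_measure, integral_finsetSum_measure]
  · simp only [integral_dirac, ENNReal.toReal_inv, ENNReal.toReal_natCast, smul_eq_mul]
  · intro A _
    exact integrable_dirac (by simp)

lemma sum_treeInd (G : SimpleGraph V) (S : Finset V) (g : Finset (Sym2 V) → ℝ) :
    ∑ A ∈ (edgesIn G S).powerset, treeInd G S A * g A = ∑ A ∈ TT G S, g A := by
  classical
  unfold TT treeInd
  rw [Finset.sum_filter]
  apply Finset.sum_congr rfl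
  intro A _
  split_ifs <;> simp

/-- The tilted mean under the uniform spanning tree as a tilted occupation probability. -/
theorem meanOn_ustLaw (hS : (G.induce (S : Set V)).Connected) {W : Finset (Sym2 V)} {e : Sym2 V}
    (he : e ∈ W) (y : Sym2 V → ℝ) :
    haveI := ustLaw_prob hS
    meanOn (ustLaw G S) W e y = 2 * tT (treeInd G S) (edgesIn G S) e (tiltOn W y) - 1 := by
  have hprob := ustLaw_prob hS
  rw [meanOn_eq_integral _ W he]
  set N : ℝ := ((TT G S).card : ℝ) with hN
  have hN0 : N ≠ 0 := by
    have := (TT_nonempty hS).card_pos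
    rw [hN]
    positivity
  set c := Real.exp (-∑ f ∈ W, y f) with hc
  have hc0 : c ≠ 0 := (Real.exp_pos _).ne'
  have htilt : ∀ A : Finset (Sym2 V), tiltExp W y (cfg A) =
      c * Real.exp (2 * ∑ i ∈ A, tiltOn W y i) := by
    intro A
    unfold tiltExp
    rw [hc, ← Real.exp_add]
    congr 1
    have h1 : ∑ i ∈ A, tiltOn W y i = ∑ f ∈ W, (if f ∈ A then y f else 0) := by
      unfold tiltOn
      rw [Finset.sum_ite_mem, Finset.sum_ite_mem, Finset.inter_comm]
    rw [h1, Finset.mul_sum, ← Finset.sum_neg_distrib, ← Finset.sum_add_distrib]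
    apply Finset.sum_congr rfl
    intro f _
    unfold cfg spin
    by_cases hf : f ∈ A <;> simp [hf] <;> ring
  have hspin : ∀ A : Finset (Sym2 V), spin (cfg A e) = 2 * ind e A - 1 := by
    intro A
    unfold cfg spin ind
    by_cases h : e ∈ A <;> simp [h]
    norm_num
  rw [integral_ustLaw, integral_ustLaw]
  have hden : ∑ A ∈ TT G S, tiltExp W y (cfg A) = c * tW (treeInd G S) (edgesIn G S) (tiltOn W y) := by
    unfold tW wt
    have := sum_treeInd G S (fun A => Real.exp (2 * ∑ i ∈ A, tiltOn W y i))
    rw [this, Finset.mul_sum]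
    exact Finset.sum_congr rfl fun A _ => htilt A
  have hnum : ∑ A ∈ TT G S, spin (cfg A e) * tiltExp W y (cfg A) =
      c * (2 * (∑ A ∈ (edgesIn G S).powerset, wt (treeInd G S) (tiltOn W y) A * ind e A) -
        tW (treeInd G S) (edgesIn G S) (tiltOn W y)) := by
    unfold tW wt
    have h1 := sum_treeInd G S (fun A => Real.exp (2 * ∑ i ∈ A, tiltOn W y i))
    have h2 := sum_treeInd G S (fun A => Real.exp (2 * ∑ i ∈ A, tiltOn W y i) * ind e A)
    simp_rw [mul_assoc] at h2 ⊢
    rw [h1, h2, Finset.mul_sum, ← Finset.sum_sub_distrib, Finset.mul_sum]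
    apply Finset.sum_congr rfl
    intro A _
    rw [htilt, hspin]
    ring
  rw [hden, hnum]
  unfold tT tE
  have hW : tW (treeInd G S) (edgesIn G S) (tiltOn W y) ≠ 0 :=
    (tW_pos (treeInd_nonneg G S) (exists_tree hS) _).ne'
  have hNinv : (N)⁻¹ ≠ 0 := inv_ne_zero hN0
  have hN1 : ((TT G S).card : ℝ) ≠ 0 := hN0
  field_simp

end MeanUST

end Crest.Agent.H5SL
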