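import Crest.Agent.H5SLGauss

/-!
Discrete-time innovation theorem for finite spin systems (no Ito calculus):
the characteristic function of the discrete innovations of `Y_j = j ε x + noise` is, up to
`O(ε²)` per step, that of independent Gaussian increments.
-/

set_option autoImplicit false
set_option linter.unusedSectionVars false

open MeasureTheory ProbabilityTheory Complex
open scoped NNReal ENNReal

namespace Crest.Agent.H5SL

/-- spin of a Boolean -/
def spin (b : Bool) : ℝ := if b then 1 else -1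

lemma spin_sq (b : Bool) : spin b ^ 2 = 1 := by
  cases b <;> simp [spin]

lemma abs_spin (b : Bool) : |spin b| = 1 := by
  cases b <;> simp [spin]

variable {U : Type*} [Fintype U] [DecidableEq U]

/-- spin vector -/
def spinV (x : U → Bool) : U → ℝ := fun e => spin (x e)

lemma sum_spinV_sq (x : U → Bool) : ∑ e, spinV x e ^ 2 = Fintype.card U := by
  simp [spinV, spin_sq]

/-- weights on patterns -/
structure Wts (p : (U → Bool) → ℝ) : Prop where
  nonneg : ∀ x, 0 ≤ p x
  sum_one : ∑ x, p x = 1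

/-- partition function -/
noncomputable def Zf (p : (U → Bool) → ℝ) (y : U → ℝ) : ℝ :=
  ∑ x, p x * Real.exp (dotR (spinV x) y)

/-- posterior weights -/
noncomputable def post (p : (U → Bool) → ℝ) (y : U → ℝ) (x : U → Bool) : ℝ :=
  p x * Real.exp (dotR (spinV x) y) / Zf p y

/-- posterior mean -/
noncomputable def mf (p : (U → Bool) → ℝ) (e : U) (y : U → ℝ) : ℝ :=
  ∑ x, post p y x * spin (x e)

variable {p : (U → Bool) → ℝ}

lemma Wts.Zf_pos (hp : Wts p) (y : U → ℝ) : 0 < Zf p y := by
  have hex : ∃ x, 0 < p x := by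
    by_contra h
    push Not at h
    have : ∑ x, p x ≤ 0 := Finset.sum_nonpos fun x _ => h x
    rw [hp.sum_one] at this
    linarith
  obtain ⟨x, hx⟩ := hex
  exact Finset.sum_pos' (fun x _ => mul_nonneg (hp.nonneg x) (Real.exp_pos _).le)
    ⟨x, Finset.mem_univ x, mul_pos hx (Real.exp_pos _)⟩

lemma Wts.post_nonneg (hp : Wts p) (y : U → ℝ) (x : U → Bool) : 0 ≤ post p y x :=
  div_nonneg (mul_nonneg (hp.nonneg x) (Real.exp_pos _).le) (hp.Zf_pos y).le

lemma Wts.sum_post (hp : Wts p) (y : U → ℝ) : ∑ x, post p y x = 1 := by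
  unfold post
  rw [← Finset.sum_div]
  exact div_self (hp.Zf_pos y).ne'

lemma Wts.post_zero (hp : Wts p) (x : U → Bool) : post p (fun _ => 0) x = p x := by
  have h0 : ∀ x : U → Bool, dotR (spinV x) (fun _ => (0:ℝ)) = 0 := by
    intro x; simp [dotR]
  have hZ : Zf p (fun _ => 0) = 1 := by
    unfold Zf
    simp only [h0, Real.exp_zero, mul_one]
    exact hp.sum_one
  unfold post
  rw [hZ, h0]
  simp

lemma Wts.abs_mf_le (hp : Wts p) (e : U) (y : U → ℝ) : |mf p e y| ≤ 1 := by
  unfold mf
  calc |∑ x, post p y x * spin (x e)| ≤ ∑ x, |post p y x * spin (x e)| :=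
        Finset.abs_sum_le_sum_abs _ _
    _ = ∑ x, post p y x := by
        apply Finset.sum_congr rfl
        intro x _
        rw [abs_mul, abs_spin, mul_one, abs_of_nonneg (hp.post_nonneg y x)]
    _ = 1 := hp.sum_post y

lemma continuous_Zf (p : (U → Bool) → ℝ) : Continuous (Zf p) := by
  unfold Zf
  refine continuous_finsetSum _ fun x _ => continuous_const.mul ?_
  exact Real.continuous_exp.comp (continuous_dotR_right _)

lemma Wts.continuous_post (hp : Wts p) (x : U → Bool) : Continuous (fun y => post p y x) := by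
  unfold post
  refine Continuous.div (continuous_const.mul ?_) (continuous_Zf p) (fun y => (hp.Zf_pos y).ne')
  exact Real.continuous_exp.comp (continuous_dotR_right _)

lemma Wts.continuous_mf (hp : Wts p) (e : U) : Continuous (mf p e) := by
  unfold mf
  exact continuous_finsetSum _ fun x _ => (hp.continuous_post x).mul continuous_const

lemma Wts.measurable_mf (hp : Wts p) (e : U) : Measurable (mf p e) :=
  (hp.continuous_mf e).measurable

/-- posterior update rule -/
lemma Wts.post_shift (hp : Wts p) (y d : U → ℝ) (x : U → Bool) :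
    post p y x * Real.exp (dotR (spinV x) d) =
      post p (fun e => y e + d e) x * (Zf p (fun e => y e + d e) / Zf p y) := by
  unfold post
  have h1 := (hp.Zf_pos y).ne'
  have h2 := (hp.Zf_pos (fun e => y e + d e)).ne'
  rw [dotR_add_right, Real.exp_add]
  field_simp

/-- shift by `ε x` -/
def sh (ε : ℝ≥0) (x : U → Bool) (ξ : U → ℝ) : U → ℝ := fun e => (ε : ℝ) * spinV x e + ξ e

/-- innovation vector of an increment `d` at state `y` -/
noncomputable def inn (p : (U → Bool) → ℝ) (ε : ℝ≥0) (y d : U → ℝ) : U → ℝ :=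
  fun e => d e - (ε : ℝ) * mf p e y

/-- one-step exponential -/
noncomputable def eS (p : (U → Bool) → ℝ) (ε : ℝ≥0) (θ y d : U → ℝ) : ℂ :=
  cexp (I * ((dotR θ (inn p ε y d) : ℝ) : ℂ))

/-- unit modulus -/
lemma norm_eS (p : (U → Bool) → ℝ) (ε : ℝ≥0) (θ y d : U → ℝ) : ‖eS p ε θ y d‖ = 1 := by
  unfold eS
  rw [mul_comm]
  exact Complex.norm_exp_ofReal_mul_I _

lemma Wts.measurable_inn (hp : Wts p) (ε : ℝ≥0) :
    Measurable (fun q : (U → ℝ) × (U → ℝ) => inn p ε q.1 q.2) := by
  unfold inn
  refine measurable_pi_iff.2 fun e => ?_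
  exact ((measurable_pi_apply e).comp measurable_snd).sub
    (measurable_const.mul ((hp.measurable_mf e).comp measurable_fst))

lemma measurable_sh (ε : ℝ≥0) (x : U → Bool) : Measurable (sh ε x) := by
  unfold sh
  exact measurable_pi_iff.2 fun e => measurable_const.add (measurable_pi_apply e)

lemma Wts.measurable_eS (hp : Wts p) (ε : ℝ≥0) (θ : U → ℝ) :
    Measurable (fun q : (U → ℝ) × (U → ℝ) => eS p ε θ q.1 q.2) := by
  unfold eS
  refine Complex.measurable_exp.comp (measurable_const.mul ?_)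
  exact Complex.measurable_ofReal.comp ((measurable_dotR_right θ).comp (hp.measurable_inn ε))

lemma Wts.measurable_eS_sh (hp : Wts p) (ε : ℝ≥0) (θ : U → ℝ) (x : U → Bool) :
    Measurable (fun q : (U → ℝ) × (U → ℝ) => eS p ε θ q.1 (sh ε x q.2)) := by
  have h1 : Measurable (fun q : (U → ℝ) × (U → ℝ) => (q.1, sh ε x q.2)) :=
    measurable_fst.prodMk ((measurable_sh ε x).comp measurable_snd)
  have h2 := (hp.measurable_eS ε θ).comp h1
  exact h2

/-- The conditional value function given the hidden pattern. -/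
noncomputable def Vv (p : (U → Bool) → ℝ) (ε : ℝ≥0) (x : U → Bool) :
    ℕ → (ℕ → U → ℝ) → (U → ℝ) → ℂ
  | 0, _, _ => 1
  | K + 1, θ, y => ∫ ξ, eS p ε (θ 0) y (sh ε x ξ) *
      Vv p ε x K (fun j => θ (j + 1)) (fun e => y e + sh ε x ξ e) ∂(gam U ε)

/-- The value function with respect to the observed filtration. -/
noncomputable def uu (p : (U → Bool) → ℝ) (ε : ℝ≥0) :
    ℕ → (ℕ → U → ℝ) → (U → ℝ) → ℂ
  | 0, _, _ => 1
  | K + 1, θ, y => ∑ x, (post p y x : ℂ) * ∫ ξ, eS p ε (θ 0) y (sh ε x ξ) *
      uu p ε K (fun j => θ (j + 1)) (fun e => y e + sh ε x ξ e) ∂(gam U ε)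

lemma measurable_add_sh (ε : ℝ≥0) (x : U → Bool) :
    Measurable (fun q : (U → ℝ) × (U → ℝ) => fun e => q.1 e + sh ε x q.2 e) := by
  refine measurable_pi_iff.2 fun e => ?_
  exact ((measurable_pi_apply e).comp measurable_fst).add
    ((measurable_pi_apply e).comp ((measurable_sh ε x).comp measurable_snd))

lemma Wts.measurable_Vv (hp : Wts p) (ε : ℝ≥0) (x : U → Bool) (K : ℕ) :
    ∀ θ, Measurable (Vv p ε x K θ) := by
  induction K with
  | zero => intro θ; simp only [Vv]; exact measurable_const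
  | succ K ih =>
    intro θ
    have hjoint : Measurable (fun q : (U → ℝ) × (U → ℝ) =>
        eS p ε (θ 0) q.1 (sh ε x q.2) *
          Vv p ε x K (fun j => θ (j + 1)) (fun e => q.1 e + sh ε x q.2 e)) := by
      apply Measurable.mul
      · exact hp.measurable_eS_sh ε (θ 0) x
      · exact (ih _).comp (measurable_add_sh ε x)
    have := hjoint.stronglyMeasurable.integral_prod_right' (ν := gam U ε)
    exact this.measurable

lemma norm_Vv_le (hp : Wts p) (ε : ℝ≥0) (x : U → Bool) (K : ℕ) :
    ∀ θ y, ‖Vv p ε x K θ y‖ ≤ 1 := by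
  induction K with
  | zero => intro θ y; simp [Vv]
  | succ K ih =>
    intro θ y
    simp only [Vv]
    have h := norm_integral_le_of_norm_le_const (μ := gam U ε) (C := 1)
      (f := fun ξ => eS p ε (θ 0) y (sh ε x ξ) *
        Vv p ε x K (fun j => θ (j + 1)) (fun e => y e + sh ε x ξ e))
      (Filter.Eventually.of_forall fun ξ => by
        rw [norm_mul, norm_eS, one_mul]
        exact ih _ _)
    simpa using h

lemma Wts.measurable_uu (hp : Wts p) (ε : ℝ≥0) (K : ℕ) :
    ∀ θ, Measurable (uu p ε K θ) := by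
  induction K with
  | zero => intro θ; simp only [uu]; exact measurable_const
  | succ K ih =>
    intro θ
    simp only [uu]
    apply Finset.measurable_fun_sum
    intro x _
    apply Measurable.mul
    · exact Complex.continuous_ofReal.measurable.comp (hp.continuous_post x).measurable
    · have hjoint : Measurable (fun q : (U → ℝ) × (U → ℝ) =>
        eS p ε (θ 0) q.1 (sh ε x q.2) *
          uu p ε K (fun j => θ (j + 1)) (fun e => q.1 e + sh ε x q.2 e)) := by
        apply Measurable.mul
        · exact hp.measurable_eS_sh ε (θ 0) x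
        · exact (ih _).comp (measurable_add_sh ε x)
      have := hjoint.stronglyMeasurable.integral_prod_right' (ν := gam U ε)
      exact this.measurable

lemma norm_sum_post_le (hp : Wts p) (y : U → ℝ) (f : (U → Bool) → ℂ) (C : ℝ)
    (hf : ∀ x, ‖f x‖ ≤ C) : ‖∑ x, (post p y x : ℂ) * f x‖ ≤ C := by
  calc ‖∑ x, (post p y x : ℂ) * f x‖ ≤ ∑ x, ‖(post p y x : ℂ) * f x‖ := norm_sum_le _ _
    _ ≤ ∑ x, post p y x * C := by
        apply Finset.sum_le_sum
        intro x _
        rw [norm_mul, Complex.norm_real, Real.norm_eq_abs, abs_of_nonneg (hp.post_nonneg y x)]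
        exact mul_le_mul_of_nonneg_left (hf x) (hp.post_nonneg y x)
    _ = C := by rw [← Finset.sum_mul, hp.sum_post, one_mul]

lemma norm_uu_le (hp : Wts p) (ε : ℝ≥0) (K : ℕ) :
    ∀ θ y, ‖uu p ε K θ y‖ ≤ 1 := by
  induction K with
  | zero => intro θ y; simp [uu]
  | succ K ih =>
    intro θ y
    simp only [uu]
    apply norm_sum_post_le hp y
    intro x
    have h := norm_integral_le_of_norm_le_const (μ := gam U ε) (C := 1)
      (f := fun ξ => eS p ε (θ 0) y (sh ε x ξ) *
        uu p ε K (fun j => θ (j + 1)) (fun e => y e + sh ε x ξ e))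
      (Filter.Eventually.of_forall fun ξ => by
        rw [norm_mul, norm_eS, one_mul]
        exact ih _ _)
    simpa using h

/-- likelihood ratio for one step -/
noncomputable def lrat (p : (U → Bool) → ℝ) (ε : ℝ≥0) (y d : U → ℝ) : ℝ :=
  Real.exp (-(ε * (Fintype.card U : ℝ)) / 2) * (Zf p (fun e => y e + d e) / Zf p y)

/-- The mixing identity: Bayes plus Cameron-Martin. -/
theorem Wts.mix (hp : Wts p) {ε : ℝ≥0} (hε : ε ≠ 0) (θ y : U → ℝ)
    (G : (U → Bool) → (U → ℝ) → ℂ) (hGm : ∀ x, Measurable (G x)) (hGb : ∀ x z, ‖G x z‖ ≤ 1) :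
    ∑ x, (post p y x : ℂ) * ∫ ξ, eS p ε θ y (sh ε x ξ) * G x (fun e => y e + sh ε x ξ e) ∂(gam U ε) =
      ∫ d, (lrat p ε y d : ℂ) * (eS p ε θ y d *
        ∑ x, (post p (fun e => y e + d e) x : ℂ) * G x (fun e => y e + d e)) ∂(gam U ε) := by
  have hF : ∀ x, Measurable (fun d : U → ℝ => eS p ε θ y d * G x (fun e => y e + d e)) := by
    intro x
    apply Measurable.mul
    · have : Measurable (fun d : U → ℝ => (y, d)) := measurable_const.prodMk measurable_id
      have h2 := (hp.measurable_eS ε θ).comp this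
      exact h2
    · apply (hGm x).comp
      exact measurable_pi_iff.2 fun e => measurable_const.add (measurable_pi_apply e)
  have h1 : ∀ x, ∫ ξ, eS p ε θ y (sh ε x ξ) * G x (fun e => y e + sh ε x ξ e) ∂(gam U ε) =
      ∫ d, ((Real.exp (dotR (spinV x) d - ε * (Fintype.card U : ℝ) / 2) : ℝ) : ℂ) *
        (eS p ε θ y d * G x (fun e => y e + d e)) ∂(gam U ε) := by
    intro x
    have := integral_gam_shift hε (spinV x) (hF x)
    rw [sum_spinV_sq] at this
    exact this
  simp_rw [h1]
  have hint : ∀ x, Integrable (fun d => ((Real.exp (dotR (spinV x) d - ε * (Fintype.card U : ℝ) / 2) : ℝ) : ℂ) *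
        (eS p ε θ y d * G x (fun e => y e + d e))) (gam U ε) := by
    intro x
    have h2 := integrable_gam_density hε (spinV x)
    rw [sum_spinV_sq] at h2
    have h3 : Integrable (fun d => ((Real.exp (dotR (spinV x) d - ε * (Fintype.card U : ℝ) / 2) : ℝ) : ℂ)) (gam U ε) :=
      h2.ofReal
    apply h3.mul_bdd (c := 1) (hF x).aestronglyMeasurable
    filter_upwards with d
    rw [norm_mul, norm_eS, one_mul]
    exact hGb _ _
  simp_rw [← integral_const_mul]
  rw [← integral_finsetSum _ (fun x _ => (hint x).const_mul _)]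
  apply integral_congr_ae
  filter_upwards with d
  -- pointwise identity
  have h4 : ∀ x, (post p y x : ℂ) * (((Real.exp (dotR (spinV x) d - ε * (Fintype.card U : ℝ) / 2) : ℝ) : ℂ) *
      (eS p ε θ y d * G x (fun e => y e + d e))) =
      (lrat p ε y d : ℂ) * (eS p ε θ y d * ((post p (fun e => y e + d e) x : ℂ) * G x (fun e => y e + d e))) := by
    intro x
    have h5 := hp.post_shift y d x
    have h6 : post p y x * Real.exp (dotR (spinV x) d - ε * (Fintype.card U : ℝ) / 2) =
        lrat p ε y d * post p (fun e => y e + d e) x := by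
      unfold lrat
      rw [sub_eq_add_neg, Real.exp_add, ← mul_assoc, h5]
      have : -(↑ε * (Fintype.card U : ℝ) / 2) = -(↑ε * (Fintype.card U : ℝ)) / 2 := by ring
      rw [this]
      ring
    have h7 := congrArg (fun r : ℝ => (r : ℂ)) h6
    simp only [Complex.ofReal_mul] at h7
    calc _ = ((post p y x : ℂ) * ((Real.exp (dotR (spinV x) d - ε * (Fintype.card U : ℝ) / 2) : ℝ) : ℂ)) *
          (eS p ε θ y d * G x (fun e => y e + d e)) := by ring
      _ = _ := by rw [h7]; ring
  simp_rw [h4]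
  rw [← Finset.mul_sum, ← Finset.mul_sum]

/-- The observed value function is the posterior average of the conditional value function. -/
theorem Wts.uu_eq (hp : Wts p) {ε : ℝ≥0} (hε : ε ≠ 0) (K : ℕ) :
    ∀ θ y, uu p ε K θ y = ∑ x, (post p y x : ℂ) * Vv p ε x K θ y := by
  induction K with
  | zero =>
    intro θ y
    simp only [uu, Vv, mul_one]
    have := hp.sum_post y
    rw [← Complex.ofReal_sum, this]
    simp
  | succ K ih =>
    intro θ y
    simp only [uu, Vv]
    rw [hp.mix hε (θ 0) y (fun _ => uu p ε K (fun j => θ (j + 1)))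
      (fun _ => hp.measurable_uu ε K _) (fun _ z => norm_uu_le hp ε K _ z)]
    rw [hp.mix hε (θ 0) y (fun x => Vv p ε x K (fun j => θ (j + 1)))
      (fun x => hp.measurable_Vv ε x K _) (fun x z => norm_Vv_le hp ε x K _ z)]
    apply integral_congr_ae
    filter_upwards with d
    congr 2
    rw [← ih]
    rw [← Finset.sum_mul, ← Complex.ofReal_sum, hp.sum_post]
    simp

/-- Gaussian factor -/
noncomputable def gfac (ε : ℝ≥0) (θ : U → ℝ) : ℝ := Real.exp (-(ε * ∑ e, θ e ^ 2) / 2)

/-- The target value -/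
noncomputable def cc (ε : ℝ≥0) : ℕ → (ℕ → U → ℝ) → ℝ
  | 0, _ => 1
  | K + 1, θ => gfac ε (θ 0) * cc ε K (fun j => θ (j + 1))

/-- one-step error -/
noncomputable def eta (ε : ℝ≥0) (θ : U → ℝ) : ℝ := (2 * ε * ∑ e, |θ e|) ^ 2

/-- the total error -/
noncomputable def dd (ε : ℝ≥0) : ℕ → (ℕ → U → ℝ) → ℝ
  | 0, _ => 0
  | K + 1, θ => eta ε (θ 0) + dd ε K (fun j => θ (j + 1))

lemma abs_cc_le (ε : ℝ≥0) (K : ℕ) : ∀ θ : ℕ → U → ℝ, |cc ε K θ| ≤ 1 := by
  induction K with
  | zero => intro θ; simp [cc]
  | succ K ih =>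
    intro θ
    simp only [cc]
    rw [abs_mul]
    have h1 : |gfac ε (θ 0)| ≤ 1 := by
      unfold gfac
      rw [abs_of_pos (Real.exp_pos _), Real.exp_le_one_iff]
      have : 0 ≤ (ε : ℝ) * ∑ e, θ 0 e ^ 2 :=
        mul_nonneg ε.2 (Finset.sum_nonneg fun e _ => sq_nonneg _)
      linarith
    have h2 := ih (fun j => θ (j + 1))
    calc _ ≤ (1:ℝ) * 1 := mul_le_mul h1 h2 (abs_nonneg _) zero_le_one
      _ = 1 := by norm_num

/-- the value of the single step integral for constant continuation. -/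
lemma Wts.one_step_const (hp : Wts p) {ε : ℝ≥0} (hε : ε ≠ 0) (θ y : U → ℝ) (x : U → Bool) :
    ∫ ξ, eS p ε θ y (sh ε x ξ) ∂(gam U ε) =
      cexp (I * (((ε : ℝ) * dotR θ (fun e => spinV x e - mf p e y) : ℝ) : ℂ)) * (gfac ε θ : ℂ) := by
  have h1 : ∀ ξ, eS p ε θ y (sh ε x ξ) =
      cexp (I * (((ε : ℝ) * dotR θ (fun e => spinV x e - mf p e y) : ℝ) : ℂ)) *
        cexp (I * ((dotR θ ξ : ℝ) : ℂ)) := by
    intro ξ
    unfold eS
    rw [← Complex.exp_add, ← mul_add, ← Complex.ofReal_add]
    congr 3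
    unfold dotR inn sh
    rw [Finset.mul_sum, ← Finset.sum_add_distrib]
    apply Finset.sum_congr rfl
    intro e _
    ring
  simp_rw [h1]
  rw [integral_const_mul, integral_gam_charFun]
  rfl

/-- second order bound for the posterior average of phases. -/
lemma Wts.post_phase_bound (hp : Wts p) (ε : ℝ≥0) (θ y : U → ℝ)
    (hsmall : 2 * (ε : ℝ) * ∑ e, |θ e| ≤ 1) :
    ‖(∑ x, (post p y x : ℂ) *
        cexp (I * (((ε : ℝ) * dotR θ (fun e => spinV x e - mf p e y) : ℝ) : ℂ))) - 1‖ ≤ eta ε θ := by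
  set a : (U → Bool) → ℝ := fun x => (ε : ℝ) * dotR θ (fun e => spinV x e - mf p e y) with ha
  have hsum0 : ∑ x, post p y x * a x = 0 := by
    simp only [ha, dotR]
    have : ∀ x, post p y x * ((ε : ℝ) * ∑ e, θ e * (spinV x e - mf p e y)) =
        (ε : ℝ) * ∑ e, θ e * (post p y x * spinV x e - post p y x * mf p e y) := by
      intro x
      rw [mul_left_comm, Finset.mul_sum]
      congr 1
      apply Finset.sum_congr rfl
      intro e _
      ring
    simp_rw [this]
    rw [← Finset.mul_sum, Finset.sum_comm]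
    have h2 : ∀ e, ∑ x, θ e * (post p y x * spinV x e - post p y x * mf p e y) = 0 := by
      intro e
      rw [← Finset.mul_sum, Finset.sum_sub_distrib, ← Finset.sum_mul, hp.sum_post, one_mul]
      have : ∑ x, post p y x * spinV x e = mf p e y := rfl
      rw [this, sub_self, mul_zero]
    simp [h2]
  have habs : ∀ x, |a x| ≤ 2 * (ε : ℝ) * ∑ e, |θ e| := by
    intro x
    simp only [ha, dotR]
    rw [abs_mul, abs_of_nonneg (NNReal.coe_nonneg ε)]
    have : |∑ e, θ e * (spinV x e - mf p e y)| ≤ ∑ e, 2 * |θ e| := by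
      refine (Finset.abs_sum_le_sum_abs _ _).trans (Finset.sum_le_sum ?_)
      intro e _
      rw [abs_mul, mul_comm]
      apply mul_le_mul_of_nonneg_right _ (abs_nonneg _)
      have h1 : |spinV x e| = 1 := abs_spin _
      have h2 := hp.abs_mf_le e y
      have h3 := abs_sub (spinV x e) (mf p e y)
      linarith
    rw [← Finset.mul_sum] at this
    calc (ε : ℝ) * |∑ e, θ e * (spinV x e - mf p e y)| ≤ ε * (2 * ∑ e, |θ e|) :=
          mul_le_mul_of_nonneg_left this ε.2
      _ = _ := by ring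
  have hterm : ∀ x, ‖cexp (I * ((a x : ℝ) : ℂ)) - 1 - I * ((a x : ℝ) : ℂ)‖ ≤ eta ε θ := by
    intro x
    have hn : ‖I * ((a x : ℝ) : ℂ)‖ = |a x| := by
      rw [norm_mul, Complex.norm_I, one_mul, Complex.norm_real, Real.norm_eq_abs]
    have h1 : ‖I * ((a x : ℝ) : ℂ)‖ ≤ 1 := by
      rw [hn]; exact (habs x).trans hsmall
    have h2 := Complex.norm_exp_sub_one_sub_id_le h1
    rw [hn] at h2
    refine h2.trans ?_
    unfold eta
    have h3 : |a x| ^ 2 ≤ (2 * (ε : ℝ) * ∑ e, |θ e|) ^ 2 :=
      pow_le_pow_left₀ (abs_nonneg _) (habs x) 2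
    exact h3
  have hdecomp : (∑ x, (post p y x : ℂ) * cexp (I * ((a x : ℝ) : ℂ))) - 1 =
      ∑ x, (post p y x : ℂ) * (cexp (I * ((a x : ℝ) : ℂ)) - 1 - I * ((a x : ℝ) : ℂ)) := by
    have h1 : ∑ x, (post p y x : ℂ) = 1 := by
      rw [← Complex.ofReal_sum, hp.sum_post]; simp
    have h2 : ∑ x, (post p y x : ℂ) * (I * ((a x : ℝ) : ℂ)) = 0 := by
      have : ∀ x, (post p y x : ℂ) * (I * ((a x : ℝ) : ℂ)) = I * ((post p y x * a x : ℝ) : ℂ) := by
        intro x; push_cast; ring
      simp_rw [this]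
      rw [← Finset.mul_sum, ← Complex.ofReal_sum, hsum0]
      simp
    simp only [mul_sub, Finset.sum_sub_distrib, mul_one]
    rw [h1, h2, sub_zero]
  rw [hdecomp]
  exact norm_sum_post_le hp y _ _ hterm

/-- **Discrete innovation bound.** -/
theorem Wts.uu_bound (hp : Wts p) {ε : ℝ≥0} (hε : ε ≠ 0) (K : ℕ) :
    ∀ (θ : ℕ → U → ℝ), (∀ j < K, 2 * (ε : ℝ) * ∑ e, |θ j e| ≤ 1) → ∀ y,
      ‖uu p ε K θ y - (cc ε K θ : ℂ)‖ ≤ dd ε K θ := by
  induction K with
  | zero => intro θ _ y; simp [uu, cc, dd]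
  | succ K ih =>
    intro θ hθ y
    simp only [uu, cc, dd]
    set θ' : ℕ → U → ℝ := fun j => θ (j + 1) with hθ'
    have hih := ih θ' (fun j hj => hθ (j + 1) (by omega))
    set c' := cc ε K θ' with hc'
    have hc'abs : |c'| ≤ 1 := abs_cc_le ε K θ'
    have hmeas : ∀ x, Measurable (fun ξ => eS p ε (θ 0) y (sh ε x ξ)) := by
      intro x
      have : Measurable (fun ξ : U → ℝ => (y, sh ε x ξ)) :=
        measurable_const.prodMk (measurable_sh ε x)
      have h2 := (hp.measurable_eS ε (θ 0)).comp this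
      exact h2
    have hint1 : ∀ x, Integrable (fun ξ => eS p ε (θ 0) y (sh ε x ξ)) (gam U ε) := by
      intro x
      refine Integrable.of_bound (hmeas x).aestronglyMeasurable 1 ?_
      filter_upwards with ξ
      rw [norm_eS]
    have hint2 : ∀ x, Integrable (fun ξ => eS p ε (θ 0) y (sh ε x ξ) *
        uu p ε K θ' (fun e => y e + sh ε x ξ e)) (gam U ε) := by
      intro x
      refine Integrable.of_bound ?_ 1 ?_
      · apply Measurable.aestronglyMeasurable
        apply (hmeas x).mul
        apply (hp.measurable_uu ε K θ').comp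
        exact measurable_pi_iff.2 fun e =>
          measurable_const.add ((measurable_pi_apply e).comp (measurable_sh ε x))
      · filter_upwards with ξ
        rw [norm_mul, norm_eS, one_mul]
        exact norm_uu_le hp ε K _ _
    -- split
    have hsplit : ∑ x, (post p y x : ℂ) * ∫ ξ, eS p ε (θ 0) y (sh ε x ξ) *
          uu p ε K θ' (fun e => y e + sh ε x ξ e) ∂(gam U ε) -
        ((gfac ε (θ 0) * c' : ℝ) : ℂ) =
        (∑ x, (post p y x : ℂ) * ∫ ξ, eS p ε (θ 0) y (sh ε x ξ) *
          (uu p ε K θ' (fun e => y e + sh ε x ξ e) - (c' : ℂ)) ∂(gam U ε)) +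
        (c' : ℂ) * (gfac ε (θ 0) : ℂ) * ((∑ x, (post p y x : ℂ) *
          cexp (I * (((ε : ℝ) * dotR (θ 0) (fun e => spinV x e - mf p e y) : ℝ) : ℂ))) - 1) := by
      have h1 : ∀ x, ∫ ξ, eS p ε (θ 0) y (sh ε x ξ) *
          (uu p ε K θ' (fun e => y e + sh ε x ξ e) - (c' : ℂ)) ∂(gam U ε) =
          (∫ ξ, eS p ε (θ 0) y (sh ε x ξ) * uu p ε K θ' (fun e => y e + sh ε x ξ e) ∂(gam U ε)) -
            (c' : ℂ) * ∫ ξ, eS p ε (θ 0) y (sh ε x ξ) ∂(gam U ε) := by
        intro x
        simp_rw [mul_sub]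
        rw [integral_sub (hint2 x) ((hint1 x).mul_const _), integral_mul_const]
        ring
      simp_rw [h1, hp.one_step_const hε, mul_sub, Finset.sum_sub_distrib]
      have h2 : ∑ x, (post p y x : ℂ) * ((c' : ℂ) *
          (cexp (I * (((ε : ℝ) * dotR (θ 0) (fun e => spinV x e - mf p e y) : ℝ) : ℂ)) * (gfac ε (θ 0) : ℂ))) =
          (c' : ℂ) * (gfac ε (θ 0) : ℂ) * ∑ x, (post p y x : ℂ) *
            cexp (I * (((ε : ℝ) * dotR (θ 0) (fun e => spinV x e - mf p e y) : ℝ) : ℂ)) := by
        rw [Finset.mul_sum]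
        apply Finset.sum_congr rfl
        intro x _
        ring
      rw [h2]
      push_cast
      ring
    rw [hsplit]
    refine (norm_add_le _ _).trans ?_
    rw [add_comm]
    apply add_le_add
    · rw [norm_mul, norm_mul, Complex.norm_real, Complex.norm_real]
      have h3 := hp.post_phase_bound ε (θ 0) y (hθ 0 (by omega))
      have h4 : ‖gfac ε (θ 0)‖ ≤ 1 := by
        rw [Real.norm_eq_abs]
        unfold gfac
        rw [abs_of_pos (Real.exp_pos _), Real.exp_le_one_iff]
        have : 0 ≤ (ε : ℝ) * ∑ e, θ 0 e ^ 2 :=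
          mul_nonneg ε.2 (Finset.sum_nonneg fun e _ => sq_nonneg _)
        linarith
      have h5 : ‖c'‖ ≤ 1 := by rwa [Real.norm_eq_abs]
      have h6 : 0 ≤ eta ε (θ 0) := by unfold eta; positivity
      calc _ ≤ (1 * 1) * eta ε (θ 0) := by
            apply mul_le_mul (mul_le_mul h5 h4 (norm_nonneg _) zero_le_one) h3 (norm_nonneg _)
            positivity
        _ = _ := by ring
    · apply norm_sum_post_le hp y
      intro x
      have h := norm_integral_le_of_norm_le_const (μ := gam U ε) (C := dd ε K θ')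
        (f := fun ξ => eS p ε (θ 0) y (sh ε x ξ) *
          (uu p ε K θ' (fun e => y e + sh ε x ξ e) - (c' : ℂ)))
        (Filter.Eventually.of_forall fun ξ => by
          rw [norm_mul, norm_eS, one_mul]
          exact hih _)
      simpa using h

/-- closed form of the target -/
lemma cc_eq (ε : ℝ≥0) (K : ℕ) : ∀ θ : ℕ → U → ℝ,
    cc ε K θ = Real.exp (-(ε * ∑ j ∈ Finset.range K, ∑ e, θ j e ^ 2) / 2) := by
  induction K with
  | zero => intro θ; simp [cc]
  | succ K ih =>
    intro θ
    simp only [cc]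
    rw [ih, gfac, ← Real.exp_add, Finset.sum_range_succ']
    congr 1
    ring

/-- closed form of the error -/
lemma dd_eq (ε : ℝ≥0) (K : ℕ) : ∀ θ : ℕ → U → ℝ,
    dd ε K θ = ∑ j ∈ Finset.range K, eta ε (θ j) := by
  induction K with
  | zero => intro θ; simp [dd]
  | succ K ih =>
    intro θ
    simp only [dd]
    rw [ih, Finset.sum_range_succ']
    ring

/-- The pathwise product of exponentials -/
noncomputable def prodE (p : (U → Bool) → ℝ) (ε : ℝ≥0) (x : U → Bool) :
    (K : ℕ) → (ℕ → U → ℝ) → (U → ℝ) → (Fin K → U → ℝ) → ℂ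
  | 0, _, _, _ => 1
  | K + 1, θ, y, ξ => eS p ε (θ 0) y (sh ε x (ξ 0)) *
      prodE p ε x K (fun j => θ (j + 1)) (fun e => y e + sh ε x (ξ 0) e) (fun j => ξ j.succ)

lemma Wts.measurable_prodE (hp : Wts p) (ε : ℝ≥0) (x : U → Bool) (K : ℕ) :
    ∀ θ, Measurable (fun q : (U → ℝ) × (Fin K → U → ℝ) => prodE p ε x K θ q.1 q.2) := by
  induction K with
  | zero => intro θ; simp only [prodE]; exact measurable_const
  | succ K ih =>
    intro θ
    simp only [prodE]
    apply Measurable.mul
    · have h1 : Measurable (fun q : (U → ℝ) × (Fin (K + 1) → U → ℝ) => (q.1, q.2 0)) :=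
        measurable_fst.prodMk ((measurable_pi_apply 0).comp measurable_snd)
      have h2 := (hp.measurable_eS_sh ε (θ 0) x).comp h1
      exact h2
    · have h1 : Measurable (fun q : (U → ℝ) × (Fin (K + 1) → U → ℝ) =>
          (((fun e => q.1 e + sh ε x (q.2 0) e) : U → ℝ), (fun j : Fin K => q.2 j.succ))) := by
        apply Measurable.prodMk
        · refine measurable_pi_iff.2 fun e => ?_
          exact ((measurable_pi_apply e).comp measurable_fst).add
            ((measurable_pi_apply e).comp ((measurable_sh ε x).comp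
              ((measurable_pi_apply 0).comp measurable_snd)))
        · refine measurable_pi_iff.2 fun j => ?_
          exact (measurable_pi_apply j.succ).comp measurable_snd
      have h2 := (ih (fun j => θ (j + 1))).comp h1
      exact h2

lemma norm_prodE (p : (U → Bool) → ℝ) (ε : ℝ≥0) (x : U → Bool) (K : ℕ) :
    ∀ θ y ξ, ‖prodE p ε x K θ y ξ‖ = 1 := by
  induction K with
  | zero => intro θ y ξ; simp [prodE]
  | succ K ih =>
    intro θ y ξ
    simp only [prodE]
    rw [norm_mul, norm_eS, one_mul, ih]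

/-- `Vv` as an integral over the noise sequence -/
theorem Wts.Vv_eq (hp : Wts p) (ε : ℝ≥0) (x : U → Bool) (K : ℕ) :
    ∀ θ y, Vv p ε x K θ y =
      ∫ ξ, prodE p ε x K θ y ξ ∂(Measure.pi (fun _ : Fin K => gam U ε)) := by
  induction K with
  | zero =>
    intro θ y
    simp [Vv, prodE]
  | succ K ih =>
    intro θ y
    have hmp := measurePreserving_piFinSuccAbove (fun _ : Fin (K + 1) => gam U ε) 0
    have hmp' := hmp.symm
    rw [← hmp'.integral_comp']
    simp only [Vv]
    have hint : Integrable (fun q : (U → ℝ) × (Fin K → U → ℝ) =>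
        prodE p ε x (K + 1) θ y ((MeasurableEquiv.piFinSuccAbove (fun _ : Fin (K + 1) => U → ℝ) 0).symm q))
        ((gam U ε).prod (Measure.pi fun _ : Fin K => gam U ε)) := by
      have hm : Measurable (fun q : (U → ℝ) × (Fin K → U → ℝ) =>
          prodE p ε x (K + 1) θ y ((MeasurableEquiv.piFinSuccAbove (fun _ : Fin (K + 1) => U → ℝ) 0).symm q)) := by
        have h1 : Measurable (fun q : (U → ℝ) × (Fin K → U → ℝ) =>
            (y, (MeasurableEquiv.piFinSuccAbove (fun _ : Fin (K + 1) => U → ℝ) 0).symm q)) :=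
          measurable_const.prodMk (MeasurableEquiv.measurable _)
        have h2 := (hp.measurable_prodE ε x (K + 1) θ).comp h1
        exact h2
      refine Integrable.of_bound hm.aestronglyMeasurable 1 ?_
      filter_upwards with q
      rw [norm_prodE]
    have hfub := integral_prod _ hint
    rw [hfub]
    apply integral_congr_ae
    filter_upwards with a
    rw [ih]
    rw [← integral_const_mul]
    apply integral_congr_ae
    filter_upwards with b
    simp only [prodE]
    simp [MeasurableEquiv.piFinSuccAbove_symm_apply, Fin.insertNthEquiv]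

/-- closed form of the pathwise product along a path. -/
theorem prodE_eq (p : (U → Bool) → ℝ) (ε : ℝ≥0) (x : U → Bool) (K : ℕ) :
    ∀ (θ : ℕ → U → ℝ) (Y : ℕ → U → ℝ) (ξ : ℕ → U → ℝ),
      (∀ j e, Y (j + 1) e = Y j e + sh ε x (ξ j) e) →
      prodE p ε x K θ (Y 0) (fun j : Fin K => ξ j) =
        cexp (I * ((∑ j ∈ Finset.range K, dotR (θ j) (inn p ε (Y j) (sh ε x (ξ j))) : ℝ) : ℂ)) := by
  induction K with
  | zero => intro θ Y ξ _; simp [prodE]
  | succ K ih =>
    intro θ Y ξ hY
    simp only [prodE]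
    have h1 : (fun e => Y 0 e + sh ε x (ξ 0) e) = Y 1 := by
      ext e
      exact (hY 0 e).symm
    have h2 : (fun j : Fin (K + 1) => ξ j) 0 = ξ 0 := rfl
    simp only [Fin.val_zero, h1]
    have h3 := ih (fun j => θ (j + 1)) (fun j => Y (j + 1)) (fun j => ξ (j + 1))
      (fun j e => hY (j + 1) e)
    have h4 : (fun j : Fin K => (fun j : Fin (K + 1) => ξ j) j.succ) =
        (fun j : Fin K => ξ (j + 1)) := by
      ext j e
      simp
    simp only [Fin.val_succ] at h3 ⊢
    rw [h3, eS, ← Complex.exp_add, ← mul_add, ← Complex.ofReal_add, Finset.sum_range_succ' _ K]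
    congr 3
    ring

/-- **The discrete main theorem**: on any probability space carrying a hidden pattern and
independent Gaussian noise vectors, the expected exponential of the discrete innovations is
close to the Gaussian value. -/
theorem discrete_main {Ω : Type*} [MeasurableSpace Ω] {P : Measure Ω} [IsProbabilityMeasure P]
    {x : Ω → U → Bool} (hx : Measurable x) {ξ : ℕ → Ω → U → ℝ}
    {ε : ℝ≥0} (hε : ε ≠ 0) (K : ℕ)
    (hmeas : Measurable (fun ω => (fun j : Fin K => ξ j ω)))
    (hlaw : P.map (fun ω => (x ω, fun j : Fin K => ξ j ω)) =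
      (P.map x).prod (Measure.pi (fun _ : Fin K => gam U ε)))
    (hp : Wts (fun z => (P.map x).real {z}))
    (θ : ℕ → U → ℝ) (hθ : ∀ j < K, 2 * (ε : ℝ) * ∑ e, |θ j e| ≤ 1) :
    ‖∫ ω, prodE (fun z => (P.map x).real {z}) ε (x ω) K θ (fun _ => 0) (fun j => ξ j ω) ∂P -
        (cc ε K θ : ℂ)‖ ≤ dd ε K θ := by
  set p : (U → Bool) → ℝ := fun z => (P.map x).real {z} with hpdef
  have h0 := hp.uu_bound hε K θ hθ (fun _ => 0)
  have hmeasJ : Measurable (fun ω => (x ω, fun j : Fin K => ξ j ω)) := hx.prodMk hmeas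
  have hF : Measurable (fun q : (U → Bool) × (Fin K → U → ℝ) =>
      prodE p ε q.1 K θ (fun _ => 0) q.2) := by
    apply measurable_from_prod_countable_right
    intro z
    have h1 : Measurable (fun s : Fin K → U → ℝ => ((fun _ => 0 : U → ℝ), s)) :=
      measurable_const.prodMk measurable_id
    have h2 := (hp.measurable_prodE ε z K θ).comp h1
    exact h2
  have h1 : ∫ ω, prodE p ε (x ω) K θ (fun _ => 0) (fun j => ξ j ω) ∂P =
      ∫ q, prodE p ε q.1 K θ (fun _ => 0) q.2 ∂(P.map (fun ω => (x ω, fun j : Fin K => ξ j ω))) := by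
    rw [integral_map hmeasJ.aemeasurable hF.aestronglyMeasurable]
  have : IsProbabilityMeasure (P.map x) := Measure.isProbabilityMeasure_map hx.aemeasurable
  rw [h1, hlaw]
  have hint : Integrable (fun q : (U → Bool) × (Fin K → U → ℝ) =>
      prodE p ε q.1 K θ (fun _ => 0) q.2)
      ((P.map x).prod (Measure.pi (fun _ : Fin K => gam U ε))) := by
    refine Integrable.of_bound hF.aestronglyMeasurable 1 ?_
    filter_upwards with q
    rw [norm_prodE]
  rw [integral_prod _ hint, integral_fintype .of_finite]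
  have h2 : ∑ z, (P.map x).real {z} • ∫ s, prodE p ε z K θ (fun _ => 0) s
      ∂(Measure.pi (fun _ : Fin K => gam U ε)) = uu p ε K θ (fun _ => 0) := by
    rw [hp.uu_eq hε]
    apply Finset.sum_congr rfl
    intro z _
    rw [hp.post_zero, hp.Vv_eq]
    rfl
  rw [h2]
  exact h0

end Crest.Agent.H5SL
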