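import Mathlib

/-!
Determinants of matrices of functional graphs with a sink.
-/

set_option autoImplicit false
set_option linter.unusedSectionVars false
set_option linter.unusedVariables false

open Matrix

namespace Crest.Agent.H5SL

section FunGraph

variable {W : Type*} [Fintype W] [DecidableEq W]

/-- The one-step map of a functional graph with sink `none`. -/
def fstep (nx : W → Option W) : Option W → Option W := fun o => o.bind nx

lemma fstep_iter_none (nx : W → Option W) (k : ℕ) : (fstep nx)^[k] none = none := by
  induction k with
  | zero => rfl
  | succ k ih =>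
    rw [Function.iterate_succ_apply]
    simpa [fstep] using ih

lemma fstep_some (nx : W → Option W) (v : W) : fstep nx (some v) = nx v := rfl

/-- `v` reaches the sink. -/
def Reaches (nx : W → Option W) (v : W) : Prop := ∃ k, (fstep nx)^[k] (some v) = none

/-- transition matrix -/
def nMat (nx : W → Option W) : Matrix W W ℂ := fun v u => if nx v = some u then 1 else 0

lemma nMat_pow (nx : W → Option W) (k : ℕ) (v u : W) :
    (nMat nx ^ k) v u = if (fstep nx)^[k] (some v) = some u then 1 else 0 := by
  induction k generalizing v with
  | zero =>
    simp only [pow_zero, Function.iterate_zero, id_eq, Option.some.injEq, Matrix.one_apply]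
  | succ k ih =>
    rw [pow_succ', Matrix.mul_apply, Function.iterate_succ_apply, fstep_some]
    simp only [nMat]
    cases h : nx v with
    | none =>
      simp [fstep_iter_none]
    | some t =>
      rw [Finset.sum_eq_single t]
      · simp [ih]
      · intro b _ hb
        rw [if_neg]
        · simp
        · intro h2
          exact hb (Option.some.inj h2).symm
      · simp

/-- If all reach the sink, the determinant is one. -/
theorem det_one_sub_nMat_of_reach (nx : W → Option W) (h : ∀ v, Reaches nx v) :
    (1 - nMat nx).det = 1 := by
  choose k hk using h
  set K := Finset.univ.sup k with hK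
  have hiter : ∀ v, (fstep nx)^[K] (some v) = none := by
    intro v
    have hle : k v ≤ K := Finset.le_sup (Finset.mem_univ v)
    obtain ⟨d, hd⟩ := Nat.exists_eq_add_of_le hle
    rw [hd, add_comm, Function.iterate_add_apply, hk, fstep_iter_none]
  have hnil : IsNilpotent (nMat nx) := by
    refine ⟨K, ?_⟩
    ext v u
    rw [nMat_pow, hiter]
    simp
  have h1 := Matrix.isNilpotent_charpoly_sub_pow_of_isNilpotent hnil
  have h2 : (nMat nx).charpoly = Polynomial.X ^ Fintype.card W := by
    have := h1.eq_zero
    exact sub_eq_zero.1 this
  have h3 := Matrix.eval_charpoly (nMat nx) (1 : ℂ)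
  rw [h2] at h3
  simp only [Polynomial.eval_pow, Polynomial.eval_X, one_pow] at h3
  have h4 : (Matrix.scalar W) (1 : ℂ) = 1 := by
    ext v u
    simp [Matrix.one_apply, Matrix.scalar_apply, Matrix.diagonal_apply]
  rw [h4] at h3
  exact h3.symm

/-- If some vertex does not reach the sink, the determinant vanishes. -/
theorem det_one_sub_nMat_of_not_reach (nx : W → Option W) {v₀ : W} (h : ¬ Reaches nx v₀) :
    (1 - nMat nx).det = 0 := by
  classical
  let x : W → ℂ := fun v => if Reaches nx v then 0 else 1
  have hx0 : x ≠ 0 := by
    intro h0
    have := congrFun h0 v₀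
    simp [x, h] at this
  refine (Matrix.exists_mulVec_eq_zero_iff).1 ⟨x, hx0, ?_⟩
  ext v
  rw [Matrix.sub_mulVec, Matrix.one_mulVec, Pi.sub_apply, Pi.zero_apply]
  simp only [Matrix.mulVec, dotProduct, nMat]
  cases hn : nx v with
  | none =>
    have hr : Reaches nx v := ⟨1, by simp [fstep_some, hn]⟩
    simp [x, hr]
  | some t =>
    rw [Finset.sum_eq_single t]
    · have hiff : Reaches nx v ↔ Reaches nx t := by
        constructor
        · rintro ⟨k, hk⟩
          cases k with
          | zero => simp at hk
          | succ k =>
            rw [Function.iterate_succ_apply, fstep_some, hn] at hk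
            exact ⟨k, hk⟩
        · rintro ⟨k, hk⟩
          exact ⟨k + 1, by rw [Function.iterate_succ_apply, fstep_some, hn]; exact hk⟩
      simp only [if_true, one_mul, x, hiff, sub_self]
    · intro b _ hb
      rw [if_neg]
      · simp
      · intro h2
        exact hb (Option.some.inj h2).symm
    · simp

end FunGraph

end Crest.Agent.H5SL
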