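import Mathlib

/-!
Gaussian product measures on `U → ℝ`: Cameron-Martin shift and characteristic function.
-/

set_option autoImplicit false
set_option linter.unusedSectionVars false

open MeasureTheory ProbabilityTheory Complex
open scoped NNReal ENNReal

namespace Crest.Agent.H5SL

/-- real inner product on `U → ℝ` -/
def dotR {U : Type*} [Fintype U] (a b : U → ℝ) : ℝ := ∑ e, a e * b e

variable {U : Type*} [Fintype U]

lemma dotR_add_right (a b c : U → ℝ) : dotR a (fun e => b e + c e) = dotR a b + dotR a c := by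
  unfold dotR
  rw [← Finset.sum_add_distrib]
  exact Finset.sum_congr rfl fun e _ => by ring

lemma continuous_dotR_right (a : U → ℝ) : Continuous (fun b : U → ℝ => dotR a b) := by
  unfold dotR
  fun_prop

lemma measurable_dotR_right (a : U → ℝ) : Measurable (fun b : U → ℝ => dotR a b) :=
  (continuous_dotR_right a).measurable

/-- The product Gaussian on `U → ℝ`. -/
noncomputable def gam (U : Type*) [Fintype U] (ε : ℝ≥0) : Measure (U → ℝ) :=
  Measure.pi (fun _ : U => gaussianReal 0 ε)

instance (ε : ℝ≥0) : IsProbabilityMeasure (gam U ε) := by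
  unfold gam; infer_instance

/-- one-dimensional Cameron-Martin: shifted Gaussian as a density -/
lemma gaussianReal_shift_density {ε : ℝ≥0} (hε : ε ≠ 0) (a : ℝ) :
    gaussianReal ((ε : ℝ) * a) ε =
      (gaussianReal 0 ε).withDensity (fun d => ENNReal.ofReal (Real.exp (a * d - ε * a ^ 2 / 2))) := by
  rw [gaussianReal_of_var_ne_zero _ hε, gaussianReal_of_var_ne_zero _ hε]
  rw [← withDensity_mul _ (measurable_gaussianPDF _ _)
    (by fun_prop : Measurable (fun d : ℝ => ENNReal.ofReal (Real.exp (a * d - ε * a ^ 2 / 2))))]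
  congr 1
  ext d
  simp only [Pi.mul_apply, gaussianPDF_def]
  rw [← ENNReal.ofReal_mul (gaussianPDFReal_nonneg _ _ _)]
  congr 1
  simp only [gaussianPDFReal_def]
  rw [mul_assoc (_ : ℝ) (Real.exp _) (Real.exp _), ← Real.exp_add]
  congr 2
  have hε' : (ε : ℝ) ≠ 0 := by exact_mod_cast hε
  field_simp
  ring

/-- multi-dimensional Cameron-Martin. -/
theorem gam_shift {ε : ℝ≥0} (hε : ε ≠ 0) (a : U → ℝ) :
    (gam U ε).map (fun ξ e => (ε : ℝ) * a e + ξ e) =
      (gam U ε).withDensity
        (fun d => ENNReal.ofReal (Real.exp (dotR a d - ε * (∑ e, a e ^ 2) / 2))) := by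
  classical
  have h1 : (gam U ε).map (fun ξ e => (ε : ℝ) * a e + ξ e) =
      Measure.pi (fun e : U => gaussianReal ((ε : ℝ) * a e) ε) := by
    unfold gam
    rw [Measure.pi_map_pi (fun e => (measurable_const_add _).aemeasurable)]
    congr 1
    ext1 e
    rw [gaussianReal_map_const_add]
    simp
  rw [h1]
  apply Measure.pi_eq
  intro s hs
  rw [withDensity_apply _ (MeasurableSet.univ_pi hs)]
  -- density as a product
  let f : U → ℝ → ℝ≥0∞ := fun e d =>
    (s e).indicator (fun d => ENNReal.ofReal (Real.exp (a e * d - ε * a e ^ 2 / 2))) d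
  have hf : ∀ e, Measurable (f e) := by
    intro e
    exact Measurable.indicator (by fun_prop) (hs e)
  have hprod : ∀ d : U → ℝ,
      (Set.pi Set.univ s).indicator
        (fun d => ENNReal.ofReal (Real.exp (dotR a d - ε * (∑ e, a e ^ 2) / 2))) d =
      ∏ e, f e (d e) := by
    intro d
    have hexp : ENNReal.ofReal (Real.exp (dotR a d - ε * (∑ e, a e ^ 2) / 2)) =
        ∏ e, ENNReal.ofReal (Real.exp (a e * d e - ε * a e ^ 2 / 2)) := by
      rw [← ENNReal.ofReal_prod_of_nonneg (fun e _ => (Real.exp_pos _).le), ← Real.exp_sum]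
      congr 2
      unfold dotR
      rw [Finset.sum_sub_distrib]
      congr 1
      rw [Finset.mul_sum, Finset.sum_div]
    by_cases hd : d ∈ Set.pi Set.univ s
    · rw [Set.indicator_of_mem hd, hexp]
      apply Finset.prod_congr rfl
      intro e _
      simp only [f]
      rw [Set.indicator_of_mem (hd e (Set.mem_univ e))]
    · rw [Set.indicator_of_notMem hd]
      simp only [Set.mem_pi, Set.mem_univ, forall_true_left, not_forall] at hd
      obtain ⟨e, he⟩ := hd
      symm
      apply Finset.prod_eq_zero (Finset.mem_univ e)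
      simp only [f]
      rw [Set.indicator_of_notMem he]
  rw [← lintegral_indicator (MeasurableSet.univ_pi hs)]
  simp_rw [hprod]
  have hind : iIndepFun (fun e (d : U → ℝ) => f e (d e)) (gam U ε) := by
    unfold gam
    exact iIndepFun_pi (X := fun e => f e) (fun e => (hf e).aemeasurable)
  rw [lintegral_prod_eq_prod_lintegral_of_indepFun Finset.univ _ hind
    (fun e => (hf e).comp (measurable_pi_apply e))]
  apply Finset.prod_congr rfl
  intro e _
  have h2 : ∫⁻ d : U → ℝ, f e (d e) ∂(gam U ε) = ∫⁻ t, f e t ∂(gaussianReal 0 ε) := by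
    have := (measurePreserving_eval (fun _ : U => gaussianReal 0 ε) e).lintegral_comp (hf e)
    exact this
  rw [h2, gaussianReal_shift_density hε, withDensity_apply _ (hs e),
    ← lintegral_indicator (hs e)]

/-- Cameron-Martin at the level of integrals of bounded functions. -/
theorem integral_gam_shift {ε : ℝ≥0} (hε : ε ≠ 0) (a : U → ℝ) {F : (U → ℝ) → ℂ}
    (hF : Measurable F) :
    ∫ ξ, F (fun e => (ε : ℝ) * a e + ξ e) ∂(gam U ε) =
      ∫ d, ((Real.exp (dotR a d - ε * (∑ e, a e ^ 2) / 2) : ℝ) : ℂ) * F d ∂(gam U ε) := by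
  have hm : Measurable (fun ξ : U → ℝ => fun e => (ε : ℝ) * a e + ξ e) := by fun_prop
  rw [← integral_map hm.aemeasurable hF.aestronglyMeasurable, gam_shift hε a]
  have hρ : Measurable (fun d : U → ℝ => ENNReal.ofReal (Real.exp (dotR a d - ε * (∑ e, a e ^ 2) / 2))) := by
    apply ENNReal.measurable_ofReal.comp
    apply Real.measurable_exp.comp
    exact (measurable_dotR_right a).sub_const _
  rw [integral_withDensity_eq_integral_toReal_smul hρ
    (Filter.Eventually.of_forall fun _ => ENNReal.ofReal_lt_top)]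
  apply integral_congr_ae
  filter_upwards with d
  rw [ENNReal.toReal_ofReal (Real.exp_pos _).le]
  simp

/-- The density of the Cameron-Martin shift has integral one. -/
theorem integrable_gam_density {ε : ℝ≥0} (hε : ε ≠ 0) (a : U → ℝ) :
    Integrable (fun d => Real.exp (dotR a d - ε * (∑ e, a e ^ 2) / 2)) (gam U ε) := by
  have hρ : Measurable (fun d : U → ℝ => (Real.toNNReal (Real.exp (dotR a d - ε * (∑ e, a e ^ 2) / 2)))) := by
    apply Measurable.real_toNNReal
    apply Real.measurable_exp.comp
    exact (measurable_dotR_right a).sub_const _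
  have h0 : IsProbabilityMeasure ((gam U ε).map (fun ξ e => (ε : ℝ) * a e + ξ e)) :=
    Measure.isProbabilityMeasure_map (Measurable.aemeasurable (by fun_prop))
  rw [gam_shift hε a] at h0
  refine ⟨(by
    apply Measurable.aestronglyMeasurable
    apply Real.measurable_exp.comp
    exact (measurable_dotR_right a).sub_const _), ?_⟩
  rw [hasFiniteIntegral_iff_ofReal (Filter.Eventually.of_forall fun _ => (Real.exp_pos _).le)]
  have h1 := h0.measure_univ
  rw [withDensity_apply _ MeasurableSet.univ, Measure.restrict_univ] at h1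
  rw [h1]
  exact ENNReal.one_lt_top

/-- The characteristic function of the product Gaussian. -/
theorem integral_gam_charFun (ε : ℝ≥0) (θ : U → ℝ) :
    ∫ ξ, cexp (I * ((dotR θ ξ : ℝ) : ℂ)) ∂(gam U ε) =
      ((Real.exp (-(ε * ∑ e, θ e ^ 2) / 2) : ℝ) : ℂ) := by
  classical
  have h1 : ∀ ξ : U → ℝ, cexp (I * ((dotR θ ξ : ℝ) : ℂ)) =
      ∏ e, cexp (I * ((θ e * ξ e : ℝ) : ℂ)) := by
    intro ξ
    rw [← Complex.exp_sum, ← Finset.mul_sum]
    unfold dotR
    push_cast
    rfl
  simp_rw [h1]
  unfold gam
  rw [integral_fintype_prod_eq_prod (𝕜 := ℂ) (fun e t => cexp (I * ((θ e * t : ℝ) : ℂ)))]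
  have h2 : ∀ e, ∫ t : ℝ, cexp (I * ((θ e * t : ℝ) : ℂ)) ∂(gaussianReal 0 ε) =
      ((Real.exp (-(ε * θ e ^ 2) / 2) : ℝ) : ℂ) := by
    intro e
    have h3 := charFun_gaussianReal (μ := 0) (v := ε) (θ e)
    rw [charFun_apply_real] at h3
    have h4 : ∀ t : ℝ, cexp (I * ((θ e * t : ℝ) : ℂ)) = cexp ((θ e : ℂ) * (t : ℂ) * I) := by
      intro t
      congr 1
      push_cast
      ring
    simp_rw [h4]
    rw [h3]
    push_cast
    congr 1
    simp
    ring
  simp_rw [h2]
  rw [← Complex.ofReal_prod, ← Real.exp_sum]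
  congr 2
  rw [Finset.mul_sum, neg_div, Finset.sum_div, ← Finset.sum_neg_distrib]
  exact Finset.sum_congr rfl fun e _ => by ring

end Crest.Agent.H5SL
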