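import Crest.Agent.H5SLCode

/-!
The continuous-time innovation theorem for a finite spin system: the innovation process of the
observation `Y(t) = t σ + W(t)` has the characteristic functions of Brownian increments.
-/

set_option autoImplicit false
set_option linter.unusedSectionVars false
set_option linter.unusedVariables false

open MeasureTheory ProbabilityTheory Complex Filter Topology Set
open scoped NNReal ENNReal

namespace Crest.Agent.H5SL

/-- dyadic floor -/
noncomputable def fl (m : ℕ) (s : ℝ) : ℝ := (⌊s * 2 ^ m⌋₊ : ℝ) / 2 ^ m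

lemma measurable_fl (m : ℕ) : Measurable (fl m) := by
  unfold fl
  have h1 : Measurable (fun s : ℝ => ⌊s * 2 ^ m⌋₊) :=
    Nat.measurable_floor.comp (measurable_id.mul_const _)
  exact ((measurable_of_countable (fun n : ℕ => (n : ℝ))).comp h1).div_const _

lemma fl_nonneg (m : ℕ) (s : ℝ) : 0 ≤ fl m s := by
  unfold fl; positivity

lemma fl_le {s : ℝ} (hs : 0 ≤ s) (m : ℕ) : fl m s ≤ s := by
  unfold fl
  rw [div_le_iff₀ (by positivity)]
  exact Nat.floor_le (by positivity)

lemma sub_fl_le {s : ℝ} (hs : 0 ≤ s) (m : ℕ) : s - fl m s ≤ 1 / 2 ^ m := by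
  unfold fl
  have h := Nat.lt_floor_add_one (s * 2 ^ m)
  have h2 : (0:ℝ) < 2 ^ m := by positivity
  have : s - (⌊s * 2 ^ m⌋₊ : ℝ) / 2 ^ m = (s * 2 ^ m - ⌊s * 2 ^ m⌋₊) / 2 ^ m := by
    field_simp
  rw [this]
  apply div_le_div_of_nonneg_right _ h2.le
  linarith

lemma tendsto_pow_half : Tendsto (fun m : ℕ => (1:ℝ) / 2 ^ m) atTop (𝓝 0) := by
  have : (fun m : ℕ => (1:ℝ) / 2 ^ m) = fun m => ((1:ℝ) / 2) ^ m := by
    ext m; simp
  rw [this]
  exact tendsto_pow_atTop_nhds_zero_of_lt_one (by norm_num) (by norm_num)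

lemma tendsto_fl {s : ℝ} (hs : 0 ≤ s) : Tendsto (fun m => fl m s) atTop (𝓝 s) := by
  have h1 : Tendsto (fun m : ℕ => s - (1:ℝ) / 2 ^ m) atTop (𝓝 s) := by
    simpa using tendsto_const_nhds.sub tendsto_pow_half
  refine tendsto_of_tendsto_of_tendsto_of_le_of_le h1 tendsto_const_nhds ?_ (fun m => fl_le hs m)
  intro m
  have := sub_fl_le hs m
  simp only
  linarith

lemma fl_dyadic (m j : ℕ) (s : ℝ) (h1 : (j : ℝ) / 2 ^ m ≤ s) (h2 : s < ((j : ℝ) + 1) / 2 ^ m) :
    fl m s = (j : ℝ) / 2 ^ m := by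
  unfold fl
  congr 2
  have h3 : (0:ℝ) < 2 ^ m := by positivity
  have hj : (0:ℝ) ≤ j := by positivity
  have hs : 0 ≤ s * 2 ^ m := by
    have : 0 ≤ (j : ℝ) / 2 ^ m := by positivity
    have : 0 ≤ s := by linarith
    positivity
  rw [Nat.floor_eq_iff hs]
  constructor
  · rwa [div_le_iff₀ h3] at h1
  · rwa [lt_div_iff₀ h3] at h2

/-- The integral of a step function. -/
lemma integral_fl_step (m j : ℕ) {f : ℝ → ℝ} (hf : Measurable f) {C : ℝ} (hC : ∀ s, |f s| ≤ C) :
    ∫ s in (0:ℝ)..((j : ℝ) / 2 ^ m), f (fl m s) =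
      (1 / 2 ^ m) * ∑ i ∈ Finset.range j, f ((i : ℝ) / 2 ^ m) := by
  have hint : ∀ a b : ℝ, IntervalIntegrable (fun s => f (fl m s)) volume a b := by
    intro a b
    refine (intervalIntegrable_const (c := C)).mono_fun' ?_ ?_
    · exact (hf.comp (measurable_fl m)).aestronglyMeasurable
    · filter_upwards with s
      exact hC _
  induction j with
  | zero => simp
  | succ j ih =>
    have h2 : (0:ℝ) < 2 ^ m := by positivity
    have hadj := intervalIntegral.integral_add_adjacent_intervals (hint 0 ((j : ℝ) / 2 ^ m))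
      (hint ((j : ℝ) / 2 ^ m) (((j + 1 : ℕ) : ℝ) / 2 ^ m))
    rw [← hadj, ih, Finset.sum_range_succ, mul_add]
    congr 1
    have hle : (j : ℝ) / 2 ^ m ≤ ((j + 1 : ℕ) : ℝ) / 2 ^ m := by
      apply div_le_div_of_nonneg_right _ h2.le
      push_cast; linarith
    rw [intervalIntegral.integral_of_le hle, integral_Ioc_eq_integral_Ioo]
    have hcongr : ∫ s in Ioo ((j : ℝ) / 2 ^ m) (((j + 1 : ℕ) : ℝ) / 2 ^ m), f (fl m s) =
        ∫ s in Ioo ((j : ℝ) / 2 ^ m) (((j + 1 : ℕ) : ℝ) / 2 ^ m), f ((j : ℝ) / 2 ^ m) := by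
      apply setIntegral_congr_fun measurableSet_Ioo
      intro s hs
      simp only
      rw [fl_dyadic m j s hs.1.le (by simpa using hs.2)]
    rw [hcongr, setIntegral_const]
    simp only [Measure.real, Real.volume_Ioo, smul_eq_mul]
    rw [ENNReal.toReal_ofReal (by linarith)]
    congr 1
    push_cast
    field_simp
    ring

variable {U : Type*} [Fintype U] [DecidableEq U]

/-- the observation process -/
noncomputable def yPr (x : U → Bool) (v : U → Code) (s : ℝ) : U → ℝ :=
  fun e => s * spin (x e) + extCode (v e) s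

lemma measurable_spin : Measurable spin := measurable_of_countable _

lemma measurable_yPr :
    Measurable (fun q : ((U → Bool) × (U → Code)) × ℝ => yPr q.1.1 q.1.2 q.2) := by
  refine measurable_pi_iff.2 fun e => ?_
  apply Measurable.add
  · exact measurable_snd.mul (measurable_spin.comp
      ((measurable_pi_apply e).comp (measurable_fst.comp measurable_fst)))
  · have h1 : Measurable (fun q : ((U → Bool) × (U → Code)) × ℝ => (q.1.2 e, q.2)) :=
      ((measurable_pi_apply e).comp (measurable_snd.comp measurable_fst)).prodMk measurable_snd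
    have h2 := measurable_extCode.comp h1
    exact h2

/-- innovation process -/
noncomputable def bI (p : (U → Bool) → ℝ) (x : U → Bool) (v : U → Code) (e : U) (t : ℝ) : ℝ :=
  yPr x v t e - ∫ s in (0:ℝ)..t, mf p e (yPr x v s)

/-- discretised innovation process -/
noncomputable def aI (p : (U → Bool) → ℝ) (m : ℕ) (x : U → Bool) (v : U → Code) (e : U) (t : ℝ) : ℝ :=
  yPr x v t e - ∫ s in (0:ℝ)..t, mf p e (yPr x v (fl m s))

/-- gap between the two -/
noncomputable def gapI (p : (U → Bool) → ℝ) (m : ℕ) (e : U) (t : ℝ) (ω : (U → Bool) × (U → Code)) : ℝ :=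
  ∫ s in Ioc 0 t, |mf p e (yPr ω.1 ω.2 (fl m s)) - mf p e (yPr ω.1 ω.2 s)|

section
variable {p : (U → Bool) → ℝ} (hp : Wts p)
include hp

lemma measurable_mf_yPr (e : U) :
    Measurable (fun q : ((U → Bool) × (U → Code)) × ℝ => mf p e (yPr q.1.1 q.1.2 q.2)) := by
  have h := (hp.measurable_mf e).comp measurable_yPr
  exact h

lemma measurable_mf_yPr_fl (m : ℕ) (e : U) :
    Measurable (fun q : ((U → Bool) × (U → Code)) × ℝ => mf p e (yPr q.1.1 q.1.2 (fl m q.2))) := by
  have h1 : Measurable (fun q : ((U → Bool) × (U → Code)) × ℝ => (q.1, fl m q.2)) :=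
    measurable_fst.prodMk ((measurable_fl m).comp measurable_snd)
  have h := (measurable_mf_yPr hp e).comp h1
  exact h

lemma measurable_section_mf (e : U) (x : U → Bool) (v : U → Code) :
    Measurable (fun s : ℝ => mf p e (yPr x v s)) := by
  have h1 : Measurable (fun s : ℝ => (((x, v), s) : ((U → Bool) × (U → Code)) × ℝ)) :=
    measurable_const.prodMk measurable_id
  have h := (measurable_mf_yPr hp e).comp h1
  exact h

lemma measurable_section_mf_fl (m : ℕ) (e : U) (x : U → Bool) (v : U → Code) :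
    Measurable (fun s : ℝ => mf p e (yPr x v (fl m s))) :=
  (measurable_section_mf hp e x v).comp (measurable_fl m)

lemma intervalIntegrable_mf (e : U) (x : U → Bool) (v : U → Code) (a b : ℝ) :
    IntervalIntegrable (fun s => mf p e (yPr x v s)) volume a b := by
  refine (intervalIntegrable_const (c := (1:ℝ))).mono_fun' ?_ ?_
  · exact (measurable_section_mf hp e x v).aestronglyMeasurable
  · filter_upwards with s
    exact hp.abs_mf_le _ _

lemma intervalIntegrable_mf_fl (m : ℕ) (e : U) (x : U → Bool) (v : U → Code) (a b : ℝ) :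
    IntervalIntegrable (fun s => mf p e (yPr x v (fl m s))) volume a b := by
  refine (intervalIntegrable_const (c := (1:ℝ))).mono_fun' ?_ ?_
  · exact (measurable_section_mf_fl hp m e x v).aestronglyMeasurable
  · filter_upwards with s
    exact hp.abs_mf_le _ _

lemma abs_gap_integrand_le (m : ℕ) (e : U) (ω : (U → Bool) × (U → Code)) (s : ℝ) :
    |mf p e (yPr ω.1 ω.2 (fl m s)) - mf p e (yPr ω.1 ω.2 s)| ≤ 2 := by
  have h1 := hp.abs_mf_le e (yPr ω.1 ω.2 (fl m s))
  have h2 := hp.abs_mf_le e (yPr ω.1 ω.2 s)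
  have h3 := abs_sub (mf p e (yPr ω.1 ω.2 (fl m s))) (mf p e (yPr ω.1 ω.2 s))
  linarith

lemma measurable_gap_integrand (m : ℕ) (e : U) :
    Measurable (fun q : ((U → Bool) × (U → Code)) × ℝ =>
      |mf p e (yPr q.1.1 q.1.2 (fl m q.2)) - mf p e (yPr q.1.1 q.1.2 q.2)|) :=
  ((measurable_mf_yPr_fl hp m e).sub (measurable_mf_yPr hp e)).abs

lemma measurable_gapI (m : ℕ) (e : U) (t : ℝ) : Measurable (gapI p m e t) := by
  have h := (measurable_gap_integrand hp m e).stronglyMeasurable.integral_prod_right'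
    (ν := volume.restrict (Ioc 0 t))
  exact h.measurable

lemma gapI_nonneg (m : ℕ) (e : U) (t : ℝ) (ω : (U → Bool) × (U → Code)) : 0 ≤ gapI p m e t ω :=
  integral_nonneg fun _ => abs_nonneg _

lemma gapI_le (m : ℕ) (e : U) {t : ℝ} (ht : 0 ≤ t) (ω : (U → Bool) × (U → Code)) :
    gapI p m e t ω ≤ 2 * t := by
  have h := norm_integral_le_of_norm_le_const (μ := volume.restrict (Ioc 0 t)) (C := 2)
    (f := fun s => |mf p e (yPr ω.1 ω.2 (fl m s)) - mf p e (yPr ω.1 ω.2 s)|)
    (Eventually.of_forall fun s => by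
      rw [Real.norm_eq_abs, abs_abs]
      exact abs_gap_integrand_le hp m e ω s)
  simp only [Measure.real, Measure.restrict_apply MeasurableSet.univ, univ_inter, Real.volume_Ioc,
    sub_zero, ENNReal.toReal_ofReal ht] at h
  have h2 := le_abs_self (gapI p m e t ω)
  unfold gapI at h2 ⊢
  rw [Real.norm_eq_abs] at h
  linarith

lemma abs_bI_sub_aI_le (m : ℕ) (x : U → Bool) (v : U → Code) (e : U) {t : ℝ} (ht : 0 ≤ t) :
    |bI p x v e t - aI p m x v e t| ≤ gapI p m e t (x, v) := by
  unfold bI aI gapI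
  have h1 : yPr x v t e - (∫ s in (0:ℝ)..t, mf p e (yPr x v s)) -
      (yPr x v t e - ∫ s in (0:ℝ)..t, mf p e (yPr x v (fl m s))) =
      ∫ s in (0:ℝ)..t, (mf p e (yPr x v (fl m s)) - mf p e (yPr x v s)) := by
    rw [intervalIntegral.integral_sub (intervalIntegrable_mf_fl hp m e x v 0 t)
      (intervalIntegrable_mf hp e x v 0 t)]
    ring
  rw [h1, intervalIntegral.integral_of_le ht]
  exact abs_integral_le_integral_abs

lemma measurable_bI (e : U) (t : ℝ) :
    Measurable (fun ω : (U → Bool) × (U → Code) => bI p ω.1 ω.2 e t) := by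
  unfold bI
  apply Measurable.sub
  · have h1 : Measurable (fun ω : (U → Bool) × (U → Code) => (ω, t)) :=
      measurable_id.prodMk measurable_const
    have h2 := (measurable_pi_apply e).comp (measurable_yPr.comp h1)
    exact h2
  · simp_rw [intervalIntegral.intervalIntegral_eq_integral_uIoc]
    have h := (measurable_mf_yPr hp e).stronglyMeasurable.integral_prod_right'
      (ν := volume.restrict (uIoc 0 t))
    simp only [smul_eq_mul]
    exact measurable_const.mul h.measurable

lemma measurable_aI (m : ℕ) (e : U) (t : ℝ) :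
    Measurable (fun ω : (U → Bool) × (U → Code) => aI p m ω.1 ω.2 e t) := by
  unfold aI
  apply Measurable.sub
  · have h1 : Measurable (fun ω : (U → Bool) × (U → Code) => (ω, t)) :=
      measurable_id.prodMk measurable_const
    have h2 := (measurable_pi_apply e).comp (measurable_yPr.comp h1)
    exact h2
  · simp_rw [intervalIntegral.intervalIntegral_eq_integral_uIoc]
    have h := (measurable_mf_yPr_fl hp m e).stronglyMeasurable.integral_prod_right'
      (ν := volume.restrict (uIoc 0 t))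
    simp only [smul_eq_mul]
    exact measurable_const.mul h.measurable

end

section Prob

variable {μ : Measure (U → Bool)} [IsProbabilityMeasure μ] {w : Measure Code}

/-- almost sure statements for independent codes -/
lemma ae_coord (hw : IsWiener w) {Q : Code → Prop} (h : ∀ᵐ v ∂w, Q v) :
    ∀ᵐ ω ∂(μ.prod (Measure.pi (fun _ : U => w))), ∀ e, Q (ω.2 e) := by
  have hprob := hw.prob
  have h1 : ∀ᵐ v ∂(Measure.pi (fun _ : U => w)), ∀ e, Q (v e) := by
    rw [ae_all_iff]
    intro e
    exact (measurePreserving_eval (fun _ : U => w) e).quasiMeasurePreserving.ae h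
  exact Measure.quasiMeasurePreserving_snd.ae h1

lemma tendsto_yPr_fl (hw : IsWiener w) {s : ℝ} (hs : 0 ≤ s) :
    ∀ᵐ ω ∂(μ.prod (Measure.pi (fun _ : U => w))),
      Tendsto (fun m => yPr ω.1 ω.2 (fl m s)) atTop (𝓝 (yPr ω.1 ω.2 s)) := by
  have h1 : ∀ᵐ v ∂w, Consistent v ∧ Tendsto (fun n => v n ⌊s * 2 ^ n⌋₊) atTop (𝓝 (extCode v s)) :=
    hw.ae_consistent.and (hw.ae_tendsto_floor s hs)
  filter_upwards [ae_coord hw h1] with ω hω
  rw [tendsto_pi_nhds]
  intro e
  unfold yPr
  apply Tendsto.add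
  · exact (tendsto_fl hs).mul_const _
  · have h2 : ∀ m, extCode (ω.2 e) (fl m s) = ω.2 e m ⌊s * 2 ^ m⌋₊ := by
      intro m
      exact (hω e).1.ext_dyadic m _
    simp_rw [h2]
    exact (hω e).2

/-- The expected gap tends to zero. -/
theorem tendsto_integral_gapI (hw : IsWiener w) {p : (U → Bool) → ℝ} (hp : Wts p)
    (e : U) {t : ℝ} (ht : 0 ≤ t) :
    Tendsto (fun m => ∫ ω, gapI p m e t ω ∂(μ.prod (Measure.pi (fun _ : U => w)))) atTop (𝓝 0) := by
  have hprob := hw.prob
  set P := μ.prod (Measure.pi (fun _ : U => w)) with hP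
  -- swap the integrals
  have hswap : ∀ m, ∫ ω, gapI p m e t ω ∂P =
      ∫ s in Ioc 0 t, ∫ ω, |mf p e (yPr ω.1 ω.2 (fl m s)) - mf p e (yPr ω.1 ω.2 s)| ∂P := by
    intro m
    unfold gapI
    apply integral_integral_swap
    have hm := measurable_gap_integrand hp m e
    refine Integrable.of_bound hm.aestronglyMeasurable 2 ?_
    filter_upwards with q
    simp only [Function.uncurry]
    rw [Real.norm_eq_abs, abs_abs]
    exact abs_gap_integrand_le hp m e q.1 q.2
  simp_rw [hswap]
  have hlim : ∀ s ∈ Ioc 0 t, Tendsto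
      (fun m => ∫ ω, |mf p e (yPr ω.1 ω.2 (fl m s)) - mf p e (yPr ω.1 ω.2 s)| ∂P) atTop (𝓝 0) := by
    intro s hs
    have key : Tendsto
        (fun m => ∫ ω, |mf p e (yPr ω.1 ω.2 (fl m s)) - mf p e (yPr ω.1 ω.2 s)| ∂P) atTop
        (𝓝 (∫ ω : (U → Bool) × (U → Code), (0:ℝ) ∂P)) := ?_
    · simpa using key
    apply tendsto_integral_of_dominated_convergence (fun _ => (2:ℝ))
    · intro m
      have h1 : Measurable (fun ω : (U → Bool) × (U → Code) => (ω, s)) :=
        measurable_id.prodMk measurable_const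
      have h2 := (measurable_gap_integrand hp m e).comp h1
      exact h2.aestronglyMeasurable
    · exact integrable_const _
    · intro m
      filter_upwards with ω
      rw [Real.norm_eq_abs, abs_abs]
      exact abs_gap_integrand_le hp m e ω s
    · filter_upwards [tendsto_yPr_fl (μ := μ) hw hs.1.le] with ω hω
      have h3 : Tendsto (fun m => mf p e (yPr ω.1 ω.2 (fl m s))) atTop (𝓝 (mf p e (yPr ω.1 ω.2 s))) :=
        (hp.continuous_mf e).continuousAt.tendsto.comp hω
      have h4 := (h3.sub_const (mf p e (yPr ω.1 ω.2 s))).abs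
      simpa using h4
  have key : Tendsto
      (fun m => ∫ s in Ioc 0 t, ∫ ω, |mf p e (yPr ω.1 ω.2 (fl m s)) - mf p e (yPr ω.1 ω.2 s)| ∂P) atTop
      (𝓝 (∫ s in Ioc 0 t, (0:ℝ))) := ?_
  · simpa using key
  apply tendsto_integral_of_dominated_convergence (fun _ => (2:ℝ))
  · intro m
    have hm := (measurable_gap_integrand hp m e).stronglyMeasurable
    have h1 : Measurable (fun q : ℝ × ((U → Bool) × (U → Code)) => (q.2, q.1)) :=
      measurable_snd.prodMk measurable_fst
    have hm2 := hm.comp_measurable h1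
    have h2 := hm2.integral_prod_right' (ν := P)
    exact h2.aestronglyMeasurable
  · exact (integrable_const _)
  · intro m
    filter_upwards with s
    have h := norm_integral_le_of_norm_le_const (μ := P) (C := 2)
      (f := fun ω => |mf p e (yPr ω.1 ω.2 (fl m s)) - mf p e (yPr ω.1 ω.2 s)|)
      (Eventually.of_forall fun ω => by
        rw [Real.norm_eq_abs, abs_abs]
        exact abs_gap_integrand_le hp m e ω s)
    simpa using h
  · rw [ae_restrict_iff' measurableSet_Ioc]
    filter_upwards with s hs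
    exact hlim s hs

/-- grid path -/
noncomputable def Yg (m : ℕ) (x : U → Bool) (v : U → Code) (j : ℕ) : U → ℝ :=
  fun e => ((j : ℝ) / 2 ^ m) * spin (x e) + v e m j

/-- grid noise -/
noncomputable def xiG (m : ℕ) (v : U → Code) (j : ℕ) : U → ℝ := fun e => v e m (j + 1) - v e m j

lemma Yg_succ (m : ℕ) (x : U → Bool) (v : U → Code) (j : ℕ) (e : U) :
    Yg m x v (j + 1) e = Yg m x v j e + sh (eps m) x (xiG m v j) e := by
  unfold Yg sh xiG spinV
  rw [eps_coe]
  push_cast
  field_simp
  ring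

lemma yPr_grid {v : U → Code} (hcons : ∀ e, Consistent (v e)) (m : ℕ) (x : U → Bool) (j : ℕ) :
    yPr x v ((j : ℝ) / 2 ^ m) = Yg m x v j := by
  ext e
  unfold yPr Yg
  rw [(hcons e).ext_dyadic]

/-- discrete innovations accumulated -/
noncomputable def Ag (p : (U → Bool) → ℝ) (m : ℕ) (x : U → Bool) (v : U → Code) (j : ℕ) : U → ℝ :=
  fun e => Yg m x v j e - (eps m : ℝ) * ∑ i ∈ Finset.range j, mf p e (Yg m x v i)

lemma aI_grid {p : (U → Bool) → ℝ} (hp : Wts p) {v : U → Code} (hcons : ∀ e, Consistent (v e))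
    (m : ℕ) (x : U → Bool) (e : U) (j : ℕ) :
    aI p m x v e ((j : ℝ) / 2 ^ m) = Ag p m x v j e := by
  unfold aI Ag
  rw [yPr_grid hcons]
  congr 1
  rw [integral_fl_step m j (f := fun s => mf p e (yPr x v s)) (measurable_section_mf hp e x v)
    (C := 1) (fun s => hp.abs_mf_le _ _), eps_coe]
  congr 1
  apply Finset.sum_congr rfl
  intro i _
  rw [yPr_grid hcons]

lemma inn_eq_Ag (p : (U → Bool) → ℝ) (m : ℕ) (x : U → Bool) (v : U → Code) (j : ℕ) :
    inn p (eps m) (Yg m x v j) (sh (eps m) x (xiG m v j)) =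
      fun e => Ag p m x v (j + 1) e - Ag p m x v j e := by
  ext e
  unfold inn Ag
  rw [Finset.sum_range_succ, Yg_succ]
  ring

lemma sum_range_mul {α : Type*} [AddCommMonoid α] (L R : ℕ) (g : ℕ → α) :
    ∑ j ∈ Finset.range (L * R), g j =
      ∑ l ∈ Finset.range L, ∑ i ∈ Finset.range R, g (l * R + i) := by
  induction L with
  | zero => simp
  | succ L ih =>
    rw [Finset.sum_range_succ, ← ih, Nat.succ_mul, Finset.sum_range_add]

lemma dotR_telescope (a : U → ℝ) (R : ℕ) (B : ℕ → U → ℝ) :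
    ∑ i ∈ Finset.range R, dotR a (fun e => B (i + 1) e - B i e) =
      dotR a (fun e => B R e - B 0 e) := by
  unfold dotR
  rw [Finset.sum_comm]
  apply Finset.sum_congr rfl
  intro e _
  rw [← Finset.mul_sum, Finset.sum_range_sub (fun i => B i e)]

lemma group_dotR (L R : ℕ) (hR : 0 < R) (ϑ : ℕ → U → ℝ) (A : ℕ → U → ℝ) :
    ∑ j ∈ Finset.range (L * R), dotR (ϑ (j / R)) (fun e => A (j + 1) e - A j e) =
      ∑ l ∈ Finset.range L, dotR (ϑ l) (fun e => A ((l + 1) * R) e - A (l * R) e) := by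
  rw [sum_range_mul]
  apply Finset.sum_congr rfl
  intro l _
  have h1 : ∀ i ∈ Finset.range R, dotR (ϑ ((l * R + i) / R))
      (fun e => A (l * R + i + 1) e - A (l * R + i) e) =
      dotR (ϑ l) (fun e => (fun k => A (l * R + k)) (i + 1) e - (fun k => A (l * R + k)) i e) := by
    intro i hi
    have : (l * R + i) / R = l := by
      rw [Nat.mul_comm, Nat.mul_add_div hR, Nat.div_eq_of_lt (Finset.mem_range.1 hi), add_zero]
    rw [this]
    rfl
  rw [Finset.sum_congr rfl h1]
  have h2 := dotR_telescope (ϑ l) R (fun k => A (l * R + k))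
  refine h2.trans ?_
  simp only [add_zero]
  have : l * R + R = (l + 1) * R := by ring
  rw [this]

lemma sum_range_mul_const (L R : ℕ) (hR : 0 < R) (f : ℕ → ℝ) :
    ∑ j ∈ Finset.range (L * R), f (j / R) = R * ∑ l ∈ Finset.range L, f l := by
  rw [sum_range_mul, Finset.mul_sum]
  apply Finset.sum_congr rfl
  intro l _
  have h1 : ∀ i ∈ Finset.range R, f ((l * R + i) / R) = f l := by
    intro i hi
    have : (l * R + i) / R = l := by
      rw [Nat.mul_comm, Nat.mul_add_div hR, Nat.div_eq_of_lt (Finset.mem_range.1 hi), add_zero]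
    rw [this]
  rw [Finset.sum_congr rfl h1]
  simp

lemma measurable_sum_dotR {Ω : Type*} [MeasurableSpace Ω] (L : ℕ) (ϑ : ℕ → U → ℝ)
    (H : ℕ → U → Ω → ℝ) (hH : ∀ l e, Measurable (H l e)) :
    Measurable (fun ω => ∑ l ∈ Finset.range L, dotR (ϑ l) (fun e => H l e ω)) := by
  unfold dotR
  apply Finset.measurable_sum
  intro l _
  apply Finset.measurable_sum
  intro e _
  exact measurable_const.mul (hH l e)

lemma abs_sum_dotR_sub_le (L : ℕ) (ϑ : ℕ → U → ℝ) (H H' : ℕ → U → ℝ) (G : ℕ → U → ℝ)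
    (hG : ∀ l e, |H l e - H' l e| ≤ G l e) :
    |∑ l ∈ Finset.range L, dotR (ϑ l) (H l) - ∑ l ∈ Finset.range L, dotR (ϑ l) (H' l)| ≤
      ∑ l ∈ Finset.range L, ∑ e, |ϑ l e| * G l e := by
  rw [← Finset.sum_sub_distrib]
  refine (Finset.abs_sum_le_sum_abs _ _).trans (Finset.sum_le_sum ?_)
  intro l _
  unfold dotR
  rw [← Finset.sum_sub_distrib]
  refine (Finset.abs_sum_le_sum_abs _ _).trans (Finset.sum_le_sum ?_)
  intro e _
  rw [← mul_sub, abs_mul]
  exact mul_le_mul_of_nonneg_left (hG l e) (abs_nonneg _)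

lemma norm_cexp_sub_le (a b : ℝ) :
    ‖cexp (I * (a : ℂ)) - cexp (I * (b : ℂ))‖ ≤ |a - b| := by
  have h1 : cexp (I * (a : ℂ)) - cexp (I * (b : ℂ)) =
      cexp (I * (b : ℂ)) * (cexp (I * ((a - b : ℝ) : ℂ)) - 1) := by
    rw [mul_sub, ← Complex.exp_add]
    push_cast
    ring_nf
  rw [h1, norm_mul, mul_comm I, Complex.norm_exp_ofReal_mul_I, one_mul]
  exact Real.norm_exp_I_mul_ofReal_sub_one_le

/-- **Innovation theorem for finite systems.** -/
theorem innov_charFun (hw : IsWiener w) (hp : Wts (fun z => μ.real {z})) (n L : ℕ) (ϑ : ℕ → U → ℝ) :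
    ∫ ω, cexp (I * ((∑ l ∈ Finset.range L, dotR (ϑ l)
        (fun e => bI (fun z => μ.real {z}) ω.1 ω.2 e (((l + 1 : ℕ) : ℝ) / 2 ^ n) -
          bI (fun z => μ.real {z}) ω.1 ω.2 e ((l : ℝ) / 2 ^ n)) : ℝ) : ℂ))
        ∂(μ.prod (Measure.pi (fun _ : U => w))) =
      ((Real.exp (-((eps n : ℝ) * ∑ l ∈ Finset.range L, ∑ e, ϑ l e ^ 2) / 2) : ℝ) : ℂ) := by
  have hprob := hw.prob
  set p : (U → Bool) → ℝ := fun z => μ.real {z} with hpdef
  set P := μ.prod (Measure.pi (fun _ : U => w)) with hP
  set t : ℕ → ℝ := fun k => (k : ℝ) / 2 ^ n with ht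
  have ht0 : ∀ k, 0 ≤ t k := fun k => by simp only [ht]; positivity
  set target : ℂ := ((Real.exp (-((eps n : ℝ) * ∑ l ∈ Finset.range L, ∑ e, ϑ l e ^ 2) / 2) : ℝ) : ℂ)
    with htarget
  -- the integrands
  let fB : (U → Bool) × (U → Code) → ℝ := fun ω =>
    ∑ l ∈ Finset.range L, dotR (ϑ l) (fun e => bI p ω.1 ω.2 e (t (l + 1)) - bI p ω.1 ω.2 e (t l))
  let fA : ℕ → (U → Bool) × (U → Code) → ℝ := fun r ω =>
    ∑ l ∈ Finset.range L, dotR (ϑ l)
      (fun e => aI p (n + r) ω.1 ω.2 e (t (l + 1)) - aI p (n + r) ω.1 ω.2 e (t l))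
  let G : ℕ → (U → Bool) × (U → Code) → ℝ := fun r ω =>
    ∑ l ∈ Finset.range L, ∑ e, |ϑ l e| *
      (gapI p (n + r) e (t (l + 1)) ω + gapI p (n + r) e (t l) ω)
  have hfB : Measurable fB := measurable_sum_dotR L ϑ _ (fun l e =>
    (measurable_bI hp e _).sub (measurable_bI hp e _))
  have hfA : ∀ r, Measurable (fA r) := fun r => measurable_sum_dotR L ϑ _ (fun l e =>
    (measurable_aI hp _ e _).sub (measurable_aI hp _ e _))
  have hgapint : ∀ m e k, Integrable (gapI p m e (t k)) P := by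
    intro m e k
    refine Integrable.of_bound (measurable_gapI hp m e _).aestronglyMeasurable (2 * t k) ?_
    filter_upwards with ω
    rw [Real.norm_eq_abs, abs_of_nonneg (gapI_nonneg hp m e _ ω)]
    exact gapI_le hp m e (ht0 k) ω
  have hcx : ∀ {g : (U → Bool) × (U → Code) → ℝ}, Measurable g →
      Integrable (fun ω => cexp (I * ((g ω : ℝ) : ℂ))) P := by
    intro g hg
    refine Integrable.of_bound ?_ 1 ?_
    · apply Measurable.aestronglyMeasurable
      exact Complex.measurable_exp.comp (measurable_const.mul (Complex.measurable_ofReal.comp hg))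
    · filter_upwards with ω
      rw [mul_comm, Complex.norm_exp_ofReal_mul_I]
  -- Step B : closeness of `fB` and `fA`
  have hstepB : ∀ r, ‖(∫ ω, cexp (I * ((fB ω : ℝ) : ℂ)) ∂P) - ∫ ω, cexp (I * ((fA r ω : ℝ) : ℂ)) ∂P‖ ≤
      ∫ ω, G r ω ∂P := by
    intro r
    rw [← integral_sub (hcx hfB) (hcx (hfA r))]
    refine (norm_integral_le_integral_norm _).trans ?_
    apply integral_mono_of_nonneg
    · filter_upwards with ω
      exact norm_nonneg _
    · apply integrable_finsetSum
      intro l _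
      apply integrable_finsetSum
      intro e _
      exact ((hgapint _ e _).add (hgapint _ e _)).const_mul _
    · filter_upwards with ω
      refine (norm_cexp_sub_le _ _).trans ?_
      apply abs_sum_dotR_sub_le
      intro l e
      have h1 := abs_bI_sub_aI_le hp (n + r) ω.1 ω.2 e (ht0 (l + 1))
      have h2 := abs_bI_sub_aI_le hp (n + r) ω.1 ω.2 e (ht0 l)
      simp only [Prod.mk.eta] at h1 h2
      have h4 : bI p ω.1 ω.2 e (t (l + 1)) - bI p ω.1 ω.2 e (t l) -
          (aI p (n + r) ω.1 ω.2 e (t (l + 1)) - aI p (n + r) ω.1 ω.2 e (t l)) =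
          (bI p ω.1 ω.2 e (t (l + 1)) - aI p (n + r) ω.1 ω.2 e (t (l + 1))) -
          (bI p ω.1 ω.2 e (t l) - aI p (n + r) ω.1 ω.2 e (t l)) := by ring
      rw [h4]
      exact (abs_sub _ _).trans (add_le_add h1 h2)
  have hGlim : Tendsto (fun r => ∫ ω, G r ω ∂P) atTop (𝓝 0) := by
    have h1 : ∀ r, ∫ ω, G r ω ∂P = ∑ l ∈ Finset.range L, ∑ e, |ϑ l e| *
        ((∫ ω, gapI p (n + r) e (t (l + 1)) ω ∂P) + ∫ ω, gapI p (n + r) e (t l) ω ∂P) := by
      intro r
      simp only [G]
      rw [integral_finsetSum]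
      · apply Finset.sum_congr rfl
        intro l _
        rw [integral_finsetSum]
        · apply Finset.sum_congr rfl
          intro e _
          rw [integral_const_mul, integral_add (hgapint _ e _) (hgapint _ e _)]
        · intro e _
          exact ((hgapint _ e _).add (hgapint _ e _)).const_mul _
      · intro l _
        apply integrable_finsetSum
        intro e _
        exact ((hgapint _ e _).add (hgapint _ e _)).const_mul _
    simp_rw [h1]
    have h2 : (0:ℝ) = ∑ l ∈ Finset.range L, ∑ e : U, |ϑ l e| * ((0:ℝ) + 0) := by simp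
    rw [h2]
    apply tendsto_finsetSum
    intro l _
    apply tendsto_finsetSum
    intro e _
    apply Tendsto.const_mul
    have h3 : Tendsto (fun r => n + r) atTop atTop :=
      Filter.tendsto_atTop_mono (fun r => Nat.le_add_left r n) tendsto_id
    exact ((tendsto_integral_gapI (μ := μ) hw hp e (ht0 (l + 1))).comp h3).add
      ((tendsto_integral_gapI (μ := μ) hw hp e (ht0 l)).comp h3)
  -- Step A : the discrete theorem
  set Θ : ℝ := ∑ l ∈ Finset.range L, ∑ e, |ϑ l e| with hΘ
  have hΘ0 : 0 ≤ Θ := Finset.sum_nonneg fun l _ => Finset.sum_nonneg fun e _ => abs_nonneg _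
  let ddr : ℕ → ℝ := fun r => (∑ l ∈ Finset.range L, (2 * (eps n : ℝ) * ∑ e, |ϑ l e|) ^ 2) * (1 / 2 ^ r)
  have hstepA : ∀ r, 2 * (eps (n + r) : ℝ) * Θ ≤ 1 →
      ‖(∫ ω, cexp (I * ((fA r ω : ℝ) : ℂ)) ∂P) - target‖ ≤ ddr r := by
    intro r hr
    set m := n + r with hm
    set R := 2 ^ r with hR
    have hRpos : 0 < R := by positivity
    set K := L * R with hK
    set θ : ℕ → U → ℝ := fun j => ϑ (j / R) with hθdef
    have hmapfst : P.map Prod.fst = μ := by
      rw [hP]
      exact Measure.map_fst_prod.trans (by simp)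
    have hxm : Measurable (Prod.fst : (U → Bool) × (U → Code) → U → Bool) := measurable_fst
    have hξm : ∀ (j : ℕ) (e : U), Measurable (fun ω : (U → Bool) × (U → Code) => xiG m ω.2 j e) := by
      intro j e
      unfold xiG
      exact ((measurable_code m _).comp ((measurable_pi_apply e).comp measurable_snd)).sub
        ((measurable_code m _).comp ((measurable_pi_apply e).comp measurable_snd))
    have hmeas : Measurable (fun ω : (U → Bool) × (U → Code) => fun j : Fin K => xiG m ω.2 j) := by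
      refine measurable_pi_iff.2 fun j => measurable_pi_iff.2 fun e => hξm j e
    have hlaw : P.map (fun ω => (ω.1, fun j : Fin K => xiG m ω.2 j)) =
        (P.map Prod.fst).prod (Measure.pi (fun _ : Fin K => gam U (eps m))) := by
      rw [hmapfst]
      have h1 : (fun ω : (U → Bool) × (U → Code) => (ω.1, fun j : Fin K => xiG m ω.2 j)) =
          Prod.map id (fun v : U → Code => fun j : Fin K => xiG m v j) := rfl
      have hm2 : Measurable (fun v : U → Code => fun j : Fin K => xiG m v j) := by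
        refine measurable_pi_iff.2 fun j => measurable_pi_iff.2 fun e => ?_
        unfold xiG
        exact ((measurable_code m _).comp (measurable_pi_apply e)).sub
          ((measurable_code m _).comp (measurable_pi_apply e))
      rw [h1, hP, ← Measure.map_prod_map _ _ measurable_id hm2, Measure.map_id]
      congr 1
      exact hw.map_noise m K
    have hpEq : (fun z => (P.map Prod.fst).real {z}) = p := by
      rw [hmapfst]
    have hp' : Wts (fun z => (P.map (Prod.fst : (U → Bool) × (U → Code) → U → Bool)).real {z}) := by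
      rw [hpEq]; exact hp
    have hθb : ∀ j < K, 2 * (eps m : ℝ) * ∑ e, |θ j e| ≤ 1 := by
      intro j hj
      have hjl : j / R < L := by
        rw [Nat.div_lt_iff_lt_mul hRpos]
        exact hj
      have h1 : ∑ e, |θ j e| ≤ Θ := by
        apply Finset.single_le_sum (f := fun l => ∑ e, |ϑ l e|)
          (fun l _ => Finset.sum_nonneg fun e _ => abs_nonneg _) (Finset.mem_range.2 hjl)
      have h2 : 0 ≤ 2 * (eps m : ℝ) := by positivity
      exact (mul_le_mul_of_nonneg_left h1 h2).trans hr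
    have hmain := discrete_main (P := P) hxm (ξ := fun j ω => xiG m ω.2 j) (ε := eps m)
      (eps_ne_zero m) K hmeas hlaw hp' θ hθb
    rw [hpEq] at hmain
    -- the product of exponentials
    have hcons : ∀ᵐ ω ∂P, ∀ e, Consistent (ω.2 e) := ae_coord hw hw.ae_consistent
    have hprodE : (fun ω => prodE p (eps m) ω.1 K θ (fun _ => 0) (fun j => xiG m ω.2 j)) =ᵐ[P]
        fun ω => cexp (I * ((fA r ω : ℝ) : ℂ)) := by
      filter_upwards [hcons] with ω hω
      have hY0 : Yg m ω.1 ω.2 0 = fun _ => 0 := by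
        ext e
        unfold Yg
        rw [(hω e).2]
        simp
      have h1 := prodE_eq p (eps m) ω.1 K θ (Yg m ω.1 ω.2) (xiG m ω.2) (Yg_succ m ω.1 ω.2)
      rw [hY0] at h1
      rw [h1]
      congr 3
      have h2 : ∀ j, dotR (θ j) (inn p (eps m) (Yg m ω.1 ω.2 j) (sh (eps m) ω.1 (xiG m ω.2 j))) =
          dotR (ϑ (j / R)) (fun e => Ag p m ω.1 ω.2 (j + 1) e - Ag p m ω.1 ω.2 j e) := by
        intro j
        rw [inn_eq_Ag]
      simp_rw [h2]
      rw [group_dotR L R hRpos ϑ (Ag p m ω.1 ω.2)]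
      simp only [fA]
      apply Finset.sum_congr rfl
      intro l _
      congr 1
      ext e
      have ht' : ∀ k : ℕ, t k = ((k * R : ℕ) : ℝ) / 2 ^ m := by
        intro k
        simp only [ht, hm, hR]
        push_cast
        rw [pow_add]
        field_simp
      rw [ht', ht', aI_grid hp hω, aI_grid hp hω]
    rw [integral_congr_ae hprodE] at hmain
    -- the target
    have hcc : ((cc (eps m) K θ : ℝ) : ℂ) = target := by
      rw [cc_eq, htarget]
      congr 3
      have h3 : ∑ j ∈ Finset.range K, ∑ e, θ j e ^ 2 =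
          (R : ℝ) * ∑ l ∈ Finset.range L, ∑ e, ϑ l e ^ 2 :=
        sum_range_mul_const L R hRpos (fun l => ∑ e, ϑ l e ^ 2)
      rw [h3, ← mul_assoc]
      congr 1
      rw [eps_coe, eps_coe, hm, hR, pow_add]
      push_cast
      field_simp
    have hdd : dd (eps m) K θ = ddr r := by
      rw [dd_eq]
      simp only [eta, ddr]
      have h3 := sum_range_mul_const L R hRpos (fun l => (2 * (eps m : ℝ) * ∑ e, |ϑ l e|) ^ 2)
      refine h3.trans ?_
      rw [Finset.sum_mul, Finset.mul_sum]
      apply Finset.sum_congr rfl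
      intro l _
      rw [eps_coe, eps_coe, hm, hR, pow_add]
      push_cast
      field_simp
    rw [hcc, hdd] at hmain
    exact hmain
  -- conclusion
  have hfinal : ∀ᶠ r in atTop, ‖(∫ ω, cexp (I * ((fB ω : ℝ) : ℂ)) ∂P) - target‖ ≤
      (∫ ω, G r ω ∂P) + ddr r := by
    have h1 : Tendsto (fun r : ℕ => 2 * (eps (n + r) : ℝ) * Θ) atTop (𝓝 (2 * 0 * Θ)) := by
      apply Tendsto.mul_const
      apply Tendsto.const_mul
      have h3 : Tendsto (fun r => n + r) atTop atTop :=
        Filter.tendsto_atTop_mono (fun r => Nat.le_add_left r n) tendsto_id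
      simp_rw [eps_coe]
      exact tendsto_pow_half.comp h3
    have h2 : ∀ᶠ r : ℕ in atTop, 2 * (eps (n + r) : ℝ) * Θ ≤ 1 :=
      h1.eventually_le_const (by simp)
    filter_upwards [h2] with r hr
    have h3 := hstepA r hr
    have h4 := hstepB r
    calc ‖(∫ ω, cexp (I * ((fB ω : ℝ) : ℂ)) ∂P) - target‖
        = ‖((∫ ω, cexp (I * ((fB ω : ℝ) : ℂ)) ∂P) - ∫ ω, cexp (I * ((fA r ω : ℝ) : ℂ)) ∂P) +
            ((∫ ω, cexp (I * ((fA r ω : ℝ) : ℂ)) ∂P) - target)‖ := by
          congr 1; ring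
      _ ≤ _ := norm_add_le _ _
      _ ≤ _ := add_le_add h4 h3
  have hlimd : Tendsto (fun r => (∫ ω, G r ω ∂P) + ddr r) atTop (𝓝 0) := by
    have h1 : Tendsto ddr atTop (𝓝 ((∑ l ∈ Finset.range L, (2 * (eps n : ℝ) * ∑ e, |ϑ l e|) ^ 2) * 0)) :=
      tendsto_pow_half.const_mul _
    simpa using hGlim.add h1
  have hzero : ‖(∫ ω, cexp (I * ((fB ω : ℝ) : ℂ)) ∂P) - target‖ ≤ 0 :=
    ge_of_tendsto hlimd hfinal
  have hzero' : (∫ ω, cexp (I * ((fB ω : ℝ) : ℂ)) ∂P) - target = 0 :=
    norm_le_zero_iff.1 hzero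
  have hres := sub_eq_zero.1 hzero'
  exact hres

end Prob

end Crest.Agent.H5SL
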