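import Crest.Agent.H5SLInnov

/-!
Picard iteration for the drift equation `y(t) = N(t) + ∫₀ᵗ D(y(s)) ds`, generic in the drift and
the noise: measurability in a parameter, relabelling, and convergence to a given fixed point.
-/

set_option autoImplicit false
set_option linter.unusedSectionVars false
set_option linter.unusedVariables false

open MeasureTheory ProbabilityTheory Complex Filter Topology Set
open scoped NNReal ENNReal

namespace Crest.Agent.H5SL

section Picard

variable {I : Type*}

/-- Picard iterates -/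
noncomputable def pic (D : I → (I → ℝ) → ℝ) (N : I → ℝ → ℝ) : ℕ → I → ℝ → ℝ
  | 0, _, _ => 0
  | n + 1, e, t => ∫ s in Ioc 0 t, D e (fun f => N f s + pic D N n f s)

/-- Limit of the Picard iterates -/
noncomputable def picLim (D : I → (I → ℝ) → ℝ) (N : I → ℝ → ℝ) (e : I) (t : ℝ) : ℝ :=
  limsup (fun n => pic D N n e t) atTop

/-- Solution of the drift equation -/
noncomputable def sol (D : I → (I → ℝ) → ℝ) (N : I → ℝ → ℝ) (e : I) (t : ℝ) : ℝ :=
  N e t + picLim D N e t

/-- The output bit of a path: whether its slope at infinity is positive. -/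
noncomputable def outB (g : ℝ → ℝ) : Bool :=
  decide (0 < limsup (fun k : ℕ => g k / (k : ℝ)) atTop)

lemma outB_eq_of_tendsto {g : ℝ → ℝ} {b : Bool}
    (h : Tendsto (fun k : ℕ => g k / (k : ℝ)) atTop (𝓝 (spin b))) : outB g = b := by
  unfold outB
  rw [h.limsup_eq]
  cases b <;> simp [spin]

/-- Picard iterates commute with relabellings. -/
theorem pic_relabel {I' : Type*} (τ : I → I') {D : I → (I → ℝ) → ℝ} {D' : I' → (I' → ℝ) → ℝ}
    {N : I → ℝ → ℝ} {N' : I' → ℝ → ℝ}
    (hD : ∀ e y', D' (τ e) y' = D e (y' ∘ τ)) (hN : ∀ e s, N' (τ e) s = N e s) :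
    ∀ n e t, pic D' N' n (τ e) t = pic D N n e t := by
  intro n
  induction n with
  | zero => intro e t; rfl
  | succ n ih =>
    intro e t
    simp only [pic]
    apply setIntegral_congr_fun measurableSet_Ioc
    intro s _
    simp only
    rw [hD]
    congr 1
    ext f
    simp only [Function.comp]
    rw [hN, ih]

theorem sol_relabel {I' : Type*} (τ : I → I') {D : I → (I → ℝ) → ℝ} {D' : I' → (I' → ℝ) → ℝ}
    {N : I → ℝ → ℝ} {N' : I' → ℝ → ℝ}
    (hD : ∀ e y', D' (τ e) y' = D e (y' ∘ τ)) (hN : ∀ e s, N' (τ e) s = N e s) (e : I) (t : ℝ) :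
    sol D' N' (τ e) t = sol D N e t := by
  unfold sol picLim
  rw [hN]
  congr 2
  ext n
  exact pic_relabel τ hD hN n e t

variable [Countable I]

/-- Joint measurability of the Picard iterates in a parameter and time. -/
theorem measurable_pic {Q : Type*} [MeasurableSpace Q]
    {D : Q → I → (I → ℝ) → ℝ} {N : Q → I → ℝ → ℝ}
    (hD : ∀ e, Measurable (fun r : Q × (I → ℝ) => D r.1 e r.2))
    (hN : ∀ f, Measurable (fun r : Q × ℝ => N r.1 f r.2)) (n : ℕ) :
    ∀ e, Measurable (fun r : Q × ℝ => pic (D r.1) (N r.1) n e r.2) := by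
  induction n with
  | zero => intro e; simp only [pic]; exact measurable_const
  | succ n ih =>
    intro e
    simp only [pic]
    -- the integrand
    have hpath : Measurable (fun r : (Q × ℝ) × ℝ =>
        (r.1.1, fun f => N r.1.1 f r.2 + pic (D r.1.1) (N r.1.1) n f r.2)) := by
      refine (measurable_fst.comp measurable_fst).prodMk (measurable_pi_iff.2 fun f => ?_)
      have h1 : Measurable (fun r : (Q × ℝ) × ℝ => (r.1.1, r.2)) :=
        (measurable_fst.comp measurable_fst).prodMk measurable_snd
      exact ((hN f).comp h1).add ((ih f).comp h1)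
    have hint : Measurable (fun r : (Q × ℝ) × ℝ =>
        D r.1.1 e (fun f => N r.1.1 f r.2 + pic (D r.1.1) (N r.1.1) n f r.2)) :=
      (hD e).comp hpath
    have hset : MeasurableSet {r : (Q × ℝ) × ℝ | r.2 ∈ Ioc 0 r.1.2} := by
      have h1 : MeasurableSet {r : (Q × ℝ) × ℝ | 0 < r.2} :=
        measurableSet_lt measurable_const measurable_snd
      have h2 : MeasurableSet {r : (Q × ℝ) × ℝ | r.2 ≤ r.1.2} :=
        measurableSet_le measurable_snd (measurable_snd.comp measurable_fst)
      exact h1.inter h2
    have hind := (hint.indicator hset).stronglyMeasurable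
    have hres := hind.integral_prod_right' (ν := (volume : Measure ℝ))
    have heq : (fun r : Q × ℝ => ∫ s in Ioc 0 r.2,
        D r.1 e (fun f => N r.1 f s + pic (D r.1) (N r.1) n f s)) =
        fun r : Q × ℝ => ∫ s, ({r : (Q × ℝ) × ℝ | r.2 ∈ Ioc 0 r.1.2}.indicator
          (fun r : (Q × ℝ) × ℝ =>
            D r.1.1 e (fun f => N r.1.1 f r.2 + pic (D r.1.1) (N r.1.1) n f r.2))) (r, s) := by
      ext r
      rw [← integral_indicator measurableSet_Ioc]
      rfl
    rw [heq]
    exact hres.measurable

/-- Measurability of the solution. -/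
theorem measurable_sol {Q : Type*} [MeasurableSpace Q]
    {D : Q → I → (I → ℝ) → ℝ} {N : Q → I → ℝ → ℝ}
    (hD : ∀ e, Measurable (fun r : Q × (I → ℝ) => D r.1 e r.2))
    (hN : ∀ f, Measurable (fun r : Q × ℝ => N r.1 f r.2)) (e : I) :
    Measurable (fun r : Q × ℝ => sol (D r.1) (N r.1) e r.2) := by
  unfold sol picLim
  exact (hN e).add (Measurable.limsup fun n => measurable_pic hD hN n e)

/-- Measurability of the output. -/
theorem measurable_outB_sol {Q : Type*} [MeasurableSpace Q]
    {D : Q → I → (I → ℝ) → ℝ} {N : Q → I → ℝ → ℝ}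
    (hD : ∀ e, Measurable (fun r : Q × (I → ℝ) => D r.1 e r.2))
    (hN : ∀ f, Measurable (fun r : Q × ℝ => N r.1 f r.2)) (e : I) :
    Measurable (fun q : Q => outB (sol (D q) (N q) e)) := by
  have h1 : ∀ k : ℕ, Measurable (fun q : Q => sol (D q) (N q) e k / (k : ℝ)) := by
    intro k
    have h2 : Measurable (fun q : Q => (q, (k : ℝ))) := measurable_id.prodMk measurable_const
    exact ((measurable_sol hD hN e).comp h2).div_const _
  have h2 : Measurable (fun q : Q => limsup (fun k : ℕ => sol (D q) (N q) e k / (k : ℝ)) atTop) :=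
    Measurable.limsup h1
  have h3 : MeasurableSet {q : Q | 0 < limsup (fun k : ℕ => sol (D q) (N q) e k / (k : ℝ)) atTop} :=
    measurableSet_lt measurable_const h2
  unfold outB
  refine measurable_to_bool ?_
  have : (fun q : Q => decide (0 < limsup (fun k : ℕ => sol (D q) (N q) e k / (k : ℝ)) atTop)) ⁻¹' {true} =
      {q : Q | 0 < limsup (fun k : ℕ => sol (D q) (N q) e k / (k : ℝ)) atTop} := by
    ext q; simp
  rw [this]; exact h3

/-- The section of the iterates is measurable. -/
lemma measurable_pic_section {D : I → (I → ℝ) → ℝ} {N : I → ℝ → ℝ}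
    (hDm : ∀ e, Measurable (D e)) (hNm : ∀ f, Measurable (N f)) (n : ℕ) (e : I) :
    Measurable (pic D N n e) := by
  have h := measurable_pic (Q := Unit) (D := fun _ => D) (N := fun _ => N)
    (fun e => (hDm e).comp measurable_snd) (fun f => (hNm f).comp measurable_snd) n e
  have h2 : Measurable (fun t : ℝ => ((), t)) := measurable_const.prodMk measurable_id
  exact h.comp h2

/-- Convergence of Picard iterates to a fixed point. -/
theorem pic_tendsto {D : I → (I → ℝ) → ℝ} {N : I → ℝ → ℝ} {L : ℝ} (hL : 0 ≤ L)
    (hDm : ∀ e, Measurable (D e)) (hDb : ∀ e y, |D e y| ≤ 1)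
    (hDL : ∀ e y y' C, (∀ f, |y f - y' f| ≤ C) → |D e y - D e y'| ≤ L * C)
    (hNm : ∀ f, Measurable (N f))
    {Y : I → ℝ → ℝ} (hYm : ∀ f, Measurable (Y f))
    {g : I → ℝ → ℝ} (hg : ∀ e t, g e t = ∫ s in Ioc 0 t, D e (fun f => Y f s))
    (hae : ∀ᵐ s ∂(volume.restrict (Ioi (0:ℝ))), ∀ f, N f s + g f s = Y f s)
    (e : I) {t : ℝ} (ht : 0 ≤ t) :
    Tendsto (fun n => pic D N n e t) atTop (𝓝 (g e t)) := by
  have hnorm : ∀ {u : ℝ → ℝ} (a : ℝ), Measurable u → (∀ s, |u s| ≤ 1) →
      IntegrableOn u (Ioc 0 a) := by
    intro u a hu hb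
    refine Integrable.of_bound (C := 1) hu.aestronglyMeasurable ?_
    filter_upwards with s
    exact hb s
  have habsint : ∀ {u : ℝ → ℝ} (a : ℝ), 0 ≤ a → Measurable u → (∀ s, |u s| ≤ 1) →
      |∫ s in Ioc 0 a, u s| ≤ a := by
    intro u a ha hu hb
    have h := norm_integral_le_of_norm_le_const (μ := volume.restrict (Ioc 0 a)) (C := 1)
      (f := u) (Eventually.of_forall fun s => hb s)
    simpa [Measure.real, Real.volume_Ioc, ENNReal.toReal_ofReal ha] using h
  have hpathY : ∀ e, Measurable (fun s => D e (fun f => Y f s)) := fun e =>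
    (hDm e).comp (measurable_pi_iff.2 hYm)
  have hpathP : ∀ n e, Measurable (fun s => D e (fun f => N f s + pic D N n f s)) := fun n e =>
    (hDm e).comp (measurable_pi_iff.2 fun f => (hNm f).add (measurable_pic_section hDm hNm n f))
  -- the key bound
  set T := t with hT
  have key : ∀ n e, ∀ a, 0 ≤ a → a ≤ T → |pic D N n e a - g e a| ≤ T * ((L * a) ^ n / n.factorial) := by
    intro n
    induction n with
    | zero =>
      intro e a ha haT
      simp only [pic, zero_sub, abs_neg, pow_zero, Nat.factorial_zero, Nat.cast_one, div_one, mul_one]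
      rw [hg]
      exact (habsint a ha (hpathY e) (fun s => hDb e _)).trans haT
    | succ n ih =>
      intro e a ha haT
      simp only [pic]
      rw [hg, ← integral_sub (hnorm a (hpathP n e) (fun s => hDb e _))
        (hnorm a (hpathY e) (fun s => hDb e _))]
      have hbound : ∀ᵐ s ∂(volume.restrict (Ioc 0 a)),
          ‖D e (fun f => N f s + pic D N n f s) - D e (fun f => Y f s)‖ ≤
            L * (T * ((L * s) ^ n / n.factorial)) := by
        have hae2 : ∀ᵐ s ∂(volume.restrict (Ioc 0 a)), ∀ f, N f s + g f s = Y f s :=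
          ae_mono (Measure.restrict_mono Ioc_subset_Ioi_self le_rfl) hae
        filter_upwards [hae2, ae_restrict_mem measurableSet_Ioc] with s hs hsa
        rw [Real.norm_eq_abs]
        apply hDL
        intro f
        rw [← hs f]
        have : N f s + pic D N n f s - (N f s + g f s) = pic D N n f s - g f s := by ring
        rw [this]
        exact ih f s hsa.1.le (hsa.2.trans haT)
      have hle := norm_integral_le_of_norm_le
        (f := fun s => D e (fun f => N f s + pic D N n f s) - D e (fun f => Y f s))
        (g := fun s => L * (T * ((L * s) ^ n / n.factorial))) (μ := volume.restrict (Ioc 0 a))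
        ?_ hbound
      · rw [Real.norm_eq_abs] at hle
        refine hle.trans (le_of_eq ?_)
        rw [← intervalIntegral.integral_of_le ha]
        have hfun : (fun s : ℝ => L * (T * ((L * s) ^ n / n.factorial))) =
            fun s => (L * (T * (L ^ n / n.factorial))) * s ^ n := by
          ext s
          rw [mul_pow]
          ring
        rw [hfun, intervalIntegral.integral_const_mul, integral_pow]
        have hn : ((n + 1).factorial : ℝ) = (n + 1) * n.factorial := by
          push_cast [Nat.factorial_succ]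
          ring
        have hn2 : (n.factorial : ℝ) ≠ 0 := by positivity
        have hn3 : ((n : ℝ) + 1) ≠ 0 := by positivity
        rw [hn, mul_pow, pow_succ L n, pow_succ a n]
        simp only [ne_eq, Nat.add_eq_zero_iff, one_ne_zero, and_false, not_false_eq_true,
          zero_pow, sub_zero]
        field_simp
      · have hc : Continuous (fun s : ℝ => L * (T * ((L * s) ^ n / n.factorial))) := by
          fun_prop
        exact hc.integrableOn_Ioc
  -- the limit
  have hlim : Tendsto (fun n : ℕ => T * ((L * t) ^ n / n.factorial)) atTop (𝓝 (T * 0)) :=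
    (FloorSemiring.tendsto_pow_div_factorial_atTop (L * t)).const_mul T
  rw [mul_zero] at hlim
  have hsq : Tendsto (fun n => pic D N n e t - g e t) atTop (𝓝 0) := by
    apply squeeze_zero_norm _ hlim
    intro n
    rw [Real.norm_eq_abs]
    exact key n e t ht le_rfl
  have := hsq.add_const (g e t)
  simpa using this

end Picard

end Crest.Agent.H5SL
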