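import Mathlib

/-!
Schwarz lemma on the slit plane, and the slope bound for stable pairs.
-/

set_option autoImplicit false

open Complex Filter Metric Set Topology
open scoped ComplexConjugate

namespace Crest.Agent.H5SL

/-- principal square root, analytic on the slit plane -/
noncomputable def csq (w : ℂ) : ℂ := cexp (Complex.log w / 2)

lemma csq_re_pos {w : ℂ} (hw : w ∈ slitPlane) : 0 < (csq w).re := by
  unfold csq
  rw [Complex.exp_re]
  have hw0 : w ≠ 0 := slitPlane_ne_zero hw
  have h1 : (Complex.log w / 2).re = Real.log ‖w‖ / 2 := by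
    simp [Complex.log_re]
  have h2 : (Complex.log w / 2).im = Complex.arg w / 2 := by
    simp [Complex.log_im]
  rw [h1, h2]
  apply mul_pos (Real.exp_pos _)
  apply Real.cos_pos_of_mem_Ioo
  have h3 := Complex.arg_le_pi w
  have h4 := Complex.neg_pi_lt_arg w
  have h5 : Complex.arg w ≠ Real.pi := (Complex.mem_slitPlane_iff_arg.1 hw).1
  have h6 : Complex.arg w < Real.pi := lt_of_le_of_ne h3 h5
  constructor <;> linarith

lemma csq_sq {w : ℂ} (hw : w ≠ 0) : csq w * csq w = w := by
  unfold csq
  rw [← Complex.exp_add]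
  have : Complex.log w / 2 + Complex.log w / 2 = Complex.log w := by ring
  rw [this, Complex.exp_log hw]

lemma csq_hasDerivAt {w : ℂ} (hw : w ∈ slitPlane) :
    HasDerivAt csq (csq w * (w⁻¹ / 2)) w := by
  unfold csq
  have h := (Complex.hasDerivAt_log hw).div_const (2:ℂ)
  exact h.cexp

/-- The Cayley-squared map from the unit disc to the slit plane. -/
noncomputable def cphi (ζ : ℂ) : ℂ := ((1 + ζ) / (1 - ζ)) ^ 2

lemma one_sub_ne {ζ : ℂ} (h : ζ ∈ ball (0:ℂ) 1) : 1 - ζ ≠ 0 := by
  intro h0
  have : ζ = 1 := by linear_combination -h0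
  rw [this] at h
  simp at h

lemma cayley_re_pos {ζ : ℂ} (h : ζ ∈ ball (0:ℂ) 1) : 0 < ((1 + ζ) / (1 - ζ)).re := by
  have h1 := one_sub_ne h
  have hn : ‖ζ‖ < 1 := by simpa using h
  have hn2 : ζ.re * ζ.re + ζ.im * ζ.im < 1 := by
    have h3 : ‖ζ‖ ^ 2 < 1 := by nlinarith [norm_nonneg ζ]
    rw [Complex.sq_norm, Complex.normSq_apply] at h3
    linarith
  rw [Complex.div_re]
  have hns : 0 < Complex.normSq (1 - ζ) := Complex.normSq_pos.2 h1
  have : (1 + ζ).re * (1 - ζ).re / Complex.normSq (1 - ζ) +
      (1 + ζ).im * (1 - ζ).im / Complex.normSq (1 - ζ) =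
      (1 - (ζ.re * ζ.re + ζ.im * ζ.im)) / Complex.normSq (1 - ζ) := by
    simp only [Complex.add_re, Complex.one_re, Complex.sub_re, Complex.add_im, Complex.one_im,
      Complex.sub_im]
    field_simp
    ring
  rw [this]
  exact div_pos (by linarith) hns

lemma cphi_mem {ζ : ℂ} (h : ζ ∈ ball (0:ℂ) 1) : cphi ζ ∈ slitPlane := by
  have h1 := cayley_re_pos h
  set w := (1 + ζ) / (1 - ζ) with hw
  unfold cphi
  rw [← hw, Complex.mem_slitPlane_iff]
  by_cases him : w.im = 0
  · left
    rw [sq, Complex.mul_re, him]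
    nlinarith
  · right
    rw [sq, Complex.mul_im]
    have : w.re * w.im + w.im * w.re = 2 * w.re * w.im := by ring
    rw [this]
    exact mul_ne_zero (by positivity) him

lemma cphi_zero : cphi 0 = 1 := by simp [cphi]

lemma cphi_hasDerivAt : HasDerivAt cphi 4 0 := by
  have h1 : HasDerivAt (fun ζ : ℂ => 1 + ζ) 1 0 := by
    simpa using (hasDerivAt_id (0:ℂ)).const_add 1
  have h2 : HasDerivAt (fun ζ : ℂ => 1 - ζ) (-1) 0 := by
    simpa using (hasDerivAt_id (0:ℂ)).const_sub 1
  have h3 : HasDerivAt (fun ζ : ℂ => (1 + ζ) / (1 - ζ)) 2 0 := by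
    have := h1.fun_div h2 (by simp)
    exact this.congr_deriv (by norm_num)
  have h4 := h3.fun_pow 2
  unfold cphi
  exact h4.congr_deriv (by norm_num)

lemma cayley_norm_le {s a : ℂ} (hs : 0 < s.re) (ha : 0 < a.re) (ha2 : a.im = 0) :
    ‖(s - a) / (s + a)‖ ≤ 1 := by
  have h0 : s + a ≠ 0 := by
    intro h
    have := congrArg Complex.re h
    simp at this
    linarith
  rw [norm_div, div_le_one (norm_pos_iff.2 h0)]
  have h2 : ‖s - a‖ ^ 2 ≤ ‖s + a‖ ^ 2 := by
    rw [Complex.sq_norm, Complex.sq_norm, Complex.normSq_apply, Complex.normSq_apply]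
    simp only [Complex.sub_re, Complex.add_re, Complex.sub_im, Complex.add_im, ha2]
    nlinarith [mul_pos hs ha]
  exact (pow_le_pow_iff_left₀ (norm_nonneg _) (norm_nonneg _) (by norm_num)).1 h2

/-- **Schwarz lemma on the slit plane at the point `1`.** -/
theorem schwarz_slit {h : ℂ → ℂ} (hd : DifferentiableOn ℂ h slitPlane)
    (hm : MapsTo h slitPlane slitPlane) (h1im : (h 1).im = 0) (h1re : 0 < (h 1).re) :
    ‖deriv h 1‖ ≤ (h 1).re := by
  have h1mem : (1:ℂ) ∈ slitPlane := by simp [Complex.mem_slitPlane_iff]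
  have hh1 : h 1 ∈ slitPlane := hm h1mem
  have hh1ne : h 1 ≠ 0 := slitPlane_ne_zero hh1
  set a : ℂ := csq (h 1) with ha
  have hare : 0 < a.re := csq_re_pos hh1
  have haim : a.im = 0 := by
    have hreal : h 1 = ((h 1).re : ℂ) := by
      apply Complex.ext <;> simp [h1im]
    have hlog : Complex.log (h 1) = (Real.log (h 1).re : ℂ) := by
      rw [hreal, ← Complex.ofReal_log h1re.le]
      simp
    have h5 : ((Real.log (h 1).re : ℂ) / 2) = ((Real.log (h 1).re / 2 : ℝ) : ℂ) := by
      push_cast; ring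
    have h6 : a = ((Real.exp (Real.log (h 1).re / 2) : ℝ) : ℂ) := by
      rw [ha, csq, hlog, h5, Complex.ofReal_exp]
    rw [h6]
    exact Complex.ofReal_im _
  have haa : a * a = h 1 := csq_sq hh1ne
  have ha0 : a ≠ 0 := by
    intro h0
    rw [h0] at hare
    simp at hare
  let G : ℂ → ℂ := fun ζ => csq (h (cphi ζ))
  let F : ℂ → ℂ := fun ζ => (G ζ - a) / (G ζ + a)
  have hG0 : G 0 = a := by simp only [G, cphi_zero, ha]
  have hF0 : F 0 = 0 := by simp [F, hG0]
  have hGre : ∀ ζ ∈ ball (0:ℂ) 1, 0 < (G ζ).re := fun ζ hζ => csq_re_pos (hm (cphi_mem hζ))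
  have hGa : ∀ ζ ∈ ball (0:ℂ) 1, G ζ + a ≠ 0 := by
    intro ζ hζ h0
    have := congrArg Complex.re h0
    simp at this
    have := hGre ζ hζ
    linarith
  have hGd : ∀ ζ ∈ ball (0:ℂ) 1, DifferentiableAt ℂ G ζ := by
    intro ζ hζ
    have h1 : DifferentiableAt ℂ cphi ζ := by
      unfold cphi
      have := one_sub_ne hζ
      fun_prop (disch := assumption)
    have h2 : DifferentiableAt ℂ h (cphi ζ) :=
      hd.differentiableAt (isOpen_slitPlane.mem_nhds (cphi_mem hζ))
    have h3 : DifferentiableAt ℂ csq (h (cphi ζ)) :=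
      (csq_hasDerivAt (hm (cphi_mem hζ))).differentiableAt
    exact DifferentiableAt.comp (g := csq) ζ h3 (h2.comp ζ h1)
  have hFd : DifferentiableOn ℂ F (ball 0 1) := by
    intro ζ hζ
    apply DifferentiableAt.differentiableWithinAt
    exact ((hGd ζ hζ).sub_const a).div ((hGd ζ hζ).add_const a) (hGa ζ hζ)
  have hFm : MapsTo F (ball 0 1) (closedBall (F 0) 1) := by
    intro ζ hζ
    rw [hF0, mem_closedBall_zero_iff]
    exact cayley_norm_le (hGre ζ hζ) hare haim
  have hS := Complex.norm_deriv_le_one_of_mapsTo_ball hFd hFm (by norm_num)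
  -- compute derivative
  have hhd : HasDerivAt h (deriv h 1) 1 :=
    (hd.differentiableAt (isOpen_slitPlane.mem_nhds h1mem)).hasDerivAt
  have hG' : HasDerivAt G (csq (h 1) * ((h 1)⁻¹ / 2) * (deriv h 1 * 4)) 0 := by
    have h1' : HasDerivAt (fun ζ => h (cphi ζ)) (deriv h 1 * 4) 0 := by
      have hh : HasDerivAt h (deriv h 1) (cphi 0) := by rw [cphi_zero]; exact hhd
      exact hh.comp 0 cphi_hasDerivAt
    have h2' : HasDerivAt csq (csq (h 1) * ((h 1)⁻¹ / 2)) (h (cphi 0)) := by
      rw [cphi_zero]; exact csq_hasDerivAt hh1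
    exact HasDerivAt.comp (h₂ := csq) 0 h2' h1'
  have hF' : HasDerivAt F (deriv h 1 / h 1) 0 := by
    have h3 := (hG'.sub_const a).div (hG'.add_const a) (by rw [hG0]; intro h0
                                                           have := congrArg Complex.re h0
                                                           simp at this; linarith)
    have h4 : deriv h 1 / h 1 = ((csq (h 1) * ((h 1)⁻¹ / 2) * (deriv h 1 * 4)) * (G 0 + a) - (G 0 - a) * (csq (h 1) * ((h 1)⁻¹ / 2) * (deriv h 1 * 4))) / (G 0 + a) ^ 2 := by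
      rw [hG0, ← ha, ← haa]
      have h2a : a + a ≠ 0 := by
        intro h0; apply ha0; linear_combination h0 / 2
      field_simp
      ring
    rw [h4]
    exact h3
  have hF'' : True := trivial
  have hF''' : True := trivial
  rw [hF'.deriv, norm_div] at hS
  have hnorm : ‖h 1‖ = (h 1).re := by
    have hreal : h 1 = ((h 1).re : ℂ) := by
      apply Complex.ext <;> simp [h1im]
    rw [hreal, Complex.norm_real]
    simp [abs_of_pos h1re]
  rw [hnorm] at hS
  rwa [div_le_one h1re] at hS

/-- Non-vanishing of `B` in the upper half plane. -/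
lemma stable_B_ne {A B : ℂ → ℂ} (hA : Differentiable ℂ A) (hB : Differentiable ℂ B)
    (hstab : ∀ t z : ℂ, 0 < t.im → 0 < z.im → A t + z * B t ≠ 0)
    (hB1 : B 1 ≠ 0) {t₀ : ℂ} (ht₀ : 0 < t₀.im) : B t₀ ≠ 0 := by
  intro hB0
  have hA0 : A t₀ ≠ 0 := by
    intro h0
    exact hstab t₀ Complex.I ht₀ (by simp) (by simp [h0, hB0])
  let f : ℂ → ℂ := fun t => B t / A t
  have hfa : AnalyticAt ℂ f t₀ := by
    have h1 : AnalyticAt ℂ B t₀ := hB.analyticAt t₀
    have h2 : AnalyticAt ℂ A t₀ := hA.analyticAt t₀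
    exact h1.div h2 hA0
  have hft : f t₀ = 0 := by simp [f, hB0]
  rcases hfa.eventually_constant_or_nhds_le_map_nhds with hc | ho
  · -- B vanishes near t₀
    have hBev : ∀ᶠ t in 𝓝 t₀, B t = 0 := by
      have hAne : ∀ᶠ t in 𝓝 t₀, A t ≠ 0 := hA.continuous.continuousAt.eventually_ne hA0
      filter_upwards [hc, hAne] with t h1 h2
      have : B t / A t = 0 := by
        have := h1
        simp only [f] at this
        rw [this, hB0]; simp
      rcases div_eq_zero_iff.1 this with h | h
      · exact h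
      · exact absurd h h2
    have hBan : AnalyticOnNhd ℂ B univ := fun t _ => hB.analyticAt t
    have := hBan.eqOn_zero_of_preconnected_of_eventuallyEq_zero isPreconnected_univ
      (mem_univ t₀) hBev
    exact hB1 (this (mem_univ 1))
  · -- open mapping
    have hN : {t : ℂ | 0 < t.im ∧ A t ≠ 0} ∈ 𝓝 t₀ := by
      have h1 : {t : ℂ | 0 < t.im} ∈ 𝓝 t₀ :=
        (isOpen_lt continuous_const Complex.continuous_im).mem_nhds ht₀
      have h2 : {t : ℂ | A t ≠ 0} ∈ 𝓝 t₀ := hA.continuous.continuousAt.eventually_ne hA0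
      exact inter_mem h1 h2
    have himg : f '' {t : ℂ | 0 < t.im ∧ A t ≠ 0} ∈ 𝓝 (f t₀) := ho (image_mem_map hN)
    rw [hft, Metric.mem_nhds_iff] at himg
    obtain ⟨ε, hε, hball⟩ := himg
    have hw : (Complex.I * ((ε / 2 : ℝ) : ℂ)) ∈ ball (0:ℂ) ε := by
      rw [mem_ball_zero_iff, norm_mul, Complex.norm_I, Complex.norm_real]
      simp only [one_mul, Real.norm_eq_abs, abs_of_pos (half_pos hε)]
      linarith
    obtain ⟨t, ⟨ht, hAt⟩, hft2⟩ := hball hw
    simp only [f] at hft2
    have hBt : B t = Complex.I * ((ε / 2 : ℝ) : ℂ) * A t := by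
      field_simp at hft2
      linear_combination hft2
    have hεc : ((ε / 2 : ℝ) : ℂ) ≠ 0 := by
      have : ε / 2 ≠ 0 := by positivity
      exact_mod_cast this
    refine hstab t (Complex.I * (((ε / 2)⁻¹ : ℝ) : ℂ)) ht ?_ ?_
    · simp [hε]
    · rw [hBt]
      have h3 : Complex.I * Complex.I = -1 := Complex.I_mul_I
      push_cast at hεc ⊢
      have h4 : (ε : ℂ) ≠ 0 := by
        intro h0; apply hεc; rw [h0]; simp
      field_simp
      rw [Complex.I_sq]
      ring

/-- Slope bound: the key inequality `|A'B - AB'| ≤ AB` at `1` for a stable pair. -/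
theorem slope_bound {A B : ℂ → ℂ} (hA : Differentiable ℂ A) (hB : Differentiable ℂ B)
    (hAc : ∀ t, A (conj t) = conj (A t)) (hBc : ∀ t, B (conj t) = conj (B t))
    (hstab : ∀ t z : ℂ, 0 < t.im → 0 < z.im → A t + z * B t ≠ 0)
    (hApos : ∀ x : ℝ, 0 < x → 0 ≤ (A x).re) (hBpos : ∀ x : ℝ, 0 < x → 0 < (B x).re) :
    ‖deriv A 1 * B 1 - A 1 * deriv B 1‖ ≤ (A 1).re * (B 1).re := by
  have hreal : ∀ {C : ℂ → ℂ}, (∀ t, C (conj t) = conj (C t)) → ∀ x : ℝ, (C x).im = 0 := by
    intro C hC x
    have := hC x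
    rw [Complex.conj_ofReal] at this
    exact Complex.conj_eq_iff_im.1 this.symm
  have hB1r : (B 1).im = 0 := by simpa using hreal hBc 1
  have hA1r : (A 1).im = 0 := by simpa using hreal hAc 1
  have hB1p : 0 < (B 1).re := by simpa using hBpos 1 one_pos
  have hA1p : 0 ≤ (A 1).re := by simpa using hApos 1 one_pos
  have hB1ne : B 1 ≠ 0 := by
    intro h0; rw [h0] at hB1p; simp at hB1p
  have hBup : ∀ t : ℂ, 0 < t.im → B t ≠ 0 := fun t ht => stable_B_ne hA hB hstab hB1ne ht
  have hBne : ∀ t ∈ slitPlane, B t ≠ 0 := by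
    intro t ht
    rcases lt_trichotomy t.im 0 with h | h | h
    · have h2 : 0 < (conj t).im := by simpa using h
      have := hBup _ h2
      rw [hBc] at this
      intro h0; apply this; rw [h0]; simp
    · have hre : 0 < t.re := by
        rcases Complex.mem_slitPlane_iff.1 ht with h' | h'
        · exact h'
        · exact absurd h h'
      have ht' : t = (t.re : ℂ) := by apply Complex.ext <;> simp [h]
      rw [ht']
      intro h0
      have := hBpos t.re hre
      rw [h0] at this
      simp at this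
    · exact hBup t h
  have hImAB : ∀ t : ℂ, 0 < t.im → 0 ≤ (A t / B t).im := by
    intro t ht
    by_contra hneg
    push Not at hneg
    have hz : 0 < (-(A t / B t)).im := by simpa using hneg
    refine hstab t _ ht hz ?_
    have := hBup t ht
    field_simp
    ring
  -- the perturbed function
  have key : ∀ δ : ℝ, 0 < δ →
      ‖(deriv A 1 * B 1 - A 1 * deriv B 1) / (B 1) ^ 2 + δ‖ ≤ (A 1).re / (B 1).re + δ := by
    intro δ hδ
    let h : ℂ → ℂ := fun t => A t / B t + δ * t
    have hd : DifferentiableOn ℂ h slitPlane := by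
      intro t ht
      apply DifferentiableAt.differentiableWithinAt
      have h1 := hA t
      have h2 := hB t
      have h3 := hBne t ht
      simp only [h]
      fun_prop (disch := assumption)
    have hm : MapsTo h slitPlane slitPlane := by
      intro t ht
      rw [Complex.mem_slitPlane_iff]
      rcases lt_trichotomy t.im 0 with h1 | h1 | h1
      · right
        have h2 : 0 < (conj t).im := by simpa using h1
        have h3 := hImAB _ h2
        rw [hAc, hBc] at h3
        have h4 : (conj (A t) / conj (B t)) = conj (A t / B t) := by simp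
        rw [h4, Complex.conj_im] at h3
        have : (h t).im = (A t / B t).im + δ * t.im := by simp [h]
        rw [this]
        nlinarith
      · left
        have hre : 0 < t.re := by
          rcases Complex.mem_slitPlane_iff.1 ht with h' | h'
          · exact h'
          · exact absurd h1 h'
        have ht' : t = (t.re : ℂ) := by apply Complex.ext <;> simp [h1]
        have hAr := hreal hAc t.re
        have hBr := hreal hBc t.re
        have hAp := hApos t.re hre
        have hBp := hBpos t.re hre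
        have : (h t).re = (A t).re / (B t).re + δ * t.re := by
          simp only [h]
          rw [ht']
          simp [Complex.div_re, hBr, hAr, Complex.normSq_apply]
          field_simp
        rw [this, ← ht'] at *
        have : 0 ≤ (A t).re / (B t).re := div_nonneg hAp hBp.le
        positivity
      · right
        have h3 := hImAB t h1
        have : (h t).im = (A t / B t).im + δ * t.im := by simp [h]
        rw [this]
        have := mul_pos hδ h1
        linarith
    have hval : h 1 = (((A 1).re / (B 1).re + δ : ℝ) : ℂ) := by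
      simp only [h]
      have h1 : A 1 = ((A 1).re : ℂ) := by apply Complex.ext <;> simp [hA1r]
      have h2 : B 1 = ((B 1).re : ℂ) := by apply Complex.ext <;> simp [hB1r]
      rw [h1, h2]
      simp
    have h1im : (h 1).im = 0 := by rw [hval]; simp
    have h1re : (h 1).re = (A 1).re / (B 1).re + δ := by rw [hval]; simp
    have hpos : 0 < (h 1).re := by
      rw [h1re]
      have : 0 ≤ (A 1).re / (B 1).re := div_nonneg hA1p hB1p.le
      linarith
    have hS := schwarz_slit hd hm h1im hpos
    rw [h1re] at hS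
    have hder : deriv h 1 = (deriv A 1 * B 1 - A 1 * deriv B 1) / (B 1) ^ 2 + δ := by
      have h1 : HasDerivAt A (deriv A 1) 1 := (hA 1).hasDerivAt
      have h2 : HasDerivAt B (deriv B 1) 1 := (hB 1).hasDerivAt
      have h3 := (h1.div h2 hB1ne).add ((hasDerivAt_id (1:ℂ)).const_mul (δ:ℂ))
      have h4 := h3.deriv
      simp only [mul_one] at h4
      exact h4
    rwa [hder] at hS
  -- take the limit δ → 0
  have hlim : ‖(deriv A 1 * B 1 - A 1 * deriv B 1) / (B 1) ^ 2‖ ≤ (A 1).re / (B 1).re := by
    set X := (deriv A 1 * B 1 - A 1 * deriv B 1) / (B 1) ^ 2 with hX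
    have h1 : Tendsto (fun δ : ℝ => ‖X + (δ : ℂ)‖) (𝓝[>] 0) (𝓝 ‖X‖) := by
      have : Continuous (fun δ : ℝ => ‖X + (δ : ℂ)‖) := by fun_prop
      simpa using (this.tendsto 0).mono_left nhdsWithin_le_nhds
    have h2 : Tendsto (fun δ : ℝ => (A 1).re / (B 1).re + δ) (𝓝[>] 0) (𝓝 ((A 1).re / (B 1).re)) := by
      have : Continuous (fun δ : ℝ => (A 1).re / (B 1).re + δ) := by fun_prop
      simpa using (this.tendsto 0).mono_left nhdsWithin_le_nhds
    exact le_of_tendsto_of_tendsto h1 h2
      (eventually_nhdsWithin_of_forall fun δ hδ => key δ hδ)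
  have hBn : ‖B 1‖ = (B 1).re := by
    have hreal' : B 1 = ((B 1).re : ℂ) := by
      apply Complex.ext <;> simp [hB1r]
    rw [hreal', Complex.norm_real]
    simp [abs_of_pos hB1p]
  rw [norm_div, norm_pow, hBn, div_le_div_iff₀ (by positivity) hB1p] at hlim
  have h5 : ‖deriv A 1 * B 1 - A 1 * deriv B 1‖ * (B 1).re ≤ (A 1).re * (B 1).re * (B 1).re := by
    nlinarith
  exact le_of_mul_le_mul_right h5 hB1p

end Crest.Agent.H5SL
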