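import Crest.Agent.H5SLFunGraph
import Crest.Agent.H5SLStable
import Crest.Prelude.Def_SpanningTrees

/-!
The spanning tree polynomial of a connected finite piece of a graph is a determinant (matrix tree
theorem) and does not vanish on the product of upper half planes.
-/

set_option autoImplicit false
set_option linter.unusedSectionVars false
set_option linter.unusedVariables false

open Matrix Crest.ProbabilityR.SpanningTrees

namespace Crest.Agent.H5SL

section Tree

variable {V : Type*} [DecidableEq V]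

lemma mem_edgesIn {G : SimpleGraph V} {S : Finset V} {e : Sym2 V} :
    e ∈ edgesIn G S ↔ e ∈ S.sym2 ∧ e ∈ G.edgeSet := by
  classical
  unfold edgesIn
  simp

lemma mk_mem_edgesIn {G : SimpleGraph V} {S : Finset V} {x y : V} :
    s(x, y) ∈ edgesIn G S ↔ x ∈ S ∧ y ∈ S ∧ G.Adj x y := by
  rw [mem_edgesIn, Finset.mk_mem_sym2_iff, SimpleGraph.mem_edgeSet]
  tauto

/-- neighbours inside `S` -/
noncomputable def nbS (G : SimpleGraph V) (S : Finset V) (v : V) : Finset V := by
  classical exact S.filter (G.Adj v)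

lemma mem_nbS {G : SimpleGraph V} {S : Finset V} {v a : V} :
    a ∈ nbS G S v ↔ a ∈ S ∧ G.Adj v a := by
  classical
  unfold nbS
  simp

variable (G : SimpleGraph V) (S : Finset V) (r : V)

/-- the next step of a rooted function -/
def nxF {S : Finset V} {r : V} (φ : ↥(S.erase r) → V) : ↥(S.erase r) → Option ↥(S.erase r) :=
  fun v => if h : φ v ∈ S.erase r then some ⟨φ v, h⟩ else none

lemma nxF_some {S : Finset V} {r : V} {φ : ↥(S.erase r) → V} {v u : ↥(S.erase r)} :
    nxF φ v = some u ↔ φ v = (u : V) := by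
  unfold nxF
  by_cases h : φ v ∈ S.erase r
  · simp only [h, dite_true, Option.some.injEq, Subtype.ext_iff]
  · rw [dif_neg h]
    simp only [reduceCtorEq, false_iff]
    intro h2
    exact h (h2 ▸ u.2)

/-- The reduced weighted Laplacian -/
noncomputable def lapZ (z : Sym2 V → ℂ) : Matrix ↥(S.erase r) ↥(S.erase r) ℂ :=
  fun v u => ∑ a ∈ nbS G S v, z s((v : V), a) *
    ((if v = u then 1 else 0) - (if a = (u : V) then 1 else 0))

/-- elementary row matrix of a rooted function -/
def rowM {S : Finset V} {r : V} (φ : ↥(S.erase r) → V) : Matrix ↥(S.erase r) ↥(S.erase r) ℂ :=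
  fun v u => (if v = u then 1 else 0) - (if φ v = (u : V) then 1 else 0)

lemma rowM_eq {S : Finset V} {r : V} (φ : ↥(S.erase r) → V) : rowM φ = 1 - nMat (nxF φ) := by
  ext v u
  simp only [rowM, Matrix.sub_apply, Matrix.one_apply, nMat]
  congr 1
  exact if_congr nxF_some.symm rfl rfl

/-- Expansion of the determinant over rooted functions. -/
theorem det_lapZ (z : Sym2 V → ℂ) :
    (lapZ G S r z).det = ∑ φ ∈ Fintype.piFinset (fun v : ↥(S.erase r) => nbS G S v),
      (∏ v : ↥(S.erase r), z s((v : V), φ v)) * (rowM φ).det := by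
  have h1 : lapZ G S r z = fun v : ↥(S.erase r) => ∑ a ∈ nbS G S v, z s((v : V), a) •
      (fun u : ↥(S.erase r) => ((if v = u then 1 else 0) - (if a = (u : V) then 1 else 0) : ℂ)) := by
    ext v u
    simp only [lapZ, Finset.sum_apply, Pi.smul_apply, smul_eq_mul]
  have h2 : (lapZ G S r z).det = Matrix.detRowAlternating (lapZ G S r z) := rfl
  rw [h2, h1]
  have h3 := MultilinearMap.map_sum_finset (Matrix.detRowAlternating (R := ℂ) (n := ↥(S.erase r))).toMultilinearMap
    (fun (v : ↥(S.erase r)) (a : V) => z s((v : V), a) •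
      (fun u : ↥(S.erase r) => ((if v = u then 1 else 0) - (if a = (u : V) then 1 else 0) : ℂ)))
    (fun v : ↥(S.erase r) => nbS G S v)
  refine h3.trans ?_
  apply Finset.sum_congr rfl
  intro φ _
  have h4 := (Matrix.detRowAlternating (R := ℂ) (n := ↥(S.erase r))).toMultilinearMap.map_smul_univ
    (fun v : ↥(S.erase r) => z s((v : V), φ v))
    (fun (v : ↥(S.erase r)) (u : ↥(S.erase r)) => ((if v = u then 1 else 0) - (if φ v = (u : V) then 1 else 0) : ℂ))
  refine h4.trans ?_
  rw [smul_eq_mul]
  rfl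

/-- rooted functions whose orbits all reach the root -/
def GoodF {S : Finset V} {r : V} (φ : ↥(S.erase r) → V) : Prop :=
  ∀ v, Reaches (nxF φ) v

open Classical in
/-- The sum over good rooted functions. -/
theorem det_lapZ_eq_sum_good (z : Sym2 V → ℂ) :
    (lapZ G S r z).det = ∑ φ ∈ (Fintype.piFinset (fun v : ↥(S.erase r) => nbS G S v)).filter GoodF,
      ∏ v : ↥(S.erase r), z s((v : V), φ v) := by
  rw [det_lapZ, Finset.sum_filter]
  apply Finset.sum_congr rfl
  intro φ _
  rw [rowM_eq]
  by_cases h : GoodF φ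
  · rw [if_pos h, det_one_sub_nMat_of_reach _ h, mul_one]
  · rw [if_neg h]
    unfold GoodF at h
    push Not at h
    obtain ⟨v, hv⟩ := h
    rw [det_one_sub_nMat_of_not_reach _ hv, mul_zero]

/-! ### Combinatorics of good functions -/

section Good

variable {S} {r} {φ : ↥(S.erase r) → V}

lemma nxF_none {v : ↥(S.erase r)} : nxF φ v = none ↔ φ v ∉ S.erase r := by
  unfold nxF
  by_cases h : φ v ∈ S.erase r
  · simp [h]
  · simp [h]

/-- no two-cycles -/
lemma GoodF.no_two_cycle (hφ : GoodF φ) {v u : ↥(S.erase r)} (h1 : φ v = (u : V)) (h2 : φ u = (v : V)) :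
    False := by
  obtain ⟨k, hk⟩ := hφ v
  have key : ∀ k, (fstep (nxF φ))^[k] (some v) = some v ∨ (fstep (nxF φ))^[k] (some v) = some u := by
    intro k
    induction k with
    | zero => left; rfl
    | succ k ih =>
      rw [Function.iterate_succ_apply']
      rcases ih with ih | ih
      · right
        rw [ih, fstep_some]
        exact nxF_some.2 h1
      · left
        rw [ih, fstep_some]
        exact nxF_some.2 h2
  rcases key k with h | h <;> simp [hk] at h

/-- the edges of a rooted function -/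
def Aof (φ : ↥(S.erase r) → V) : Finset (Sym2 V) :=
  Finset.univ.image (fun v : ↥(S.erase r) => s((v : V), φ v))

lemma GoodF.edge_inj (hφ : GoodF φ) :
    Function.Injective (fun v : ↥(S.erase r) => s((v : V), φ v)) := by
  intro v u h
  simp only [Sym2.eq_iff] at h
  rcases h with ⟨h1, _⟩ | ⟨h1, h2⟩
  · exact Subtype.ext h1
  · exact (hφ.no_two_cycle h2 h1.symm).elim

lemma GoodF.card_Aof (hφ : GoodF φ) : (Aof φ).card = (S.erase r).card := by
  unfold Aof
  rw [Finset.card_image_of_injective _ hφ.edge_inj]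
  simp

lemma GoodF.prod_Aof (hφ : GoodF φ) (z : Sym2 V → ℂ) :
    ∏ v : ↥(S.erase r), z s((v : V), φ v) = ∏ e ∈ Aof φ, z e := by
  unfold Aof
  rw [Finset.prod_image (fun a _ b _ h => hφ.edge_inj h)]

/-- Injectivity of `Aof` on good functions. -/
theorem GoodF.inj_Aof {φ' : ↥(S.erase r) → V} (hφ : GoodF φ) (hφ' : GoodF φ')
    (h : Aof φ = Aof φ') : φ = φ' := by
  by_contra hne
  obtain ⟨v₀, hv₀⟩ := Function.ne_iff.1 hne
  have key : ∀ k, ∃ v : ↥(S.erase r), (fstep (nxF φ'))^[k] (some v₀) = some v ∧ φ v ≠ φ' v := by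
    intro k
    induction k with
    | zero => exact ⟨v₀, rfl, hv₀⟩
    | succ k ih =>
      obtain ⟨v, hv, hne2⟩ := ih
      have hmem : s((v : V), φ' v) ∈ Aof φ := by
        rw [h]
        exact Finset.mem_image_of_mem _ (Finset.mem_univ v)
      obtain ⟨u, -, hu⟩ := Finset.mem_image.1 hmem
      simp only [Sym2.eq_iff] at hu
      rcases hu with ⟨h1, h2⟩ | ⟨h1, h2⟩
      · have : u = v := Subtype.ext h1
        subst this
        exact (hne2 h2).elim
      · -- `u = φ' v` and `φ u = v`
        refine ⟨u, ?_, ?_⟩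
        · rw [Function.iterate_succ_apply', hv, fstep_some]
          exact nxF_some.2 h1.symm
        · rw [h2]
          intro h3
          exact hφ'.no_two_cycle h1.symm h3.symm
  obtain ⟨k, hk⟩ := hφ' v₀
  obtain ⟨v, hv, _⟩ := key k
  rw [hk] at hv
  simp at hv

end Good

/-! ### Edge counts of induced graphs -/

section EdgeCount

variable {S}

/-- The edges of the induced graph on `S` of the graph with edge set `A` are `A`. -/
lemma card_edges_induce {A : Finset (Sym2 V)} (hA : ∀ e ∈ A, e ∈ S.sym2 ∧ ¬ e.IsDiag) :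
    Nat.card ((SimpleGraph.fromEdgeSet (A : Set (Sym2 V))).induce (S : Set V)).edgeSet = A.card := by
  classical
  set H := (SimpleGraph.fromEdgeSet (A : Set (Sym2 V))).induce (S : Set V) with hH
  let g : H.edgeSet → A := fun e => ⟨Sym2.map Subtype.val e.1, by
    obtain ⟨e, he⟩ := e
    induction e using Sym2.ind with
    | h x y =>
      simp only [Sym2.map_mk]
      have : H.Adj x y := he
      have h2 : (SimpleGraph.fromEdgeSet (A : Set (Sym2 V))).Adj x y := this
      rw [SimpleGraph.fromEdgeSet_adj] at h2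
      exact h2.1⟩
  have hg : Function.Bijective g := by
    constructor
    · rintro ⟨e, he⟩ ⟨e', he'⟩ h
      have h1 : Sym2.map Subtype.val e = Sym2.map Subtype.val e' := congrArg Subtype.val h
      exact Subtype.ext (Sym2.map.injective Subtype.val_injective h1)
    · rintro ⟨e, he⟩
      obtain ⟨h1, h2⟩ := hA e he
      induction e using Sym2.ind with
      | h x y =>
        rw [Finset.mk_mem_sym2_iff] at h1
        simp only [Sym2.mk_isDiag_iff] at h2
        refine ⟨⟨s(⟨x, h1.1⟩, ⟨y, h1.2⟩), ?_⟩, ?_⟩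
        · change H.Adj _ _
          change (SimpleGraph.fromEdgeSet (A : Set (Sym2 V))).Adj x y
          rw [SimpleGraph.fromEdgeSet_adj]
          exact ⟨he, h2⟩
        · rfl
  have h1 := Nat.card_congr (Equiv.ofBijective g hg)
  rw [h1]
  simp

lemma edgesIn_props {G : SimpleGraph V} {A : Finset (Sym2 V)} (hA : A ⊆ edgesIn G S) :
    ∀ e ∈ A, e ∈ S.sym2 ∧ ¬ e.IsDiag := by
  intro e he
  have h := mem_edgesIn.1 (hA he)
  exact ⟨h.1, G.not_isDiag_of_mem_edgeSet h.2⟩

lemma card_subtype_finset : Nat.card (S : Set V) = S.card := by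
  simp

end EdgeCount

variable {G S r}

/-- A good function gives a spanning tree. -/
theorem GoodF.isTree (hr : r ∈ S) {φ : ↥(S.erase r) → V}
    (hφ : GoodF φ) (hmem : ∀ v : ↥(S.erase r), φ v ∈ nbS G S v) : IsSpanningTreeOn G S (Aof φ) := by
  have hsub : Aof φ ⊆ edgesIn G S := by
    intro e he
    obtain ⟨v, -, rfl⟩ := Finset.mem_image.1 he
    have h1 := mem_nbS.1 (hmem v)
    exact mk_mem_edgesIn.2 ⟨Finset.mem_of_mem_erase v.2, h1.1, h1.2⟩
  refine ⟨hsub, ?_⟩
  set H := (SimpleGraph.fromEdgeSet (Aof φ : Set (Sym2 V))).induce (S : Set V) with hH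
  have hcard := card_edges_induce (edgesIn_props hsub)
  rw [SimpleGraph.isTree_iff_connected_and_card]
  constructor
  · -- connectivity through the root
    have hS_r : r ∈ (S : Set V) := hr
    have hreach : ∀ x : (S : Set V), H.Reachable x ⟨r, hS_r⟩ := by
      have key : ∀ k (v : ↥(S.erase r)), (fstep (nxF φ))^[k] (some v) = none →
          H.Reachable ⟨v, Finset.mem_of_mem_erase v.2⟩ ⟨r, hS_r⟩ := by
        intro k
        induction k with
        | zero => intro v h; simp at h
        | succ k ih =>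
          intro v h
          have hadj : ∀ (b : V) (hb : b ∈ (S : Set V)), φ v = b →
              H.Adj ⟨v, Finset.mem_of_mem_erase v.2⟩ ⟨b, hb⟩ := by
            intro b hb hφb
            change (SimpleGraph.fromEdgeSet (Aof φ : Set (Sym2 V))).Adj v b
            rw [SimpleGraph.fromEdgeSet_adj]
            refine ⟨?_, ?_⟩
            · rw [← hφb]
              exact Finset.mem_image_of_mem (fun v : ↥(S.erase r) => s((v : V), φ v)) (Finset.mem_univ v)
            · rw [← hφb]
              exact (mem_nbS.1 (hmem v)).2.ne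
          rw [Function.iterate_succ_apply, fstep_some] at h
          cases hn : nxF φ v with
          | none =>
            have h1 := nxF_none.1 hn
            have h2 : φ v ∈ S := (mem_nbS.1 (hmem v)).1
            have h3 : φ v = r := by
              by_contra h4
              exact h1 (Finset.mem_erase.2 ⟨h4, h2⟩)
            exact (hadj r hS_r h3).reachable
          | some t =>
            rw [hn] at h
            have h1 := nxF_some.1 hn
            exact (hadj t (Finset.mem_of_mem_erase t.2) h1).reachable.trans (ih t h)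
      intro x
      by_cases hx : (x : V) = r
      · have : x = ⟨r, hS_r⟩ := Subtype.ext hx
        rw [this]
      · have hxm : (x : V) ∈ S.erase r := Finset.mem_erase.2 ⟨hx, x.2⟩
        obtain ⟨k, hk⟩ := hφ ⟨x, hxm⟩
        exact key k ⟨x, hxm⟩ hk
    have : Nonempty (S : Set V) := ⟨⟨r, hS_r⟩⟩
    refine { preconnected := fun x y => (hreach x).trans (hreach y).symm, nonempty := inferInstance }
  · rw [hcard, hφ.card_Aof, Nat.card_eq_fintype_card]
    simp only [Fintype.card_coe, Finset.coe_sort_coe]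
    rw [Finset.card_erase_of_mem hr]
    have : 0 < S.card := Finset.card_pos.2 ⟨r, hr⟩
    omega

/-- Every spanning tree comes from a good function. -/
theorem exists_goodF_of_isTree (hr : r ∈ S) {A : Finset (Sym2 V)} (hA : IsSpanningTreeOn G S A) :
    ∃ φ : ↥(S.erase r) → V, GoodF φ ∧ (∀ v : ↥(S.erase r), φ v ∈ nbS G S v) ∧ Aof φ = A := by
  classical
  obtain ⟨hsub, htree⟩ := hA
  set H := (SimpleGraph.fromEdgeSet (A : Set (Sym2 V))).induce (S : Set V) with hH
  have hS_r : r ∈ (S : Set V) := hr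
  let r0 : (S : Set V) := ⟨r, hS_r⟩
  have hconn := htree.connected
  have hdesc : ∀ v : ↥(S.erase r), ∃ b : (S : Set V),
      H.Adj ⟨v, Finset.mem_of_mem_erase v.2⟩ b ∧ H.dist b r0 < H.dist ⟨v, Finset.mem_of_mem_erase v.2⟩ r0 := by
    intro v
    obtain ⟨p, hp⟩ := hconn.exists_walk_length_eq_dist (⟨v, Finset.mem_of_mem_erase v.2⟩ : (S : Set V)) r0
    have hne : (⟨v, Finset.mem_of_mem_erase v.2⟩ : (S : Set V)) ≠ r0 := by
      intro h
      have h2 : (v : V) = r := congrArg Subtype.val h
      exact (Finset.mem_erase.1 v.2).1 h2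
    obtain ⟨b, hb, q, rfl⟩ := SimpleGraph.Walk.exists_eq_cons_of_ne hne p
    refine ⟨b, hb, ?_⟩
    have h1 : H.dist b r0 ≤ q.length := SimpleGraph.dist_le q
    rw [SimpleGraph.Walk.length_cons] at hp
    omega
  choose b hb1 hb2 using hdesc
  let φ : ↥(S.erase r) → V := fun v => (b v : V)
  have hmemA : ∀ v : ↥(S.erase r), s((v : V), φ v) ∈ A := by
    intro v
    have h1 : (SimpleGraph.fromEdgeSet (A : Set (Sym2 V))).Adj v (b v : V) := hb1 v
    rw [SimpleGraph.fromEdgeSet_adj] at h1
    exact h1.1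
  have hmem : ∀ v : ↥(S.erase r), φ v ∈ nbS G S v := by
    intro v
    have h1 := mk_mem_edgesIn.1 (hsub (hmemA v))
    exact mem_nbS.2 ⟨h1.2.1, h1.2.2⟩
  have hgood : GoodF φ := by
    have key : ∀ n, ∀ v : ↥(S.erase r),
        H.dist ⟨v, Finset.mem_of_mem_erase v.2⟩ r0 = n → Reaches (nxF φ) v := by
      intro n
      induction n using Nat.strong_induction_on with
      | _ n ih =>
        intro v hv
        cases hn : nxF φ v with
        | none => exact ⟨1, by simpa [fstep_some] using hn⟩
        | some t =>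
          have h1 : φ v = (t : V) := nxF_some.1 hn
          have h2 : b v = ⟨t, Finset.mem_of_mem_erase t.2⟩ := Subtype.ext h1
          have h3 := hb2 v
          rw [h2, hv] at h3
          obtain ⟨k, hk⟩ := ih _ h3 t rfl
          exact ⟨k + 1, by rw [Function.iterate_succ_apply, fstep_some, hn]; exact hk⟩
    intro v
    exact key _ v rfl
  refine ⟨φ, hgood, hmem, ?_⟩
  have hsubA : Aof φ ⊆ A := by
    intro e he
    obtain ⟨v, -, rfl⟩ := Finset.mem_image.1 he
    exact hmemA v
  apply Finset.eq_of_subset_of_card_le hsubA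
  rw [hgood.card_Aof]
  have h1 := (SimpleGraph.isTree_iff_connected_and_card.1 htree).2
  rw [card_edges_induce (edgesIn_props hsub), Nat.card_eq_fintype_card] at h1
  simp only [Fintype.card_coe, Finset.coe_sort_coe] at h1
  rw [Finset.card_erase_of_mem hr]
  omega

open Classical in
/-- The indicator of spanning trees. -/
noncomputable def treeInd (G : SimpleGraph V) (S : Finset V) (A : Finset (Sym2 V)) : ℝ :=
  if IsSpanningTreeOn G S A then 1 else 0

/-- **Matrix tree theorem.** -/
theorem det_lapZ_eq_stP (hr : r ∈ S) (z : Sym2 V → ℂ) :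
    (lapZ G S r z).det = stP (treeInd G S) (edgesIn G S) z := by
  classical
  rw [det_lapZ_eq_sum_good]
  unfold stP treeInd
  have h1 : ∑ A ∈ (edgesIn G S).powerset, (((if IsSpanningTreeOn G S A then (1:ℝ) else 0) : ℝ) : ℂ) * ∏ i ∈ A, z i =
      ∑ A ∈ (edgesIn G S).powerset.filter (fun A => IsSpanningTreeOn G S A), ∏ i ∈ A, z i := by
    rw [Finset.sum_filter]
    apply Finset.sum_congr rfl
    intro A _
    split_ifs <;> simp
  rw [h1]
  apply Finset.sum_bij (fun φ _ => Aof φ)
  · intro φ hφ
    obtain ⟨h1, h2⟩ := Finset.mem_filter.1 hφ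
    have hm : ∀ v : ↥(S.erase r), φ v ∈ nbS G S v := fun v => Fintype.mem_piFinset.1 h1 v
    have ht := GoodF.isTree hr h2 hm
    exact Finset.mem_filter.2 ⟨Finset.mem_powerset.2 ht.1, ht⟩
  · intro φ hφ φ' hφ' h
    exact GoodF.inj_Aof (Finset.mem_filter.1 hφ).2 (Finset.mem_filter.1 hφ').2 h
  · intro A hA
    obtain ⟨φ, h1, h2, h3⟩ := exists_goodF_of_isTree hr (Finset.mem_filter.1 hA).2
    exact ⟨φ, Finset.mem_filter.2 ⟨Fintype.mem_piFinset.2 h2, h1⟩, h3⟩
  · intro φ hφ
    exact GoodF.prod_Aof (Finset.mem_filter.1 hφ).2 z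

/-- Non-vanishing of the reduced Laplacian on the product of upper half planes. -/
theorem det_lapZ_ne_zero (hconn : (G.induce (S : Set V)).Connected) (hr : r ∈ S) (z : Sym2 V → ℂ)
    (hz : ∀ e ∈ edgesIn G S, 0 < (z e).im) : (lapZ G S r z).det ≠ 0 := by
  classical
  intro h0
  obtain ⟨x, hx0, hx⟩ := Matrix.exists_mulVec_eq_zero_iff.2 h0
  let xt : V → ℂ := fun a => if h : a ∈ S.erase r then x ⟨a, h⟩ else 0
  have hxt : ∀ v : ↥(S.erase r), xt v = x v := by
    intro v
    simp only [xt, v.2, dif_pos]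
  have hxr : xt r = 0 := by
    simp [xt]
  -- the rows
  have key1 : ∀ v : ↥(S.erase r), ∑ a ∈ nbS G S v, z s((v : V), a) * (xt v - xt a) = 0 := by
    intro v
    have h1 := congrFun hx v
    simp only [Matrix.mulVec, dotProduct, lapZ, Pi.zero_apply] at h1
    rw [← h1]
    simp_rw [Finset.sum_mul]
    rw [Finset.sum_comm]
    apply Finset.sum_congr rfl
    intro a _
    simp_rw [mul_assoc]
    rw [← Finset.mul_sum]
    congr 1
    simp_rw [sub_mul, ite_mul, one_mul, zero_mul]
    rw [Finset.sum_sub_distrib]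
    congr 1
    · rw [Finset.sum_ite_eq]
      simp [hxt]
    · by_cases ha : a ∈ S.erase r
      · rw [Finset.sum_eq_single ⟨a, ha⟩]
        · rw [if_pos rfl]
          exact dif_pos ha
        · intro b _ hb
          rw [if_neg]
          intro h2
          exact hb (Subtype.ext h2.symm)
        · simp
      · have : xt a = 0 := dif_neg ha
        rw [this]
        symm
        apply Finset.sum_eq_zero
        intro b _
        rw [if_neg]
        intro h2
        exact ha (h2 ▸ b.2)
  have key2 : ∀ v ∈ S, ∑ a ∈ nbS G S v,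
      z s(v, a) * ((starRingEnd ℂ) (xt v) * (xt v - xt a)) = 0 := by
    intro v hv
    by_cases hvr : v = r
    · subst hvr
      simp [hxr]
    · have hvm : v ∈ S.erase r := Finset.mem_erase.2 ⟨hvr, hv⟩
      have h1 := key1 ⟨v, hvm⟩
      simp only at h1
      have h2 : ∑ a ∈ nbS G S v, z s(v, a) * ((starRingEnd ℂ) (xt v) * (xt v - xt a)) =
          (starRingEnd ℂ) (xt v) * ∑ a ∈ nbS G S v, z s(v, a) * (xt v - xt a) := by
        rw [Finset.mul_sum]
        apply Finset.sum_congr rfl
        intro a _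
        ring
      rw [h2, h1, mul_zero]
  have hD : ∑ v ∈ S, ∑ a ∈ nbS G S v, z s(v, a) * ((starRingEnd ℂ) (xt v) * (xt v - xt a)) = 0 :=
    Finset.sum_eq_zero key2
  have hswap : ∑ v ∈ S, ∑ a ∈ nbS G S v, z s(a, v) * ((starRingEnd ℂ) (xt a) * (xt a - xt v)) =
      ∑ a ∈ S, ∑ v ∈ nbS G S a, z s(a, v) * ((starRingEnd ℂ) (xt a) * (xt a - xt v)) := by
    apply Finset.sum_comm'
    intro v a
    simp only [mem_nbS]
    constructor
    · rintro ⟨h1, h2, h3⟩
      exact ⟨⟨h1, h3.symm⟩, h2⟩
    · rintro ⟨⟨h1, h3⟩, h2⟩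
      exact ⟨h1, h2, h3.symm⟩
  have hD2 : ∑ v ∈ S, ∑ a ∈ nbS G S v, z s(a, v) * ((starRingEnd ℂ) (xt a) * (xt a - xt v)) = 0 := by
    rw [hswap]
    exact hD
  have hsum : ∑ v ∈ S, ∑ a ∈ nbS G S v, z s(v, a) * ((Complex.normSq (xt v - xt a) : ℝ) : ℂ) = 0 := by
    have h3 : ∀ v a, z s(v, a) * ((Complex.normSq (xt v - xt a) : ℝ) : ℂ) =
        z s(v, a) * ((starRingEnd ℂ) (xt v) * (xt v - xt a)) +
          z s(a, v) * ((starRingEnd ℂ) (xt a) * (xt a - xt v)) := by
      intro v a
      rw [Sym2.eq_swap (a := a) (b := v), Complex.normSq_eq_conj_mul_self, map_sub]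
      ring
    simp_rw [h3, Finset.sum_add_distrib]
    rw [hD, hD2, add_zero]
  have him : ∑ v ∈ S, ∑ a ∈ nbS G S v, (z s(v, a)).im * Complex.normSq (xt v - xt a) = 0 := by
    have h4 := congrArg Complex.im hsum
    simp only [Complex.im_sum, Complex.zero_im] at h4
    simp only [Complex.mul_im, Complex.ofReal_re, Complex.ofReal_im, mul_zero, zero_add] at h4
    rw [← h4]
  have hnn : ∀ v ∈ S, ∀ a ∈ nbS G S v, 0 ≤ (z s(v, a)).im * Complex.normSq (xt v - xt a) := by
    intro v hv a ha
    have h1 := mem_nbS.1 ha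
    exact mul_nonneg (hz _ (mk_mem_edgesIn.2 ⟨hv, h1.1, h1.2⟩)).le (Complex.normSq_nonneg _)
  have hedge : ∀ v ∈ S, ∀ a ∈ nbS G S v, xt v = xt a := by
    intro v hv a ha
    have h1 := (Finset.sum_eq_zero_iff_of_nonneg (fun v hv =>
      Finset.sum_nonneg (hnn v hv))).1 him v hv
    have h2 := (Finset.sum_eq_zero_iff_of_nonneg (hnn v hv)).1 h1 a ha
    have h3 := mem_nbS.1 ha
    have h4 := hz _ (mk_mem_edgesIn.2 ⟨hv, h3.1, h3.2⟩)
    have h5 : Complex.normSq (xt v - xt a) = 0 := by
      rcases mul_eq_zero.1 h2 with h | h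
      · exact absurd h h4.ne'
      · exact h
    exact sub_eq_zero.1 (Complex.normSq_eq_zero.1 h5)
  have hconst : ∀ u v : (S : Set V), (G.induce (S : Set V)).Reachable u v → xt u = xt v := by
    rintro u v ⟨p⟩
    induction p with
    | nil => rfl
    | cons h p ih =>
      rename_i a b c
      rw [← ih]
      have h1 : G.Adj a b := h
      exact hedge a a.2 b (mem_nbS.2 ⟨b.2, h1⟩)
  apply hx0
  ext v
  have h1 := hconst ⟨v, Finset.mem_of_mem_erase v.2⟩ ⟨r, hr⟩ (hconn.preconnected _ _)
  simp only at h1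
  rw [hxr, hxt] at h1
  exact h1

/-- **The spanning tree polynomial of a connected piece is stable.** -/
theorem stable_treeInd (hconn : (G.induce (S : Set V)).Connected) :
    Stable (treeInd G S) (edgesIn G S) := by
  intro z hz
  obtain ⟨⟨r, hr⟩⟩ := hconn.nonempty
  rw [← det_lapZ_eq_stP hr]
  exact det_lapZ_ne_zero hconn hr z hz

lemma treeInd_nonneg (G : SimpleGraph V) (S : Finset V) (A : Finset (Sym2 V)) : 0 ≤ treeInd G S A := by
  classical
  unfold treeInd
  split_ifs <;> norm_num

/-- Connected pieces have spanning trees. -/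
theorem exists_tree (hconn : (G.induce (S : Set V)).Connected) :
    ∃ A ∈ (edgesIn G S).powerset, 0 < treeInd G S A := by
  by_contra hne
  push Not at hne
  have h1 := stable_treeInd hconn (fun _ => Complex.I) (fun _ _ => by simp)
  apply h1
  unfold stP
  apply Finset.sum_eq_zero
  intro A hA
  have h2 : treeInd G S A = 0 := le_antisymm (hne A hA) (treeInd_nonneg G S A)
  simp [h2]

end Tree

end Crest.Agent.H5SL
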