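import Crest.Agent.H5SLTree
import Crest.Agent.H5SLCondNC

/-!
Monotonicity of the free uniform spanning tree: for connected pieces `S ⊆ S'` the inclusion
probabilities of a finite edge set inside `S` can only drop from `S` to `S'`.
-/

set_option autoImplicit false
set_option linter.unusedSectionVars false
set_option linter.unusedVariables false

open Filter Topology Crest.ProbabilityR.SpanningTrees

namespace Crest.Agent.H5SL

section TreeMono

variable {V : Type*} [DecidableEq V] {G : SimpleGraph V} {S S' : Finset V} {r : V}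

/-- edges of a rooted total function -/
def Ah (S : Finset V) (r : V) (h : V → V) : Finset (Sym2 V) :=
  (S.erase r).image (fun v => s(v, h v))

/-- rooted total functions reaching the root -/
def TGood (G : SimpleGraph V) (S : Finset V) (r : V) (h : V → V) : Prop :=
  (∀ v ∈ S.erase r, h v ∈ nbS G S v) ∧ ∀ v ∈ S.erase r, ∃ k, h^[k] v = r

lemma TGood.goodF {h : V → V} (hh : TGood G S r h) :
    GoodF (fun v : ↥(S.erase r) => h v) := by
  have key : ∀ k, ∀ v : ↥(S.erase r), h^[k] v = r →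
      Reaches (nxF (fun v : ↥(S.erase r) => h v)) v := by
    intro k
    induction k with
    | zero =>
      intro v hv
      exact absurd hv (Finset.mem_erase.1 v.2).1
    | succ k ih =>
      intro v hv
      rw [Function.iterate_succ_apply] at hv
      by_cases hm : h v ∈ S.erase r
      · have h1 : nxF (fun v : ↥(S.erase r) => h v) v = some ⟨h v, hm⟩ := nxF_some.2 rfl
        obtain ⟨k', hk'⟩ := ih ⟨h v, hm⟩ hv
        exact ⟨k' + 1, by rw [Function.iterate_succ_apply, fstep_some, h1]; exact hk'⟩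
      · have h1 : nxF (fun v : ↥(S.erase r) => h v) v = none := nxF_none.2 hm
        exact ⟨1, by simpa [fstep_some] using h1⟩
  intro v
  obtain ⟨k, hk⟩ := hh.2 v v.2
  exact key k v hk

lemma Aof_eq_Ah (h : V → V) : Aof (fun v : ↥(S.erase r) => h v) = Ah S r h := by
  ext e
  simp only [Aof, Ah, Finset.mem_image, Finset.mem_univ, true_and]
  constructor
  · rintro ⟨v, rfl⟩
    exact ⟨v, v.2, rfl⟩
  · rintro ⟨v, hv, rfl⟩
    exact ⟨⟨v, hv⟩, rfl⟩

lemma TGood.isTree (hr : r ∈ S) {h : V → V} (hh : TGood G S r h) :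
    IsSpanningTreeOn G S (Ah S r h) := by
  rw [← Aof_eq_Ah]
  exact GoodF.isTree hr hh.goodF (fun v => hh.1 v v.2)

lemma TGood.injOn {h : V → V} (hh : TGood G S r h) :
    Set.InjOn (fun v => s(v, h v)) (S.erase r : Set V) := by
  intro v hv u hu huv
  have h1 := hh.goodF.edge_inj (a₁ := ⟨v, hv⟩) (a₂ := ⟨u, hu⟩) huv
  exact congrArg Subtype.val h1

/-- Trees are exactly the edge sets of good rooted functions. -/
theorem exists_tgood (hr : r ∈ S) {A : Finset (Sym2 V)} (hA : IsSpanningTreeOn G S A) :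
    ∃ h, TGood G S r h ∧ Ah S r h = A := by
  obtain ⟨φ, hφ, hmem, hAφ⟩ := exists_goodF_of_isTree hr hA
  let h : V → V := fun v => if hv : v ∈ S.erase r then φ ⟨v, hv⟩ else v
  have hval : ∀ v : ↥(S.erase r), h v = φ v := by
    intro v
    simp only [h, v.2, dif_pos]
  have hφh : (fun v : ↥(S.erase r) => h v) = φ := funext hval
  refine ⟨h, ⟨?_, ?_⟩, ?_⟩
  · intro v hv
    rw [hval ⟨v, hv⟩]
    exact hmem ⟨v, hv⟩
  · have key : ∀ k, ∀ v : ↥(S.erase r), (fstep (nxF φ))^[k] (some v) = none → ∃ k', h^[k'] v = r := by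
      intro k
      induction k with
      | zero => intro v hv; simp at hv
      | succ k ih =>
        intro v hv
        rw [Function.iterate_succ_apply, fstep_some] at hv
        cases hn : nxF φ v with
        | none =>
          have h1 := nxF_none.1 hn
          have h2 : φ v ∈ S := (mem_nbS.1 (hmem v)).1
          have h3 : φ v = r := by
            by_contra h4
            exact h1 (Finset.mem_erase.2 ⟨h4, h2⟩)
          exact ⟨1, by simpa [hval v] using h3⟩
        | some t =>
          rw [hn] at hv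
          obtain ⟨k', hk'⟩ := ih t hv
          have h1 := nxF_some.1 hn
          refine ⟨k' + 1, ?_⟩
          rw [Function.iterate_succ_apply, hval v, h1]
          exact hk'
    intro v hv
    obtain ⟨k, hk⟩ := hφ ⟨v, hv⟩
    exact key k ⟨v, hv⟩ hk
  · rw [← Aof_eq_Ah, hφh]
    exact hAφ

/-! ### Pieces -/

/-- edges leaving the piece `S` -/
noncomputable def outer (G : SimpleGraph V) (S S' : Finset V) : Finset (Sym2 V) :=
  edgesIn G S' \ edgesIn G S

lemma edgesIn_mono {G : SimpleGraph V} {S S' : Finset V} (h : S ⊆ S') :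
    edgesIn G S ⊆ edgesIn G S' := by
  intro e he
  obtain ⟨h1, h2⟩ := mem_edgesIn.1 he
  exact mem_edgesIn.2 ⟨Finset.sym2_mono h h1, h2⟩

/-- The part of a tree forced outside the inner piece. -/
def Out (S S' : Finset V) (h : V → V) : Finset (Sym2 V) :=
  (S' \ S).image (fun v => s(v, h v))

lemma not_mem_edgesIn_of_not_mem {v a : V} (hv : v ∉ S) : s(v, a) ∉ edgesIn G S := by
  intro h
  exact hv (mk_mem_edgesIn.1 h).1

variable (hSS : S ⊆ S') (hr : r ∈ S)
include hSS hr

lemma sdiff_sub_erase : S' \ S ⊆ S'.erase r := by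
  intro v hv
  obtain ⟨h1, h2⟩ := Finset.mem_sdiff.1 hv
  exact Finset.mem_erase.2 ⟨fun h => h2 (h ▸ hr), h1⟩

lemma card_Out {h : V → V} (hh : TGood G S' r h) : (Out S S' h).card = (S' \ S).card := by
  unfold Out
  apply Finset.card_image_of_injOn
  exact hh.injOn.mono (by exact_mod_cast sdiff_sub_erase hSS hr)

lemma Out_subset {h : V → V} (hh : TGood G S' r h) :
    Out S S' h ⊆ Ah S' r h ∩ outer G S S' := by
  intro e he
  obtain ⟨v, hv, rfl⟩ := Finset.mem_image.1 he
  have hv1 := sdiff_sub_erase hSS hr hv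
  have hv2 := (Finset.mem_sdiff.1 hv).2
  have h1 := mem_nbS.1 (hh.1 v hv1)
  refine Finset.mem_inter.2 ⟨Finset.mem_image_of_mem _ hv1, ?_⟩
  refine Finset.mem_sdiff.2 ⟨mk_mem_edgesIn.2 ⟨(Finset.mem_sdiff.1 hv).1, h1.1, h1.2⟩, ?_⟩
  exact not_mem_edgesIn_of_not_mem hv2

/-- Lower bound on the outer part of a tree. -/
lemma card_le_inter_outer {A : Finset (Sym2 V)} (hA : IsSpanningTreeOn G S' A) :
    (S' \ S).card ≤ (A ∩ outer G S S').card := by
  obtain ⟨h, hh, rfl⟩ := exists_tgood (hSS hr) hA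
  rw [← card_Out hSS hr hh]
  exact Finset.card_le_card (Out_subset hSS hr hh)

/-- Structure of a minimal tree. -/
lemma minimal_structure {h : V → V} (hh : TGood G S' r h)
    (hmin : (Ah S' r h ∩ outer G S S').card = (S' \ S).card) :
    Ah S' r h ∩ outer G S S' = Out S S' h ∧ TGood G S r h ∧ Ah S' r h ∩ edgesIn G S = Ah S r h := by
  have h1 : Ah S' r h ∩ outer G S S' = Out S S' h := by
    symm
    apply Finset.eq_of_subset_of_card_le (Out_subset hSS hr hh)
    rw [hmin, card_Out hSS hr hh]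
  have herase : ∀ v ∈ S.erase r, v ∈ S'.erase r := fun v hv =>
    Finset.mem_erase.2 ⟨(Finset.mem_erase.1 hv).1, hSS (Finset.mem_erase.1 hv).2⟩
  have hin : ∀ v ∈ S.erase r, s(v, h v) ∈ edgesIn G S := by
    intro v hv
    by_contra hne
    have h2 := mem_nbS.1 (hh.1 v (herase v hv))
    have h3 : s(v, h v) ∈ Ah S' r h ∩ outer G S S' := by
      refine Finset.mem_inter.2 ⟨Finset.mem_image_of_mem _ (herase v hv), ?_⟩
      exact Finset.mem_sdiff.2 ⟨mk_mem_edgesIn.2 ⟨hSS (Finset.mem_erase.1 hv).2, h2.1, h2.2⟩, hne⟩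
    rw [h1] at h3
    obtain ⟨u, hu, hue⟩ := Finset.mem_image.1 h3
    have h4 := hh.injOn (by exact_mod_cast sdiff_sub_erase hSS hr hu) (by exact_mod_cast herase v hv) hue
    exact (Finset.mem_sdiff.1 hu).2 (h4 ▸ (Finset.mem_erase.1 hv).2)
  refine ⟨h1, ⟨?_, ?_⟩, ?_⟩
  · intro v hv
    have h2 := mk_mem_edgesIn.1 (hin v hv)
    exact mem_nbS.2 ⟨h2.2.1, h2.2.2⟩
  · intro v hv
    exact hh.2 v (herase v hv)
  · ext e
    simp only [Finset.mem_inter, Ah, Finset.mem_image]
    constructor
    · rintro ⟨⟨v, hv, rfl⟩, he⟩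
      have h2 := (mk_mem_edgesIn.1 he).1
      exact ⟨v, Finset.mem_erase.2 ⟨(Finset.mem_erase.1 hv).1, h2⟩, rfl⟩
    · rintro ⟨v, hv, rfl⟩
      exact ⟨⟨v, herase v hv, rfl⟩, hin v hv⟩

/-- Combining a tree of the inner piece with the outer part of a tree of the big piece. -/
lemma combine_good {ψ h : V → V} (hψ : TGood G S r ψ) (hh : TGood G S' r h) :
    TGood G S' r (fun v => if v ∈ S then ψ v else h v) ∧
      Ah S' r (fun v => if v ∈ S then ψ v else h v) = Ah S r ψ ∪ Out S S' h := by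
  classical
  set h' : V → V := fun v => if v ∈ S then ψ v else h v with hh'
  have hin : ∀ v ∈ S.erase r, h' v = ψ v := by
    intro v hv
    simp [hh', (Finset.mem_erase.1 hv).2]
  have hout : ∀ v, v ∉ S → h' v = h v := by
    intro v hv
    simp [hh', hv]
  have hstep1 : ∀ k, ∀ v ∈ S.erase r, ψ^[k] v = r → ∃ k', h'^[k'] v = r := by
    intro k
    induction k with
    | zero =>
      intro v hv hk
      exact absurd hk (Finset.mem_erase.1 hv).1
    | succ k ih =>
      intro v hv hk
      rw [Function.iterate_succ_apply] at hk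
      have hψv : ψ v ∈ S := (mem_nbS.1 (hψ.1 v hv)).1
      by_cases hψr : ψ v = r
      · exact ⟨1, by simpa [hin v hv] using hψr⟩
      · obtain ⟨k', hk'⟩ := ih (ψ v) (Finset.mem_erase.2 ⟨hψr, hψv⟩) hk
        exact ⟨k' + 1, by rw [Function.iterate_succ_apply, hin v hv]; exact hk'⟩
  have hstep2 : ∀ k, ∀ v ∈ S'.erase r, h^[k] v = r → ∃ k', h'^[k'] v = r := by
    intro k
    induction k with
    | zero =>
      intro v hv hk
      exact absurd hk (Finset.mem_erase.1 hv).1
    | succ k ih =>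
      intro v hv hk
      by_cases hvS : v ∈ S
      · have hvE : v ∈ S.erase r := Finset.mem_erase.2 ⟨(Finset.mem_erase.1 hv).1, hvS⟩
        obtain ⟨k₀, hk₀⟩ := hψ.2 v hvE
        exact hstep1 k₀ v hvE hk₀
      · rw [Function.iterate_succ_apply] at hk
        have hhv : h v ∈ S' := (mem_nbS.1 (hh.1 v hv)).1
        by_cases hhr : h v = r
        · exact ⟨1, by simpa [hout v hvS] using hhr⟩
        · obtain ⟨k', hk'⟩ := ih (h v) (Finset.mem_erase.2 ⟨hhr, hhv⟩) hk
          exact ⟨k' + 1, by rw [Function.iterate_succ_apply, hout v hvS]; exact hk'⟩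
  constructor
  · constructor
    · intro v hv
      by_cases hvS : v ∈ S
      · have hvE : v ∈ S.erase r := Finset.mem_erase.2 ⟨(Finset.mem_erase.1 hv).1, hvS⟩
        rw [hin v hvE]
        have h1 := mem_nbS.1 (hψ.1 v hvE)
        exact mem_nbS.2 ⟨hSS h1.1, h1.2⟩
      · rw [hout v hvS]
        exact hh.1 v hv
    · intro v hv
      obtain ⟨k, hk⟩ := hh.2 v hv
      exact hstep2 k v hv hk
  · ext e
    simp only [Ah, Out, Finset.mem_image, Finset.mem_union]
    constructor
    · rintro ⟨v, hv, rfl⟩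
      by_cases hvS : v ∈ S
      · have hvE : v ∈ S.erase r := Finset.mem_erase.2 ⟨(Finset.mem_erase.1 hv).1, hvS⟩
        exact Or.inl ⟨v, hvE, by rw [hin v hvE]⟩
      · refine Or.inr ⟨v, Finset.mem_sdiff.2 ⟨(Finset.mem_erase.1 hv).2, hvS⟩, by rw [hout v hvS]⟩
    · rintro (⟨v, hv, rfl⟩ | ⟨v, hv, rfl⟩)
      · refine ⟨v, Finset.mem_erase.2 ⟨(Finset.mem_erase.1 hv).1, hSS (Finset.mem_erase.1 hv).2⟩, ?_⟩
        rw [hin v hv]
      · refine ⟨v, sdiff_sub_erase hSS hr hv, ?_⟩
        rw [hout v (Finset.mem_sdiff.1 hv).2]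

omit hSS hr in
open Classical in
/-- trees of a piece -/
noncomputable def TT (G : SimpleGraph V) (S : Finset V) : Finset (Finset (Sym2 V)) :=
  (edgesIn G S).powerset.filter (fun A => IsSpanningTreeOn G S A)

omit hSS hr in
lemma mem_TT {A : Finset (Sym2 V)} : A ∈ TT G S ↔ IsSpanningTreeOn G S A := by
  classical
  unfold TT
  simp only [Finset.mem_filter, Finset.mem_powerset]
  exact ⟨fun h => h.2, fun h => ⟨h.1, h⟩⟩

omit hSS hr in
open Classical in
/-- minimal trees of the big piece -/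
noncomputable def minT (G : SimpleGraph V) (S S' : Finset V) : Finset (Finset (Sym2 V)) :=
  (TT G S').filter (fun A => (A ∩ outer G S S').card = (S' \ S).card)

omit hSS hr in
lemma mem_minT {A : Finset (Sym2 V)} :
    A ∈ minT G S S' ↔ A ∈ TT G S' ∧ (A ∩ outer G S S').card = (S' \ S).card := by
  classical
  unfold minT
  simp only [Finset.mem_filter]

omit hSS hr in
/-- outer parts of minimal trees -/
noncomputable def RR (G : SimpleGraph V) (S S' : Finset V) : Finset (Finset (Sym2 V)) :=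
  (minT G S S').image (fun A => A ∩ outer G S S')

omit hSS hr in
lemma inter_outer_of_subset {T R : Finset (Sym2 V)} (hT : T ⊆ edgesIn G S) (hR : R ⊆ outer G S S') :
    (T ∪ R) ∩ edgesIn G S = T ∧ (T ∪ R) ∩ outer G S S' = R := by
  have hdisj : ∀ e, e ∈ outer G S S' → e ∉ edgesIn G S := fun e he => (Finset.mem_sdiff.1 he).2
  constructor
  · ext e
    simp only [Finset.mem_inter, Finset.mem_union]
    constructor
    · rintro ⟨h1 | h1, h2⟩
      · exact h1
      · exact absurd h2 (hdisj e (hR h1))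
    · intro h
      exact ⟨Or.inl h, hT h⟩
  · ext e
    simp only [Finset.mem_inter, Finset.mem_union]
    constructor
    · rintro ⟨h1 | h1, h2⟩
      · exact absurd (hT h1) (hdisj e h2)
      · exact h1
    · intro h
      exact ⟨Or.inr h, hR h⟩

/-- Minimal trees are pairs. -/
theorem card_min_filter {F : Finset (Sym2 V)} (hF : F ⊆ edgesIn G S) :
    ((minT G S S').filter (fun A => F ⊆ A)).card =
      ((TT G S).filter (fun T => F ⊆ T)).card * (RR G S S').card := by
  classical
  rw [← Finset.card_product]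
  symm
  apply Finset.card_nbij' (fun q => q.1 ∪ q.2) (fun A => (A ∩ edgesIn G S, A ∩ outer G S S'))
  · rintro ⟨T, R⟩ hq
    simp only [Finset.coe_product, Set.mem_prod, Finset.mem_coe, Finset.mem_filter] at hq
    obtain ⟨⟨hT, hFT⟩, hR⟩ := hq
    obtain ⟨A₀, hA₀, rfl⟩ := Finset.mem_image.1 hR
    obtain ⟨hA₀1, hA₀2⟩ := mem_minT.1 hA₀
    obtain ⟨h₀, hh₀, rfl⟩ := exists_tgood (hSS hr) (mem_TT.1 hA₀1)
    obtain ⟨hm1, -, -⟩ := minimal_structure hSS hr hh₀ hA₀2
    obtain ⟨ψ, hψ, rfl⟩ := exists_tgood hr (mem_TT.1 hT)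
    obtain ⟨hc1, hc2⟩ := combine_good hSS hr hψ hh₀
    have htree := hc1.isTree (hSS hr)
    rw [hc2, ← hm1] at htree
    have hTsub : Ah S r ψ ⊆ edgesIn G S := (mem_TT.1 hT).1
    have hRsub : Ah S' r h₀ ∩ outer G S S' ⊆ outer G S S' := Finset.inter_subset_right
    obtain ⟨h5, h6⟩ := inter_outer_of_subset hTsub hRsub
    simp only [Finset.mem_coe, Finset.mem_filter, mem_minT]
    refine ⟨⟨?_, ?_⟩, ?_⟩
    · exact mem_TT.2 htree
    · show ((Ah S r ψ ∪ (Ah S' r h₀ ∩ outer G S S')) ∩ outer G S S').card = (S' \ S).card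
      rw [h6]
      exact hA₀2
    · exact hFT.trans Finset.subset_union_left
  · intro A hA
    simp only [Finset.mem_coe, Finset.mem_filter, mem_minT] at hA
    obtain ⟨⟨hA1, hA2⟩, hFA⟩ := hA
    obtain ⟨h, hh, rfl⟩ := exists_tgood (hSS hr) (mem_TT.1 hA1)
    obtain ⟨-, hm2, hm3⟩ := minimal_structure hSS hr hh hA2
    simp only [Finset.coe_product, Set.mem_prod, Finset.mem_coe, Finset.mem_filter]
    refine ⟨⟨?_, ?_⟩, ?_⟩
    · rw [hm3]
      exact mem_TT.2 (hm2.isTree hr)
    · exact Finset.subset_inter hFA hF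
    · exact Finset.mem_image_of_mem _ (mem_minT.2 ⟨hA1, hA2⟩)
  · rintro ⟨T, R⟩ hq
    simp only [Finset.coe_product, Set.mem_prod, Finset.mem_coe, Finset.mem_filter] at hq
    obtain ⟨⟨hT, hFT⟩, hR⟩ := hq
    have hRsub : R ⊆ outer G S S' := by
      obtain ⟨A₀, hA₀, rfl⟩ := Finset.mem_image.1 hR
      exact Finset.inter_subset_right
    obtain ⟨h5, h6⟩ := inter_outer_of_subset (S' := S') (mem_TT.1 hT).1 hRsub
    simp only [h5, h6]
  · intro A hA
    simp only [Finset.mem_coe, Finset.mem_filter, mem_minT] at hA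
    obtain ⟨⟨hA1, hA2⟩, hFA⟩ := hA
    have hsub : A ⊆ edgesIn G S' := (mem_TT.1 hA1).1
    ext e
    simp only [Finset.mem_union, Finset.mem_inter]
    constructor
    · rintro (⟨h1, _⟩ | ⟨h1, _⟩) <;> exact h1
    · intro h1
      by_cases h2 : e ∈ edgesIn G S
      · exact Or.inl ⟨h1, h2⟩
      · exact Or.inr ⟨h1, Finset.mem_sdiff.2 ⟨hsub h1, h2⟩⟩

omit hSS hr in
/-- The inclusion probability as a ratio of sums. -/
lemma ustContains_eq (G : SimpleGraph V) (S F : Finset _) :
    ustContains G S F = ((TT G S).filter (fun T => F ⊆ T)).card / ((TT G S).card : ℝ) := by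
  classical
  unfold ustContains TT
  have h1 : (edgesIn G S).powerset.filter (fun A => IsSpanningTreeOn G S A ∧ F ⊆ A) =
      ((edgesIn G S).powerset.filter (fun A => IsSpanningTreeOn G S A)).filter (fun T => F ⊆ T) := by
    rw [Finset.filter_filter]
  congr 1
  norm_cast
  rw [← h1]
  congr!

omit hSS hr in
/-- The weights of trees along the tilt. -/
lemma Ninc_tree (F : Finset (Sym2 V)) (O : Finset (Sym2 V)) (t : ℝ) :
    Ninc (treeInd G S') (edgesIn G S') (Ytilt O t) F =
      ∑ A ∈ (TT G S').filter (fun A => F ⊆ A), Real.exp (-(2 * t * ((A ∩ O).card : ℝ))) := by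
  classical
  unfold Ninc TT
  rw [Finset.filter_filter, Finset.sum_filter]
  apply Finset.sum_congr rfl
  intro A _
  rw [wt_Ytilt]
  unfold treeInd indF
  by_cases h1 : IsSpanningTreeOn G S' A <;> by_cases h2 : F ⊆ A <;> simp [h1, h2]

omit hSS hr in
lemma exp_card_tendsto (m d : ℕ) (hd : m ≤ d) :
    Tendsto (fun t : ℝ => Real.exp (2 * t * (m : ℝ)) * Real.exp (-(2 * t * (d : ℝ)))) atTop
      (𝓝 (if d = m then 1 else 0)) := by
  have h1 : ∀ t : ℝ, Real.exp (2 * t * (m : ℝ)) * Real.exp (-(2 * t * (d : ℝ))) =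
      Real.exp (-(2 * ((d : ℝ) - m)) * t) := by
    intro t
    rw [← Real.exp_add]
    congr 1
    ring
  simp_rw [h1]
  by_cases h : d = m
  · rw [if_pos h, h]
    simp
  · rw [if_neg h]
    have hlt : (0:ℝ) < 2 * ((d : ℝ) - m) := by
      have : m < d := lt_of_le_of_ne hd (Ne.symm h)
      have : (m : ℝ) < d := by exact_mod_cast this
      linarith
    have h2 : Tendsto (fun t : ℝ => (-(2 * ((d : ℝ) - m))) * t) atTop atBot :=
      tendsto_id.const_mul_atTop_of_neg (by linarith)
    exact Real.tendsto_exp_atBot.comp h2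

/-- limit of the rescaled weights -/
lemma tendsto_scaled (F : Finset (Sym2 V)) :
    Tendsto (fun t : ℝ => Real.exp (2 * t * ((S' \ S).card : ℝ)) *
        Ninc (treeInd G S') (edgesIn G S') (Ytilt (outer G S S') t) F) atTop
      (𝓝 (((minT G S S').filter (fun A => F ⊆ A)).card : ℝ)) := by
  classical
  simp_rw [Ninc_tree, Finset.mul_sum]
  have h1 : (((minT G S S').filter (fun A => F ⊆ A)).card : ℝ) =
      ∑ A ∈ (TT G S').filter (fun A => F ⊆ A),
        (if (A ∩ outer G S S').card = (S' \ S).card then 1 else 0) := by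
    rw [← Finset.sum_filter, Finset.sum_const, nsmul_eq_mul, mul_one]
    congr 2
    unfold minT
    rw [Finset.filter_comm]
  rw [h1]
  apply tendsto_finsetSum
  intro A hA
  apply exp_card_tendsto
  exact card_le_inter_outer hSS hr (mem_TT.1 (Finset.mem_filter.1 hA).1)

/-- **Monotonicity of the free uniform spanning tree.** -/
theorem ust_mono_aux (hS : (G.induce (S : Set V)).Connected) (hS' : (G.induce (S' : Set V)).Connected)
    {F : Finset (Sym2 V)} (hF : F ⊆ edgesIn G S) :
    ustContains G S' F ≤ ustContains G S F := by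
  classical
  have hstab := stable_treeInd hS'
  obtain ⟨A₁, hA₁, hA₁p⟩ := exists_tree hS'
  obtain ⟨A₂, hA₂, hA₂p⟩ := exists_tree hS
  have htree : ∀ {S₀ : Finset V} {A : Finset (Sym2 V)}, 0 < treeInd G S₀ A → IsSpanningTreeOn G S₀ A := by
    intro S₀ A h
    by_contra hne
    unfold treeInd at h
    simp [hne] at h
  have h1t := htree hA₁p
  have h2t := htree hA₂p
  set O := outer G S S' with hO
  have hE : edgesIn G S ⊆ edgesIn G S' := edgesIn_mono hSS
  have hOsub : O ⊆ edgesIn G S' := Finset.sdiff_subset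
  have hOF : ∀ f ∈ O, f ∉ F := fun f hf hfF => (Finset.mem_sdiff.1 hf).2 (hF hfF)
  have hmono := monotone_ratio (treeInd_nonneg G S') hstab ⟨A₁, hA₁, hA₁p⟩ (hF.trans hE) hOsub hOF
  -- value at zero
  have hzero : Ninc (treeInd G S') (edgesIn G S') (Ytilt O 0) F /
      Ninc (treeInd G S') (edgesIn G S') (Ytilt O 0) ∅ = ustContains G S' F := by
    rw [ustContains_eq, Ninc_tree, Ninc_tree]
    simp
  -- nonemptiness of minimal trees
  obtain ⟨h₁, hh₁, hAh₁⟩ := exists_tgood (hSS hr) h1t
  obtain ⟨ψ, hψ, hAψ⟩ := exists_tgood hr h2t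
  obtain ⟨hc1, hc2⟩ := combine_good hSS hr hψ hh₁
  have hmin : Ah S r ψ ∪ Out S S' h₁ ∈ minT G S S' := by
    rw [← hc2]
    refine mem_minT.2 ⟨mem_TT.2 (hc1.isTree (hSS hr)), ?_⟩
    rw [hc2]
    have hOutsub : Out S S' h₁ ⊆ outer G S S' := fun e he =>
      (Finset.mem_inter.1 (Out_subset hSS hr hh₁ he)).2
    have hTsub : Ah S r ψ ⊆ edgesIn G S := (hAψ ▸ h2t).1
    rw [(inter_outer_of_subset hTsub hOutsub).2]
    exact card_Out hSS hr hh₁
  have hRpos : 0 < (RR G S S').card :=
    Finset.card_pos.2 ⟨_, Finset.mem_image_of_mem _ hmin⟩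
  have hTTpos : 0 < (TT G S).card := Finset.card_pos.2 ⟨A₂, mem_TT.2 h2t⟩
  -- the limit
  have hlim : Tendsto (fun t : ℝ => Ninc (treeInd G S') (edgesIn G S') (Ytilt O t) F /
      Ninc (treeInd G S') (edgesIn G S') (Ytilt O t) ∅) atTop (𝓝 (ustContains G S F)) := by
    have h1 := tendsto_scaled (G := G) hSS hr F
    have h2 := tendsto_scaled (G := G) hSS hr (∅ : Finset (Sym2 V))
    rw [card_min_filter hSS hr hF] at h1
    rw [card_min_filter hSS hr (Finset.empty_subset _)] at h2
    have hne : (((TT G S).filter (fun T => ∅ ⊆ T)).card * (RR G S S').card : ℕ) ≠ 0 := by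
      simp only [Finset.empty_subset, Finset.filter_true]
      positivity
    have hne2 : ((((TT G S).filter (fun T => ∅ ⊆ T)).card * (RR G S S').card : ℕ) : ℝ) ≠ 0 := by
      exact_mod_cast hne
    have h3 := h1.div h2 hne2
    have hval : ((((TT G S).filter (fun T => F ⊆ T)).card * (RR G S S').card : ℕ) : ℝ) /
        ((((TT G S).filter (fun T => ∅ ⊆ T)).card * (RR G S S').card : ℕ) : ℝ) = ustContains G S F := by
      rw [ustContains_eq]
      simp only [Finset.empty_subset, Finset.filter_true]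
      push_cast
      have : ((RR G S S').card : ℝ) ≠ 0 := by positivity
      field_simp
    rw [hval] at h3
    refine h3.congr ?_
    intro t
    have hpos := Real.exp_pos (2 * t * ((S' \ S).card : ℝ))
    simp only [Pi.div_apply]
    rw [mul_div_mul_left _ _ hpos.ne']
  rw [← hzero]
  refine ge_of_tendsto hlim ?_
  filter_upwards [eventually_ge_atTop (0:ℝ)] with t ht
  exact hmono ht

end TreeMono

/-- **Monotonicity of the free uniform spanning tree.** -/
theorem ust_mono {V : Type*} [DecidableEq V] {G : SimpleGraph V} {S S' : Finset V} (hSS : S ⊆ S')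
    (hS : (G.induce (S : Set V)).Connected) (hS' : (G.induce (S' : Set V)).Connected)
    {F : Finset (Sym2 V)} (hF : F ⊆ edgesIn G S) :
    ustContains G S' F ≤ ustContains G S F := by
  obtain ⟨⟨r, hr⟩⟩ := hS.nonempty
  exact ust_mono_aux hSS hr hS hS' hF

end Crest.Agent.H5SL
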