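import Crest.Agent.H5SLEngine

/-!
Existence of the Wiener law on noise codes (Lévy's midpoint construction) and its representation
as a measurable image of the uniform law on the unit interval.
-/

set_option autoImplicit false
set_option linter.unusedSectionVars false
set_option linter.unusedVariables false

open MeasureTheory ProbabilityTheory Complex Filter Topology Set
open scoped NNReal ENNReal

namespace Crest.Agent.H5SL

/-- pairing of a finitely supported vector with a function -/
noncomputable def lin {Q : Type*} (a : Q →₀ ℝ) (f : Q → ℝ) : ℝ := a.sum (fun q x => x * f q)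

section Lin

variable {Q : Type*}

lemma lin_add_left (a b : Q →₀ ℝ) (f : Q → ℝ) : lin (a + b) f = lin a f + lin b f := by
  unfold lin
  apply Finsupp.sum_add_index'
  · intro q; simp
  · intro q x y; ring

lemma lin_smul_left (c : ℝ) (a : Q →₀ ℝ) (f : Q → ℝ) : lin (c • a) f = c * lin a f := by
  unfold lin
  rw [Finsupp.sum_smul_index (by intro q; simp), Finsupp.mul_sum]
  apply Finsupp.sum_congr
  intro q _
  ring

lemma lin_single_left (q : Q) (x : ℝ) (f : Q → ℝ) : lin (Finsupp.single q x) f = x * f q := by
  unfold lin
  rw [Finsupp.sum_single_index]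
  simp

lemma lin_zero_left (f : Q → ℝ) : lin (0 : Q →₀ ℝ) f = 0 := by
  unfold lin
  simp

lemma lin_sum_left {ι : Type*} (s : Finset ι) (a : ι → Q →₀ ℝ) (f : Q → ℝ) :
    lin (∑ i ∈ s, a i) f = ∑ i ∈ s, lin (a i) f := by
  classical
  induction s using Finset.induction_on with
  | empty => simp [lin_zero_left]
  | insert i s hi ih => rw [Finset.sum_insert hi, Finset.sum_insert hi, lin_add_left, ih]

/-- the pairing of two finitely supported vectors -/
noncomputable def ipF (a b : Q →₀ ℝ) : ℝ := lin a b

lemma ipF_comm (a b : Q →₀ ℝ) : ipF a b = ipF b a := by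
  classical
  unfold ipF lin
  rw [Finsupp.sum_of_support_subset a (Finset.subset_union_left (s₂ := b.support)) _ (by simp),
    Finsupp.sum_of_support_subset b (Finset.subset_union_right (s₁ := a.support)) _ (by simp)]
  exact Finset.sum_congr rfl fun q _ => mul_comm _ _

lemma ipF_add_left (a b c : Q →₀ ℝ) : ipF (a + b) c = ipF a c + ipF b c := lin_add_left _ _ _

lemma ipF_add_right (a b c : Q →₀ ℝ) : ipF a (b + c) = ipF a b + ipF a c := by
  rw [ipF_comm, ipF_add_left, ipF_comm b, ipF_comm c]

lemma ipF_smul_left (x : ℝ) (a b : Q →₀ ℝ) : ipF (x • a) b = x * ipF a b := lin_smul_left _ _ _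

lemma ipF_smul_right (x : ℝ) (a b : Q →₀ ℝ) : ipF a (x • b) = x * ipF a b := by
  rw [ipF_comm, ipF_smul_left, ipF_comm]

lemma ipF_sum_left {ι : Type*} (s : Finset ι) (a : ι → Q →₀ ℝ) (b : Q →₀ ℝ) :
    ipF (∑ i ∈ s, a i) b = ∑ i ∈ s, ipF (a i) b := lin_sum_left _ _ _

lemma ipF_sum_right {ι : Type*} (s : Finset ι) (a : Q →₀ ℝ) (b : ι → Q →₀ ℝ) :
    ipF a (∑ i ∈ s, b i) = ∑ i ∈ s, ipF a (b i) := by
  rw [ipF_comm, ipF_sum_left]
  exact Finset.sum_congr rfl fun i _ => ipF_comm _ _

lemma ipF_single_left (q : Q) (x : ℝ) (b : Q →₀ ℝ) : ipF (Finsupp.single q x) b = x * b q :=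
  lin_single_left _ _ _

lemma ipF_single_right (q : Q) (x : ℝ) (a : Q →₀ ℝ) : ipF a (Finsupp.single q x) = x * a q := by
  rw [ipF_comm, ipF_single_left]

/-- The pairing of a vector with itself is the sum of squares on the support. -/
lemma ipF_self (a : Q →₀ ℝ) : ipF a a = ∑ q ∈ a.support, a q ^ 2 := by
  unfold ipF lin Finsupp.sum
  exact Finset.sum_congr rfl fun q _ => by ring

lemma measurable_lin [Countable Q] (a : Q →₀ ℝ) : Measurable (fun f : Q → ℝ => lin a f) := by
  unfold lin Finsupp.sum
  apply Finset.measurable_sum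
  intro q _
  exact measurable_const.mul (measurable_pi_apply q)

/-- The standard Gaussian array. -/
noncomputable def gArr (Q : Type*) : Measure (Q → ℝ) :=
  Measure.infinitePi (fun _ : Q => gaussianReal 0 1)

instance : IsProbabilityMeasure (gArr Q) := by
  unfold gArr; infer_instance

/-- Char function of a finite linear form of a standard Gaussian array. -/
theorem charFun_lin (a : Q →₀ ℝ) :
    ∫ f, cexp (I * ((lin a f : ℝ) : ℂ)) ∂(gArr Q) =
      ((Real.exp (-(ipF a a) / 2) : ℝ) : ℂ) := by
  classical
  set S := a.support with hS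
  have hmap : (gArr Q).map (fun (f : Q → ℝ) (q : S) => f q) = gam S 1 :=
    Measure.infinitePi_map_restrict (X := fun _ : Q => ℝ) (fun _ : Q => gaussianReal 0 1) (I := S)
  have hm : Measurable (fun (f : Q → ℝ) (q : S) => f q) :=
    measurable_pi_iff.2 fun q => measurable_pi_apply _
  have h1 := integral_gam_charFun (U := S) 1 (fun q => a q)
  rw [← hmap, integral_map hm.aemeasurable] at h1
  · have h2 : ∑ e : S, a e ^ 2 = ipF a a := by
      rw [ipF_self]
      exact Finset.sum_coe_sort S (fun q => a q ^ 2)
    rw [h2] at h1
    simp only [NNReal.coe_one, one_mul] at h1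
    rw [← h1]
    apply integral_congr_ae
    filter_upwards with f
    congr 3
    unfold lin dotR Finsupp.sum
    exact (Finset.sum_coe_sort S (fun q => a q * f q)).symm
  · apply Measurable.aestronglyMeasurable
    apply Complex.measurable_exp.comp
    apply measurable_const.mul
    apply Complex.measurable_ofReal.comp
    exact measurable_dotR_right _

end Lin

/-- midpoint coefficient -/
noncomputable def cW (n : ℕ) : ℝ := Real.sqrt (1 / 2 ^ (n + 2))

lemma cW_sq (n : ℕ) : cW n ^ 2 = 1 / 2 ^ (n + 2) := by
  unfold cW
  exact Real.sq_sqrt (by positivity)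

/-- the sign of a midpoint split -/
noncomputable def sgn (j : ℕ) : ℝ := if j % 2 = 0 then 1 else -1

/-- coefficient vectors of the dyadic increments -/
noncomputable def Aw : ℕ → ℕ → (ℕ × ℕ →₀ ℝ)
  | 0, k => Finsupp.single (0, k) 1
  | n + 1, j => (1 / 2 : ℝ) • Aw n (j / 2) + (sgn j * cW n) • Finsupp.single (n + 1, j / 2) 1

lemma Aw_high {n m : ℕ} (h : n < m) (k l : ℕ) : Aw n k (m, l) = 0 := by
  induction n generalizing k with
  | zero =>
    simp only [Aw]
    rw [Finsupp.single_apply]
    rw [if_neg]
    intro h2
    have := congrArg Prod.fst h2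
    simp only at this
    omega
  | succ n ih =>
    simp only [Aw, Finsupp.add_apply, Finsupp.smul_apply, smul_eq_mul]
    rw [ih (by omega), Finsupp.single_apply, if_neg]
    · simp
    · intro h2
      have := congrArg Prod.fst h2
      simp only at this
      omega

/-- Orthogonality of the increments. -/
theorem ipF_Aw (n : ℕ) : ∀ k l, ipF (Aw n k) (Aw n l) = if k = l then 1 / 2 ^ n else 0 := by
  have key : ∀ (a a' e e' : ℕ × ℕ →₀ ℝ) (x y u v : ℝ), ipF (x • a + u • e) (y • a' + v • e') =
      x * y * ipF a a' + x * v * ipF a e' + u * y * ipF e a' + u * v * ipF e e' := by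
    intro a a' e e' x y u v
    rw [ipF_add_left, ipF_add_right, ipF_add_right]
    simp only [ipF_smul_left, ipF_smul_right]
    ring
  induction n with
  | zero =>
    intro k l
    simp only [Aw, ipF_single_left, one_mul, Finsupp.single_apply, Prod.mk.injEq, true_and, pow_zero]
    by_cases h : k = l
    · subst h; simp
    · have h' : l ≠ k := Ne.symm h
      simp [h, h']
  | succ n ih =>
    intro j j'
    simp only [Aw]
    rw [key, ih, ipF_single_right, ipF_single_left, ipF_single_left, Aw_high (by omega),
      Aw_high (by omega), Finsupp.single_apply]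
    simp only [Prod.mk.injEq, true_and, mul_zero, zero_add, add_zero, one_mul]
    have hc := cW_sq n
    by_cases h2 : j / 2 = j' / 2
    · rw [if_pos h2, if_pos h2.symm, mul_one]
      by_cases h3 : j = j'
      · subst h3
        rw [if_pos rfl]
        have hs : sgn j * sgn j = 1 := by
          unfold sgn
          split_ifs <;> norm_num
        have : (1 / 2 : ℝ) * (1 / 2) * (1 / 2 ^ n) + sgn j * cW n * (sgn j * cW n) =
            (sgn j * sgn j) * cW n ^ 2 + (1 / 2 : ℝ) * (1 / 2) * (1 / 2 ^ n) := by ring
        rw [this, hs, hc]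
        rw [pow_succ, pow_succ]
        field_simp
        norm_num
      · rw [if_neg h3]
        have hs : sgn j * sgn j' = -1 := by
          unfold sgn
          have h4 : j % 2 ≠ j' % 2 := by
            intro h5
            apply h3
            omega
          split_ifs with h6 h7 h7
          · exfalso; apply h4; omega
          · norm_num
          · norm_num
          · exfalso; apply h4; omega
        have : (1 / 2 : ℝ) * (1 / 2) * (1 / 2 ^ n) + sgn j * cW n * (sgn j' * cW n) =
            (sgn j * sgn j') * cW n ^ 2 + (1 / 2 : ℝ) * (1 / 2) * (1 / 2 ^ n) := by ring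
        rw [this, hs, hc]
        rw [pow_succ, pow_succ]
        field_simp
        norm_num
    · rw [if_neg h2, if_neg (fun h => h2 h.symm), if_neg]
      · simp
      · rintro rfl
        exact h2 rfl

/-- the dyadic increments as functions of the array -/
noncomputable def xiW (n k : ℕ) (Z : ℕ × ℕ → ℝ) : ℝ := lin (Aw n k) Z

/-- the code built from the array -/
noncomputable def vW (Z : ℕ × ℕ → ℝ) : Code := fun n j => ∑ k ∈ Finset.range j, xiW n k Z

lemma xiW_split (n k : ℕ) (Z : ℕ × ℕ → ℝ) :
    xiW (n + 1) (2 * k) Z + xiW (n + 1) (2 * k + 1) Z = xiW n k Z := by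
  unfold xiW
  simp only [Aw]
  have h1 : 2 * k / 2 = k := by omega
  have h2 : (2 * k + 1) / 2 = k := by omega
  have h3 : sgn (2 * k) = 1 := by
    unfold sgn
    rw [if_pos]
    omega
  have h4 : sgn (2 * k + 1) = -1 := by
    unfold sgn
    rw [if_neg]
    omega
  rw [h1, h2, h3, h4]
  simp only [lin_add_left, lin_smul_left]
  ring

lemma vW_consistent (Z : ℕ × ℕ → ℝ) : Consistent (vW Z) := by
  constructor
  · intro n j
    unfold vW
    induction j with
    | zero => simp
    | succ j ih =>
      have : 2 * (j + 1) = 2 * j + 1 + 1 := by ring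
      rw [this, Finset.sum_range_succ, Finset.sum_range_succ, ih, Finset.sum_range_succ, add_assoc,
        xiW_split]
  · intro n
    simp [vW]

lemma measurable_xiW (n k : ℕ) : Measurable (xiW n k) := measurable_lin _

lemma measurable_vW : Measurable vW := by
  refine measurable_pi_iff.2 fun n => measurable_pi_iff.2 fun j => ?_
  unfold vW
  exact Finset.measurable_sum _ fun k _ => measurable_xiW n k

/-- uniqueness of laws on a finite product by char functions -/
theorem ext_pi_charFun {A : Type*} [Fintype A] {m1 m2 : Measure (A → ℝ)}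
    [IsFiniteMeasure m1] [IsFiniteMeasure m2]
    (h : ∀ θ : A → ℝ, ∫ x, cexp (I * ((dotR θ x : ℝ) : ℂ)) ∂m1 =
      ∫ x, cexp (I * ((dotR θ x : ℝ) : ℂ)) ∂m2) : m1 = m2 := by
  classical
  refine Measure.ext_of_charFunDual (funext fun L => ?_)
  rw [charFunDual_apply, charFunDual_apply]
  let θ : A → ℝ := fun a => L (Pi.single a 1)
  have hL : ∀ v : A → ℝ, L v = dotR θ v := by
    intro v
    have hv : v = ∑ a, v a • (Pi.single a 1 : A → ℝ) := by
      ext a'
      simp only [Finset.sum_apply, Pi.smul_apply, Pi.single_apply, smul_eq_mul]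
      rw [Finset.sum_eq_single a']
      · simp
      · intro a _ ha
        simp [Ne.symm ha]
      · simp
    conv_lhs => rw [hv]
    rw [map_sum]
    unfold dotR
    apply Finset.sum_congr rfl
    intro a _
    rw [map_smul, smul_eq_mul, mul_comm]
  have hconv : ∀ v : A → ℝ, cexp (((L v : ℝ) : ℂ) * I) = cexp (I * ((dotR θ v : ℝ) : ℂ)) := by
    intro v
    rw [hL, mul_comm]
  simp_rw [hconv]
  exact h θ

/-- The law of the dyadic increments. -/
theorem law_xiW (n K : ℕ) :
    (gArr (ℕ × ℕ)).map (fun Z (k : Fin K) => xiW n k Z) = gam (Fin K) (eps n) := by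
  have hm : Measurable (fun Z (k : Fin K) => xiW n k Z) :=
    measurable_pi_iff.2 fun k => measurable_xiW n k
  have : IsProbabilityMeasure ((gArr (ℕ × ℕ)).map (fun Z (k : Fin K) => xiW n k Z)) :=
    Measure.isProbabilityMeasure_map hm.aemeasurable
  apply ext_pi_charFun
  intro θ
  rw [integral_gam_charFun, integral_map hm.aemeasurable]
  · set α : ℕ × ℕ →₀ ℝ := ∑ k : Fin K, θ k • Aw n k with hα
    have h1 : ∀ Z, dotR θ (fun k : Fin K => xiW n k Z) = lin α Z := by
      intro Z
      rw [hα, lin_sum_left]
      unfold dotR xiW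
      exact Finset.sum_congr rfl fun k _ => (lin_smul_left _ _ _).symm
    simp_rw [h1]
    rw [charFun_lin]
    have h2 : ipF α α = (eps n : ℝ) * ∑ k, θ k ^ 2 := by
      rw [hα, ipF_sum_left, Finset.mul_sum]
      apply Finset.sum_congr rfl
      intro k _
      rw [ipF_smul_left, ipF_sum_right]
      have h3 : ∀ l : Fin K, ipF (Aw n k) (θ l • Aw n l) =
          θ l * (if (k : ℕ) = l then 1 / 2 ^ n else 0) := by
        intro l
        rw [ipF_smul_right, ipF_Aw]
      simp_rw [h3]
      rw [Finset.sum_eq_single k]
      · rw [if_pos rfl, eps_coe]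
        ring
      · intro l _ hl
        rw [if_neg]
        · simp
        · intro h4
          exact hl (Fin.ext h4.symm)
      · simp
    rw [h2]
  · apply Measurable.aestronglyMeasurable
    apply Complex.measurable_exp.comp
    apply measurable_const.mul
    apply Complex.measurable_ofReal.comp
    exact measurable_dotR_right _

/-- The Wiener law on codes. -/
noncomputable def wienerLaw : Measure Code := (gArr (ℕ × ℕ)).map vW

theorem isWiener_wienerLaw : IsWiener wienerLaw := by
  constructor
  · exact Measure.isProbabilityMeasure_map measurable_vW.aemeasurable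
  · unfold wienerLaw
    rw [ae_map_iff measurable_vW.aemeasurable]
    · filter_upwards with Z
      exact vW_consistent Z
    · have : {v : Code | (∀ n j, v (n + 1) (2 * j) = v n j) ∧ ∀ n, v n 0 = 0} =
          (⋂ n, ⋂ j, {v : Code | v (n + 1) (2 * j) = v n j}) ∩ ⋂ n, {v : Code | v n 0 = 0} := by
        ext v
        simp [Set.mem_iInter]
      rw [this]
      refine MeasurableSet.inter ?_ ?_
      · refine MeasurableSet.iInter fun n => MeasurableSet.iInter fun j => ?_
        exact measurableSet_eq_fun (measurable_code _ _) (measurable_code _ _)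
      · refine MeasurableSet.iInter fun n => ?_
        exact measurableSet_eq_fun (measurable_code _ _) measurable_const
  · intro n K
    unfold wienerLaw
    have hm : Measurable (fun (v : Code) (k : Fin K) => v n (k + 1) - v n k) := by
      refine measurable_pi_iff.2 fun k => ?_
      exact (measurable_code n _).sub (measurable_code n _)
    rw [Measure.map_map hm measurable_vW]
    have h1 : ((fun (v : Code) (k : Fin K) => v n (k + 1) - v n k) ∘ vW) =
        fun Z (k : Fin K) => xiW n k Z := by
      ext Z k
      simp [vW, Finset.sum_range_succ]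
    rw [h1]
    exact law_xiW n K

/-- The unit interval represents the Wiener law. -/
theorem exists_code_map : ∃ f : unitInterval → Code, Measurable f ∧ volume.map f = wienerLaw := by
  have := isWiener_wienerLaw.prob
  exact Measure.exists_measurable_map_eq wienerLaw

end Crest.Agent.H5SL
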