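import Mathlib
import Crest.Prelude.Def_QuadricHamiltonian

set_option autoImplicit false

namespace Crest.Agent.H7QuadricAlg

open Crest.GeometryTopology.Quadric

abbrev C5 := Fin 5 → ℂ

lemma fin5_cases {p : Fin 5 → Prop} (h0 : p 0) (h1 : p 1) (h2 : p 2) (h3 : p 3) (h4 : p 4) :
    ∀ j, p j := by
  intro j; fin_cases j <;> assumption

/-- Plücker-type moment `2 Im (conj (z j) * z k)`. -/
def P (z : C5) (j k : Fin 5) : ℝ := 2 * ((z j).re * (z k).im - (z j).im * (z k).re)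

def u1 (z : C5) : ℝ := P z 0 1 + P z 2 3
def u2 (z : C5) : ℝ := P z 0 2 - P z 1 3
def u3 (z : C5) : ℝ := P z 0 3 + P z 1 2
def v1 (z : C5) : ℝ := P z 0 1 - P z 2 3
def v2 (z : C5) : ℝ := P z 0 2 + P z 1 3
def v3 (z : C5) : ℝ := P z 0 3 - P z 1 2

/-- The four elementary rotations, with `c = cos θ`, `s = sin θ`. -/
def R3p (c s : ℝ) (z : C5) : C5 :=
  ![c * z 0 - s * z 3, c * z 1 - s * z 2, c * z 2 + s * z 1, c * z 3 + s * z 0, z 4]
def R1m (c s : ℝ) (z : C5) : C5 :=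
  ![c * z 0 - s * z 1, c * z 1 + s * z 0, c * z 2 + s * z 3, c * z 3 - s * z 2, z 4]
def R1p (c s : ℝ) (z : C5) : C5 :=
  ![c * z 0 - s * z 1, c * z 1 + s * z 0, c * z 2 - s * z 3, c * z 3 + s * z 2, z 4]
def R3m (c s : ℝ) (z : C5) : C5 :=
  ![c * z 0 - s * z 3, c * z 1 + s * z 2, c * z 2 - s * z 1, c * z 3 + s * z 0, z 4]

section moments
variable (c s : ℝ) (z : C5)

lemma u1_R3p : u1 (R3p c s z) = (c^2 - s^2) * u1 z - 2 * c * s * u2 z := by
  simp [u1, u2, P, R3p]; ring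
lemma u2_R3p : u2 (R3p c s z) = 2 * c * s * u1 z + (c^2 - s^2) * u2 z := by
  simp [u1, u2, P, R3p]; ring
lemma u3_R3p : u3 (R3p c s z) = (c^2 + s^2) * u3 z := by
  simp [u3, P, R3p]; ring
lemma v1_R3p : v1 (R3p c s z) = (c^2 + s^2) * v1 z := by
  simp [v1, P, R3p]; ring
lemma v2_R3p : v2 (R3p c s z) = (c^2 + s^2) * v2 z := by
  simp [v2, P, R3p]; ring
lemma v3_R3p : v3 (R3p c s z) = (c^2 + s^2) * v3 z := by
  simp [v3, P, R3p]; ring

lemma u1_R1m : u1 (R1m c s z) = (c^2 + s^2) * u1 z := by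
  simp [u1, P, R1m]; ring
lemma u2_R1m : u2 (R1m c s z) = (c^2 + s^2) * u2 z := by
  simp [u2, P, R1m]; ring
lemma u3_R1m : u3 (R1m c s z) = (c^2 + s^2) * u3 z := by
  simp [u3, P, R1m]; ring
lemma v1_R1m : v1 (R1m c s z) = (c^2 + s^2) * v1 z := by
  simp [v1, P, R1m]; ring
lemma v2_R1m : v2 (R1m c s z) = (c^2 - s^2) * v2 z + 2 * c * s * v3 z := by
  simp [v2, v3, P, R1m]; ring
lemma v3_R1m : v3 (R1m c s z) = -(2 * c * s) * v2 z + (c^2 - s^2) * v3 z := by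
  simp [v2, v3, P, R1m]; ring

lemma u1_R1p : u1 (R1p c s z) = (c^2 + s^2) * u1 z := by
  simp [u1, P, R1p]; ring
lemma u2_R1p : u2 (R1p c s z) = (c^2 - s^2) * u2 z - 2 * c * s * u3 z := by
  simp [u2, u3, P, R1p]; ring
lemma u3_R1p : u3 (R1p c s z) = 2 * c * s * u2 z + (c^2 - s^2) * u3 z := by
  simp [u2, u3, P, R1p]; ring
lemma v1_R1p : v1 (R1p c s z) = (c^2 + s^2) * v1 z := by
  simp [v1, P, R1p]; ring
lemma v2_R1p : v2 (R1p c s z) = (c^2 + s^2) * v2 z := by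
  simp [v2, P, R1p]; ring
lemma v3_R1p : v3 (R1p c s z) = (c^2 + s^2) * v3 z := by
  simp [v3, P, R1p]; ring

lemma u1_R3m : u1 (R3m c s z) = (c^2 + s^2) * u1 z := by
  simp [u1, P, R3m]; ring
lemma u2_R3m : u2 (R3m c s z) = (c^2 + s^2) * u2 z := by
  simp [u2, P, R3m]; ring
lemma u3_R3m : u3 (R3m c s z) = (c^2 + s^2) * u3 z := by
  simp [u3, P, R3m]; ring
lemma v1_R3m : v1 (R3m c s z) = (c^2 - s^2) * v1 z + 2 * c * s * v2 z := by
  simp [v1, v2, P, R3m]; ring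
lemma v2_R3m : v2 (R3m c s z) = -(2 * c * s) * v1 z + (c^2 - s^2) * v2 z := by
  simp [v1, v2, P, R3m]; ring
lemma v3_R3m : v3 (R3m c s z) = (c^2 + s^2) * v3 z := by
  simp [v3, P, R3m]; ring

end moments


/-! ### Twist maps -/

noncomputable def eps : ℝ := 1 / 100

noncomputable def sA (z : C5) : ℝ := eps * (1 - v1 z)
noncomputable def rA (z : C5) : ℝ := -(eps * u3 z)
noncomputable def wB (z : C5) : ℝ := Real.pi - eps * v3 z
noncomputable def wB' (z : C5) : ℝ := eps * (1 - u1 z)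

noncomputable def τa (θ : ℝ) (z : C5) : C5 :=
  R3p (Real.cos (θ * sA z)) (Real.sin (θ * sA z))
    (R1m (Real.cos (θ * rA z)) (Real.sin (θ * rA z)) z)

noncomputable def τb (θ : ℝ) (z : C5) : C5 :=
  R1p (Real.cos (θ * wB z)) (Real.sin (θ * wB z))
    (R3m (Real.cos (θ * wB' z)) (Real.sin (θ * wB' z)) z)

lemma v1_τa (θ : ℝ) (z : C5) : v1 (τa θ z) = v1 z := by
  simp [τa, v1_R3p, v1_R1m, Real.cos_sq_add_sin_sq]
lemma u3_τa (θ : ℝ) (z : C5) : u3 (τa θ z) = u3 z := by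
  simp [τa, u3_R3p, u3_R1m, Real.cos_sq_add_sin_sq]
lemma u1_τb (θ : ℝ) (z : C5) : u1 (τb θ z) = u1 z := by
  simp [τb, u1_R1p, u1_R3m, Real.cos_sq_add_sin_sq]
lemma v3_τb (θ : ℝ) (z : C5) : v3 (τb θ z) = v3 z := by
  simp [τb, v3_R1p, v3_R3m, Real.cos_sq_add_sin_sq]

lemma sA_τa (θ : ℝ) (z : C5) : sA (τa θ z) = sA z := by simp [sA, v1_τa]
lemma rA_τa (θ : ℝ) (z : C5) : rA (τa θ z) = rA z := by simp [rA, u3_τa]
lemma wB_τb (θ : ℝ) (z : C5) : wB (τb θ z) = wB z := by simp [wB, v3_τb]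
lemma wB'_τb (θ : ℝ) (z : C5) : wB' (τb θ z) = wB' z := by simp [wB', u1_τb]

lemma R3p_one_zero (z : C5) : R3p 1 0 z = z := by
  ext j; fin_cases j <;> simp [R3p]
lemma R1m_one_zero (z : C5) : R1m 1 0 z = z := by
  ext j; fin_cases j <;> simp [R1m]
lemma R1p_one_zero (z : C5) : R1p 1 0 z = z := by
  ext j; fin_cases j <;> simp [R1p]
lemma R3m_one_zero (z : C5) : R3m 1 0 z = z := by
  ext j; fin_cases j <;> simp [R3m]

@[simp] lemma τa_zero (z : C5) : τa 0 z = z := by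
  simp [τa, R3p_one_zero, R1m_one_zero]
@[simp] lemma τb_zero (z : C5) : τb 0 z = z := by
  simp [τb, R1p_one_zero, R3m_one_zero]

/-! ### Generators -/

def L3p (z : C5) : C5 := ![-z 3, -z 2, z 1, z 0, 0]
def L1m (z : C5) : C5 := ![-z 1, z 0, z 3, -z 2, 0]
def L1p (z : C5) : C5 := ![-z 1, z 0, -z 3, z 2, 0]
def L3m (z : C5) : C5 := ![-z 3, z 2, -z 1, z 0, 0]

section deriv_rot

variable {f g : ℝ → ℂ} {f' g' : ℂ} {θ : ℝ}

lemma hasDerivAt_cos_mul (S θ : ℝ) :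
    HasDerivAt (fun θ : ℝ => ((Real.cos (θ * S) : ℝ) : ℂ)) ((-(S * Real.sin (θ * S)) : ℝ) : ℂ) θ := by
  have h : HasDerivAt (fun θ : ℝ => Real.cos (θ * S)) (-(S * Real.sin (θ * S))) θ := by
    have h1 : HasDerivAt (fun θ : ℝ => θ * S) S θ := by simpa using (hasDerivAt_id θ).mul_const S
    exact h1.cos.congr_deriv (by ring)
  exact h.ofReal_comp

lemma hasDerivAt_sin_mul (S θ : ℝ) :
    HasDerivAt (fun θ : ℝ => ((Real.sin (θ * S) : ℝ) : ℂ)) ((S * Real.cos (θ * S) : ℝ) : ℂ) θ := by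
  have h : HasDerivAt (fun θ : ℝ => Real.sin (θ * S)) (S * Real.cos (θ * S)) θ := by
    have h1 : HasDerivAt (fun θ : ℝ => θ * S) S θ := by simpa using (hasDerivAt_id θ).mul_const S
    exact h1.sin.congr_deriv (by ring)
  exact h.ofReal_comp

lemma hasDerivAt_comb_sub (S : ℝ) (hf : HasDerivAt f f' θ) (hg : HasDerivAt g g' θ) :
    HasDerivAt (fun θ : ℝ => ((Real.cos (θ * S) : ℝ) : ℂ) * f θ - ((Real.sin (θ * S) : ℝ) : ℂ) * g θ)
      ((S : ℂ) * (-(((Real.sin (θ * S) : ℝ) : ℂ) * f θ) - ((Real.cos (θ * S) : ℝ) : ℂ) * g θ)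
        + (((Real.cos (θ * S) : ℝ) : ℂ) * f' - ((Real.sin (θ * S) : ℝ) : ℂ) * g')) θ := by
  have := ((hasDerivAt_cos_mul S θ).mul hf).sub ((hasDerivAt_sin_mul S θ).mul hg)
  refine this.congr_deriv ?_
  push_cast; ring

lemma hasDerivAt_comb_add (S : ℝ) (hf : HasDerivAt f f' θ) (hg : HasDerivAt g g' θ) :
    HasDerivAt (fun θ : ℝ => ((Real.cos (θ * S) : ℝ) : ℂ) * f θ + ((Real.sin (θ * S) : ℝ) : ℂ) * g θ)
      ((S : ℂ) * (-(((Real.sin (θ * S) : ℝ) : ℂ) * f θ) + ((Real.cos (θ * S) : ℝ) : ℂ) * g θ)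
        + (((Real.cos (θ * S) : ℝ) : ℂ) * f' + ((Real.sin (θ * S) : ℝ) : ℂ) * g')) θ := by
  have := ((hasDerivAt_cos_mul S θ).mul hf).add ((hasDerivAt_sin_mul S θ).mul hg)
  refine this.congr_deriv ?_
  push_cast; ring

variable {y : ℝ → C5} {y' : C5}

lemma hasDerivAt_R3p (S : ℝ) (hy : HasDerivAt y y' θ) :
    HasDerivAt (fun θ => R3p (Real.cos (θ * S)) (Real.sin (θ * S)) (y θ))
      (S • L3p (R3p (Real.cos (θ * S)) (Real.sin (θ * S)) (y θ))
        + R3p (Real.cos (θ * S)) (Real.sin (θ * S)) y') θ := by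
  rw [hasDerivAt_pi] at hy ⊢
  refine fin5_cases ?_ ?_ ?_ ?_ ?_
  · refine (hasDerivAt_comb_sub S (hy 0) (hy 3)).congr_deriv ?_
    simp only [R3p, L3p, Pi.add_apply, Pi.smul_apply, Matrix.cons_val, Complex.real_smul]; ring
  · refine (hasDerivAt_comb_sub S (hy 1) (hy 2)).congr_deriv ?_
    simp only [R3p, L3p, Pi.add_apply, Pi.smul_apply, Matrix.cons_val, Complex.real_smul]; ring
  · refine (hasDerivAt_comb_add S (hy 2) (hy 1)).congr_deriv ?_
    simp only [R3p, L3p, Pi.add_apply, Pi.smul_apply, Matrix.cons_val, Complex.real_smul]; ring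
  · refine (hasDerivAt_comb_add S (hy 3) (hy 0)).congr_deriv ?_
    simp only [R3p, L3p, Pi.add_apply, Pi.smul_apply, Matrix.cons_val, Complex.real_smul]; ring
  · exact (hy 4).congr_deriv (by simp [R3p, L3p])

lemma hasDerivAt_R1m (S : ℝ) (hy : HasDerivAt y y' θ) :
    HasDerivAt (fun θ => R1m (Real.cos (θ * S)) (Real.sin (θ * S)) (y θ))
      (S • L1m (R1m (Real.cos (θ * S)) (Real.sin (θ * S)) (y θ))
        + R1m (Real.cos (θ * S)) (Real.sin (θ * S)) y') θ := by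
  rw [hasDerivAt_pi] at hy ⊢
  refine fin5_cases ?_ ?_ ?_ ?_ ?_
  · refine (hasDerivAt_comb_sub S (hy 0) (hy 1)).congr_deriv ?_
    simp only [R1m, L1m, Pi.add_apply, Pi.smul_apply, Matrix.cons_val, Complex.real_smul]; ring
  · refine (hasDerivAt_comb_add S (hy 1) (hy 0)).congr_deriv ?_
    simp only [R1m, L1m, Pi.add_apply, Pi.smul_apply, Matrix.cons_val, Complex.real_smul]; ring
  · refine (hasDerivAt_comb_add S (hy 2) (hy 3)).congr_deriv ?_
    simp only [R1m, L1m, Pi.add_apply, Pi.smul_apply, Matrix.cons_val, Complex.real_smul]; ring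
  · refine (hasDerivAt_comb_sub S (hy 3) (hy 2)).congr_deriv ?_
    simp only [R1m, L1m, Pi.add_apply, Pi.smul_apply, Matrix.cons_val, Complex.real_smul]; ring
  · exact (hy 4).congr_deriv (by simp [R1m, L1m])

lemma hasDerivAt_R1p (S : ℝ) (hy : HasDerivAt y y' θ) :
    HasDerivAt (fun θ => R1p (Real.cos (θ * S)) (Real.sin (θ * S)) (y θ))
      (S • L1p (R1p (Real.cos (θ * S)) (Real.sin (θ * S)) (y θ))
        + R1p (Real.cos (θ * S)) (Real.sin (θ * S)) y') θ := by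
  rw [hasDerivAt_pi] at hy ⊢
  refine fin5_cases ?_ ?_ ?_ ?_ ?_
  · refine (hasDerivAt_comb_sub S (hy 0) (hy 1)).congr_deriv ?_
    simp only [R1p, L1p, Pi.add_apply, Pi.smul_apply, Matrix.cons_val, Complex.real_smul]; ring
  · refine (hasDerivAt_comb_add S (hy 1) (hy 0)).congr_deriv ?_
    simp only [R1p, L1p, Pi.add_apply, Pi.smul_apply, Matrix.cons_val, Complex.real_smul]; ring
  · refine (hasDerivAt_comb_sub S (hy 2) (hy 3)).congr_deriv ?_
    simp only [R1p, L1p, Pi.add_apply, Pi.smul_apply, Matrix.cons_val, Complex.real_smul]; ring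
  · refine (hasDerivAt_comb_add S (hy 3) (hy 2)).congr_deriv ?_
    simp only [R1p, L1p, Pi.add_apply, Pi.smul_apply, Matrix.cons_val, Complex.real_smul]; ring
  · exact (hy 4).congr_deriv (by simp [R1p, L1p])

lemma hasDerivAt_R3m (S : ℝ) (hy : HasDerivAt y y' θ) :
    HasDerivAt (fun θ => R3m (Real.cos (θ * S)) (Real.sin (θ * S)) (y θ))
      (S • L3m (R3m (Real.cos (θ * S)) (Real.sin (θ * S)) (y θ))
        + R3m (Real.cos (θ * S)) (Real.sin (θ * S)) y') θ := by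
  rw [hasDerivAt_pi] at hy ⊢
  refine fin5_cases ?_ ?_ ?_ ?_ ?_
  · refine (hasDerivAt_comb_sub S (hy 0) (hy 3)).congr_deriv ?_
    simp only [R3m, L3m, Pi.add_apply, Pi.smul_apply, Matrix.cons_val, Complex.real_smul]; ring
  · refine (hasDerivAt_comb_add S (hy 1) (hy 2)).congr_deriv ?_
    simp only [R3m, L3m, Pi.add_apply, Pi.smul_apply, Matrix.cons_val, Complex.real_smul]; ring
  · refine (hasDerivAt_comb_sub S (hy 2) (hy 1)).congr_deriv ?_
    simp only [R3m, L3m, Pi.add_apply, Pi.smul_apply, Matrix.cons_val, Complex.real_smul]; ring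
  · refine (hasDerivAt_comb_add S (hy 3) (hy 0)).congr_deriv ?_
    simp only [R3m, L3m, Pi.add_apply, Pi.smul_apply, Matrix.cons_val, Complex.real_smul]; ring
  · exact (hy 4).congr_deriv (by simp [R3m, L3m])

end deriv_rot

/-- Hamiltonian vector field of the first twist. -/
noncomputable def Xa (S Q : ℝ) (y : C5) : C5 := S • L3p y + Q • L1m y
/-- Hamiltonian vector field of the second twist. -/
noncomputable def Xb (S Q : ℝ) (y : C5) : C5 := S • L1p y + Q • L3m y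

lemma hasDerivAt_τa (z : C5) (θ : ℝ) :
    HasDerivAt (fun θ => τa θ z) (Xa (sA z) (rA z) (τa θ z)) θ := by
  have h0 : HasDerivAt (fun _ : ℝ => z) (0 : C5) θ := hasDerivAt_const θ z
  have h1 := hasDerivAt_R1m (rA z) h0
  have h2 := hasDerivAt_R3p (sA z) h1
  have h3 : HasDerivAt (fun θ => τa θ z) _ θ := h2
  refine h3.congr_deriv ?_
  ext j
  fin_cases j <;> simp [Xa, τa, R3p, R1m, L3p, L1m] <;> ring

lemma hasDerivAt_τb (z : C5) (θ : ℝ) :
    HasDerivAt (fun θ => τb θ z) (Xb (wB z) (wB' z) (τb θ z)) θ := by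
  have h0 : HasDerivAt (fun _ : ℝ => z) (0 : C5) θ := hasDerivAt_const θ z
  have h1 := hasDerivAt_R3m (wB' z) h0
  have h2 := hasDerivAt_R1p (wB z) h1
  have h3 : HasDerivAt (fun θ => τb θ z) _ θ := h2
  refine h3.congr_deriv ?_
  ext j
  fin_cases j <;> simp [Xb, τb, R1p, R3m, L1p, L3m] <;> ring


/-! ### Hamiltonians and their derivatives -/

noncomputable def reL (j : Fin 5) : C5 →L[ℝ] ℝ :=
  Complex.reCLM.comp (ContinuousLinearMap.proj (R := ℝ) (φ := fun _ : Fin 5 => ℂ) j)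
noncomputable def imL (j : Fin 5) : C5 →L[ℝ] ℝ :=
  Complex.imCLM.comp (ContinuousLinearMap.proj (R := ℝ) (φ := fun _ : Fin 5 => ℂ) j)

@[simp] lemma reL_apply (j : Fin 5) (z : C5) : reL j z = (z j).re := rfl
@[simp] lemma imL_apply (j : Fin 5) (z : C5) : imL j z = (z j).im := rfl

noncomputable def dPL (y : C5) (j k : Fin 5) : C5 →L[ℝ] ℝ :=
  (2 : ℝ) • (((y j).re • imL k + (y k).im • reL j) - ((y j).im • reL k + (y k).re • imL j))

lemma hasFDerivAt_P (y : C5) (j k : Fin 5) : HasFDerivAt (fun z => P z j k) (dPL y j k) y := by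
  have h1 : HasFDerivAt (fun z : C5 => (z j).re * (z k).im)
      ((y j).re • imL k + (y k).im • reL j) y :=
    (reL j).hasFDerivAt.mul (imL k).hasFDerivAt
  have h2 : HasFDerivAt (fun z : C5 => (z j).im * (z k).re)
      ((y j).im • reL k + (y k).re • imL j) y :=
    (imL j).hasFDerivAt.mul (reL k).hasFDerivAt
  exact (h1.sub h2).const_mul (2 : ℝ)

noncomputable def du1L (y : C5) : C5 →L[ℝ] ℝ := dPL y 0 1 + dPL y 2 3
noncomputable def du3L (y : C5) : C5 →L[ℝ] ℝ := dPL y 0 3 + dPL y 1 2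
noncomputable def dv1L (y : C5) : C5 →L[ℝ] ℝ := dPL y 0 1 - dPL y 2 3
noncomputable def dv3L (y : C5) : C5 →L[ℝ] ℝ := dPL y 0 3 - dPL y 1 2

lemma hasFDerivAt_u1 (y : C5) : HasFDerivAt u1 (du1L y) y :=
  (hasFDerivAt_P y 0 1).add (hasFDerivAt_P y 2 3)
lemma hasFDerivAt_u3 (y : C5) : HasFDerivAt u3 (du3L y) y :=
  (hasFDerivAt_P y 0 3).add (hasFDerivAt_P y 1 2)
lemma hasFDerivAt_v1 (y : C5) : HasFDerivAt v1 (dv1L y) y :=
  (hasFDerivAt_P y 0 1).sub (hasFDerivAt_P y 2 3)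
lemma hasFDerivAt_v3 (y : C5) : HasFDerivAt v3 (dv3L y) y :=
  (hasFDerivAt_P y 0 3).sub (hasFDerivAt_P y 1 2)

noncomputable def aH (x : C5) : ℝ := eps * (u3 x * (1 - v1 x))
noncomputable def bH (x : C5) : ℝ := eps * (v3 x * (1 - u1 x)) + Real.pi * u1 x

noncomputable def daL (y : C5) : C5 →L[ℝ] ℝ := eps • (u3 y • (-dv1L y) + (1 - v1 y) • du3L y)
noncomputable def dbL (y : C5) : C5 →L[ℝ] ℝ :=
  eps • (v3 y • (-du1L y) + (1 - u1 y) • dv3L y) + Real.pi • du1L y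

lemma hasFDerivAt_aH (y : C5) : HasFDerivAt aH (daL y) y := by
  have h : HasFDerivAt (fun x => 1 - v1 x) (-dv1L y) y := (hasFDerivAt_v1 y).const_sub 1
  exact ((hasFDerivAt_u3 y).mul h).const_mul eps

lemma hasFDerivAt_bH (y : C5) : HasFDerivAt bH (dbL y) y := by
  have h : HasFDerivAt (fun x => 1 - u1 x) (-du1L y) y := (hasFDerivAt_u1 y).const_sub 1
  exact (((hasFDerivAt_v3 y).mul h).const_mul eps).add ((hasFDerivAt_u1 y).const_mul Real.pi)

lemma herm_smul_add (S Q : ℝ) (A B w : C5) :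
    herm (S • A + Q • B) w = (S : ℂ) * herm A w + (Q : ℂ) * herm B w := by
  simp only [herm, Fin.sum_univ_five, Pi.add_apply, Pi.smul_apply, Complex.real_smul, map_add,
    map_mul, Complex.conj_ofReal]
  ring

lemma herm_smul (S : ℝ) (A w : C5) :
    herm (S • A) w = (S : ℂ) * herm A w := by
  simp only [herm, Fin.sum_univ_five, Pi.smul_apply, Complex.real_smul,
    map_mul, Complex.conj_ofReal]
  ring

lemma herm_L3p (y w : C5) : 2 * (herm (L3p y) w).im = du3L y w := by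
  simp [herm, Fin.sum_univ_five, L3p, du3L, dPL]; ring
lemma herm_L1m (y w : C5) : 2 * (herm (L1m y) w).im = dv1L y w := by
  simp [herm, Fin.sum_univ_five, L1m, dv1L, dPL]; ring
lemma herm_L1p (y w : C5) : 2 * (herm (L1p y) w).im = du1L y w := by
  simp [herm, Fin.sum_univ_five, L1p, du1L, dPL]; ring
lemma herm_L3m (y w : C5) : 2 * (herm (L3m y) w).im = dv3L y w := by
  simp [herm, Fin.sum_univ_five, L3m, dv3L, dPL]; ring

lemma herm_Xa (y w : C5) : 2 * (herm (Xa (sA y) (rA y) y) w).im = daL y w := by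
  have h1 := herm_L3p y w
  have h2 := herm_L1m y w
  simp only [Xa, herm_smul_add, Complex.add_im, Complex.im_ofReal_mul]
  simp only [daL, sA, rA, smul_apply, add_apply,
    neg_apply, smul_eq_mul]
  rw [← h1, ← h2]; ring

lemma herm_Xb (y w : C5) : 2 * (herm (Xb (wB y) (wB' y) y) w).im = dbL y w := by
  have h1 := herm_L1p y w
  have h2 := herm_L3m y w
  simp only [Xb, herm_smul_add, Complex.add_im, Complex.im_ofReal_mul]
  simp only [dbL, wB, wB', smul_apply, add_apply,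
    neg_apply, smul_eq_mul]
  rw [← h1, ← h2]; ring

/-! ### Time reparametrisations -/

noncomputable def β1 (t : ℝ) : ℝ := Real.smoothTransition (t * (5 / 2))
noncomputable def β2 (t : ℝ) : ℝ := Real.smoothTransition ((t - 3 / 5) * (5 / 2))

lemma contDiff_β1 : ContDiff ℝ (⊤ : ℕ∞) β1 :=
  Real.smoothTransition.contDiff.comp (contDiff_id.mul contDiff_const)
lemma contDiff_β2 : ContDiff ℝ (⊤ : ℕ∞) β2 :=
  Real.smoothTransition.contDiff.comp ((contDiff_id.sub contDiff_const).mul contDiff_const)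

lemma β1_zero : β1 0 = 0 := by simp [β1]
lemma β2_zero : β2 0 = 0 := by
  unfold β2; apply Real.smoothTransition.zero_of_nonpos; norm_num
lemma β1_one : β1 1 = 1 := by
  unfold β1; apply Real.smoothTransition.one_of_one_le; norm_num
lemma β2_one : β2 1 = 1 := by
  unfold β2; apply Real.smoothTransition.one_of_one_le; norm_num

lemma β1_of_le {t : ℝ} (h : 2 / 5 ≤ t) : β1 t = 1 := by
  unfold β1; apply Real.smoothTransition.one_of_one_le; linarith
lemma β2_of_le {t : ℝ} (h : t ≤ 3 / 5) : β2 t = 0 := by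
  unfold β2; apply Real.smoothTransition.zero_of_nonpos; nlinarith

lemma deriv_β1_of_lt {t : ℝ} (h : 2 / 5 < t) : deriv β1 t = 0 := by
  have : β1 =ᶠ[nhds t] fun _ => 1 := by
    filter_upwards [lt_mem_nhds h] with s hs using β1_of_le hs.le
  rw [this.deriv_eq]; simp
lemma deriv_β2_of_lt {t : ℝ} (h : t < 3 / 5) : deriv β2 t = 0 := by
  have : β2 =ᶠ[nhds t] fun _ => 0 := by
    filter_upwards [gt_mem_nhds h] with s hs using β2_of_le hs.le
  rw [this.deriv_eq]; simp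

lemma differentiable_β1 : Differentiable ℝ β1 := contDiff_β1.differentiable (by simp)
lemma differentiable_β2 : Differentiable ℝ β2 := contDiff_β2.differentiable (by simp)

lemma contDiff_deriv_β1 : ContDiff ℝ (⊤ : ℕ∞) (deriv β1) :=
  (contDiff_infty_iff_deriv.1 contDiff_β1).2
lemma contDiff_deriv_β2 : ContDiff ℝ (⊤ : ℕ∞) (deriv β2) :=
  (contDiff_infty_iff_deriv.1 contDiff_β2).2

/-- The lifted isotopy. -/
noncomputable def Ψ₀ (p : ℝ × C5) : C5 := τb (β2 p.1) (τa (β1 p.1) p.2)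
/-- The lifted Hamiltonian. -/
noncomputable def H₀ (p : ℝ × C5) : ℝ := deriv β1 p.1 * aH p.2 + deriv β2 p.1 * bH p.2

lemma fderiv_H₀ (t : ℝ) (y w : C5) :
    fderiv ℝ (fun x : C5 => H₀ (t, x)) y w = deriv β1 t * daL y w + deriv β2 t * dbL y w := by
  have h := ((hasFDerivAt_aH y).const_mul (deriv β1 t)).add ((hasFDerivAt_bH y).const_mul (deriv β2 t))
  have h2 : (fun x : C5 => H₀ (t, x)) = (fun y => deriv β1 t * aH y) + fun y => deriv β2 t * bH y := by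
    ext x; simp [H₀]
  rw [h2, h.fderiv]; simp

lemma hamilton₀ (t : ℝ) (z w : C5) :
    2 * (herm (deriv (fun s : ℝ => Ψ₀ (s, z)) t) w).im =
      fderiv ℝ (fun x : C5 => H₀ (t, x)) (Ψ₀ (t, z)) w := by
  rw [fderiv_H₀]
  rcases lt_or_ge t (3 / 5) with ht | ht
  · have hev : (fun s : ℝ => Ψ₀ (s, z)) =ᶠ[nhds t] fun s => τa (β1 s) z := by
      filter_upwards [gt_mem_nhds ht] with s hs
      simp [Ψ₀, β2_of_le hs.le]
    have hd : HasDerivAt (fun s : ℝ => τa (β1 s) z)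
        (deriv β1 t • Xa (sA z) (rA z) (τa (β1 t) z)) t :=
      (hasDerivAt_τa z (β1 t)).scomp t (differentiable_β1 t).hasDerivAt
    have hy : Ψ₀ (t, z) = τa (β1 t) z := by simp [Ψ₀, β2_of_le ht.le]
    rw [hev.deriv_eq, hd.deriv, hy, deriv_β2_of_lt ht, herm_smul, Complex.im_ofReal_mul]
    have := herm_Xa (τa (β1 t) z) w
    rw [sA_τa, rA_τa] at this
    rw [zero_mul, add_zero, ← this]; ring
  · have ht' : 2 / 5 < t := by linarith [ht]
    have hev : (fun s : ℝ => Ψ₀ (s, z)) =ᶠ[nhds t] fun s => τb (β2 s) (τa 1 z) := by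
      filter_upwards [lt_mem_nhds ht'] with s hs
      simp [Ψ₀, β1_of_le hs.le]
    have hd : HasDerivAt (fun s : ℝ => τb (β2 s) (τa 1 z))
        (deriv β2 t • Xb (wB (τa 1 z)) (wB' (τa 1 z)) (τb (β2 t) (τa 1 z))) t :=
      (hasDerivAt_τb (τa 1 z) (β2 t)).scomp t (differentiable_β2 t).hasDerivAt
    have hy : Ψ₀ (t, z) = τb (β2 t) (τa 1 z) := by simp [Ψ₀, β1_of_le ht'.le]
    rw [hev.deriv_eq, hd.deriv, hy, deriv_β1_of_lt ht', herm_smul, Complex.im_ofReal_mul]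
    have := herm_Xb (τb (β2 t) (τa 1 z)) w
    rw [wB_τb, wB'_τb] at this
    rw [zero_mul, zero_add, ← this]; ring


/-! ### Smoothness -/

section smooth
variable {E : Type*} [NormedAddCommGroup E] [NormedSpace ℝ E]

lemma contDiff_P (j k : Fin 5) : ContDiff ℝ (⊤ : ℕ∞) (fun z : C5 => P z j k) := by
  have h1 : ContDiff ℝ (⊤ : ℕ∞) (fun z : C5 => (z j).re) := (reL j).contDiff
  have h2 : ContDiff ℝ (⊤ : ℕ∞) (fun z : C5 => (z k).im) := (imL k).contDiff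
  have h3 : ContDiff ℝ (⊤ : ℕ∞) (fun z : C5 => (z j).im) := (imL j).contDiff
  have h4 : ContDiff ℝ (⊤ : ℕ∞) (fun z : C5 => (z k).re) := (reL k).contDiff
  exact contDiff_const.mul ((h1.mul h2).sub (h3.mul h4))

lemma contDiff_u1 : ContDiff ℝ (⊤ : ℕ∞) u1 := (contDiff_P 0 1).add (contDiff_P 2 3)
lemma contDiff_u3 : ContDiff ℝ (⊤ : ℕ∞) u3 := (contDiff_P 0 3).add (contDiff_P 1 2)
lemma contDiff_v1 : ContDiff ℝ (⊤ : ℕ∞) v1 := (contDiff_P 0 1).sub (contDiff_P 2 3)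
lemma contDiff_v3 : ContDiff ℝ (⊤ : ℕ∞) v3 := (contDiff_P 0 3).sub (contDiff_P 1 2)

lemma contDiff_aH : ContDiff ℝ (⊤ : ℕ∞) aH :=
  contDiff_const.mul (contDiff_u3.mul (contDiff_const.sub contDiff_v1))
lemma contDiff_bH : ContDiff ℝ (⊤ : ℕ∞) bH :=
  (contDiff_const.mul (contDiff_v3.mul (contDiff_const.sub contDiff_u1))).add
    (contDiff_const.mul contDiff_u1)

lemma contDiff_ofReal {f : E → ℝ} (hf : ContDiff ℝ (⊤ : ℕ∞) f) :
    ContDiff ℝ (⊤ : ℕ∞) (fun e => ((f e : ℝ) : ℂ)) :=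
  Complex.ofRealCLM.contDiff.comp hf

variable {c s : E → ℝ} {y : E → C5}

lemma contDiff_comp_apply (hy : ContDiff ℝ (⊤ : ℕ∞) y) (j : Fin 5) :
    ContDiff ℝ (⊤ : ℕ∞) (fun e => y e j) := contDiff_pi.1 hy j

lemma contDiff_R3p (hc : ContDiff ℝ (⊤ : ℕ∞) c) (hs : ContDiff ℝ (⊤ : ℕ∞) s)
    (hy : ContDiff ℝ (⊤ : ℕ∞) y) : ContDiff ℝ (⊤ : ℕ∞) (fun e => R3p (c e) (s e) (y e)) := by
  have hC := contDiff_ofReal hc
  have hS := contDiff_ofReal hs
  have h := contDiff_comp_apply hy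
  rw [contDiff_pi]
  refine fin5_cases ?_ ?_ ?_ ?_ ?_
  · exact (hC.mul (h 0)).sub (hS.mul (h 3))
  · exact (hC.mul (h 1)).sub (hS.mul (h 2))
  · exact (hC.mul (h 2)).add (hS.mul (h 1))
  · exact (hC.mul (h 3)).add (hS.mul (h 0))
  · exact h 4

lemma contDiff_R1m (hc : ContDiff ℝ (⊤ : ℕ∞) c) (hs : ContDiff ℝ (⊤ : ℕ∞) s)
    (hy : ContDiff ℝ (⊤ : ℕ∞) y) : ContDiff ℝ (⊤ : ℕ∞) (fun e => R1m (c e) (s e) (y e)) := by
  have hC := contDiff_ofReal hc
  have hS := contDiff_ofReal hs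
  have h := contDiff_comp_apply hy
  rw [contDiff_pi]
  refine fin5_cases ?_ ?_ ?_ ?_ ?_
  · exact (hC.mul (h 0)).sub (hS.mul (h 1))
  · exact (hC.mul (h 1)).add (hS.mul (h 0))
  · exact (hC.mul (h 2)).add (hS.mul (h 3))
  · exact (hC.mul (h 3)).sub (hS.mul (h 2))
  · exact h 4

lemma contDiff_R1p (hc : ContDiff ℝ (⊤ : ℕ∞) c) (hs : ContDiff ℝ (⊤ : ℕ∞) s)
    (hy : ContDiff ℝ (⊤ : ℕ∞) y) : ContDiff ℝ (⊤ : ℕ∞) (fun e => R1p (c e) (s e) (y e)) := by
  have hC := contDiff_ofReal hc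
  have hS := contDiff_ofReal hs
  have h := contDiff_comp_apply hy
  rw [contDiff_pi]
  refine fin5_cases ?_ ?_ ?_ ?_ ?_
  · exact (hC.mul (h 0)).sub (hS.mul (h 1))
  · exact (hC.mul (h 1)).add (hS.mul (h 0))
  · exact (hC.mul (h 2)).sub (hS.mul (h 3))
  · exact (hC.mul (h 3)).add (hS.mul (h 2))
  · exact h 4

lemma contDiff_R3m (hc : ContDiff ℝ (⊤ : ℕ∞) c) (hs : ContDiff ℝ (⊤ : ℕ∞) s)
    (hy : ContDiff ℝ (⊤ : ℕ∞) y) : ContDiff ℝ (⊤ : ℕ∞) (fun e => R3m (c e) (s e) (y e)) := by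
  have hC := contDiff_ofReal hc
  have hS := contDiff_ofReal hs
  have h := contDiff_comp_apply hy
  rw [contDiff_pi]
  refine fin5_cases ?_ ?_ ?_ ?_ ?_
  · exact (hC.mul (h 0)).sub (hS.mul (h 3))
  · exact (hC.mul (h 1)).add (hS.mul (h 2))
  · exact (hC.mul (h 2)).sub (hS.mul (h 1))
  · exact (hC.mul (h 3)).add (hS.mul (h 0))
  · exact h 4

lemma contDiff_τa {θ : E → ℝ} (hθ : ContDiff ℝ (⊤ : ℕ∞) θ) (hy : ContDiff ℝ (⊤ : ℕ∞) y) :
    ContDiff ℝ (⊤ : ℕ∞) (fun e => τa (θ e) (y e)) := by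
  have hS : ContDiff ℝ (⊤ : ℕ∞) (fun e => θ e * sA (y e)) :=
    hθ.mul (contDiff_const.mul (contDiff_const.sub (contDiff_v1.comp hy)))
  have hQ : ContDiff ℝ (⊤ : ℕ∞) (fun e => θ e * rA (y e)) :=
    hθ.mul ((contDiff_const.mul (contDiff_u3.comp hy)).neg)
  exact contDiff_R3p (Real.contDiff_cos.comp hS) (Real.contDiff_sin.comp hS)
    (contDiff_R1m (Real.contDiff_cos.comp hQ) (Real.contDiff_sin.comp hQ) hy)

lemma contDiff_τb {θ : E → ℝ} (hθ : ContDiff ℝ (⊤ : ℕ∞) θ) (hy : ContDiff ℝ (⊤ : ℕ∞) y) :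
    ContDiff ℝ (⊤ : ℕ∞) (fun e => τb (θ e) (y e)) := by
  have hS : ContDiff ℝ (⊤ : ℕ∞) (fun e => θ e * wB (y e)) :=
    hθ.mul (contDiff_const.sub (contDiff_const.mul (contDiff_v3.comp hy)))
  have hQ : ContDiff ℝ (⊤ : ℕ∞) (fun e => θ e * wB' (y e)) :=
    hθ.mul (contDiff_const.mul (contDiff_const.sub (contDiff_u1.comp hy)))
  exact contDiff_R1p (Real.contDiff_cos.comp hS) (Real.contDiff_sin.comp hS)
    (contDiff_R3m (Real.contDiff_cos.comp hQ) (Real.contDiff_sin.comp hQ) hy)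

end smooth

lemma contDiff_Ψ₀ : ContDiff ℝ (⊤ : ℕ∞) Ψ₀ :=
  contDiff_τb (contDiff_β2.comp contDiff_fst) (contDiff_τa (contDiff_β1.comp contDiff_fst) contDiff_snd)

lemma contDiff_H₀ : ContDiff ℝ (⊤ : ℕ∞) H₀ :=
  ((contDiff_deriv_β1.comp contDiff_fst).mul (contDiff_aH.comp contDiff_snd)).add
    ((contDiff_deriv_β2.comp contDiff_fst).mul (contDiff_bH.comp contDiff_snd))

/-! ### Cone preservation -/

section cone
variable {c s : ℝ} (hcs : c ^ 2 + s ^ 2 = 1) (z : C5)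
include hcs

lemma hcs_complex : (c : ℂ) ^ 2 + (s : ℂ) ^ 2 = 1 := by
  exact_mod_cast hcs

lemma herm_R3p : herm (R3p c s z) (R3p c s z) = herm z z := by
  have h := hcs_complex hcs
  simp only [herm, Fin.sum_univ_five, R3p, Matrix.cons_val, map_add, map_sub, map_mul,
    Complex.conj_ofReal]
  linear_combination ((starRingEnd ℂ) (z 0) * z 0 + (starRingEnd ℂ) (z 1) * z 1
    + (starRingEnd ℂ) (z 2) * z 2 + (starRingEnd ℂ) (z 3) * z 3) * h
lemma herm_R1m : herm (R1m c s z) (R1m c s z) = herm z z := by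
  have h := hcs_complex hcs
  simp only [herm, Fin.sum_univ_five, R1m, Matrix.cons_val, map_add, map_sub, map_mul,
    Complex.conj_ofReal]
  linear_combination ((starRingEnd ℂ) (z 0) * z 0 + (starRingEnd ℂ) (z 1) * z 1
    + (starRingEnd ℂ) (z 2) * z 2 + (starRingEnd ℂ) (z 3) * z 3) * h
lemma herm_R1p : herm (R1p c s z) (R1p c s z) = herm z z := by
  have h := hcs_complex hcs
  simp only [herm, Fin.sum_univ_five, R1p, Matrix.cons_val, map_add, map_sub, map_mul,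
    Complex.conj_ofReal]
  linear_combination ((starRingEnd ℂ) (z 0) * z 0 + (starRingEnd ℂ) (z 1) * z 1
    + (starRingEnd ℂ) (z 2) * z 2 + (starRingEnd ℂ) (z 3) * z 3) * h
lemma herm_R3m : herm (R3m c s z) (R3m c s z) = herm z z := by
  have h := hcs_complex hcs
  simp only [herm, Fin.sum_univ_five, R3m, Matrix.cons_val, map_add, map_sub, map_mul,
    Complex.conj_ofReal]
  linear_combination ((starRingEnd ℂ) (z 0) * z 0 + (starRingEnd ℂ) (z 1) * z 1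
    + (starRingEnd ℂ) (z 2) * z 2 + (starRingEnd ℂ) (z 3) * z 3) * h

lemma isoSum_R3p : ∑ j, R3p c s z j ^ 2 = ∑ j, z j ^ 2 := by
  have h := hcs_complex hcs
  simp only [Fin.sum_univ_five, R3p, Matrix.cons_val]
  linear_combination (z 0 ^ 2 + z 1 ^ 2 + z 2 ^ 2 + z 3 ^ 2) * h
lemma isoSum_R1m : ∑ j, R1m c s z j ^ 2 = ∑ j, z j ^ 2 := by
  have h := hcs_complex hcs
  simp only [Fin.sum_univ_five, R1m, Matrix.cons_val]
  linear_combination (z 0 ^ 2 + z 1 ^ 2 + z 2 ^ 2 + z 3 ^ 2) * h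
lemma isoSum_R1p : ∑ j, R1p c s z j ^ 2 = ∑ j, z j ^ 2 := by
  have h := hcs_complex hcs
  simp only [Fin.sum_univ_five, R1p, Matrix.cons_val]
  linear_combination (z 0 ^ 2 + z 1 ^ 2 + z 2 ^ 2 + z 3 ^ 2) * h
lemma isoSum_R3m : ∑ j, R3m c s z j ^ 2 = ∑ j, z j ^ 2 := by
  have h := hcs_complex hcs
  simp only [Fin.sum_univ_five, R3m, Matrix.cons_val]
  linear_combination (z 0 ^ 2 + z 1 ^ 2 + z 2 ^ 2 + z 3 ^ 2) * h

end cone

lemma herm_τa (θ : ℝ) (z : C5) : herm (τa θ z) (τa θ z) = herm z z := by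
  simp only [τa]
  rw [herm_R3p (Real.cos_sq_add_sin_sq _), herm_R1m (Real.cos_sq_add_sin_sq _)]
lemma herm_τb (θ : ℝ) (z : C5) : herm (τb θ z) (τb θ z) = herm z z := by
  simp only [τb]
  rw [herm_R1p (Real.cos_sq_add_sin_sq _), herm_R3m (Real.cos_sq_add_sin_sq _)]
lemma isoSum_τa (θ : ℝ) (z : C5) : ∑ j, τa θ z j ^ 2 = ∑ j, z j ^ 2 := by
  simp only [τa]
  rw [isoSum_R3p (Real.cos_sq_add_sin_sq _), isoSum_R1m (Real.cos_sq_add_sin_sq _)]
lemma isoSum_τb (θ : ℝ) (z : C5) : ∑ j, τb θ z j ^ 2 = ∑ j, z j ^ 2 := by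
  simp only [τb]
  rw [isoSum_R1p (Real.cos_sq_add_sin_sq _), isoSum_R3m (Real.cos_sq_add_sin_sq _)]

lemma Ψ₀_mem_cone (t : ℝ) {z : C5} (hz : z ∈ unitCone) : Ψ₀ (t, z) ∈ unitCone := by
  refine ⟨?_, ?_⟩
  · simp only [Ψ₀]; rw [herm_τb, herm_τa]; exact hz.1
  · simp only [Ψ₀]; rw [isoSum_τb, isoSum_τa]; exact hz.2

/-! ### Phase equivariance -/

section phase
variable {a : ℂ} (ha : ‖a‖ = 1) (z : C5)
include ha

lemma normSq_eq_one : a.re ^ 2 + a.im ^ 2 = 1 := by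
  have h := Complex.sq_norm a
  rw [ha, Complex.normSq_apply] at h
  nlinarith

lemma P_smul (j k : Fin 5) : P (a • z) j k = P z j k := by
  have h := normSq_eq_one ha
  simp only [P, Pi.smul_apply, smul_eq_mul, Complex.mul_re, Complex.mul_im]
  linear_combination (2 * ((z j).re * (z k).im - (z j).im * (z k).re)) * h

lemma u1_smul : u1 (a • z) = u1 z := by simp only [u1, P_smul ha]
lemma u2_smul : u2 (a • z) = u2 z := by simp only [u2, P_smul ha]
lemma u3_smul : u3 (a • z) = u3 z := by simp only [u3, P_smul ha]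
lemma v1_smul : v1 (a • z) = v1 z := by simp only [v1, P_smul ha]
lemma v2_smul : v2 (a • z) = v2 z := by simp only [v2, P_smul ha]
lemma v3_smul : v3 (a • z) = v3 z := by simp only [v3, P_smul ha]

omit ha in
lemma R3p_smul (c s : ℝ) : R3p c s (a • z) = a • R3p c s z := by
  ext j; fin_cases j <;> simp [R3p] <;> ring
omit ha in
lemma R1m_smul (c s : ℝ) : R1m c s (a • z) = a • R1m c s z := by
  ext j; fin_cases j <;> simp [R1m] <;> ring
omit ha in
lemma R1p_smul (c s : ℝ) : R1p c s (a • z) = a • R1p c s z := by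
  ext j; fin_cases j <;> simp [R1p] <;> ring
omit ha in
lemma R3m_smul (c s : ℝ) : R3m c s (a • z) = a • R3m c s z := by
  ext j; fin_cases j <;> simp [R3m] <;> ring

lemma τa_smul (θ : ℝ) : τa θ (a • z) = a • τa θ z := by
  simp only [τa, sA, rA, v1_smul ha, u3_smul ha, R1m_smul, R3p_smul]
lemma τb_smul (θ : ℝ) : τb θ (a • z) = a • τb θ z := by
  simp only [τb, wB, wB', v3_smul ha, u1_smul ha, R3m_smul, R1p_smul]

lemma Ψ₀_smul (t : ℝ) : Ψ₀ (t, a • z) = a • Ψ₀ (t, z) := by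
  simp only [Ψ₀, τa_smul ha, τb_smul ha]

lemma H₀_smul (t : ℝ) : H₀ (t, a • z) = H₀ (t, z) := by
  simp only [H₀, aH, bH, u3_smul ha, v1_smul ha, v3_smul ha, u1_smul ha]

end phase

/-- The lifted Hamiltonian isotopy. -/
noncomputable def theLift : HamiltonianConeLift where
  Ψ := Ψ₀
  H := H₀
  smooth_Ψ := contDiff_Ψ₀
  smooth_H := contDiff_H₀
  mapsTo_cone := fun t z hz => Ψ₀_mem_cone t hz
  compatible := fun t z _ c hc => ⟨c, Ψ₀_smul hc z t⟩
  start := fun z _ => ⟨1, by simp [Ψ₀, β1_zero, β2_zero]⟩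
  invariant := fun t z _ c hc => H₀_smul hc z t
  hamilton := fun t _ z _ w _ => hamilton₀ t z w

end Crest.Agent.H7QuadricAlg
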