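import Mathlib
import Crest.Agent.H7QuadricAlg

set_option autoImplicit false

namespace Crest.Agent.H7QuadricReal

open Crest.Agent.H7QuadricAlg

noncomputable def T (r : ℝ) : ℝ := Real.tan (eps * r)

lemma eps_pos : (0 : ℝ) < eps := by norm_num [eps]

lemma T_neg (r : ℝ) : T (-r) = -T r := by simp [T, mul_neg, Real.tan_neg]
lemma T_zero : T 0 = 0 := by simp [T]

lemma abs_eps_mul {r : ℝ} (hr : |r| ≤ 2) : |eps * r| ≤ 1 / 50 := by
  rw [abs_mul, abs_of_pos eps_pos]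
  have : eps = 1 / 100 := rfl
  rw [this]; linarith

lemma cos_ge {θ : ℝ} (h : |θ| ≤ 1 / 50) : 4999 / 5000 ≤ Real.cos θ := by
  have h1 := Real.one_sub_sq_div_two_le_cos (x := θ)
  have h2 : θ ^ 2 ≤ (1 / 50) ^ 2 := by
    rw [← sq_abs θ]; exact pow_le_pow_left₀ (abs_nonneg _) h 2
  nlinarith

lemma T_ge {r : ℝ} (h0 : 0 ≤ r) (h2 : r ≤ 2) : eps * r ≤ T r := by
  have h3 : eps * r ≤ 1 / 50 := by
    have : eps = 1 / 100 := rfl
    rw [this]; linarith
  apply Real.le_tan (mul_nonneg eps_pos.le h0)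
  have := Real.pi_gt_three
  linarith

lemma T_le {r : ℝ} (h0 : 0 ≤ r) (h2 : r ≤ 2) : T r ≤ (1001 / 1000) * (eps * r) := by
  have hθ0 : 0 ≤ eps * r := mul_nonneg eps_pos.le h0
  have hab : |eps * r| ≤ 1 / 50 := abs_eps_mul (by rw [abs_of_nonneg h0]; exact h2)
  have hc := cos_ge hab
  have hs := Real.sin_le hθ0
  unfold T
  rw [Real.tan_eq_sin_div_cos, div_le_iff₀ (by linarith)]
  nlinarith

lemma T_pos {r : ℝ} (h0 : 0 < r) (h2 : r ≤ 2) : 0 < T r :=
  lt_of_lt_of_le (mul_pos eps_pos h0) (T_ge h0.le h2)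

lemma T_form {r : ℝ} (hr : |r| ≤ 2) :
    ∃ τ : ℝ, 1 ≤ τ ∧ τ ≤ 1001 / 1000 ∧ T r = eps * r * τ := by
  rcases lt_trichotomy r 0 with h | h | h
  · have h0 : 0 < -r := by linarith
    have h2 : -r ≤ 2 := by have := (abs_le.1 hr).1; linarith
    have h3 := T_ge h0.le h2
    have h4 := T_le h0.le h2
    have hp : 0 < eps * (-r) := mul_pos eps_pos h0
    refine ⟨T (-r) / (eps * (-r)), ?_, ?_, ?_⟩
    · rw [le_div_iff₀ hp]; linarith
    · rw [div_le_iff₀ hp]; linarith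
    · have he := eps_pos.ne'
      have hr0 : r ≠ 0 := h.ne
      rw [T_neg]; field_simp
  · subst h; exact ⟨1, le_refl _, by norm_num, by simp [T_zero]⟩
  · have h2 : r ≤ 2 := (abs_le.1 hr).2
    have h3 := T_ge h.le h2
    have h4 := T_le h.le h2
    have hp : 0 < eps * r := mul_pos eps_pos h
    refine ⟨T r / (eps * r), ?_, ?_, ?_⟩
    · rw [le_div_iff₀ hp]; linarith
    · rw [div_le_iff₀ hp]; linarith
    · have he := eps_pos.ne'
      have hr0 : r ≠ 0 := h.ne'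
      field_simp

lemma T_abs_le {r : ℝ} (hr : |r| ≤ 2) : |T r| ≤ 1 / 40 := by
  obtain ⟨τ, h1, h2, h3⟩ := T_form hr
  rw [h3, abs_mul, abs_of_pos (by linarith : 0 < τ)]
  have h4 := abs_eps_mul hr
  have h5 := abs_nonneg (eps * r)
  nlinarith

lemma T_lip {p q : ℝ} (hp : |p| ≤ 2) (hq : |q| ≤ 2) :
    |T p - T q| ≤ (1001 / 1000) * (eps * |p - q|) := by
  have hP := cos_ge (abs_eps_mul hp)
  have hQ := cos_ge (abs_eps_mul hq)
  have hcP : 0 < Real.cos (eps * p) := by linarith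
  have hcQ : 0 < Real.cos (eps * q) := by linarith
  have key : T p - T q = Real.sin (eps * p - eps * q) / (Real.cos (eps * p) * Real.cos (eps * q)) := by
    unfold T
    rw [Real.tan_eq_sin_div_cos, Real.tan_eq_sin_div_cos, Real.sin_sub]
    field_simp
  have hs : |Real.sin (eps * p - eps * q)| ≤ eps * |p - q| := by
    have := Real.abs_sin_le_abs (x := eps * p - eps * q)
    rw [← mul_sub, abs_mul, abs_of_pos eps_pos] at this
    rwa [← mul_sub]
  have hprod : (4999 / 5000 : ℝ) * (4999 / 5000) ≤ Real.cos (eps * p) * Real.cos (eps * q) :=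
    mul_le_mul hP hQ (by norm_num) hcP.le
  rw [key, abs_div, abs_of_pos (mul_pos hcP hcQ), div_le_iff₀ (mul_pos hcP hcQ)]
  have hnn : 0 ≤ eps * |p - q| := mul_nonneg eps_pos.le (abs_nonneg _)
  nlinarith

/-- The reduced fixed point system. -/
structure Sys (x ξ y a η b : ℝ) : Prop where
  hu : x ^ 2 + ξ ^ 2 + y ^ 2 = 1
  hv : a ^ 2 + η ^ 2 + b ^ 2 = 1
  e1 : ξ = -x * T (1 - a)
  e2 : ξ = y * T b
  e3 : η = -a * T (1 - x)
  e4 : η = b * T y

lemma Sys.symm {x ξ y a η b : ℝ} (h : Sys x ξ y a η b) : Sys a η b x ξ y :=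
  ⟨h.hv, h.hu, h.e3, h.e4, h.e1, h.e2⟩

lemma Sys.neg {x ξ y a η b : ℝ} (h : Sys x ξ y a η b) : Sys x ξ (-y) a η (-b) := by
  refine ⟨by nlinarith [h.hu], by nlinarith [h.hv], h.e1, ?_, h.e3, ?_⟩
  · rw [T_neg, h.e2]; ring
  · rw [T_neg, h.e4]; ring

section bounds
variable {x ξ y a η b : ℝ} (h : Sys x ξ y a η b)
include h

lemma Sys.abs_x : |x| ≤ 1 := (sq_le_one_iff_abs_le_one _).1 (by nlinarith [h.hu, sq_nonneg ξ, sq_nonneg y])
lemma Sys.abs_y : |y| ≤ 1 := (sq_le_one_iff_abs_le_one _).1 (by nlinarith [h.hu, sq_nonneg ξ, sq_nonneg x])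
lemma Sys.abs_a : |a| ≤ 1 := (sq_le_one_iff_abs_le_one _).1 (by nlinarith [h.hv, sq_nonneg η, sq_nonneg b])
lemma Sys.abs_b : |b| ≤ 1 := (sq_le_one_iff_abs_le_one _).1 (by nlinarith [h.hv, sq_nonneg η, sq_nonneg a])

end bounds


/-! ### Exclusion of opposite signs -/

lemma no_opposite {x ξ y a η b : ℝ} (h : Sys x ξ y a η b) (hx1 : x < 1) (ha1 : a < 1)
    (hyb : y * b < 0) : False := by
  have hax := h.abs_x
  have haa := h.abs_a
  have hay := h.abs_y
  have hab := h.abs_b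
  have hA0 : 0 < 1 - a := by linarith
  have hX0 : 0 < 1 - x := by linarith
  have hA2 : |1 - a| ≤ 2 := by
    rw [abs_of_pos hA0]; have := (abs_le.1 haa).1; linarith
  have hX2 : |1 - x| ≤ 2 := by
    rw [abs_of_pos hX0]; have := (abs_le.1 hax).1; linarith
  obtain ⟨τ₁, t11, t12, ht1⟩ := T_form hA2
  obtain ⟨τ₂, t21, t22, ht2⟩ := T_form (r := b) (by linarith)
  obtain ⟨τ₃, t31, t32, ht3⟩ := T_form hX2
  obtain ⟨τ₄, t41, t42, ht4⟩ := T_form (r := y) (by linarith)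
  set A := 1 - a with hA
  set X := 1 - x with hX
  set Z := -(y * b) with hZ
  have hZ0 : 0 < Z := by rw [hZ]; linarith
  have he := eps_pos
  have h1 : x * A * τ₁ = Z * τ₂ := by
    have h2 := h.e1
    rw [h.e2, ht1, ht2] at h2
    have h3 : eps * (x * A * τ₁ - Z * τ₂) = 0 := by rw [hZ]; linear_combination h2
    have := (mul_eq_zero.1 h3).resolve_left he.ne'
    linarith
  have h2 : a * X * τ₃ = Z * τ₄ := by
    have h2 := h.e3
    rw [h.e4, ht3, ht4] at h2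
    have h3 : eps * (a * X * τ₃ - Z * τ₄) = 0 := by rw [hZ]; linear_combination h2
    have := (mul_eq_zero.1 h3).resolve_left he.ne'
    linarith
  have hx0 : 0 < x := by
    have : 0 < x * (A * τ₁) := by
      have : x * (A * τ₁) = Z * τ₂ := by rw [← h1]; ring
      rw [this]; exact mul_pos hZ0 (by linarith)
    exact (mul_pos_iff_of_pos_right (mul_pos hA0 (by linarith))).1 this
  have ha0 : 0 < a := by
    have : 0 < a * (X * τ₃) := by
      have : a * (X * τ₃) = Z * τ₄ := by rw [← h2]; ring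
      rw [this]; exact mul_pos hZ0 (by linarith)
    exact (mul_pos_iff_of_pos_right (mul_pos hX0 (by linarith))).1 this
  have hxA : 0 < x * A := mul_pos hx0 hA0
  have haX : 0 < a * X := mul_pos ha0 hX0
  have z1 : Z ≤ (1001 / 1000) * (x * A) := by
    linarith [mul_le_mul_of_nonneg_left t12 hxA.le, mul_le_mul_of_nonneg_left t21 hZ0.le]
  have z2 : Z ≤ (1001 / 1000) * (a * X) := by
    linarith [mul_le_mul_of_nonneg_left t32 haX.le, mul_le_mul_of_nonneg_left t41 hZ0.le]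
  have z3 : x * A ≤ (1001 / 1000) * Z := by
    linarith [mul_le_mul_of_nonneg_left t11 hxA.le, mul_le_mul_of_nonneg_left t22 hZ0.le]
  have z4 : a * X ≤ (1001 / 1000) * Z := by
    linarith [mul_le_mul_of_nonneg_left t31 haX.le, mul_le_mul_of_nonneg_left t42 hZ0.le]
  have hX1 : X ≤ 1 := by rw [hX]; linarith
  have hA1 : A ≤ 1 := by rw [hA]; linarith
  have ha1' : a ≤ 1 := ha1.le
  have hx1' : x ≤ 1 := hx1.le
  have haX' : a * X ≤ X := by
    have := mul_le_mul_of_nonneg_right ha1' hX0.le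
    linarith
  have hxA' : x * A ≤ A := by
    have := mul_le_mul_of_nonneg_right hx1' hA0.le
    linarith
  have e0 : eps = 1 / 100 := rfl
  -- bounds for ξ and η
  have hxi : ξ ^ 2 ≤ X ^ 2 / 9000 := by
    have hE : ξ = -(eps * τ₁ * (x * A)) := by rw [h.e1, ht1]; ring
    have hE0 : 0 ≤ eps * τ₁ * (x * A) := by positivity
    have hE1 : eps * τ₁ * (x * A) ≤ X / 95 := by
      have h5 : x * A ≤ (1001 / 1000) ^ 2 * X := by linarith
      have h6 : τ₁ * (x * A) ≤ (1001 / 1000) * ((1001 / 1000) ^ 2 * X) :=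
        mul_le_mul t12 h5 hxA.le (by norm_num)
      calc eps * τ₁ * (x * A) = (1 / 100) * (τ₁ * (x * A)) := by rw [e0]; ring
        _ ≤ (1 / 100) * ((1001 / 1000) * ((1001 / 1000) ^ 2 * X)) := by linarith
        _ ≤ X / 95 := by linarith
    rw [hE, neg_sq]
    have := pow_le_pow_left₀ hE0 hE1 2
    have h7 : (X / 95) ^ 2 ≤ X ^ 2 / 9000 := by
      have := sq_nonneg X
      ring_nf; linarith
    linarith
  have heta : η ^ 2 ≤ A ^ 2 / 9000 := by
    have hE : η = -(eps * τ₃ * (a * X)) := by rw [h.e3, ht3]; ring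
    have hE0 : 0 ≤ eps * τ₃ * (a * X) := by positivity
    have hE1 : eps * τ₃ * (a * X) ≤ A / 95 := by
      have h5 : a * X ≤ (1001 / 1000) ^ 2 * A := by linarith
      have h6 : τ₃ * (a * X) ≤ (1001 / 1000) * ((1001 / 1000) ^ 2 * A) :=
        mul_le_mul t32 h5 haX.le (by norm_num)
      calc eps * τ₃ * (a * X) = (1 / 100) * (τ₃ * (a * X)) := by rw [e0]; ring
        _ ≤ (1 / 100) * ((1001 / 1000) * ((1001 / 1000) ^ 2 * A)) := by linarith
        _ ≤ A / 95 := by linarith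
    rw [hE, neg_sq]
    have := pow_le_pow_left₀ hE0 hE1 2
    have h7 : (A / 95) ^ 2 ≤ A ^ 2 / 9000 := by
      have := sq_nonneg A
      ring_nf; linarith
    linarith
  have hy2 : X * (1 + x - 1 / 9000) ≤ y ^ 2 := by
    have h5 : y ^ 2 = X * (1 + x) - ξ ^ 2 := by rw [hX]; linarith [h.hu]
    have h6 : X ^ 2 ≤ X := by
      have := mul_le_mul_of_nonneg_left hX1 hX0.le
      rw [sq]; linarith
    rw [h5]
    have h7 : X * (1 + x - 1 / 9000) = X * (1 + x) - X / 9000 := by ring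
    rw [h7]; linarith
  have hb2 : A * (1 + a - 1 / 9000) ≤ b ^ 2 := by
    have h5 : b ^ 2 = A * (1 + a) - η ^ 2 := by rw [hA]; linarith [h.hv]
    have h6 : A ^ 2 ≤ A := by
      have := mul_le_mul_of_nonneg_left hA1 hA0.le
      rw [sq]; linarith
    rw [h5]
    have h7 : A * (1 + a - 1 / 9000) = A * (1 + a) - A / 9000 := by ring
    rw [h7]; linarith
  have hZ2 : Z ^ 2 = y ^ 2 * b ^ 2 := by rw [hZ]; ring
  have hlow : X * (1 + x - 1 / 9000) * (A * (1 + a - 1 / 9000)) ≤ Z ^ 2 := by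
    rw [hZ2]
    exact mul_le_mul hy2 hb2 (mul_nonneg hA0.le (by linarith)) (sq_nonneg y)
  have hup : Z ^ 2 ≤ (1001 / 1000) * (x * A) * ((1001 / 1000) * (a * X)) := by
    rw [sq]
    exact mul_le_mul z1 z2 hZ0.le (by positivity)
  have hXA : 0 < X * A := mul_pos hX0 hA0
  have hfin : X * A * ((1 + x - 1 / 9000) * (1 + a - 1 / 9000) - (1001 / 1000) ^ 2 * (x * a)) ≤ 0 := by
    have e1 : X * A * ((1 + x - 1 / 9000) * (1 + a - 1 / 9000) - (1001 / 1000) ^ 2 * (x * a))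
      = X * (1 + x - 1 / 9000) * (A * (1 + a - 1 / 9000))
        - (1001 / 1000) * (x * A) * ((1001 / 1000) * (a * X)) := by ring
    rw [e1]; linarith
  have hbr : 0 < (1 + x - 1 / 9000) * (1 + a - 1 / 9000) - (1001 / 1000) ^ 2 * (x * a) := by
    have hxa : x * a ≤ 1 := by
      have := mul_le_mul hx1' ha1' ha0.le (by norm_num)
      linarith
    have hxa0 : 0 < x * a := mul_pos hx0 ha0
    have e1 : (1 + x - 1 / 9000) * (1 + a - 1 / 9000) - (1001 / 1000) ^ 2 * (x * a)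
      = (1 - 1 / 9000) ^ 2 + (1 - 1 / 9000) * (x + a) + (1 - (1001 / 1000) ^ 2) * (x * a) := by ring
    rw [e1]
    have : (1 - (1001 / 1000 : ℝ) ^ 2) * (x * a) ≥ (1 - (1001 / 1000 : ℝ) ^ 2) * 1 :=
      mul_le_mul_of_nonpos_left hxa (by norm_num)
    have h9 : 0 < (1 - 1 / 9000 : ℝ) * (x + a) := by
      apply mul_pos (by norm_num); linarith
    norm_num at this ⊢
    linarith
  linarith [mul_pos hXA hbr]


/-! ### Uniqueness in the same-sign case -/

lemma D_bound {lam mu P1 P2 P3 Q1 Q2 Q3 : ℝ} (hl : 0 < lam) (hm : 0 < mu)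
    (hP : lam ^ 2 * (P1 ^ 2 + P2 ^ 2 + P3 ^ 2) = 1) (hQ : mu ^ 2 * (Q1 ^ 2 + Q2 ^ 2 + Q3 ^ 2) = 1) :
    (lam * P1 - mu * Q1) ^ 2 + (lam * P2 - mu * Q2) ^ 2 + (lam * P3 - mu * Q3) ^ 2 ≤
      lam * mu * ((P1 - Q1) ^ 2 + (P2 - Q2) ^ 2 + (P3 - Q3) ^ 2) := by
  set p2 := P1 ^ 2 + P2 ^ 2 + P3 ^ 2 with hp2
  set q2 := Q1 ^ 2 + Q2 ^ 2 + Q3 ^ 2 with hq2
  have hkey : 2 ≤ lam * mu * (p2 + q2) := by
    have hlm : 0 < lam * mu := mul_pos hl hm
    have h1 : lam * mu * (lam * mu * (p2 + q2)) = mu ^ 2 * (lam ^ 2 * p2) + lam ^ 2 * (mu ^ 2 * q2) := by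
      ring
    rw [hP, hQ] at h1
    by_contra hc
    push Not at hc
    have h2 : lam * mu * (lam * mu * (p2 + q2)) < lam * mu * 2 := mul_lt_mul_of_pos_left hc hlm
    nlinarith [sq_nonneg (lam - mu)]
  have e1 : (lam * P1 - mu * Q1) ^ 2 + (lam * P2 - mu * Q2) ^ 2 + (lam * P3 - mu * Q3) ^ 2
      = lam ^ 2 * p2 + mu ^ 2 * q2 - 2 * (lam * mu) * (P1 * Q1 + P2 * Q2 + P3 * Q3) := by
    rw [hp2, hq2]; ring
  have e2 : lam * mu * ((P1 - Q1) ^ 2 + (P2 - Q2) ^ 2 + (P3 - Q3) ^ 2)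
      = lam * mu * (p2 + q2) - 2 * (lam * mu) * (P1 * Q1 + P2 * Q2 + P3 * Q3) := by
    rw [hp2, hq2]; ring
  rw [e1, e2, hP, hQ]
  linarith

lemma T_sq_lip {p q : ℝ} (hp : |p| ≤ 2) (hq : |q| ≤ 2) :
    (T p - T q) ^ 2 ≤ (1001 / 1000) ^ 2 * eps ^ 2 * (p - q) ^ 2 := by
  have h := T_lip hp hq
  have h2 := pow_le_pow_left₀ (abs_nonneg _) h 2
  rw [sq_abs] at h2
  calc (T p - T q) ^ 2 ≤ ((1001 / 1000) * (eps * |p - q|)) ^ 2 := h2
    _ = (1001 / 1000) ^ 2 * eps ^ 2 * (p - q) ^ 2 := by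
      rw [mul_pow, mul_pow, sq_abs]; ring

lemma W_lip {t1 t2 t1' t2' : ℝ} (h1 : |t1| ≤ 1 / 40) (h2 : |t2'| ≤ 1 / 40) :
    (t1 * t2 - t1' * t2') ^ 2 ≤ (1 / 800) * ((t1 - t1') ^ 2 + (t2 - t2') ^ 2) := by
  have e : t1 * t2 - t1' * t2' = t1 * (t2 - t2') + t2' * (t1 - t1') := by ring
  have h3 : t1 ^ 2 ≤ 1 / 1600 := by
    have := pow_le_pow_left₀ (abs_nonneg _) h1 2
    rw [sq_abs] at this; norm_num at this ⊢; linarith
  have h4 : t2' ^ 2 ≤ 1 / 1600 := by
    have := pow_le_pow_left₀ (abs_nonneg _) h2 2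
    rw [sq_abs] at this; norm_num at this ⊢; linarith
  rw [e]
  have h5 : (t1 * (t2 - t2') + t2' * (t1 - t1')) ^ 2 ≤
      2 * (t1 ^ 2 * (t2 - t2') ^ 2 + t2' ^ 2 * (t1 - t1') ^ 2) := by
    nlinarith [sq_nonneg (t1 * (t2 - t2') - t2' * (t1 - t1'))]
  have h6 : t1 ^ 2 * (t2 - t2') ^ 2 ≤ 1 / 1600 * (t2 - t2') ^ 2 :=
    mul_le_mul_of_nonneg_right h3 (sq_nonneg _)
  have h7 : t2' ^ 2 * (t1 - t1') ^ 2 ≤ 1 / 1600 * (t1 - t1') ^ 2 :=
    mul_le_mul_of_nonneg_right h4 (sq_nonneg _)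
  linarith

/-- Lower bound for the scale: the normal vector is not too small. -/
lemma lam_bound {a η b ty lam : ℝ} (hv : a ^ 2 + η ^ 2 + b ^ 2 = 1) (ha : a < 0)
    (he : η = b * ty) (hty : |ty| ≤ 1 / 40) (hb : |b| ≤ 1) (ha1 : |a| ≤ 1)
    (hlam : lam ^ 2 * (T b ^ 2 + (T b * T (1 - a)) ^ 2 + T (1 - a) ^ 2) = 1) :
    lam ^ 2 * ((19 / 10) * eps ^ 2) ≤ 1 := by
  have hA0 : 0 < 1 - a := by linarith
  have hA2 : 1 - a ≤ 2 := by have := (abs_le.1 ha1).1; linarith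
  have h1 : (eps * (1 - a)) ^ 2 ≤ T (1 - a) ^ 2 := by
    apply pow_le_pow_left₀ (mul_nonneg eps_pos.le hA0.le) (T_ge hA0.le hA2)
  have h2 : (eps * b) ^ 2 ≤ T b ^ 2 := by
    rcases le_or_gt 0 b with hb0 | hb0
    · apply pow_le_pow_left₀ (mul_nonneg eps_pos.le hb0) (T_ge hb0 ((abs_le.1 hb).2.trans (by norm_num)))
    · have hb0' : 0 ≤ -b := by linarith
      have h3 := T_ge hb0' (by have := (abs_le.1 hb).1; linarith)
      have h4 := pow_le_pow_left₀ (mul_nonneg eps_pos.le hb0') h3 2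
      rw [T_neg, neg_sq, mul_neg, neg_sq] at h4
      exact h4
  have h3 : η ^ 2 ≤ 1 / 1600 := by
    rw [he, mul_pow]
    have hb2 : b ^ 2 ≤ 1 := (sq_le_one_iff_abs_le_one b).2 hb
    have hty2 : ty ^ 2 ≤ 1 / 1600 := by
      have := pow_le_pow_left₀ (abs_nonneg _) hty 2
      rw [sq_abs] at this; norm_num at this ⊢; linarith
    calc b ^ 2 * ty ^ 2 ≤ 1 * (1 / 1600) :=
          mul_le_mul hb2 hty2 (sq_nonneg _) (by norm_num)
      _ = 1 / 1600 := by norm_num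
  have h4 : (19 / 10) * eps ^ 2 ≤ T b ^ 2 + (T b * T (1 - a)) ^ 2 + T (1 - a) ^ 2 := by
    have h5 : (eps * (1 - a)) ^ 2 + (eps * b) ^ 2 = eps ^ 2 * (2 - 2 * a - η ^ 2) := by
      have : b ^ 2 = 1 - a ^ 2 - η ^ 2 := by linarith
      ring_nf; rw [this]; ring
    have h6 : (19 / 10 : ℝ) ≤ 2 - 2 * a - η ^ 2 := by linarith
    have h7 : eps ^ 2 * (19 / 10) ≤ eps ^ 2 * (2 - 2 * a - η ^ 2) :=
      mul_le_mul_of_nonneg_left h6 (sq_nonneg _)
    have := sq_nonneg (T b * T (1 - a))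
    linarith
  calc lam ^ 2 * ((19 / 10) * eps ^ 2)
      ≤ lam ^ 2 * (T b ^ 2 + (T b * T (1 - a)) ^ 2 + T (1 - a) ^ 2) :=
        mul_le_mul_of_nonneg_left h4 (sq_nonneg _)
    _ = 1 := hlam

lemma half_bound {x ξ y a η b n₁ n₂ n₃ : ℝ} (h : Sys x ξ y a η b) (ha : a < 0) (hy : 0 < y)
    (hn : Sys n₁ n₂ n₃ n₁ n₂ n₃) (hn1 : n₁ < 0) (hn3 : 0 < n₃) :
    (x - n₁) ^ 2 + (ξ - n₂) ^ 2 + (y - n₃) ^ 2 ≤
      (6 / 10) * ((a - n₁) ^ 2 + (η - n₂) ^ 2 + (b - n₃) ^ 2) := by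
  have haa := h.abs_a
  have hab := h.abs_b
  have hay := h.abs_y
  have hna := hn.abs_x
  have hnb := hn.abs_y
  have hA0 : 0 < 1 - a := by linarith
  have hA2 : 1 - a ≤ 2 := by have := (abs_le.1 haa).1; linarith
  have hN0 : 0 < 1 - n₁ := by linarith
  have hN2 : 1 - n₁ ≤ 2 := by have := (abs_le.1 hna).1; linarith
  have htA : 0 < T (1 - a) := T_pos hA0 hA2
  have htN : 0 < T (1 - n₁) := T_pos hN0 hN2
  set lam := y / T (1 - a) with hlam
  set nu := n₃ / T (1 - n₁) with hnu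
  have hl0 : 0 < lam := div_pos hy htA
  have hn0 : 0 < nu := div_pos hn3 htN
  -- u = lam W(a,b)
  have u3 : y = lam * T (1 - a) := by rw [hlam]; field_simp
  have u2 : ξ = lam * (T b * T (1 - a)) := by
    rw [h.e2]; nth_rewrite 1 [u3]; ring
  have u1 : x = lam * (-T b) := by
    have h1 : -x * T (1 - a) = y * T b := by rw [← h.e1, ← h.e2]
    have h2 : (x - lam * (-T b)) * T (1 - a) = 0 := by
      rw [u3] at h1; linear_combination -h1
    have := (mul_eq_zero.1 h2).resolve_right htA.ne'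
    linarith
  have n3' : n₃ = nu * T (1 - n₁) := by rw [hnu]; field_simp
  have n2' : n₂ = nu * (T n₃ * T (1 - n₁)) := by
    rw [hn.e2]; nth_rewrite 1 [n3']; ring
  have n1' : n₁ = nu * (-T n₃) := by
    have h1 : -n₁ * T (1 - n₁) = n₃ * T n₃ := by rw [← hn.e1, ← hn.e2]
    have h2 : (n₁ - nu * (-T n₃)) * T (1 - n₁) = 0 := by
      have h3 : -n₁ * T (1 - n₁) = (nu * T (1 - n₁)) * T n₃ := by rw [h1, ← n3']
      linear_combination -h3
    have := (mul_eq_zero.1 h2).resolve_right htN.ne'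
    linarith
  have hPu : lam ^ 2 * ((-T b) ^ 2 + (T b * T (1 - a)) ^ 2 + T (1 - a) ^ 2) = 1 := by
    have := h.hu
    rw [u1, u2, u3] at this
    linear_combination this
  have hPn : nu ^ 2 * ((-T n₃) ^ 2 + (T n₃ * T (1 - n₁)) ^ 2 + T (1 - n₁) ^ 2) = 1 := by
    have := hn.hu
    have e : (nu * (-T n₃)) ^ 2 + (nu * (T n₃ * T (1 - n₁))) ^ 2 + (nu * T (1 - n₁)) ^ 2 = 1 := by
      rw [← n1', ← n2', ← n3']; exact this
    linear_combination e
  have hbd := D_bound hl0 hn0 hPu hPn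
  rw [← u1, ← u2, ← u3, ← n1', ← n2', ← n3'] at hbd
  have hb1 : lam ^ 2 * ((19 / 10) * eps ^ 2) ≤ 1 := by
    apply lam_bound h.hv ha h.e4 (T_abs_le (by linarith)) hab haa
    linear_combination hPu
  have hb2 : nu ^ 2 * ((19 / 10) * eps ^ 2) ≤ 1 := by
    apply lam_bound hn.hu hn1 hn.e2 (T_abs_le (by linarith)) hnb hna
    linear_combination hPn
  have hlnu : lam * nu * ((19 / 10) * eps ^ 2) ≤ 1 := by
    have he : 0 ≤ (19 / 10) * eps ^ 2 := by positivity
    nlinarith [mul_nonneg (sq_nonneg (lam - nu)) he]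
  -- Lipschitz estimate
  have hA2' : |1 - a| ≤ 2 := by rw [abs_of_pos hA0]; exact hA2
  have hN2' : |1 - n₁| ≤ 2 := by rw [abs_of_pos hN0]; exact hN2
  have hb2' : |b| ≤ 2 := by linarith
  have hn3' : |n₃| ≤ 2 := by linarith
  have l1 := T_sq_lip hb2' hn3'
  have l2 := T_sq_lip hA2' hN2'
  have l3 := W_lip (t1 := T b) (t2 := T (1 - a)) (t1' := T n₃) (t2' := T (1 - n₁))
    (T_abs_le hb2') (T_abs_le hN2')
  have e1 : (1 - a - (1 - n₁)) ^ 2 = (a - n₁) ^ 2 := by ring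
  rw [e1] at l2
  have hWW : (-T b - -T n₃) ^ 2 + (T b * T (1 - a) - T n₃ * T (1 - n₁)) ^ 2 + (T (1 - a) - T (1 - n₁)) ^ 2
      ≤ (101 / 100) * eps ^ 2 * ((a - n₁) ^ 2 + (b - n₃) ^ 2) := by
    have e2 : (-T b - -T n₃) ^ 2 = (T b - T n₃) ^ 2 := by ring
    rw [e2]
    have hsum : (T b - T n₃) ^ 2 + (T (1 - a) - T (1 - n₁)) ^ 2
        ≤ (1001 / 1000) ^ 2 * eps ^ 2 * ((a - n₁) ^ 2 + (b - n₃) ^ 2) := by
      linarith
    have hnn : 0 ≤ eps ^ 2 * ((a - n₁) ^ 2 + (b - n₃) ^ 2) := by positivity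
    set Q := (T b - T n₃) ^ 2 + (T (1 - a) - T (1 - n₁)) ^ 2 with hQ
    set K := eps ^ 2 * ((a - n₁) ^ 2 + (b - n₃) ^ 2) with hK
    have e3 : (1001 / 1000 : ℝ) ^ 2 * eps ^ 2 * ((a - n₁) ^ 2 + (b - n₃) ^ 2) = (1001 / 1000) ^ 2 * K := by
      rw [hK]; ring
    have e4 : (101 / 100 : ℝ) * eps ^ 2 * ((a - n₁) ^ 2 + (b - n₃) ^ 2) = (101 / 100) * K := by
      rw [hK]; ring
    rw [e3] at hsum
    rw [e4]
    have e5 : (T b - T n₃) ^ 2 + (T b * T (1 - a) - T n₃ * T (1 - n₁)) ^ 2 + (T (1 - a) - T (1 - n₁)) ^ 2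
       = Q + (T b * T (1 - a) - T n₃ * T (1 - n₁)) ^ 2 := by rw [hQ]; ring
    rw [e5]
    norm_num at hsum l3 ⊢
    linarith
  have hlnu0 : 0 ≤ lam * nu := (mul_pos hl0 hn0).le
  set E := (a - n₁) ^ 2 + (b - n₃) ^ 2 with hE
  have hE0 : 0 ≤ E := by positivity
  have hstep : lam * nu * ((-T b - -T n₃) ^ 2 + (T b * T (1 - a) - T n₃ * T (1 - n₁)) ^ 2 + (T (1 - a) - T (1 - n₁)) ^ 2)
      ≤ lam * nu * ((101 / 100) * eps ^ 2 * E) := mul_le_mul_of_nonneg_left hWW hlnu0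
  have hstep2 : lam * nu * ((101 / 100) * eps ^ 2 * E) ≤ (6 / 10) * E := by
    have : lam * nu * ((19 / 10) * eps ^ 2) * E ≤ 1 * E := mul_le_mul_of_nonneg_right hlnu hE0
    have hpos : 0 ≤ lam * nu * eps ^ 2 * E := by positivity
    have e6 : lam * nu * ((19 / 10) * eps ^ 2) * E = (19 / 10) * (lam * nu * eps ^ 2 * E) := by ring
    have e7 : lam * nu * ((101 / 100) * eps ^ 2 * E) = (101 / 100) * (lam * nu * eps ^ 2 * E) := by ring
    rw [e6] at this
    rw [e7]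
    linarith
  have h8 := sq_nonneg (η - n₂)
  have e8 : (a - n₁) ^ 2 + (η - n₂) ^ 2 + (b - n₃) ^ 2 = E + (η - n₂) ^ 2 := by rw [hE]; ring
  rw [e8]
  linarith

lemma unique_pos {x ξ y a η b n₁ n₂ n₃ : ℝ} (h : Sys x ξ y a η b) (hx : x < 0) (ha : a < 0)
    (hy : 0 < y) (hb : 0 < b) (hn : Sys n₁ n₂ n₃ n₁ n₂ n₃) (hn1 : n₁ < 0) (hn3 : 0 < n₃) :
    x = n₁ ∧ ξ = n₂ ∧ y = n₃ ∧ a = n₁ ∧ η = n₂ ∧ b = n₃ := by
  have h1 := half_bound h ha hy hn hn1 hn3
  have h2 := half_bound h.symm hx hb hn hn1 hn3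
  have a1 := sq_nonneg (x - n₁)
  have a2 := sq_nonneg (ξ - n₂)
  have a3 := sq_nonneg (y - n₃)
  have a4 := sq_nonneg (a - n₁)
  have a5 := sq_nonneg (η - n₂)
  have a6 := sq_nonneg (b - n₃)
  have hz : ∀ t : ℝ, 0 ≤ t ^ 2 → t ^ 2 ≤ 0 → t = 0 := fun t _ h2 => by
    have : t ^ 2 = 0 := le_antisymm h2 (sq_nonneg t)
    exact pow_eq_zero_iff (two_ne_zero) |>.1 this
  refine ⟨?_, ?_, ?_, ?_, ?_, ?_⟩
  · have := hz (x - n₁) a1 (by linarith); linarith
  · have := hz (ξ - n₂) a2 (by linarith); linarith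
  · have := hz (y - n₃) a3 (by linarith); linarith
  · have := hz (a - n₁) a4 (by linarith); linarith
  · have := hz (η - n₂) a5 (by linarith); linarith
  · have := hz (b - n₃) a6 (by linarith); linarith

/-- The classification of solutions with `x, a < 1` and `y, b ≠ 0`. -/
theorem classify {x ξ y a η b n₁ n₂ n₃ : ℝ} (h : Sys x ξ y a η b) (hx1 : x < 1) (ha1 : a < 1)
    (hy : y ≠ 0) (hb : b ≠ 0) (hn : Sys n₁ n₂ n₃ n₁ n₂ n₃) (hn1 : n₁ < 0) (hn3 : 0 < n₃) :
    (x = n₁ ∧ ξ = n₂ ∧ y = n₃ ∧ a = n₁ ∧ η = n₂ ∧ b = n₃) ∨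
    (x = n₁ ∧ ξ = n₂ ∧ y = -n₃ ∧ a = n₁ ∧ η = n₂ ∧ b = -n₃) := by
  have hyb0 : y * b ≠ 0 := mul_ne_zero hy hb
  have hyb : 0 < y * b := by
    rcases lt_or_gt_of_ne hyb0 with h1 | h1
    · exact (no_opposite h hx1 ha1 h1).elim
    · exact h1
  have haa := h.abs_a
  have hax := h.abs_x
  have hA0 : 0 < 1 - a := by linarith
  have hA2 : 1 - a ≤ 2 := by have := (abs_le.1 haa).1; linarith
  have hX0 : 0 < 1 - x := by linarith
  have hX2 : 1 - x ≤ 2 := by have := (abs_le.1 hax).1; linarith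
  have htA : 0 < T (1 - a) := T_pos hA0 hA2
  have htX : 0 < T (1 - x) := T_pos hX0 hX2
  obtain ⟨τ₂, t21, -, ht2⟩ := T_form (r := b) (by have := h.abs_b; linarith)
  obtain ⟨τ₄, t41, -, ht4⟩ := T_form (r := y) (by have := h.abs_y; linarith)
  have hpos1 : 0 < y * T b := by
    rw [ht2]
    have : y * (eps * b * τ₂) = eps * τ₂ * (y * b) := by ring
    rw [this]; have := eps_pos; positivity
  have hpos2 : 0 < b * T y := by
    rw [ht4]
    have : b * (eps * y * τ₄) = eps * τ₄ * (y * b) := by ring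
    rw [this]; have := eps_pos; positivity
  have hx : x < 0 := by
    have h1 : -x * T (1 - a) = y * T b := by rw [← h.e1, ← h.e2]
    by_contra hc
    push Not at hc
    have := mul_nonneg hc htA.le
    linarith
  have ha : a < 0 := by
    have h1 : -a * T (1 - x) = b * T y := by rw [← h.e3, ← h.e4]
    by_contra hc
    push Not at hc
    have := mul_nonneg hc htX.le
    linarith
  rcases lt_or_gt_of_ne hy with hy0 | hy0
  · right
    have hb0 : b < 0 := by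
      by_contra hc
      push Not at hc
      have := mul_nonpos_of_nonpos_of_nonneg hy0.le hc
      linarith
    obtain ⟨e1, e2, e3, e4, e5, e6⟩ :=
      unique_pos h.neg hx ha (by linarith) (by linarith) hn hn1 hn3
    exact ⟨e1, e2, by linarith, e4, e5, by linarith⟩
  · left
    have hb0 : 0 < b := by
      by_contra hc
      push Not at hc
      have := mul_nonpos_of_nonneg_of_nonpos hy0.le hc
      linarith
    exact unique_pos h hx ha hy0 hb0 hn hn1 hn3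


/-! ### Existence of the symmetric solution -/

lemma T_continuousAt {r : ℝ} (hr : |r| ≤ 2) : ContinuousAt T r := by
  have hc : Real.cos (eps * r) ≠ 0 := by
    have := cos_ge (abs_eps_mul hr)
    linarith
  have h1 : ContinuousAt Real.tan (eps * r) := Real.continuousAt_tan.2 hc
  have h2 : ContinuousAt (fun r : ℝ => eps * r) r := (continuous_const.mul continuous_id).continuousAt
  exact ContinuousAt.comp (f := fun r : ℝ => eps * r) (g := Real.tan) h1 h2

theorem exists_n : ∃ n₁ n₂ n₃ : ℝ, Sys n₁ n₂ n₃ n₁ n₂ n₃ ∧ n₁ < 0 ∧ 0 < n₃ := by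
  let R : ℝ → ℝ := fun x => Real.sqrt (1 - x ^ 2 * (1 + T (1 - x) ^ 2))
  let f : ℝ → ℝ := fun x => R x * T (R x) + x * T (1 - x)
  have hbT : ∀ x ∈ Set.Icc (-(9 / 10) : ℝ) (-(1 / 10)), |1 - x| ≤ 2 := by
    intro x hx
    rw [abs_le]; constructor <;> linarith [hx.1, hx.2]
  have harg : ∀ x ∈ Set.Icc (-(9 / 10) : ℝ) (-(1 / 10)), 0 < 1 - x ^ 2 * (1 + T (1 - x) ^ 2) := by
    intro x hx
    have h1 := T_abs_le (hbT x hx)
    have h2 : T (1 - x) ^ 2 ≤ 1 / 1600 := by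
      have := pow_le_pow_left₀ (abs_nonneg _) h1 2
      rw [sq_abs] at this; norm_num at this ⊢; linarith
    have h3 : x ^ 2 ≤ 81 / 100 := by nlinarith [hx.1, hx.2]
    nlinarith [sq_nonneg x, sq_nonneg (T (1 - x))]
  have hRle : ∀ x ∈ Set.Icc (-(9 / 10) : ℝ) (-(1 / 10)), R x ≤ 1 := by
    intro x _
    show Real.sqrt _ ≤ 1
    apply Real.sqrt_le_one.2
    have : 0 ≤ x ^ 2 * (1 + T (1 - x) ^ 2) := by positivity
    linarith
  have hRsq : ∀ x ∈ Set.Icc (-(9 / 10) : ℝ) (-(1 / 10)), R x ^ 2 = 1 - x ^ 2 * (1 + T (1 - x) ^ 2) := by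
    intro x hx
    exact Real.sq_sqrt (harg x hx).le
  have hRpos : ∀ x ∈ Set.Icc (-(9 / 10) : ℝ) (-(1 / 10)), 0 < R x := by
    intro x hx
    exact Real.sqrt_pos.2 (harg x hx)
  have hcont : ContinuousOn f (Set.Icc (-(9 / 10) : ℝ) (-(1 / 10))) := by
    intro x hx
    apply ContinuousAt.continuousWithinAt
    have hT1 : ContinuousAt (fun x => T (1 - x)) x := by
      have h2 : ContinuousAt (fun x : ℝ => 1 - x) x := (continuous_const.sub continuous_id).continuousAt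
      exact ContinuousAt.comp (f := fun x : ℝ => 1 - x) (g := T) (T_continuousAt (hbT x hx)) h2
    have hRc : ContinuousAt R x := by
      apply ContinuousAt.sqrt
      exact continuousAt_const.sub ((continuousAt_id.pow 2).mul (continuousAt_const.add (hT1.pow 2)))
    have hT2 : ContinuousAt (fun x => T (R x)) x := by
      have hr : |R x| ≤ 2 := by
        rw [abs_of_pos (hRpos x hx)]; linarith [hRle x hx]
      exact ContinuousAt.comp (f := R) (g := T) (T_continuousAt hr) hRc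
    exact (hRc.mul hT2).add (continuousAt_id.mul hT1)
  have hT_R_le : ∀ x ∈ Set.Icc (-(9 / 10) : ℝ) (-(1 / 10)), R x * T (R x) ≤ (1001 / 1000) * (eps * R x ^ 2) := by
    intro x hx
    have h1 := T_le (hRpos x hx).le (by linarith [hRle x hx])
    have := mul_le_mul_of_nonneg_left h1 (hRpos x hx).le
    calc R x * T (R x) ≤ R x * ((1001 / 1000) * (eps * R x)) := this
      _ = (1001 / 1000) * (eps * R x ^ 2) := by ring
  have hT_R_ge : ∀ x ∈ Set.Icc (-(9 / 10) : ℝ) (-(1 / 10)), eps * R x ^ 2 ≤ R x * T (R x) := by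
    intro x hx
    have h1 := T_ge (hRpos x hx).le (by linarith [hRle x hx])
    have := mul_le_mul_of_nonneg_left h1 (hRpos x hx).le
    calc eps * R x ^ 2 = R x * (eps * R x) := by ring
      _ ≤ R x * T (R x) := this
  have e0 : eps = 1 / 100 := rfl
  have mem1 : (-(9 / 10) : ℝ) ∈ Set.Icc (-(9 / 10) : ℝ) (-(1 / 10)) := by constructor <;> norm_num
  have mem2 : (-(1 / 10) : ℝ) ∈ Set.Icc (-(9 / 10) : ℝ) (-(1 / 10)) := by constructor <;> norm_num
  have hf1 : f (-(9 / 10)) < 0 := by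
    show R (-(9 / 10)) * T (R (-(9 / 10))) + (-(9 / 10)) * T (1 - (-(9 / 10))) < 0
    have h1 := hT_R_le _ mem1
    have h2 := hRsq _ mem1
    have h3 : eps * (1 - (-(9 / 10))) ≤ T (1 - (-(9 / 10))) :=
      T_ge (by norm_num) (by norm_num)
    have h4 : R (-(9 / 10)) ^ 2 ≤ 19 / 100 := by
      rw [h2]; nlinarith [sq_nonneg (T (1 - (-(9 / 10) : ℝ)))]
    have h5 : (1001 / 1000) * (eps * R (-(9 / 10)) ^ 2) ≤ (1001 / 1000) * (eps * (19 / 100)) :=
      mul_le_mul_of_nonneg_left (mul_le_mul_of_nonneg_left h4 eps_pos.le) (by norm_num)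
    rw [e0] at h1 h3 h5
    norm_num at h1 h3 h5 ⊢
    linarith
  have hf2 : 0 < f (-(1 / 10)) := by
    show 0 < R (-(1 / 10)) * T (R (-(1 / 10))) + (-(1 / 10)) * T (1 - (-(1 / 10)))
    have h1 := hT_R_ge _ mem2
    have h2 := hRsq _ mem2
    have h3 : T (1 - (-(1 / 10))) ≤ (1001 / 1000) * (eps * (1 - (-(1 / 10)))) :=
      T_le (by norm_num) (by norm_num)
    have h6 := T_abs_le (hbT _ mem2)
    have h7 : T (1 - (-(1 / 10) : ℝ)) ^ 2 ≤ 1 / 1600 := by
      have := pow_le_pow_left₀ (abs_nonneg _) h6 2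
      rw [sq_abs] at this; norm_num at this ⊢; linarith
    have h4 : 98 / 100 ≤ R (-(1 / 10)) ^ 2 := by
      rw [h2]; nlinarith
    have h5 : eps * (98 / 100) ≤ eps * R (-(1 / 10)) ^ 2 :=
      mul_le_mul_of_nonneg_left h4 eps_pos.le
    rw [e0] at h1 h3 h5
    norm_num at h1 h3 h5 ⊢
    linarith
  have hle : (-(9 / 10) : ℝ) ≤ -(1 / 10) := by norm_num
  have hivt := intermediate_value_Icc hle hcont
  obtain ⟨x₀, hx₀, hfx⟩ := hivt (show (0 : ℝ) ∈ Set.Icc (f (-(9 / 10))) (f (-(1 / 10))) from ⟨hf1.le, hf2.le⟩)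
  have hsq := hRsq x₀ hx₀
  have hpos := hRpos x₀ hx₀
  have hfx' : R x₀ * T (R x₀) + x₀ * T (1 - x₀) = 0 := hfx
  have hS : Sys x₀ (-x₀ * T (1 - x₀)) (R x₀) x₀ (-x₀ * T (1 - x₀)) (R x₀) := by
    have hu : x₀ ^ 2 + (-x₀ * T (1 - x₀)) ^ 2 + R x₀ ^ 2 = 1 := by rw [hsq]; ring
    have e2 : -x₀ * T (1 - x₀) = R x₀ * T (R x₀) := by linarith
    exact ⟨hu, hu, rfl, e2, rfl, e2⟩
  exact ⟨x₀, -x₀ * T (1 - x₀), R x₀, hS, by linarith [hx₀.2], hpos⟩

/-! ### Rotation equations -/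

section half
variable (θ x ξ : ℝ)

lemma half1 (h : Real.cos (2 * θ) * x - Real.sin (2 * θ) * ξ = x) (hs : Real.sin θ ≠ 0) :
    ξ * Real.cos θ = -x * Real.sin θ := by
  rw [Real.cos_two_mul, Real.sin_two_mul] at h
  have h1 := Real.cos_sq_add_sin_sq θ
  have h2 : Real.sin θ * (ξ * Real.cos θ + x * Real.sin θ) = 0 := by
    have : Real.cos θ ^ 2 = 1 - Real.sin θ ^ 2 := by linarith
    rw [this] at h
    linear_combination -h / 2
  have := (mul_eq_zero.1 h2).resolve_left hs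
  linarith

lemma half2 (h : ξ * Real.cos θ = -x * Real.sin θ) :
    Real.sin (2 * θ) * x + Real.cos (2 * θ) * ξ = -ξ := by
  rw [Real.cos_two_mul, Real.sin_two_mul]
  linear_combination 2 * Real.cos θ * h

lemma half3 (h : ξ * Real.cos θ = -x * Real.sin θ) :
    Real.cos (2 * θ) * x - Real.sin (2 * θ) * ξ = x := by
  rw [Real.cos_two_mul, Real.sin_two_mul]
  have h1 := Real.cos_sq_add_sin_sq θ
  linear_combination (-2 * Real.sin θ) * h + 2 * x * h1

end half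

lemma cos_two_W (w : ℝ) : Real.cos (2 * (Real.pi - w)) = Real.cos (2 * w) := by
  have : 2 * (Real.pi - w) = 2 * Real.pi - 2 * w := by ring
  rw [this, Real.cos_two_pi_sub]
lemma sin_two_W (w : ℝ) : Real.sin (2 * (Real.pi - w)) = -Real.sin (2 * w) := by
  have : 2 * (Real.pi - w) = 2 * Real.pi - 2 * w := by ring
  rw [this, Real.sin_two_pi_sub]

lemma T_eq_of {r p q : ℝ} (hr : |r| ≤ 2) (h : q * Real.cos (eps * r) = p * Real.sin (eps * r)) :
    q = p * T r := by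
  have hc : Real.cos (eps * r) ≠ 0 := by
    have := cos_ge (abs_eps_mul hr); linarith
  unfold T
  rw [Real.tan_eq_sin_div_cos]
  field_simp
  linarith

lemma of_T_eq {r p q : ℝ} (hr : |r| ≤ 2) (h : q = p * T r) :
    q * Real.cos (eps * r) = p * Real.sin (eps * r) := by
  have hc : Real.cos (eps * r) ≠ 0 := by
    have := cos_ge (abs_eps_mul hr); linarith
  rw [h]
  unfold T
  rw [Real.tan_eq_sin_div_cos]
  field_simp

lemma sin_ne_of {θ : ℝ} (h : |θ| ≤ 1 / 50) (h0 : θ ≠ 0) : Real.sin θ ≠ 0 := by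
  have hpi := Real.pi_gt_three
  have h1 := abs_le.1 h
  intro hs
  exact h0 ((Real.sin_eq_zero_iff_of_lt_of_lt (by linarith) (by linarith)).1 hs)

/-- From fixed moments to the reduced system. -/
theorem rot_cases {x ξ y a η b : ℝ} (hu : x ^ 2 + ξ ^ 2 + y ^ 2 = 1) (hv : a ^ 2 + η ^ 2 + b ^ 2 = 1)
    (h1 : Real.cos (2 * (eps * (1 - a))) * x - Real.sin (2 * (eps * (1 - a))) * ξ = x)
    (h2 : -Real.sin (2 * (-(eps * y))) * η + Real.cos (2 * (-(eps * y))) * b = b)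
    (h3 : Real.cos (2 * (Real.pi - eps * b)) *
        (Real.sin (2 * (eps * (1 - a))) * x + Real.cos (2 * (eps * (1 - a))) * ξ)
        - Real.sin (2 * (Real.pi - eps * b)) * y = ξ)
    (h6 : -Real.sin (2 * (eps * (1 - x))) * a + Real.cos (2 * (eps * (1 - x))) *
        (Real.cos (2 * (-(eps * y))) * η + Real.sin (2 * (-(eps * y))) * b) = η) :
    (x = 1 ∧ ξ = 0 ∧ y = 0 ∧ a = 1 ∧ η = 0 ∧ b = 0) ∨
    (Sys x ξ y a η b ∧ x < 1 ∧ a < 1 ∧ y ≠ 0 ∧ b ≠ 0) := by
  have hax : |x| ≤ 1 := (sq_le_one_iff_abs_le_one _).1 (by linarith [sq_nonneg ξ, sq_nonneg y])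
  have hay : |y| ≤ 1 := (sq_le_one_iff_abs_le_one _).1 (by linarith [sq_nonneg ξ, sq_nonneg x])
  have haa : |a| ≤ 1 := (sq_le_one_iff_abs_le_one _).1 (by linarith [sq_nonneg η, sq_nonneg b])
  have hab : |b| ≤ 1 := (sq_le_one_iff_abs_le_one _).1 (by linarith [sq_nonneg η, sq_nonneg a])
  have hA0 : 0 ≤ 1 - a := by have := (abs_le.1 haa).2; linarith
  have hA2 : 1 - a ≤ 2 := by have := (abs_le.1 haa).1; linarith
  have hX0 : 0 ≤ 1 - x := by have := (abs_le.1 hax).2; linarith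
  have hX2 : 1 - x ≤ 2 := by have := (abs_le.1 hax).1; linarith
  have hA2' : |1 - a| ≤ 2 := by rw [abs_of_nonneg hA0]; exact hA2
  have hX2' : |1 - x| ≤ 2 := by rw [abs_of_nonneg hX0]; exact hX2
  have hW' := abs_eps_mul hX2'
  have hcW' : Real.cos (eps * (1 - x)) ≠ 0 := by
    have := cos_ge hW'; linarith
  have hb2' : |b| ≤ 2 := by linarith
  have hy2' : |y| ≤ 2 := by linarith
  have he0 := eps_pos
  by_cases ha1 : a = 1
  · -- the degenerate point
    subst ha1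
    have hη : η = 0 := by
      have : η ^ 2 ≤ 0 := by linarith [sq_nonneg b]
      exact pow_eq_zero_iff (two_ne_zero) |>.1 (le_antisymm this (sq_nonneg η))
    have hb : b = 0 := by
      have : b ^ 2 ≤ 0 := by linarith [sq_nonneg η]
      exact pow_eq_zero_iff (two_ne_zero) |>.1 (le_antisymm this (sq_nonneg b))
    subst hη; subst hb
    left
    have h7 : Real.sin (2 * (eps * (1 - x))) = 0 := by
      simpa using h6
    have h8 : 2 * (eps * (1 - x)) = 0 := by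
      have hpi := Real.pi_gt_three
      have h9 := abs_le.1 hW'
      exact (Real.sin_eq_zero_iff_of_lt_of_lt (by linarith) (by linarith)).1 h7
    have hx : x = 1 := by
      have : eps * (1 - x) = 0 := by linarith
      have := (mul_eq_zero.1 this).resolve_left he0.ne'
      linarith
    subst hx
    have hξ : ξ = 0 := by
      have : ξ ^ 2 ≤ 0 := by linarith [sq_nonneg y]
      exact pow_eq_zero_iff (two_ne_zero) |>.1 (le_antisymm this (sq_nonneg ξ))
    have hy : y = 0 := by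
      have : y ^ 2 ≤ 0 := by linarith [sq_nonneg ξ]
      exact pow_eq_zero_iff (two_ne_zero) |>.1 (le_antisymm this (sq_nonneg y))
    exact ⟨rfl, hξ, hy, rfl, rfl, rfl⟩
  · right
    have hA1 : 0 < 1 - a := lt_of_le_of_ne hA0 (fun h => ha1 (by linarith))
    have hne : eps * (1 - a) ≠ 0 := (mul_pos he0 hA1).ne'
    have hs : Real.sin (eps * (1 - a)) ≠ 0 := sin_ne_of (abs_eps_mul hA2') hne
    have e1' := half1 _ _ _ h1 hs
    have e1 : ξ = -x * T (1 - a) := T_eq_of hA2' e1'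
    have hX2'' := half2 _ _ _ e1'
    rw [hX2'', cos_two_W, sin_two_W] at h3
    have hcb : Real.cos (eps * b) ≠ 0 := by
      have := cos_ge (abs_eps_mul hb2'); linarith
    have e2' : ξ * Real.cos (eps * b) = y * Real.sin (eps * b) := by
      rw [Real.cos_two_mul, Real.sin_two_mul] at h3
      have h10 : Real.cos (eps * b) * (y * Real.sin (eps * b) - ξ * Real.cos (eps * b)) = 0 := by
        linear_combination h3 / 2
      have := (mul_eq_zero.1 h10).resolve_left hcb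
      linarith
    have e2 : ξ = y * T b := T_eq_of hb2' e2'
    have hTA : 0 < T (1 - a) := T_pos hA1 hA2
    have hy0 : y ≠ 0 := by
      intro hy
      rw [hy, zero_mul] at e2
      rw [e2] at e1
      have h11 : x * T (1 - a) = 0 := by linarith
      have hx := (mul_eq_zero.1 h11).resolve_right hTA.ne'
      rw [hx, e2, hy] at hu
      norm_num at hu
    have hr : Real.sin (-(eps * y)) ≠ 0 := by
      apply sin_ne_of
      · rw [abs_neg]; exact abs_eps_mul hy2'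
      · exact neg_ne_zero.2 (mul_ne_zero he0.ne' hy0)
    have h2' : Real.cos (2 * (-(eps * y))) * b - Real.sin (2 * (-(eps * y))) * η = b := by linarith
    have e4' := half1 _ _ _ h2' hr
    have e4 : η = b * T y := by
      apply T_eq_of hy2'
      rw [Real.cos_neg, Real.sin_neg] at e4'
      linarith
    have hV2 := half2 _ _ _ e4'
    have hV2' : Real.cos (2 * (-(eps * y))) * η + Real.sin (2 * (-(eps * y))) * b = -η := by
      linarith
    rw [hV2', Real.cos_two_mul, Real.sin_two_mul] at h6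
    have e3' : η * Real.cos (eps * (1 - x)) = -a * Real.sin (eps * (1 - x)) := by
      have h12 : Real.cos (eps * (1 - x)) * (a * Real.sin (eps * (1 - x)) + η * Real.cos (eps * (1 - x))) = 0 := by
        linear_combination -h6 / 2
      have := (mul_eq_zero.1 h12).resolve_left hcW'
      linarith
    have e3 : η = -a * T (1 - x) := T_eq_of hX2' e3'
    have hx1 : x < 1 := by
      have : 0 < y ^ 2 := by positivity
      have h13 : x ^ 2 < 1 := by linarith [sq_nonneg ξ]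
      exact (abs_lt.1 ((sq_lt_one_iff_abs_lt_one x).1 h13)).2
    have hb0 : b ≠ 0 := by
      intro hb
      rw [hb, T_zero, mul_zero] at e2
      rw [e2] at e1
      have h14 : x * T (1 - a) = 0 := by linarith
      have hx := (mul_eq_zero.1 h14).resolve_right hTA.ne'
      rw [hb, zero_mul] at e4
      rw [e4, hx] at e3
      have hT1 : 0 < T (1 - 0) := T_pos (by norm_num) (by norm_num)
      have h15 : a * T (1 - 0) = 0 := by linarith
      have ha0 := (mul_eq_zero.1 h15).resolve_right hT1.ne'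
      rw [ha0, e4, hb] at hv
      norm_num at hv
    have ha1' : a < 1 := by linarith
    exact ⟨⟨hu, hv, e1, e2, e3, e4⟩, hx1, ha1', hy0, hb0⟩

/-- From the reduced system to fixed moments. -/
theorem rot_of_sys {x ξ y a η b : ℝ} (h : Sys x ξ y a η b) :
    Real.cos (2 * (eps * (1 - a))) * x - Real.sin (2 * (eps * (1 - a))) * ξ = x ∧
    -Real.sin (2 * (-(eps * y))) * η + Real.cos (2 * (-(eps * y))) * b = b ∧
    Real.cos (2 * (Real.pi - eps * b)) *
        (Real.sin (2 * (eps * (1 - a))) * x + Real.cos (2 * (eps * (1 - a))) * ξ)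
        - Real.sin (2 * (Real.pi - eps * b)) * y = ξ ∧
    Real.sin (2 * (Real.pi - eps * b)) *
        (Real.sin (2 * (eps * (1 - a))) * x + Real.cos (2 * (eps * (1 - a))) * ξ)
        + Real.cos (2 * (Real.pi - eps * b)) * y = y ∧
    Real.cos (2 * (eps * (1 - x))) * a + Real.sin (2 * (eps * (1 - x))) *
        (Real.cos (2 * (-(eps * y))) * η + Real.sin (2 * (-(eps * y))) * b) = a ∧
    -Real.sin (2 * (eps * (1 - x))) * a + Real.cos (2 * (eps * (1 - x))) *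
        (Real.cos (2 * (-(eps * y))) * η + Real.sin (2 * (-(eps * y))) * b) = η := by
  have hax := h.abs_x
  have haa := h.abs_a
  have hay := h.abs_y
  have hab := h.abs_b
  have hA2' : |1 - a| ≤ 2 := by
    rw [abs_le]; constructor <;> linarith [(abs_le.1 haa).1, (abs_le.1 haa).2]
  have hX2' : |1 - x| ≤ 2 := by
    rw [abs_le]; constructor <;> linarith [(abs_le.1 hax).1, (abs_le.1 hax).2]
  have hb2' : |b| ≤ 2 := by linarith
  have hy2' : |y| ≤ 2 := by linarith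
  have e1 : ξ * Real.cos (eps * (1 - a)) = -x * Real.sin (eps * (1 - a)) := of_T_eq hA2' h.e1
  have e2 : ξ * Real.cos (eps * b) = y * Real.sin (eps * b) := of_T_eq hb2' h.e2
  have e3 : η * Real.cos (eps * (1 - x)) = -a * Real.sin (eps * (1 - x)) := of_T_eq hX2' h.e3
  have e4 : η * Real.cos (eps * y) = b * Real.sin (eps * y) := of_T_eq hy2' h.e4
  have e4' : η * Real.cos (-(eps * y)) = -b * Real.sin (-(eps * y)) := by
    rw [Real.cos_neg, Real.sin_neg]; linarith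
  have h1 := half3 _ _ _ e1
  have h2 := half2 _ _ _ e1
  have h3 := half3 _ _ _ e4'
  have h4 := half2 _ _ _ e4'
  have h4' : Real.cos (2 * (-(eps * y))) * η + Real.sin (2 * (-(eps * y))) * b = -η := by linarith
  have h5 := half3 _ _ _ e3
  have h6 := half2 _ _ _ e3
  have c1 := Real.cos_sq_add_sin_sq (eps * b)
  refine ⟨h1, by linarith, ?_, ?_, ?_, ?_⟩
  · rw [h2, cos_two_W, sin_two_W, Real.cos_two_mul, Real.sin_two_mul]
    linear_combination (-2 * Real.cos (eps * b)) * e2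
  · rw [h2, cos_two_W, sin_two_W, Real.cos_two_mul, Real.sin_two_mul]
    linear_combination (2 * Real.sin (eps * b)) * e2 + 2 * y * c1
  · rw [h4']; linarith
  · rw [h4']; linarith

end Crest.Agent.H7QuadricReal
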