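import Mathlib
import Crest.Agent.H7QuadricAlg
import Crest.Agent.H7QuadricReal

set_option autoImplicit false

namespace Crest.Agent.H7QuadricFix

open Crest.GeometryTopology.Quadric
open Crest.Agent.H7QuadricAlg
open Crest.Agent.H7QuadricReal

/-- The time one map. -/
noncomputable def Φ (z : C5) : C5 := τb 1 (τa 1 z)

lemma Ψ₀_one (z : C5) : Ψ₀ (1, z) = Φ z := by
  simp [Ψ₀, Φ, β1_one, β2_one]

lemma cos_sq_sub (θ : ℝ) : Real.cos θ ^ 2 - Real.sin θ ^ 2 = Real.cos (2 * θ) := by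
  rw [Real.cos_two_mul]; have := Real.cos_sq_add_sin_sq θ; linarith
lemma two_cos_sin (θ : ℝ) : 2 * Real.cos θ * Real.sin θ = Real.sin (2 * θ) := by
  rw [Real.sin_two_mul]; ring

/-! ### Moments of the twists -/

section mom
variable (z : C5)

lemma m_u1_τa : u1 (τa 1 z) = Real.cos (2 * sA z) * u1 z - Real.sin (2 * sA z) * u2 z := by
  simp only [τa, one_mul, u1_R3p, u1_R1m, u2_R1m, Real.cos_sq_add_sin_sq, cos_sq_sub, two_cos_sin]
lemma m_u2_τa : u2 (τa 1 z) = Real.sin (2 * sA z) * u1 z + Real.cos (2 * sA z) * u2 z := by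
  simp only [τa, one_mul, u2_R3p, u1_R1m, u2_R1m, Real.cos_sq_add_sin_sq, cos_sq_sub, two_cos_sin]
lemma m_v2_τa : v2 (τa 1 z) = Real.cos (2 * rA z) * v2 z + Real.sin (2 * rA z) * v3 z := by
  simp only [τa, one_mul, v2_R3p, v2_R1m, Real.cos_sq_add_sin_sq, cos_sq_sub, two_cos_sin]
lemma m_v3_τa : v3 (τa 1 z) = -Real.sin (2 * rA z) * v2 z + Real.cos (2 * rA z) * v3 z := by
  simp only [τa, one_mul, v3_R3p, v3_R1m, Real.cos_sq_add_sin_sq, cos_sq_sub, two_cos_sin]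
lemma m_u2_τb : u2 (τb 1 z) = Real.cos (2 * wB z) * u2 z - Real.sin (2 * wB z) * u3 z := by
  simp only [τb, one_mul, u2_R1p, u2_R3m, u3_R3m, Real.cos_sq_add_sin_sq, cos_sq_sub, two_cos_sin]
lemma m_u3_τb : u3 (τb 1 z) = Real.sin (2 * wB z) * u2 z + Real.cos (2 * wB z) * u3 z := by
  simp only [τb, one_mul, u3_R1p, u2_R3m, u3_R3m, Real.cos_sq_add_sin_sq, cos_sq_sub, two_cos_sin]
lemma m_v1_τb : v1 (τb 1 z) = Real.cos (2 * wB' z) * v1 z + Real.sin (2 * wB' z) * v2 z := by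
  simp only [τb, one_mul, v1_R1p, v1_R3m, Real.cos_sq_add_sin_sq, cos_sq_sub, two_cos_sin]
lemma m_v2_τb : v2 (τb 1 z) = -Real.sin (2 * wB' z) * v1 z + Real.cos (2 * wB' z) * v2 z := by
  simp only [τb, one_mul, v2_R1p, v2_R3m, Real.cos_sq_add_sin_sq, cos_sq_sub, two_cos_sin]

lemma τa_four (θ : ℝ) : τa θ z 4 = z 4 := by
  simp [τa, R3p, R1m]
lemma τb_four (θ : ℝ) : τb θ z 4 = z 4 := by
  simp [τb, R1p, R3m]
lemma Φ_four : Φ z 4 = z 4 := by simp [Φ, τa_four, τb_four]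

lemma Φ_mem_cone {z : C5} (hz : z ∈ unitCone) : Φ z ∈ unitCone := by
  rw [← Ψ₀_one]; exact Ψ₀_mem_cone 1 hz

end mom

/-! ### Unit length of moments on the quadric surface -/

lemma sum_sq_u (z : C5) (h4 : z 4 = 0) :
    u1 z ^ 2 + u2 z ^ 2 + u3 z ^ 2 =
      (herm z z).re ^ 2 - ((∑ j, z j ^ 2).re ^ 2 + (∑ j, z j ^ 2).im ^ 2) := by
  simp only [herm, Fin.sum_univ_five, h4, u1, u2, u3, P]
  simp [pow_two]
  ring

lemma sum_sq_v (z : C5) (h4 : z 4 = 0) :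
    v1 z ^ 2 + v2 z ^ 2 + v3 z ^ 2 =
      (herm z z).re ^ 2 - ((∑ j, z j ^ 2).re ^ 2 + (∑ j, z j ^ 2).im ^ 2) := by
  simp only [herm, Fin.sum_univ_five, h4, v1, v2, v3, P]
  simp [pow_two]
  ring

lemma unit_u {z : C5} (hz : z ∈ unitCone) (h4 : z 4 = 0) : u1 z ^ 2 + u2 z ^ 2 + u3 z ^ 2 = 1 := by
  rw [sum_sq_u z h4, hz.1, hz.2]; simp
lemma unit_v {z : C5} (hz : z ∈ unitCone) (h4 : z 4 = 0) : v1 z ^ 2 + v2 z ^ 2 + v3 z ^ 2 = 1 := by
  rw [sum_sq_v z h4, hz.1, hz.2]; simp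

/-! ### The moments determine the line -/

open ComplexConjugate in
lemma P_cast (z : C5) (j k : Fin 5) :
    ((P z j k : ℝ) : ℂ) = -Complex.I * (conj (z j) * z k - z j * conj (z k)) := by
  apply Complex.ext <;> simp [P]
  ring

open ComplexConjugate in
lemma line_of_moments {z z' : C5} (hz : z ∈ unitCone) (hz' : z' ∈ unitCone)
    (h4 : z 4 = 0) (h4' : z' 4 = 0)
    (e1 : u1 z' = u1 z) (e2 : u2 z' = u2 z) (e3 : u3 z' = u3 z)
    (e4 : v1 z' = v1 z) (e5 : v2 z' = v2 z) (e6 : v3 z' = v3 z) :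
    z' = herm z z' • z := by
  have p01 : P z' 0 1 = P z 0 1 := by
    simp only [u1, v1] at e1 e4; linarith
  have p23 : P z' 2 3 = P z 2 3 := by
    simp only [u1, v1] at e1 e4; linarith
  have p02 : P z' 0 2 = P z 0 2 := by
    simp only [u2, v2] at e2 e5; linarith
  have p13 : P z' 1 3 = P z 1 3 := by
    simp only [u2, v2] at e2 e5; linarith
  have p03 : P z' 0 3 = P z 0 3 := by
    simp only [u3, v3] at e3 e6; linarith
  have p12 : P z' 1 2 = P z 1 2 := by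
    simp only [u3, v3] at e3 e6; linarith
  have hu : conj (z 0) * z 0 + conj (z 1) * z 1 + conj (z 2) * z 2 + conj (z 3) * z 3 = 1 := by
    have := hz.1
    simp only [herm, Fin.sum_univ_five, h4, map_zero, mul_zero, add_zero] at this
    exact this
  have hi : z 0 ^ 2 + z 1 ^ 2 + z 2 ^ 2 + z 3 ^ 2 = 0 := by
    have := hz.2
    simpa [Fin.sum_univ_five, h4] using this
  have hu' : conj (z' 0) * z' 0 + conj (z' 1) * z' 1 + conj (z' 2) * z' 2 + conj (z' 3) * z' 3 = 1 := by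
    have := hz'.1
    simp only [herm, Fin.sum_univ_five, h4', map_zero, mul_zero, add_zero] at this
    exact this
  have hi' : z' 0 ^ 2 + z' 1 ^ 2 + z' 2 ^ 2 + z' 3 ^ 2 = 0 := by
    have := hz'.2
    simpa [Fin.sum_univ_five, h4'] using this
  set α := conj (z 0) * z' 0 + conj (z 1) * z' 1 + conj (z 2) * z' 2 + conj (z 3) * z' 3 with hα
  set β := z 0 * z' 0 + z 1 * z' 1 + z 2 * z' 2 + z 3 * z' 3 with hβ
  have hherm : herm z z' = α := by
    simp only [herm, Fin.sum_univ_five, h4, h4', map_zero, mul_zero, add_zero, hα]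
  have hI : Complex.I ≠ 0 := Complex.I_ne_zero
  -- the eigenvector relation
  have c0 : z' 0 = α * z 0 - β * conj (z 0) := by
    have h1 : ((P z' 0 1 : ℝ) : ℂ) * z' 1 + ((P z' 0 2 : ℝ) : ℂ) * z' 2 + ((P z' 0 3 : ℝ) : ℂ) * z' 3
        = Complex.I * z' 0 := by
      simp only [P_cast]
      linear_combination (Complex.I * conj (z' 0) * (-1)) * hi' + (Complex.I * z' 0) * hu'
    rw [p01, p02, p03] at h1
    simp only [P_cast] at h1
    have h2 : Complex.I * (z' 0 - (α * z 0 - β * conj (z 0))) = 0 := by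
      rw [hα, hβ]; linear_combination -h1
    exact sub_eq_zero.1 ((mul_eq_zero.1 h2).resolve_left hI)
  have c1 : z' 1 = α * z 1 - β * conj (z 1) := by
    have h1 : -((P z' 0 1 : ℝ) : ℂ) * z' 0 + ((P z' 1 2 : ℝ) : ℂ) * z' 2 + ((P z' 1 3 : ℝ) : ℂ) * z' 3
        = Complex.I * z' 1 := by
      simp only [P_cast]
      linear_combination (Complex.I * conj (z' 1) * (-1)) * hi' + (Complex.I * z' 1) * hu'
    rw [p01, p12, p13] at h1
    simp only [P_cast] at h1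
    have h2 : Complex.I * (z' 1 - (α * z 1 - β * conj (z 1))) = 0 := by
      rw [hα, hβ]; linear_combination -h1
    exact sub_eq_zero.1 ((mul_eq_zero.1 h2).resolve_left hI)
  have c2 : z' 2 = α * z 2 - β * conj (z 2) := by
    have h1 : -((P z' 0 2 : ℝ) : ℂ) * z' 0 - ((P z' 1 2 : ℝ) : ℂ) * z' 1 + ((P z' 2 3 : ℝ) : ℂ) * z' 3
        = Complex.I * z' 2 := by
      simp only [P_cast]
      linear_combination (Complex.I * conj (z' 2) * (-1)) * hi' + (Complex.I * z' 2) * hu'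
    rw [p02, p12, p23] at h1
    simp only [P_cast] at h1
    have h2 : Complex.I * (z' 2 - (α * z 2 - β * conj (z 2))) = 0 := by
      rw [hα, hβ]; linear_combination -h1
    exact sub_eq_zero.1 ((mul_eq_zero.1 h2).resolve_left hI)
  have c3 : z' 3 = α * z 3 - β * conj (z 3) := by
    have h1 : -((P z' 0 3 : ℝ) : ℂ) * z' 0 - ((P z' 1 3 : ℝ) : ℂ) * z' 1 - ((P z' 2 3 : ℝ) : ℂ) * z' 2
        = Complex.I * z' 3 := by
      simp only [P_cast]
      linear_combination (Complex.I * conj (z' 3) * (-1)) * hi' + (Complex.I * z' 3) * hu'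
    rw [p03, p13, p23] at h1
    simp only [P_cast] at h1
    have h2 : Complex.I * (z' 3 - (α * z 3 - β * conj (z 3))) = 0 := by
      rw [hα, hβ]; linear_combination -h1
    exact sub_eq_zero.1 ((mul_eq_zero.1 h2).resolve_left hI)
  have hβ0 : β = 0 := by
    have h1 : β = -β := by
      have h2 : β = z 0 * (α * z 0 - β * conj (z 0)) + z 1 * (α * z 1 - β * conj (z 1))
          + z 2 * (α * z 2 - β * conj (z 2)) + z 3 * (α * z 3 - β * conj (z 3)) := by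
        rw [← c0, ← c1, ← c2, ← c3]
      linear_combination h2 + α * hi - β * hu
    have h3 : (2 : ℂ) * β = 0 := by linear_combination h1
    simpa using h3
  rw [hherm]
  rw [hβ0] at c0 c1 c2 c3
  refine funext (fin5_cases ?_ ?_ ?_ ?_ ?_)
  · simpa using c0
  · simpa using c1
  · simpa using c2
  · simpa using c3
  · simp [h4, h4']


/-! ### No fixed lines off the hyperplane `z₄ = 0` -/

noncomputable def pr (z : C5) : C5 := ![z 0, z 1, z 2, z 3, 0]

lemma norm_le_pr (z : C5) (j : Fin 5) (hj : j ≠ 4) : ‖z j‖ ≤ ‖pr z‖ := by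
  have h := norm_le_pi_norm (pr z) j
  have e : pr z j = z j := by
    fin_cases j <;> first | rfl | exact absurd rfl hj
  rwa [e] at h

lemma aux_sub (a b : ℂ) (c s N : ℝ) (ha : ‖a‖ ≤ N) (hb : ‖b‖ ≤ N) :
    ‖(c : ℂ) * a - s * b - a‖ ≤ (|c - 1| + |s|) * N := by
  have e : (c : ℂ) * a - s * b - a = ((c - 1 : ℝ) : ℂ) * a - (s : ℂ) * b := by push_cast; ring
  rw [e]
  calc ‖((c - 1 : ℝ) : ℂ) * a - (s : ℂ) * b‖ ≤ ‖((c - 1 : ℝ) : ℂ) * a‖ + ‖(s : ℂ) * b‖ := norm_sub_le _ _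
    _ = |c - 1| * ‖a‖ + |s| * ‖b‖ := by
      rw [norm_mul, norm_mul, Complex.norm_real, Complex.norm_real]; simp
    _ ≤ |c - 1| * N + |s| * N := by
      gcongr
    _ = _ := by ring

lemma aux_add (a b : ℂ) (c s N : ℝ) (ha : ‖a‖ ≤ N) (hb : ‖b‖ ≤ N) :
    ‖(c : ℂ) * a + s * b - a‖ ≤ (|c - 1| + |s|) * N := by
  have e : (c : ℂ) * a + s * b - a = ((c - 1 : ℝ) : ℂ) * a + (s : ℂ) * b := by push_cast; ring
  rw [e]
  calc ‖((c - 1 : ℝ) : ℂ) * a + (s : ℂ) * b‖ ≤ ‖((c - 1 : ℝ) : ℂ) * a‖ + ‖(s : ℂ) * b‖ := norm_add_le _ _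
    _ = |c - 1| * ‖a‖ + |s| * ‖b‖ := by
      rw [norm_mul, norm_mul, Complex.norm_real, Complex.norm_real]; simp
    _ ≤ |c - 1| * N + |s| * N := by
      gcongr
    _ = _ := by ring

section normR
variable (c s : ℝ) (z : C5)

lemma norm_pr_R3p : ‖pr (R3p c s z) - pr z‖ ≤ (|c - 1| + |s|) * ‖pr z‖ := by
  have hN : 0 ≤ (|c - 1| + |s|) * ‖pr z‖ := by positivity
  have n := fun j hj => norm_le_pr z j hj
  refine (pi_norm_le_iff_of_nonneg hN).2 (fin5_cases ?_ ?_ ?_ ?_ ?_)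
  · exact aux_sub (z 0) (z 3) c s _ (n 0 (by decide)) (n 3 (by decide))
  · exact aux_sub (z 1) (z 2) c s _ (n 1 (by decide)) (n 2 (by decide))
  · exact aux_add (z 2) (z 1) c s _ (n 2 (by decide)) (n 1 (by decide))
  · exact aux_add (z 3) (z 0) c s _ (n 3 (by decide)) (n 0 (by decide))
  · simpa [pr] using hN

lemma norm_pr_R1m : ‖pr (R1m c s z) - pr z‖ ≤ (|c - 1| + |s|) * ‖pr z‖ := by
  have hN : 0 ≤ (|c - 1| + |s|) * ‖pr z‖ := by positivity
  have n := fun j hj => norm_le_pr z j hj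
  refine (pi_norm_le_iff_of_nonneg hN).2 (fin5_cases ?_ ?_ ?_ ?_ ?_)
  · exact aux_sub (z 0) (z 1) c s _ (n 0 (by decide)) (n 1 (by decide))
  · exact aux_add (z 1) (z 0) c s _ (n 1 (by decide)) (n 0 (by decide))
  · exact aux_add (z 2) (z 3) c s _ (n 2 (by decide)) (n 3 (by decide))
  · exact aux_sub (z 3) (z 2) c s _ (n 3 (by decide)) (n 2 (by decide))
  · simpa [pr] using hN

lemma norm_pr_R1p : ‖pr (R1p c s z) - pr z‖ ≤ (|c - 1| + |s|) * ‖pr z‖ := by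
  have hN : 0 ≤ (|c - 1| + |s|) * ‖pr z‖ := by positivity
  have n := fun j hj => norm_le_pr z j hj
  refine (pi_norm_le_iff_of_nonneg hN).2 (fin5_cases ?_ ?_ ?_ ?_ ?_)
  · exact aux_sub (z 0) (z 1) c s _ (n 0 (by decide)) (n 1 (by decide))
  · exact aux_add (z 1) (z 0) c s _ (n 1 (by decide)) (n 0 (by decide))
  · exact aux_sub (z 2) (z 3) c s _ (n 2 (by decide)) (n 3 (by decide))
  · exact aux_add (z 3) (z 2) c s _ (n 3 (by decide)) (n 2 (by decide))
  · simpa [pr] using hN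

lemma norm_pr_R3m : ‖pr (R3m c s z) - pr z‖ ≤ (|c - 1| + |s|) * ‖pr z‖ := by
  have hN : 0 ≤ (|c - 1| + |s|) * ‖pr z‖ := by positivity
  have n := fun j hj => norm_le_pr z j hj
  refine (pi_norm_le_iff_of_nonneg hN).2 (fin5_cases ?_ ?_ ?_ ?_ ?_)
  · exact aux_sub (z 0) (z 3) c s _ (n 0 (by decide)) (n 3 (by decide))
  · exact aux_add (z 1) (z 2) c s _ (n 1 (by decide)) (n 2 (by decide))
  · exact aux_sub (z 2) (z 1) c s _ (n 2 (by decide)) (n 1 (by decide))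
  · exact aux_add (z 3) (z 0) c s _ (n 3 (by decide)) (n 0 (by decide))
  · simpa [pr] using hN

end normR

lemma angle_bound {θ : ℝ} (h : |θ| ≤ 1 / 50) :
    |Real.cos θ - 1| + |Real.sin θ| ≤ 1 / 25 := by
  have h1 := Real.abs_sin_le_abs (x := θ)
  have h2 := Real.one_sub_sq_div_two_le_cos (x := θ)
  have h3 := Real.cos_le_one θ
  have h4 : θ ^ 2 ≤ (1 / 50) ^ 2 := by
    rw [← sq_abs θ]; exact pow_le_pow_left₀ (abs_nonneg _) h 2
  have h5 : |Real.cos θ - 1| ≤ 1 / 50 := by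
    rw [abs_le]; constructor <;> nlinarith
  linarith

lemma herm_re_self (z : C5) :
    (herm z z).re = ∑ j, ((z j).re ^ 2 + (z j).im ^ 2) := by
  simp only [herm, Complex.re_sum]
  refine Finset.sum_congr rfl fun j _ => ?_
  simp [pow_two]

lemma moments_bound {z : C5} (hz : z ∈ unitCone) :
    |u1 z| ≤ 1 ∧ |u3 z| ≤ 1 ∧ |v1 z| ≤ 1 ∧ |v3 z| ≤ 1 := by
  have h := herm_re_self z
  rw [hz.1, Fin.sum_univ_five] at h
  simp only [Complex.one_re] at h
  have s0 := sq_nonneg ((z 4).re)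
  have s1 := sq_nonneg ((z 4).im)
  refine ⟨abs_le.2 ⟨?_, ?_⟩, abs_le.2 ⟨?_, ?_⟩, abs_le.2 ⟨?_, ?_⟩, abs_le.2 ⟨?_, ?_⟩⟩ <;>
    simp only [u1, u3, v1, v3, P]
  · nlinarith [sq_nonneg ((z 0).re + (z 1).im), sq_nonneg ((z 0).im - (z 1).re),
      sq_nonneg ((z 2).re + (z 3).im), sq_nonneg ((z 2).im - (z 3).re)]
  · nlinarith [sq_nonneg ((z 0).re - (z 1).im), sq_nonneg ((z 0).im + (z 1).re),
      sq_nonneg ((z 2).re - (z 3).im), sq_nonneg ((z 2).im + (z 3).re)]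
  · nlinarith [sq_nonneg ((z 0).re + (z 3).im), sq_nonneg ((z 0).im - (z 3).re),
      sq_nonneg ((z 1).re + (z 2).im), sq_nonneg ((z 1).im - (z 2).re)]
  · nlinarith [sq_nonneg ((z 0).re - (z 3).im), sq_nonneg ((z 0).im + (z 3).re),
      sq_nonneg ((z 1).re - (z 2).im), sq_nonneg ((z 1).im + (z 2).re)]
  · nlinarith [sq_nonneg ((z 0).re + (z 1).im), sq_nonneg ((z 0).im - (z 1).re),
      sq_nonneg ((z 2).re - (z 3).im), sq_nonneg ((z 2).im + (z 3).re)]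
  · nlinarith [sq_nonneg ((z 0).re - (z 1).im), sq_nonneg ((z 0).im + (z 1).re),
      sq_nonneg ((z 2).re + (z 3).im), sq_nonneg ((z 2).im - (z 3).re)]
  · nlinarith [sq_nonneg ((z 0).re + (z 3).im), sq_nonneg ((z 0).im - (z 3).re),
      sq_nonneg ((z 1).re - (z 2).im), sq_nonneg ((z 1).im + (z 2).re)]
  · nlinarith [sq_nonneg ((z 0).re - (z 3).im), sq_nonneg ((z 0).im + (z 3).re),
      sq_nonneg ((z 1).re + (z 2).im), sq_nonneg ((z 1).im - (z 2).re)]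

lemma abs_eps_mul_of_le {t : ℝ} (h : |t| ≤ 1) : |eps * t| ≤ 1 / 50 :=
  abs_eps_mul (by linarith)

lemma abs_eps_one_sub {t : ℝ} (h : |t| ≤ 1) : |eps * (1 - t)| ≤ 1 / 50 := by
  apply abs_eps_mul
  rw [abs_le]; constructor <;> linarith [(abs_le.1 h).1, (abs_le.1 h).2]

lemma Φ_ne_self {z : C5} (hz : z ∈ unitCone) : Φ z ≠ z := by
  intro hfix
  obtain ⟨b1, b2, b3, b4⟩ := moments_bound hz
  have hz' : τa 1 z ∈ unitCone := by
    refine ⟨?_, ?_⟩
    · rw [herm_τa]; exact hz.1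
    · rw [isoSum_τa]; exact hz.2
  obtain ⟨b1', b2', b3', b4'⟩ := moments_bound hz'
  set r := rA z with hr
  set s := sA z with hs
  set z₁ := R1m (Real.cos (1 * r)) (Real.sin (1 * r)) z with hz₁
  have hz₂ : τa 1 z = R3p (Real.cos (1 * s)) (Real.sin (1 * s)) z₁ := rfl
  set z₂ := τa 1 z with hz₂'
  set W' := wB' z₂ with hW'
  set σ := eps * v3 z₂ with hσ
  set z₃ := R3m (Real.cos (1 * W')) (Real.sin (1 * W')) z₂ with hz₃
  have hΦ : Φ z = R1p (-Real.cos σ) (Real.sin σ) z₃ := by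
    have h1 : wB z₂ = Real.pi - σ := rfl
    have h2 : Φ z = R1p (Real.cos (1 * wB z₂)) (Real.sin (1 * wB z₂)) z₃ := rfl
    rw [h2, one_mul, h1, Real.cos_pi_sub, Real.sin_pi_sub]
  have a1 : |Real.cos (1 * r) - 1| + |Real.sin (1 * r)| ≤ 1 / 25 := by
    apply angle_bound; rw [one_mul, hr, rA, abs_neg]; exact abs_eps_mul_of_le b2
  have a2 : |Real.cos (1 * s) - 1| + |Real.sin (1 * s)| ≤ 1 / 25 := by
    apply angle_bound; rw [one_mul, hs]; exact abs_eps_one_sub b3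
  have a3 : |Real.cos (1 * W') - 1| + |Real.sin (1 * W')| ≤ 1 / 25 := by
    apply angle_bound; rw [one_mul, hW']; exact abs_eps_one_sub b1'
  have a4 : |Real.cos σ - 1| + |(-Real.sin σ)| ≤ 1 / 25 := by
    rw [abs_neg]; apply angle_bound; rw [hσ]; exact abs_eps_mul_of_le b4'
  have d1 := (norm_pr_R1m (Real.cos (1 * r)) (Real.sin (1 * r)) z).trans
    (mul_le_mul_of_nonneg_right a1 (norm_nonneg _))
  have d2 := (norm_pr_R3p (Real.cos (1 * s)) (Real.sin (1 * s)) z₁).trans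
    (mul_le_mul_of_nonneg_right a2 (norm_nonneg _))
  have d3 := (norm_pr_R3m (Real.cos (1 * W')) (Real.sin (1 * W')) z₂).trans
    (mul_le_mul_of_nonneg_right a3 (norm_nonneg _))
  have d4 := (norm_pr_R1p (Real.cos σ) (-Real.sin σ) z₃).trans
    (mul_le_mul_of_nonneg_right a4 (norm_nonneg _))
  rw [← hz₁] at d1
  rw [← hz₂] at d2
  rw [← hz₃] at d3
  have hneg : pr (R1p (-Real.cos σ) (Real.sin σ) z₃) = -pr (R1p (Real.cos σ) (-Real.sin σ) z₃) := by
    ext j; fin_cases j <;> simp [pr, R1p] <;> ring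
  have hY : pr z = -pr (R1p (Real.cos σ) (-Real.sin σ) z₃) := by
    rw [← hneg, ← hΦ, hfix]
  set y₀ := pr z
  set y₁ := pr z₁
  set y₂ := pr z₂
  set y₃ := pr z₃
  set Y := pr (R1p (Real.cos σ) (-Real.sin σ) z₃)
  have t1 : ‖y₁‖ ≤ (26 / 25) * ‖y₀‖ := by
    have := norm_sub_norm_le y₁ y₀; linarith
  have t2 : ‖y₂‖ ≤ (26 / 25) * ‖y₁‖ := by
    have := norm_sub_norm_le y₂ y₁; linarith
  have t3 : ‖y₃‖ ≤ (26 / 25) * ‖y₂‖ := by
    have := norm_sub_norm_le y₃ y₂; linarith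
  have htri : ‖Y - y₀‖ ≤ ‖Y - y₃‖ + ‖y₃ - y₂‖ + ‖y₂ - y₁‖ + ‖y₁ - y₀‖ := by
    have e : Y - y₀ = (Y - y₃) + (y₃ - y₂) + (y₂ - y₁) + (y₁ - y₀) := by abel
    rw [e]
    exact (norm_add_le _ _).trans (add_le_add ((norm_add_le _ _).trans
      (add_le_add (norm_add_le _ _) le_rfl)) le_rfl)
  have h2 : ‖Y - y₀‖ = 2 * ‖y₀‖ := by
    have e : Y - y₀ = (-2 : ℝ) • y₀ := by
      rw [hY]; simp [two_smul]
    rw [e, norm_smul]; norm_num
  have h0 : ‖y₀‖ = 0 := by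
    have hnn := norm_nonneg y₀
    have : 2 * ‖y₀‖ ≤ (1 / 5) * ‖y₀‖ := by
      rw [← h2]
      linarith
    linarith
  have hy0 : y₀ = 0 := norm_eq_zero.1 h0
  have h00 : z 0 = 0 := by
    have := congrFun hy0 0; simpa [y₀, pr] using this
  have h01 : z 1 = 0 := by
    have := congrFun hy0 1; simpa [y₀, pr] using this
  have h02 : z 2 = 0 := by
    have := congrFun hy0 2; simpa [y₀, pr] using this
  have h03 : z 3 = 0 := by
    have := congrFun hy0 3; simpa [y₀, pr] using this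
  have hi := hz.2
  simp only [Fin.sum_univ_five, h00, h01, h02, h03] at hi
  have h04 : z 4 = 0 := by simpa using hi
  have hu := hz.1
  simp [herm, Fin.sum_univ_five, h00, h01, h02, h03, h04] at hu


/-! ### Classification of fixed lines -/

open ComplexConjugate in
lemma herm_smul_self (c : ℂ) (z : C5) : herm (c • z) (c • z) = conj c * c * herm z z := by
  simp only [herm, Fin.sum_univ_five, Pi.smul_apply, smul_eq_mul, map_mul]
  ring

open ComplexConjugate in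
lemma norm_of_fixed {z : C5} (hz : z ∈ unitCone) {c : ℂ} (hc : Φ z = c • z) : ‖c‖ = 1 := by
  have h1 := (Φ_mem_cone hz).1
  rw [hc, herm_smul_self, hz.1, mul_one] at h1
  have h2 : ((Complex.normSq c : ℝ) : ℂ) = 1 := by
    rw [Complex.normSq_eq_conj_mul_self]; exact h1
  have h3 : Complex.normSq c = 1 := by exact_mod_cast h2
  have h4 : ‖c‖ ^ 2 = 1 := by rw [Complex.sq_norm]; exact h3
  have h5 := norm_nonneg c
  nlinarith

lemma four_zero_of_fixed {z : C5} (hz : z ∈ unitCone) {c : ℂ} (hc : Φ z = c • z) : z 4 = 0 := by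
  by_contra h
  have h1 := Φ_four z
  rw [hc] at h1
  simp only [Pi.smul_apply, smul_eq_mul] at h1
  have h2 : c = 1 := by
    have : (c - 1) * z 4 = 0 := by linear_combination h1
    exact sub_eq_zero.1 ((mul_eq_zero.1 this).resolve_right h)
  subst h2
  exact Φ_ne_self hz (by simpa using hc)

/-- The moment equations satisfied along a fixed line. -/
theorem fix_cases {n₁ n₂ n₃ : ℝ} (hn : Sys n₁ n₂ n₃ n₁ n₂ n₃) (hn1 : n₁ < 0) (hn3 : 0 < n₃)
    {z : C5} (hz : z ∈ unitCone) {c : ℂ} (hc : Φ z = c • z) :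
    z 4 = 0 ∧
    ((u1 z = 1 ∧ u2 z = 0 ∧ u3 z = 0 ∧ v1 z = 1 ∧ v2 z = 0 ∧ v3 z = 0) ∨
     (u1 z = n₁ ∧ u2 z = n₂ ∧ u3 z = n₃ ∧ v1 z = n₁ ∧ v2 z = n₂ ∧ v3 z = n₃) ∨
     (u1 z = n₁ ∧ u2 z = n₂ ∧ u3 z = -n₃ ∧ v1 z = n₁ ∧ v2 z = n₂ ∧ v3 z = -n₃)) := by
  have h4 := four_zero_of_fixed hz hc
  refine ⟨h4, ?_⟩
  have hnc := norm_of_fixed hz hc
  have hu := unit_u hz h4
  have hv := unit_v hz h4
  -- moments of the image
  have E1 : u1 (Φ z) = u1 z := by rw [hc]; exact u1_smul hnc z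
  have E2 : u2 (Φ z) = u2 z := by rw [hc]; exact u2_smul hnc z
  have E5 : v2 (Φ z) = v2 z := by rw [hc]; exact v2_smul hnc z
  have E6 : v3 (Φ z) = v3 z := by rw [hc]; exact v3_smul hnc z
  have h1 : Real.cos (2 * (eps * (1 - v1 z))) * u1 z - Real.sin (2 * (eps * (1 - v1 z))) * u2 z = u1 z := by
    have := E1
    rw [Φ, u1_τb, m_u1_τa] at this
    exact this
  have h2 : -Real.sin (2 * (-(eps * u3 z))) * v2 z + Real.cos (2 * (-(eps * u3 z))) * v3 z = v3 z := by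
    have := E6
    rw [Φ, v3_τb, m_v3_τa] at this
    exact this
  have hv3' : v3 (τa 1 z) = v3 z := by
    have := E6
    rwa [Φ, v3_τb] at this
  have hu1' : u1 (τa 1 z) = u1 z := by
    have := E1
    rwa [Φ, u1_τb] at this
  have h3 : Real.cos (2 * (Real.pi - eps * v3 z)) *
        (Real.sin (2 * (eps * (1 - v1 z))) * u1 z + Real.cos (2 * (eps * (1 - v1 z))) * u2 z)
        - Real.sin (2 * (Real.pi - eps * v3 z)) * u3 z = u2 z := by
    have := E2
    rw [Φ, m_u2_τb, m_u2_τa, u3_τa] at this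
    have hw : wB (τa 1 z) = Real.pi - eps * v3 z := by simp only [wB, hv3']
    rw [hw] at this
    exact this
  have h6 : -Real.sin (2 * (eps * (1 - u1 z))) * v1 z + Real.cos (2 * (eps * (1 - u1 z))) *
        (Real.cos (2 * (-(eps * u3 z))) * v2 z + Real.sin (2 * (-(eps * u3 z))) * v3 z) = v2 z := by
    have := E5
    rw [Φ, m_v2_τb, m_v2_τa, v1_τa] at this
    have hw : wB' (τa 1 z) = eps * (1 - u1 z) := by simp only [wB', hu1']
    rw [hw] at this
    exact this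
  rcases rot_cases hu hv h1 h2 h3 h6 with hp | ⟨hS, hx1, ha1, hy, hb⟩
  · left; exact hp
  · right
    exact classify hS hx1 ha1 hy hb hn hn1 hn3

/-- Conversely, solutions of the reduced system are fixed lines. -/
theorem fixed_of_sys {z : C5} (hz : z ∈ unitCone) (h4 : z 4 = 0)
    (hS : Sys (u1 z) (u2 z) (u3 z) (v1 z) (v2 z) (v3 z)) :
    Φ z = herm z (Φ z) • z := by
  obtain ⟨h1, h2, h3, h3', h5, h6⟩ := rot_of_sys hS
  have hv3' : v3 (τa 1 z) = v3 z := by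
    rw [m_v3_τa]; exact h2
  have hu1' : u1 (τa 1 z) = u1 z := by
    rw [m_u1_τa]; exact h1
  have hw : wB (τa 1 z) = Real.pi - eps * v3 z := by simp only [wB, hv3']
  have hw' : wB' (τa 1 z) = eps * (1 - u1 z) := by simp only [wB', hu1']
  apply line_of_moments hz (Φ_mem_cone hz) h4 (by rw [Φ_four, h4])
  · rw [Φ, u1_τb]; exact hu1'
  · rw [Φ, m_u2_τb, m_u2_τa, u3_τa, hw]; exact h3
  · rw [Φ, m_u3_τb, m_u2_τa, u3_τa, hw]; exact h3'
  · rw [Φ, m_v1_τb, m_v2_τa, v1_τa, hw']; exact h5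
  · rw [Φ, m_v2_τb, m_v2_τa, v1_τa, hw']; exact h6
  · rw [Φ, v3_τb]; exact hv3'


/-! ### The three lines -/

noncomputable def ρ : ℝ := Real.sqrt (1 / 2)

lemma ρ_sq : ρ ^ 2 = 1 / 2 := Real.sq_sqrt (by norm_num)
lemma ρ_pos : 0 < ρ := Real.sqrt_pos.2 (by norm_num)

/-- A point of the cone whose two moment vectors both equal `(a, b, d)`. -/
noncomputable def pt (a b d : ℝ) : C5 :=
  ![(ρ : ℂ), (ρ : ℂ) * a * Complex.I, (ρ : ℂ) * b * Complex.I, (ρ : ℂ) * d * Complex.I, 0]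

lemma pt_mem_cone {a b d : ℝ} (h : a ^ 2 + b ^ 2 + d ^ 2 = 1) : pt a b d ∈ unitCone := by
  have hc : ((ρ : ℂ)) ^ 2 = 1 / 2 := by
    rw [← Complex.ofReal_pow, ρ_sq]; norm_num
  have hC : ((a : ℂ)) ^ 2 + (b : ℂ) ^ 2 + (d : ℂ) ^ 2 = 1 := by exact_mod_cast h
  have hI : Complex.I ^ 2 = -1 := Complex.I_sq
  refine ⟨?_, ?_⟩
  · simp only [herm, Fin.sum_univ_five, pt, Matrix.cons_val, map_mul, Complex.conj_ofReal,
      Complex.conj_I, map_zero]
    have : (ρ : ℂ) * (ρ : ℂ) + (ρ : ℂ) * a * -Complex.I * ((ρ : ℂ) * a * Complex.I)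
        + (ρ : ℂ) * b * -Complex.I * ((ρ : ℂ) * b * Complex.I)
        + (ρ : ℂ) * d * -Complex.I * ((ρ : ℂ) * d * Complex.I) + 0 * 0
        = (ρ : ℂ) ^ 2 * (1 + (-Complex.I ^ 2) * ((a : ℂ) ^ 2 + (b : ℂ) ^ 2 + (d : ℂ) ^ 2)) := by ring
    rw [this, hC, hI, hc]; norm_num
  · simp only [Fin.sum_univ_five, pt, Matrix.cons_val]
    have : (ρ : ℂ) ^ 2 + ((ρ : ℂ) * a * Complex.I) ^ 2 + ((ρ : ℂ) * b * Complex.I) ^ 2
        + ((ρ : ℂ) * d * Complex.I) ^ 2 + 0 ^ 2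
        = (ρ : ℂ) ^ 2 * (1 + (Complex.I ^ 2) * ((a : ℂ) ^ 2 + (b : ℂ) ^ 2 + (d : ℂ) ^ 2)) := by ring
    rw [this, hC, hI]; norm_num

lemma pt_four (a b d : ℝ) : pt a b d 4 = 0 := rfl

section ptmom
variable (a b d : ℝ)

lemma P_pt_0 (k : Fin 5) (t : ℝ) (hk : pt a b d k = (ρ : ℂ) * t * Complex.I) :
    P (pt a b d) 0 k = t := by
  have h0 : pt a b d 0 = (ρ : ℂ) := rfl
  simp only [P, h0, hk]
  simp
  linear_combination (2 * t) * ρ_sq

lemma u1_pt : u1 (pt a b d) = a := by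
  have h1 := P_pt_0 a b d 1 a rfl
  simp only [u1, h1]
  simp [P, pt]
lemma u2_pt : u2 (pt a b d) = b := by
  have h1 := P_pt_0 a b d 2 b rfl
  simp only [u2, h1]
  simp [P, pt]
lemma u3_pt : u3 (pt a b d) = d := by
  have h1 := P_pt_0 a b d 3 d rfl
  simp only [u3, h1]
  simp [P, pt]
lemma v1_pt : v1 (pt a b d) = a := by
  have h1 := P_pt_0 a b d 1 a rfl
  simp only [v1, h1]
  simp [P, pt]
lemma v2_pt : v2 (pt a b d) = b := by
  have h1 := P_pt_0 a b d 2 b rfl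
  simp only [v2, h1]
  simp [P, pt]
lemma v3_pt : v3 (pt a b d) = d := by
  have h1 := P_pt_0 a b d 3 d rfl
  simp only [v3, h1]
  simp [P, pt]

end ptmom

/-- A line through a cone point with prescribed moments is the line through `pt`. -/
lemma span_eq_of_moments {z : C5} {a b d : ℝ} (hz : z ∈ unitCone) (h4 : z 4 = 0)
    (hp : a ^ 2 + b ^ 2 + d ^ 2 = 1)
    (e1 : u1 z = a) (e2 : u2 z = b) (e3 : u3 z = d) (e4 : v1 z = a) (e5 : v2 z = b) (e6 : v3 z = d) :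
    Submodule.span ℂ {z} = Submodule.span ℂ {pt a b d} := by
  have hline := line_of_moments (pt_mem_cone hp) hz (pt_four a b d) h4
    (by rw [e1, u1_pt]) (by rw [e2, u2_pt]) (by rw [e3, u3_pt])
    (by rw [e4, v1_pt]) (by rw [e5, v2_pt]) (by rw [e6, v3_pt])
  set α := herm (pt a b d) z with hα
  have hα0 : α ≠ 0 := by
    intro h0
    rw [h0, zero_smul] at hline
    have h1 := hz.1
    rw [hline] at h1
    simp [herm] at h1
  rw [hline]
  exact Submodule.span_singleton_smul_eq (IsUnit.mk0 α hα0) _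

lemma pt_inj {a b d a' b' d' : ℝ}
    (h : Submodule.span ℂ {pt a b d} = Submodule.span ℂ {pt a' b' d'}) :
    a = a' ∧ b = b' ∧ d = d' := by
  have h1 : pt a b d ∈ Submodule.span ℂ {pt a' b' d'} := by
    rw [← h]; exact Submodule.mem_span_singleton_self _
  obtain ⟨c, hc⟩ := Submodule.mem_span_singleton.1 h1
  have hρ : (ρ : ℂ) ≠ 0 := by exact_mod_cast ρ_pos.ne'
  have h0 : c = 1 := by
    have := congrFun hc 0
    simp only [Pi.smul_apply, smul_eq_mul, pt, Matrix.cons_val] at this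
    have h2 : (c - 1) * (ρ : ℂ) = 0 := by linear_combination this
    exact sub_eq_zero.1 ((mul_eq_zero.1 h2).resolve_right hρ)
  subst h0
  have hI := Complex.I_ne_zero
  refine ⟨?_, ?_, ?_⟩
  · have := congrFun hc 1
    simp only [Pi.smul_apply, smul_eq_mul, pt, Matrix.cons_val, one_mul] at this
    have h3 : (ρ : ℂ) * Complex.I * ((a' : ℂ) - a) = 0 := by linear_combination this
    have h4 := (mul_eq_zero.1 h3).resolve_left (mul_ne_zero hρ hI)
    have h5 : (a' : ℂ) = a := sub_eq_zero.1 h4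
    exact_mod_cast h5.symm
  · have := congrFun hc 2
    simp only [Pi.smul_apply, smul_eq_mul, pt, Matrix.cons_val, one_mul] at this
    have h3 : (ρ : ℂ) * Complex.I * ((b' : ℂ) - b) = 0 := by linear_combination this
    have h4 := (mul_eq_zero.1 h3).resolve_left (mul_ne_zero hρ hI)
    have h5 : (b' : ℂ) = b := sub_eq_zero.1 h4
    exact_mod_cast h5.symm
  · have := congrFun hc 3
    simp only [Pi.smul_apply, smul_eq_mul, pt, Matrix.cons_val, one_mul] at this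
    have h3 : (ρ : ℂ) * Complex.I * ((d' : ℂ) - d) = 0 := by linear_combination this
    have h4 := (mul_eq_zero.1 h3).resolve_left (mul_ne_zero hρ hI)
    have h5 : (d' : ℂ) = d := sub_eq_zero.1 h4
    exact_mod_cast h5.symm

lemma Sys_one : Sys 1 0 0 1 0 0 := by
  refine ⟨by norm_num, by norm_num, ?_, ?_, ?_, ?_⟩ <;> simp [T_zero]

theorem fixedLines_eq {n₁ n₂ n₃ : ℝ} (hn : Sys n₁ n₂ n₃ n₁ n₂ n₃) (hn1 : n₁ < 0) (hn3 : 0 < n₃) :
    fixedLines theLift =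
      {Submodule.span ℂ {pt 1 0 0}, Submodule.span ℂ {pt n₁ n₂ n₃}, Submodule.span ℂ {pt n₁ n₂ (-n₃)}} := by
  have hu1 : (1 : ℝ) ^ 2 + 0 ^ 2 + 0 ^ 2 = 1 := by norm_num
  have hu2 : n₁ ^ 2 + n₂ ^ 2 + n₃ ^ 2 = 1 := hn.hu
  have hu3 : n₁ ^ 2 + n₂ ^ 2 + (-n₃) ^ 2 = 1 := by rw [neg_sq]; exact hu2
  have key : ∀ a b d : ℝ, a ^ 2 + b ^ 2 + d ^ 2 = 1 → Sys a b d a b d →
      Submodule.span ℂ {pt a b d} ∈ fixedLines theLift := by
    intro a b d h hS
    refine ⟨pt a b d, pt_mem_cone h, rfl, ?_⟩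
    have h0 : theLift.Ψ (1, pt a b d) = Φ (pt a b d) := Ψ₀_one _
    rw [h0]
    have hS' : Sys (u1 (pt a b d)) (u2 (pt a b d)) (u3 (pt a b d))
        (v1 (pt a b d)) (v2 (pt a b d)) (v3 (pt a b d)) := by
      rw [u1_pt, u2_pt, u3_pt, v1_pt, v2_pt, v3_pt]; exact hS
    rw [fixed_of_sys (pt_mem_cone h) (pt_four a b d) hS']
    exact Submodule.smul_mem _ _ (Submodule.mem_span_singleton_self _)
  ext ℓ
  constructor
  · rintro ⟨z, hz, rfl, hmem⟩
    have h0 : theLift.Ψ (1, z) = Φ z := Ψ₀_one _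
    rw [h0] at hmem
    obtain ⟨c, hc⟩ := Submodule.mem_span_singleton.1 hmem
    obtain ⟨h4, hcase⟩ := fix_cases hn hn1 hn3 hz hc.symm
    rcases hcase with ⟨e1, e2, e3, e4, e5, e6⟩ | ⟨e1, e2, e3, e4, e5, e6⟩ | ⟨e1, e2, e3, e4, e5, e6⟩
    · left; exact span_eq_of_moments hz h4 hu1 e1 e2 e3 e4 e5 e6
    · right; left; exact span_eq_of_moments hz h4 hu2 e1 e2 e3 e4 e5 e6
    · right; right; exact span_eq_of_moments hz h4 hu3 e1 e2 e3 e4 e5 e6
  · rintro (rfl | rfl | rfl)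
    · exact key _ _ _ hu1 Sys_one
    · exact key _ _ _ hu2 hn
    · exact key _ _ _ hu3 hn.neg

theorem ncard_fixedLines : (fixedLines theLift).ncard = 3 := by
  obtain ⟨n₁, n₂, n₃, hn, hn1, hn3⟩ := exists_n
  rw [fixedLines_eq hn hn1 hn3, Set.ncard_eq_three]
  refine ⟨_, _, _, ?_, ?_, ?_, rfl⟩
  · intro h
    have := (pt_inj h).1
    linarith
  · intro h
    have := (pt_inj h).1
    linarith
  · intro h
    have := (pt_inj h).2.2
    linarith


/-! ### The degenerate fixed point -/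

noncomputable def zp : C5 := pt 1 0 0

/-- The tangent direction. -/
def w0 : C5 := ![0, 0, 1, 0, 0]

/-- The line through `zp` in direction `w0`. -/
noncomputable def qq (h : ℝ) : C5 := ![(ρ : ℂ), (ρ : ℂ) * Complex.I, (h : ℂ), 0, 0]

lemma zp_add (h : ℝ) : zp + h • w0 = qq h := by
  refine funext (fin5_cases ?_ ?_ ?_ ?_ ?_) <;> simp [zp, pt, w0, qq]

section qmom
variable (h : ℝ)

lemma u1_qq : u1 (qq h) = 1 := by
  simp [u1, P, qq]; linear_combination 2 * ρ_sq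
lemma u2_qq : u2 (qq h) = 0 := by
  simp [u2, P, qq]
lemma u3_qq : u3 (qq h) = -(2 * ρ * h) := by
  simp [u3, P, qq]; ring
lemma v1_qq : v1 (qq h) = 1 := by
  simp [v1, P, qq]; linear_combination 2 * ρ_sq
lemma v2_qq : v2 (qq h) = 0 := by
  simp [v2, P, qq]
lemma v3_qq : v3 (qq h) = 2 * ρ * h := by
  simp [v3, P, qq]; ring

end qmom

noncomputable def rhoF (h : ℝ) : ℝ := 2 * eps * ρ * h
noncomputable def sigF (h : ℝ) : ℝ := 2 * eps * ρ * h * Real.cos (2 * rhoF h)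
noncomputable def kap : ℝ := 2 * eps * ρ

noncomputable def GG (h : ℝ) : C5 :=
  R1p (-Real.cos (sigF h)) (Real.sin (sigF h))
    (R1m (Real.cos (rhoF h)) (Real.sin (rhoF h)) (qq h))

lemma Φ_qq (h : ℝ) : Φ (qq h) = GG h := by
  have hs : sA (qq h) = 0 := by simp [sA, v1_qq]
  have hr : rA (qq h) = rhoF h := by
    simp [rA, u3_qq, rhoF]; ring
  have hτ : τa 1 (qq h) = R1m (Real.cos (rhoF h)) (Real.sin (rhoF h)) (qq h) := by
    simp only [τa, one_mul, hs, hr, Real.cos_zero, Real.sin_zero, R3p_one_zero]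
  have hv3 : v3 (τa 1 (qq h)) = 2 * ρ * h * Real.cos (2 * rhoF h) := by
    rw [m_v3_τa, hr, v2_qq, v3_qq]; ring
  have hu1 : u1 (τa 1 (qq h)) = 1 := by
    rw [m_u1_τa, hs, u1_qq, u2_qq]; simp
  have hW : wB (τa 1 (qq h)) = Real.pi - sigF h := by
    simp only [wB, hv3, sigF]; ring
  have hW' : wB' (τa 1 (qq h)) = 0 := by
    simp only [wB', hu1]; ring
  simp only [Φ, τb, one_mul, hW, hW', Real.cos_zero, Real.sin_zero, R3m_one_zero,
    Real.cos_pi_sub, Real.sin_pi_sub]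
  rw [hτ]; rfl

lemma hasDerivAt_rhoF : HasDerivAt rhoF kap 0 := by
  exact ((hasDerivAt_id (0 : ℝ)).const_mul (2 * eps * ρ)).congr_deriv (by simp [kap])

lemma hasDerivAt_sigF : HasDerivAt sigF kap 0 := by
  have h1 : HasDerivAt (fun h : ℝ => 2 * eps * ρ * h) kap 0 := hasDerivAt_rhoF
  have h2 : HasDerivAt (fun h : ℝ => Real.cos (2 * rhoF h)) (-Real.sin (2 * rhoF 0) * (2 * kap)) 0 :=
    (hasDerivAt_rhoF.const_mul 2).cos
  have h3 := h1.mul h2
  refine h3.congr_deriv ?_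
  simp [rhoF]

lemma rhoF_zero : rhoF 0 = 0 := by simp [rhoF]
lemma sigF_zero : sigF 0 = 0 := by simp [sigF]

lemma hasDerivAt_GG : HasDerivAt GG ![0, 0, -1, 0, 0] 0 := by
  have hCr : HasDerivAt (fun h : ℝ => ((Real.cos (rhoF h) : ℝ) : ℂ)) 0 0 := by
    have := (hasDerivAt_rhoF.cos).ofReal_comp
    refine this.congr_deriv ?_
    simp [rhoF_zero]
  have hSr : HasDerivAt (fun h : ℝ => ((Real.sin (rhoF h) : ℝ) : ℂ)) (kap : ℂ) 0 := by
    have := (hasDerivAt_rhoF.sin).ofReal_comp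
    refine this.congr_deriv ?_
    simp [rhoF_zero]
  have hCs : HasDerivAt (fun h : ℝ => ((-Real.cos (sigF h) : ℝ) : ℂ)) 0 0 := by
    have := ((hasDerivAt_sigF.cos).neg).ofReal_comp
    refine this.congr_deriv ?_
    simp [sigF_zero]
  have hSs : HasDerivAt (fun h : ℝ => ((Real.sin (sigF h) : ℝ) : ℂ)) (kap : ℂ) 0 := by
    have := (hasDerivAt_sigF.sin).ofReal_comp
    refine this.congr_deriv ?_
    simp [sigF_zero]
  have hh : HasDerivAt (fun h : ℝ => (h : ℂ)) 1 0 := Complex.ofRealCLM.hasDerivAt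
  have hρ : HasDerivAt (fun _ : ℝ => (ρ : ℂ)) 0 0 := hasDerivAt_const _ _
  have hρI : HasDerivAt (fun _ : ℝ => (ρ : ℂ) * Complex.I) 0 0 := hasDerivAt_const _ _
  have h00 : HasDerivAt (fun _ : ℝ => (0 : ℂ)) 0 0 := hasDerivAt_const _ _
  -- inner coordinates
  have N0 := (hCr.mul hρ).sub (hSr.mul hρI)
  have N1 := (hCr.mul hρI).add (hSr.mul hρ)
  have N2 := (hCr.mul hh).add (hSr.mul h00)
  have N3 := (hCr.mul h00).sub (hSr.mul hh)
  rw [hasDerivAt_pi]
  refine fin5_cases ?_ ?_ ?_ ?_ ?_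
  · refine ((hCs.mul N0).sub (hSs.mul N1)).congr_deriv ?_
    simp [rhoF_zero, sigF_zero]
  · refine ((hCs.mul N1).add (hSs.mul N0)).congr_deriv ?_
    simp [rhoF_zero, sigF_zero]
  · refine ((hCs.mul N2).sub (hSs.mul N3)).congr_deriv ?_
    simp [rhoF_zero, sigF_zero]
  · refine ((hCs.mul N3).add (hSs.mul N2)).congr_deriv ?_
    simp [rhoF_zero, sigF_zero]
  · exact (hasDerivAt_const (0 : ℝ) (0 : ℂ)).congr_deriv (by simp)

lemma Φ_zp : Φ zp = (-1 : ℂ) • zp := by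
  have h1 := Φ_qq 0
  have h2 : zp = qq 0 := by
    have := zp_add 0
    simpa using this
  rw [h2, h1]
  refine funext (fin5_cases ?_ ?_ ?_ ?_ ?_) <;>
    simp [GG, R1p, R1m, qq, rhoF_zero, sigF_zero]

theorem degenerate : HasDegenerateFixedPoint theLift := by
  have hcone : zp ∈ unitCone := pt_mem_cone (by norm_num)
  refine ⟨zp, hcone, -1, ?_, w0, ?_, ?_, 0, ?_⟩
  · exact (Ψ₀_one zp).trans Φ_zp
  · constructor <;> simp [herm, Fin.sum_univ_five, zp, pt, w0]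
  · intro r h
    have := congrFun h 2
    simp [w0, zp, pt] at this
  · have hf : (fun x : C5 => theLift.Ψ (1, x)) = Φ := funext Ψ₀_one
    rw [hf]
    have hd : Differentiable ℝ Φ := by
      have h1 : ContDiff ℝ (⊤ : ℕ∞) (fun x : C5 => Ψ₀ (1, x)) :=
        contDiff_Ψ₀.comp (contDiff_const.prodMk contDiff_id)
      have h2 : (fun x : C5 => Ψ₀ (1, x)) = Φ := funext Ψ₀_one
      rw [h2] at h1
      exact h1.differentiable (by simp)
    have hl : HasDerivAt (fun h : ℝ => zp + h • w0) w0 0 := by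
      have := ((hasDerivAt_id (0 : ℝ)).smul_const w0).const_add zp
      simpa using this
    have hfd : HasFDerivAt Φ (fderiv ℝ Φ zp) (zp + (0 : ℝ) • w0) := by
      simpa using (hd zp).hasFDerivAt
    have hcomp := hfd.comp_hasDerivAt (0 : ℝ) hl
    have heq : (Φ ∘ fun h : ℝ => zp + h • w0) = GG := by
      funext h
      simp only [Function.comp, zp_add, Φ_qq]
    rw [heq] at hcomp
    rw [hcomp.unique hasDerivAt_GG]
    refine funext (fin5_cases ?_ ?_ ?_ ?_ ?_) <;> simp [w0]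

end Crest.Agent.H7QuadricFix
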