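/-
GADC additivity (S0534, S0535): shared definitions for the helper files `H8G*`.
Definitions only; no proofs of anything here.
-/
import Mathlib
import Crest.Prelude.Def_QState
import Crest.Prelude.Def_QChannel
import Crest.Prelude.Def_AmpDamp

set_option autoImplicit false

namespace Crest.Agent.H8G

open Matrix
open scoped ComplexOrder

variable {n : Type*} [Fintype n] [DecidableEq n]

/-- Trace function `Tr f(A)` of a Hermitian matrix: the sum of `f` over the eigenvalues counted
with multiplicity (`0` for a non-Hermitian matrix). -/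
noncomputable def trF (f : ℝ → ℝ) (A : Matrix n n ℂ) : ℝ :=
  if h : A.IsHermitian then ∑ i, f (h.eigenvalues i) else 0

/-- The real quadratic form `Re ⟨v, A v⟩`. -/
noncomputable def qf (A : Matrix n n ℂ) (v : n → ℂ) : ℝ :=
  (star v ⬝ᵥ (A *ᵥ v)).re

/-- A 2×2 block matrix indexed by `Bool × n`: block `A` at `(false,false)`, `B` at `(false,true)`,
`C` at `(true,false)`, `D` at `(true,true)`. -/
def qb {α : Type*} (A B C D : Matrix n n α) : Matrix (Bool × n) (Bool × n) α :=
  Matrix.of fun p q =>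
    match p.1, q.1 with
    | false, false => A p.2 q.2
    | false, true => B p.2 q.2
    | true, false => C p.2 q.2
    | true, true => D p.2 q.2

/-- `(t + T)^{-1/2}` for a Hermitian matrix `T`, through its eigendecomposition (`0` if not
Hermitian). -/
noncomputable def isq (T : Matrix n n ℂ) (t : ℝ) : Matrix n n ℂ :=
  if h : T.IsHermitian then
    (h.eigenvectorUnitary : Matrix n n ℂ) *
      diagonal (fun i => (((Real.sqrt (t + h.eigenvalues i))⁻¹ : ℝ) : ℂ)) *
      star (h.eigenvectorUnitary : Matrix n n ℂ)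
  else 0

/-- log-determinant (real part of the determinant, then `Real.log`). -/
noncomputable def ldet (A : Matrix n n ℂ) : ℝ := Real.log (A.det.re)

/-- Parameters of the scalar potentials: channel cells `a b c d`, `e2 = e²`, and the point `(A, p)`
(the traces of the blocks `X`, `Z`). -/
structure Par where
  a : ℝ
  b : ℝ
  c : ℝ
  d : ℝ
  e2 : ℝ
  A : ℝ
  p : ℝ

/-- Generic parameters: everything positive, `a+c=1`, `b+d=1`, `e² = ad-bc`. -/
structure Par.Valid (P : Par) : Prop where
  ha : 0 < P.a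
  hb : 0 < P.b
  hc : 0 < P.c
  hd : 0 < P.d
  he2 : 0 < P.e2
  hA : 0 < P.A
  hp : 0 < P.p
  hac : P.a + P.c = 1
  hbd : P.b + P.d = 1
  hdet : P.e2 = P.a * P.d - P.b * P.c

namespace Par
variable (P : Par)

noncomputable def t1 : ℝ := P.a * P.A + P.b * P.p
noncomputable def t2 : ℝ := P.c * P.A + P.d * P.p
noncomputable def kap : ℝ := P.e2 * P.A * P.p
noncomputable def disc : ℝ := Real.sqrt ((P.t1 - P.t2) ^ 2 + 4 * P.kap)
/-- larger eigenvalue of `[[t1, √kap], [√kap, t2]]`. -/
noncomputable def l1 : ℝ := (P.t1 + P.t2 + P.disc) / 2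
/-- smaller eigenvalue of `[[t1, √kap], [√kap, t2]]`. -/
noncomputable def l2 : ℝ := (P.t1 + P.t2 - P.disc) / 2
noncomputable def B : ℝ := P.l1 - P.t1
noncomputable def C : ℝ := P.t1 - P.l2
noncomputable def w1 : ℝ := P.C / (P.B + P.C)
noncomputable def w2 : ℝ := P.B / (P.B + P.C)
noncomputable def al1 : ℝ := P.A / P.t1
noncomputable def be1 : ℝ := P.p / P.t2
/-- cost `c(u,v) = -log(1 - e² u v)`. -/
noncomputable def cost (u v : ℝ) : ℝ := -Real.log (1 - P.e2 * u * v)
noncomputable def Gan (u : ℝ) : ℝ :=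
  -P.w1 * Real.log (1 + P.B / P.A * u) - P.w2 * Real.log (1 - P.C / P.A * u)
noncomputable def Han (v : ℝ) : ℝ :=
  -P.w2 * Real.log (1 + P.C / P.p * v) - P.w1 * Real.log (1 - P.B / P.p * v)
/-- potential `G` on `[0, 1/a]`. -/
noncomputable def G (u : ℝ) : ℝ := if u ≤ P.al1 then P.Gan u else P.cost u P.be1 - P.Han P.be1
/-- potential `H` on `[0, 1/d]`. -/
noncomputable def H (v : ℝ) : ℝ := if v ≤ P.be1 then P.Han v else P.cost (1 / P.a) v - P.G (1 / P.a)
/-- the constant `ε` for `L1`. -/
noncomputable def eps1 : ℝ :=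
  max (P.kap / (P.A ^ 2 * min P.a P.c))
      ((1 - P.a * P.al1) ^ 2 / ((P.a * (P.t2 / (P.e2 * P.p)) - 1) * P.al1))
/-- the constant `ε'` for `L2`. -/
noncomputable def eps2 : ℝ :=
  max (P.kap / (P.p ^ 2 * min P.d P.b))
      ((1 - P.d * P.be1) ^ 2 / ((P.d * (P.a / P.e2) - 1) * P.be1))
/-- monotone function `L1 = -(a/ε) log(1+εu) - log(1-au) - G(u)` on `[0, 1/a)`. -/
noncomputable def L1 (u : ℝ) : ℝ :=
  -(P.a / P.eps1) * Real.log (1 + P.eps1 * u) - Real.log (1 - P.a * u) - P.G u
/-- monotone function `L2 = -(d/ε') log(1+ε'v) - log(1-dv) - H(v)` on `[0, 1/d)`. -/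
noncomputable def L2 (v : ℝ) : ℝ :=
  -(P.d / P.eps2) * Real.log (1 + P.eps2 * v) - Real.log (1 - P.d * v) - P.H v

end Par

end Crest.Agent.H8G
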