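/-
Spectral toolkit for Hermitian matrices: trace functions through any unitary diagonalisation,
shifts, Jensen/Peierls inequalities, `isq` (the inverse square root of `t + T`).
-/
import Crest.Agent.H8GDefs

set_option autoImplicit false

namespace Crest.Agent.H8G

open Matrix Crest.Quantum
open scoped ComplexOrder

variable {n : Type*} [Fintype n] [DecidableEq n]

theorem trF_of_herm {A : Matrix n n ℂ} (h : A.IsHermitian) (f : ℝ → ℝ) :
    trF f A = ∑ i, f (h.eigenvalues i) := by
  simp [trF, h]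

theorem vnEntropy_eq_trF (A : Matrix n n ℂ) : vnEntropy A = trF Real.negMulLog A := by
  by_cases h : A.IsHermitian
  · rw [trF_of_herm h]
    simp only [vnEntropy, h, dite_true, Real.negMulLog, neg_mul, Finset.sum_neg_distrib]
  · simp [vnEntropy, trF, h]

/-- The spectral decomposition in plain matrix form. -/
theorem spectral_form {A : Matrix n n ℂ} (h : A.IsHermitian) :
    A = (h.eigenvectorUnitary : Matrix n n ℂ) *
        diagonal (fun i => ((h.eigenvalues i : ℝ) : ℂ)) *
        (h.eigenvectorUnitary : Matrix n n ℂ)ᴴ := by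
  conv_lhs => rw [h.spectral_theorem, Unitary.conjStarAlgAut_apply]
  rfl

theorem eU_conj_mul {A : Matrix n n ℂ} (h : A.IsHermitian) :
    (h.eigenvectorUnitary : Matrix n n ℂ)ᴴ * (h.eigenvectorUnitary : Matrix n n ℂ) = 1 := by
  have := Unitary.coe_star_mul_self h.eigenvectorUnitary
  simpa [Matrix.star_eq_conjTranspose] using this

theorem eU_mul_conj {A : Matrix n n ℂ} (h : A.IsHermitian) :
    (h.eigenvectorUnitary : Matrix n n ℂ) * (h.eigenvectorUnitary : Matrix n n ℂ)ᴴ = 1 := by
  have := Unitary.coe_mul_star_self h.eigenvectorUnitary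
  simpa [Matrix.star_eq_conjTranspose] using this

/-- A matrix given by a unitary diagonalisation is Hermitian. -/
theorem herm_of_decomp (W : Matrix n n ℂ) (D : n → ℝ) :
    (W * diagonal (fun j => ((D j : ℝ) : ℂ)) * Wᴴ).IsHermitian := by
  unfold Matrix.IsHermitian
  rw [conjTranspose_mul, conjTranspose_mul, conjTranspose_conjTranspose, diagonal_conjTranspose,
    Matrix.mul_assoc]
  congr 2
  ext i j
  by_cases hij : i = j
  · subst hij; simp [Complex.conj_ofReal]
  · simp [hij]

/-- Eigenvalues of a matrix with a unitary diagonalisation: as a multiset they agree with `D`;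
so any trace function can be read off. -/
theorem trF_of_decomp (W : Matrix n n ℂ) (D : n → ℝ) (hW : Wᴴ * W = 1) (f : ℝ → ℝ) :
    trF f (W * diagonal (fun j => ((D j : ℝ) : ℂ)) * Wᴴ) = ∑ j, f (D j) := by
  have hH := herm_of_decomp W D
  rw [trF_of_herm hH]
  set A := W * diagonal (fun j => ((D j : ℝ) : ℂ)) * Wᴴ with hA
  have h1 : A.charpoly = (diagonal (fun j => ((D j : ℝ) : ℂ))).charpoly := by
    have : A = W * (diagonal (fun j => ((D j : ℝ) : ℂ)) * Wᴴ) := by rw [hA, Matrix.mul_assoc]
    rw [this, Matrix.charpoly_mul_comm, Matrix.mul_assoc, hW, Matrix.mul_one]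
  have h2 : A.charpoly.roots =
      Multiset.map (fun j => ((D j : ℝ) : ℂ)) Finset.univ.val := by
    rw [h1, Matrix.charpoly_diagonal, Polynomial.roots_prod]
    · simp
    · simp [Finset.prod_ne_zero_iff, Polynomial.X_sub_C_ne_zero]
  have h3 := hH.roots_charpoly_eq_eigenvalues
  rw [h2] at h3
  have h4 : Multiset.map (fun j => D j) Finset.univ.val =
      Multiset.map (fun j => hH.eigenvalues j) Finset.univ.val := by
    have := congrArg (Multiset.map Complex.re) h3
    simpa [Multiset.map_map, Function.comp_def] using this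
  calc ∑ i, f (hH.eigenvalues i)
      = (Multiset.map f (Multiset.map (fun j => hH.eigenvalues j) Finset.univ.val)).sum := by
        rw [Multiset.map_map]; rfl
    _ = (Multiset.map f (Multiset.map (fun j => D j) Finset.univ.val)).sum := by rw [h4]
    _ = ∑ j, f (D j) := by rw [Multiset.map_map]; rfl

/-- Unitary invariance of trace functions. -/
theorem trF_conj {A : Matrix n n ℂ} (hA : A.IsHermitian) (V : Matrix n n ℂ) (hV : Vᴴ * V = 1)
    (f : ℝ → ℝ) : trF f (V * A * Vᴴ) = trF f A := by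
  have hVV : V * Vᴴ = 1 := mul_eq_one_comm.mp hV
  set U := (hA.eigenvectorUnitary : Matrix n n ℂ) with hU
  have hUU : Uᴴ * U = 1 := eU_conj_mul hA
  have : V * A * Vᴴ = (V * U) * diagonal (fun j => ((hA.eigenvalues j : ℝ) : ℂ)) * (V * U)ᴴ := by
    conv_lhs => rw [spectral_form hA]
    rw [conjTranspose_mul]
    simp only [Matrix.mul_assoc, hU]
  rw [this, trF_of_decomp (V * U) hA.eigenvalues (by
      rw [conjTranspose_mul, Matrix.mul_assoc, ← Matrix.mul_assoc Vᴴ, hV, Matrix.one_mul, hUU]) f,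
    trF_of_herm hA]

/-- Affine shift of the argument. -/
theorem trF_shift {A : Matrix n n ℂ} (hA : A.IsHermitian) (s c : ℝ) (f : ℝ → ℝ) :
    trF f (s • (1 : Matrix n n ℂ) + c • A) = trF (fun x => f (s + c * x)) A := by
  set U := (hA.eigenvectorUnitary : Matrix n n ℂ) with hU
  have hUU : Uᴴ * U = 1 := eU_conj_mul hA
  have hUU' : U * Uᴴ = 1 := eU_mul_conj hA
  have : s • (1 : Matrix n n ℂ) + c • A =
      U * diagonal (fun j => (((s + c * hA.eigenvalues j : ℝ)) : ℂ)) * Uᴴ := by
    have hd : diagonal (fun j => (((s + c * hA.eigenvalues j : ℝ)) : ℂ)) =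
        s • (1 : Matrix n n ℂ) + c • diagonal (fun j => ((hA.eigenvalues j : ℝ) : ℂ)) := by
      ext i j
      by_cases hij : i = j
      · subst hij; simp [Complex.real_smul]
      · simp [hij, diagonal]
    rw [hd, Matrix.mul_add, Matrix.add_mul, Matrix.mul_smul, Matrix.smul_mul, Matrix.mul_one,
      hUU', Matrix.mul_smul, Matrix.smul_mul, ← spectral_form hA]
  rw [this, trF_of_decomp U _ hUU, trF_of_herm hA]

/-- Expansion of the quadratic form in the eigenbasis. -/
noncomputable def coef {A : Matrix n n ℂ} (h : A.IsHermitian) (v : n → ℂ) (k : n) : ℂ :=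
  ((h.eigenvectorUnitary : Matrix n n ℂ)ᴴ *ᵥ v) k

theorem star_dot_eq_sum_coef {A : Matrix n n ℂ} (h : A.IsHermitian) (v w : n → ℂ) :
    star v ⬝ᵥ w = ∑ k, star (coef h v k) * coef h w k := by
  have hU : (h.eigenvectorUnitary : Matrix n n ℂ) * (h.eigenvectorUnitary : Matrix n n ℂ)ᴴ = 1 :=
    eU_mul_conj h
  have : star v ⬝ᵥ w = star ((h.eigenvectorUnitary : Matrix n n ℂ)ᴴ *ᵥ v) ⬝ᵥ
      ((h.eigenvectorUnitary : Matrix n n ℂ)ᴴ *ᵥ w) := by
    rw [star_mulVec, conjTranspose_conjTranspose, dotProduct_mulVec, vecMul_vecMul, hU,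
      vecMul_one]
  rw [this]
  simp [dotProduct, coef]

theorem qf_eq_sum {A : Matrix n n ℂ} (h : A.IsHermitian) (v : n → ℂ) :
    qf A v = ∑ k, h.eigenvalues k * Complex.normSq (coef h v k) := by
  have hA := spectral_form h
  have key : star v ⬝ᵥ (A *ᵥ v) =
      ∑ k, (h.eigenvalues k : ℂ) * (star (coef h v k) * coef h v k) := by
    conv_lhs => rw [hA]
    rw [← mulVec_mulVec, ← mulVec_mulVec, star_dot_eq_sum_coef h]
    refine Finset.sum_congr rfl fun k _ => ?_
    have hU : (h.eigenvectorUnitary : Matrix n n ℂ)ᴴ * (h.eigenvectorUnitary : Matrix n n ℂ) = 1 :=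
      eU_conj_mul h
    have : coef h ((h.eigenvectorUnitary : Matrix n n ℂ) *ᵥ
        (diagonal (fun i => ((h.eigenvalues i : ℝ) : ℂ)) *ᵥ
          ((h.eigenvectorUnitary : Matrix n n ℂ)ᴴ *ᵥ v))) k =
        (h.eigenvalues k : ℂ) * coef h v k := by
      simp only [coef]
      rw [mulVec_mulVec, hU, one_mulVec]
      simp [mulVec_diagonal]
    rw [this]
    ring
  unfold qf
  rw [key, Complex.re_sum]
  refine Finset.sum_congr rfl fun k _ => ?_
  have : star (coef h v k) * coef h v k = ((Complex.normSq (coef h v k) : ℝ) : ℂ) := by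
    rw [Complex.star_def, mul_comm, Complex.mul_conj]
  rw [this, ← Complex.ofReal_mul, Complex.ofReal_re]

theorem sum_normSq_coef {A : Matrix n n ℂ} (h : A.IsHermitian) (v : n → ℂ) :
    ∑ k, Complex.normSq (coef h v k) = (star v ⬝ᵥ v).re := by
  rw [star_dot_eq_sum_coef h, Complex.re_sum]
  refine Finset.sum_congr rfl fun k _ => ?_
  rw [Complex.star_def, mul_comm, Complex.mul_conj, Complex.ofReal_re]

/-- Bessel: for an orthonormal family `w`, `∑_i |⟨u, w_i⟩|² ≤ ⟨u,u⟩` in coordinates. -/
theorem bessel_coords {ι : Type*} [Fintype ι] [DecidableEq ι] (w : ι → n → ℂ)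
    (hw : ∀ i j, star (w i) ⬝ᵥ w j = if i = j then 1 else 0) (u : n → ℂ) :
    ∑ i, Complex.normSq (star (w i) ⬝ᵥ u) ≤ (star u ⬝ᵥ u).re := by
  classical
  set c : ι → ℂ := fun i => star (w i) ⬝ᵥ u with hc
  set r : n → ℂ := u - ∑ i, c i • w i with hr
  have h0 : 0 ≤ (star r ⬝ᵥ r).re := by
    have := dotProduct_star_self_nonneg (v := r)
    have h' : 0 ≤ star r ⬝ᵥ r := by simpa [dotProduct_comm] using this
    exact (Complex.le_def.mp h').1
  have hrw : ∀ j, star (w j) ⬝ᵥ r = 0 := by
    intro j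
    rw [hr, dotProduct_sub, dotProduct_sum]
    simp only [dotProduct_smul, hw, smul_eq_mul, mul_ite, mul_one, mul_zero,
      Finset.sum_ite_eq, Finset.mem_univ, if_true, hc, sub_self]
  have hstar : star r ⬝ᵥ r = star r ⬝ᵥ u := by
    have h1 : star r ⬝ᵥ (∑ i, c i • w i) = 0 := by
      rw [dotProduct_sum]
      refine Finset.sum_eq_zero fun i _ => ?_
      have h2 : star r ⬝ᵥ w i = star (star (w i) ⬝ᵥ r) := star_dotProduct _ _
      rw [dotProduct_smul, h2, hrw i]
      simp
    have h3 : star r ⬝ᵥ r = star r ⬝ᵥ u - star r ⬝ᵥ (∑ i, c i • w i) := by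
      rw [← dotProduct_sub]
    rw [h3, h1, sub_zero]
  have hexp : star r ⬝ᵥ u = star u ⬝ᵥ u - ∑ i, ((Complex.normSq (c i) : ℝ) : ℂ) := by
    rw [hr, star_sub, sub_dotProduct]
    congr 1
    rw [star_sum, sum_dotProduct]
    refine Finset.sum_congr rfl fun i _ => ?_
    rw [star_smul, smul_dotProduct]
    have : star (w i) ⬝ᵥ u = c i := rfl
    rw [this, Complex.star_def, smul_eq_mul, mul_comm, Complex.mul_conj]
  rw [hstar, hexp] at h0
  simp only [Complex.sub_re, Complex.re_sum, Complex.ofReal_re] at h0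
  linarith

/-- column of a matrix as a vector -/
abbrev colv (W : Matrix n n ℂ) (k : n) : n → ℂ := fun a => W a k

theorem coef_eq {A : Matrix n n ℂ} (h : A.IsHermitian) (v : n → ℂ) (k : n) :
    coef h v k = star (colv (h.eigenvectorUnitary : Matrix n n ℂ) k) ⬝ᵥ v := by
  simp [coef, mulVec, dotProduct, colv, conjTranspose_apply]

theorem colv_orth {W : Matrix n n ℂ} (hW : Wᴴ * W = 1) (i j : n) :
    star (colv W i) ⬝ᵥ colv W j = if i = j then 1 else 0 := by
  have := congrFun (congrFun hW i) j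
  simp only [Matrix.mul_apply, conjTranspose_apply, Matrix.one_apply] at this
  simpa [dotProduct, colv] using this

theorem normSq_coef_eq {A : Matrix n n ℂ} (h : A.IsHermitian) (v : n → ℂ) (k : n) :
    Complex.normSq (coef h v k) =
      Complex.normSq (star v ⬝ᵥ colv (h.eigenvectorUnitary : Matrix n n ℂ) k) := by
  rw [coef_eq, star_dotProduct, Complex.star_def, Complex.normSq_conj]

/-- The quadratic form of a unit vector is a convex combination of the eigenvalues. -/
theorem qf_mem {A : Matrix n n ℂ} (h : A.IsHermitian) {s : Set ℝ} (hs : Convex ℝ s)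
    (hspec : ∀ k, h.eigenvalues k ∈ s) {v : n → ℂ} (hv : star v ⬝ᵥ v = 1) : qf A v ∈ s := by
  rw [qf_eq_sum h]
  have hw : ∑ k, Complex.normSq (coef h v k) = 1 := by rw [sum_normSq_coef h, hv]; simp
  have := hs.sum_mem (t := Finset.univ) (w := fun k => Complex.normSq (coef h v k))
    (z := fun k => h.eigenvalues k) (fun k _ => Complex.normSq_nonneg _) hw
    (fun k _ => hspec k)
  simpa [smul_eq_mul, mul_comm] using this

/-- Jensen for an orthonormal family, convex nonnegative `f`. -/
theorem jensen_family {ι : Type*} [Fintype ι] [DecidableEq ι] {A : Matrix n n ℂ}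
    (h : A.IsHermitian) {s : Set ℝ} {f : ℝ → ℝ} (hf : ConvexOn ℝ s f)
    (hspec : ∀ k, h.eigenvalues k ∈ s) (hnn : ∀ k, 0 ≤ f (h.eigenvalues k))
    (w : ι → n → ℂ) (hw : ∀ i j, star (w i) ⬝ᵥ w j = if i = j then 1 else 0) :
    ∑ i, f (qf A (w i)) ≤ trF f A := by
  rw [trF_of_herm h]
  have h1 : ∀ i, f (qf A (w i)) ≤
      ∑ k, Complex.normSq (coef h (w i) k) * f (h.eigenvalues k) := by
    intro i
    have hsum : ∑ k, Complex.normSq (coef h (w i) k) = 1 := by
      rw [sum_normSq_coef h, hw i i]; simp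
    have := hf.map_sum_le (t := Finset.univ) (w := fun k => Complex.normSq (coef h (w i) k))
      (p := fun k => h.eigenvalues k) (fun k _ => Complex.normSq_nonneg _) hsum (fun k _ => hspec k)
    simpa [smul_eq_mul, qf_eq_sum h, mul_comm] using this
  have hU := eU_conj_mul h
  calc ∑ i, f (qf A (w i))
      ≤ ∑ i, ∑ k, Complex.normSq (coef h (w i) k) * f (h.eigenvalues k) :=
        Finset.sum_le_sum fun i _ => h1 i
    _ = ∑ k, (∑ i, Complex.normSq (coef h (w i) k)) * f (h.eigenvalues k) := by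
        rw [Finset.sum_comm]; simp [Finset.sum_mul]
    _ ≤ ∑ k, 1 * f (h.eigenvalues k) := by
        refine Finset.sum_le_sum fun k _ => mul_le_mul_of_nonneg_right ?_ (hnn k)
        have hb := bessel_coords w hw (colv (h.eigenvectorUnitary : Matrix n n ℂ) k)
        have h2 := colv_orth hU k k
        simp only [if_true] at h2
        rw [h2] at hb
        simp only [Complex.one_re] at hb
        simpa [normSq_coef_eq] using hb
    _ = ∑ k, f (h.eigenvalues k) := by simp

/-- Peierls: concave `f`, full orthonormal basis given by the columns of a unitary `W`. -/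
theorem peierls {A : Matrix n n ℂ} (h : A.IsHermitian) {s : Set ℝ} {f : ℝ → ℝ}
    (hf : ConcaveOn ℝ s f) (hspec : ∀ k, h.eigenvalues k ∈ s)
    (W : Matrix n n ℂ) (hW : Wᴴ * W = 1) :
    trF f A ≤ ∑ j, f (qf A (colv W j)) := by
  rw [trF_of_herm h]
  have hWW : W * Wᴴ = 1 := mul_eq_one_comm.mp hW
  have h1 : ∀ j, ∑ k, Complex.normSq (coef h (colv W j) k) * f (h.eigenvalues k) ≤
      f (qf A (colv W j)) := by
    intro j
    have hsum : ∑ k, Complex.normSq (coef h (colv W j) k) = 1 := by
      rw [sum_normSq_coef h, colv_orth hW j j]; simp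
    have := hf.le_map_sum (t := Finset.univ) (w := fun k => Complex.normSq (coef h (colv W j) k))
      (p := fun k => h.eigenvalues k) (fun k _ => Complex.normSq_nonneg _) hsum (fun k _ => hspec k)
    simpa [smul_eq_mul, qf_eq_sum h, mul_comm] using this
  have hU := eU_conj_mul h
  -- doubly stochastic
  have hds : ∀ k, ∑ j, Complex.normSq (coef h (colv W j) k) = 1 := by
    intro k
    set u := colv (h.eigenvectorUnitary : Matrix n n ℂ) k with hu
    have e1 : ∀ j, Complex.normSq (coef h (colv W j) k) =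
        ((Wᴴ *ᵥ u) j * star ((Wᴴ *ᵥ u) j)).re := by
      intro j
      rw [normSq_coef_eq, Complex.star_def, Complex.mul_conj, Complex.ofReal_re]
      simp [mulVec, dotProduct, colv, conjTranspose_apply, hu]
    simp_rw [e1]
    have e2 : ∑ j, ((Wᴴ *ᵥ u) j * star ((Wᴴ *ᵥ u) j)).re = (star u ⬝ᵥ u).re := by
      have : star u ⬝ᵥ u = star (Wᴴ *ᵥ u) ⬝ᵥ (Wᴴ *ᵥ u) := by
        rw [star_mulVec, conjTranspose_conjTranspose, dotProduct_mulVec, vecMul_vecMul, hWW,
          vecMul_one]
      rw [this, dotProduct, Complex.re_sum]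
      refine Finset.sum_congr rfl fun j _ => ?_
      simp [mul_comm]
    rw [e2, hu, colv_orth hU k k]; simp
  calc ∑ k, f (h.eigenvalues k)
      = ∑ k, (∑ j, Complex.normSq (coef h (colv W j) k)) * f (h.eigenvalues k) := by simp [hds]
    _ = ∑ j, ∑ k, Complex.normSq (coef h (colv W j) k) * f (h.eigenvalues k) := by
        rw [Finset.sum_comm]; simp [Finset.sum_mul]
    _ ≤ _ := Finset.sum_le_sum fun j _ => h1 j

/-- Determinant of a Hermitian matrix, real form. -/
theorem det_re_eq_prod {A : Matrix n n ℂ} (h : A.IsHermitian) :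
    A.det.re = ∏ i, h.eigenvalues i := by
  rw [h.det_eq_prod_eigenvalues]
  have : (∏ i, (RCLike.ofReal (h.eigenvalues i) : ℂ)) = ((∏ i, h.eigenvalues i : ℝ) : ℂ) := by
    rw [Complex.ofReal_prod]; rfl
  rw [this]
  exact Complex.ofReal_re _

theorem det_eq_ofReal_re {A : Matrix n n ℂ} (h : A.IsHermitian) :
    A.det = ((A.det.re : ℝ) : ℂ) := by
  rw [det_re_eq_prod h, h.det_eq_prod_eigenvalues, Complex.ofReal_prod]
  rfl

/-- `ldet` is a trace function when the spectrum is positive. -/
theorem ldet_eq_trF {A : Matrix n n ℂ} (h : A.IsHermitian) (hpos : ∀ i, 0 < h.eigenvalues i) :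
    ldet A = trF Real.log A := by
  unfold ldet
  rw [det_re_eq_prod h, trF_of_herm h, Real.log_prod (fun i _ => (hpos i).ne')]

theorem ldet_mul {A B : Matrix n n ℂ} (hA : A.IsHermitian) (hB : B.IsHermitian)
    (hApos : 0 < A.det.re) (hBpos : 0 < B.det.re) :
    ldet (A * B) = ldet A + ldet B := by
  unfold ldet
  rw [Matrix.det_mul, det_eq_ofReal_re hA, det_eq_ofReal_re hB, ← Complex.ofReal_mul,
    Complex.ofReal_re, Complex.ofReal_re, Complex.ofReal_re, Real.log_mul hApos.ne' hBpos.ne']

/-! ## `isq` -/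

section isq

variable {T : Matrix n n ℂ}

theorem isq_of_herm (h : T.IsHermitian) (t : ℝ) :
    isq T t = (h.eigenvectorUnitary : Matrix n n ℂ) *
      diagonal (fun i => (((Real.sqrt (t + h.eigenvalues i))⁻¹ : ℝ) : ℂ)) *
      (h.eigenvectorUnitary : Matrix n n ℂ)ᴴ := by
  simp [isq, h, Matrix.star_eq_conjTranspose]

theorem isq_herm (h : T.IsHermitian) (t : ℝ) : (isq T t).IsHermitian := by
  rw [isq_of_herm h]
  exact herm_of_decomp _ _

theorem shift_herm (h : T.IsHermitian) (t : ℝ) : (t • (1 : Matrix n n ℂ) + T).IsHermitian := by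
  refine Matrix.IsHermitian.add ?_ h
  unfold Matrix.IsHermitian
  rw [conjTranspose_smul, conjTranspose_one]
  simp

theorem isq_conj_shift (hT : T.PosSemidef) {t : ℝ} (ht : 0 < t) :
    isq T t * (t • (1 : Matrix n n ℂ) + T) * isq T t = 1 := by
  have h := hT.isHermitian
  rw [isq_of_herm h]
  set U := (h.eigenvectorUnitary : Matrix n n ℂ) with hU
  have hUU : Uᴴ * U = 1 := eU_conj_mul h
  have hUU' : U * Uᴴ = 1 := eU_mul_conj h
  have hs : t • (1 : Matrix n n ℂ) + T =
      U * diagonal (fun j => (((t + h.eigenvalues j : ℝ)) : ℂ)) * Uᴴ := by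
    have hd : diagonal (fun j => (((t + h.eigenvalues j : ℝ)) : ℂ)) =
        t • (1 : Matrix n n ℂ) + diagonal (fun j => ((h.eigenvalues j : ℝ) : ℂ)) := by
      ext i j
      by_cases hij : i = j
      · subst hij; simp [Complex.real_smul]
      · simp [hij, diagonal]
    rw [hd, Matrix.mul_add, Matrix.add_mul, Matrix.mul_smul, Matrix.smul_mul, Matrix.mul_one,
      hUU', ← spectral_form h]
  rw [hs]
  have hpos : ∀ j, 0 < t + h.eigenvalues j := fun j => by
    have := hT.eigenvalues_nonneg j; linarith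
  calc U * diagonal (fun i => (((Real.sqrt (t + h.eigenvalues i))⁻¹ : ℝ) : ℂ)) * Uᴴ *
        (U * diagonal (fun j => (((t + h.eigenvalues j : ℝ)) : ℂ)) * Uᴴ) *
        (U * diagonal (fun i => (((Real.sqrt (t + h.eigenvalues i))⁻¹ : ℝ) : ℂ)) * Uᴴ)
      = U * (diagonal (fun i => (((Real.sqrt (t + h.eigenvalues i))⁻¹ : ℝ) : ℂ)) * (Uᴴ * U) *
          diagonal (fun j => (((t + h.eigenvalues j : ℝ)) : ℂ)) * (Uᴴ * U) *
          diagonal (fun i => (((Real.sqrt (t + h.eigenvalues i))⁻¹ : ℝ) : ℂ))) * Uᴴ := by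
        simp only [Matrix.mul_assoc]
    _ = U * 1 * Uᴴ := by
        rw [hUU, Matrix.mul_one, Matrix.mul_one, diagonal_mul_diagonal, diagonal_mul_diagonal]
        congr 2
        rw [← diagonal_one]
        congr 1
        ext j
        have h1 := hpos j
        have h2 : Real.sqrt (t + h.eigenvalues j) * Real.sqrt (t + h.eigenvalues j) =
            t + h.eigenvalues j := Real.mul_self_sqrt h1.le
        have h3 : Real.sqrt (t + h.eigenvalues j) ≠ 0 := (Real.sqrt_pos.mpr h1).ne'
        rw [← Complex.ofReal_mul, ← Complex.ofReal_mul]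
        have hgen : ∀ r y : ℝ, r ≠ 0 → r * r = y → r⁻¹ * y * r⁻¹ = 1 := by
          intro r y hr hy; subst hy; field_simp
        have := hgen _ _ h3 h2
        rw [this]; simp
    _ = 1 := by rw [Matrix.mul_one, hUU']

/-- The conjugate `S X S` with `S = isq T t`. -/
noncomputable def conjS (X T : Matrix n n ℂ) (t : ℝ) : Matrix n n ℂ := isq T t * X * isq T t

theorem conjS_herm (hT : T.IsHermitian) {X : Matrix n n ℂ} (hX : X.IsHermitian) (t : ℝ) :
    (conjS X T t).IsHermitian := by
  unfold conjS Matrix.IsHermitian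
  rw [conjTranspose_mul, conjTranspose_mul, (isq_herm hT t).eq, hX.eq, Matrix.mul_assoc]

theorem conjS_psd (hT : T.IsHermitian) {X : Matrix n n ℂ} (hX : X.PosSemidef) (t : ℝ) :
    (conjS X T t).PosSemidef := by
  unfold conjS
  have := hX.mul_mul_conjTranspose_same (isq T t)
  rwa [(isq_herm hT t).eq] at this

theorem isq_det_ne (hT : T.PosSemidef) {t : ℝ} (ht : 0 < t) : (isq T t).det ≠ 0 := by
  intro h0
  have := congrArg Matrix.det (isq_conj_shift hT ht)
  rw [Matrix.det_mul, h0, Matrix.det_one] at this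
  simp at this

/-- `det(S)² det(t+T) = 1`, real form. -/
theorem isq_det_sq (hT : T.PosSemidef) {t : ℝ} (ht : 0 < t) :
    (isq T t).det * (t • (1 : Matrix n n ℂ) + T).det * (isq T t).det = 1 := by
  have := congrArg Matrix.det (isq_conj_shift hT ht)
  rwa [Matrix.det_mul, Matrix.det_mul, Matrix.det_one] at this

end isq

end Crest.Agent.H8G
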