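/-
Entropy as an integral of log-determinants (subtask T2). Statement file.
`S̃(Q) + Tr Q = ∫₀^∞ [Σ log(1+q_i/t) - Tr Q/(1+t)] dt`.
-/
import Crest.Agent.H8GSpec

set_option autoImplicit false

namespace Crest.Agent.H8G

open Matrix Crest.Quantum MeasureTheory Set Filter Topology
open scoped ComplexOrder

variable {n : Type*} [Fintype n] [DecidableEq n]

/-- scalar integrand -/
noncomputable def sfun (q t : ℝ) : ℝ := Real.log (1 + q / t) - q / (1 + t)

namespace SFunAux

/-- antiderivative of `f1`. -/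
noncomputable def g1 (q t : ℝ) : ℝ := t * Real.log (t + q) - t * Real.log t
/-- antiderivative of `f2`. -/
noncomputable def g2 (q t : ℝ) : ℝ := q * Real.log (1 + t) - q * Real.log (q + t)
noncomputable def f1 (q t : ℝ) : ℝ := Real.log (1 + q / t) - q / (q + t)
noncomputable def f2 (q t : ℝ) : ℝ := q / (1 + t) - q / (q + t)

theorem sfun_eq (q t : ℝ) : sfun q t = f1 q t - f2 q t := by
  simp only [sfun, f1, f2]; ring

theorem g1_deriv {q t : ℝ} (hq : 0 < q) (ht : 0 < t) : HasDerivAt (g1 q) (f1 q t) t := by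
  have h1 : t + q ≠ 0 := by positivity
  have hd : HasDerivAt (fun x : ℝ => x * Real.log (x + q) - x * Real.log x)
      ((1 * Real.log (t + q) + t * ((1 + 0) / (t + q))) - (1 * Real.log t + t * (1 / t))) t := by
    refine HasDerivAt.sub ?_ ?_
    · exact (hasDerivAt_id t).mul (((hasDerivAt_id t).add (hasDerivAt_const t q)).log h1)
    · exact (hasDerivAt_id t).mul ((hasDerivAt_id t).log ht.ne')
  refine HasDerivAt.congr_deriv hd ?_
  have h2 : 1 + q / t = (t + q) / t := by field_simp
  simp only [f1]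
  rw [h2, Real.log_div h1 ht.ne']
  field_simp
  ring

theorem g1_cont {q : ℝ} (hq : 0 < q) : ContinuousWithinAt (g1 q) (Ici 0) 0 := by
  have h1 : ContinuousAt (fun x : ℝ => x * Real.log (x + q)) 0 := by
    refine continuousAt_id.mul (ContinuousAt.log (continuousAt_id.add continuousAt_const) ?_)
    simp [hq.ne']
  have h2 : ContinuousAt (fun x : ℝ => x * Real.log x) 0 := Real.continuous_mul_log.continuousAt
  exact (h1.sub h2).continuousWithinAt

theorem g1_lim {q : ℝ} (hq : 0 < q) : Tendsto (g1 q) atTop (𝓝 q) := by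
  refine (Real.tendsto_mul_log_one_add_div_atTop q).congr' ?_
  filter_upwards [eventually_gt_atTop 0] with t ht
  have h1 : t + q ≠ 0 := by positivity
  have h2 : 1 + q / t = (t + q) / t := by field_simp
  simp only [g1]
  rw [h2, Real.log_div h1 ht.ne']
  ring

theorem f1_nonneg {q t : ℝ} (hq : 0 < q) (ht : 0 < t) : 0 ≤ f1 q t := by
  have hx : 0 < 1 + q / t := by positivity
  have := Real.one_sub_inv_le_log_of_pos hx
  have h3 : 1 - (1 + q / t)⁻¹ = q / (q + t) := by field_simp; ring
  simp only [f1]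
  linarith

theorem g2_deriv {q t : ℝ} (hq : 0 < q) (ht : 0 < t) : HasDerivAt (g2 q) (f2 q t) t := by
  have h1 : 1 + t ≠ 0 := by positivity
  have h2 : q + t ≠ 0 := by positivity
  have hd : HasDerivAt (fun x : ℝ => q * Real.log (1 + x) - q * Real.log (q + x))
      (q * ((0 + 1) / (1 + t)) - q * ((0 + 1) / (q + t))) t := by
    refine HasDerivAt.sub ?_ ?_
    · exact (((hasDerivAt_const t (1 : ℝ)).add (hasDerivAt_id t)).log h1).const_mul q
    · exact (((hasDerivAt_const t q).add (hasDerivAt_id t)).log h2).const_mul q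
  refine HasDerivAt.congr_deriv hd ?_
  simp only [f2]
  field_simp
  ring

theorem g2_cont {q : ℝ} (hq : 0 < q) : ContinuousWithinAt (g2 q) (Ici 0) 0 := by
  have h1 : ContinuousAt (fun x : ℝ => q * Real.log (1 + x)) 0 := by
    refine continuousAt_const.mul (ContinuousAt.log (continuousAt_const.add continuousAt_id) ?_)
    simp
  have h2 : ContinuousAt (fun x : ℝ => q * Real.log (q + x)) 0 := by
    refine continuousAt_const.mul (ContinuousAt.log (continuousAt_const.add continuousAt_id) ?_)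
    simp [hq.ne']
  exact (h1.sub h2).continuousWithinAt

theorem g2_lim {q : ℝ} (hq : 0 < q) : Tendsto (g2 q) atTop (𝓝 0) := by
  have hfrac : Tendsto (fun t : ℝ => (1 + t) / (q + t)) atTop (𝓝 1) := by
    have h0 : Tendsto (fun t : ℝ => (1 - q) / (q + t)) atTop (𝓝 0) :=
      tendsto_const_nhds.div_atTop (tendsto_atTop_add_const_left _ _ tendsto_id)
    have h1 : Tendsto (fun t : ℝ => 1 + (1 - q) / (q + t)) atTop (𝓝 (1 + 0)) :=
      tendsto_const_nhds.add h0
    rw [add_zero] at h1
    refine h1.congr' ?_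
    filter_upwards [eventually_gt_atTop 0] with t ht
    have h2 : q + t ≠ 0 := by positivity
    field_simp
    ring
  have hlog : Tendsto (fun t : ℝ => Real.log ((1 + t) / (q + t))) atTop (𝓝 (Real.log 1)) :=
    (Real.continuousAt_log one_ne_zero).tendsto.comp hfrac
  rw [Real.log_one] at hlog
  have hmul := hlog.const_mul q
  rw [mul_zero] at hmul
  refine hmul.congr' ?_
  filter_upwards [eventually_gt_atTop 0] with t ht
  have h1 : 1 + t ≠ 0 := by positivity
  have h2 : q + t ≠ 0 := by positivity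
  simp only [g2]
  rw [Real.log_div h1 h2]
  ring

theorem f1_int {q : ℝ} (hq : 0 < q) : IntegrableOn (f1 q) (Ioi 0) :=
  integrableOn_Ioi_deriv_of_nonneg (g1_cont hq) (fun _ hx => g1_deriv hq hx)
    (fun _ hx => f1_nonneg hq hx) (g1_lim hq)

theorem f2_int {q : ℝ} (hq : 0 < q) : IntegrableOn (f2 q) (Ioi 0) := by
  rcases le_total 1 q with h1 | h1
  · refine integrableOn_Ioi_deriv_of_nonneg (g2_cont hq) (fun _ hx => g2_deriv hq hx) ?_ (g2_lim hq)
    intro t ht
    have ht' : (0:ℝ) < t := ht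
    simp only [f2, sub_nonneg]
    exact div_le_div_of_nonneg_left hq.le (by positivity) (by linarith)
  · refine integrableOn_Ioi_deriv_of_nonpos (g2_cont hq) (fun _ hx => g2_deriv hq hx) ?_ (g2_lim hq)
    intro t ht
    have ht' : (0:ℝ) < t := ht
    simp only [f2, sub_nonpos]
    exact div_le_div_of_nonneg_left hq.le (by positivity) (by linarith)

theorem sfun_zero (t : ℝ) : sfun 0 t = 0 := by simp [sfun]

end SFunAux

open SFunAux in
/-- `sfun q = f₁ - f₂` with `f₁ = log(1+q/t) - q/(q+t) ≥ 0` (antiderivative `t log(1+q/t)`, from `0` to `q`) and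
`f₂ = q/(1+t) - q/(q+t)` of constant sign (antiderivative `q log(1+t) - q log(q+t)`, from `-q log q` to `0`).
Use `integrableOn_Ioi_deriv_of_nonneg`, `integral_Ioi_of_hasDerivAt_of_nonneg`, etc. -/
theorem sfun_integrable {q : ℝ} (hq : 0 ≤ q) : IntegrableOn (sfun q) (Ioi 0) := by
  rcases hq.eq_or_lt with rfl | hq
  · have : sfun 0 = fun _ => 0 := funext sfun_zero
    rw [this]
    exact integrableOn_zero
  · have : sfun q = f1 q - f2 q := funext (sfun_eq q)
    rw [this]
    exact (f1_int hq).sub (f2_int hq)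

open SFunAux in
theorem sfun_integral {q : ℝ} (hq : 0 ≤ q) :
    ∫ t in Ioi (0 : ℝ), sfun q t = Real.negMulLog q + q := by
  rcases hq.eq_or_lt with rfl | hq
  · simp [sfun_zero]
  · have e1 := integral_Ioi_of_hasDerivAt_of_tendsto (g1_cont hq) (fun _ hx => g1_deriv hq hx)
      (f1_int hq) (g1_lim hq)
    have e2 := integral_Ioi_of_hasDerivAt_of_tendsto (g2_cont hq) (fun _ hx => g2_deriv hq hx)
      (f2_int hq) (g2_lim hq)
    have : ∫ t in Ioi (0 : ℝ), sfun q t =
        (∫ t in Ioi (0 : ℝ), f1 q t) - ∫ t in Ioi (0 : ℝ), f2 q t := by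
      rw [← integral_sub (f1_int hq) (f2_int hq)]
      exact integral_congr_ae (ae_of_all _ fun t => sfun_eq q t)
    rw [this, e1, e2]
    simp [g1, g2, Real.negMulLog]
    ring

/-- matrix integrand -/
noncomputable def gfun (Q : Matrix n n ℂ) (t : ℝ) : ℝ := trF (fun x => sfun x t) Q

theorem gfun_eq_sum {Q : Matrix n n ℂ} (hQ : Q.IsHermitian) (t : ℝ) :
    gfun Q t = ∑ i, sfun (hQ.eigenvalues i) t := by
  simp only [gfun, trF_of_herm hQ]

theorem gfun_integrable {Q : Matrix n n ℂ} (hQ : Q.PosSemidef) : IntegrableOn (gfun Q) (Ioi 0) := by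
  have : gfun Q = fun t => ∑ i, sfun (hQ.isHermitian.eigenvalues i) t :=
    funext (gfun_eq_sum hQ.isHermitian)
  rw [this]
  exact integrable_finsetSum _ fun i _ => sfun_integrable (hQ.eigenvalues_nonneg i)

theorem trace_re_eq_sum {Q : Matrix n n ℂ} (hQ : Q.IsHermitian) :
    Q.trace.re = ∑ i, hQ.eigenvalues i := by
  rw [hQ.trace_eq_sum_eigenvalues, Complex.re_sum]
  simp

theorem gfun_integral {Q : Matrix n n ℂ} (hQ : Q.PosSemidef) :
    ∫ t in Ioi (0 : ℝ), gfun Q t = vnEntropy Q + Q.trace.re := by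
  have e : (fun t => gfun Q t) = fun t => ∑ i, sfun (hQ.isHermitian.eigenvalues i) t :=
    funext (gfun_eq_sum hQ.isHermitian)
  rw [e, integral_finsetSum _ fun i _ => sfun_integrable (hQ.eigenvalues_nonneg i),
    vnEntropy_eq_trF, trF_of_herm hQ.isHermitian, trace_re_eq_sum hQ.isHermitian,
    ← Finset.sum_add_distrib]
  exact Finset.sum_congr rfl fun i _ => sfun_integral (hQ.eigenvalues_nonneg i)

/-- Eigenvalues of `t + Q` are `t + q_i` (use `trF_shift`, `ldet_eq_trF`); `Tr Q = Σ q_i`. -/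
theorem gfun_eq_ldet {Q : Matrix n n ℂ} (hQ : Q.PosSemidef) {t : ℝ} (ht : 0 < t) :
    gfun Q t = ldet (t • (1 : Matrix n n ℂ) + Q) - Fintype.card n * Real.log t -
      Q.trace.re / (1 + t) := by
  have hH := shift_herm hQ.isHermitian t
  have hpd : (t • (1 : Matrix n n ℂ) + Q).PosDef := by
    refine Matrix.PosDef.add_posSemidef ?_ hQ
    exact Matrix.PosDef.one.smul ht
  have hshift := trF_shift hQ.isHermitian t 1 Real.log
  rw [one_smul] at hshift
  rw [ldet_eq_trF hH hpd.eigenvalues_pos, hshift, trF_of_herm hQ.isHermitian,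
    gfun_eq_sum hQ.isHermitian, trace_re_eq_sum hQ.isHermitian]
  have hcard : (Fintype.card n : ℝ) * Real.log t = ∑ _i : n, Real.log t := by
    simp
  have htr : (∑ i, hQ.isHermitian.eigenvalues i) / (1 + t) =
      ∑ i, hQ.isHermitian.eigenvalues i / (1 + t) := Finset.sum_div _ _ _
  rw [hcard, htr, ← Finset.sum_sub_distrib, ← Finset.sum_sub_distrib]
  refine Finset.sum_congr rfl fun i _ => ?_
  have hi := hQ.eigenvalues_nonneg i
  have h1 : t + 1 * hQ.isHermitian.eigenvalues i ≠ 0 := by positivity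
  have h2 : 1 + hQ.isHermitian.eigenvalues i / t =
      (t + 1 * hQ.isHermitian.eigenvalues i) / t := by field_simp
  simp only [sfun]
  rw [h2, Real.log_div h1 ht.ne']

end Crest.Agent.H8G
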