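/-
Entropy algebra (subtask T3). Statement file. `S̃ = vnEntropy` on PSD matrices (no normalisation).
All proofs are short consequences of `trF_of_decomp`, `peierls`, `trF_shift`, `spectral_form` in H8GSpec.
-/
import Crest.Agent.H8GSpec

set_option autoImplicit false

namespace Crest.Agent.H8G

open Matrix Crest.Quantum Set Filter Topology
open scoped ComplexOrder Kronecker

variable {n : Type*} [Fintype n] [DecidableEq n]
variable {m : Type*} [Fintype m] [DecidableEq m]

theorem trace_re_eq_sum {A : Matrix n n ℂ} (h : A.IsHermitian) :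
    A.trace.re = ∑ i, h.eigenvalues i := by
  rw [h.trace_eq_sum_eigenvalues, Complex.re_sum]
  simp

theorem qf_eigen {A : Matrix n n ℂ} (h : A.IsHermitian) (j : n) :
    qf A (colv (h.eigenvectorUnitary : Matrix n n ℂ) j) = h.eigenvalues j := by
  rw [qf_eq_sum h, Finset.sum_eq_single j]
  · rw [coef_eq, colv_orth (eU_conj_mul h), if_pos rfl]
    simp
  · intro b _ hb
    rw [coef_eq, colv_orth (eU_conj_mul h), if_neg hb]
    simp
  · simp

theorem qf_add (A B : Matrix n n ℂ) (v : n → ℂ) : qf (A + B) v = qf A v + qf B v := by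
  simp [qf, add_mulVec, dotProduct_add]

theorem qf_smul (c : ℝ) (A : Matrix n n ℂ) (v : n → ℂ) : qf ((c : ℂ) • A) v = c * qf A v := by
  simp [qf, smul_mulVec, dotProduct_smul]

theorem qf_sum {ι : Type*} (s : Finset ι) (A : ι → Matrix n n ℂ) (v : n → ℂ) :
    qf (∑ a ∈ s, A a) v = ∑ a ∈ s, qf (A a) v := by
  classical
  induction s using Finset.induction_on with
  | empty => simp [qf]
  | insert a s ha ih => rw [Finset.sum_insert ha, Finset.sum_insert ha, qf_add, ih]

theorem qf_nonneg {A : Matrix n n ℂ} (hA : A.PosSemidef) (v : n → ℂ) : 0 ≤ qf A v :=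
  hA.re_dotProduct_nonneg v

/-- The sum of the diagonal entries in an orthonormal basis is the trace. -/
theorem sum_qf_col (A : Matrix n n ℂ) (W : Matrix n n ℂ) (hW : Wᴴ * W = 1) :
    ∑ j, qf A (colv W j) = A.trace.re := by
  have hWW : W * Wᴴ = 1 := mul_eq_one_comm.mp hW
  have h1 : (Wᴴ * A * W).trace = A.trace := by
    rw [Matrix.trace_mul_comm, ← Matrix.mul_assoc, hWW, Matrix.one_mul]
  rw [← h1, Matrix.trace, Complex.re_sum]
  refine Finset.sum_congr rfl fun j _ => ?_
  simp [qf, colv, dotProduct, Matrix.mul_apply, mulVec, conjTranspose_apply, Finset.mul_sum, Finset.sum_mul,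
    mul_assoc]

theorem vnEntropy_le_of_unitary {A : Matrix n n ℂ} (hA : A.PosSemidef) (W : Matrix n n ℂ) (hW : Wᴴ * W = 1) :
    vnEntropy A ≤ ∑ j, Real.negMulLog (qf A (colv W j)) := by
  rw [vnEntropy_eq_trF]
  exact peierls hA.1 (s := Ici 0) Real.concaveOn_negMulLog (fun k => hA.eigenvalues_nonneg k) W hW

theorem vnEntropy_eq_sum_qf {A : Matrix n n ℂ} (h : A.IsHermitian) :
    vnEntropy A = ∑ j, Real.negMulLog (qf A (colv (h.eigenvectorUnitary : Matrix n n ℂ) j)) := by
  rw [vnEntropy_eq_trF, trF_of_herm h]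
  refine Finset.sum_congr rfl fun j _ => ?_
  rw [qf_eigen]

/-- `S̃(cA) = c S̃(A) + η(c) Tr A` (use `trF_shift` with `s=0`). -/
theorem vnEntropy_smul {A : Matrix n n ℂ} (hA : A.PosSemidef) {c : ℝ} (hc : 0 ≤ c) :
    vnEntropy (c • A) = c * vnEntropy A + Real.negMulLog c * A.trace.re := by
  have h := trF_shift hA.1 0 c Real.negMulLog
  rw [zero_smul, zero_add] at h
  rw [vnEntropy_eq_trF, h, vnEntropy_eq_trF, trF_of_herm hA.1, trF_of_herm hA.1, trace_re_eq_sum hA.1,
    Finset.mul_sum, Finset.mul_sum, ← Finset.sum_add_distrib]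
  refine Finset.sum_congr rfl fun i _ => ?_
  rw [zero_add, Real.negMulLog_mul]
  ring

theorem vnEntropy_zero : vnEntropy (0 : Matrix n n ℂ) = 0 := by
  have := vnEntropy_smul (PosSemidef.zero (n := n) (R := ℂ)) (le_refl (0 : ℝ))
  simpa using this

theorem vnEntropy_nonneg_of_density {A : Matrix n n ℂ} (hA : IsDensity A) : 0 ≤ vnEntropy A := by
  obtain ⟨hP, ht⟩ := hA
  have hsum : ∑ i, hP.1.eigenvalues i = 1 := by
    rw [← trace_re_eq_sum hP.1, ht]
    simp
  rw [vnEntropy_eq_trF, trF_of_herm hP.1]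
  refine Finset.sum_nonneg fun i _ => Real.negMulLog_nonneg (hP.eigenvalues_nonneg i) ?_
  rw [← hsum]
  exact Finset.single_le_sum (f := fun i => hP.1.eigenvalues i) (fun j _ => hP.eigenvalues_nonneg j) (Finset.mem_univ i)

/-- A Gibbs inequality. -/
theorem gibbs_aux {x c : ℝ} (hx : 0 ≤ x) (hc : 0 < c) : x * Real.log c - x * Real.log x ≤ c - x := by
  rcases hx.eq_or_lt with rfl | hx
  · simpa using hc.le
  · have h := Real.log_le_sub_one_of_pos (div_pos hc hx)
    rw [Real.log_div hc.ne' hx.ne'] at h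
    have h2 := mul_le_mul_of_nonneg_left h hx.le
    have h3 : x * (c / x - 1) = c - x := by field_simp
    rw [h3] at h2
    linarith

theorem gibbs {x y θ : ℝ} (hx : 0 ≤ x) (hy : 0 ≤ y) (h0 : 0 < θ) (h1 : θ < 1) :
    x * Real.log θ + y * Real.log (1 - θ) ≤
      Real.negMulLog (x + y) - Real.negMulLog x - Real.negMulLog y := by
  rcases (add_nonneg hx hy).eq_or_lt with hs | hs
  · have hx0 : x = 0 := by linarith
    have hy0 : y = 0 := by linarith
    subst hx0 hy0
    simp
  · have h2 := gibbs_aux hx (mul_pos h0 hs)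
    have h3 := gibbs_aux hy (mul_pos (sub_pos.2 h1) hs)
    rw [Real.log_mul h0.ne' hs.ne'] at h2
    rw [Real.log_mul (sub_pos.2 h1).ne' hs.ne'] at h3
    simp only [Real.negMulLog]
    nlinarith

/-- Concavity with trace-optimal weights: with `p=TrP, q=TrQ`,
`S̃(P+Q) - S̃(P) - S̃(Q) ≥ η(p+q) - η(p) - η(q)`. -/
theorem vnEntropy_add_ge {P Q : Matrix n n ℂ} (hP : P.PosSemidef) (hQ : Q.PosSemidef) :
    Real.negMulLog (P.trace.re + Q.trace.re) - Real.negMulLog P.trace.re - Real.negMulLog Q.trace.re ≤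
      vnEntropy (P + Q) - vnEntropy P - vnEntropy Q := by
  have hp0 : 0 ≤ P.trace.re := by
    rw [trace_re_eq_sum hP.1]
    exact Finset.sum_nonneg fun i _ => hP.eigenvalues_nonneg i
  have hq0 : 0 ≤ Q.trace.re := by
    rw [trace_re_eq_sum hQ.1]
    exact Finset.sum_nonneg fun i _ => hQ.eigenvalues_nonneg i
  have zero_of : ∀ {R : Matrix n n ℂ}, R.PosSemidef → R.trace.re = 0 → R = 0 := by
    intro R hR h0
    rw [← hR.trace_eq_zero_iff]
    have := (Complex.nonneg_iff.1 hR.trace_nonneg).2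
    exact Complex.ext h0 this.symm
  rcases hp0.eq_or_lt with hp | hp
  · rw [← hp, zero_of hP hp.symm]
    simp [vnEntropy_zero]
  rcases hq0.eq_or_lt with hq | hq
  · rw [← hq, zero_of hQ hq.symm]
    simp [vnEntropy_zero]
  set p := P.trace.re with hpdef
  set q := Q.trace.re with hqdef
  have hsum : 0 < p + q := add_pos hp hq
  set θ := p / (p + q) with hθ
  have hθ0 : 0 < θ := div_pos hp hsum
  have hθ1 : θ < 1 := (div_lt_one hsum).2 (by linarith)
  have h1θ : 1 - θ = q / (p + q) := by rw [hθ]; field_simp; ring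
  have hM : (P + Q).IsHermitian := (hP.add hQ).1
  set W := (hM.eigenvectorUnitary : Matrix n n ℂ) with hWdef
  have hW : Wᴴ * W = 1 := eU_conj_mul hM
  have e1 := vnEntropy_eq_sum_qf hM
  have e2 := vnEntropy_le_of_unitary hP W hW
  have e3 := vnEntropy_le_of_unitary hQ W hW
  have e4 : ∑ j, (qf P (colv W j) * Real.log θ + qf Q (colv W j) * Real.log (1 - θ)) ≤
      ∑ j, (Real.negMulLog (qf P (colv W j) + qf Q (colv W j)) - Real.negMulLog (qf P (colv W j)) -
        Real.negMulLog (qf Q (colv W j))) :=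
    Finset.sum_le_sum fun j _ => gibbs (qf_nonneg hP _) (qf_nonneg hQ _) hθ0 hθ1
  rw [Finset.sum_add_distrib, ← Finset.sum_mul, ← Finset.sum_mul, sum_qf_col P W hW, sum_qf_col Q W hW,
    Finset.sum_sub_distrib, Finset.sum_sub_distrib] at e4
  have e5 : ∑ j, Real.negMulLog (qf P (colv W j) + qf Q (colv W j)) = vnEntropy (P + Q) := by
    rw [e1]
    refine Finset.sum_congr rfl fun j _ => ?_
    rw [qf_add]
  rw [e5] at e4
  have e6 : Real.negMulLog (p + q) - Real.negMulLog p - Real.negMulLog q =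
      p * Real.log θ + q * Real.log (1 - θ) := by
    rw [h1θ, hθ, Real.log_div hp.ne' hsum.ne', Real.log_div hq.ne' hsum.ne']
    simp only [Real.negMulLog]
    ring
  rw [e6]
  linarith

/-- Concavity for a density-matrix mixture. -/
theorem vnEntropy_concave {ι : Type*} [Fintype ι] (q : ι → ℝ) (ρ : ι → Matrix n n ℂ)
    (hq : ∀ a, 0 ≤ q a) (hq1 : ∑ a, q a = 1) (hρ : ∀ a, (ρ a).PosSemidef) :
    ∑ a, q a * vnEntropy (ρ a) ≤ vnEntropy (∑ a, (q a : ℂ) • ρ a) := by
  classical
  have hherm : (∑ a, (q a : ℂ) • ρ a).IsHermitian := by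
    have : (∑ a, (q a : ℂ) • ρ a).PosSemidef := by
      refine Matrix.posSemidef_sum _ fun a _ => ?_
      have := (hρ a).smul (a := (q a : ℂ)) (by exact_mod_cast hq a)
      exact this
    exact this.1
  set W := (hherm.eigenvectorUnitary : Matrix n n ℂ) with hWdef
  have hW : Wᴴ * W = 1 := eU_conj_mul hherm
  rw [vnEntropy_eq_sum_qf hherm]
  calc ∑ a, q a * vnEntropy (ρ a)
      ≤ ∑ a, q a * ∑ j, Real.negMulLog (qf (ρ a) (colv W j)) :=
        Finset.sum_le_sum fun a _ => mul_le_mul_of_nonneg_left (vnEntropy_le_of_unitary (hρ a) W hW) (hq a)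
    _ = ∑ j, ∑ a, q a * Real.negMulLog (qf (ρ a) (colv W j)) := by
        simp only [Finset.mul_sum]
        rw [Finset.sum_comm]
    _ ≤ ∑ j, Real.negMulLog (qf (∑ a, (q a : ℂ) • ρ a) (colv W j)) := by
        refine Finset.sum_le_sum fun j _ => ?_
        have h := Real.concaveOn_negMulLog.le_map_sum (t := Finset.univ) (w := q)
          (p := fun a => qf (ρ a) (colv W j)) (fun a _ => hq a) hq1 (fun a _ => qf_nonneg (hρ a) _)
        simp only [smul_eq_mul] at h
        rw [qf_sum]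
        simpa only [qf_smul] using h

/-! ### blocks -/

theorem qb_mul (A B C D A' B' C' D' : Matrix n n ℂ) :
    qb A B C D * qb A' B' C' D' =
      qb (A * A' + B * C') (A * B' + B * D') (C * A' + D * C') (C * B' + D * D') := by
  ext ⟨s, i⟩ ⟨s', j⟩
  cases s <;> cases s' <;>
    simp [qb, Matrix.mul_apply, Fintype.sum_prod_type, Fintype.sum_bool, Finset.sum_add_distrib, add_comm]

theorem qb_conjTranspose (A B C D : Matrix n n ℂ) : (qb A B C D)ᴴ = qb Aᴴ Cᴴ Bᴴ Dᴴ := by
  ext ⟨s, i⟩ ⟨s', j⟩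
  cases s <;> cases s' <;> simp [qb, conjTranspose_apply]

theorem qb_one : qb (1 : Matrix n n ℂ) 0 0 1 = 1 := by
  ext ⟨s, i⟩ ⟨s', j⟩
  cases s <;> cases s' <;> simp [qb, Matrix.one_apply]

theorem qb_unitary {U V : Matrix n n ℂ} (hU : Uᴴ * U = 1) (hV : Vᴴ * V = 1) :
    (qb U 0 0 V)ᴴ * qb U 0 0 V = 1 := by
  rw [qb_conjTranspose, qb_mul]
  simp [hU, hV, qb_one]

theorem qb_diag (a d : n → ℝ) :
    qb (diagonal fun j => ((a j : ℝ) : ℂ)) 0 0 (diagonal fun j => ((d j : ℝ) : ℂ)) =
      diagonal fun p : Bool × n => (((if p.1 then d p.2 else a p.2 : ℝ)) : ℂ) := by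
  ext ⟨s, i⟩ ⟨s', j⟩
  cases s <;> cases s' <;> simp [qb, Matrix.diagonal_apply]

/-- Block diagonal: equality. -/
theorem vnEntropy_qb_diag {A D : Matrix n n ℂ} (hA : A.PosSemidef) (hD : D.PosSemidef) :
    vnEntropy (qb A 0 0 D) = vnEntropy A + vnEntropy D := by
  set U := (hA.1.eigenvectorUnitary : Matrix n n ℂ) with hU
  set V := (hD.1.eigenvectorUnitary : Matrix n n ℂ) with hV
  have hUU : Uᴴ * U = 1 := eU_conj_mul hA.1
  have hVV : Vᴴ * V = 1 := eU_conj_mul hD.1
  have hdec : qb A 0 0 D = qb U 0 0 V *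
      diagonal (fun p : Bool × n => (((if p.1 then hD.1.eigenvalues p.2 else hA.1.eigenvalues p.2 : ℝ)) : ℂ)) *
      (qb U 0 0 V)ᴴ := by
    rw [← qb_diag, qb_conjTranspose, qb_mul, qb_mul]
    simp only [Matrix.mul_zero, Matrix.zero_mul, add_zero, zero_add, conjTranspose_zero]
    rw [← spectral_form hA.1, ← spectral_form hD.1]
  rw [vnEntropy_eq_trF, hdec, trF_of_decomp _ _ (qb_unitary hUU hVV), vnEntropy_eq_trF, vnEntropy_eq_trF,
    trF_of_herm hA.1, trF_of_herm hD.1, Fintype.sum_prod_type, Fintype.sum_bool, add_comm]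
  simp

/-- Diagonal blocks of a PSD block matrix are PSD. -/
theorem qb_psd_left {A B C D : Matrix n n ℂ} (hM : (qb A B C D).PosSemidef) : A.PosSemidef := by
  have := hM.submatrix (fun i : n => (false, i))
  convert this using 1
  ext i j
  rfl

theorem qb_psd_right {A B C D : Matrix n n ℂ} (hM : (qb A B C D).PosSemidef) : D.PosSemidef := by
  have := hM.submatrix (fun i : n => (true, i))
  convert this using 1
  ext i j
  rfl

theorem qf_qb_left (A B C D : Matrix n n ℂ) (U V : Matrix n n ℂ) (j : n) :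
    qf (qb A B C D) (colv (qb U 0 0 V) (false, j)) = qf A (colv U j) := by
  simp [qf, colv, qb, dotProduct, mulVec, Fintype.sum_prod_type, Fintype.sum_bool]

theorem qf_qb_right (A B C D : Matrix n n ℂ) (U V : Matrix n n ℂ) (j : n) :
    qf (qb A B C D) (colv (qb U 0 0 V) (true, j)) = qf D (colv V j) := by
  simp [qf, colv, qb, dotProduct, mulVec, Fintype.sum_prod_type, Fintype.sum_bool]

/-- Peierls for block matrices. -/
theorem vnEntropy_le_blocks {A B C D : Matrix n n ℂ} (hM : (qb A B C D).PosSemidef) :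
    vnEntropy (qb A B C D) ≤ vnEntropy A + vnEntropy D := by
  have hA := qb_psd_left hM
  have hD := qb_psd_right hM
  set U := (hA.1.eigenvectorUnitary : Matrix n n ℂ) with hU
  set V := (hD.1.eigenvectorUnitary : Matrix n n ℂ) with hV
  have hUU : Uᴴ * U = 1 := eU_conj_mul hA.1
  have hVV : Vᴴ * V = 1 := eU_conj_mul hD.1
  have h := vnEntropy_le_of_unitary hM _ (qb_unitary hUU hVV)
  rw [Fintype.sum_prod_type, Fintype.sum_bool] at h
  simp only [qf_qb_left, qf_qb_right] at h
  rw [vnEntropy_eq_sum_qf hA.1, vnEntropy_eq_sum_qf hD.1]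
  linarith

/-- Additivity on Kronecker products of PSD matrices of trace one (or: `S̃(A⊗B) = Tr B S̃(A) + Tr A S̃(B)`). -/
theorem vnEntropy_kronecker {A : Matrix n n ℂ} {B : Matrix m m ℂ} (hA : A.PosSemidef) (hB : B.PosSemidef) :
    vnEntropy (A ⊗ₖ B) = B.trace.re * vnEntropy A + A.trace.re * vnEntropy B := by
  set U := (hA.1.eigenvectorUnitary : Matrix n n ℂ) with hU
  set V := (hB.1.eigenvectorUnitary : Matrix m m ℂ) with hV
  have hUU : Uᴴ * U = 1 := eU_conj_mul hA.1
  have hVV : Vᴴ * V = 1 := eU_conj_mul hB.1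
  have hW : (U ⊗ₖ V)ᴴ * (U ⊗ₖ V) = 1 := by
    rw [conjTranspose_kronecker, ← Matrix.mul_kronecker_mul, hUU, hVV, Matrix.one_kronecker_one]
  have hdec : A ⊗ₖ B = (U ⊗ₖ V) *
      diagonal (fun p : n × m => ((hA.1.eigenvalues p.1 * hB.1.eigenvalues p.2 : ℝ) : ℂ)) * (U ⊗ₖ V)ᴴ := by
    have hd : diagonal (fun p : n × m => ((hA.1.eigenvalues p.1 * hB.1.eigenvalues p.2 : ℝ) : ℂ)) =
        (diagonal fun j => ((hA.1.eigenvalues j : ℝ) : ℂ)) ⊗ₖ (diagonal fun j => ((hB.1.eigenvalues j : ℝ) : ℂ)) := by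
      rw [Matrix.diagonal_kronecker_diagonal]
      congr 1
      funext p
      simp
    rw [hd, conjTranspose_kronecker, ← Matrix.mul_kronecker_mul, ← Matrix.mul_kronecker_mul,
      ← spectral_form hA.1, ← spectral_form hB.1]
  rw [vnEntropy_eq_trF, hdec, trF_of_decomp _ _ hW, vnEntropy_eq_trF, vnEntropy_eq_trF, trF_of_herm hA.1,
    trF_of_herm hB.1, trace_re_eq_sum hA.1, trace_re_eq_sum hB.1, Fintype.sum_prod_type]
  simp only [Real.negMulLog_mul, Finset.sum_add_distrib, Finset.sum_const, Finset.card_univ, smul_eq_mul,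
    ← Finset.mul_sum, ← Finset.sum_mul]

/-- Invariance under relabelling. -/
theorem vnEntropy_reindex (e : n ≃ m) {A : Matrix n n ℂ} (hA : A.IsHermitian) :
    vnEntropy (Matrix.reindex e e A) = vnEntropy A := by
  set U := (hA.eigenvectorUnitary : Matrix n n ℂ) with hU
  have hUU : Uᴴ * U = 1 := eU_conj_mul hA
  have hW : ((Matrix.reindex e e U))ᴴ * (Matrix.reindex e e U) = 1 := by
    simp only [reindex_apply, conjTranspose_submatrix]
    rw [Matrix.submatrix_mul_equiv, hUU, Matrix.submatrix_one_equiv]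
  have hdec : Matrix.reindex e e A = (Matrix.reindex e e U) *
      diagonal (fun j => ((hA.eigenvalues (e.symm j) : ℝ) : ℂ)) * (Matrix.reindex e e U)ᴴ := by
    conv_lhs => rw [spectral_form hA]
    simp only [reindex_apply, conjTranspose_submatrix]
    rw [← Matrix.submatrix_mul_equiv _ _ _ e.symm, ← Matrix.submatrix_mul_equiv _ _ _ e.symm]
    congr 2
    ext i j
    simp [Matrix.diagonal_apply]
  rw [vnEntropy_eq_trF, hdec, trF_of_decomp _ _ hW, vnEntropy_eq_trF, trF_of_herm hA]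
  exact Equiv.sum_comp e.symm fun i => Real.negMulLog (hA.eigenvalues i)

/-- Upper semicontinuity along a filter: from `peierls` in an eigenbasis of the limit and continuity of the scalar `η`. -/
theorem vnEntropy_limsup {ι : Type*} {l : Filter ι} [l.NeBot] {M : ι → Matrix n n ℂ} {M₀ : Matrix n n ℂ}
    (hM : ∀ i, (M i).PosSemidef) (hM₀ : M₀.PosSemidef) (hlim : Tendsto M l (𝓝 M₀))
    {r : ι → ℝ} {r₀ : ℝ} (hr : Tendsto r l (𝓝 r₀)) (hle : ∀ i, r i ≤ vnEntropy (M i)) :
    r₀ ≤ vnEntropy M₀ := by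
  set W := (hM₀.1.eigenvectorUnitary : Matrix n n ℂ) with hWdef
  have hW : Wᴴ * W = 1 := eU_conj_mul hM₀.1
  have hcont : ∀ v : n → ℂ, Continuous fun X : Matrix n n ℂ => qf X v := by
    intro v
    unfold qf
    fun_prop
  have h1 : Tendsto (fun i => ∑ j, Real.negMulLog (qf (M i) (colv W j))) l
      (𝓝 (∑ j, Real.negMulLog (qf M₀ (colv W j)))) := by
    refine tendsto_finsetSum _ fun j _ => ?_
    exact Real.continuous_negMulLog.continuousAt.tendsto.comp ((hcont _).continuousAt.tendsto.comp hlim)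
  rw [vnEntropy_eq_sum_qf hM₀.1]
  exact le_of_tendsto_of_tendsto' hr h1 fun i => (hle i).trans (vnEntropy_le_of_unitary (hM i) W hW)

/-- Entropy of a Hermitian 2×2 (indexed by `Bool`) PSD matrix from trace and determinant. -/
theorem vnEntropy_two {A : Matrix Bool Bool ℂ} (hA : A.PosSemidef) {l₁ l₂ : ℝ} (h0₁ : 0 ≤ l₁) (h0₂ : 0 ≤ l₂)
    (htr : A.trace.re = l₁ + l₂) (hdet : A.det.re = l₁ * l₂) :
    vnEntropy A = Real.negMulLog l₁ + Real.negMulLog l₂ := by
  have h1 := trace_re_eq_sum hA.1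
  have h2 := det_re_eq_prod hA.1
  rw [Fintype.sum_bool] at h1
  rw [Fintype.prod_bool] at h2
  rw [htr] at h1
  rw [hdet] at h2
  rw [vnEntropy_eq_trF, trF_of_herm hA.1, Fintype.sum_bool]
  set x := hA.1.eigenvalues true
  set y := hA.1.eigenvalues false
  have h3 : (x - l₁) * (x - l₂) = 0 := by
    have : y = l₁ + l₂ - x := by linarith
    rw [this] at h2
    nlinarith
  rcases mul_eq_zero.1 h3 with h | h
  · have hx : x = l₁ := by linarith
    have hy : y = l₂ := by linarith
    rw [hx, hy]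
  · have hx : x = l₂ := by linarith
    have hy : y = l₁ := by linarith
    rw [hx, hy, add_comm]

end Crest.Agent.H8G
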