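/-
Scalar potentials for the GADC key inequality. Statement file (subtask T1).
Math: see comments at each theorem. All quantities are real numbers.
-/
import Crest.Agent.H8GDefs

set_option autoImplicit false

namespace Crest.Agent.H8G.Par

open Set Filter Topology

variable {P : Par}

/-! ## algebra of the point `(A,p)` -/

lemma t1_pos' (hP : P.Valid) : 0 < P.t1 := by
  have := hP.ha; have := hP.hb; have := hP.hA; have := hP.hp
  unfold t1; positivity

lemma t2_pos' (hP : P.Valid) : 0 < P.t2 := by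
  have := hP.hc; have := hP.hd; have := hP.hA; have := hP.hp
  unfold t2; positivity

lemma kap_pos' (hP : P.Valid) : 0 < P.kap := by
  have := hP.he2; have := hP.hA; have := hP.hp
  unfold kap; positivity

lemma disc_sq' (hP : P.Valid) : P.disc ^ 2 = (P.t1 - P.t2) ^ 2 + 4 * P.kap := by
  have := kap_pos' hP
  unfold disc
  exact Real.sq_sqrt (by positivity)

lemma disc_pos' (hP : P.Valid) : 0 < P.disc := by
  have := kap_pos' hP
  unfold disc
  exact Real.sqrt_pos.2 (by positivity)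

lemma B_eq : P.B = (P.t2 - P.t1 + P.disc) / 2 := by
  unfold B l1; ring

lemma C_eq : P.C = (P.t1 - P.t2 + P.disc) / 2 := by
  unfold C l2; ring

lemma BC_eq (hP : P.Valid) : P.B * P.C = P.kap := by
  rw [B_eq, C_eq]
  have := disc_sq' hP
  nlinarith

lemma BC_add : P.B + P.C = P.disc := by
  rw [B_eq, C_eq]; ring

lemma B_pos' (hP : P.Valid) : 0 < P.B := by
  have h1 := disc_pos' hP
  have h2 := disc_sq' hP
  have h3 := kap_pos' hP
  rw [B_eq]
  have : |P.t2 - P.t1| < P.disc := by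
    apply abs_lt_of_sq_lt_sq _ h1.le
    nlinarith
  have := (abs_lt.1 this).1
  linarith

lemma C_pos' (hP : P.Valid) : 0 < P.C := by
  have h1 := disc_pos' hP
  have h2 := disc_sq' hP
  have h3 := kap_pos' hP
  rw [C_eq]
  have : |P.t1 - P.t2| < P.disc := by
    apply abs_lt_of_sq_lt_sq _ h1.le
    nlinarith
  have := (abs_lt.1 this).1
  linarith

lemma l1_eq : P.l1 = P.t1 + P.B := by unfold B; ring
lemma l2_eq : P.l2 = P.t1 - P.C := by unfold C; ring
lemma t2_eq : P.t2 = P.l2 + P.B := by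
  rw [B_eq]; unfold l2; ring
lemma t1_eq : P.t1 = P.l2 + P.C := by unfold C; ring
lemma l1_eq' : P.l1 = P.l2 + P.B + P.C := by
  rw [B_eq, C_eq]; unfold l1 l2; ring

/-- `t1 t2 - kap = a c A² + 2 b c A p + b d p²`. -/
lemma t1t2_sub (hP : P.Valid) :
    P.t1 * P.t2 - P.kap = P.a * P.c * P.A ^ 2 + 2 * P.b * P.c * P.A * P.p + P.b * P.d * P.p ^ 2 := by
  unfold t1 t2 kap
  rw [hP.hdet]; ring

lemma l1l2_eq (hP : P.Valid) : P.l1 * P.l2 = P.t1 * P.t2 - P.kap := by
  unfold l1 l2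
  have := disc_sq' hP
  nlinarith

lemma l1_pos' (hP : P.Valid) : 0 < P.l1 := by
  have := t1_pos' hP; have := t2_pos' hP; have := disc_pos' hP
  unfold l1; positivity

lemma l2_pos' (hP : P.Valid) : 0 < P.l2 := by
  have h1 := l1_pos' hP
  have h2 := l1l2_eq hP
  have h3 := t1t2_sub hP
  have hpos : 0 < P.l1 * P.l2 := by
    rw [h2, h3]
    have := hP.ha; have := hP.hb; have := hP.hc; have := hP.hd; have := hP.hA; have := hP.hp
    positivity
  exact (pos_iff_pos_of_mul_pos hpos).1 h1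

lemma w1_add_w2 (hP : P.Valid) : P.w1 + P.w2 = 1 := by
  have := B_pos' hP; have := C_pos' hP
  unfold w1 w2
  field_simp
  ring

lemma w1_pos (hP : P.Valid) : 0 < P.w1 := by
  have := B_pos' hP; have := C_pos' hP
  unfold w1; positivity

lemma w2_pos (hP : P.Valid) : 0 < P.w2 := by
  have := B_pos' hP; have := C_pos' hP
  unfold w2; positivity

/-- `l1 + l2 = t1 + t2`, `l1 * l2 = t1 * t2 - kap`, `B * C = kap`, `B,C>0`, `0 < l2`, `t1 = l2 + C = l1 - B`,
`t2 = l2 + B = l1 - C`. (`t1*t2 - kap = acA²+bdp²+2bcAp > 0`.) -/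
theorem alg (hP : P.Valid) :
    P.l1 + P.l2 = P.t1 + P.t2 ∧ P.l1 * P.l2 = P.t1 * P.t2 - P.kap ∧ P.B * P.C = P.kap ∧
      0 < P.B ∧ 0 < P.C ∧ 0 < P.l2 ∧ P.t1 = P.l2 + P.C ∧ P.t2 = P.l2 + P.B ∧ 0 < P.t1 ∧ 0 < P.t2 ∧
      0 < P.kap ∧ P.w1 + P.w2 = 1 ∧ 0 < P.w1 ∧ 0 < P.w2 := by
  refine ⟨?_, l1l2_eq hP, BC_eq hP, B_pos' hP, C_pos' hP, l2_pos' hP, t1_eq, t2_eq, t1_pos' hP,
    t2_pos' hP, kap_pos' hP, w1_add_w2 hP, w1_pos hP, w2_pos hP⟩
  unfold l1 l2; ring

/-- `a A < t1` -/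
lemma aA_lt (hP : P.Valid) : P.a * P.A < P.t1 := by
  have := hP.hb; have := hP.hp
  unfold t1
  nlinarith [mul_pos hP.hb hP.hp]

lemma dp_lt (hP : P.Valid) : P.d * P.p < P.t2 := by
  unfold t2
  nlinarith [mul_pos hP.hc hP.hA]

/-- `u = A/(τ+t1)` lies in `[0, 1/a)` for `τ ≥ 0`, since `a A < t1`. -/
theorem al_mem (hP : P.Valid) {τ : ℝ} (hτ : 0 ≤ τ) : P.A / (τ + P.t1) ∈ Ico 0 (1 / P.a) := by
  have h1 := aA_lt hP
  have h2 := t1_pos' hP
  have hA := hP.hA
  have ha := hP.ha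
  constructor
  · positivity
  · rw [div_lt_div_iff₀ (by linarith) ha]
    nlinarith

theorem be_mem (hP : P.Valid) {τ : ℝ} (hτ : 0 ≤ τ) : P.p / (τ + P.t2) ∈ Ico 0 (1 / P.d) := by
  have h1 := dp_lt hP
  have h2 := t2_pos' hP
  have hA := hP.hp
  have ha := hP.hd
  constructor
  · positivity
  · rw [div_lt_div_iff₀ (by linarith) ha]
    nlinarith

lemma al1_pos (hP : P.Valid) : 0 < P.al1 := by
  have := hP.hA; have := t1_pos' hP
  unfold al1; positivity

lemma be1_pos (hP : P.Valid) : 0 < P.be1 := by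
  have := hP.hp; have := t2_pos' hP
  unfold be1; positivity

lemma al1_lt (hP : P.Valid) : P.al1 < 1 / P.a := by
  have := al_mem hP (le_refl 0)
  simpa [al1] using this.2

lemma be1_lt (hP : P.Valid) : P.be1 < 1 / P.d := by
  have := be_mem hP (le_refl 0)
  simpa [be1] using this.2

/-- `e² < a d`. -/
lemma e2_lt (hP : P.Valid) : P.e2 < P.a * P.d := by
  rw [hP.hdet]
  nlinarith [mul_pos hP.hb hP.hc]

/-- positivity of the argument of the cost on the closed rectangle. -/
lemma one_sub_pos (hP : P.Valid) {u v : ℝ} (hu : u ∈ Icc 0 (1 / P.a)) (hv : v ∈ Icc 0 (1 / P.d)) :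
    0 < 1 - P.e2 * u * v := by
  have ha := hP.ha
  have hd := hP.hd
  have he := hP.he2
  have h1 : u * v ≤ (1 / P.a) * (1 / P.d) :=
    mul_le_mul hu.2 hv.2 hv.1 (by positivity)
  have h2 : P.e2 * ((1 / P.a) * (1 / P.d)) < 1 := by
    rw [show P.e2 * ((1 / P.a) * (1 / P.d)) = P.e2 / (P.a * P.d) by field_simp]
    rw [div_lt_one (by positivity)]
    exact e2_lt hP
  have h3 : P.e2 * (u * v) ≤ P.e2 * ((1 / P.a) * (1 / P.d)) :=
    mul_le_mul_of_nonneg_left h1 he.le
  nlinarith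

/-- `1 + (B/A) u > 0` for `u ≥ 0`. -/
lemma gan1_pos (hP : P.Valid) {u : ℝ} (hu : 0 ≤ u) : 0 < 1 + P.B / P.A * u := by
  have := B_pos' hP; have := hP.hA
  positivity

lemma han1_pos (hP : P.Valid) {v : ℝ} (hv : 0 ≤ v) : 0 < 1 + P.C / P.p * v := by
  have := C_pos' hP; have := hP.hp
  positivity

lemma gan2_pos (hP : P.Valid) {u : ℝ} (hu : u ≤ P.al1) : 0 < 1 - P.C / P.A * u := by
  have hC := C_pos' hP
  have hA := hP.hA
  have ht := t1_pos' hP
  have hl := l2_pos' hP
  have h1 : P.C / P.A * u ≤ P.C / P.A * P.al1 :=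
    mul_le_mul_of_nonneg_left hu (by positivity)
  have h2 : P.C / P.A * P.al1 = P.C / P.t1 := by
    unfold al1; field_simp
  have h3 : P.C / P.t1 < 1 := by
    rw [div_lt_one ht, t1_eq]; linarith
  linarith

lemma han2_pos (hP : P.Valid) {v : ℝ} (hv : v ≤ P.be1) : 0 < 1 - P.B / P.p * v := by
  have hB := B_pos' hP
  have hA := hP.hp
  have ht := t2_pos' hP
  have hl := l2_pos' hP
  have h1 : P.B / P.p * v ≤ P.B / P.p * P.be1 :=
    mul_le_mul_of_nonneg_left hv (by positivity)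
  have h2 : P.B / P.p * P.be1 = P.B / P.t2 := by
    unfold be1; field_simp
  have h3 : P.B / P.t2 < 1 := by
    rw [div_lt_one ht, t2_eq]; linarith
  linarith

/-- Weighted two-point concavity of `log` in the form needed. -/
lemma log_wam {w w' x y : ℝ} (hw : 0 ≤ w) (hw' : 0 ≤ w') (hww : w + w' = 1) (hx : 0 < x) (hy : 0 < y) :
    w * Real.log x + w' * Real.log y ≤ Real.log (w * x + w' * y) := by
  have := strictConcaveOn_log_Ioi.concaveOn.2 (show x ∈ Ioi (0:ℝ) from hx) (show y ∈ Ioi (0:ℝ) from hy) hw hw' hww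
  simpa [smul_eq_mul] using this

lemma w_B_C (hP : P.Valid) : P.w1 * P.B = P.w2 * P.C := by
  have := B_pos' hP; have := C_pos' hP
  unfold w1 w2
  field_simp

lemma w_kap (hP : P.Valid) : P.w1 * P.B ^ 2 + P.w2 * P.C ^ 2 = P.kap := by
  have h1 := B_pos' hP; have h2 := C_pos' hP
  rw [← BC_eq hP]
  unfold w1 w2
  field_simp

/-- Young's inequality on the analytic rectangle. -/
lemma young_aa (hP : P.Valid) {u v : ℝ} (hu0 : 0 ≤ u) (hu : u ≤ P.al1) (hv0 : 0 ≤ v) (hv : v ≤ P.be1) :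
    P.cost u v ≤ P.Gan u + P.Han v := by
  have ha := gan1_pos hP hu0
  have hb := gan2_pos hP hu
  have hc := han1_pos hP hv0
  have hd := han2_pos hP hv
  have hA := hP.hA
  have hp := hP.hp
  have hw1 := w1_pos hP
  have hw2 := w2_pos hP
  have key := log_wam hw1.le hw2.le (w1_add_w2 hP) (mul_pos ha hd) (mul_pos hb hc)
  have hid : P.w1 * ((1 + P.B / P.A * u) * (1 - P.B / P.p * v)) +
      P.w2 * ((1 - P.C / P.A * u) * (1 + P.C / P.p * v)) = 1 - P.e2 * u * v := by
    have h1 := w_B_C hP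
    have h2 := w_kap hP
    have h3 := w1_add_w2 hP
    have : P.w1 * ((1 + P.B / P.A * u) * (1 - P.B / P.p * v)) +
      P.w2 * ((1 - P.C / P.A * u) * (1 + P.C / P.p * v)) =
        (P.w1 + P.w2) + (P.w1 * P.B - P.w2 * P.C) * (u / P.A - v / P.p)
          - (P.w1 * P.B ^ 2 + P.w2 * P.C ^ 2) * (u / P.A * (v / P.p)) := by
      field_simp
      ring
    rw [this, h1, h2, h3]
    unfold kap
    field_simp
    ring
  rw [hid] at key
  rw [Real.log_mul ha.ne' hd.ne', Real.log_mul hb.ne' hc.ne'] at key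
  unfold cost Gan Han
  nlinarith


/-- `a t2 - e² p = c t1`. -/
lemma a_t2 (hP : P.Valid) : P.a * P.t2 - P.e2 * P.p = P.c * P.t1 := by
  unfold t1 t2
  rw [hP.hdet]; ring

/-- `d t1 - e² A = b t2`. -/
lemma d_t1 (hP : P.Valid) : P.d * P.t1 - P.e2 * P.A = P.b * P.t2 := by
  unfold t1 t2
  rw [hP.hdet]; ring

lemma cost_be1_arg (hP : P.Valid) {u : ℝ} (hu : u ∈ Icc 0 (1 / P.a)) : 0 < 1 - P.e2 * u * P.be1 :=
  one_sub_pos hP hu ⟨(be1_pos hP).le, (be1_lt hP).le⟩

lemma ratio_alg {t1 t2 ll κ x y : ℝ} (ht2 : 0 < t2) (hll : 0 < ll) (hll' : ll = t1 * t2 - κ)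
    (hκ : 0 ≤ κ) (hm0 : 0 < t2 - κ * x) (hx : 1 ≤ t1 * x) (hy : t2 * y ≤ 1) :
    t2 * (t1 - κ * y) / ll ≤ (1 - κ * x * y) / ((t2 - κ * x) / t2) := by
  rw [div_div_eq_mul_div, div_le_div_iff₀ hll hm0]
  have hmain : 0 ≤ κ * ((t1 * x - 1) * (1 - t2 * y)) :=
    mul_nonneg hκ (mul_nonneg (by linarith) (by linarith))
  have h4 : 0 ≤ t2 * (κ * ((t1 * x - 1) * (1 - t2 * y))) := mul_nonneg ht2.le hmain
  subst hll'
  have : (1 - κ * x * y) * t2 * (t1 * t2 - κ) - t2 * (t1 - κ * y) * (t2 - κ * x) =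
      t2 * (κ * ((t1 * x - 1) * (1 - t2 * y))) := by ring
  linarith

set_option maxHeartbeats 1000000 in
/-- Frozen case: for `u ≥ al1`, `v ≤ be1`: `c(u,v) - Han v ≤ c(u,be1) - Han be1`. -/
lemma young_fa (hP : P.Valid) {u v : ℝ} (hu0 : P.al1 ≤ u) (hu : u ≤ 1 / P.a) (hv0 : 0 ≤ v)
    (hv : v ≤ P.be1) :
    P.cost u v ≤ (P.cost u P.be1 - P.Han P.be1) + P.Han v := by
  have hal := al1_pos hP
  have hbe := be1_pos hP
  have hum : u ∈ Icc 0 (1 / P.a) := ⟨hal.le.trans hu0, hu⟩
  have hvm : v ∈ Icc 0 (1 / P.d) := ⟨hv0, hv.trans (be1_lt hP).le⟩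
  have hm := one_sub_pos hP hum hvm
  have hm0 := cost_be1_arg hP hum
  have hc := han1_pos hP hv0
  have hd := han2_pos hP hv
  have hc0 := han1_pos hP hbe.le
  have hd0 := han2_pos hP (le_refl P.be1)
  have hw1 := w1_pos hP
  have hw2 := w2_pos hP
  have hww : P.w2 + P.w1 = 1 := by rw [add_comm]; exact w1_add_w2 hP
  have key := log_wam hw2.le hw1.le hww (div_pos hc hc0) (div_pos hd hd0)
  -- evaluate the AM
  have ht1 := t1_pos' hP
  have ht2 := t2_pos' hP
  have hl1 := l1_pos' hP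
  have hl2 := l2_pos' hP
  have hp := hP.hp
  have hA := hP.hA
  have hB := B_pos' hP
  have hC := C_pos' hP
  have hc0e : 1 + P.C / P.p * P.be1 = P.l1 / P.t2 := by
    unfold be1
    rw [l1_eq', t2_eq]
    field_simp
  have hd0e : 1 - P.B / P.p * P.be1 = P.l2 / P.t2 := by
    unfold be1
    rw [t2_eq]
    have : P.l2 + P.B ≠ 0 := by positivity
    field_simp
    ring
  have hkm : P.w1 * P.l1 + P.w2 * P.l2 = P.t1 := by
    rw [l1_eq', t1_eq]
    unfold w1 w2
    field_simp
    ring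
  have hkm2 : P.w2 * P.l1 + P.w1 * P.l2 = P.t2 := by
    rw [l1_eq', t2_eq]
    unfold w1 w2
    field_simp
    ring
  -- the main affine comparison
  set x := u / P.A with hx
  set y := v / P.p with hy
  have hux : u = x * P.A := by rw [hx]; field_simp
  have hvy : v = y * P.p := by rw [hy]; field_simp
  have hcx : 1 + P.C / P.p * v = 1 + P.C * y := by rw [hy]; ring
  have hdx : 1 - P.B / P.p * v = 1 - P.B * y := by rw [hy]; ring
  have hAM : P.w2 * ((1 + P.C / P.p * v) / (1 + P.C / P.p * P.be1)) +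
      P.w1 * ((1 - P.B / P.p * v) / (1 - P.B / P.p * P.be1)) =
      P.t2 * (P.t1 - P.kap * y) / (P.l1 * P.l2) := by
    rw [hc0e, hd0e, hcx, hdx]
    have hwB : P.w1 * P.B * (P.l1 - P.l2) = P.kap := by
      rw [l1_eq', ← BC_eq hP]
      unfold w1
      field_simp
      ring
    have hw2C := w_B_C hP
    have e1 : P.t2 * (P.t1 - P.kap * y) / (P.l1 * P.l2) =
        P.t2 * ((P.w1 * P.l1 + P.w2 * P.l2) - (P.w1 * P.B * (P.l1 - P.l2)) * y) / (P.l1 * P.l2) := by
      rw [hkm, hwB]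
    rw [e1]
    have ht2' : P.t2 ≠ 0 := ht2.ne'
    have hl1' : P.l1 ≠ 0 := hl1.ne'
    have hl2' : P.l2 ≠ 0 := hl2.ne'
    field_simp
    have : P.w2 * P.C = P.w1 * P.B := hw2C.symm
    linear_combination (P.l2 * y) * this
  have hratio : P.t2 * (P.t1 - P.kap * y) / (P.l1 * P.l2) ≤ (1 - P.e2 * u * v) / (1 - P.e2 * u * P.be1) := by
    have hmx : 1 - P.e2 * u * v = 1 - P.kap * x * y := by
      rw [hux, hvy]; unfold kap; ring
    have hm0x : 1 - P.e2 * u * P.be1 = (P.t2 - P.kap * x) / P.t2 := by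
      unfold be1
      rw [hux]
      unfold kap
      field_simp
    have hm0t : 0 < P.t2 - P.kap * x := by
      have : 0 < (P.t2 - P.kap * x) / P.t2 := by rw [← hm0x]; exact hm0
      have h2 := (div_pos_iff_of_pos_right ht2).1 this
      exact h2
    rw [hm0x, hmx]
    have hx1 : 1 ≤ P.t1 * x := by
      have : P.A / P.t1 ≤ x * P.A := by
        rw [← hux]; exact hu0
      rw [div_le_iff₀ ht1] at this
      have h3 : P.A * 1 ≤ P.A * (P.t1 * x) := by nlinarith
      exact le_of_mul_le_mul_left h3 hA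
    have hy1 : P.t2 * y ≤ 1 := by
      have : y * P.p ≤ P.p / P.t2 := by
        rw [← hvy]; exact hv
      rw [le_div_iff₀ ht2] at this
      have h3 : P.p * (P.t2 * y) ≤ P.p * 1 := by nlinarith
      exact le_of_mul_le_mul_left h3 hp
    exact ratio_alg ht2 (mul_pos hl1 hl2) (l1l2_eq hP) (kap_pos' hP).le hm0t hx1 hy1
  have hfinal : P.w2 * (Real.log (1 + P.C / P.p * v) - Real.log (1 + P.C / P.p * P.be1)) +
      P.w1 * (Real.log (1 - P.B / P.p * v) - Real.log (1 - P.B / P.p * P.be1)) ≤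
      Real.log (1 - P.e2 * u * v) - Real.log (1 - P.e2 * u * P.be1) := by
    rw [← Real.log_div hc.ne' hc0.ne', ← Real.log_div hd.ne' hd0.ne', ← Real.log_div hm.ne' hm0.ne']
    refine key.trans (Real.log_le_log ?_ ?_)
    · exact add_pos (mul_pos hw2 (div_pos hc hc0)) (mul_pos hw1 (div_pos hd hd0))
    · rw [hAM]; exact hratio
  unfold cost Han
  linarith

/-- `G` on the analytic range. -/
lemma G_of_le {u : ℝ} (hu : u ≤ P.al1) : P.G u = P.Gan u := by
  unfold G; rw [if_pos hu]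

lemma G_of_gt {u : ℝ} (hu : P.al1 < u) : P.G u = P.cost u P.be1 - P.Han P.be1 := by
  unfold G; rw [if_neg (not_le.2 hu)]

lemma H_of_le {v : ℝ} (hv : v ≤ P.be1) : P.H v = P.Han v := by
  unfold H; rw [if_pos hv]

lemma H_of_gt {v : ℝ} (hv : P.be1 < v) : P.H v = P.cost (1 / P.a) v - P.G (1 / P.a) := by
  unfold H; rw [if_neg (not_le.2 hv)]

/-- Young on `[0,1/a] × {v ≤ be1}`. -/
lemma young_le (hP : P.Valid) {u v : ℝ} (hu : u ∈ Icc 0 (1 / P.a)) (hv0 : 0 ≤ v) (hv : v ≤ P.be1) :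
    P.cost u v ≤ P.G u + P.Han v := by
  by_cases h : u ≤ P.al1
  · rw [G_of_le h]; exact young_aa hP hu.1 h hv0 hv
  · have h' := not_le.1 h
    rw [G_of_gt h']
    exact young_fa hP h'.le hu.2 hv0 hv

/-- Supermodularity of the cost: `c(u,v) - c(u,be1) ≤ c(1/a,v) - c(1/a,be1)`. -/
lemma cost_super (hP : P.Valid) {u v : ℝ} (hu : u ∈ Icc 0 (1 / P.a)) (hv0 : P.be1 ≤ v)
    (hv : v ≤ 1 / P.d) :
    P.cost u v - P.cost u P.be1 ≤ P.cost (1 / P.a) v - P.cost (1 / P.a) P.be1 := by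
  have hbe := be1_pos hP
  have ha := hP.ha
  have h1a : (1 / P.a) ∈ Icc 0 (1 / P.a) := ⟨by positivity, le_refl _⟩
  have hvm : v ∈ Icc 0 (1 / P.d) := ⟨hbe.le.trans hv0, hv⟩
  have hbm : P.be1 ∈ Icc 0 (1 / P.d) := ⟨hbe.le, (be1_lt hP).le⟩
  have m1 := one_sub_pos hP hu hvm
  have m2 := one_sub_pos hP hu hbm
  have m3 := one_sub_pos hP h1a hvm
  have m4 := one_sub_pos hP h1a hbm
  unfold cost
  have key : (1 - P.e2 * u * P.be1) * (1 - P.e2 * (1 / P.a) * v) ≤
      (1 - P.e2 * (1 / P.a) * P.be1) * (1 - P.e2 * u * v) := by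
    have h0 : 0 ≤ P.e2 * ((1 / P.a - u) * (v - P.be1)) :=
      mul_nonneg hP.he2.le (mul_nonneg (by linarith [hu.2]) (by linarith))
    nlinarith
  have := Real.log_le_log (mul_pos m2 m3) key
  rw [Real.log_mul m2.ne' m3.ne', Real.log_mul m4.ne' m1.ne'] at this
  linarith

/-- Young's inequality `c(u,v) ≤ G(u) + H(v)` on the closed rectangle.
Proof. For `u = A/(τ+t1)`, `v = p/(τ'+t2)` with `τ,τ' ≥ 0` (analytic range `u ≤ al1`, `v ≤ be1`; `u=0` or `v=0` separately),
put `Q1=τ+l1, Q2=τ+l2, Q1'=τ'+l1, Q2'=τ'+l2`. Then `t1=w1 l1+w2 l2`, `t2=w2 l1+w1 l2`, `kap = w1 w2 (l1-l2)²`, and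
`(τ+t1)(τ'+t2) - kap = w1 Q1 Q2' + w2 Q2 Q1'`; weighted AM-GM gives `log(...) ≥ w1 log(Q1 Q2') + w2 log(Q2 Q1')`, which is exactly
`c ≤ Gan + Han` since `Gan(A/(τ+t1)) = log(τ+t1) - w1 log Q1 - w2 log Q2`, `Han(p/(τ'+t2)) = log(τ'+t2) - w2 log Q1' - w1 log Q2'`.
Case `u > al1`, `v ≤ be1`: `G u = c(u,be1) - Han be1`; need `c(u,v) - Han v ≤ c(u,be1) - Han be1`. With `u = A/(τ+t1)`, `τ<0`,
`E(τ,τ') = (τ+t1)(τ'+t2)-kap = E(τ,0) + τ'(τ+t1)`, and AM-GM `(Q1'/l1)^{w2} (Q2'/l2)^{w1} ≤ 1 + τ'(w2/l1 + w1/l2) = 1 + τ' t1/(l1 l2)`,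
and `t1/(l1 l2) = t1/(t1 t2 - kap) ≤ (τ+t1)/E(τ,0)` for `τ ≤ 0`.
Cases `v > be1`: `H v = c(1/a,v) - G(1/a)`; use supermodularity `c(u,v) - c(u,be1) ≤ c(1/a,v) - c(1/a,be1)` (`u ≤ 1/a`, `v ≥ be1`),
i.e. `(1-e²u be1)(1-e²v/a) ≤ (1-e²be1/a)(1-e²uv)`, and the previous cases at `(u,be1)`. Note `e² /(a d) < 1` since `bc>0`. -/
theorem young (hP : P.Valid) {u v : ℝ} (hu : u ∈ Icc 0 (1 / P.a)) (hv : v ∈ Icc 0 (1 / P.d)) :
    P.cost u v ≤ P.G u + P.H v := by
  by_cases h : v ≤ P.be1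
  · rw [H_of_le h]; exact young_le hP hu hv.1 h
  · have h' := not_le.1 h
    rw [H_of_gt h']
    have h1 := cost_super hP hu h'.le hv.2
    have h2 := young_le hP hu (be1_pos hP).le (le_refl _)
    have h3 : P.G (1 / P.a) = P.cost (1 / P.a) P.be1 - P.Han P.be1 := G_of_gt (al1_lt hP)
    rw [h3]
    linarith


/-- Logarithmic form of `Gan` on the curve. -/
lemma Gan_curve (hP : P.Valid) {τ : ℝ} (hτ : 0 ≤ τ) :
    P.Gan (P.A / (τ + P.t1)) =
      Real.log (τ + P.t1) - P.w1 * Real.log (τ + P.l1) - P.w2 * Real.log (τ + P.l2) := by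
  have ht1 := t1_pos' hP
  have hl1 := l1_pos' hP
  have hl2 := l2_pos' hP
  have hA := hP.hA
  have hs : 0 < τ + P.t1 := by linarith
  have hq1 : 0 < τ + P.l1 := by linarith
  have hq2 : 0 < τ + P.l2 := by linarith
  have e1 : 1 + P.B / P.A * (P.A / (τ + P.t1)) = (τ + P.l1) / (τ + P.t1) := by
    rw [l1_eq]; field_simp; ring
  have e2 : 1 - P.C / P.A * (P.A / (τ + P.t1)) = (τ + P.l2) / (τ + P.t1) := by
    rw [l2_eq]; field_simp; ring
  unfold Gan
  rw [e1, e2, Real.log_div hq1.ne' hs.ne', Real.log_div hq2.ne' hs.ne']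
  have hw := w1_add_w2 hP
  have : P.w2 = 1 - P.w1 := by linarith
  rw [this]; ring

lemma Han_curve (hP : P.Valid) {τ : ℝ} (hτ : 0 ≤ τ) :
    P.Han (P.p / (τ + P.t2)) =
      Real.log (τ + P.t2) - P.w2 * Real.log (τ + P.l1) - P.w1 * Real.log (τ + P.l2) := by
  have ht1 := t2_pos' hP
  have hl1 := l1_pos' hP
  have hl2 := l2_pos' hP
  have hA := hP.hp
  have hs : 0 < τ + P.t2 := by linarith
  have hq1 : 0 < τ + P.l1 := by linarith
  have hq2 : 0 < τ + P.l2 := by linarith
  have e1 : 1 + P.C / P.p * (P.p / (τ + P.t2)) = (τ + P.l1) / (τ + P.t2) := by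
    rw [l1_eq', show P.l2 + P.B + P.C = P.t2 + P.C by rw [t2_eq]]; field_simp; ring
  have e2 : 1 - P.B / P.p * (P.p / (τ + P.t2)) = (τ + P.l2) / (τ + P.t2) := by
    have : P.l2 = P.t2 - P.B := by rw [t2_eq]; ring
    rw [this]; field_simp; ring
  unfold Han
  rw [e1, e2, Real.log_div hq1.ne' hs.ne', Real.log_div hq2.ne' hs.ne']
  have hw := w1_add_w2 hP
  have : P.w2 = 1 - P.w1 := by linarith
  rw [this]; ring

lemma cost_curve (hP : P.Valid) {τ : ℝ} (hτ : 0 ≤ τ) :
    P.cost (P.A / (τ + P.t1)) (P.p / (τ + P.t2)) =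
      Real.log (τ + P.t1) + Real.log (τ + P.t2) - Real.log (τ + P.l1) - Real.log (τ + P.l2) := by
  have ht1 := t1_pos' hP
  have ht2 := t2_pos' hP
  have hl1 := l1_pos' hP
  have hl2 := l2_pos' hP
  have hA := hP.hA
  have hp := hP.hp
  have hs1 : 0 < τ + P.t1 := by linarith
  have hs2 : 0 < τ + P.t2 := by linarith
  have hq1 : 0 < τ + P.l1 := by linarith
  have hq2 : 0 < τ + P.l2 := by linarith
  have e : 1 - P.e2 * (P.A / (τ + P.t1)) * (P.p / (τ + P.t2)) =
      ((τ + P.l1) * (τ + P.l2)) / ((τ + P.t1) * (τ + P.t2)) := by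
    have h1 : (τ + P.l1) * (τ + P.l2) = (τ + P.t1) * (τ + P.t2) - P.kap := by
      have h2 := l1l2_eq hP
      have h3 : P.l1 + P.l2 = P.t1 + P.t2 := by unfold l1 l2; ring
      linear_combination τ * h3 + h2
    rw [h1]
    unfold kap
    field_simp
  unfold cost
  rw [e, Real.log_div (mul_pos hq1 hq2).ne' (mul_pos hs1 hs2).ne',
    Real.log_mul hq1.ne' hq2.ne', Real.log_mul hs1.ne' hs2.ne']
  ring

lemma curve_le_al1 (hP : P.Valid) {τ : ℝ} (hτ : 0 ≤ τ) : P.A / (τ + P.t1) ≤ P.al1 := by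
  have ht1 := t1_pos' hP
  have hA := hP.hA
  unfold al1
  exact div_le_div_of_nonneg_left hA.le ht1 (by linarith)

lemma curve_le_be1 (hP : P.Valid) {τ : ℝ} (hτ : 0 ≤ τ) : P.p / (τ + P.t2) ≤ P.be1 := by
  have ht1 := t2_pos' hP
  have hA := hP.hp
  unfold be1
  exact div_le_div_of_nonneg_left hA.le ht1 (by linarith)

/-- Equality on the curve: `G(A/(τ+t1)) + H(p/(τ+t2)) = c(...)` for `τ ≥ 0` (both in the analytic range; `Q1=Q1'`, `Q2=Q2'`). -/
theorem tight (hP : P.Valid) {τ : ℝ} (hτ : 0 ≤ τ) :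
    P.G (P.A / (τ + P.t1)) + P.H (P.p / (τ + P.t2)) =
      P.cost (P.A / (τ + P.t1)) (P.p / (τ + P.t2)) := by
  rw [G_of_le (curve_le_al1 hP hτ), H_of_le (curve_le_be1 hP hτ), Gan_curve hP hτ, Han_curve hP hτ,
    cost_curve hP hτ]
  have hw := w1_add_w2 hP
  have : P.w2 = 1 - P.w1 := by linarith
  rw [this]; ring

theorem G_zero (hP : P.Valid) : P.G 0 = 0 := by
  rw [G_of_le (al1_pos hP).le]
  unfold Gan
  simp

theorem H_zero (hP : P.Valid) : P.H 0 = 0 := by
  rw [H_of_le (be1_pos hP).le]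
  unfold Han
  simp

lemma cost_zero_right (u : ℝ) : P.cost u 0 = 0 := by
  unfold cost; simp

lemma cost_zero_left (v : ℝ) : P.cost 0 v = 0 := by
  unfold cost; simp

/-- from `young` at `v = 0`. -/
theorem G_nonneg (hP : P.Valid) {u : ℝ} (hu : u ∈ Icc 0 (1 / P.a)) : 0 ≤ P.G u := by
  have h0 : (0:ℝ) ∈ Icc 0 (1 / P.d) := ⟨le_refl _, by have := hP.hd; positivity⟩
  have := young hP hu h0
  rwa [cost_zero_right, H_zero hP, add_zero] at this

/-- from `young` at `u = 0`. -/
theorem H_nonneg (hP : P.Valid) {v : ℝ} (hv : v ∈ Icc 0 (1 / P.d)) : 0 ≤ P.H v := by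
  have h0 : (0:ℝ) ∈ Icc 0 (1 / P.a) := ⟨le_refl _, by have := hP.ha; positivity⟩
  have := young hP h0 hv
  rwa [cost_zero_left, G_zero hP, zero_add] at this

/-- Convexity from supporting convex minorants touching at each point. -/
lemma convexOn_of_support {s : Set ℝ} (hs : Convex ℝ s) {f : ℝ → ℝ}
    (h : ∀ x ∈ s, ∃ φ : ℝ → ℝ, ConvexOn ℝ s φ ∧ φ x = f x ∧ ∀ z ∈ s, φ z ≤ f z) : ConvexOn ℝ s f := by
  refine ⟨hs, fun x hx y hy α β hα hβ hαβ => ?_⟩
  have hz : α • x + β • y ∈ s := hs hx hy hα hβ hαβ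
  obtain ⟨φ, hφ, h1, h2⟩ := h _ hz
  rw [← h1]
  refine (hφ.2 hx hy hα hβ hαβ).trans ?_
  have h3 := h2 x hx
  have h4 := h2 y hy
  simp only [smul_eq_mul]
  nlinarith

lemma neg_log_convex {s : Set ℝ} (hs : Convex ℝ s) (m : ℝ) (hm : ∀ x ∈ s, 0 < 1 - m * x) :
    ConvexOn ℝ s (fun x => -Real.log (1 - m * x)) := by
  refine ⟨hs, fun x hx y hy α β hα hβ hαβ => ?_⟩
  have h1 := log_wam hα hβ hαβ (hm x hx) (hm y hy)
  have h2 : α * (1 - m * x) + β * (1 - m * y) = 1 - m * (α • x + β • y) := by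
    simp only [smul_eq_mul]
    have : β = 1 - α := by linarith
    rw [this]; ring
  rw [h2] at h1
  simp only [smul_eq_mul] at h1 ⊢
  linarith

/-- `G` is convex: for each `u` there is `v_u` with `G(u) = c(u,v_u) - H(v_u)` (`v_u = p/(τ+t2)` when `u = A/(τ+t1) ≤ al1`, else
`v_u = be1`), and `c(·,v)` is convex; with `young`: `G(Σθ u) = c(Σθ u, v*) - H(v*) ≤ Σθ (c(u,v*) - H(v*)) ≤ Σθ G(u)`. -/
theorem G_convex (hP : P.Valid) : ConvexOn ℝ (Icc 0 (1 / P.a)) P.G := by
  apply convexOn_of_support (convex_Icc _ _)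
  -- representation
  have rep : ∀ u ∈ Icc 0 (1 / P.a), ∃ v ∈ Icc 0 (1 / P.d), P.G u = P.cost u v - P.H v := by
    intro u hu
    rcases eq_or_lt_of_le hu.1 with h0 | h0
    · refine ⟨0, ⟨le_refl _, by have := hP.hd; positivity⟩, ?_⟩
      rw [← h0, G_zero hP, H_zero hP, cost_zero_left]; ring
    · by_cases h : u ≤ P.al1
      · have ht1 := t1_pos' hP
        have hA := hP.hA
        have hτ : 0 ≤ P.A / u - P.t1 := by
          have : P.t1 ≤ P.A / u := by
            rw [le_div_iff₀ h0]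
            have := h
            unfold al1 at this
            rw [le_div_iff₀ ht1] at this
            linarith
          linarith
        have hu' : P.A / (P.A / u - P.t1 + P.t1) = u := by
          rw [sub_add_cancel]; field_simp
        refine ⟨P.p / (P.A / u - P.t1 + P.t2), ?_, ?_⟩
        · have := be_mem hP hτ
          exact ⟨this.1, this.2.le⟩
        · have := tight hP hτ
          rw [hu'] at this
          linarith
      · have h' := not_le.1 h
        refine ⟨P.be1, ⟨(be1_pos hP).le, (be1_lt hP).le⟩, ?_⟩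
        rw [G_of_gt h', H_of_le (le_refl _)]
  intro x hx
  obtain ⟨v, hv, hrep⟩ := rep x hx
  refine ⟨fun z => P.cost z v - P.H v, ?_, hrep.symm, ?_⟩
  · have h1 : ConvexOn ℝ (Icc 0 (1 / P.a)) (fun z => P.cost z v) := by
      have := neg_log_convex (s := Icc 0 (1 / P.a)) (convex_Icc _ _) (P.e2 * v) (fun z hz => by
        have := one_sub_pos hP hz hv
        have e : P.e2 * v * z = P.e2 * z * v := by ring
        rw [e]; exact this)
      refine this.congr ?_
      intro z _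
      show -Real.log (1 - P.e2 * v * z) = -Real.log (1 - P.e2 * z * v)
      rw [show P.e2 * v * z = P.e2 * z * v by ring]
    have h2 : ConvexOn ℝ (Icc 0 (1 / P.a)) (fun _ : ℝ => - P.H v) := convexOn_const _ (convex_Icc _ _)
    have := h1.add h2
    refine this.congr ?_
    intro z _
    simp [sub_eq_add_neg]
  · intro z hz
    have := young hP hz hv
    show P.cost z v - P.H v ≤ P.G z
    linarith

/-- `H` is convex: same argument with `u_v = A/(τ+t1)` for `v = p/(τ+t2) ≤ be1`, `u_v = 1/a` for `v > be1`. -/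
theorem H_convex (hP : P.Valid) : ConvexOn ℝ (Icc 0 (1 / P.d)) P.H := by
  apply convexOn_of_support (convex_Icc _ _)
  have rep : ∀ v ∈ Icc 0 (1 / P.d), ∃ u ∈ Icc 0 (1 / P.a), P.H v = P.cost u v - P.G u := by
    intro v hv
    rcases eq_or_lt_of_le hv.1 with h0 | h0
    · refine ⟨0, ⟨le_refl _, by have := hP.ha; positivity⟩, ?_⟩
      rw [← h0, G_zero hP, H_zero hP, cost_zero_left]; ring
    · by_cases h : v ≤ P.be1
      · have ht1 := t2_pos' hP
        have hA := hP.hp
        have hτ : 0 ≤ P.p / v - P.t2 := by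
          have : P.t2 ≤ P.p / v := by
            rw [le_div_iff₀ h0]
            have := h
            unfold be1 at this
            rw [le_div_iff₀ ht1] at this
            linarith
          linarith
        have hv' : P.p / (P.p / v - P.t2 + P.t2) = v := by
          rw [sub_add_cancel]; field_simp
        refine ⟨P.A / (P.p / v - P.t2 + P.t1), ?_, ?_⟩
        · have := al_mem hP hτ
          exact ⟨this.1, this.2.le⟩
        · have := tight hP hτ
          rw [hv'] at this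
          linarith
      · have h' := not_le.1 h
        refine ⟨1 / P.a, ⟨by have := hP.ha; positivity, le_refl _⟩, ?_⟩
        rw [H_of_gt h']
  intro x hx
  obtain ⟨u, hu, hrep⟩ := rep x hx
  refine ⟨fun z => P.cost u z - P.G u, ?_, hrep.symm, ?_⟩
  · have h1 : ConvexOn ℝ (Icc 0 (1 / P.d)) (fun z => P.cost u z) := by
      have := neg_log_convex (s := Icc 0 (1 / P.d)) (convex_Icc _ _) (P.e2 * u) (fun z hz => 
        one_sub_pos hP hu hz)
      exact this
    have h2 : ConvexOn ℝ (Icc 0 (1 / P.d)) (fun _ : ℝ => - P.G u) := convexOn_const _ (convex_Icc _ _)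
    have := h1.add h2
    refine this.congr ?_
    intro z _
    simp [sub_eq_add_neg]
  · intro z hz
    have := young hP hu hz
    show P.cost u z - P.G u ≤ P.H z
    linarith


theorem eps1_pos (hP : P.Valid) : 0 < P.eps1 := by
  have h1 := kap_pos' hP
  have h2 := hP.hA
  have h3 : 0 < min P.a P.c := lt_min hP.ha hP.hc
  unfold eps1
  exact lt_max_of_lt_left (by positivity)

theorem eps2_pos (hP : P.Valid) : 0 < P.eps2 := by
  have h1 := kap_pos' hP
  have h2 := hP.hp
  have h3 : 0 < min P.d P.b := lt_min hP.hd hP.hb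
  unfold eps2
  exact lt_max_of_lt_left (by positivity)

theorem L1_zero (hP : P.Valid) : P.L1 0 = 0 := by
  unfold L1
  rw [G_zero hP]
  simp

theorem L2_zero (hP : P.Valid) : P.L2 0 = 0 := by
  unfold L2
  rw [H_zero hP]
  simp

/-- monotonicity from derivatives given pointwise. -/
lemma mono_of_hasDeriv {D : Set ℝ} (hD : Convex ℝ D) {f : ℝ → ℝ} (hf : ContinuousOn f D)
    (h : ∀ x ∈ interior D, ∃ d, HasDerivAt f d x ∧ 0 ≤ d) : MonotoneOn f D := by
  refine monotoneOn_of_deriv_nonneg hD hf ?_ ?_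
  · intro x hx
    obtain ⟨d, hd, _⟩ := h x hx
    exact hd.differentiableAt.differentiableWithinAt
  · intro x hx
    obtain ⟨d, hd, h0⟩ := h x hx
    rw [hd.deriv]; exact h0

/-- Abstract monotonicity lemma shared by `L1`, `L2`. -/
lemma mono_abs {α ε ρ y κ T B C : ℝ} {F : ℝ → ℝ} (hα : 0 < α) (hε : 0 < ε) (hρ0 : 0 < ρ)
    (hρ1 : ρ < 1 / α) (hF : ContinuousOn F (Ico 0 (1 / α)))
    (hd1 : ∀ u ∈ Ioo 0 ρ, HasDerivAt F (κ * u / ((T + B * u) * (T - C * u))) u)
    (hd2 : ∀ u ∈ Ioo ρ (1 / α), HasDerivAt F (1 / (y - u)) u)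
    (hpos : ∀ u ∈ Ioo 0 ρ, 0 < T + B * u ∧ 0 < T - C * u)
    (hBC : B * C = κ)
    (hN : ∀ u ∈ Ioo 0 ρ, κ * (1 - α * u) ≤ ε * (α * T ^ 2 + (α * T * (B - C) - κ) * u))
    (hy : 1 / α < y)
    (hsec : (1 - α * ρ) ^ 2 ≤ ε * (α * y - 1) * ρ) :
    MonotoneOn (fun u => -(α / ε) * Real.log (1 + ε * u) - Real.log (1 - α * u) - F u)
      (Ico 0 (1 / α)) := by
  set L : ℝ → ℝ := fun u => -(α / ε) * Real.log (1 + ε * u) - Real.log (1 - α * u) - F u with hL
  have hP2 : ∀ u, u < 1 / α → 0 < 1 - α * u := by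
    intro u hu
    rw [lt_div_iff₀ hα] at hu
    linarith
  have hP1 : ∀ u, 0 ≤ u → 0 < 1 + ε * u := by
    intro u hu; positivity
  have hcont : ContinuousOn L (Ico 0 (1 / α)) := by
    refine ContinuousOn.sub (ContinuousOn.sub (ContinuousOn.mul continuousOn_const ?_) ?_) hF
    · refine ContinuousOn.log (by fun_prop) ?_
      intro u hu
      exact (hP1 u hu.1).ne'
    · refine ContinuousOn.log (by fun_prop) ?_
      intro u hu
      exact (hP2 u hu.2).ne'
  have hbase : ∀ u, 0 < u → u < 1 / α → ∀ F' : ℝ, HasDerivAt F F' u →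
      HasDerivAt L (α * (ε + α) * u / ((1 + ε * u) * (1 - α * u)) - F') u := by
    intro u hu0 hu1 F' hF'
    have p1 := hP1 u hu0.le
    have p2 := hP2 u hu1
    have d1 : HasDerivAt (fun u => Real.log (1 + ε * u)) (ε / (1 + ε * u)) u := by
      have h := ((hasDerivAt_id u).const_mul ε).const_add 1
      have h2 := h.log p1.ne'
      simpa using h2
    have d2 : HasDerivAt (fun u => Real.log (1 - α * u)) (-α / (1 - α * u)) u := by
      have h := ((hasDerivAt_id u).const_mul α).const_sub 1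
      have h2 := h.log p2.ne'
      simpa using h2
    have d3 := ((d1.const_mul (-(α / ε))).sub d2).sub hF'
    refine HasDerivAt.congr_deriv d3 ?_
    congr 1
    field_simp
    ring
  have m1 : MonotoneOn L (Icc 0 ρ) := by
    refine mono_of_hasDeriv (convex_Icc _ _) (hcont.mono ?_) ?_
    · intro u hu; exact ⟨hu.1, lt_of_le_of_lt hu.2 hρ1⟩
    · rw [interior_Icc]
      intro u hu
      have hu1 : u < 1 / α := hu.2.trans hρ1
      refine ⟨_, hbase u hu.1 hu1 _ (hd1 u hu), ?_⟩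
      obtain ⟨q1, q2⟩ := hpos u hu
      have p1 := hP1 u hu.1.le
      have p2 := hP2 u hu1
      rw [sub_nonneg, div_le_div_iff₀ (mul_pos q1 q2) (mul_pos p1 p2)]
      have key := hN u hu
      have hid : α * (ε + α) * ((T + B * u) * (T - C * u)) - κ * ((1 + ε * u) * (1 - α * u)) =
          ε * (α * T ^ 2 + (α * T * (B - C) - κ) * u) - κ * (1 - α * u)
            + α ^ 2 * ((T + B * u) * (T - C * u)) := by
        subst hBC; ring
      have hq : 0 ≤ α ^ 2 * ((T + B * u) * (T - C * u)) := by positivity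
      have : κ * ((1 + ε * u) * (1 - α * u)) ≤ α * (ε + α) * ((T + B * u) * (T - C * u)) := by
        linarith
      have := mul_le_mul_of_nonneg_left this hu.1.le
      nlinarith
  have m2 : MonotoneOn L (Ico ρ (1 / α)) := by
    refine mono_of_hasDeriv (convex_Ico _ _) (hcont.mono ?_) ?_
    · intro u hu; exact ⟨hρ0.le.trans hu.1, hu.2⟩
    · rw [interior_Ico]
      intro u hu
      have hu0 : 0 < u := hρ0.trans hu.1
      refine ⟨_, hbase u hu0 hu.2 _ (hd2 u hu), ?_⟩
      have p1 := hP1 u hu0.le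
      have p2 := hP2 u hu.2
      have hy' : 0 < α * y - 1 := by
        rw [div_lt_iff₀ hα] at hy
        linarith
      have hyu : 0 < y - u := by linarith [hu.2]
      rw [sub_nonneg, div_le_div_iff₀ hyu (mul_pos p1 p2)]
      have hid : α * (ε + α) * u * (y - u) - (1 + ε * u) * (1 - α * u) =
          (ε + α) * (α * y - 1) * u - (1 - α * u) ^ 2 := by ring
      have h1 : (1 - α * u) ^ 2 ≤ (1 - α * ρ) ^ 2 := by
        have : α * ρ ≤ α * u := mul_le_mul_of_nonneg_left hu.1.le hα.le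
        exact pow_le_pow_left₀ p2.le (by linarith) 2
      have h2 : ε * (α * y - 1) * ρ ≤ (ε + α) * (α * y - 1) * u := by
        have h3 : ε * (α * y - 1) * ρ ≤ ε * (α * y - 1) * u :=
          mul_le_mul_of_nonneg_left hu.1.le (by positivity)
        have h4 : 0 ≤ α * (α * y - 1) * u := by positivity
        nlinarith
      linarith
  have hU : Ico 0 (1 / α) = Icc 0 ρ ∪ Ico ρ (1 / α) := by
    rw [Icc_union_Ico_eq_Ico hρ0.le hρ1]
  rw [hU]
  exact m1.union_right m2 ⟨⟨hρ0.le, le_refl _⟩, fun x hx => hx.2⟩ ⟨⟨le_refl _, hρ1⟩, fun x hx => hx.1⟩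

lemma top_abs {α ε : ℝ} {F : ℝ → ℝ} (hα : 0 < α) (hε : 0 < ε)
    (hF : ContinuousWithinAt F (Iio (1 / α)) (1 / α)) :
    Tendsto (fun u => -(α / ε) * Real.log (1 + ε * u) - Real.log (1 - α * u) - F u)
      (𝓝[<] (1 / α)) atTop := by
  have h1 : Tendsto (fun u => -(α / ε) * Real.log (1 + ε * u) - F u) (𝓝[<] (1 / α))
      (𝓝 (-(α / ε) * Real.log (1 + ε * (1 / α)) - F (1 / α))) := by
    refine Tendsto.sub (Tendsto.const_mul _ ?_) hF
    have : ContinuousAt (fun u => Real.log (1 + ε * u)) (1 / α) := by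
      refine ContinuousAt.log (by fun_prop) ?_
      have : 0 < 1 + ε * (1 / α) := by positivity
      exact this.ne'
    exact this.tendsto.mono_left nhdsWithin_le_nhds
  have h2 : Tendsto (fun u => 1 - α * u) (𝓝[<] (1 / α)) (𝓝[>] 0) := by
    rw [tendsto_nhdsWithin_iff]
    constructor
    · have : ContinuousAt (fun u => 1 - α * u) (1 / α) := by fun_prop
      have h3 := this.tendsto.mono_left (nhdsWithin_le_nhds (s := Iio (1 / α)))
      have e : 1 - α * (1 / α) = 0 := by field_simp; ring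
      rwa [e] at h3
    · filter_upwards [self_mem_nhdsWithin] with u hu
      have hu' : u < 1 / α := hu
      rw [lt_div_iff₀ hα] at hu'
      show (0:ℝ) < 1 - α * u
      linarith
  have h3 : Tendsto (fun u => -Real.log (1 - α * u)) (𝓝[<] (1 / α)) atTop :=
    tendsto_neg_atBot_atTop.comp (Real.tendsto_log_nhdsGT_zero.comp h2)
  have h4 := h1.add_atTop h3
  refine h4.congr ?_
  intro u
  ring

/-! derivative computations -/

lemma hasDerivAt_gan {T B C w w' u : ℝ} (hT : 0 < T) (hBC : 0 < B + C)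
    (hw : w * (B + C) = C) (hw' : w' * (B + C) = B) (h1 : 0 < T + B * u) (h2 : 0 < T - C * u) :
    HasDerivAt (fun u => -w * Real.log (1 + B / T * u) - w' * Real.log (1 - C / T * u))
      (B * C * u / ((T + B * u) * (T - C * u))) u := by
  have p1 : 0 < 1 + B / T * u := by
    have : 1 + B / T * u = (T + B * u) / T := by field_simp
    rw [this]; positivity
  have p2 : 0 < 1 - C / T * u := by
    have : 1 - C / T * u = (T - C * u) / T := by field_simp
    rw [this]; positivity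
  have d1 : HasDerivAt (fun u => Real.log (1 + B / T * u)) ((B / T) / (1 + B / T * u)) u := by
    have h := ((hasDerivAt_id u).const_mul (B / T)).const_add 1
    have h2 := h.log p1.ne'
    simpa using h2
  have d2 : HasDerivAt (fun u => Real.log (1 - C / T * u)) (-(C / T) / (1 - C / T * u)) u := by
    have h := ((hasDerivAt_id u).const_mul (C / T)).const_sub 1
    have h2 := h.log p2.ne'
    simpa using h2
  have d3 := (d1.const_mul (-w)).sub (d2.const_mul w')
  refine HasDerivAt.congr_deriv d3 ?_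
  have e1 : (B / T) / (1 + B / T * u) = B / (T + B * u) := by
    field_simp
  have e2 : -(C / T) / (1 - C / T * u) = -C / (T - C * u) := by
    field_simp
  rw [e1, e2]
  have hw1 : w = C / (B + C) := by field_simp; exact hw
  have hw2 : w' = B / (B + C) := by field_simp; exact hw'
  rw [hw1, hw2]
  field_simp
  ring

lemma hasDerivAt_neglog {m u : ℝ} (hm : 0 < m) (h : 0 < 1 - m * u) :
    HasDerivAt (fun u => -Real.log (1 - m * u)) (1 / (1 / m - u)) u := by
  have d2 : HasDerivAt (fun u => Real.log (1 - m * u)) (-m / (1 - m * u)) u := by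
    have h1 := ((hasDerivAt_id u).const_mul m).const_sub 1
    have h2 := h1.log h.ne'
    simpa using h2
  have d3 := d2.neg
  refine HasDerivAt.congr_deriv d3 ?_
  have : 1 / m - u = (1 - m * u) / m := by field_simp
  rw [this]
  field_simp

lemma aff_min {n0 n1 ρ m u : ℝ} (h0 : m ≤ n0) (h1 : m ≤ n0 + n1 * ρ) (hu0 : 0 ≤ u) (huρ : u ≤ ρ) :
    m ≤ n0 + n1 * u := by
  rcases le_total 0 n1 with h | h
  · have := mul_nonneg h hu0; linarith
  · have : n1 * ρ ≤ n1 * u := mul_le_mul_of_nonpos_left huρ h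
    linarith

/-- continuity of `G` on the closed interval. -/
lemma G_cont (hP : P.Valid) : ContinuousOn P.G (Icc 0 (1 / P.a)) := by
  have hal := al1_pos hP
  have hlt := al1_lt hP
  have hU : Icc 0 (1 / P.a) = Icc 0 P.al1 ∪ Icc P.al1 (1 / P.a) :=
    (Icc_union_Icc_eq_Icc hal.le hlt.le).symm
  rw [hU]
  refine ContinuousOn.union_of_isClosed ?_ ?_ isClosed_Icc isClosed_Icc
  · have : ContinuousOn P.Gan (Icc 0 P.al1) := by
      unfold Gan
      refine ContinuousOn.sub (ContinuousOn.mul continuousOn_const (ContinuousOn.log (by fun_prop) ?_))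
        (ContinuousOn.mul continuousOn_const (ContinuousOn.log (by fun_prop) ?_))
      · intro u hu; exact (gan1_pos hP hu.1).ne'
      · intro u hu; exact (gan2_pos hP hu.2).ne'
    exact this.congr (fun u hu => G_of_le hu.2)
  · have : ContinuousOn (fun u => P.cost u P.be1 - P.Han P.be1) (Icc P.al1 (1 / P.a)) := by
      unfold cost
      refine ContinuousOn.sub (ContinuousOn.neg (ContinuousOn.log (by fun_prop) ?_)) continuousOn_const
      intro u hu
      exact (cost_be1_arg hP ⟨hal.le.trans hu.1, hu.2⟩).ne'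
    refine this.congr ?_
    intro u hu
    rcases eq_or_lt_of_le hu.1 with h | h
    · rw [← h, G_of_le (le_refl _)]
      have := tight hP (le_refl 0)
      rw [G_of_le (curve_le_al1 hP (le_refl 0)), H_of_le (curve_le_be1 hP (le_refl 0))] at this
      simp only [zero_add] at this
      show P.Gan P.al1 = P.cost P.al1 P.be1 - P.Han P.be1
      unfold al1 be1 at *
      linarith
    · exact G_of_gt h

lemma H_cont (hP : P.Valid) : ContinuousOn P.H (Icc 0 (1 / P.d)) := by
  have hal := be1_pos hP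
  have hlt := be1_lt hP
  have hU : Icc 0 (1 / P.d) = Icc 0 P.be1 ∪ Icc P.be1 (1 / P.d) :=
    (Icc_union_Icc_eq_Icc hal.le hlt.le).symm
  rw [hU]
  refine ContinuousOn.union_of_isClosed ?_ ?_ isClosed_Icc isClosed_Icc
  · have : ContinuousOn P.Han (Icc 0 P.be1) := by
      unfold Han
      refine ContinuousOn.sub (ContinuousOn.mul continuousOn_const (ContinuousOn.log (by fun_prop) ?_))
        (ContinuousOn.mul continuousOn_const (ContinuousOn.log (by fun_prop) ?_))
      · intro u hu; exact (han1_pos hP hu.1).ne'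
      · intro u hu; exact (han2_pos hP hu.2).ne'
    exact this.congr (fun u hu => H_of_le hu.2)
  · have h1a : (1 / P.a) ∈ Icc 0 (1 / P.a) := ⟨by have := hP.ha; positivity, le_refl _⟩
    have : ContinuousOn (fun v => P.cost (1 / P.a) v - P.G (1 / P.a)) (Icc P.be1 (1 / P.d)) := by
      unfold cost
      refine ContinuousOn.sub (ContinuousOn.neg (ContinuousOn.log (by fun_prop) ?_)) continuousOn_const
      intro u hu
      exact (one_sub_pos hP h1a ⟨hal.le.trans hu.1, hu.2⟩).ne'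
    refine this.congr ?_
    intro u hu
    rcases eq_or_lt_of_le hu.1 with h | h
    · rw [← h, H_of_le (le_refl _), G_of_gt (al1_lt hP)]
      ring
    · exact H_of_gt h

lemma w1_mul (hP : P.Valid) : P.w1 * (P.B + P.C) = P.C := by
  have := B_pos' hP; have := C_pos' hP
  unfold w1; field_simp

lemma w2_mul (hP : P.Valid) : P.w2 * (P.B + P.C) = P.B := by
  have := B_pos' hP; have := C_pos' hP
  unfold w2; field_simp

lemma G_deriv1 (hP : P.Valid) {u : ℝ} (hu : u ∈ Ioo 0 P.al1) :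
    HasDerivAt P.G (P.kap * u / ((P.A + P.B * u) * (P.A - P.C * u))) u := by
  have hA := hP.hA
  have hB := B_pos' hP
  have hC := C_pos' hP
  have h1 : 0 < P.A + P.B * u := by have := hu.1; positivity
  have h2 : 0 < P.A - P.C * u := by
    have := gan2_pos hP hu.2.le
    have e : P.A - P.C * u = P.A * (1 - P.C / P.A * u) := by field_simp
    rw [e]; positivity
  have := hasDerivAt_gan (T := P.A) (B := P.B) (C := P.C) (u := u) hA (by positivity) (w1_mul hP)
    (w2_mul hP) h1 h2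
  rw [BC_eq hP] at this
  refine this.congr_of_eventuallyEq ?_
  filter_upwards [Iio_mem_nhds hu.2] with x hx
  exact G_of_le (le_of_lt hx)

lemma H_deriv1 (hP : P.Valid) {u : ℝ} (hu : u ∈ Ioo 0 P.be1) :
    HasDerivAt P.H (P.kap * u / ((P.p + P.C * u) * (P.p - P.B * u))) u := by
  have hA := hP.hp
  have hB := B_pos' hP
  have hC := C_pos' hP
  have h1 : 0 < P.p + P.C * u := by have := hu.1; positivity
  have h2 : 0 < P.p - P.B * u := by
    have := han2_pos hP hu.2.le
    have e : P.p - P.B * u = P.p * (1 - P.B / P.p * u) := by field_simp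
    rw [e]; positivity
  have := hasDerivAt_gan (T := P.p) (B := P.C) (C := P.B) (w := P.w2) (w' := P.w1) (u := u) hA
    (by positivity) (by rw [add_comm]; exact w2_mul hP) (by rw [add_comm]; exact w1_mul hP) h1 h2
  rw [mul_comm P.C P.B, BC_eq hP] at this
  refine this.congr_of_eventuallyEq ?_
  filter_upwards [Iio_mem_nhds hu.2] with x hx
  exact H_of_le (le_of_lt hx)

/-- the pole `y = t2/(e² p)`. -/
lemma a_y_pos (hP : P.Valid) : 0 < P.a * (P.t2 / (P.e2 * P.p)) - 1 := by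
  have he := hP.he2
  have hp := hP.hp
  have h := a_t2 hP
  have hc := hP.hc
  have ht := t1_pos' hP
  have : P.a * (P.t2 / (P.e2 * P.p)) - 1 = (P.c * P.t1) / (P.e2 * P.p) := by
    rw [← h]; field_simp
  rw [this]; positivity

lemma d_y_pos (hP : P.Valid) : 0 < P.d * (P.a / P.e2) - 1 := by
  have he := hP.he2
  have h := hP.hdet
  have : P.d * (P.a / P.e2) - 1 = (P.b * P.c) / P.e2 := by
    field_simp
    rw [h]; ring
  rw [this]
  have := hP.hb; have := hP.hc
  positivity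

lemma G_deriv2 (hP : P.Valid) {u : ℝ} (hu : u ∈ Ioo P.al1 (1 / P.a)) :
    HasDerivAt P.G (1 / (P.t2 / (P.e2 * P.p) - u)) u := by
  have he := hP.he2
  have hp := hP.hp
  have ht := t2_pos' hP
  have hm : 0 < P.e2 * P.be1 := by have := be1_pos hP; positivity
  have hal := al1_pos hP
  have harg := cost_be1_arg hP ⟨hal.le.trans hu.1.le, hu.2.le⟩
  have h1 := hasDerivAt_neglog (m := P.e2 * P.be1) (u := u) hm (by
    have : P.e2 * P.be1 * u = P.e2 * u * P.be1 := by ring
    rw [this]; exact harg)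
  have e : 1 / (P.e2 * P.be1) = P.t2 / (P.e2 * P.p) := by
    unfold be1; field_simp
  rw [e] at h1
  have h2 := h1.sub_const (P.Han P.be1)
  refine h2.congr_of_eventuallyEq ?_
  filter_upwards [Ioi_mem_nhds hu.1] with x hx
  rw [G_of_gt hx]
  unfold cost
  rw [show P.e2 * x * P.be1 = P.e2 * P.be1 * x by ring]

lemma H_deriv2 (hP : P.Valid) {u : ℝ} (hu : u ∈ Ioo P.be1 (1 / P.d)) :
    HasDerivAt P.H (1 / (P.a / P.e2 - u)) u := by
  have he := hP.he2
  have ha := hP.ha
  have hm : 0 < P.e2 * (1 / P.a) := by positivity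
  have hal := be1_pos hP
  have h1a : (1 / P.a) ∈ Icc 0 (1 / P.a) := ⟨by positivity, le_refl _⟩
  have harg := one_sub_pos hP h1a ⟨hal.le.trans hu.1.le, hu.2.le⟩
  have h1 := hasDerivAt_neglog (m := P.e2 * (1 / P.a)) (u := u) hm harg
  have e : 1 / (P.e2 * (1 / P.a)) = P.a / P.e2 := by
    field_simp
  rw [e] at h1
  have h2 := h1.sub_const (P.G (1 / P.a))
  refine h2.congr_of_eventuallyEq ?_
  filter_upwards [Ioi_mem_nhds hu.1] with x hx
  rw [H_of_gt hx]
  unfold cost
  rfl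

/-- `L1` is monotone on `[0,1/a)`.
On `[0,al1]`: `L1' = a(ε+a)u/((1+εu)(1-au)) - kap u/((A+Bu)(A-Cu))`, and with `N(u) = aA² + (aA(B-C) - kap) u` (affine; `N(0)=aA²`, `N(al1)=cA²`)
positivity reduces to `ε N(u) ≥ kap (1-au)`, true since `ε ≥ kap/(A² min(a,c))`.
On `[al1,1/a)`: `L1' = a(ε+a)u/((1+εu)(1-au)) - 1/(y-u)`, `y = t2/(e² p)`, `a y - 1 = c t1/(e² p) > 0`, and
`a(ε+a)u(y-u) - (1-au)(1+εu) = (ε+a)(ay-1)u - (1-au)² ≥ 0` for `u ≥ al1`, by the second term in `eps1`. -/
theorem L1_mono (hP : P.Valid) : MonotoneOn P.L1 (Ico 0 (1 / P.a)) := by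
  have ha := hP.ha
  have hc := hP.hc
  have hA := hP.hA
  have hk := kap_pos' hP
  have heps := eps1_pos hP
  have hal := al1_pos hP
  have hayp := a_y_pos hP
  refine mono_abs (ρ := P.al1) (y := P.t2 / (P.e2 * P.p)) (κ := P.kap) (T := P.A) (B := P.B)
    (C := P.C) ha heps hal (al1_lt hP) ?_ (fun u hu => G_deriv1 hP hu) (fun u hu => G_deriv2 hP hu)
    ?_ (BC_eq hP) ?_ ?_ ?_
  · exact (G_cont hP).mono Ico_subset_Icc_self
  · intro u hu
    have hB := B_pos' hP
    have h1 : 0 < P.A + P.B * u := by have := hu.1; positivity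
    have h2 : 0 < P.A - P.C * u := by
      have := gan2_pos hP hu.2.le
      have e : P.A - P.C * u = P.A * (1 - P.C / P.A * u) := by field_simp
      rw [e]; positivity
    exact ⟨h1, h2⟩
  · intro u hu
    have hmin : 0 < min P.a P.c := lt_min ha hc
    set m := min P.a P.c * P.A ^ 2 with hm
    have hmpos : 0 < m := by positivity
    have h0 : m ≤ P.a * P.A ^ 2 := by
      rw [hm]; exact mul_le_mul_of_nonneg_right (min_le_left _ _) (by positivity)
    have h1 : m ≤ P.a * P.A ^ 2 + (P.a * P.A * (P.B - P.C) - P.kap) * P.al1 := by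
      have e : P.a * P.A ^ 2 + (P.a * P.A * (P.B - P.C) - P.kap) * P.al1 = P.c * P.A ^ 2 := by
        have ht := t1_pos' hP
        have hBC : P.B - P.C = P.t2 - P.t1 := by rw [B_eq, C_eq]; ring
        have h5 := a_t2 hP
        rw [hBC]
        unfold al1
        field_simp
        unfold kap
        linear_combination (P.A) * h5
      rw [e, hm]; exact mul_le_mul_of_nonneg_right (min_le_right _ _) (by positivity)
    have h3 := aff_min h0 h1 hu.1.le hu.2.le
    have h4 : P.kap / m ≤ P.eps1 := by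
      unfold eps1
      refine le_trans ?_ (le_max_left _ _)
      rw [hm, mul_comm (min P.a P.c)]
    have h5 : P.kap ≤ P.eps1 * (P.a * P.A ^ 2 + (P.a * P.A * (P.B - P.C) - P.kap) * u) := by
      calc P.kap = P.kap / m * m := by field_simp
        _ ≤ P.eps1 * m := mul_le_mul_of_nonneg_right h4 hmpos.le
        _ ≤ _ := mul_le_mul_of_nonneg_left h3 heps.le
    have h6 : 0 ≤ P.kap * (P.a * u) := by have := hu.1; positivity
    nlinarith
  · rw [div_lt_iff₀ ha]
    linarith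
  · have h1 : (1 - P.a * P.al1) ^ 2 / ((P.a * (P.t2 / (P.e2 * P.p)) - 1) * P.al1) ≤ P.eps1 := by
      unfold eps1
      exact le_max_right _ _
    rw [div_le_iff₀ (by positivity)] at h1
    linarith

theorem L1_cont (hP : P.Valid) : ContinuousOn P.L1 (Ico 0 (1 / P.a)) := by
  have ha := hP.ha
  have heps := eps1_pos hP
  unfold L1
  refine ContinuousOn.sub (ContinuousOn.sub (ContinuousOn.mul continuousOn_const ?_) ?_)
    ((G_cont hP).mono Ico_subset_Icc_self)
  · refine ContinuousOn.log (by fun_prop) ?_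
    intro u hu
    have := hu.1
    have : 0 < 1 + P.eps1 * u := by positivity
    exact this.ne'
  · refine ContinuousOn.log (by fun_prop) ?_
    intro u hu
    have h := hu.2
    rw [lt_div_iff₀ ha] at h
    have : 0 < 1 - P.a * u := by linarith
    exact this.ne'

theorem L1_top (hP : P.Valid) : Tendsto P.L1 (𝓝[<] (1 / P.a)) atTop := by
  have ha := hP.ha
  refine top_abs ha (eps1_pos hP) ?_
  have h1 : (1 / P.a) ∈ Icc 0 (1 / P.a) := ⟨by positivity, le_refl _⟩
  have h2 := (G_cont hP) _ h1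
  refine h2.mono_of_mem_nhdsWithin ?_
  have : Ioo 0 (1 / P.a) ∈ 𝓝[<] (1 / P.a) := Ioo_mem_nhdsLT (by positivity)
  filter_upwards [this] with x hx
  exact ⟨hx.1.le, hx.2.le⟩

/-- `L2` is monotone on `[0,1/d)`.
On `[0,be1]`: `L2' = d(ε'+d)v/((1+ε'v)(1-dv)) - kap v/((p+Cv)(p-Bv))`, `N(v) = dp² + (dp(C-B)-kap) v`, `N(0)=dp²`, `N(be1)=bp²`.
On `[be1,1/d)`: `L2' = d(ε'+d)v/((1+ε'v)(1-dv)) - 1/(y'-v)`, `y' = a/e²`, `d y' - 1 = bc/e² > 0`. -/
theorem L2_mono (hP : P.Valid) : MonotoneOn P.L2 (Ico 0 (1 / P.d)) := by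
  have ha := hP.hd
  have hc := hP.hb
  have hA := hP.hp
  have hk := kap_pos' hP
  have heps := eps2_pos hP
  have hal := be1_pos hP
  have hayp := d_y_pos hP
  refine mono_abs (ρ := P.be1) (y := P.a / P.e2) (κ := P.kap) (T := P.p) (B := P.C)
    (C := P.B) ha heps hal (be1_lt hP) ?_ (fun u hu => H_deriv1 hP hu) (fun u hu => H_deriv2 hP hu)
    ?_ (by rw [mul_comm]; exact BC_eq hP) ?_ ?_ ?_
  · exact (H_cont hP).mono Ico_subset_Icc_self
  · intro u hu
    have hB := C_pos' hP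
    have h1 : 0 < P.p + P.C * u := by have := hu.1; positivity
    have h2 : 0 < P.p - P.B * u := by
      have := han2_pos hP hu.2.le
      have e : P.p - P.B * u = P.p * (1 - P.B / P.p * u) := by field_simp
      rw [e]; positivity
    exact ⟨h1, h2⟩
  · intro u hu
    have hmin : 0 < min P.d P.b := lt_min ha hc
    set m := min P.d P.b * P.p ^ 2 with hm
    have hmpos : 0 < m := by positivity
    have h0 : m ≤ P.d * P.p ^ 2 := by
      rw [hm]; exact mul_le_mul_of_nonneg_right (min_le_left _ _) (by positivity)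
    have h1 : m ≤ P.d * P.p ^ 2 + (P.d * P.p * (P.C - P.B) - P.kap) * P.be1 := by
      have e : P.d * P.p ^ 2 + (P.d * P.p * (P.C - P.B) - P.kap) * P.be1 = P.b * P.p ^ 2 := by
        have ht := t2_pos' hP
        have hBC : P.C - P.B = P.t1 - P.t2 := by rw [B_eq, C_eq]; ring
        have h5 := d_t1 hP
        rw [hBC]
        unfold be1
        field_simp
        unfold kap
        linear_combination (P.p) * h5
      rw [e, hm]; exact mul_le_mul_of_nonneg_right (min_le_right _ _) (by positivity)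
    have h3 := aff_min h0 h1 hu.1.le hu.2.le
    have h4 : P.kap / m ≤ P.eps2 := by
      unfold eps2
      refine le_trans ?_ (le_max_left _ _)
      rw [hm, mul_comm (min P.d P.b)]
    have h5 : P.kap ≤ P.eps2 * (P.d * P.p ^ 2 + (P.d * P.p * (P.C - P.B) - P.kap) * u) := by
      calc P.kap = P.kap / m * m := by field_simp
        _ ≤ P.eps2 * m := mul_le_mul_of_nonneg_right h4 hmpos.le
        _ ≤ _ := mul_le_mul_of_nonneg_left h3 heps.le
    have h6 : 0 ≤ P.kap * (P.d * u) := by have := hu.1; positivity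
    nlinarith
  · rw [div_lt_iff₀ ha]
    linarith
  · have h1 : (1 - P.d * P.be1) ^ 2 / ((P.d * (P.a / P.e2) - 1) * P.be1) ≤ P.eps2 := by
      unfold eps2
      exact le_max_right _ _
    rw [div_le_iff₀ (by positivity)] at h1
    linarith

theorem L2_cont (hP : P.Valid) : ContinuousOn P.L2 (Ico 0 (1 / P.d)) := by
  have ha := hP.hd
  have heps := eps2_pos hP
  unfold L2
  refine ContinuousOn.sub (ContinuousOn.sub (ContinuousOn.mul continuousOn_const ?_) ?_)
    ((H_cont hP).mono Ico_subset_Icc_self)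
  · refine ContinuousOn.log (by fun_prop) ?_
    intro u hu
    have := hu.1
    have : 0 < 1 + P.eps2 * u := by positivity
    exact this.ne'
  · refine ContinuousOn.log (by fun_prop) ?_
    intro u hu
    have h := hu.2
    rw [lt_div_iff₀ ha] at h
    have : 0 < 1 - P.d * u := by linarith
    exact this.ne'

theorem L2_top (hP : P.Valid) : Tendsto P.L2 (𝓝[<] (1 / P.d)) atTop := by
  have ha := hP.hd
  refine top_abs ha (eps2_pos hP) ?_
  have h1 : (1 / P.d) ∈ Icc 0 (1 / P.d) := ⟨by positivity, le_refl _⟩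
  have h2 := (H_cont hP) _ h1
  refine h2.mono_of_mem_nhdsWithin ?_
  have : Ioo 0 (1 / P.d) ∈ 𝓝[<] (1 / P.d) := Ioo_mem_nhdsLT (by positivity)
  filter_upwards [this] with x hx
  exact ⟨hx.1.le, hx.2.le⟩

/-- Scalar identity on the curve, from `tight` and `t + t1 - a A = t + b p`, `t + t2 - d p = t + c A`, `(t+t1)(t+t2)-kap=(t+l1)(t+l2)`. -/
theorem scalar_id (hP : P.Valid) {t : ℝ} (ht : 0 < t) :
    P.L1 (P.A / (t + P.t1)) + P.L2 (P.p / (t + P.t2)) =
      Real.log (t + P.l1) + Real.log (t + P.l2)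
        - P.a / P.eps1 * (Real.log (t + P.t1 + P.eps1 * P.A) - Real.log (t + P.t1))
        - Real.log (t + P.b * P.p)
        - P.d / P.eps2 * (Real.log (t + P.t2 + P.eps2 * P.p) - Real.log (t + P.t2))
        - Real.log (t + P.c * P.A) := by
  have hA := hP.hA
  have hp := hP.hp
  have hb := hP.hb
  have hc := hP.hc
  have he1 := eps1_pos hP
  have he2 := eps2_pos hP
  have ht1 := t1_pos' hP
  have ht2 := t2_pos' hP
  have hs1 : 0 < t + P.t1 := by linarith
  have hs2 : 0 < t + P.t2 := by linarith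
  have h1 : 1 + P.eps1 * (P.A / (t + P.t1)) = (t + P.t1 + P.eps1 * P.A) / (t + P.t1) := by
    field_simp
  have h2 : 1 - P.a * (P.A / (t + P.t1)) = (t + P.b * P.p) / (t + P.t1) := by
    field_simp
    unfold t1; ring
  have h3 : 1 + P.eps2 * (P.p / (t + P.t2)) = (t + P.t2 + P.eps2 * P.p) / (t + P.t2) := by
    field_simp
  have h4 : 1 - P.d * (P.p / (t + P.t2)) = (t + P.c * P.A) / (t + P.t2) := by
    field_simp
    unfold t2; ring
  have hT := tight hP ht.le
  rw [cost_curve hP ht.le] at hT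
  unfold L1 L2
  rw [h1, h2, h3, h4]
  have p1 : 0 < t + P.t1 + P.eps1 * P.A := by positivity
  have p2 : 0 < t + P.b * P.p := by positivity
  have p3 : 0 < t + P.t2 + P.eps2 * P.p := by positivity
  have p4 : 0 < t + P.c * P.A := by positivity
  rw [Real.log_div p1.ne' hs1.ne', Real.log_div p2.ne' hs1.ne', Real.log_div p3.ne' hs2.ne',
    Real.log_div p4.ne' hs2.ne']
  linear_combination -hT

end Crest.Agent.H8G.Par
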