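/-
Level-`t` inequality of the GADC key inequality:
`log det(t+M) ≥ log det(t+T₁) + log det(t+T₂) - Tr G(P_t) - Tr H(R_t)`.
-/
import Crest.Agent.H8GSpec
import Crest.Agent.H8GPot

set_option autoImplicit false

namespace Crest.Agent.H8G

open Matrix Crest.Quantum Set
open scoped ComplexOrder

variable {n : Type*} [Fintype n] [DecidableEq n]

/-! ## block vectors -/

/-- The vector on `Bool × n` with parts `f`, `g`. -/
def vb (f g : n → ℂ) : Bool × n → ℂ := fun p => if p.1 then g p.2 else f p.2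

omit [DecidableEq n] in
theorem qb_mulVec_false (A B C D : Matrix n n ℂ) (f g : n → ℂ) (i : n) :
    (qb A B C D *ᵥ vb f g) (false, i) = (A *ᵥ f) i + (B *ᵥ g) i := by
  simp [mulVec, dotProduct, Fintype.sum_prod_type, qb, vb, add_comm]

omit [DecidableEq n] in
theorem qb_mulVec_true (A B C D : Matrix n n ℂ) (f g : n → ℂ) (i : n) :
    (qb A B C D *ᵥ vb f g) (true, i) = (C *ᵥ f) i + (D *ᵥ g) i := by
  simp [mulVec, dotProduct, Fintype.sum_prod_type, qb, vb, add_comm]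

omit [DecidableEq n] in
theorem star_vb_dot_qb (A B C D : Matrix n n ℂ) (f g f' g' : n → ℂ) :
    star (vb f g) ⬝ᵥ (qb A B C D *ᵥ vb f' g') =
      star f ⬝ᵥ (A *ᵥ f') + star f ⬝ᵥ (B *ᵥ g') + star g ⬝ᵥ (C *ᵥ f') + star g ⬝ᵥ (D *ᵥ g') := by
  simp only [dotProduct, Fintype.sum_prod_type, Fintype.sum_bool, qb_mulVec_false, qb_mulVec_true]
  simp only [Pi.star_apply, vb, if_true, Bool.false_eq_true, if_false, mul_add,
    Finset.sum_add_distrib]
  ring

/-- The Cauchy-Schwarz inequality inside a PSD block matrix. -/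
theorem block_cs {X Y Z : Matrix n n ℂ} (hJ : (qb X Y Yᴴ Z).PosSemidef) (f g : n → ℂ) :
    Complex.normSq (star f ⬝ᵥ (Y *ᵥ g)) ≤ qf X f * qf Z g := by
  set c := star f ⬝ᵥ (Y *ᵥ g) with hc
  set A := qf X f with hA
  set B := qf Z g with hB
  have hcc : star g ⬝ᵥ (Yᴴ *ᵥ f) = star c := by
    rw [hc, star_dotProduct, star_mulVec, conjTranspose_conjTranspose, dotProduct_mulVec]
  have key : ∀ (s : ℝ) (ω : ℂ), star ω * ω = 1 →
      0 ≤ s ^ 2 * A + B + 2 * s * (ω * c).re := by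
    intro s ω hω
    have h0 := hJ.re_dotProduct_nonneg (vb ((s : ℂ) • f) (ω • g))
    rw [star_vb_dot_qb] at h0
    simp only [star_smul, mulVec_smul, smul_dotProduct, dotProduct_smul, hcc, ← hc] at h0
    have e1 : star (s : ℂ) = (s : ℂ) := by simp [Complex.conj_ofReal]
    rw [e1] at h0
    simp only [smul_eq_mul, map_add, RCLike.re_to_complex] at h0
    have e2 : ((s : ℂ) * ((s : ℂ) * (star f ⬝ᵥ X *ᵥ f))).re = s ^ 2 * A := by
      rw [hA]; unfold qf
      simp [Complex.mul_re, pow_two]; ring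
    have e3 : (ω * ((s : ℂ) * c)).re = s * (ω * c).re := by
      rw [show ω * ((s : ℂ) * c) = (s : ℂ) * (ω * c) by ring]
      simp [Complex.mul_re]
    have e4 : ((s : ℂ) * (star ω * star c)).re = s * (ω * c).re := by
      have : (s : ℂ) * (star ω * star c) = (s : ℂ) * star (ω * c) := by
        rw [star_mul']
      rw [this, Complex.mul_re]
      simp [Complex.conj_re]
    have e5 : (ω * (star ω * (star g ⬝ᵥ Z *ᵥ g))).re = B := by
      rw [← mul_assoc, mul_comm ω, hω, one_mul]; rfl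
    rw [e2, e3, e4, e5] at h0
    linarith
  have hA0 : 0 ≤ A := by
    have := key 1 1 (by simp)
    have h0 := hJ.re_dotProduct_nonneg (vb f 0)
    rw [star_vb_dot_qb] at h0
    simpa [hA, qf] using h0
  have hB0 : 0 ≤ B := by
    have h0 := hJ.re_dotProduct_nonneg (vb 0 g)
    rw [star_vb_dot_qb] at h0
    simpa [hB, qf] using h0
  by_cases hc0 : c = 0
  · rw [hc0]; simpa using mul_nonneg hA0 hB0
  -- phase
  have hn : (0 : ℝ) < ‖c‖ := norm_pos_iff.mpr hc0
  set ω : ℂ := -(star c) / (‖c‖ : ℂ) with hω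
  have hnC : (‖c‖ : ℂ) ≠ 0 := by exact_mod_cast hn.ne'
  have hsq : star c * c = ((‖c‖ ^ 2 : ℝ) : ℂ) := by
    rw [Complex.star_def, mul_comm, Complex.mul_conj, Complex.normSq_eq_norm_sq]
  have hω1 : star ω * ω = 1 := by
    rw [hω, star_div₀, star_neg, star_star]
    have : star (‖c‖ : ℂ) = (‖c‖ : ℂ) := by simp [Complex.conj_ofReal]
    rw [this]
    field_simp
    have h' : c * star c = ((‖c‖ ^ 2 : ℝ) : ℂ) := by rw [mul_comm]; exact hsq
    rw [h']; push_cast; ring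
  have hωc : (ω * c).re = -‖c‖ := by
    have : ω * c = ((-‖c‖ : ℝ) : ℂ) := by
      rw [hω, div_mul_eq_mul_div, neg_mul, hsq]
      field_simp
      push_cast; ring
    rw [this]; simp
  have hnorm : Complex.normSq c = ‖c‖ ^ 2 := Complex.normSq_eq_norm_sq c
  rw [hnorm]
  have hkey : ∀ s : ℝ, 0 ≤ s ^ 2 * A + B - 2 * s * ‖c‖ := by
    intro s
    have := key s ω hω1
    rw [hωc] at this
    linarith
  by_cases hA1 : A = 0
  · exfalso
    have := hkey ((B + 1) / (2 * ‖c‖))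
    rw [hA1] at this
    have h2 : (B + 1) / (2 * ‖c‖) * ‖c‖ = (B + 1) / 2 := by field_simp
    nlinarith
  · have hApos : 0 < A := lt_of_le_of_ne hA0 (Ne.symm hA1)
    have := hkey (‖c‖ / A)
    have h3 : (‖c‖ / A) ^ 2 * A = ‖c‖ ^ 2 / A := by field_simp
    have h4 : 2 * (‖c‖ / A) * ‖c‖ = 2 * (‖c‖ ^ 2 / A) := by ring
    rw [h3, h4] at this
    have h5 : ‖c‖ ^ 2 / A ≤ B := by linarith
    rwa [div_le_iff₀ hApos, mul_comm] at h5

/-! ## quadratic form algebra -/

omit [DecidableEq n] in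
theorem lv_qf_add (A B : Matrix n n ℂ) (v : n → ℂ) : qf (A + B) v = qf A v + qf B v := by
  simp [qf, add_mulVec, dotProduct_add]

omit [DecidableEq n] in
theorem lv_qf_smul (c : ℝ) (A : Matrix n n ℂ) (v : n → ℂ) : qf (c • A) v = c * qf A v := by
  simp [qf, smul_mulVec, dotProduct_smul]

theorem lv_qf_one (v : n → ℂ) : qf (1 : Matrix n n ℂ) v = (star v ⬝ᵥ v).re := by
  simp [qf]

omit [DecidableEq n] in
theorem lv_qf_conj_herm {S : Matrix n n ℂ} (hS : S.IsHermitian) (A : Matrix n n ℂ) (v : n → ℂ) :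
    qf (S * A * S) v = qf A (S *ᵥ v) := by
  unfold qf
  rw [← mulVec_mulVec, ← mulVec_mulVec, star_mulVec, hS.eq, dotProduct_mulVec]

omit [DecidableEq n] in
theorem lv_qf_nonneg {A : Matrix n n ℂ} (hA : A.PosSemidef) (v : n → ℂ) : 0 ≤ qf A v :=
  hA.re_dotProduct_nonneg v

/-- Spectral equation for the columns of the eigenvector unitary. -/
theorem mulVec_colv {A : Matrix n n ℂ} (h : A.IsHermitian) (k : n) :
    A *ᵥ colv (h.eigenvectorUnitary : Matrix n n ℂ) k =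
      ((h.eigenvalues k : ℝ) : ℂ) • colv (h.eigenvectorUnitary : Matrix n n ℂ) k := by
  have hU := eU_conj_mul h
  have h1 : A * (h.eigenvectorUnitary : Matrix n n ℂ) =
      (h.eigenvectorUnitary : Matrix n n ℂ) * diagonal (fun i => ((h.eigenvalues i : ℝ) : ℂ)) := by
    have h2 : A * (h.eigenvectorUnitary : Matrix n n ℂ) = _ :=
      congrArg (· * (h.eigenvectorUnitary : Matrix n n ℂ)) (spectral_form h)
    rw [h2, Matrix.mul_assoc, hU, Matrix.mul_one]
  funext a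
  have := congrFun (congrFun h1 a) k
  simp only [Matrix.mul_apply, diagonal_apply] at this
  simp only [mulVec, dotProduct, colv, Pi.smul_apply, smul_eq_mul]
  rw [this]
  simp [mul_comm]

/-- Eigenvalue = quadratic form on a unit eigenvector. -/
theorem eig_eq_qf {A : Matrix n n ℂ} (h : A.IsHermitian) (k : n) :
    h.eigenvalues k = qf A (colv (h.eigenvectorUnitary : Matrix n n ℂ) k) := by
  have hU := eU_conj_mul h
  unfold qf
  rw [mulVec_colv, dotProduct_smul, colv_orth hU k k]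
  simp

/-- Spectral bounds for `P = S X S`, `S = (t+T)^{-1/2}`, when `a X ≤ T`. -/
theorem conjS_eig_mem {X T : Matrix n n ℂ} (hX : X.PosSemidef) (hT : T.PosSemidef) {a t : ℝ}
    (ha : 0 < a) (ht : 0 < t) (haT : (T - a • X).PosSemidef)
    (h : (conjS X T t).IsHermitian) (k : n) :
    h.eigenvalues k ∈ Ico 0 (1 / a) := by
  have hS := isq_herm hT.isHermitian t
  set v := colv (h.eigenvectorUnitary : Matrix n n ℂ) k with hv
  have hvv : star v ⬝ᵥ v = 1 := by
    have := colv_orth (eU_conj_mul h) k k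
    simpa using this
  have hSv : isq T t *ᵥ v ≠ 0 := by
    intro h0
    have h1 := congrArg (fun w => isq T t *ᵥ ((t • (1 : Matrix n n ℂ) + T) *ᵥ w)) h0
    have h2 : isq T t * (t • (1 : Matrix n n ℂ) + T) * isq T t = 1 := isq_conj_shift hT ht
    simp only [mulVec_mulVec, mulVec_zero] at h1
    rw [← Matrix.mul_assoc, h2, one_mulVec] at h1
    rw [h1] at hvv
    simp at hvv
  have h1 : qf (t • (1 : Matrix n n ℂ) + T) (isq T t *ᵥ v) = 1 := by
    rw [← lv_qf_conj_herm hS, isq_conj_shift hT ht, lv_qf_one, hvv]; simp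
  have h2 : qf (t • (1 : Matrix n n ℂ) + T) (isq T t *ᵥ v) =
      t * (star (isq T t *ᵥ v) ⬝ᵥ (isq T t *ᵥ v)).re + qf T (isq T t *ᵥ v) := by
    rw [lv_qf_add, lv_qf_smul, lv_qf_one]
  have h3 : a * qf X (isq T t *ᵥ v) ≤ qf T (isq T t *ᵥ v) := by
    have := lv_qf_nonneg haT (isq T t *ᵥ v)
    have e : T - a • X = T + (-a) • X := by rw [neg_smul, sub_eq_add_neg]
    rw [e, lv_qf_add, lv_qf_smul] at this
    linarith
  have h4 : 0 < (star (isq T t *ᵥ v) ⬝ᵥ (isq T t *ᵥ v)).re := by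
    have hnz : star (isq T t *ᵥ v) ⬝ᵥ (isq T t *ᵥ v) ≠ 0 := by
      rw [Ne, dotProduct_star_self_eq_zero]; exact hSv
    have hnn := dotProduct_star_self_nonneg (v := isq T t *ᵥ v)
    have h' : 0 ≤ star (isq T t *ᵥ v) ⬝ᵥ (isq T t *ᵥ v) := by
      simpa [dotProduct_comm] using hnn
    have h'' := (Complex.le_def.mp h').1
    rcases lt_or_eq_of_le h'' with hlt | heq
    · simpa using hlt
    · exfalso
      apply hnz
      apply Complex.ext
      · simpa using heq.symm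
      · simpa using (Complex.le_def.mp h').2.symm
  have hl : h.eigenvalues k = qf X (isq T t *ᵥ v) := by
    rw [eig_eq_qf h k, ← hv]
    exact lv_qf_conj_herm hS X v
  constructor
  · rw [hl]; exact lv_qf_nonneg hX _
  · rw [hl, lt_div_iff₀ ha]
    have : 0 < t * (star (isq T t *ᵥ v) ⬝ᵥ (isq T t *ᵥ v)).re := mul_pos ht h4
    nlinarith

/-! ## the singular-value step -/

section young

variable {X Y Z S₁ S₂ : Matrix n n ℂ}

/-- The Young bound at level `t`: `Σ -log(1-μ_i) ≤ Tr G(S₁XS₁) + Tr H(S₂ZS₂)`, with `μ` the eigenvalues of `K*K`, `K = e S₁ Y S₂`. -/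
theorem young_sum (hJ : (qb X Y Yᴴ Z).PosSemidef) (hS₁ : S₁.IsHermitian) (hS₂ : S₂.IsHermitian)
    {e2 : ℝ} (he : 0 ≤ e2) {a d : ℝ}
    {G H : ℝ → ℝ} (hG : ConvexOn ℝ (Icc 0 (1 / a)) G) (hH : ConvexOn ℝ (Icc 0 (1 / d)) H)
    (hGnn : ∀ u ∈ Icc 0 (1 / a), 0 ≤ G u) (hHnn : ∀ v ∈ Icc 0 (1 / d), 0 ≤ H v)
    (hpos : ∀ u ∈ Icc 0 (1 / a), ∀ v ∈ Icc 0 (1 / d), 0 < 1 - e2 * u * v)
    (hY : ∀ u ∈ Icc 0 (1 / a), ∀ v ∈ Icc 0 (1 / d), -Real.log (1 - e2 * u * v) ≤ G u + H v)
    (hP : (S₁ * X * S₁).IsHermitian) (hR : (S₂ * Z * S₂).IsHermitian)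
    (hPs : ∀ k, hP.eigenvalues k ∈ Icc 0 (1 / a)) (hRs : ∀ k, hR.eigenvalues k ∈ Icc 0 (1 / d))
    {K : Matrix n n ℂ} (hK : K = ((Real.sqrt e2 : ℝ) : ℂ) • (S₁ * Y * S₂))
    (hKK : (Kᴴ * K).IsHermitian) :
    (∀ i, hKK.eigenvalues i < 1) ∧
      ∑ i, -Real.log (1 - hKK.eigenvalues i) ≤ trF G (S₁ * X * S₁) + trF H (S₂ * Z * S₂) := by
  classical
  set V := (hKK.eigenvectorUnitary : Matrix n n ℂ) with hV
  set μ := hKK.eigenvalues with hμ
  have hVV := eU_conj_mul hKK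
  set y : n → n → ℂ := fun i => colv V i with hy
  have hyy : ∀ i j, star (y i) ⬝ᵥ y j = if i = j then 1 else 0 := fun i j => colv_orth hVV i j
  -- inner products of `K y`
  have hKy : ∀ i j, star (K *ᵥ y i) ⬝ᵥ (K *ᵥ y j) = (μ j : ℂ) * (if i = j then 1 else 0) := by
    intro i j
    rw [star_mulVec, ← dotProduct_mulVec, mulVec_mulVec, mulVec_colv hKK j, dotProduct_smul,
      hyy i j, smul_eq_mul]
  have hμnn : ∀ i, 0 ≤ μ i := by
    intro i
    have h1 := hKy i i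
    simp only [if_true, mul_one] at h1
    have hnn := dotProduct_star_self_nonneg (v := K *ᵥ y i)
    have h' : 0 ≤ star (K *ᵥ y i) ⬝ᵥ (K *ᵥ y i) := by simpa [dotProduct_comm] using hnn
    rw [h1] at h'
    exact_mod_cast h'
  -- the positive part
  set ι := {i // 0 < μ i} with hι
  set r : ι → ℝ := fun i => Real.sqrt (μ i) with hr
  have hrpos : ∀ i : ι, 0 < r i := fun i => Real.sqrt_pos.mpr i.2
  set w : ι → n → ℂ := fun i => ((r i)⁻¹ : ℝ) • (K *ᵥ y i) with hw
  have hww : ∀ i j, star (w i) ⬝ᵥ w j = if i = j then 1 else 0 := by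
    intro i j
    simp only [hw]
    rw [star_smul, smul_dotProduct, dotProduct_smul, hKy]
    by_cases hij : i = j
    · subst hij
      simp only [if_true, mul_one, smul_eq_mul]
      have h1 : r i * r i = μ i := Real.mul_self_sqrt (hμnn i)
      have h2 := hrpos i
      simp only [Complex.real_smul, star_trivial]
      rw [← h1]
      push_cast
      have h3 : ((r i : ℝ) : ℂ) ≠ 0 := by exact_mod_cast h2.ne'
      field_simp
    · have hij' : (i : n) ≠ j := fun h => hij (Subtype.ext h)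
      simp [hij, hij']
  -- key bound
  have hbound : ∀ i : ι, μ i ≤ e2 * qf (S₁ * X * S₁) (w i) * qf (S₂ * Z * S₂) (y i) := by
    intro i
    set f := S₁ *ᵥ w i with hf
    set g := S₂ *ᵥ y i with hg
    have h1 : star (w i) ⬝ᵥ (K *ᵥ y i) = (r i : ℂ) := by
      simp only [hw]
      rw [star_smul, smul_dotProduct, hKy]
      simp only [if_true, mul_one, smul_eq_mul]
      have h1 : r i * r i = μ i := Real.mul_self_sqrt (hμnn i)
      have h3 : ((r i : ℝ) : ℂ) ≠ 0 := by exact_mod_cast (hrpos i).ne'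
      simp only [Complex.real_smul, star_trivial]
      rw [← h1]
      push_cast
      field_simp
    have h2 : star (w i) ⬝ᵥ (K *ᵥ y i) = ((Real.sqrt e2 : ℝ) : ℂ) * (star f ⬝ᵥ (Y *ᵥ g)) := by
      rw [hK, smul_mulVec, dotProduct_smul, smul_eq_mul]
      congr 1
      rw [← mulVec_mulVec, ← mulVec_mulVec, hf, star_mulVec, hS₁.eq, ← dotProduct_mulVec]
    have h3 := block_cs hJ f g
    have h4 : qf (S₁ * X * S₁) (w i) = qf X f := lv_qf_conj_herm hS₁ X (w i)
    have h5 : qf (S₂ * Z * S₂) (y i) = qf Z g := lv_qf_conj_herm hS₂ Z (y i)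
    rw [h4, h5]
    have h6 : μ i = e2 * Complex.normSq (star f ⬝ᵥ (Y *ᵥ g)) := by
      have h7 : Complex.normSq (star (w i) ⬝ᵥ (K *ᵥ y i)) = μ i := by
        rw [h1, Complex.normSq_ofReal]; exact Real.mul_self_sqrt (hμnn i)
      rw [← h7, h2, Complex.normSq_mul, Complex.normSq_ofReal, Real.mul_self_sqrt he]
    rw [h6, mul_assoc]
    exact mul_le_mul_of_nonneg_left h3 he
  -- domain
  have haI : ∀ i : ι, qf (S₁ * X * S₁) (w i) ∈ Icc 0 (1 / a) := fun i =>
    qf_mem hP (convex_Icc _ _) hPs (by rw [hww i i]; simp)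
  have hbI : ∀ i : ι, qf (S₂ * Z * S₂) (y i) ∈ Icc 0 (1 / d) := fun i =>
    qf_mem hR (convex_Icc _ _) hRs (by rw [hyy i i]; simp)
  have hlt : ∀ i : ι, μ i < 1 := fun i => by
    have := hpos _ (haI i) _ (hbI i)
    have := hbound i
    linarith
  have hlt' : ∀ i, μ i < 1 := by
    intro i
    by_cases h0 : 0 < μ i
    · exact hlt ⟨i, h0⟩
    · linarith
  refine ⟨hlt', ?_⟩
  -- reduce the sum to the positive part
  have hsum : ∑ i, -Real.log (1 - μ i) = ∑ i : ι, -Real.log (1 - μ i) := by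
    have h0 : ∀ i, i ∉ Finset.univ.filter (fun i => 0 < μ i) → -Real.log (1 - μ i) = 0 := by
      intro i hi
      have h1 : ¬ 0 < μ i := by simpa using hi
      have h2 : μ i = 0 := le_antisymm (not_lt.mp h1) (hμnn i)
      simp [h2]
    rw [← Finset.sum_subset (Finset.subset_univ (Finset.univ.filter (fun i => 0 < μ i)))
      (fun i _ hi => h0 i hi)]
    rw [Finset.sum_subtype (Finset.univ.filter (fun i => 0 < μ i)) (p := fun i => 0 < μ i)
      (by simp)]
  have hterm : ∀ i : ι, -Real.log (1 - μ i) ≤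
      G (qf (S₁ * X * S₁) (w i)) + H (qf (S₂ * Z * S₂) (y i)) := by
    intro i
    refine le_trans ?_ (hY _ (haI i) _ (hbI i))
    apply neg_le_neg
    apply Real.log_le_log
    · exact hpos _ (haI i) _ (hbI i)
    · linarith [hbound i]
  have hJ1 := jensen_family hP hG hPs (fun k => hGnn _ (hPs k)) w hww
  have hJ2 := jensen_family hR hH hRs (fun k => hHnn _ (hRs k)) (fun i : ι => y i)
    (fun i j => by
      rw [hyy]
      by_cases hij : i = j
      · simp [hij]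
      · have hij' : (i : n) ≠ j := fun h => hij (Subtype.ext h)
        simp [hij, hij'])
  rw [hsum]
  calc ∑ i : ι, -Real.log (1 - μ i)
      ≤ ∑ i : ι, (G (qf (S₁ * X * S₁) (w i)) + H (qf (S₂ * Z * S₂) (y i))) :=
        Finset.sum_le_sum fun i _ => hterm i
    _ ≤ _ := by rw [Finset.sum_add_distrib]; exact add_le_add hJ1 hJ2

end young

/-! ## determinants of block matrices -/

/-- The identification `Bool × n ≃ n ⊕ n`. -/
def bsum : Bool × n ≃ n ⊕ n where
  toFun p := if p.1 then Sum.inr p.2 else Sum.inl p.2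
  invFun s := Sum.elim (fun i => (false, i)) (fun i => (true, i)) s
  left_inv p := by rcases p with ⟨_ | _, i⟩ <;> rfl
  right_inv s := by rcases s with i | i <;> rfl

omit [Fintype n] [DecidableEq n] in
theorem qb_eq_submatrix {α : Type*} (A B C D : Matrix n n α) :
    qb A B C D = (fromBlocks A B C D).submatrix bsum bsum := by
  ext ⟨s, i⟩ ⟨s', j⟩
  cases s <;> cases s' <;> simp [qb, bsum]

theorem det_qb (A B C D : Matrix n n ℂ) : (qb A B C D).det = (fromBlocks A B C D).det := by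
  rw [qb_eq_submatrix, det_submatrix_equiv_self]

theorem one_eq_qb : (1 : Matrix (Bool × n) (Bool × n) ℂ) = qb 1 0 0 1 := by
  ext ⟨s, i⟩ ⟨s', j⟩
  cases s <;> cases s' <;> simp [qb, Matrix.one_apply]

theorem smul_one_add_qb (t : ℝ) (A B C D : Matrix n n ℂ) :
    t • (1 : Matrix (Bool × n) (Bool × n) ℂ) + qb A B C D =
      qb (t • (1 : Matrix n n ℂ) + A) B C (t • (1 : Matrix n n ℂ) + D) := by
  ext ⟨s, i⟩ ⟨s', j⟩
  cases s <;> cases s' <;> simp [qb, Matrix.one_apply]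

/-- Schur determinant formula at level `t`. -/
theorem det_level {A D Y : Matrix n n ℂ} {S₁ S₂ K : Matrix n n ℂ}
    (h1 : S₁ * A * S₁ = 1) (h2 : S₂ * D * S₂ = 1)
    (hS₁ : S₁.IsHermitian) (hS₂ : S₂.IsHermitian)
    (hK : K = S₁ * Y * S₂) :
    (qb A Y Yᴴ D).det = A.det * D.det * (1 - Kᴴ * K).det := by
  have e1 : (S₁ * A * S₁).det = 1 := by rw [h1, det_one]
  have e2 : (S₂ * D * S₂).det = 1 := by rw [h2, det_one]
  rw [det_mul, det_mul] at e1 e2
  have hprod : fromBlocks S₁ 0 0 S₂ * fromBlocks A Y Yᴴ D * fromBlocks S₁ 0 0 S₂ =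
      fromBlocks 1 K Kᴴ 1 := by
    rw [fromBlocks_multiply, fromBlocks_multiply]
    have hKH : Kᴴ = S₂ * Yᴴ * S₁ := by
      rw [hK, conjTranspose_mul, conjTranspose_mul, hS₁.eq, hS₂.eq, Matrix.mul_assoc]
    simp only [Matrix.zero_mul, Matrix.mul_zero, add_zero, zero_add]
    rw [h1, h2, hKH, hK]
  have hdet := congrArg Matrix.det hprod
  rw [det_mul, det_mul, det_fromBlocks_zero₂₁, det_fromBlocks_one₁₁] at hdet
  rw [det_qb]
  set m := (fromBlocks A Y Yᴴ D).det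
  set s₁ := S₁.det
  set s₂ := S₂.det
  -- `s₁² det A = 1`, `s₂² det D = 1`, `(s₁s₂)² m = det(1-K*K)`
  have e1' : s₁ * A.det * s₁ = 1 := e1
  have e2' : s₂ * D.det * s₂ = 1 := e2
  have e3 : s₁ * s₂ * m * (s₁ * s₂) = (1 - Kᴴ * K).det := hdet
  calc m = (s₁ * A.det * s₁) * (s₂ * D.det * s₂) * m := by rw [e1', e2']; ring
    _ = A.det * D.det * (s₁ * s₂ * m * (s₁ * s₂)) := by ring
    _ = _ := by rw [e3]

/-! ## `ldet` of shifted matrices -/

theorem det_decomp (W : Matrix n n ℂ) (D : n → ℝ) (hW : Wᴴ * W = 1) :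
    (W * diagonal (fun j => ((D j : ℝ) : ℂ)) * Wᴴ).det = ((∏ j, D j : ℝ) : ℂ) := by
  have h1 : W * diagonal (fun j => ((D j : ℝ) : ℂ)) * Wᴴ =
      W * (diagonal (fun j => ((D j : ℝ) : ℂ)) * Wᴴ) := by rw [Matrix.mul_assoc]
  rw [h1, det_mul_comm, Matrix.mul_assoc, hW, Matrix.mul_one, det_diagonal, Complex.ofReal_prod]

theorem shift_decomp {A : Matrix n n ℂ} (hA : A.IsHermitian) (s c : ℝ) :
    s • (1 : Matrix n n ℂ) + c • A =
      (hA.eigenvectorUnitary : Matrix n n ℂ) *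
        diagonal (fun j => (((s + c * hA.eigenvalues j : ℝ)) : ℂ)) *
        (hA.eigenvectorUnitary : Matrix n n ℂ)ᴴ := by
  set U := (hA.eigenvectorUnitary : Matrix n n ℂ) with hU
  have hUU' : U * Uᴴ = 1 := eU_mul_conj hA
  have hd : diagonal (fun j => (((s + c * hA.eigenvalues j : ℝ)) : ℂ)) =
      s • (1 : Matrix n n ℂ) + c • diagonal (fun j => ((hA.eigenvalues j : ℝ) : ℂ)) := by
    ext i j
    by_cases hij : i = j
    · subst hij; simp [Complex.real_smul]
    · simp [hij, Matrix.diagonal]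
  rw [hd, Matrix.mul_add, Matrix.add_mul, Matrix.mul_smul, Matrix.smul_mul, Matrix.mul_one,
    hUU', Matrix.mul_smul, Matrix.smul_mul, ← spectral_form hA]

/-- `det (s + c A) = ∏ (s + c λ_i)`. -/
theorem det_shift {A : Matrix n n ℂ} (hA : A.IsHermitian) (s c : ℝ) :
    (s • (1 : Matrix n n ℂ) + c • A).det = ((∏ j, (s + c * hA.eigenvalues j) : ℝ) : ℂ) := by
  rw [shift_decomp hA, det_decomp _ _ (eU_conj_mul hA)]

theorem ldet_shift {A : Matrix n n ℂ} (hA : A.IsHermitian) (s c : ℝ)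
    (hne : ∀ j, s + c * hA.eigenvalues j ≠ 0) :
    ldet (s • (1 : Matrix n n ℂ) + c • A) = trF (fun x => Real.log (s + c * x)) A := by
  unfold ldet
  rw [det_shift hA, Complex.ofReal_re, trF_of_herm hA, Real.log_prod (fun j _ => hne j)]

theorem det_shift_psd {T : Matrix n n ℂ} (hT : T.PosSemidef) {t : ℝ} (ht : 0 < t) :
    0 < (t • (1 : Matrix n n ℂ) + T).det.re ∧
      (t • (1 : Matrix n n ℂ) + T).det = (((t • (1 : Matrix n n ℂ) + T).det.re : ℝ) : ℂ) := by
  have h := det_shift hT.isHermitian t 1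
  rw [one_smul] at h
  rw [h, Complex.ofReal_re]
  refine ⟨Finset.prod_pos fun j _ => ?_, rfl⟩
  have := hT.eigenvalues_nonneg j
  simp only [one_mul]
  linarith

/-- `log det(t + T + ρ X) = log det(t+T) + Tr log(1 + ρ P)`, `P = S X S`. -/
theorem ldet_add_conj {T X : Matrix n n ℂ} (hT : T.PosSemidef) (hX : X.IsHermitian) {t : ℝ}
    (ht : 0 < t) (ρ : ℝ) (hP : (conjS X T t).IsHermitian)
    (hne : ∀ k, 1 + ρ * hP.eigenvalues k ≠ 0) :
    ldet (t • (1 : Matrix n n ℂ) + T + ρ • X) =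
      ldet (t • (1 : Matrix n n ℂ) + T) + trF (fun u => Real.log (1 + ρ * u)) (conjS X T t) := by
  have hS := isq_conj_shift hT ht
  set S := isq T t with hSdef
  have hconj : S * (t • (1 : Matrix n n ℂ) + T + ρ • X) * S =
      (1 : ℝ) • (1 : Matrix n n ℂ) + ρ • conjS X T t := by
    rw [Matrix.mul_add, Matrix.add_mul, hS, one_smul]
    simp [conjS, hSdef, Matrix.mul_smul, Matrix.smul_mul]
  have hd := congrArg Matrix.det hconj
  rw [det_mul, det_mul, det_shift hP] at hd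
  have hdS := isq_det_sq hT ht
  rw [← hSdef] at hdS
  have hpos := det_shift_psd hT ht
  set τ := (t • (1 : Matrix n n ℂ) + T).det with hτ
  set μ := (t • (1 : Matrix n n ℂ) + T + ρ • X).det with hμ
  set q : ℝ := ∏ j, ((1 : ℝ) + ρ * hP.eigenvalues j) with hq
  have hq0 : q ≠ 0 := Finset.prod_ne_zero_iff.mpr fun j _ => hne j
  have h3 : μ = τ * ((q : ℝ) : ℂ) := by
    calc μ = (S.det * τ * S.det) * μ := by rw [hdS, one_mul]
      _ = τ * (S.det * μ * S.det) := by ring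
      _ = τ * (q : ℂ) := by rw [hd]
  have h4 : μ.re = τ.re * q := by
    rw [h3, hpos.2]
    simp
  unfold ldet
  rw [← hτ, ← hμ, h4, Real.log_mul hpos.1.ne' hq0, trF_of_herm hP, hq,
    Real.log_prod (fun j _ => hne j)]

/-! ## the level inequality -/

/-- `log det(t+M) ≥ log det(t+T₁) + log det(t+T₂) - Tr G(P) - Tr H(R)`. -/
theorem level_ineq {X Y Z : Matrix n n ℂ} (hJ : (qb X Y Yᴴ Z).PosSemidef)
    (hX : X.PosSemidef) (hZ : Z.PosSemidef)
    {a b c d e2 : ℝ} (ha : 0 < a) (hb : 0 ≤ b) (hc : 0 ≤ c) (hd : 0 < d) (he : 0 ≤ e2)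
    {G H : ℝ → ℝ} (hG : ConvexOn ℝ (Icc 0 (1 / a)) G) (hH : ConvexOn ℝ (Icc 0 (1 / d)) H)
    (hGnn : ∀ u ∈ Icc 0 (1 / a), 0 ≤ G u) (hHnn : ∀ v ∈ Icc 0 (1 / d), 0 ≤ H v)
    (hpos : ∀ u ∈ Icc 0 (1 / a), ∀ v ∈ Icc 0 (1 / d), 0 < 1 - e2 * u * v)
    (hY : ∀ u ∈ Icc 0 (1 / a), ∀ v ∈ Icc 0 (1 / d), -Real.log (1 - e2 * u * v) ≤ G u + H v)
    {t : ℝ} (ht : 0 < t) :
    ldet (t • (1 : Matrix n n ℂ) + (a • X + b • Z)) + ldet (t • (1 : Matrix n n ℂ) + (c • X + d • Z))
        - trF G (conjS X (a • X + b • Z) t) - trF H (conjS Z (c • X + d • Z) t) ≤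
      ldet (t • (1 : Matrix (Bool × n) (Bool × n) ℂ) +
        qb (a • X + b • Z) (((Real.sqrt e2 : ℝ) : ℂ) • Y) (((Real.sqrt e2 : ℝ) : ℂ) • Yᴴ)
          (c • X + d • Z)) := by
  set T₁ := a • X + b • Z with hT₁
  set T₂ := c • X + d • Z with hT₂
  have hT₁p : T₁.PosSemidef := (hX.smul ha.le).add (hZ.smul hb)
  have hT₂p : T₂.PosSemidef := (hX.smul hc).add (hZ.smul hd.le)
  set S₁ := isq T₁ t with hS₁d
  set S₂ := isq T₂ t with hS₂d
  have hS₁ : S₁.IsHermitian := isq_herm hT₁p.isHermitian t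
  have hS₂ : S₂.IsHermitian := isq_herm hT₂p.isHermitian t
  set s : ℂ := ((Real.sqrt e2 : ℝ) : ℂ) with hs
  set Y' := s • Y with hY'
  have hY'H : s • Yᴴ = Y'ᴴ := by
    rw [hY', conjTranspose_smul, hs]; simp [Complex.conj_ofReal]
  set K := s • (S₁ * Y * S₂) with hK
  have hKK : (Kᴴ * K).IsHermitian := isHermitian_conjTranspose_mul_self K
  have hP : (S₁ * X * S₁).IsHermitian := conjS_herm hT₁p.isHermitian hX.isHermitian t
  have hR : (S₂ * Z * S₂).IsHermitian := conjS_herm hT₂p.isHermitian hZ.isHermitian t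
  have haT : (T₁ - a • X).PosSemidef := by
    have : T₁ - a • X = b • Z := by rw [hT₁]; abel
    rw [this]; exact hZ.smul hb
  have hdT : (T₂ - d • Z).PosSemidef := by
    have : T₂ - d • Z = c • X := by rw [hT₂]; abel
    rw [this]; exact hX.smul hc
  have hPs : ∀ k, hP.eigenvalues k ∈ Icc 0 (1 / a) := fun k =>
    Ico_subset_Icc_self (conjS_eig_mem hX hT₁p ha ht haT hP k)
  have hRs : ∀ k, hR.eigenvalues k ∈ Icc 0 (1 / d) := fun k =>
    Ico_subset_Icc_self (conjS_eig_mem hZ hT₂p hd ht hdT hR k)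
  obtain ⟨hlt, hsum⟩ := young_sum hJ hS₁ hS₂ he hG hH hGnn hHnn hpos hY hP hR hPs hRs hK hKK
  -- determinant formula
  have hdet := det_level (A := t • (1 : Matrix n n ℂ) + T₁) (D := t • (1 : Matrix n n ℂ) + T₂)
    (Y := Y') (K := K) (isq_conj_shift hT₁p ht) (isq_conj_shift hT₂p ht) hS₁ hS₂
    (by rw [hK, hY', hS₁d, hS₂d]; simp [Matrix.mul_smul, Matrix.smul_mul])
  rw [← smul_one_add_qb] at hdet
  rw [hY'H]
  have h1 := det_shift_psd hT₁p ht
  have h2 := det_shift_psd hT₂p ht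
  have h3 := det_shift hKK (1 : ℝ) (-1 : ℝ)
  have h3' : (1 : ℝ) • (1 : Matrix n n ℂ) + (-1 : ℝ) • (Kᴴ * K) = 1 - Kᴴ * K := by
    rw [one_smul, neg_smul, one_smul, sub_eq_add_neg]
  rw [h3'] at h3
  set q : ℝ := ∏ j, ((1 : ℝ) + (-1) * hKK.eigenvalues j) with hq
  have hq0 : q ≠ 0 := Finset.prod_ne_zero_iff.mpr fun j _ => by
    have := hlt j; linarith
  have hre : (t • (1 : Matrix (Bool × n) (Bool × n) ℂ) + qb T₁ Y' Y'ᴴ T₂).det.re =
      (t • (1 : Matrix n n ℂ) + T₁).det.re * (t • (1 : Matrix n n ℂ) + T₂).det.re * q := by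
    rw [hdet, h3, h1.2, h2.2]
    simp only [← Complex.ofReal_mul, Complex.ofReal_re]
  unfold ldet
  rw [hre, Real.log_mul (mul_ne_zero h1.1.ne' h2.1.ne') hq0, Real.log_mul h1.1.ne' h2.1.ne', hq,
    Real.log_prod (fun j _ => by have := hlt j; linarith)]
  have h5 : ∑ j, Real.log ((1 : ℝ) + (-1) * hKK.eigenvalues j) =
      - ∑ j, -Real.log (1 - hKK.eigenvalues j) := by
    rw [Finset.sum_neg_distrib, neg_neg]
    refine Finset.sum_congr rfl fun j _ => ?_
    rw [show (1 : ℝ) + (-1) * hKK.eigenvalues j = 1 - hKK.eigenvalues j by ring]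
  rw [h5]
  have h6 : trF G (conjS X T₁ t) = trF G (S₁ * X * S₁) := rfl
  have h7 : trF H (conjS Z T₂ t) = trF H (S₂ * Z * S₂) := rfl
  rw [h6, h7]
  linarith

/-- `1 - e² u v > 0` on the closed rectangle of a valid parameter. -/
theorem Par.pos_rect {P : Par} (hP : P.Valid) {u v : ℝ} (hu : u ∈ Icc 0 (1 / P.a))
    (hv : v ∈ Icc 0 (1 / P.d)) : 0 < 1 - P.e2 * u * v := by
  have ha := hP.ha
  have hd := hP.hd
  have hbc : 0 < P.b * P.c := mul_pos hP.hb hP.hc
  have h1 : u * P.a ≤ 1 := by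
    have := hu.2; rwa [le_div_iff₀ ha] at this
  have h2 : v * P.d ≤ 1 := by
    have := hv.2; rwa [le_div_iff₀ hd] at this
  have h3 : (u * P.a) * (v * P.d) ≤ 1 := by
    have h4 : 0 ≤ v * P.d := mul_nonneg hv.1 hd.le
    have h5 : 0 ≤ u * P.a := mul_nonneg hu.1 ha.le
    nlinarith
  have h6 : P.e2 * u * v * (P.a * P.d) < P.a * P.d := by
    have : P.e2 * u * v * (P.a * P.d) = P.e2 * ((u * P.a) * (v * P.d)) := by ring
    rw [this]
    have he := hP.he2
    have : P.e2 * ((u * P.a) * (v * P.d)) ≤ P.e2 * 1 := mul_le_mul_of_nonneg_left h3 he.le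
    rw [hP.hdet] at this ⊢
    nlinarith
  have hpos : 0 < P.a * P.d := mul_pos ha hd
  have : P.e2 * u * v < 1 := by
    by_contra hcon
    push_neg at hcon
    nlinarith
  linarith

/-- The level inequality in the form needed for integration:
`Tr L1(P_t) + Tr L2(R_t) ≤ D(t)`, the two `L` being the monotone functions of `Par`. -/
theorem level_main {P : Par} (hP : P.Valid) {X Y Z : Matrix n n ℂ}
    (hJ : (qb X Y Yᴴ Z).PosSemidef) (hX : X.PosSemidef) (hZ : Z.PosSemidef) {t : ℝ} (ht : 0 < t) :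
    trF P.L1 (conjS X (P.a • X + P.b • Z) t) + trF P.L2 (conjS Z (P.c • X + P.d • Z) t) ≤
      ldet (t • (1 : Matrix (Bool × n) (Bool × n) ℂ) +
        qb (P.a • X + P.b • Z) (((Real.sqrt P.e2 : ℝ) : ℂ) • Y) (((Real.sqrt P.e2 : ℝ) : ℂ) • Yᴴ)
          (P.c • X + P.d • Z))
      - P.a / P.eps1 * (ldet (t • (1 : Matrix n n ℂ) + (P.a • X + P.b • Z) + P.eps1 • X)
          - ldet (t • (1 : Matrix n n ℂ) + (P.a • X + P.b • Z)))
      - ldet (t • (1 : Matrix n n ℂ) + P.b • Z)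
      - P.d / P.eps2 * (ldet (t • (1 : Matrix n n ℂ) + (P.c • X + P.d • Z) + P.eps2 • Z)
          - ldet (t • (1 : Matrix n n ℂ) + (P.c • X + P.d • Z)))
      - ldet (t • (1 : Matrix n n ℂ) + P.c • X) := by
  set T₁ := P.a • X + P.b • Z with hT₁
  set T₂ := P.c • X + P.d • Z with hT₂
  have ha := hP.ha
  have hb := hP.hb
  have hc := hP.hc
  have hd := hP.hd
  have hε₁ := Par.eps1_pos hP
  have hε₂ := Par.eps2_pos hP
  have hT₁p : T₁.PosSemidef := (hX.smul ha.le).add (hZ.smul hb.le)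
  have hT₂p : T₂.PosSemidef := (hX.smul hc.le).add (hZ.smul hd.le)
  have hlevel := level_ineq (a := P.a) (b := P.b) (c := P.c) (d := P.d) (e2 := P.e2)
    (G := P.G) (H := P.H) hJ hX hZ ha hb.le hc.le hd hP.he2.le (Par.G_convex hP) (Par.H_convex hP)
    (fun u hu => Par.G_nonneg hP hu) (fun v hv => Par.H_nonneg hP hv)
    (fun u hu v hv => Par.pos_rect hP hu hv) (fun u hu v hv => Par.young hP hu hv) ht
  rw [← hT₁, ← hT₂] at hlevel
  have hPh : (conjS X T₁ t).IsHermitian := conjS_herm hT₁p.isHermitian hX.isHermitian t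
  have hRh : (conjS Z T₂ t).IsHermitian := conjS_herm hT₂p.isHermitian hZ.isHermitian t
  have haT : (T₁ - P.a • X).PosSemidef := by
    have : T₁ - P.a • X = P.b • Z := by rw [hT₁]; abel
    rw [this]; exact hZ.smul hb.le
  have hdT : (T₂ - P.d • Z).PosSemidef := by
    have : T₂ - P.d • Z = P.c • X := by rw [hT₂]; abel
    rw [this]; exact hX.smul hc.le
  have hPs : ∀ k, hPh.eigenvalues k ∈ Ico 0 (1 / P.a) := fun k =>
    conjS_eig_mem hX hT₁p ha ht haT hPh k
  have hRs : ∀ k, hRh.eigenvalues k ∈ Ico 0 (1 / P.d) := fun k =>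
    conjS_eig_mem hZ hT₂p hd ht hdT hRh k
  -- the four determinants
  have e1 := ldet_add_conj hT₁p hX.isHermitian ht P.eps1 hPh (fun k => by
    have := (hPs k).1
    have := mul_nonneg hε₁.le (hPs k).1
    linarith)
  have e2 := ldet_add_conj hT₁p hX.isHermitian ht (-P.a) hPh (fun k => by
    have h1 := (hPs k).2
    rw [lt_div_iff₀ ha] at h1
    nlinarith)
  have e3 := ldet_add_conj hT₂p hZ.isHermitian ht P.eps2 hRh (fun k => by
    have := mul_nonneg hε₂.le (hRs k).1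
    linarith)
  have e4 := ldet_add_conj hT₂p hZ.isHermitian ht (-P.d) hRh (fun k => by
    have h1 := (hRs k).2
    rw [lt_div_iff₀ hd] at h1
    nlinarith)
  have e2' : t • (1 : Matrix n n ℂ) + T₁ + (-P.a) • X = t • (1 : Matrix n n ℂ) + P.b • Z := by
    rw [hT₁, neg_smul]; abel
  have e4' : t • (1 : Matrix n n ℂ) + T₂ + (-P.d) • Z = t • (1 : Matrix n n ℂ) + P.c • X := by
    rw [hT₂, neg_smul]; abel
  rw [e2'] at e2
  rw [e4'] at e4
  -- the expansions of the trace functions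
  have hL1 : trF P.L1 (conjS X T₁ t) = -(P.a / P.eps1) * trF (fun u => Real.log (1 + P.eps1 * u)) (conjS X T₁ t)
      - trF (fun u => Real.log (1 + -P.a * u)) (conjS X T₁ t) - trF P.G (conjS X T₁ t) := by
    simp only [trF_of_herm hPh, Finset.mul_sum, ← Finset.sum_sub_distrib]
    refine Finset.sum_congr rfl fun k _ => ?_
    simp only [Par.L1]
    rw [show (1 : ℝ) + -P.a * hPh.eigenvalues k = 1 - P.a * hPh.eigenvalues k by ring]
  have hL2 : trF P.L2 (conjS Z T₂ t) = -(P.d / P.eps2) * trF (fun u => Real.log (1 + P.eps2 * u)) (conjS Z T₂ t)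
      - trF (fun u => Real.log (1 + -P.d * u)) (conjS Z T₂ t) - trF P.H (conjS Z T₂ t) := by
    simp only [trF_of_herm hRh, Finset.mul_sum, ← Finset.sum_sub_distrib]
    refine Finset.sum_congr rfl fun k _ => ?_
    simp only [Par.L2]
    rw [show (1 : ℝ) + -P.d * hRh.eigenvalues k = 1 - P.d * hRh.eigenvalues k by ring]
  rw [hL1, hL2, e1, e3]
  rw [e2, e4]
  have h1 : ldet (t • (1 : Matrix n n ℂ) + T₁) + trF (fun u => Real.log (1 + P.eps1 * u)) (conjS X T₁ t)
      - ldet (t • (1 : Matrix n n ℂ) + T₁) = trF (fun u => Real.log (1 + P.eps1 * u)) (conjS X T₁ t) := by ring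
  have h2 : ldet (t • (1 : Matrix n n ℂ) + T₂) + trF (fun u => Real.log (1 + P.eps2 * u)) (conjS Z T₂ t)
      - ldet (t • (1 : Matrix n n ℂ) + T₂) = trF (fun u => Real.log (1 + P.eps2 * u)) (conjS Z T₂ t) := by ring
  rw [h1, h2]
  have h3 : -(P.a / P.eps1) * trF (fun u => Real.log (1 + P.eps1 * u)) (conjS X T₁ t) =
      - (P.a / P.eps1 * trF (fun u => Real.log (1 + P.eps1 * u)) (conjS X T₁ t)) := by ring
  have h4 : -(P.d / P.eps2) * trF (fun u => Real.log (1 + P.eps2 * u)) (conjS Z T₂ t) =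
      - (P.d / P.eps2 * trF (fun u => Real.log (1 + P.eps2 * u)) (conjS Z T₂ t)) := by ring
  rw [h3, h4]
  linarith

end Crest.Agent.H8G
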