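/-
The layer-cake inequality for the GADC key inequality:
`∫ L(x/(t+r)) dt ≤ ∫ Tr L(P_t) dt`, `P_t = (t+T)^{-1/2} X (t+T)^{-1/2}`, `x = Tr X`, `r = Tr T`,
for monotone continuous `L` with `L 0 = 0`.

Proof. For a threshold `u > 0`, the number of eigenvalues of `P_t` above `u` is at least the number of
eigenvalues of `X - uT` above `tu` (inertia); integrating in `t` gives at least `(x/u - r)_+`
(trace of `X/u - T`), which is the same integral for the scalars. Finite positive combinations of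
thresholds, and Fatou.
-/
import Crest.Agent.H8GLevel
import Crest.Agent.H8GEnt

set_option autoImplicit false

namespace Crest.Agent.H8G

open Matrix MeasureTheory Set Filter Topology
open scoped ComplexOrder ENNReal

variable {n : Type*} [Fintype n] [DecidableEq n]

/-- step function `1[u < x]`. -/
noncomputable def stepF (u x : ℝ) : ℝ := if u < x then 1 else 0

theorem stepF_nonneg (u x : ℝ) : 0 ≤ stepF u x := by
  unfold stepF; split_ifs <;> norm_num

/-- Inertia inequality in counting form: `B = S A S`, `S` invertible. -/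
theorem inertia_le {A B S : Matrix n n ℂ} (hA : A.IsHermitian) (hB : B.IsHermitian)
    (hS : S.IsHermitian) (hdet : S.det ≠ 0) (hBA : B = S * A * S) :
    trF (stepF 0) A ≤ trF (stepF 0) B := by
  classical
  rw [trF_of_herm hA, trF_of_herm hB]
  by_contra hlt
  push_neg at hlt
  let K₁ := {k // 0 < hB.eigenvalues k}
  let K₂ := {k // ¬ 0 < hA.eigenvalues k}
  let Φ : (n → ℂ) →ₗ[ℂ] (K₁ ⊕ K₂ → ℂ) :=
    { toFun := fun v => Sum.elim (fun k => coef hB v k.1) (fun k => coef hA (S *ᵥ v) k.1)
      map_add' := by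
        intro v w
        funext i
        rcases i with i | i <;> simp [coef, mulVec_add]
      map_smul' := by
        intro c v
        funext i
        rcases i with i | i <;> simp [coef, mulVec_smul] }
  have hcard₁ : (Fintype.card K₁ : ℝ) = ∑ k, stepF 0 (hB.eigenvalues k) := by
    simp only [stepF, K₁, Fintype.card_subtype]
    simp [Finset.sum_ite]
  have hcard₂ : (Fintype.card K₂ : ℝ) + ∑ k, stepF 0 (hA.eigenvalues k) = Fintype.card n := by
    simp only [stepF, K₂, Fintype.card_subtype]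
    have := Finset.card_filter_add_card_filter_not (s := (Finset.univ : Finset n)) (fun k => 0 < hA.eigenvalues k)
    simp only [Finset.sum_ite, Finset.sum_const, nsmul_eq_mul, mul_one, mul_zero, add_zero,
      Finset.card_univ] at this ⊢
    rw [add_comm]
    exact_mod_cast this
  have hfin : Module.finrank ℂ (K₁ ⊕ K₂ → ℂ) < Module.finrank ℂ (n → ℂ) := by
    simp only [Module.finrank_fintype_fun_eq_card, Fintype.card_sum]
    have : ((Fintype.card K₁ + Fintype.card K₂ : ℕ) : ℝ) < Fintype.card n := by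
      push_cast
      linarith
    exact_mod_cast this
  have hker := LinearMap.ker_ne_bot_of_finrank_lt (f := Φ) hfin
  obtain ⟨v, hv, hv0⟩ := (Submodule.ne_bot_iff _).1 hker
  have hv1 : ∀ k, 0 < hB.eigenvalues k → coef hB v k = 0 := fun k hk =>
    congrFun (LinearMap.mem_ker.1 hv) (Sum.inl ⟨k, hk⟩)
  have hv2 : ∀ k, ¬ 0 < hA.eigenvalues k → coef hA (S *ᵥ v) k = 0 := fun k hk =>
    congrFun (LinearMap.mem_ker.1 hv) (Sum.inr ⟨k, hk⟩)
  have hw0 : S *ᵥ v ≠ 0 := fun h => hv0 (Matrix.eq_zero_of_mulVec_eq_zero hdet h)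
  have hq : qf B v = qf A (S *ᵥ v) := by
    rw [hBA]; exact lv_qf_conj_herm hS A v
  have hq1 : qf B v ≤ 0 := by
    rw [qf_eq_sum hB]
    refine Finset.sum_nonpos fun k _ => ?_
    by_cases hk : 0 < hB.eigenvalues k
    · rw [hv1 k hk]; simp
    · exact mul_nonpos_of_nonpos_of_nonneg (not_lt.1 hk) (Complex.normSq_nonneg _)
  have hq2 : 0 < qf A (S *ᵥ v) := by
    rw [qf_eq_sum hA]
    have hnz : ∃ k, coef hA (S *ᵥ v) k ≠ 0 := by
      by_contra hcon
      push_neg at hcon
      apply hw0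
      have h1 : (hA.eigenvectorUnitary : Matrix n n ℂ)ᴴ *ᵥ (S *ᵥ v) = 0 := funext hcon
      have h2 : (S *ᵥ v) = (hA.eigenvectorUnitary : Matrix n n ℂ) *ᵥ
          ((hA.eigenvectorUnitary : Matrix n n ℂ)ᴴ *ᵥ (S *ᵥ v)) := by
        rw [mulVec_mulVec, eU_mul_conj hA, one_mulVec]
      rw [h2, h1, mulVec_zero]
    obtain ⟨k, hk⟩ := hnz
    have hkpos : 0 < hA.eigenvalues k := by
      by_contra hc
      exact hk (hv2 k hc)
    refine Finset.sum_pos' (fun j _ => ?_) ⟨k, Finset.mem_univ _, mul_pos hkpos (Complex.normSq_pos.2 hk)⟩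
    by_cases hj : 0 < hA.eigenvalues j
    · exact mul_nonneg hj.le (Complex.normSq_nonneg _)
    · rw [hv2 j hj]; simp
  linarith

/-- The threshold comparison: eigenvalues of `P_t` above `u` versus those of `X - uT` above `tu`. -/
theorem count_le {X T : Matrix n n ℂ} (hX : X.IsHermitian) (hT : T.PosSemidef) {u t : ℝ} (ht : 0 < t) :
    trF (stepF (t * u)) (X - u • T) ≤ trF (stepF u) (conjS X T t) := by
  have hTh := hT.isHermitian
  have hP : (conjS X T t).IsHermitian := conjS_herm hTh hX t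
  have hH : (X - u • T).IsHermitian := by
    apply hX.sub
    exact IsHermitian.smul hTh (IsSelfAdjoint.all _)
  set S := isq T t with hS
  have hSh : S.IsHermitian := isq_herm hTh t
  have hSS : S * (t • (1 : Matrix n n ℂ) + T) * S = 1 := isq_conj_shift hT ht
  have e1 : trF (stepF (t * u)) (X - u • T) =
      trF (stepF 0) ((-(t * u)) • (1 : Matrix n n ℂ) + (1 : ℝ) • (X - u • T)) := by
    rw [trF_shift hH, trF_of_herm hH, trF_of_herm hH]
    refine Finset.sum_congr rfl fun k _ => ?_
    simp only [stepF, one_mul]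
    congr 1
    rw [propext (by constructor <;> intro h <;> linarith :
      (0 < -(t * u) + hH.eigenvalues k) ↔ (t * u < hH.eigenvalues k))]
  have e2 : trF (stepF u) (conjS X T t) =
      trF (stepF 0) ((-u) • (1 : Matrix n n ℂ) + (1 : ℝ) • (conjS X T t)) := by
    rw [trF_shift hP, trF_of_herm hP, trF_of_herm hP]
    refine Finset.sum_congr rfl fun k _ => ?_
    simp only [stepF, one_mul]
    congr 1
    rw [propext (by constructor <;> intro h <;> linarith :
      (0 < -u + hP.eigenvalues k) ↔ (u < hP.eigenvalues k))]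
  rw [e1, e2]
  have hA : ((-(t * u)) • (1 : Matrix n n ℂ) + (1 : ℝ) • (X - u • T)).IsHermitian := by
    refine IsHermitian.add (IsHermitian.smul isHermitian_one (IsSelfAdjoint.all _)) ?_
    exact IsHermitian.smul hH (IsSelfAdjoint.all _)
  have hB : ((-u) • (1 : Matrix n n ℂ) + (1 : ℝ) • (conjS X T t)).IsHermitian := by
    refine IsHermitian.add (IsHermitian.smul isHermitian_one (IsSelfAdjoint.all _)) ?_
    exact IsHermitian.smul hP (IsSelfAdjoint.all _)
  refine inertia_le hA hB hSh (isq_det_ne hT ht) ?_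
  have : (-(t * u)) • (1 : Matrix n n ℂ) + (1 : ℝ) • (X - u • T) =
      X - u • (t • (1 : Matrix n n ℂ) + T) := by
    rw [one_smul, smul_add, smul_smul, neg_smul, mul_comm t u]
    abel
  rw [this, Matrix.mul_sub, Matrix.sub_mul, Matrix.mul_smul, Matrix.smul_mul, hSS, one_smul, neg_smul]
  show -(u • (1 : Matrix n n ℂ)) + S * X * S = S * X * S - u • 1
  abel

/-- Lebesgue measure of `(0, w)`. -/
theorem vol_lemma (w : ℝ) :
    ∫⁻ t in Ioi (0 : ℝ), (if t < w then (1 : ℝ≥0∞) else 0) = ENNReal.ofReal w := by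
  have h1 : (fun t : ℝ => if t < w then (1 : ℝ≥0∞) else 0) = (Iio w).indicator 1 := by
    funext t
    simp [indicator]
  rw [h1, lintegral_indicator_one measurableSet_Iio, Measure.restrict_apply measurableSet_Iio,
    Iio_inter_Ioi, Real.volume_Ioo, sub_zero]

theorem ofReal_sum_le {ι : Type*} (s : Finset ι) (f : ι → ℝ) :
    ENNReal.ofReal (∑ i ∈ s, f i) ≤ ∑ i ∈ s, ENNReal.ofReal (f i) := by
  classical
  induction s using Finset.induction_on with
  | empty => simp
  | insert a s ha ih =>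
    rw [Finset.sum_insert ha, Finset.sum_insert ha]
    exact ENNReal.ofReal_add_le.trans (add_le_add_right ih _)

/-- The matrix threshold integral. -/
theorem threshold_int {X T : Matrix n n ℂ} (hX : X.IsHermitian) (hT : T.PosSemidef) {u : ℝ}
    (hu : 0 < u) :
    ENNReal.ofReal (X.trace.re / u - T.trace.re) ≤
      ∫⁻ t in Ioi (0 : ℝ), ENNReal.ofReal (trF (stepF u) (conjS X T t)) := by
  have hH : (X - u • T).IsHermitian := by
    apply hX.sub
    exact IsHermitian.smul hT.isHermitian (IsSelfAdjoint.all _)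
  have htr : X.trace.re / u - T.trace.re = ∑ k, hH.eigenvalues k / u := by
    rw [← Finset.sum_div, ← trace_re_eq_sum hH, trace_sub, trace_smul]
    simp only [Complex.sub_re, Complex.real_smul, Complex.mul_re, Complex.ofReal_re, Complex.ofReal_im,
      zero_mul, sub_zero]
    field_simp
  rw [htr]
  refine (ofReal_sum_le _ _).trans ?_
  have h2 : ∑ k, ENNReal.ofReal (hH.eigenvalues k / u) =
      ∑ k, ∫⁻ t in Ioi (0 : ℝ), (if t < hH.eigenvalues k / u then (1 : ℝ≥0∞) else 0) := by
    simp_rw [vol_lemma]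
  rw [h2, ← lintegral_finset_sum]
  · refine setLIntegral_mono' measurableSet_Ioi fun t ht => ?_
    have h1 := count_le hX hT (u := u) ht
    rw [trF_of_herm hH] at h1
    refine le_trans ?_ (ENNReal.ofReal_le_ofReal h1)
    rw [ENNReal.ofReal_sum_of_nonneg fun k _ => stepF_nonneg _ _]
    refine Finset.sum_le_sum fun k _ => ?_
    simp only [stepF]
    by_cases h : t < hH.eigenvalues k / u
    · rw [lt_div_iff₀ hu, mul_comm] at h
      simp [lt_div_iff₀ hu, mul_comm, h]
    · simp [h]
  · intro k _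
    exact Measurable.ite measurableSet_Iio measurable_const measurable_const

/-- The scalar threshold integral. -/
theorem scalar_threshold {x r u : ℝ} (hr : 0 ≤ r) (hu : 0 < u) :
    ∫⁻ t in Ioi (0 : ℝ), ENNReal.ofReal (stepF u (x / (t + r))) = ENNReal.ofReal (x / u - r) := by
  rw [← vol_lemma]
  refine setLIntegral_congr_fun measurableSet_Ioi fun t ht => ?_
  have ht' : (0 : ℝ) < t := ht
  have h1 : 0 < t + r := by linarith
  have h2 : u < x / (t + r) ↔ t < x / u - r := by
    rw [lt_div_iff₀ h1, lt_sub_iff_add_lt, lt_div_iff₀ hu, mul_comm]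
  simp only [stepF, h2]
  split_ifs <;> simp

/-- Finite positive combinations of thresholds. -/
theorem layer_fin {X T : Matrix n n ℂ} (hX : X.IsHermitian) (hT : T.PosSemidef) {ι : Type*}
    (s : Finset ι) (c g : ι → ℝ) (hc : ∀ j ∈ s, 0 ≤ c j) (hg : ∀ j ∈ s, 0 < g j) :
    ∫⁻ t in Ioi (0 : ℝ), ENNReal.ofReal (∑ j ∈ s, c j * stepF (g j) (X.trace.re / (t + T.trace.re))) ≤
      ∫⁻ t in Ioi (0 : ℝ), ENNReal.ofReal (∑ j ∈ s, c j * trF (stepF (g j)) (conjS X T t)) := by
  classical
  have hr : 0 ≤ T.trace.re := by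
    rw [trace_re_eq_sum hT.isHermitian]
    exact Finset.sum_nonneg fun i _ => hT.eigenvalues_nonneg i
  have hF : ∀ (u : ℝ) (t : ℝ), 0 ≤ trF (stepF u) (conjS X T t) := by
    intro u t
    rw [trF_of_herm (conjS_herm hT.isHermitian hX t)]
    exact Finset.sum_nonneg fun i _ => stepF_nonneg _ _
  have hL : ∀ t : ℝ, ENNReal.ofReal (∑ j ∈ s, c j * stepF (g j) (X.trace.re / (t + T.trace.re))) =
      ∑ j ∈ s, ENNReal.ofReal (c j) * ENNReal.ofReal (stepF (g j) (X.trace.re / (t + T.trace.re))) := by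
    intro t
    rw [ENNReal.ofReal_sum_of_nonneg fun j hj => mul_nonneg (hc j hj) (stepF_nonneg _ _)]
    refine Finset.sum_congr rfl fun j hj => ?_
    rw [ENNReal.ofReal_mul (hc j hj)]
  have hR : ∀ t : ℝ, ENNReal.ofReal (∑ j ∈ s, c j * trF (stepF (g j)) (conjS X T t)) =
      ∑ j ∈ s, ENNReal.ofReal (c j) * ENNReal.ofReal (trF (stepF (g j)) (conjS X T t)) := by
    intro t
    rw [ENNReal.ofReal_sum_of_nonneg fun j hj => mul_nonneg (hc j hj) (hF _ _)]
    refine Finset.sum_congr rfl fun j hj => ?_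
    rw [ENNReal.ofReal_mul (hc j hj)]
  simp_rw [hL, hR]
  rw [lintegral_finset_sum']
  · -- the right-hand side: superadditivity without measurability
    have hsup : ∀ (s' : Finset ι), ∑ j ∈ s', ∫⁻ t in Ioi (0 : ℝ),
        ENNReal.ofReal (c j) * ENNReal.ofReal (trF (stepF (g j)) (conjS X T t)) ≤
        ∫⁻ t in Ioi (0 : ℝ), ∑ j ∈ s',
          ENNReal.ofReal (c j) * ENNReal.ofReal (trF (stepF (g j)) (conjS X T t)) := by
      intro s'
      induction s' using Finset.induction_on with
      | empty => simp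
      | insert a s' ha ih =>
        rw [Finset.sum_insert ha]
        simp_rw [Finset.sum_insert ha]
        exact (add_le_add_right ih _).trans (le_lintegral_add _ _)
    refine le_trans (Finset.sum_le_sum fun j hj => ?_) (hsup s)
    rw [lintegral_const_mul' _ _ ENNReal.ofReal_ne_top, lintegral_const_mul' _ _ ENNReal.ofReal_ne_top]
    refine mul_le_mul' le_rfl ?_
    rw [scalar_threshold hr (hg j hj)]
    exact threshold_int hX hT (hg j hj)
  · intro j _
    refine AEMeasurable.const_mul ?_ _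
    refine Measurable.aemeasurable ?_
    refine ENNReal.measurable_ofReal.comp ?_
    unfold stepF
    refine Measurable.ite ?_ measurable_const measurable_const
    refine measurableSet_lt measurable_const ?_
    exact measurable_const.div (measurable_id.add_const _)

/-! ## step approximation of a monotone function -/

/-- Step-function approximation of `L` on `[0,B)`, with grid `B/(N+1)`. -/
noncomputable def stepApprox (L : ℝ → ℝ) (B : ℝ) (N : ℕ) (α : ℝ) : ℝ :=
  ∑ j ∈ Finset.range N, (L (((j : ℝ) + 1) * (B / (N + 1))) - L ((j : ℝ) * (B / (N + 1)))) *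
    stepF (((j : ℝ) + 1) * (B / (N + 1))) α

theorem stepApprox_aux (L : ℝ → ℝ) (δ α : ℝ) (J : ℕ)
    (hJ : ∀ j : ℕ, ((j : ℝ) + 1) * δ < α ↔ j < J) (M : ℕ) :
    ∑ j ∈ Finset.range M, (L (((j : ℝ) + 1) * δ) - L ((j : ℝ) * δ)) * stepF (((j : ℝ) + 1) * δ) α =
      L (((min M J : ℕ) : ℝ) * δ) - L 0 := by
  induction M with
  | zero => simp
  | succ M ih =>
    rw [Finset.sum_range_succ, ih]
    simp only [stepF, hJ]
    by_cases h : M < J
    · have h1 : min M J = M := by omega
      have h2 : min (M + 1) J = M + 1 := by omega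
      rw [if_pos h, h1, h2]
      push_cast
      ring
    · have h1 : min M J = min (M + 1) J := by omega
      rw [if_neg h, h1]
      ring

/-- Value of the approximation: `L` at the grid point just below `α`. -/
theorem stepApprox_eq {L : ℝ → ℝ} {B : ℝ} (hB : 0 < B) (hL0 : L 0 = 0) (N : ℕ) {α : ℝ}
    (hα : α ∈ Ico 0 B) :
    stepApprox L B N α = L (((⌈α / (B / (N + 1))⌉₊ - 1 : ℕ) : ℝ) * (B / (N + 1))) := by
  set δ := B / ((N : ℝ) + 1) with hδ
  have hδ0 : 0 < δ := by positivity
  set J := ⌈α / δ⌉₊ - 1 with hJ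
  have hstep : ∀ j : ℕ, ((j : ℝ) + 1) * δ < α ↔ j < J := by
    intro j
    have h1 : ((j : ℝ) + 1) * δ < α ↔ j + 1 < ⌈α / δ⌉₊ := by
      rw [Nat.lt_ceil, lt_div_iff₀ hδ0]
      push_cast
      rfl
    rw [h1, hJ]
    omega
  have hJN : J ≤ N := by
    have h1 : α / δ ≤ ((N + 1 : ℕ) : ℝ) := by
      rw [div_le_iff₀ hδ0, hδ]
      push_cast
      have : ((N : ℝ) + 1) * (B / ((N : ℝ) + 1)) = B := by field_simp
      rw [this]
      exact hα.2.le
    have := Nat.ceil_le.2 h1
    omega
  unfold stepApprox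
  rw [stepApprox_aux L δ α J hstep N, hL0, sub_zero, min_eq_right hJN]

/-- The grid point just below `α` lies in `[α-δ, α]`. -/
theorem grid_bounds {α δ : ℝ} (hα : 0 ≤ α) (hδ : 0 < δ) :
    ((⌈α / δ⌉₊ - 1 : ℕ) : ℝ) * δ ≤ α ∧ α - δ ≤ ((⌈α / δ⌉₊ - 1 : ℕ) : ℝ) * δ := by
  have h0 : 0 ≤ α / δ := div_nonneg hα hδ.le
  rcases Nat.eq_zero_or_pos ⌈α / δ⌉₊ with h | h
  · have h1 : α / δ ≤ 0 := by
      have := Nat.le_ceil (α / δ)
      rw [h] at this
      simpa using this
    have h2 : α = 0 := by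
      have h3 : α / δ = 0 := le_antisymm h1 h0
      rcases (div_eq_zero_iff.1 h3) with h4 | h4
      · exact h4
      · exact absurd h4 hδ.ne'
    rw [h, h2]
    simp
    exact hδ.le
  · have h1 : ((⌈α / δ⌉₊ - 1 : ℕ) : ℝ) = (⌈α / δ⌉₊ : ℝ) - 1 := by
      rw [Nat.cast_sub h]; simp
    rw [h1]
    have h2 := Nat.ceil_lt_add_one h0
    have h3 := Nat.le_ceil (α / δ)
    have h4 : α = (α / δ) * δ := by field_simp
    constructor
    · nlinarith
    · nlinarith

theorem stepApprox_le {L : ℝ → ℝ} {B : ℝ} (hB : 0 < B) (hL0 : L 0 = 0)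
    (hLm : MonotoneOn L (Ico 0 B)) (N : ℕ) {α : ℝ} (hα : α ∈ Ico 0 B) :
    stepApprox L B N α ≤ L α := by
  rw [stepApprox_eq hB hL0 N hα]
  have hδ : 0 < B / ((N : ℝ) + 1) := by positivity
  have h := grid_bounds hα.1 hδ
  refine hLm ⟨?_, ?_⟩ hα h.1
  · positivity
  · exact lt_of_le_of_lt h.1 hα.2

theorem stepApprox_tendsto {L : ℝ → ℝ} {B : ℝ} (hB : 0 < B) (hL0 : L 0 = 0)
    (hLc : ContinuousOn L (Ico 0 B)) {α : ℝ} (hα : α ∈ Ico 0 B) :
    Tendsto (fun N : ℕ => stepApprox L B N α) atTop (𝓝 (L α)) := by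
  have h1 : Tendsto (fun N : ℕ => ((⌈α / (B / ((N : ℝ) + 1))⌉₊ - 1 : ℕ) : ℝ) * (B / ((N : ℝ) + 1)))
      atTop (𝓝[Ico 0 B] α) := by
    refine tendsto_nhdsWithin_iff.2 ⟨?_, Eventually.of_forall fun N => ?_⟩
    · have hδ : Tendsto (fun N : ℕ => B / ((N : ℝ) + 1)) atTop (𝓝 0) :=
        tendsto_const_nhds.div_atTop (tendsto_atTop_add_const_right _ _ tendsto_natCast_atTop_atTop)
      have hlow : Tendsto (fun N : ℕ => α - B / ((N : ℝ) + 1)) atTop (𝓝 α) := by
        simpa using tendsto_const_nhds.sub hδ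
      refine tendsto_of_tendsto_of_tendsto_of_le_of_le hlow tendsto_const_nhds (fun N => ?_) (fun N => ?_)
      · exact (grid_bounds hα.1 (by positivity)).2
      · exact (grid_bounds hα.1 (by positivity)).1
    · have hδ : 0 < B / ((N : ℝ) + 1) := by positivity
      have h := grid_bounds hα.1 hδ
      exact ⟨by positivity, lt_of_le_of_lt h.1 hα.2⟩
  have h2 := (hLc α hα).tendsto.comp h1
  refine h2.congr fun N => ?_
  rw [stepApprox_eq hB hL0 N hα]
  rfl

/-- `trF` of the approximation. -/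
theorem trF_stepApprox {A : Matrix n n ℂ} (hA : A.IsHermitian) (L : ℝ → ℝ) (B : ℝ) (N : ℕ) :
    trF (stepApprox L B N) A =
      ∑ j ∈ Finset.range N, (L (((j : ℝ) + 1) * (B / (N + 1))) - L ((j : ℝ) * (B / (N + 1)))) *
        trF (stepF (((j : ℝ) + 1) * (B / (N + 1)))) A := by
  rw [trF_of_herm hA]
  simp_rw [trF_of_herm hA, Finset.mul_sum]
  unfold stepApprox
  rw [Finset.sum_comm]

/-- **Layer-cake inequality.** -/
theorem layer {X T : Matrix n n ℂ} (hX : X.PosSemidef) (hT : T.PosSemidef) {a : ℝ} (ha : 0 < a)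
    (haT : (T - a • X).PosSemidef) {L : ℝ → ℝ} (hL0 : L 0 = 0)
    (hLm : MonotoneOn L (Ico 0 (1 / a))) (hLc : ContinuousOn L (Ico 0 (1 / a))) :
    ∫⁻ t in Ioi (0 : ℝ), ENNReal.ofReal (L (X.trace.re / (t + T.trace.re))) ≤
      ∫⁻ t in Ioi (0 : ℝ), ENNReal.ofReal (trF L (conjS X T t)) := by
  have hB : 0 < 1 / a := by positivity
  have hx : 0 ≤ X.trace.re := by
    rw [trace_re_eq_sum hX.isHermitian]
    exact Finset.sum_nonneg fun i _ => hX.eigenvalues_nonneg i
  have hr : 0 ≤ T.trace.re := by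
    rw [trace_re_eq_sum hT.isHermitian]
    exact Finset.sum_nonneg fun i _ => hT.eigenvalues_nonneg i
  have hax : a * X.trace.re ≤ T.trace.re := by
    have h1 : 0 ≤ (T - a • X).trace.re := by
      rw [trace_re_eq_sum haT.isHermitian]
      exact Finset.sum_nonneg fun i _ => haT.eigenvalues_nonneg i
    rw [trace_sub, trace_smul] at h1
    simp only [Complex.sub_re, Complex.real_smul, Complex.mul_re, Complex.ofReal_re, Complex.ofReal_im,
      zero_mul, sub_zero] at h1
    linarith
  have hα : ∀ t ∈ Ioi (0 : ℝ), X.trace.re / (t + T.trace.re) ∈ Ico 0 (1 / a) := by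
    intro t ht
    have ht' : (0 : ℝ) < t := ht
    have h1 : 0 < t + T.trace.re := by linarith
    refine ⟨div_nonneg hx h1.le, ?_⟩
    rw [div_lt_div_iff₀ h1 ha]
    linarith
  -- Fatou
  have hfatou := lintegral_liminf_le' (μ := volume.restrict (Ioi (0 : ℝ))) (u := (atTop : Filter ℕ))
    (f := fun N t => ENNReal.ofReal (stepApprox L (1 / a) N (X.trace.re / (t + T.trace.re))))
    (fun N => by
      refine Measurable.aemeasurable ?_
      refine ENNReal.measurable_ofReal.comp ?_
      unfold stepApprox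
      refine Finset.measurable_sum _ fun j _ => ?_
      refine Measurable.const_mul ?_ _
      unfold stepF
      refine Measurable.ite ?_ measurable_const measurable_const
      refine measurableSet_lt measurable_const ?_
      exact measurable_const.div (measurable_id.add_const _))
  have hle : ∫⁻ t in Ioi (0 : ℝ), ENNReal.ofReal (L (X.trace.re / (t + T.trace.re))) =
      ∫⁻ t in Ioi (0 : ℝ), liminf
        (fun N => ENNReal.ofReal (stepApprox L (1 / a) N (X.trace.re / (t + T.trace.re)))) atTop := by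
    refine setLIntegral_congr_fun measurableSet_Ioi fun t ht => ?_
    have h1 := stepApprox_tendsto hB hL0 hLc (hα t ht)
    have h2 := (ENNReal.continuous_ofReal.tendsto _).comp h1
    exact h2.liminf_eq.symm
  rw [hle]
  refine hfatou.trans ?_
  refine liminf_le_of_le (by isBoundedDefault) fun b hb => ?_
  obtain ⟨N, hN⟩ := hb.exists
  refine hN.trans ?_
  -- one level
  have hgrid : ∀ j ∈ Finset.range N, ((j : ℝ) + 1) * (1 / a / ((N : ℝ) + 1)) ∈ Ico 0 (1 / a) := by
    intro j hj
    have hj' : j < N := Finset.mem_range.1 hj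
    have hj2 : (j : ℝ) + 1 < (N : ℝ) + 1 := by
      have : (j : ℝ) < N := by exact_mod_cast hj'
      linarith
    refine ⟨by positivity, ?_⟩
    rw [show ((j : ℝ) + 1) * (1 / a / ((N : ℝ) + 1)) = ((j : ℝ) + 1) / ((N : ℝ) + 1) * (1 / a) by ring]
    have h1 : ((j : ℝ) + 1) / ((N : ℝ) + 1) < 1 := by
      rw [div_lt_one (by positivity)]
      exact hj2
    nlinarith
  have hgrid' : ∀ j ∈ Finset.range N, (j : ℝ) * (1 / a / ((N : ℝ) + 1)) ∈ Ico 0 (1 / a) := by
    intro j hj
    have h1 := hgrid j hj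
    refine ⟨by positivity, lt_of_le_of_lt ?_ h1.2⟩
    have : 0 < 1 / a / ((N : ℝ) + 1) := by positivity
    nlinarith
  have hc : ∀ j ∈ Finset.range N, 0 ≤ L (((j : ℝ) + 1) * (1 / a / ((N : ℝ) + 1))) -
      L ((j : ℝ) * (1 / a / ((N : ℝ) + 1))) := by
    intro j hj
    have : 0 < 1 / a / ((N : ℝ) + 1) := by positivity
    have h2 := hLm (hgrid' j hj) (hgrid j hj) (by nlinarith)
    linarith
  have hg : ∀ j ∈ Finset.range N, 0 < ((j : ℝ) + 1) * (1 / a / ((N : ℝ) + 1)) := by
    intro j _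
    positivity
  have h3 := layer_fin hX.isHermitian hT (Finset.range N) _ _ hc hg
  unfold stepApprox
  refine h3.trans ?_
  refine setLIntegral_mono' measurableSet_Ioi fun t ht => ?_
  refine ENNReal.ofReal_le_ofReal ?_
  have hP : (conjS X T t).IsHermitian := conjS_herm hT.isHermitian hX.isHermitian t
  rw [← trF_stepApprox hP, trF_of_herm hP, trF_of_herm hP]
  refine Finset.sum_le_sum fun k _ => ?_
  exact stepApprox_le hB hL0 hLm N (conjS_eig_mem hX hT ha ht haT hP k)

end Crest.Agent.H8G
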