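/-
The key inequality (C) for generic parameters: integration of the level inequality against the
scalar identity, via the layer-cake inequality.
-/
import Crest.Agent.H8GLayer
import Crest.Agent.H8GInt

set_option autoImplicit false

namespace Crest.Agent.H8G

open Matrix MeasureTheory Set Filter Topology Crest.Quantum
open scoped ComplexOrder ENNReal

variable {n : Type*} [Fintype n] [DecidableEq n]

theorem sfun_eq {q t : ℝ} (hq : 0 ≤ q) (ht : 0 < t) :
    sfun q t = Real.log (t + q) - Real.log t - q / (1 + t) := by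
  unfold sfun
  have h1 : 1 + q / t = (t + q) / t := by field_simp
  rw [h1, Real.log_div (by positivity) ht.ne']

theorem tr_re_add_smul (a b : ℝ) (X Z : Matrix n n ℂ) :
    (a • X + b • Z).trace.re = a * X.trace.re + b * Z.trace.re := by
  simp [trace_add, trace_smul]

theorem tr_re_smul (a : ℝ) (X : Matrix n n ℂ) : (a • X).trace.re = a * X.trace.re := by
  simp [trace_smul]

theorem tr_re_add (X Z : Matrix n n ℂ) : (X + Z).trace.re = X.trace.re + Z.trace.re := by
  simp [trace_add]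

theorem tr_re_nonneg {X : Matrix n n ℂ} (hX : X.PosSemidef) : 0 ≤ X.trace.re := by
  rw [trace_re_eq_sum hX.isHermitian]
  exact Finset.sum_nonneg fun i _ => hX.eigenvalues_nonneg i

theorem tr_re_qb (A B C D : Matrix n n ℂ) : (qb A B C D).trace.re = A.trace.re + D.trace.re := by
  simp [trace, qb, Fintype.sum_prod_type, add_comm]

/-- nonnegativity of `trF` on the relevant spectrum -/
theorem trF_nonneg_of_mem {A : Matrix n n ℂ} (hA : A.IsHermitian) {L : ℝ → ℝ} {s : Set ℝ}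
    (hs : ∀ k, hA.eigenvalues k ∈ s) (hL : ∀ u ∈ s, 0 ≤ L u) : 0 ≤ trF L A := by
  rw [trF_of_herm hA]
  exact Finset.sum_nonneg fun k _ => hL _ (hs k)

/-- Integral of the six-term combination. -/
theorem int_combo {μ : Measure ℝ} {f g h k l m e : ℝ → ℝ} (hf : Integrable f μ) (hg : Integrable g μ)
    (hh : Integrable h μ) (hk : Integrable k μ) (hl : Integrable l μ) (hm : Integrable m μ)
    (he : Integrable e μ) (r r' : ℝ) :
    ∫ t, f t - r * (g t - h t) - k t - r' * (l t - m t) - e t ∂μ =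
      ∫ t, f t ∂μ - r * (∫ t, g t ∂μ - ∫ t, h t ∂μ) - ∫ t, k t ∂μ
        - r' * (∫ t, l t ∂μ - ∫ t, m t ∂μ) - ∫ t, e t ∂μ := by
  have h1 : Integrable (fun t => r * (g t - h t)) μ := (hg.sub hh).const_mul r
  have h2 : Integrable (fun t => r' * (l t - m t)) μ := (hl.sub hm).const_mul r'
  have h3 : Integrable (fun t => f t - r * (g t - h t)) μ := hf.sub h1
  have h4 : Integrable (fun t => f t - r * (g t - h t) - k t) μ := h3.sub hk
  have h5 : Integrable (fun t => f t - r * (g t - h t) - k t - r' * (l t - m t)) μ := h4.sub h2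
  rw [integral_sub h5 he, integral_sub h4 h2, integral_sub h3 hk, integral_sub hf h1,
    integral_const_mul, integral_const_mul, integral_sub hg hh, integral_sub hl hm]

/-- The integrated inequality. -/
theorem integrated {P : Par} (hP : P.Valid) {X Y Z : Matrix n n ℂ}
    (hJ : (qb X Y Yᴴ Z).PosSemidef)
    (hM : (qb (P.a • X + P.b • Z) (((Real.sqrt P.e2 : ℝ) : ℂ) • Y) (((Real.sqrt P.e2 : ℝ) : ℂ) • Yᴴ)
          (P.c • X + P.d • Z)).PosSemidef)
    (hx : X.trace.re = P.A) (hz : Z.trace.re = P.p) :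
    (Real.negMulLog P.l1 + P.l1) + (Real.negMulLog P.l2 + P.l2)
        - P.a / P.eps1 * ((Real.negMulLog (P.t1 + P.eps1 * P.A) + (P.t1 + P.eps1 * P.A)) -
            (Real.negMulLog P.t1 + P.t1))
        - (Real.negMulLog (P.b * P.p) + P.b * P.p)
        - P.d / P.eps2 * ((Real.negMulLog (P.t2 + P.eps2 * P.p) + (P.t2 + P.eps2 * P.p)) -
            (Real.negMulLog P.t2 + P.t2))
        - (Real.negMulLog (P.c * P.A) + P.c * P.A) ≤
      (vnEntropy (qb (P.a • X + P.b • Z) (((Real.sqrt P.e2 : ℝ) : ℂ) • Y)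
            (((Real.sqrt P.e2 : ℝ) : ℂ) • Yᴴ) (P.c • X + P.d • Z)) + (P.t1 + P.t2))
        - P.a / P.eps1 * ((vnEntropy (P.a • X + P.b • Z + P.eps1 • X) + (P.t1 + P.eps1 * P.A)) -
            (vnEntropy (P.a • X + P.b • Z) + P.t1))
        - (vnEntropy (P.b • Z) + P.b * P.p)
        - P.d / P.eps2 * ((vnEntropy (P.c • X + P.d • Z + P.eps2 • Z) + (P.t2 + P.eps2 * P.p)) -
            (vnEntropy (P.c • X + P.d • Z) + P.t2))
        - (vnEntropy (P.c • X) + P.c * P.A) := by
  have hXp : X.PosSemidef := qb_psd_left hJ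
  have hZp : Z.PosSemidef := qb_psd_right hJ
  obtain ⟨hl12, hlp, hBC, hB, hC, hl2, ht1l, ht2l, ht1, ht2, hkap, hw, hw1, hw2⟩ := Par.alg hP
  have ha := hP.ha
  have hb := hP.hb
  have hc := hP.hc
  have hd := hP.hd
  have hA := hP.hA
  have hp := hP.hp
  have hε₁ := Par.eps1_pos hP
  have hε₂ := Par.eps2_pos hP
  have hl1 : 0 < P.l1 := by
    have : P.l1 = P.t1 + P.B := by unfold Par.B; ring
    rw [this]; positivity
  set T₁ := P.a • X + P.b • Z with hT₁
  set T₂ := P.c • X + P.d • Z with hT₂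
  set s : ℂ := ((Real.sqrt P.e2 : ℝ) : ℂ) with hs
  set M := qb T₁ (s • Y) (s • Yᴴ) T₂ with hMdef
  have hT₁p : T₁.PosSemidef := (hXp.smul ha.le).add (hZp.smul hb.le)
  have hT₂p : T₂.PosSemidef := (hXp.smul hc.le).add (hZp.smul hd.le)
  have hQ₁p : (T₁ + P.eps1 • X).PosSemidef := hT₁p.add (hXp.smul hε₁.le)
  have hQ₂p : (T₂ + P.eps2 • Z).PosSemidef := hT₂p.add (hZp.smul hε₂.le)
  have hbZ : (P.b • Z).PosSemidef := hZp.smul hb.le
  have hcX : (P.c • X).PosSemidef := hXp.smul hc.le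
  have trT₁ : T₁.trace.re = P.t1 := by
    rw [hT₁, tr_re_add_smul, hx, hz]; rfl
  have trT₂ : T₂.trace.re = P.t2 := by
    rw [hT₂, tr_re_add_smul, hx, hz]; rfl
  have trM : M.trace.re = P.t1 + P.t2 := by
    rw [hMdef, tr_re_qb, trT₁, trT₂]
  have trQ₁ : (T₁ + P.eps1 • X).trace.re = P.t1 + P.eps1 * P.A := by
    rw [tr_re_add, trT₁, tr_re_smul, hx]
  have trQ₂ : (T₂ + P.eps2 • Z).trace.re = P.t2 + P.eps2 * P.p := by
    rw [tr_re_add, trT₂, tr_re_smul, hz]
  have trbZ : (P.b • Z).trace.re = P.b * P.p := by rw [tr_re_smul, hz]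
  have trcX : (P.c • X).trace.re = P.c * P.A := by rw [tr_re_smul, hx]
  -- the two integrands
  set D : ℝ → ℝ := fun t => gfun M t - P.a / P.eps1 * (gfun (T₁ + P.eps1 • X) t - gfun T₁ t)
      - gfun (P.b • Z) t - P.d / P.eps2 * (gfun (T₂ + P.eps2 • Z) t - gfun T₂ t)
      - gfun (P.c • X) t with hD
  set Ds : ℝ → ℝ := fun t => sfun P.l1 t + sfun P.l2 t
      - P.a / P.eps1 * (sfun (P.t1 + P.eps1 * P.A) t - sfun P.t1 t)
      - sfun (P.b * P.p) t - P.d / P.eps2 * (sfun (P.t2 + P.eps2 * P.p) t - sfun P.t2 t)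
      - sfun (P.c * P.A) t with hDs
  have hT1A : 0 ≤ P.t1 + P.eps1 * P.A := by positivity
  have hT2p : 0 ≤ P.t2 + P.eps2 * P.p := by positivity
  have hbp : 0 ≤ P.b * P.p := by positivity
  have hcA : 0 ≤ P.c * P.A := by positivity
  -- integrability and the values of the integrals
  have iD : IntegrableOn D (Ioi 0) :=
    (((((gfun_integrable hM).sub (((gfun_integrable hQ₁p).sub (gfun_integrable hT₁p)).const_mul _))).sub
      (gfun_integrable hbZ)).sub (((gfun_integrable hQ₂p).sub (gfun_integrable hT₂p)).const_mul _)).sub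
      (gfun_integrable hcX)
  have iDs : IntegrableOn Ds (Ioi 0) :=
    ((((((sfun_integrable hl1.le).add (sfun_integrable hl2.le)).sub
      (((sfun_integrable hT1A).sub (sfun_integrable ht1.le)).const_mul _))).sub
      (sfun_integrable hbp)).sub (((sfun_integrable hT2p).sub (sfun_integrable ht2.le)).const_mul _)).sub
      (sfun_integrable hcA)
  have vD : ∫ t in Ioi (0 : ℝ), D t = (vnEntropy M + (P.t1 + P.t2))
        - P.a / P.eps1 * ((vnEntropy (T₁ + P.eps1 • X) + (P.t1 + P.eps1 * P.A)) - (vnEntropy T₁ + P.t1))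
        - (vnEntropy (P.b • Z) + P.b * P.p)
        - P.d / P.eps2 * ((vnEntropy (T₂ + P.eps2 • Z) + (P.t2 + P.eps2 * P.p)) - (vnEntropy T₂ + P.t2))
        - (vnEntropy (P.c • X) + P.c * P.A) := by
    rw [hD]
    refine (int_combo (gfun_integrable hM) (gfun_integrable hQ₁p) (gfun_integrable hT₁p)
      (gfun_integrable hbZ) (gfun_integrable hQ₂p) (gfun_integrable hT₂p) (gfun_integrable hcX) _ _).trans ?_
    rw [gfun_integral hM, gfun_integral hQ₁p, gfun_integral hT₁p, gfun_integral hbZ,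
      gfun_integral hQ₂p, gfun_integral hT₂p, gfun_integral hcX, trM, trQ₁, trT₁, trbZ, trQ₂, trT₂, trcX]
  have vDs : ∫ t in Ioi (0 : ℝ), Ds t = (Real.negMulLog P.l1 + P.l1) + (Real.negMulLog P.l2 + P.l2)
        - P.a / P.eps1 * ((Real.negMulLog (P.t1 + P.eps1 * P.A) + (P.t1 + P.eps1 * P.A)) -
            (Real.negMulLog P.t1 + P.t1))
        - (Real.negMulLog (P.b * P.p) + P.b * P.p)
        - P.d / P.eps2 * ((Real.negMulLog (P.t2 + P.eps2 * P.p) + (P.t2 + P.eps2 * P.p)) -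
            (Real.negMulLog P.t2 + P.t2))
        - (Real.negMulLog (P.c * P.A) + P.c * P.A) := by
    rw [hDs]
    have i12 : Integrable (fun t => sfun P.l1 t + sfun P.l2 t) (volume.restrict (Ioi (0 : ℝ))) :=
      (sfun_integrable hl1.le).add (sfun_integrable hl2.le)
    refine (int_combo i12 (sfun_integrable hT1A)
      (sfun_integrable ht1.le) (sfun_integrable hbp) (sfun_integrable hT2p) (sfun_integrable ht2.le)
      (sfun_integrable hcA) _ _).trans ?_
    have h1 : ∫ t in Ioi (0 : ℝ), sfun P.l1 t + sfun P.l2 t =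
        (Real.negMulLog P.l1 + P.l1) + (Real.negMulLog P.l2 + P.l2) := by
      rw [integral_add (sfun_integrable hl1.le) (sfun_integrable hl2.le), sfun_integral hl1.le,
        sfun_integral hl2.le]
    rw [h1, sfun_integral hT1A, sfun_integral ht1.le, sfun_integral hbp, sfun_integral hT2p,
      sfun_integral ht2.le, sfun_integral hcA]
  rw [← vD, ← vDs]
  -- pointwise facts
  set N : ℝ := (Fintype.card n : ℝ) with hN
  have hcardM : ((Fintype.card (Bool × n) : ℕ) : ℝ) = 2 * N := by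
    rw [Fintype.card_prod, Fintype.card_bool]
    push_cast
    rfl
  have hpointD : ∀ t : ℝ, 0 < t → trF P.L1 (conjS X T₁ t) + trF P.L2 (conjS Z T₂ t) ≤ D t := by
    intro t ht
    have hlev := level_main hP hJ hXp hZp ht
    rw [← hT₁, ← hT₂, ← hs, ← hMdef] at hlev
    refine hlev.trans (le_of_eq ?_)
    simp only [hD]
    rw [gfun_eq_ldet hM ht, gfun_eq_ldet hQ₁p ht, gfun_eq_ldet hT₁p ht, gfun_eq_ldet hbZ ht,
      gfun_eq_ldet hQ₂p ht, gfun_eq_ldet hT₂p ht, gfun_eq_ldet hcX ht, trM, trQ₁, trT₁, trbZ, trQ₂, trT₂,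
      trcX, hcardM, ← hN, add_assoc (t • (1 : Matrix n n ℂ)) T₁, add_assoc (t • (1 : Matrix n n ℂ)) T₂]
    have h1 : P.a / P.eps1 * P.eps1 = P.a := by field_simp
    have h2 : P.d / P.eps2 * P.eps2 = P.d := by field_simp
    have h3 : P.t1 + P.t2 = (P.a + P.c) * P.A + (P.b + P.d) * P.p := by
      unfold Par.t1 Par.t2; ring
    rw [hP.hac, hP.hbd] at h3
    have h4 : P.t1 + P.t2 = P.A + P.p := by rw [h3]; ring
    set w := 1 / (1 + t) with hw'
    have e1 : ∀ y : ℝ, y / (1 + t) = y * w := fun y => by rw [hw']; ring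
    simp only [e1]
    have hac := hP.hac
    have hbd := hP.hbd
    linear_combination w * h4 - P.A * w * h1 - P.p * w * h2 - w * P.A * hac - w * P.p * hbd
  have hpointDs : ∀ t : ℝ, 0 < t →
      Ds t = P.L1 (P.A / (t + P.t1)) + P.L2 (P.p / (t + P.t2)) := by
    intro t ht
    rw [Par.scalar_id hP ht]
    simp only [hDs]
    rw [sfun_eq hl1.le ht, sfun_eq hl2.le ht, sfun_eq hT1A ht, sfun_eq ht1.le ht, sfun_eq hbp ht,
      sfun_eq hT2p ht, sfun_eq ht2.le ht, sfun_eq hcA ht, ← add_assoc t P.t1, ← add_assoc t P.t2]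
    have h1 : P.a / P.eps1 * P.eps1 = P.a := by field_simp
    have h2 : P.d / P.eps2 * P.eps2 = P.d := by field_simp
    have h3 : P.t1 + P.t2 = (P.a + P.c) * P.A + (P.b + P.d) * P.p := by
      unfold Par.t1 Par.t2; ring
    rw [hP.hac, hP.hbd] at h3
    have h4 : P.t1 + P.t2 = P.A + P.p := by rw [h3]; ring
    set w := 1 / (1 + t) with hw'
    have e1 : ∀ y : ℝ, y / (1 + t) = y * w := fun y => by rw [hw']; ring
    simp only [e1]
    have hac := hP.hac
    have hbd := hP.hbd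
    linear_combination -w * hl12 - w * h4 + P.A * w * h1 + P.p * w * h2 + w * P.A * hac + w * P.p * hbd
  -- nonnegativity
  have h1a : (0 : ℝ) < 1 / P.a := by positivity
  have h1d : (0 : ℝ) < 1 / P.d := by positivity
  have hL1nn : ∀ u ∈ Ico 0 (1 / P.a), 0 ≤ P.L1 u := fun u hu => by
    have := Par.L1_mono hP ⟨le_rfl, h1a⟩ hu hu.1
    rwa [Par.L1_zero hP] at this
  have hL2nn : ∀ u ∈ Ico 0 (1 / P.d), 0 ≤ P.L2 u := fun u hu => by
    have := Par.L2_mono hP ⟨le_rfl, h1d⟩ hu hu.1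
    rwa [Par.L2_zero hP] at this
  have haT : (T₁ - P.a • X).PosSemidef := by
    have : T₁ - P.a • X = P.b • Z := by rw [hT₁]; abel
    rw [this]; exact hbZ
  have hdT : (T₂ - P.d • Z).PosSemidef := by
    have : T₂ - P.d • Z = P.c • X := by rw [hT₂]; abel
    rw [this]; exact hcX
  have hF1 : ∀ t : ℝ, 0 < t → 0 ≤ trF P.L1 (conjS X T₁ t) := fun t ht =>
    trF_nonneg_of_mem (conjS_herm hT₁p.isHermitian hXp.isHermitian t)
      (conjS_eig_mem hXp hT₁p ha ht haT _) hL1nn
  have hF2 : ∀ t : ℝ, 0 < t → 0 ≤ trF P.L2 (conjS Z T₂ t) := fun t ht =>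
    trF_nonneg_of_mem (conjS_herm hT₂p.isHermitian hZp.isHermitian t)
      (conjS_eig_mem hZp hT₂p hd ht hdT _) hL2nn
  have hDnn : ∀ t ∈ Ioi (0 : ℝ), 0 ≤ D t := fun t ht =>
    (add_nonneg (hF1 t ht) (hF2 t ht)).trans (hpointD t ht)
  have hDsnn : ∀ t ∈ Ioi (0 : ℝ), 0 ≤ Ds t := fun t ht => by
    have ht' : (0 : ℝ) < t := ht
    rw [hpointDs t ht']
    exact add_nonneg (hL1nn _ (Par.al_mem hP ht'.le)) (hL2nn _ (Par.be_mem hP ht'.le))
  -- the chain of lower integrals
  have hchain : ∫⁻ t in Ioi (0 : ℝ), ENNReal.ofReal (Ds t) ≤ ∫⁻ t in Ioi (0 : ℝ), ENNReal.ofReal (D t) := by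
    have hcont : AEMeasurable (fun t : ℝ => ENNReal.ofReal (P.L1 (P.A / (t + P.t1))))
        (volume.restrict (Ioi (0 : ℝ))) := by
      refine ENNReal.measurable_ofReal.comp_aemeasurable ?_
      refine ContinuousOn.aemeasurable ?_ measurableSet_Ioi
      refine (Par.L1_cont hP).comp ?_ ?_
      · intro t ht
        have ht' : (0 : ℝ) < t := ht
        refine ContinuousAt.continuousWithinAt ?_
        refine continuousAt_const.div (continuousAt_id.add continuousAt_const) ?_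
        exact (by positivity : 0 < t + P.t1).ne'
      · intro t ht
        exact Par.al_mem hP (le_of_lt ht)
    have h1 : ∫⁻ t in Ioi (0 : ℝ), ENNReal.ofReal (Ds t) =
        ∫⁻ t in Ioi (0 : ℝ), (ENNReal.ofReal (P.L1 (P.A / (t + P.t1))) +
          ENNReal.ofReal (P.L2 (P.p / (t + P.t2)))) := by
      refine setLIntegral_congr_fun measurableSet_Ioi fun t ht => ?_
      have ht' : (0 : ℝ) < t := ht
      rw [hpointDs t ht', ENNReal.ofReal_add (hL1nn _ (Par.al_mem hP ht'.le))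
        (hL2nn _ (Par.be_mem hP ht'.le))]
    rw [h1, lintegral_add_left' hcont]
    have hla := layer hXp hT₁p ha haT (Par.L1_zero hP) (Par.L1_mono hP) (Par.L1_cont hP)
    have hlb := layer hZp hT₂p hd hdT (Par.L2_zero hP) (Par.L2_mono hP) (Par.L2_cont hP)
    rw [hx, trT₁] at hla
    rw [hz, trT₂] at hlb
    refine (add_le_add hla hlb).trans ((le_lintegral_add _ _).trans ?_)
    refine setLIntegral_mono' measurableSet_Ioi fun t ht => ?_
    rw [← ENNReal.ofReal_add (hF1 t ht) (hF2 t ht)]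
    exact ENNReal.ofReal_le_ofReal (hpointD t ht)
  rw [← ofReal_integral_eq_lintegral_ofReal iDs ((ae_restrict_iff' measurableSet_Ioi).2
      (Eventually.of_forall hDsnn)),
    ← ofReal_integral_eq_lintegral_ofReal iD ((ae_restrict_iff' measurableSet_Ioi).2
      (Eventually.of_forall hDnn))] at hchain
  exact (ENNReal.ofReal_le_ofReal_iff (setIntegral_nonneg measurableSet_Ioi hDnn)).1 hchain

/-- **Key inequality for generic parameters.** -/
theorem key_generic {P : Par} (hP : P.Valid) {X Y Z : Matrix n n ℂ}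
    (hJ : (qb X Y Yᴴ Z).PosSemidef)
    (hM : (qb (P.a • X + P.b • Z) (((Real.sqrt P.e2 : ℝ) : ℂ) • Y) (((Real.sqrt P.e2 : ℝ) : ℂ) • Yᴴ)
          (P.c • X + P.d • Z)).PosSemidef)
    (hx : X.trace.re = P.A) (hz : Z.trace.re = P.p) :
    Real.negMulLog P.l1 + Real.negMulLog P.l2 + (vnEntropy X - Real.negMulLog P.A) +
        (vnEntropy Z - Real.negMulLog P.p) ≤
      vnEntropy (qb (P.a • X + P.b • Z) (((Real.sqrt P.e2 : ℝ) : ℂ) • Y)
            (((Real.sqrt P.e2 : ℝ) : ℂ) • Yᴴ) (P.c • X + P.d • Z)) := by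
  have hXp : X.PosSemidef := qb_psd_left hJ
  have hZp : Z.PosSemidef := qb_psd_right hJ
  have hint := integrated hP hJ hM hx hz
  obtain ⟨hl12, hlp, hBC, hB, hC, hl2, ht1l, ht2l, ht1, ht2, hkap, hw, hw1, hw2⟩ := Par.alg hP
  have ha := hP.ha
  have hb := hP.hb
  have hc := hP.hc
  have hd := hP.hd
  have hA := hP.hA
  have hp := hP.hp
  have hε₁ := Par.eps1_pos hP
  have hε₂ := Par.eps2_pos hP
  set T₁ := P.a • X + P.b • Z with hT₁
  set T₂ := P.c • X + P.d • Z with hT₂
  have hT₁p : T₁.PosSemidef := (hXp.smul ha.le).add (hZp.smul hb.le)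
  have hT₂p : T₂.PosSemidef := (hXp.smul hc.le).add (hZp.smul hd.le)
  have trT₁ : T₁.trace.re = P.t1 := by
    rw [hT₁, tr_re_add_smul, hx, hz]; rfl
  have trT₂ : T₂.trace.re = P.t2 := by
    rw [hT₂, tr_re_add_smul, hx, hz]; rfl
  -- concavity for `T₁ + ε X`, `T₂ + ε' Z`
  have h1 := vnEntropy_add_ge hT₁p (hXp.smul hε₁.le)
  have h2 := vnEntropy_add_ge hT₂p (hZp.smul hε₂.le)
  rw [trT₁, tr_re_smul, hx, Real.negMulLog_mul, vnEntropy_smul hXp hε₁.le, hx] at h1
  rw [trT₂, tr_re_smul, hz, Real.negMulLog_mul, vnEntropy_smul hZp hε₂.le, hz] at h2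
  -- multiply by the coefficients
  have h1' := mul_le_mul_of_nonneg_left h1 (div_pos ha hε₁).le
  have h2' := mul_le_mul_of_nonneg_left h2 (div_pos hd hε₂).le
  have hsm1 := vnEntropy_smul hZp hb.le
  have hsm2 := vnEntropy_smul hXp hc.le
  rw [hz] at hsm1
  rw [hx] at hsm2
  rw [hsm1, hsm2, Real.negMulLog_mul P.b P.p, Real.negMulLog_mul P.c P.A] at hint
  have e1 : P.a / P.eps1 * P.eps1 = P.a := by field_simp
  have e2 : P.d / P.eps2 * P.eps2 = P.d := by field_simp
  have hac := hP.hac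
  have hbd := hP.hbd
  have h3 : P.t1 + P.t2 = P.A + P.p := by
    have : P.t1 + P.t2 = (P.a + P.c) * P.A + (P.b + P.d) * P.p := by
      unfold Par.t1 Par.t2; ring
    rw [this, hac, hbd]; ring
  linear_combination hint + h1' + h2' - (vnEntropy X - Real.negMulLog P.A) * e1
    - (vnEntropy X - Real.negMulLog P.A) * hac - (vnEntropy Z - Real.negMulLog P.p) * e2
    - (vnEntropy Z - Real.negMulLog P.p) * hbd - hl12

end Crest.Agent.H8G
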