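/-
GADC reduction, part 3: the tensor power of the qubit map as an iterated `qubitTensor`, and complete positivity via Kraus.
-/
import Crest.Agent.H8GDefs

set_option autoImplicit false

namespace Crest.Agent.H8G

open Matrix Crest.Quantum Set Crest.MathPhysics.AmpDamp
open scoped ComplexOrder

/-- The splitting of a bit string into its first bit and the rest (`Fin.cons`). -/
def splitBit (n : ℕ) : (Fin (n + 1) → Bool) ≃ Bool × (Fin n → Bool) :=
  (Fin.consEquiv fun _ => Bool).symm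

@[simp] lemma splitBit_symm_zero (n : ℕ) (p : Bool × (Fin n → Bool)) :
    (splitBit n).symm p 0 = p.1 := rfl

@[simp] lemma splitBit_symm_succ (n : ℕ) (p : Bool × (Fin n → Bool)) (i : Fin n) :
    (splitBit n).symm p i.succ = p.2 i := rfl

/-- `qubitPower (n+1) Φ` is `Φ ⊗ qubitPower n Φ` after reindexing (for every `Φ`: both are explicit formulas in the `qubitCoeff`).
`Fin.prod_univ_succ`, and the sums over `Fin (n+1) → Bool` split as `Bool × (Fin n → Bool)` (`Equiv.sum_comp`, `Fintype.sum_prod_type`). -/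
theorem qubitPower_succ (n : ℕ) (Φ : Matrix Bool Bool ℂ → Matrix Bool Bool ℂ)
    (M : Matrix (Fin (n + 1) → Bool) (Fin (n + 1) → Bool) ℂ) :
    Matrix.reindex (splitBit n) (splitBit n) (qubitPower (n + 1) Φ M) =
      qubitTensor Φ (qubitPower n Φ) (Matrix.reindex (splitBit n) (splitBit n) M) := by
  ext p q
  simp only [Matrix.reindex_apply, Matrix.submatrix_apply, qubitPower, qubitTensor, Matrix.of_apply]
  rw [← Equiv.sum_comp (splitBit n).symm]
  rw [Fintype.sum_prod_type]
  refine Finset.sum_congr rfl fun s' _ => ?_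
  have step : ∀ (σ'' : Fin n → Bool),
      (∑ τ' : Fin (n + 1) → Bool, (∏ i, qubitCoeff Φ ((splitBit n).symm p i) ((splitBit n).symm q i)
        ((splitBit n).symm (s', σ'') i) (τ' i)) * M ((splitBit n).symm (s', σ'')) τ') =
      ∑ t' : Bool, ∑ τ'' : Fin n → Bool,
        qubitCoeff Φ p.1 q.1 s' t' * ((∏ i, qubitCoeff Φ (p.2 i) (q.2 i) (σ'' i) (τ'' i)) *
          M ((splitBit n).symm (s', σ'')) ((splitBit n).symm (t', τ''))) := by
    intro σ''
    rw [← Equiv.sum_comp (splitBit n).symm, Fintype.sum_prod_type]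
    refine Finset.sum_congr rfl fun t' _ => Finset.sum_congr rfl fun τ'' _ => ?_
    rw [Fin.prod_univ_succ]
    simp only [splitBit_symm_zero, splitBit_symm_succ]
    ring
  simp only [step]
  rw [Finset.sum_comm]
  refine Finset.sum_congr rfl fun t' _ => ?_
  rw [Finset.mul_sum]
  refine Finset.sum_congr rfl fun σ'' _ => ?_
  simp only [block, Matrix.of_apply, Matrix.submatrix_apply, Matrix.reindex_apply]
  rw [Finset.mul_sum]

/-- The (real) Kraus entries of the generalized amplitude damping map. -/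
noncomputable def krausG (γ ν : ℝ) (l : Fin 4) (s s' : Bool) : ℝ :=
  match l, s, s' with
  | 0, false, false => Real.sqrt (1 - ν)
  | 0, true, true => Real.sqrt (1 - ν) * Real.sqrt (1 - γ)
  | 1, false, true => Real.sqrt (1 - ν) * Real.sqrt γ
  | 2, false, false => Real.sqrt ν * Real.sqrt (1 - γ)
  | 2, true, true => Real.sqrt ν
  | 3, true, false => Real.sqrt ν * Real.sqrt γ
  | _, _, _ => 0

lemma qubitCoeff_gad_eq_kraus {γ ν : ℝ} (hγ : γ ∈ Icc (0 : ℝ) 1) (hν : ν ∈ Icc (0 : ℝ) 1)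
    (s t s' t' : Bool) :
    qubitCoeff (gadMap γ ν) s t s' t' =
      ∑ l : Fin 4, ((krausG γ ν l s s' * krausG γ ν l t t' : ℝ) : ℂ) := by
  have h1 : Real.sqrt (1 - ν) ^ 2 = 1 - ν := Real.sq_sqrt (by linarith [hν.2])
  have h2 : Real.sqrt (1 - γ) ^ 2 = 1 - γ := Real.sq_sqrt (by linarith [hγ.2])
  have h3 : Real.sqrt ν ^ 2 = ν := Real.sq_sqrt hν.1
  have h4 : Real.sqrt γ ^ 2 = γ := Real.sq_sqrt hγ.1
  have key : Real.sqrt (1 - γ) = Real.sqrt (1 - ν) * (Real.sqrt (1 - ν) * Real.sqrt (1 - γ)) +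
      Real.sqrt ν * Real.sqrt (1 - γ) * Real.sqrt ν := by
    have : Real.sqrt (1 - ν) * (Real.sqrt (1 - ν) * Real.sqrt (1 - γ)) +
        Real.sqrt ν * Real.sqrt (1 - γ) * Real.sqrt ν =
        (Real.sqrt (1 - ν) ^ 2 + Real.sqrt ν ^ 2) * Real.sqrt (1 - γ) := by ring
    rw [this, h1, h3]; ring
  have key' : ((Real.sqrt (1 - γ) : ℝ) : ℂ) =
      (Real.sqrt (1 - ν) : ℂ) * ((Real.sqrt (1 - ν) : ℂ) * (Real.sqrt (1 - γ) : ℂ)) +
      (Real.sqrt ν : ℂ) * (Real.sqrt (1 - γ) : ℂ) * (Real.sqrt ν : ℂ) := by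
    exact_mod_cast key
  rw [Fin.sum_univ_four]
  rw [← Complex.ofReal_add, ← Complex.ofReal_add, ← Complex.ofReal_add]
  cases s <;> cases t <;> cases s' <;> cases t' <;>
    simp [qubitCoeff, gadMap, krausG, Matrix.single] <;>
    first
    | (norm_cast; nlinarith [h1, h2, h3, h4])
    | linear_combination key'

/-- The sum of the transfer coefficients over a diagonal output. -/
lemma sum_qubitCoeff_gad (γ ν : ℝ) (s' t' : Bool) :
    ∑ s : Bool, qubitCoeff (gadMap γ ν) s s s' t' = if s' = t' then 1 else 0 := by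
  cases s' <;> cases t' <;>
    simp [qubitCoeff, gadMap, Matrix.single] <;> push_cast <;> ring

lemma gadMap_additive (γ ν : ℝ) (A B : Matrix Bool Bool ℂ) :
    gadMap γ ν (A + B) = gadMap γ ν A + gadMap γ ν B := by
  ext s t
  cases s <;> cases t <;> simp [gadMap] <;> ring

theorem qubitPower_linear (n : ℕ) (Φ : Matrix Bool Bool ℂ → Matrix Bool Bool ℂ) :
    IsLinearMap ℂ (qubitPower n Φ) := by
  refine ⟨fun A B => ?_, fun c A => ?_⟩
  · ext σ τ
    simp only [qubitPower, Matrix.of_apply, Matrix.add_apply, mul_add, Finset.sum_add_distrib]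
  · ext σ τ
    simp only [qubitPower, Matrix.of_apply, Matrix.smul_apply, smul_eq_mul, Finset.mul_sum]
    refine Finset.sum_congr rfl fun _ _ => Finset.sum_congr rfl fun _ _ => ?_
    ring

theorem qubitPower_gad_trace (γ ν : ℝ) (n : ℕ) :
    IsTracePreserving (qubitPower n (gadMap γ ν)) := by
  intro M
  simp only [Matrix.trace, Matrix.diag_apply, qubitPower, Matrix.of_apply]
  rw [Finset.sum_comm]
  refine Finset.sum_congr rfl fun σ' _ => ?_
  rw [Finset.sum_comm]
  simp only [← Finset.sum_mul]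
  have h : ∀ τ' : Fin n → Bool,
      (∑ σ : Fin n → Bool, ∏ i, qubitCoeff (gadMap γ ν) (σ i) (σ i) (σ' i) (τ' i)) =
        if σ' = τ' then 1 else 0 := by
    intro τ'
    have := (Finset.prod_univ_sum (fun _ : Fin n => (Finset.univ : Finset Bool))
      (fun i s => qubitCoeff (gadMap γ ν) s s (σ' i) (τ' i))).symm
    rw [Fintype.piFinset_univ] at this
    rw [this]
    simp only [sum_qubitCoeff_gad]
    by_cases hs : σ' = τ'
    · simp [hs]
    · obtain ⟨i, hi⟩ := Function.ne_iff.mp hs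
      rw [if_neg hs]
      exact Finset.prod_eq_zero (Finset.mem_univ i) (by simp [hi])
  simp only [h, ite_mul, one_mul, zero_mul, Finset.sum_ite_eq, Finset.mem_univ, if_true]

/-- The tensor power Kraus operators, acting on `k` auxiliary levels trivially. -/
noncomputable def krausP (γ ν : ℝ) (n k : ℕ) (L : Fin n → Fin 4) :
    Matrix (Fin k × (Fin n → Bool)) (Fin k × (Fin n → Bool)) ℂ :=
  Matrix.of fun p q => if p.1 = q.1 then ((∏ i, krausG γ ν (L i) (p.2 i) (q.2 i) : ℝ) : ℂ) else 0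

theorem qubitPower_gad_cp {γ ν : ℝ} (hγ : γ ∈ Icc (0 : ℝ) 1) (hν : ν ∈ Icc (0 : ℝ) 1) (n : ℕ) :
    IsCompletelyPositive (qubitPower n (gadMap γ ν)) := by
  intro k M hM
  have key : blockwise (k := Fin k) (qubitPower n (gadMap γ ν)) M =
      ∑ L : Fin n → Fin 4, krausP γ ν n k L * M * (krausP γ ν n k L)ᴴ := by
    ext ⟨a, σ⟩ ⟨b, τ⟩
    have hcoef : ∀ σ' τ' : Fin n → Bool,
        (∏ i, qubitCoeff (gadMap γ ν) (σ i) (τ i) (σ' i) (τ' i)) =
          ∑ L : Fin n → Fin 4, ((∏ i, krausG γ ν (L i) (σ i) (σ' i) : ℝ) : ℂ) *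
            ((∏ i, krausG γ ν (L i) (τ i) (τ' i) : ℝ) : ℂ) := by
      intro σ' τ'
      simp only [qubitCoeff_gad_eq_kraus hγ hν]
      have := (Finset.prod_univ_sum (fun _ : Fin n => (Finset.univ : Finset (Fin 4)))
        (fun i l => ((krausG γ ν l (σ i) (σ' i) * krausG γ ν l (τ i) (τ' i) : ℝ) : ℂ)))
      rw [Fintype.piFinset_univ] at this
      rw [this]
      refine Finset.sum_congr rfl fun L _ => ?_
      rw [← Complex.ofReal_mul, ← Finset.prod_mul_distrib, Complex.ofReal_prod]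
    have hL : ∀ L : Fin n → Fin 4,
        (krausP γ ν n k L * M * (krausP γ ν n k L)ᴴ) (a, σ) (b, τ) =
          ∑ σ' : Fin n → Bool, ∑ τ' : Fin n → Bool,
            ((∏ i, krausG γ ν (L i) (σ i) (σ' i) : ℝ) : ℂ) *
              ((∏ i, krausG γ ν (L i) (τ i) (τ' i) : ℝ) : ℂ) * M (a, σ') (b, τ') := by
      intro L
      simp only [Matrix.mul_apply, Fintype.sum_prod_type, Matrix.conjTranspose_apply, krausP,
        Matrix.of_apply]
      have hstar : ∀ (c : Fin k) (τ' : Fin n → Bool), star (if b = c then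
            ((∏ i, krausG γ ν (L i) (τ i) (τ' i) : ℝ) : ℂ) else 0) =
          if b = c then ((∏ i, krausG γ ν (L i) (τ i) (τ' i) : ℝ) : ℂ) else 0 := by
        intro c τ'
        split_ifs
        · simp
        · simp
      simp only [hstar]
      simp only [ite_mul, zero_mul, Finset.sum_ite_eq, Finset.mem_univ, if_true, mul_ite, mul_zero,
        Finset.sum_const_zero, Finset.sum_ite_eq']
      rw [Finset.sum_eq_single b (fun c _ hc => Finset.sum_eq_zero fun _ _ => if_neg (Ne.symm hc))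
        (fun h => absurd (Finset.mem_univ b) h)]
      simp only [if_true]
      have hin : ∀ x₁ : Fin n → Bool,
          (∑ x₂, ∑ x₃, if a = x₂ then ((∏ x, krausG γ ν (L x) (σ x) (x₃ x) : ℝ) : ℂ) *
              M (x₂, x₃) (b, x₁) else 0) =
            ∑ x₃ : Fin n → Bool, ((∏ x, krausG γ ν (L x) (σ x) (x₃ x) : ℝ) : ℂ) * M (a, x₃) (b, x₁) := by
        intro x₁
        rw [Finset.sum_eq_single a (fun c _ hc => Finset.sum_eq_zero fun _ _ => if_neg (Ne.symm hc))
          (fun h => absurd (Finset.mem_univ a) h)]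
        simp only [if_true]
      simp only [hin, Finset.sum_mul]
      rw [Finset.sum_comm]
      refine Finset.sum_congr rfl fun _ _ => Finset.sum_congr rfl fun _ _ => ?_
      ring
    simp only [blockwise, qubitPower, block, Matrix.of_apply, hcoef, Matrix.sum_apply, hL,
      Finset.sum_mul]
    calc _ = ∑ x : Fin n → Bool, ∑ i : Fin n → Fin 4, ∑ x₁ : Fin n → Bool,
            ((∏ i₁, krausG γ ν (i i₁) (σ i₁) (x i₁) : ℝ) : ℂ) *
              ((∏ i₁, krausG γ ν (i i₁) (τ i₁) (x₁ i₁) : ℝ) : ℂ) * M (a, x) (b, x₁) :=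
          Finset.sum_congr rfl fun _ _ => Finset.sum_comm
      _ = _ := Finset.sum_comm
  rw [key]
  exact Matrix.posSemidef_sum _ fun L _ => hM.mul_mul_conjTranspose_same _

/-- `qubitPower n (gadMap γ ν)` is a channel. -/
theorem qubitPower_gad_isChannel {γ ν : ℝ} (hγ : γ ∈ Icc (0 : ℝ) 1) (hν : ν ∈ Icc (0 : ℝ) 1) (n : ℕ) :
    IsChannel (qubitPower n (gadMap γ ν)) :=
  ⟨qubitPower_linear n _, qubitPower_gad_cp hγ hν n, qubitPower_gad_trace γ ν n⟩

end Crest.Agent.H8G
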