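/-
Scalar facts on the GADC rate (subtask T4).
-/
import Crest.Agent.H8GDefs

set_option autoImplicit false

namespace Crest.Agent.H8G

open Set Crest.MathPhysics.AmpDamp

/-- Determinant of the output of a pure qubit state with excited population `p`. -/
noncomputable def vdet (γ ν p : ℝ) : ℝ := γ * ν * (1 - ν) + γ * (1 - γ) * (p - ν) ^ 2

/-- Output entropy of a pure qubit state. -/
noncomputable def Fgad (γ ν p : ℝ) : ℝ :=
  Real.binEntropy ((1 + Real.sqrt (1 - 4 * vdet γ ν p)) / 2)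

theorem gadRate_eq (γ ν p : ℝ) :
    gadRate γ ν p = Real.binEntropy ((1 - γ) * p + γ * ν) - Fgad γ ν p := rfl

/-- `0 ≤ v ≤ 1/4` for `γ,ν,p ∈ [0,1]`: indeed `v = t₁t₂ - e²p(1-p)` with `t₂=(1-γ)p+γν`, `t₁=1-t₂`, so `v ≤ t₁t₂ ≤ 1/4`; and
`v ≥ 0` from the explicit formula. -/
theorem vdet_mem {γ ν p : ℝ} (hγ : γ ∈ Icc (0 : ℝ) 1) (hν : ν ∈ Icc (0 : ℝ) 1) (hp : p ∈ Icc (0 : ℝ) 1) :
    0 ≤ vdet γ ν p ∧ vdet γ ν p ≤ 1 / 4 := by
  obtain ⟨h0, h1⟩ := hγ
  obtain ⟨n0, n1⟩ := hν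
  obtain ⟨p0, p1⟩ := hp
  have h1g : 0 ≤ 1 - γ := by linarith
  have h1n : 0 ≤ 1 - ν := by linarith
  have h1p : 0 ≤ 1 - p := by linarith
  constructor
  · unfold vdet
    have a1 : 0 ≤ γ * ν * (1 - ν) := mul_nonneg (mul_nonneg h0 n0) h1n
    have a2 : 0 ≤ γ * (1 - γ) * (p - ν) ^ 2 := mul_nonneg (mul_nonneg h0 h1g) (sq_nonneg _)
    linarith
  · have key : vdet γ ν p
        = ((1 - γ) * p + γ * ν) * (1 - ((1 - γ) * p + γ * ν)) - (1 - γ) * (p * (1 - p)) := by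
      unfold vdet; ring
    have a3 : 0 ≤ (1 - γ) * (p * (1 - p)) := mul_nonneg h1g (mul_nonneg p0 h1p)
    rw [key]
    nlinarith [sq_nonneg (((1 - γ) * p + γ * ν) - 1 / 2)]

/-- Wootters' function. -/
noncomputable def Ew (C : ℝ) : ℝ := Real.binEntropy ((1 + Real.sqrt (1 - C ^ 2)) / 2)

/-- its derivative on `(0,1)`. -/
noncomputable def Gw (C : ℝ) : ℝ :=
  C / Real.sqrt (1 - C ^ 2) *
    ((Real.log (1 + Real.sqrt (1 - C ^ 2)) - Real.log (1 - Real.sqrt (1 - C ^ 2))) / 2)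

private lemma w_facts {C : ℝ} (h0 : 0 < C) (h1 : C < 1) :
    0 < Real.sqrt (1 - C ^ 2) ∧ Real.sqrt (1 - C ^ 2) < 1 ∧
      Real.sqrt (1 - C ^ 2) ^ 2 = 1 - C ^ 2 := by
  have hpos : 0 < 1 - C ^ 2 := by nlinarith
  refine ⟨Real.sqrt_pos.mpr hpos, ?_, Real.sq_sqrt hpos.le⟩
  rw [Real.sqrt_lt' one_pos]
  nlinarith

private lemma hasDerivAt_w {C : ℝ} (h0 : 0 < C) (h1 : C < 1) :
    HasDerivAt (fun C : ℝ => Real.sqrt (1 - C ^ 2)) (-C / Real.sqrt (1 - C ^ 2)) C := by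
  have hpos : (1 - C ^ 2) ≠ 0 := by
    have : 0 < 1 - C ^ 2 := by nlinarith
    exact this.ne'
  have h2 : HasDerivAt (fun C : ℝ => 1 - C ^ 2) (-(2 * C)) C := by
    have := ((hasDerivAt_id C).pow 2).const_sub 1
    simpa using this
  have := h2.sqrt hpos
  convert this using 1
  ring

private lemma hasDerivAt_Ew {C : ℝ} (h0 : 0 < C) (h1 : C < 1) :
    HasDerivAt Ew (Gw C) C := by
  obtain ⟨wpos, wlt, wsq⟩ := w_facts h0 h1
  set w := Real.sqrt (1 - C ^ 2) with hw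
  have hx : HasDerivAt (fun C : ℝ => (1 + Real.sqrt (1 - C ^ 2)) / 2)
      (-C / w / 2) C := by
    have := ((hasDerivAt_w h0 h1).const_add 1).div_const 2
    simpa [← hw] using this
  have hx0 : (1 + w) / 2 ≠ 0 := by positivity
  have hx1 : (1 + w) / 2 ≠ 1 := by
    intro h; linarith
  have hb := Real.hasDerivAt_binEntropy hx0 hx1
  have h3 : HasDerivAt (fun C : ℝ => Real.binEntropy ((1 + Real.sqrt (1 - C ^ 2)) / 2))
      ((Real.log (1 - (1 + w) / 2) - Real.log ((1 + w) / 2)) * (-C / w / 2)) C :=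
    HasDerivAt.comp (h₂ := Real.binEntropy) C hb hx
  have e1 : Real.log ((1 + w) / 2) = Real.log (1 + w) - Real.log 2 :=
    Real.log_div (by positivity) (by norm_num)
  have e2 : Real.log (1 - (1 + w) / 2) = Real.log (1 - w) - Real.log 2 := by
    rw [show 1 - (1 + w) / 2 = (1 - w) / 2 by ring]
    exact Real.log_div (by linarith) (by norm_num)
  have h4 : (Real.log (1 - (1 + w) / 2) - Real.log ((1 + w) / 2)) * (-C / w / 2) = Gw C := by
    unfold Gw
    rw [← hw, e1, e2]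
    field_simp
    ring
  rw [← h4]
  exact h3

/-- `artanh w ≥ w`. -/
private lemma artanh_ge {w : ℝ} (h0 : 0 ≤ w) (h1 : w < 1) :
    2 * w ≤ Real.log (1 + w) - Real.log (1 - w) := by
  have hs := Real.hasSum_log_sub_log_of_abs_lt_one (x := w) (by rw [abs_of_nonneg h0]; exact h1)
  have := le_hasSum hs 0 (fun k _ => by positivity)
  simpa using this

private lemma hasDerivAt_Gw {C : ℝ} (h0 : 0 < C) (h1 : C < 1) :
    HasDerivAt Gw
      ((((Real.log (1 + Real.sqrt (1 - C ^ 2)) - Real.log (1 - Real.sqrt (1 - C ^ 2))) / 2)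
        - Real.sqrt (1 - C ^ 2)) / Real.sqrt (1 - C ^ 2) ^ 3) C := by
  obtain ⟨wpos, wlt, wsq⟩ := w_facts h0 h1
  have hW := hasDerivAt_w h0 h1
  set w := Real.sqrt (1 - C ^ 2) with hw
  have h1w : 0 < 1 + w := by linarith
  have h2w : 0 < 1 - w := by linarith
  have hl1 : HasDerivAt (fun C : ℝ => Real.log (1 + Real.sqrt (1 - C ^ 2))) ((-C / w) / (1 + w)) C :=
    (hW.const_add 1).log (by simpa [← hw] using h1w.ne') |>.congr_deriv (by simp [← hw])
  have hl2 : HasDerivAt (fun C : ℝ => Real.log (1 - Real.sqrt (1 - C ^ 2))) ((C / w) / (1 - w)) C := by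
    have := (hW.const_sub 1).log (by simpa [← hw] using h2w.ne')
    refine this.congr_deriv ?_
    simp only [← hw]
    ring
  have hz := (hl1.fun_sub hl2).div_const 2
  have hq : HasDerivAt (fun C : ℝ => C / Real.sqrt (1 - C ^ 2))
      ((1 * w - C * (-C / w)) / w ^ 2) C := by
    exact (hasDerivAt_id' C).fun_div hW wpos.ne'
  have := hq.fun_mul hz
  unfold Gw
  refine this.congr_deriv ?_
  have hw2 : w ^ 2 = 1 - C ^ 2 := wsq
  have hC2 : C ^ 2 = 1 - w ^ 2 := by linarith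
  have h1mw2 : (1 + w) * (1 - w) = C ^ 2 := by rw [hC2]; ring
  have hCne : C ≠ 0 := h0.ne'
  have hwne : w ≠ 0 := wpos.ne'
  have h1ne : (1 + w) ≠ 0 := h1w.ne'
  have h2ne : (1 - w) ≠ 0 := h2w.ne'
  -- first factor
  have e1 : (1 * w - C * (-C / w)) / w ^ 2 = 1 / w ^ 3 := by
    field_simp
    nlinarith
  have e2 : ((-C / w) / (1 + w) - (C / w) / (1 - w)) / 2 = - 1 / (w * C) := by
    have hnum : (-C / w) / (1 + w) - (C / w) / (1 - w) = (-(2 * C) / w) / ((1 + w) * (1 - w)) := by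
      field_simp
      ring
    rw [hnum, h1mw2]
    field_simp
  change (1 * w - C * (-C / w)) / w ^ 2 * ((Real.log (1 + w) - Real.log (1 - w)) / 2) +
      C / w * (((-C / w) / (1 + w) - (C / w) / (1 - w)) / 2) =
      (((Real.log (1 + w) - Real.log (1 - w)) / 2) - w) / w ^ 3
  rw [e1, e2]
  field_simp
  ring

private lemma Gw_monotone : MonotoneOn Gw (Ioo 0 1) := by
  apply monotoneOn_of_deriv_nonneg (convex_Ioo 0 1)
  · intro C hC
    exact (hasDerivAt_Gw hC.1 hC.2).continuousAt.continuousWithinAt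
  · intro C hC
    rw [interior_Ioo] at hC
    exact (hasDerivAt_Gw hC.1 hC.2).differentiableAt.differentiableWithinAt
  · intro C hC
    rw [interior_Ioo] at hC
    rw [(hasDerivAt_Gw hC.1 hC.2).deriv]
    obtain ⟨wpos, wlt, _⟩ := w_facts hC.1 hC.2
    have := artanh_ge wpos.le wlt
    apply div_nonneg
    · linarith
    · positivity

private lemma Gw_nonneg {C : ℝ} (h0 : 0 < C) (h1 : C < 1) : 0 ≤ Gw C := by
  obtain ⟨wpos, wlt, _⟩ := w_facts h0 h1
  have := artanh_ge wpos.le wlt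
  unfold Gw
  apply mul_nonneg (by positivity)
  linarith

private lemma Ew_continuous : Continuous Ew := by
  unfold Ew
  exact Real.binEntropy_continuous.comp (by fun_prop)

private lemma interior_Icc01 : interior (Icc (0:ℝ) 1) = Ioo 0 1 := interior_Icc

theorem Ew_convex : ConvexOn ℝ (Icc 0 1) Ew := by
  apply MonotoneOn.convexOn_of_deriv (convex_Icc 0 1) Ew_continuous.continuousOn
  · rw [interior_Icc01]
    intro C hC
    exact (hasDerivAt_Ew hC.1 hC.2).differentiableAt.differentiableWithinAt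
  · rw [interior_Icc01]
    intro a ha b hb hab
    rw [(hasDerivAt_Ew ha.1 ha.2).deriv, (hasDerivAt_Ew hb.1 hb.2).deriv]
    exact Gw_monotone ha hb hab

theorem Ew_mono : MonotoneOn Ew (Icc 0 1) := by
  apply monotoneOn_of_deriv_nonneg (convex_Icc 0 1) Ew_continuous.continuousOn
  · rw [interior_Icc01]
    intro C hC
    exact (hasDerivAt_Ew hC.1 hC.2).differentiableAt.differentiableWithinAt
  · rw [interior_Icc01]
    intro C hC
    rw [(hasDerivAt_Ew hC.1 hC.2).deriv]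
    exact Gw_nonneg hC.1 hC.2

/-- `√(a + b (p-c)²)` is convex. -/
theorem sqrt_quad_convex {a b : ℝ} (ha : 0 ≤ a) (hb : 0 ≤ b) (c : ℝ) :
    ConvexOn ℝ univ (fun p : ℝ => Real.sqrt (a + b * (p - c) ^ 2)) := by
  refine ⟨convex_univ, fun x _ y _ s t hs ht hst => ?_⟩
  simp only [smul_eq_mul]
  set X := x - c with hX
  set Y := y - c with hY
  have hA : 0 ≤ a + b * X ^ 2 := by positivity
  have hB : 0 ≤ a + b * Y ^ 2 := by positivity
  set A := Real.sqrt (a + b * X ^ 2) with hAd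
  set B := Real.sqrt (a + b * Y ^ 2) with hBd
  have hA2 : A ^ 2 = a + b * X ^ 2 := Real.sq_sqrt hA
  have hB2 : B ^ 2 = a + b * Y ^ 2 := Real.sq_sqrt hB
  have hA0 : 0 ≤ A := Real.sqrt_nonneg _
  have hB0 : 0 ≤ B := Real.sqrt_nonneg _
  have hAB : a + b * (X * Y) ≤ A * B := by
    have h1 : (a + b * (X * Y)) ^ 2 ≤ (A * B) ^ 2 := by
      rw [mul_pow, hA2, hB2]
      nlinarith [mul_nonneg (mul_nonneg ha hb) (sq_nonneg (X - Y))]
    exact (abs_le_of_sq_le_sq' h1 (mul_nonneg hA0 hB0)).2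
  have hz : s * x + t * y - c = s * X + t * Y := by
    rw [hX, hY]
    have : c = (s + t) * c := by rw [hst]; ring
    nlinarith
  rw [hz]
  apply Real.sqrt_le_iff.mpr
  refine ⟨by positivity, ?_⟩
  have ht' : t = 1 - s := by linarith
  have hexp : (s * A + t * B) ^ 2 - (a + b * (s * X + t * Y) ^ 2)
      = 2 * s * t * (A * B - (a + b * (X * Y))) := by
    have : (s * A + t * B) ^ 2 = s ^ 2 * A ^ 2 + t ^ 2 * B ^ 2 + 2 * s * t * (A * B) := by ring
    rw [this, hA2, hB2, ht']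
    ring
  have : 0 ≤ 2 * s * t * (A * B - (a + b * (X * Y))) :=
    mul_nonneg (by positivity) (by linarith)
  linarith

/-- `F(p) = E(C(p))` is convex in `p ∈ [0,1]`: `C(p) = 2√v(p)` is convex (`v` = `v₀ + v₂ (p-ν)²`, the norm of an affine map) with values in `[0,1]`,
and Wootters' function `E(C) = h((1+√(1-C²))/2)` is increasing and convex on `[0,1]`: with `w=√(1-C²)`, `E'(C) = (C/w) artanh w`;
with `C = 1/cosh ζ`, `w = tanh ζ`, `E'(C) = ζ / sinh ζ` which increases in `C`. -/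
theorem Fgad_convex {γ ν : ℝ} (hγ : γ ∈ Icc (0 : ℝ) 1) (hν : ν ∈ Icc (0 : ℝ) 1) :
    ConvexOn ℝ (Icc 0 1) (Fgad γ ν) := by
  have ha : 0 ≤ γ * ν * (1 - ν) :=
    mul_nonneg (mul_nonneg hγ.1 hν.1) (by linarith [hν.2])
  have hb : 0 ≤ γ * (1 - γ) := mul_nonneg hγ.1 (by linarith [hγ.2])
  set Cf : ℝ → ℝ := fun p => 2 * Real.sqrt (γ * ν * (1 - ν) + γ * (1 - γ) * (p - ν) ^ 2) with hCf
  have hconv : ConvexOn ℝ (Icc 0 1) Cf := by
    have := (sqrt_quad_convex ha hb ν).subset (subset_univ (Icc (0:ℝ) 1)) (convex_Icc 0 1)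
    exact this.smul (by norm_num : (0:ℝ) ≤ 2)
  have hmaps : Cf '' (Icc 0 1) ⊆ Icc 0 1 := by
    rintro _ ⟨p, hp, rfl⟩
    obtain ⟨h0, h1⟩ := vdet_mem hγ hν hp
    refine ⟨by positivity, ?_⟩
    simp only [hCf]
    have : Real.sqrt (γ * ν * (1 - ν) + γ * (1 - γ) * (p - ν) ^ 2) ≤ 1 / 2 := by
      apply Real.sqrt_le_iff.mpr
      refine ⟨by norm_num, ?_⟩
      unfold vdet at h1
      linarith
    linarith
  have hv : ∀ p : ℝ, 0 ≤ γ * ν * (1 - ν) + γ * (1 - γ) * (p - ν) ^ 2 := fun p =>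
    add_nonneg ha (mul_nonneg hb (sq_nonneg _))
  have hEq : ∀ p, Fgad γ ν p = Ew (Cf p) := by
    intro p
    unfold Fgad Ew vdet
    simp only [hCf]
    rw [mul_pow, Real.sq_sqrt (hv p)]
    norm_num
  refine ⟨convex_Icc 0 1, fun x hx y hy s t hs ht hst => ?_⟩
  have hm : s • x + t • y ∈ Icc (0:ℝ) 1 := (convex_Icc 0 1) hx hy hs ht hst
  simp only [hEq]
  have h1 : Cf (s • x + t • y) ≤ s • Cf x + t • Cf y := hconv.2 hx hy hs ht hst
  have hcx := hmaps (mem_image_of_mem Cf hx)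
  have hcy := hmaps (mem_image_of_mem Cf hy)
  have hcm := hmaps (mem_image_of_mem Cf hm)
  have h2 := Ew_mono hcm ((convex_Icc 0 1) hcx hcy hs ht hst) h1
  exact h2.trans (Ew_convex.2 hcx hcy hs ht hst)

/-- `((1-γ)p+γν) ∈ [0,1]`. -/
theorem t2_mem {γ ν p : ℝ} (hγ : γ ∈ Icc (0 : ℝ) 1) (hν : ν ∈ Icc (0 : ℝ) 1) (hp : p ∈ Icc (0 : ℝ) 1) :
    (1 - γ) * p + γ * ν ∈ Icc (0 : ℝ) 1 := by
  obtain ⟨h0, h1⟩ := hγ
  obtain ⟨n0, n1⟩ := hν
  obtain ⟨p0, p1⟩ := hp
  constructor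
  · exact add_nonneg (mul_nonneg (by linarith) p0) (mul_nonneg h0 n0)
  · nlinarith [mul_nonneg (sub_nonneg.mpr h1) (sub_nonneg.mpr p1), mul_nonneg h0 (sub_nonneg.mpr n1)]

/-- Consequently the rate is concave in `p`: `h∘(affine)` is concave (`Real.strictConcave_binEntropy`) and `F` is convex. -/
theorem gadRate_concave {γ ν : ℝ} (hγ : γ ∈ Icc (0 : ℝ) 1) (hν : ν ∈ Icc (0 : ℝ) 1) :
    ConcaveOn ℝ (Icc 0 1) (gadRate γ ν) := by
  have hF := Fgad_convex hγ hν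
  have hh : ConcaveOn ℝ (Icc 0 1) (fun p : ℝ => Real.binEntropy ((1 - γ) * p + γ * ν)) := by
    refine ⟨convex_Icc 0 1, fun x hx y hy s t hs ht hst => ?_⟩
    have hx' := t2_mem hγ hν hx
    have hy' := t2_mem hγ hν hy
    have := Real.strictConcave_binEntropy.concaveOn.2 hx' hy' hs ht hst
    simp only [smul_eq_mul] at this ⊢
    have e : s * ((1 - γ) * x + γ * ν) + t * ((1 - γ) * y + γ * ν)
        = (1 - γ) * (s * x + t * y) + γ * ν := by
      have : t = 1 - s := by linarith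
      subst this
      ring
    rw [e] at this
    exact this
  have := hh.sub hF
  refine ⟨convex_Icc 0 1, fun x hx y hy s t hs ht hst => ?_⟩
  have h := this.2 hx hy hs ht hst
  simpa [gadRate_eq] using h

/-- entropy of a spectrum `l₁,l₂` with `l₁+l₂=1`, `l₁l₂=v`, `l₁,l₂≥0`, equals `h((1+√(1-4v))/2)`. -/
theorem negMulLog_pair_eq {l₁ l₂ : ℝ} (h₁ : 0 ≤ l₁) (h₂ : 0 ≤ l₂) (hs : l₁ + l₂ = 1) :
    Real.negMulLog l₁ + Real.negMulLog l₂ =
      Real.binEntropy ((1 + Real.sqrt (1 - 4 * (l₁ * l₂))) / 2) := by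
  have hl2 : l₂ = 1 - l₁ := by linarith
  have hsq : 1 - 4 * (l₁ * l₂) = (l₁ - l₂) ^ 2 := by
    rw [hl2]; ring
  rw [hsq, Real.sqrt_sq_eq_abs, Real.binEntropy_eq_negMulLog_add_negMulLog_one_sub]
  rcases le_total l₂ l₁ with h | h
  · rw [abs_of_nonneg (by linarith)]
    have e1 : (1 + (l₁ - l₂)) / 2 = l₁ := by rw [hl2]; ring
    have e2 : 1 - l₁ = l₂ := by linarith
    rw [e1, e2]
  · rw [abs_of_nonpos (by linarith)]
    have e1 : (1 + -(l₁ - l₂)) / 2 = l₂ := by rw [hl2]; ring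
    have e2 : 1 - l₂ = l₁ := by linarith
    rw [e1, e2, add_comm]

end Crest.Agent.H8G
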