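/-
GADC reduction, part 1: block form of `N ⊗ Ψ`, pure states of `N`, product states.
Statement file for a subtask. All statements are elementary algebra; no key inequality here.
-/
import Crest.Agent.H8GEnt
import Crest.Agent.H8GScal
import Crest.Agent.H8GPower

set_option autoImplicit false

namespace Crest.Agent.H8G

open Matrix Crest.Quantum Set Crest.MathPhysics.AmpDamp
open scoped ComplexOrder Kronecker

variable {d e : Type*} [Fintype d] [Fintype e] [DecidableEq d] [DecidableEq e]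

/-- Complete positivity with `Bool` auxiliary levels. -/
theorem blockwise_bool_psd {Ψ : Matrix d d ℂ → Matrix e e ℂ} (hΨ : IsChannel Ψ)
    {ρ : Matrix (Bool × d) (Bool × d) ℂ} (hρ : ρ.PosSemidef) :
    (blockwise (k := Bool) Ψ ρ).PosSemidef := by
  let E : Fin 2 × d ≃ Bool × d := Equiv.prodCongr finTwoEquiv (Equiv.refl d)
  let E' : Bool × e ≃ Fin 2 × e := Equiv.prodCongr finTwoEquiv.symm (Equiv.refl e)
  have h1 := hΨ.2.1 2 (ρ.submatrix E E) (hρ.submatrix _)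
  have h2 := h1.submatrix E'
  convert h2 using 1
  ext ⟨s, i⟩ ⟨t, j⟩
  have hb : block (ρ.submatrix E E) (finTwoEquiv.symm s) (finTwoEquiv.symm t) = block ρ s t := by
    ext a b
    simp [block, E]
  simp only [blockwise, Matrix.of_apply, Matrix.submatrix_apply, E', Equiv.prodCongr_apply,
    Prod.map, hb, Equiv.refl_apply, id]

/-- Also `Ψ (block ρ true false) = (Ψ (block ρ false true))ᴴ`. -/
theorem block_adj {Ψ : Matrix d d ℂ → Matrix e e ℂ} (hΨ : IsChannel Ψ)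
    {ρ : Matrix (Bool × d) (Bool × d) ℂ} (hρ : ρ.PosSemidef) :
    Ψ (block ρ true false) = (Ψ (block ρ false true))ᴴ := by
  have h := (blockwise_bool_psd hΨ hρ).1
  ext i j
  have := congrFun (congrFun h (false, j)) (true, i)
  simp only [Matrix.conjTranspose_apply, blockwise, Matrix.of_apply] at this
  rw [Matrix.conjTranspose_apply, ← this, star_star]

/-- For a PSD input, the four blocks of `id ⊗ Ψ` form a PSD matrix. -/
theorem blocks_psd {Ψ : Matrix d d ℂ → Matrix e e ℂ} (hΨ : IsChannel Ψ)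
    {ρ : Matrix (Bool × d) (Bool × d) ℂ} (hρ : ρ.PosSemidef) :
    (qb (Ψ (block ρ false false)) (Ψ (block ρ false true)) (Ψ (block ρ false true))ᴴ
      (Ψ (block ρ true true))).PosSemidef := by
  convert blockwise_bool_psd hΨ hρ using 1
  ext ⟨s, i⟩ ⟨t, j⟩
  cases s <;> cases t <;> simp [qb, blockwise, block_adj hΨ hρ]

/-- Block form of the output. -/
theorem qubitTensor_gad_eq (γ ν : ℝ) {Ψ : Matrix d d ℂ → Matrix e e ℂ} (hΨ : IsChannel Ψ)
    {ρ : Matrix (Bool × d) (Bool × d) ℂ} (hρ : ρ.PosSemidef) :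
    qubitTensor (gadMap γ ν) Ψ ρ =
      qb ((1 - γ * ν) • Ψ (block ρ false false) + (γ * (1 - ν)) • Ψ (block ρ true true))
        (((Real.sqrt (1 - γ) : ℝ) : ℂ) • Ψ (block ρ false true))
        (((Real.sqrt (1 - γ) : ℝ) : ℂ) • (Ψ (block ρ false true))ᴴ)
        ((γ * ν) • Ψ (block ρ false false) + (1 - γ + γ * ν) • Ψ (block ρ true true)) := by
  ext ⟨s, i⟩ ⟨t, j⟩
  cases s <;> cases t <;>
    simp [qb, qubitTensor, Fintype.sum_bool, qubitCoeff, gadMap, Matrix.single, ← block_adj hΨ hρ] <;>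
    ring

/-- The output of `N ⊗ id` on a `Bool × d` matrix is a sum of congruences. -/
noncomputable def krausB (γ ν : ℝ) (l : Fin 4) : Matrix (Bool × d) (Bool × d) ℂ :=
  Matrix.of fun p q => if p.2 = q.2 then ((krausG γ ν l p.1 q.1 : ℝ) : ℂ) else 0

lemma krausB_entry (γ ν : ℝ) (l : Fin 4) (J : Matrix (Bool × d) (Bool × d) ℂ) (s t : Bool) (i j : d) :
    (krausB (d := d) γ ν l * J * (krausB (d := d) γ ν l)ᴴ : Matrix (Bool × d) (Bool × d) ℂ) (s, i) (t, j) =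
      ∑ s' : Bool, ∑ t' : Bool, ((krausG γ ν l s s' * krausG γ ν l t t' : ℝ) : ℂ) * J (s', i) (t', j) := by
  simp only [Matrix.mul_apply, Fintype.sum_prod_type, Matrix.conjTranspose_apply, krausB,
    Matrix.of_apply]
  have hstar : ∀ (s' : Bool) (c : d), star (if j = c then ((krausG γ ν l t s' : ℝ) : ℂ) else 0) =
      if j = c then ((krausG γ ν l t s' : ℝ) : ℂ) else 0 := by
    intro s' c
    split_ifs <;> simp
  simp only [hstar, Fintype.sum_bool]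
  simp only [ite_mul, zero_mul, mul_ite, mul_zero, Finset.sum_ite_eq, Finset.sum_ite_eq',
    Finset.mem_univ, if_true, Finset.sum_const_zero, Finset.sum_add_distrib, add_zero, zero_add]
  push_cast
  ring

/-- `N ⊗ id` preserves PSD, in the form of the coefficient sum. -/
theorem coeff_sum_psd {γ ν : ℝ} (hγ : γ ∈ Icc (0 : ℝ) 1) (hν : ν ∈ Icc (0 : ℝ) 1)
    {J : Matrix (Bool × d) (Bool × d) ℂ} (hJ : J.PosSemidef) :
    (Matrix.of fun p q : Bool × d => ∑ s' : Bool, ∑ t' : Bool,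
      qubitCoeff (gadMap γ ν) p.1 q.1 s' t' * J (s', p.2) (t', q.2)).PosSemidef := by
  have key : (Matrix.of fun p q : Bool × d => ∑ s' : Bool, ∑ t' : Bool,
      qubitCoeff (gadMap γ ν) p.1 q.1 s' t' * J (s', p.2) (t', q.2)) =
      ∑ l : Fin 4, (krausB (d := d) γ ν l * J * (krausB (d := d) γ ν l)ᴴ : Matrix (Bool × d) (Bool × d) ℂ) := by
    ext ⟨s, i⟩ ⟨t, j⟩
    simp only [Matrix.of_apply, Matrix.sum_apply, krausB_entry, qubitCoeff_gad_eq_kraus hγ hν,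
      Fintype.sum_bool, Fin.sum_univ_four]
    ring
  rw [key]
  exact Matrix.posSemidef_sum _ fun l _ => hJ.mul_mul_conjTranspose_same _

/-- `N ⊗ Ψ` preserves density matrices. -/
theorem qubitTensor_gad_psd {γ ν : ℝ} (hγ : γ ∈ Icc (0 : ℝ) 1) (hν : ν ∈ Icc (0 : ℝ) 1)
    {X Y Z : Matrix d d ℂ} (hJ : (qb X Y Yᴴ Z).PosSemidef) :
    (qb ((1 - γ * ν) • X + (γ * (1 - ν)) • Z)
        (((Real.sqrt (1 - γ) : ℝ) : ℂ) • Y) (((Real.sqrt (1 - γ) : ℝ) : ℂ) • Yᴴ)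
        ((γ * ν) • X + (1 - γ + γ * ν) • Z)).PosSemidef := by
  convert coeff_sum_psd hγ hν hJ using 1
  ext ⟨s, i⟩ ⟨t, j⟩
  cases s <;> cases t <;>
    simp [qb, Fintype.sum_bool, qubitCoeff, gadMap, Matrix.single] <;>
    ring

/-- The pure qubit state with excited population `p` and relative sign `s = ±1`. -/
noncomputable def jp (s : ℝ) (p : ℝ) : Matrix Bool Bool ℂ :=
  Matrix.of fun a b =>
    if a = false ∧ b = false then ((1 - p : ℝ) : ℂ)
    else if a = true ∧ b = true then ((p : ℝ) : ℂ)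
    else ((s * Real.sqrt (p * (1 - p)) : ℝ) : ℂ)

lemma channel_psd {Ψ : Matrix d d ℂ → Matrix e e ℂ} (hΨ : IsChannel Ψ) {ρ : Matrix d d ℂ}
    (hρ : ρ.PosSemidef) : (Ψ ρ).PosSemidef := by
  let E : Fin 1 × d ≃ d := Equiv.uniqueProd d (Fin 1)
  have h := hΨ.2.1 1 (ρ.submatrix E E) (hρ.submatrix _)
  have h2 := h.submatrix (fun i : e => ((0 : Fin 1), i))
  convert h2 using 1
  ext i j
  simp only [Matrix.submatrix_apply, blockwise, Matrix.of_apply]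
  congr 2

theorem jp_density {s p : ℝ} (hs : s ^ 2 = 1) (hp : p ∈ Icc (0 : ℝ) 1) : IsDensity (jp s p) := by
  constructor
  · have h := Matrix.posSemidef_vecMulVec_self_star (R := ℂ)
      (fun b : Bool => if b then ((s * Real.sqrt p : ℝ) : ℂ) else ((Real.sqrt (1 - p) : ℝ) : ℂ))
    convert h using 1
    have h1 : Real.sqrt (1 - p) ^ 2 = 1 - p := Real.sq_sqrt (by linarith [hp.2])
    have h2 : Real.sqrt p ^ 2 = p := Real.sq_sqrt hp.1
    have h3 : Real.sqrt (p * (1 - p)) = Real.sqrt p * Real.sqrt (1 - p) :=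
      Real.sqrt_mul hp.1 _
    ext a b
    cases a <;> cases b <;> simp [jp, Matrix.vecMulVec_apply, h3]
    · rw [← Complex.ofReal_mul, ← pow_two, h1]; simp
    · ring
    · ring
    · rw [← Complex.ofReal_mul, ← Complex.ofReal_mul]
      congr 1
      calc p = s ^ 2 * Real.sqrt p ^ 2 := by rw [hs, h2, one_mul]
        _ = _ := by ring
  · simp [jp, Matrix.trace, Fintype.sum_bool]

/-- Coefficient expansion of `gadMap`. -/
lemma gadMap_eq_sum (γ ν : ℝ) (A : Matrix Bool Bool ℂ) (s t : Bool) :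
    gadMap γ ν A s t = ∑ s' : Bool, ∑ t' : Bool, qubitCoeff (gadMap γ ν) s t s' t' * A s' t' := by
  cases s <;> cases t <;> simp [Fintype.sum_bool, qubitCoeff, gadMap, Matrix.single] <;> ring

/-- `gadMap` preserves PSD and trace on qubits. (PSD: `qb`-free 2×2 check or via the Kraus form.) -/
theorem gadMap_psd {γ ν : ℝ} (hγ : γ ∈ Icc (0 : ℝ) 1) (hν : ν ∈ Icc (0 : ℝ) 1)
    {ρ : Matrix Bool Bool ℂ} (hρ : ρ.PosSemidef) : (gadMap γ ν ρ).PosSemidef := by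
  let K : Fin 4 → Matrix Bool Bool ℂ := fun l => Matrix.of fun s s' => ((krausG γ ν l s s' : ℝ) : ℂ)
  have key : gadMap γ ν ρ = ∑ l : Fin 4, K l * ρ * (K l)ᴴ := by
    ext s t
    rw [gadMap_eq_sum]
    simp only [qubitCoeff_gad_eq_kraus hγ hν, Matrix.sum_apply, Matrix.mul_apply,
      Matrix.conjTranspose_apply, K, Matrix.of_apply, Fintype.sum_bool, Fin.sum_univ_four]
    simp only [Complex.star_def, Complex.conj_ofReal]
    push_cast
    ring
  rw [key]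
  exact Matrix.posSemidef_sum _ fun l _ => hρ.mul_mul_conjTranspose_same _

theorem gadMap_trace {γ ν : ℝ} (ρ : Matrix Bool Bool ℂ) : (gadMap γ ν ρ).trace = ρ.trace := by
  simp [Matrix.trace, gadMap, Fintype.sum_bool]
  ring

theorem gadMap_linear (γ ν : ℝ) : IsLinearMap ℂ (gadMap γ ν) := by
  refine ⟨fun A B => ?_, fun c A => ?_⟩
  · ext s t
    cases s <;> cases t <;> simp [gadMap] <;> ring
  · ext s t
    cases s <;> cases t <;> simp [gadMap] <;> ring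

/-- The excited output population. -/
lemma tt_mem {γ ν p : ℝ} (hγ : γ ∈ Icc (0 : ℝ) 1) (hν : ν ∈ Icc (0 : ℝ) 1) (hp : p ∈ Icc (0 : ℝ) 1) :
    (1 - γ) * p + γ * ν ∈ Icc (0 : ℝ) 1 := by
  obtain ⟨h0, h1⟩ := hγ
  obtain ⟨n0, n1⟩ := hν
  obtain ⟨p0, p1⟩ := hp
  constructor
  · have := mul_nonneg (sub_nonneg.2 h1) p0
    have := mul_nonneg h0 n0
    linarith
  · nlinarith [mul_nonneg (sub_nonneg.2 h1) (sub_nonneg.2 p1), mul_nonneg h0 (sub_nonneg.2 n1)]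

lemma det_bool (A : Matrix Bool Bool ℂ) :
    A.det = A false false * A true true - A false true * A true false := by
  rw [← Matrix.det_submatrix_equiv_self finTwoEquiv A, Matrix.det_fin_two]
  simp [finTwoEquiv]

/-- Output entropy of `jp`. -/
theorem gad_jp_entropy {γ ν s p : ℝ} (hγ : γ ∈ Icc (0 : ℝ) 1) (hν : ν ∈ Icc (0 : ℝ) 1) (hs : s ^ 2 = 1)
    (hp : p ∈ Icc (0 : ℝ) 1) : vnEntropy (gadMap γ ν (jp s p)) = Fgad γ ν p := by
  have hv := vdet_mem hγ hν hp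
  set v := vdet γ ν p with hvdef
  set w := Real.sqrt (1 - 4 * v) with hw
  have hw0 : 0 ≤ w := Real.sqrt_nonneg _
  have hw2 : w ^ 2 = 1 - 4 * v := Real.sq_sqrt (by linarith [hv.2])
  have hw1 : w ≤ 1 := by nlinarith [hv.1]
  have hpsd := gadMap_psd hγ hν (jp_density hs hp).1
  have htr : (gadMap γ ν (jp s p)).trace = 1 := by
    rw [gadMap_trace]; exact (jp_density hs hp).2
  have hdet : (gadMap γ ν (jp s p)).det.re = (1 + w) / 2 * ((1 - w) / 2) := by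
    have hs1 : 1 - γ ≥ 0 := by linarith [hγ.2]
    have h1 : Real.sqrt (1 - γ) ^ 2 = 1 - γ := Real.sq_sqrt hs1
    have hpp : 0 ≤ p * (1 - p) := mul_nonneg hp.1 (by linarith [hp.2])
    have h2 : Real.sqrt (p * (1 - p)) ^ 2 = p * (1 - p) := Real.sq_sqrt hpp
    have hdetM : (gadMap γ ν (jp s p)).det = ((((1 - ((1 - γ) * p + γ * ν)) * ((1 - γ) * p + γ * ν) -
        (1 - γ) * (p * (1 - p)) : ℝ)) : ℂ) := by
      rw [det_bool]
      simp only [gadMap, jp, Matrix.of_apply]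
      simp
      have hsq : (((Real.sqrt (1 - γ)) : ℝ) : ℂ) ^ 2 = ((1 - γ : ℝ) : ℂ) := by
        rw [← Complex.ofReal_pow, h1]
      have hsq2 : (((Real.sqrt (p * (1 - p))) : ℝ) : ℂ) ^ 2 = ((p * (1 - p) : ℝ) : ℂ) := by
        rw [← Complex.ofReal_pow, h2]
      have hs2 : ((s : ℝ) : ℂ) ^ 2 = 1 := by
        rw [← Complex.ofReal_pow, hs]; simp
      push_cast at hsq hsq2 ⊢
      linear_combination (-((s : ℂ) ^ 2 * ((Real.sqrt (p * (1 - p)) : ℝ) : ℂ) ^ 2)) * hsq -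
        ((1 - (γ : ℂ)) * ((Real.sqrt (p * (1 - p)) : ℝ) : ℂ) ^ 2) * hs2 - (1 - (γ : ℂ)) * hsq2
    rw [hdetM, Complex.ofReal_re]
    have : (1 + w) / 2 * ((1 - w) / 2) = (1 - w ^ 2) / 4 := by ring
    rw [this, hw2, hvdef]
    unfold vdet
    ring
  unfold Fgad
  rw [← hvdef, ← hw, Real.binEntropy_eq_negMulLog_add_negMulLog_one_sub]
  have h3 : 1 - (1 + w) / 2 = (1 - w) / 2 := by ring
  rw [h3]
  refine vnEntropy_two hpsd (by linarith) (by linarith) ?_ hdet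
  rw [htr]
  norm_num
  ring

/-- Two-phase ensemble. -/
theorem gad_ensemble {γ ν p : ℝ} (hγ : γ ∈ Icc (0 : ℝ) 1) (hν : ν ∈ Icc (0 : ℝ) 1)
    (hp : p ∈ Icc (0 : ℝ) 1) :
    ∃ (q₁ : Fin 2 → ℝ) (ρ₁ : Fin 2 → Matrix Bool Bool ℂ), IsEnsemble q₁ ρ₁ ∧
      holevoInfo (gadMap γ ν) q₁ ρ₁ = gadRate γ ν p := by
  have hs1 : (1 : ℝ) ^ 2 = 1 := by norm_num
  have hs2 : (-1 : ℝ) ^ 2 = 1 := by norm_num
  refine ⟨fun _ => 1 / 2, ![jp 1 p, jp (-1) p], ⟨fun _ => by norm_num, by simp, ?_⟩, ?_⟩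
  · intro a
    fin_cases a
    · exact jp_density hs1 hp
    · exact jp_density hs2 hp
  · set t := (1 - γ) * p + γ * ν with ht
    have htm := tt_mem hγ hν hp
    have hsum : (∑ a : Fin 2, (((1 / 2 : ℝ) : ℂ)) • gadMap γ ν (![jp 1 p, jp (-1) p] a)) =
        Matrix.diagonal (fun b : Bool => if b then ((t : ℝ) : ℂ) else ((1 - t : ℝ) : ℂ)) := by
      ext a b
      simp only [Fin.sum_univ_two, Matrix.add_apply, Matrix.smul_apply, Matrix.cons_val_zero,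
        Matrix.cons_val_one, smul_eq_mul]
      cases a <;> cases b <;> simp [gadMap, jp, Matrix.diagonal_apply, ht] <;> ring
    unfold holevoInfo
    rw [hsum]
    have hpsd : (Matrix.diagonal (fun b : Bool => if b then ((t : ℝ) : ℂ) else ((1 - t : ℝ) : ℂ))).PosSemidef := by
      apply Matrix.PosSemidef.diagonal
      intro b
      cases b
      · simpa using (by exact_mod_cast (sub_nonneg.2 htm.2) : (0 : ℂ) ≤ ((1 - t : ℝ) : ℂ))
      · simpa using (by exact_mod_cast htm.1 : (0 : ℂ) ≤ ((t : ℝ) : ℂ))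
    have h1 : vnEntropy (Matrix.diagonal (fun b : Bool => if b then ((t : ℝ) : ℂ) else ((1 - t : ℝ) : ℂ))) =
        Real.binEntropy t := by
      rw [Real.binEntropy_eq_negMulLog_add_negMulLog_one_sub]
      refine vnEntropy_two hpsd htm.1 (sub_nonneg.2 htm.2) ?_ ?_
      · simp [Matrix.trace, Fintype.sum_bool]
      · rw [det_bool]
        simp [Matrix.diagonal_apply]
        ring
    rw [h1, Fin.sum_univ_two]
    simp only [Matrix.cons_val_zero, Matrix.cons_val_one]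
    rw [gad_jp_entropy hγ hν hs1 hp, gad_jp_entropy hγ hν hs2 hp, gadRate_eq]
    ring

/-- `N⊗Ψ (A ⊗ B) = N(A) ⊗ Ψ(B)`, from `block (A ⊗ₖ B) s t = A s t • B`, linearity of `Ψ` and of `gadMap`. -/
theorem qubitTensor_kronecker (γ ν : ℝ) {Ψ : Matrix d d ℂ → Matrix e e ℂ} (hΨ : IsChannel Ψ)
    (A : Matrix Bool Bool ℂ) (B : Matrix d d ℂ) :
    qubitTensor (gadMap γ ν) Ψ (A ⊗ₖ B) = gadMap γ ν A ⊗ₖ Ψ B := by
  have hb : ∀ s t, block (A ⊗ₖ B) s t = A s t • B := by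
    intro s t
    ext i j
    simp [block, Matrix.kroneckerMap_apply]
  ext ⟨s, i⟩ ⟨t, j⟩
  simp only [qubitTensor, Matrix.of_apply, hb, hΨ.1.map_smul, Matrix.smul_apply, smul_eq_mul,
    Matrix.kroneckerMap_apply]
  rw [gadMap_eq_sum, Finset.sum_mul]
  refine Finset.sum_congr rfl fun _ _ => ?_
  rw [Finset.sum_mul]
  refine Finset.sum_congr rfl fun _ _ => ?_
  ring

/-- Product states: entropy adds (`vnEntropy_kronecker`). -/
theorem product_state {γ ν : ℝ} (hγ : γ ∈ Icc (0 : ℝ) 1) (hν : ν ∈ Icc (0 : ℝ) 1)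
    {Ψ : Matrix d d ℂ → Matrix e e ℂ} (hΨ : IsChannel Ψ) {ρ₁ : Matrix Bool Bool ℂ} {ρ₂ : Matrix d d ℂ}
    (h₁ : IsDensity ρ₁) (h₂ : IsDensity ρ₂) :
    IsDensity (ρ₁ ⊗ₖ ρ₂) ∧
      vnEntropy (qubitTensor (gadMap γ ν) Ψ (ρ₁ ⊗ₖ ρ₂)) = vnEntropy (gadMap γ ν ρ₁) + vnEntropy (Ψ ρ₂) := by
  refine ⟨⟨h₁.1.kronecker h₂.1, ?_⟩, ?_⟩
  · rw [Matrix.trace_kronecker, h₁.2, h₂.2, one_mul]
  · rw [qubitTensor_kronecker γ ν hΨ]
    have hA := gadMap_psd hγ hν h₁.1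
    have hB : (Ψ ρ₂).PosSemidef := channel_psd hΨ h₂.1
    rw [vnEntropy_kronecker hA hB, gadMap_trace, hΨ.2.2, h₁.2, h₂.2]
    simp

/-- Product ensembles: index set `Fin m₁ × Fin m₂ ≃ Fin (m₁ * m₂)` (`finProdFinEquiv`), weights `q₁ i * q₂ j`, states `ρ₁ i ⊗ₖ ρ₂ j`.
The average output is `(Σ q₁ N ρ₁) ⊗ₖ (Σ q₂ Ψ ρ₂)`, `vnEntropy_kronecker` for it and for each term. -/
theorem product_ensemble {γ ν : ℝ} (hγ : γ ∈ Icc (0 : ℝ) 1) (hν : ν ∈ Icc (0 : ℝ) 1)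
    {Ψ : Matrix d d ℂ → Matrix e e ℂ} (hΨ : IsChannel Ψ)
    {m₁ : ℕ} {q₁ : Fin m₁ → ℝ} {ρ₁ : Fin m₁ → Matrix Bool Bool ℂ}
    {m₂ : ℕ} {q₂ : Fin m₂ → ℝ} {ρ₂ : Fin m₂ → Matrix d d ℂ}
    (h₁ : IsEnsemble q₁ ρ₁) (h₂ : IsEnsemble q₂ ρ₂) :
    ∃ (m : ℕ) (q : Fin m → ℝ) (ρ : Fin m → Matrix (Bool × d) (Bool × d) ℂ), IsEnsemble q ρ ∧
      holevoInfo (qubitTensor (gadMap γ ν) Ψ) q ρ = holevoInfo (gadMap γ ν) q₁ ρ₁ + holevoInfo Ψ q₂ ρ₂ := by
  let E := (finProdFinEquiv (m := m₁) (n := m₂)).symm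
  refine ⟨m₁ * m₂, fun a => q₁ (E a).1 * q₂ (E a).2, fun a => ρ₁ (E a).1 ⊗ₖ ρ₂ (E a).2,
    ⟨fun a => mul_nonneg (h₁.1 _) (h₂.1 _), ?_, fun a => ?_⟩, ?_⟩
  · rw [Equiv.sum_comp E (fun x : Fin m₁ × Fin m₂ => q₁ x.1 * q₂ x.2), Fintype.sum_prod_type]
    simp only [← Finset.mul_sum]
    rw [h₂.2.1]
    simpa using h₁.2.1
  · exact (product_state hγ hν hΨ (h₁.2.2 _) (h₂.2.2 _)).1
  · set A : Matrix Bool Bool ℂ := ∑ i, (q₁ i : ℂ) • gadMap γ ν (ρ₁ i) with hAdef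
    set B : Matrix e e ℂ := ∑ j, (q₂ j : ℂ) • Ψ (ρ₂ j) with hBdef
    have hA : A.PosSemidef := Matrix.posSemidef_sum _ fun i _ =>
      (gadMap_psd hγ hν (h₁.2.2 i).1).smul (by exact_mod_cast h₁.1 i)
    have hB : B.PosSemidef := Matrix.posSemidef_sum _ fun j _ =>
      (channel_psd hΨ (h₂.2.2 j).1).smul (by exact_mod_cast h₂.1 j)
    have htA : A.trace = 1 := by
      simp only [hAdef, Matrix.trace_sum, Matrix.trace_smul, gadMap_trace, (h₁.2.2 _).2, smul_eq_mul,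
        mul_one]
      exact_mod_cast h₁.2.1
    have htB : B.trace = 1 := by
      simp only [hBdef, Matrix.trace_sum, Matrix.trace_smul, hΨ.2.2 _, (h₂.2.2 _).2, smul_eq_mul,
        mul_one]
      exact_mod_cast h₂.2.1
    have hsum : (∑ a, ((q₁ (E a).1 * q₂ (E a).2 : ℝ) : ℂ) •
        qubitTensor (gadMap γ ν) Ψ (ρ₁ (E a).1 ⊗ₖ ρ₂ (E a).2)) = A ⊗ₖ B := by
      rw [Equiv.sum_comp E (fun x : Fin m₁ × Fin m₂ => ((q₁ x.1 * q₂ x.2 : ℝ) : ℂ) •
        qubitTensor (gadMap γ ν) Ψ (ρ₁ x.1 ⊗ₖ ρ₂ x.2)), Fintype.sum_prod_type]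
      simp only [qubitTensor_kronecker γ ν hΨ]
      ext p r
      simp only [hAdef, hBdef, Matrix.sum_apply, Matrix.smul_apply, Matrix.kroneckerMap_apply,
        smul_eq_mul, Finset.sum_mul_sum]
      refine Finset.sum_congr rfl fun i _ => Finset.sum_congr rfl fun j _ => ?_
      push_cast
      ring
    have hent : ∀ a, vnEntropy (qubitTensor (gadMap γ ν) Ψ (ρ₁ (E a).1 ⊗ₖ ρ₂ (E a).2)) =
        vnEntropy (gadMap γ ν (ρ₁ (E a).1)) + vnEntropy (Ψ (ρ₂ (E a).2)) := fun a =>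
      (product_state hγ hν hΨ (h₁.2.2 _) (h₂.2.2 _)).2
    unfold holevoInfo
    rw [← hAdef, ← hBdef, hsum, vnEntropy_kronecker hA hB, htA, htB]
    simp only [hent]
    rw [Equiv.sum_comp E (fun x : Fin m₁ × Fin m₂ => q₁ x.1 * q₂ x.2 *
      (vnEntropy (gadMap γ ν (ρ₁ x.1)) + vnEntropy (Ψ (ρ₂ x.2)))), Fintype.sum_prod_type]
    have h3 : ∀ i, (∑ j, q₁ i * q₂ j * (vnEntropy (gadMap γ ν (ρ₁ i)) + vnEntropy (Ψ (ρ₂ j)))) =
        q₁ i * vnEntropy (gadMap γ ν (ρ₁ i)) + q₁ i * ∑ j, q₂ j * vnEntropy (Ψ (ρ₂ j)) := by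
      intro i
      have : ∀ j, q₁ i * q₂ j * (vnEntropy (gadMap γ ν (ρ₁ i)) + vnEntropy (Ψ (ρ₂ j))) =
          q₂ j * (q₁ i * vnEntropy (gadMap γ ν (ρ₁ i))) + q₁ i * (q₂ j * vnEntropy (Ψ (ρ₂ j))) := by
        intro j; ring
      simp only [this, Finset.sum_add_distrib, ← Finset.sum_mul, ← Finset.mul_sum, h₂.2.1, one_mul]
    simp only [h3, Finset.sum_add_distrib, ← Finset.sum_mul, h₁.2.1, one_mul, Complex.one_re]
    ring

end Crest.Agent.H8G
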