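/-
The key inequality (C) for all parameters.
Generic parameters: `key_generic`. Traces `x = 0` or `z = 0`: block diagonal, equality.
Boundary of the parameter square: upper semicontinuity of the entropy.
-/
import Crest.Agent.H8GMain
import Crest.Agent.H8GScal
import Crest.Agent.H8GRed1

set_option autoImplicit false

namespace Crest.Agent.H8G

open Matrix Crest.Quantum Set Filter Topology
open scoped ComplexOrder

variable {n : Type*} [Fintype n] [DecidableEq n]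

/-- The output matrix. -/
noncomputable def gadOut (γ ν : ℝ) (X Y Z : Matrix n n ℂ) : Matrix (Bool × n) (Bool × n) ℂ :=
  qb ((1 - γ * ν) • X + (γ * (1 - ν)) • Z)
    (((Real.sqrt (1 - γ) : ℝ) : ℂ) • Y) (((Real.sqrt (1 - γ) : ℝ) : ℂ) • Yᴴ)
    ((γ * ν) • X + (1 - γ + γ * ν) • Z)

theorem gadOut_psd {γ ν : ℝ} (hγ : γ ∈ Icc (0 : ℝ) 1) (hν : ν ∈ Icc (0 : ℝ) 1) {X Y Z : Matrix n n ℂ}
    (hJ : (qb X Y Yᴴ Z).PosSemidef) : (gadOut γ ν X Y Z).PosSemidef :=
  qubitTensor_gad_psd hγ hν hJ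

/-- Generic case. -/
theorem key_interior {γ ν : ℝ} (hγ0 : 0 < γ) (hγ1 : γ < 1) (hν0 : 0 < ν) (hν1 : ν < 1)
    {X Y Z : Matrix n n ℂ} (hJ : (qb X Y Yᴴ Z).PosSemidef) (hx : 0 < X.trace.re) (hz : 0 < Z.trace.re)
    (hsum : X.trace.re + Z.trace.re = 1) :
    Fgad γ ν Z.trace.re + (vnEntropy X - Real.negMulLog X.trace.re) +
        (vnEntropy Z - Real.negMulLog Z.trace.re) ≤ vnEntropy (gadOut γ ν X Y Z) := by
  set x := X.trace.re with hxd
  set z := Z.trace.re with hzd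
  let P : Par := ⟨1 - γ * ν, γ * (1 - ν), γ * ν, 1 - γ + γ * ν, 1 - γ, x, z⟩
  have hP : P.Valid :=
    { ha := by
        show 0 < 1 - γ * ν
        nlinarith
      hb := mul_pos hγ0 (by linarith)
      hc := mul_pos hγ0 hν0
      hd := by
        show 0 < 1 - γ + γ * ν
        nlinarith [mul_pos hγ0 hν0]
      he2 := by
        show 0 < 1 - γ
        linarith
      hA := hx
      hp := hz
      hac := by
        show 1 - γ * ν + γ * ν = 1
        ring
      hbd := by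
        show γ * (1 - ν) + (1 - γ + γ * ν) = 1
        ring
      hdet := by
        show 1 - γ = (1 - γ * ν) * (1 - γ + γ * ν) - γ * (1 - ν) * (γ * ν)
        ring }
  have hkey := key_generic (P := P) hP hJ (gadOut_psd ⟨hγ0.le, hγ1.le⟩ ⟨hν0.le, hν1.le⟩ hJ) rfl rfl
  obtain ⟨hl12, hlp, hBC, hB, hC, hl2, ht1l, ht2l, ht1, ht2, hkap, hw, hw1, hw2⟩ := Par.alg hP
  have hl1 : 0 < P.l1 := by
    have : P.l1 = P.t1 + P.B := by unfold Par.B; ring
    rw [this]; positivity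
  have hx' : x = 1 - z := by linarith
  have ht12 : P.t1 + P.t2 = 1 := by
    show (1 - γ * ν) * x + γ * (1 - ν) * z + (γ * ν * x + (1 - γ + γ * ν) * z) = 1
    rw [hx']; ring
  have hpair := negMulLog_pair_eq hl1.le hl2.le (hl12.trans ht12)
  have hvdet : P.l1 * P.l2 = vdet γ ν z := by
    rw [hlp]
    show ((1 - γ * ν) * x + γ * (1 - ν) * z) * (γ * ν * x + (1 - γ + γ * ν) * z) - (1 - γ) * x * z = _
    rw [hx']
    unfold vdet
    ring
  rw [hvdet] at hpair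
  have hF : Fgad γ ν z = Real.negMulLog P.l1 + Real.negMulLog P.l2 := by
    rw [hpair]; rfl
  rw [hF]
  exact hkey

theorem eq_zero_of_trace_re {A : Matrix n n ℂ} (hA : A.PosSemidef) (h : A.trace.re = 0) : A = 0 := by
  refine hA.trace_eq_zero_iff.1 ?_
  rw [trace_re_eq_sum hA.isHermitian] at h
  have h1 := (Finset.sum_eq_zero_iff_of_nonneg fun i _ => hA.eigenvalues_nonneg i).1 h
  rw [hA.isHermitian.trace_eq_sum_eigenvalues]
  refine Finset.sum_eq_zero fun i hi => ?_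
  rw [h1 i hi]
  simp

theorem off_zero_of {Y : Matrix n n ℂ}
    (h : ∀ f g : n → ℂ, Complex.normSq (star f ⬝ᵥ (Y *ᵥ g)) ≤ 0) : Y = 0 := by
  ext i j
  have h1 := h (Pi.single i 1) (Pi.single j 1)
  have h2 : star (Pi.single i (1 : ℂ) : n → ℂ) ⬝ᵥ (Y *ᵥ Pi.single j 1) = Y i j := by
    rw [mulVec_single_one]
    simp [dotProduct, Pi.single_apply]
  rw [h2] at h1
  have h3 := le_antisymm h1 (Complex.normSq_nonneg _)
  simpa using Complex.normSq_eq_zero.1 h3

theorem qf_zero (f : n → ℂ) : qf (0 : Matrix n n ℂ) f = 0 := by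
  simp [qf]

/-- Vanishing first trace. -/
theorem key_x0 {γ ν : ℝ} (hγ : γ ∈ Icc (0 : ℝ) 1) (hν : ν ∈ Icc (0 : ℝ) 1)
    {X Y Z : Matrix n n ℂ} (hJ : (qb X Y Yᴴ Z).PosSemidef) (hx : X.trace.re = 0)
    (hsum : X.trace.re + Z.trace.re = 1) :
    Fgad γ ν Z.trace.re + (vnEntropy X - Real.negMulLog X.trace.re) +
        (vnEntropy Z - Real.negMulLog Z.trace.re) ≤ vnEntropy (gadOut γ ν X Y Z) := by
  have hXp : X.PosSemidef := qb_psd_left hJ
  have hZp : Z.PosSemidef := qb_psd_right hJ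
  have hX0 : X = 0 := eq_zero_of_trace_re hXp hx
  have hY0 : Y = 0 := off_zero_of fun f g => by
    have := block_cs hJ f g
    rwa [hX0, qf_zero, zero_mul] at this
  have hz : Z.trace.re = 1 := by linarith
  have hb : 0 ≤ γ * (1 - ν) := mul_nonneg hγ.1 (by linarith [hν.2])
  have hd : 0 ≤ 1 - γ + γ * ν := by nlinarith [hγ.1, hγ.2, hν.1, mul_nonneg hγ.1 hν.1]
  have hpair := negMulLog_pair_eq hb hd (by ring)
  have hv : vdet γ ν 1 = γ * (1 - ν) * (1 - γ + γ * ν) := by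
    unfold vdet; ring
  have hF : Fgad γ ν 1 = Real.negMulLog (γ * (1 - ν)) + Real.negMulLog (1 - γ + γ * ν) := by
    rw [hpair, ← hv]; rfl
  have hM : gadOut γ ν X Y Z = qb ((γ * (1 - ν)) • Z) 0 0 ((1 - γ + γ * ν) • Z) := by
    unfold gadOut
    rw [hX0, hY0]
    simp
  rw [hM, vnEntropy_qb_diag (hZp.smul hb) (hZp.smul hd), vnEntropy_smul hZp hb, vnEntropy_smul hZp hd,
    hz, hF, hx, hX0]
  simp only [vnEntropy_zero, Real.negMulLog_zero, Real.negMulLog_one]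
  apply le_of_eq
  ring

/-- Vanishing second trace. -/
theorem key_z0 {γ ν : ℝ} (hγ : γ ∈ Icc (0 : ℝ) 1) (hν : ν ∈ Icc (0 : ℝ) 1)
    {X Y Z : Matrix n n ℂ} (hJ : (qb X Y Yᴴ Z).PosSemidef) (hz : Z.trace.re = 0)
    (hsum : X.trace.re + Z.trace.re = 1) :
    Fgad γ ν Z.trace.re + (vnEntropy X - Real.negMulLog X.trace.re) +
        (vnEntropy Z - Real.negMulLog Z.trace.re) ≤ vnEntropy (gadOut γ ν X Y Z) := by
  have hXp : X.PosSemidef := qb_psd_left hJ
  have hZp : Z.PosSemidef := qb_psd_right hJ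
  have hZ0 : Z = 0 := eq_zero_of_trace_re hZp hz
  have hY0 : Y = 0 := off_zero_of fun f g => by
    have := block_cs hJ f g
    rwa [hZ0, qf_zero, mul_zero] at this
  have hx : X.trace.re = 1 := by linarith
  have ha : 0 ≤ 1 - γ * ν := by nlinarith [hγ.1, hγ.2, hν.1, hν.2]
  have hc : 0 ≤ γ * ν := mul_nonneg hγ.1 hν.1
  have hpair := negMulLog_pair_eq ha hc (by ring)
  have hv : vdet γ ν 0 = (1 - γ * ν) * (γ * ν) := by
    unfold vdet; ring
  have hF : Fgad γ ν 0 = Real.negMulLog (1 - γ * ν) + Real.negMulLog (γ * ν) := by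
    rw [hpair, ← hv]; rfl
  have hM : gadOut γ ν X Y Z = qb ((1 - γ * ν) • X) 0 0 ((γ * ν) • X) := by
    unfold gadOut
    rw [hZ0, hY0]
    simp
  rw [hM, vnEntropy_qb_diag (hXp.smul ha) (hXp.smul hc), vnEntropy_smul hXp ha, vnEntropy_smul hXp hc,
    hx, hz, hF, hZ0]
  simp only [vnEntropy_zero, Real.negMulLog_zero, Real.negMulLog_one]
  apply le_of_eq
  ring

theorem gadOut_cont (X Y Z : Matrix n n ℂ) : Continuous fun p : ℝ × ℝ => gadOut p.1 p.2 X Y Z := by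
  refine continuous_matrix fun a b => ?_
  rcases a with ⟨s, i⟩
  rcases b with ⟨s', j⟩
  cases s <;> cases s' <;> simp only [gadOut, qb, Matrix.of_apply, Matrix.add_apply, Matrix.smul_apply,
    Complex.real_smul, smul_eq_mul] <;> fun_prop

theorem Fgad_cont (z : ℝ) : Continuous fun p : ℝ × ℝ => Fgad p.1 p.2 z := by
  unfold Fgad vdet
  refine Real.binEntropy_continuous.comp ?_
  fun_prop

/-- interior approximation of a point of `[0,1]`. -/
noncomputable def approxI (γ : ℝ) (k : ℕ) : ℝ := γ + (1 / ((k : ℝ) + 2)) * (1 / 2 - γ)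

theorem approxI_mem {γ : ℝ} (hγ : γ ∈ Icc (0 : ℝ) 1) (k : ℕ) : 0 < approxI γ k ∧ approxI γ k < 1 := by
  unfold approxI
  have h1 : 0 < 1 / ((k : ℝ) + 2) := by positivity
  have h2 : 1 / ((k : ℝ) + 2) ≤ 1 / 2 := by
    apply one_div_le_one_div_of_le (by norm_num)
    have : (0 : ℝ) ≤ k := Nat.cast_nonneg k
    linarith
  constructor
  · nlinarith [hγ.1, hγ.2]
  · nlinarith [hγ.1, hγ.2]

theorem approxI_tendsto (γ : ℝ) : Tendsto (approxI γ) atTop (𝓝 γ) := by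
  unfold approxI
  have h1 : Tendsto (fun k : ℕ => 1 / ((k : ℝ) + 2)) atTop (𝓝 0) :=
    tendsto_const_nhds.div_atTop (tendsto_atTop_add_const_right _ _ tendsto_natCast_atTop_atTop)
  simpa using tendsto_const_nhds.add (h1.mul_const (1 / 2 - γ))

/-- Positive traces, arbitrary parameters: closure. -/
theorem key_pos {γ ν : ℝ} (hγ : γ ∈ Icc (0 : ℝ) 1) (hν : ν ∈ Icc (0 : ℝ) 1)
    {X Y Z : Matrix n n ℂ} (hJ : (qb X Y Yᴴ Z).PosSemidef) (hx : 0 < X.trace.re) (hz : 0 < Z.trace.re)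
    (hsum : X.trace.re + Z.trace.re = 1) :
    Fgad γ ν Z.trace.re + (vnEntropy X - Real.negMulLog X.trace.re) +
        (vnEntropy Z - Real.negMulLog Z.trace.re) ≤ vnEntropy (gadOut γ ν X Y Z) := by
  have hpt : Tendsto (fun k : ℕ => (approxI γ k, approxI ν k)) atTop (𝓝 (γ, ν)) :=
    (approxI_tendsto γ).prodMk_nhds (approxI_tendsto ν)
  have hlim : Tendsto (fun k : ℕ => gadOut (approxI γ k) (approxI ν k) X Y Z) atTop
      (𝓝 (gadOut γ ν X Y Z)) :=
    Filter.Tendsto.comp (f := fun k : ℕ => (approxI γ k, approxI ν k))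
      (g := fun p : ℝ × ℝ => gadOut p.1 p.2 X Y Z) (y := 𝓝 (γ, ν))
      ((gadOut_cont X Y Z).tendsto (γ, ν)) hpt
  have hr : Tendsto (fun k : ℕ => Fgad (approxI γ k) (approxI ν k) Z.trace.re) atTop
      (𝓝 (Fgad γ ν Z.trace.re)) :=
    Filter.Tendsto.comp (f := fun k : ℕ => (approxI γ k, approxI ν k))
      (g := fun p : ℝ × ℝ => Fgad p.1 p.2 Z.trace.re) (y := 𝓝 (γ, ν))
      ((Fgad_cont Z.trace.re).tendsto (γ, ν)) hpt
  have hr' := (hr.add_const (vnEntropy X - Real.negMulLog X.trace.re)).add_const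
    (vnEntropy Z - Real.negMulLog Z.trace.re)
  have hMk : ∀ k : ℕ, (gadOut (approxI γ k) (approxI ν k) X Y Z).PosSemidef := fun k => by
    have h1 := approxI_mem hγ k
    have h2 := approxI_mem hν k
    exact gadOut_psd ⟨h1.1.le, h1.2.le⟩ ⟨h2.1.le, h2.2.le⟩ hJ
  exact vnEntropy_limsup hMk (gadOut_psd hγ hν hJ) hlim hr' (fun k => by
    have h1 := approxI_mem hγ k
    have h2 := approxI_mem hν k
    exact key_interior h1.1 h1.2 h2.1 h2.2 hJ hx hz hsum)

/-- **Key inequality (C).** -/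
theorem key_C {γ ν : ℝ} (hγ : γ ∈ Icc (0 : ℝ) 1) (hν : ν ∈ Icc (0 : ℝ) 1) {X Y Z : Matrix n n ℂ}
    (hJ : (qb X Y Yᴴ Z).PosSemidef) (hsum : X.trace.re + Z.trace.re = 1) :
    Fgad γ ν Z.trace.re + (vnEntropy X - Real.negMulLog X.trace.re) +
        (vnEntropy Z - Real.negMulLog Z.trace.re) ≤
      vnEntropy (qb ((1 - γ * ν) • X + (γ * (1 - ν)) • Z)
        (((Real.sqrt (1 - γ) : ℝ) : ℂ) • Y) (((Real.sqrt (1 - γ) : ℝ) : ℂ) • Yᴴ)
        ((γ * ν) • X + (1 - γ + γ * ν) • Z)) := by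
  have hXp : X.PosSemidef := qb_psd_left hJ
  have hZp : Z.PosSemidef := qb_psd_right hJ
  have hx := tr_re_nonneg hXp
  have hz := tr_re_nonneg hZp
  rcases hx.eq_or_lt with hx0 | hx0
  · exact key_x0 hγ hν hJ hx0.symm hsum
  rcases hz.eq_or_lt with hz0 | hz0
  · exact key_z0 hγ hν hJ hz0.symm hsum
  exact key_pos hγ hν hJ hx0 hz0 hsum

end Crest.Agent.H8G
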