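/-
GADC reduction, part 2: from key inequality `key_C` to the entropy and Holevo steps.
Statement file for a subtask.
-/
import Crest.Agent.H8GClose
import Crest.Agent.H8GRed1

set_option autoImplicit false

namespace Crest.Agent.H8G

open Matrix Crest.Quantum Set Crest.MathPhysics.AmpDamp
open scoped ComplexOrder Kronecker

variable {d e : Type*} [Fintype d] [Fintype e] [DecidableEq d] [DecidableEq e]

/-- Excited population of a state on `Bool × d`. -/
noncomputable def exPop (ρ : Matrix (Bool × d) (Bool × d) ℂ) : ℝ := (block ρ true true).trace.re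

lemma block_psd {ρ : Matrix (Bool × d) (Bool × d) ℂ} (hρ : ρ.PosSemidef) (s : Bool) :
    (block ρ s s).PosSemidef := by
  have := hρ.submatrix (fun i : d => (s, i))
  convert this using 1
  ext i j
  rfl

lemma block_trace_add (ρ : Matrix (Bool × d) (Bool × d) ℂ) :
    (block ρ false false).trace + (block ρ true true).trace = ρ.trace := by
  simp [Matrix.trace, Fintype.sum_prod_type, Fintype.sum_bool, block, add_comm]

lemma trace_re_nonneg {A : Matrix d d ℂ} (hA : A.PosSemidef) : 0 ≤ A.trace.re :=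
  (Complex.nonneg_iff.1 hA.trace_nonneg).1

lemma trace_ofReal {A : Matrix d d ℂ} (hA : A.PosSemidef) : ((A.trace.re : ℝ) : ℂ) = A.trace :=
  Complex.ext rfl (by simpa using (Complex.nonneg_iff.1 hA.trace_nonneg).2)

/-- Basic facts: `Tr(block ρ false false) = 1 - p`, `Tr(block ρ true true) = p`, `p ∈ [0,1]`, diagonal blocks PSD
(principal submatrices; `Matrix.PosSemidef.submatrix`). -/
theorem exPop_mem {ρ : Matrix (Bool × d) (Bool × d) ℂ} (hρ : IsDensity ρ) :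
    exPop ρ ∈ Icc (0 : ℝ) 1 ∧ (block ρ false false).trace.re = 1 - exPop ρ ∧
      (block ρ false false).PosSemidef ∧ (block ρ true true).PosSemidef := by
  have hff := block_psd hρ.1 false
  have htt := block_psd hρ.1 true
  have h1 : (block ρ false false).trace.re = 1 - exPop ρ := by
    have := congrArg Complex.re (block_trace_add ρ)
    rw [Complex.add_re, hρ.2, Complex.one_re] at this
    unfold exPop
    linarith
  refine ⟨⟨trace_re_nonneg htt, ?_⟩, h1, hff, htt⟩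
  have := trace_re_nonneg hff
  linarith

/-- `key_C` applied to `X,Y,Z = Ψ(blocks)` (`blocks_psd`, `qubitTensor_gad_eq`, trace preservation). -/
theorem entropy_step {γ ν : ℝ} (hγ : γ ∈ Icc (0 : ℝ) 1) (hν : ν ∈ Icc (0 : ℝ) 1)
    {Ψ : Matrix d d ℂ → Matrix e e ℂ} (hΨ : IsChannel Ψ)
    {ρ : Matrix (Bool × d) (Bool × d) ℂ} (hρ : IsDensity ρ) :
    Fgad γ ν (exPop ρ) + (vnEntropy (Ψ (block ρ false false)) - Real.negMulLog (1 - exPop ρ)) +
        (vnEntropy (Ψ (block ρ true true)) - Real.negMulLog (exPop ρ)) ≤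
      vnEntropy (qubitTensor (gadMap γ ν) Ψ ρ) := by
  obtain ⟨hp, hff_tr, hff, htt⟩ := exPop_mem hρ
  have hJ := blocks_psd hΨ hρ.1
  have hX : (Ψ (block ρ false false)).trace.re = 1 - exPop ρ := by rw [hΨ.2.2, hff_tr]
  have hZ : (Ψ (block ρ true true)).trace.re = exPop ρ := by rw [hΨ.2.2]; rfl
  have := key_C hγ hν hJ (by rw [hX, hZ]; ring)
  rw [hX, hZ] at this
  rw [qubitTensor_gad_eq γ ν hΨ hρ.1]
  exact this

/-- Normalise a PSD block: `(x⁻¹) • B` if `x ≠ 0`, a fixed density otherwise. `B` PSD with trace `x ≥ 0`: if `x = 0`, then `B = 0`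
and `Ψ B = 0`. Key consequence, for a channel `Ψ` (vnEntropy_smul): `S̃(Ψ B) - η(x) = x * S(Ψ (normalised B))`, including `x = 0`. -/
noncomputable def nrm [Nonempty d] (B : Matrix d d ℂ) : Matrix d d ℂ :=
  if B.trace.re = 0 then (1 : Matrix d d ℂ).map (· / (Fintype.card d : ℂ)) else ((B.trace.re)⁻¹ : ℂ) • B

lemma eq_zero_of_trace_re2 {B : Matrix d d ℂ} (hB : B.PosSemidef) (h : B.trace.re = 0) : B = 0 := by
  rw [← hB.trace_eq_zero_iff, ← trace_ofReal hB, h]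
  simp

theorem nrm_density [Nonempty d] {B : Matrix d d ℂ} (hB : B.PosSemidef) : IsDensity (nrm B) := by
  unfold nrm
  split_ifs with h
  · have hc : (Fintype.card d : ℂ) ≠ 0 := by
      exact_mod_cast (Fintype.card_ne_zero (α := d))
    have he : (1 : Matrix d d ℂ).map (· / (Fintype.card d : ℂ)) =
        (((Fintype.card d : ℝ)⁻¹ : ℝ) : ℂ) • (1 : Matrix d d ℂ) := by
      ext i j
      by_cases hij : i = j
      · subst hij
        simp [div_eq_inv_mul]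
      · simp [Matrix.one_apply_ne hij]
    rw [he]
    constructor
    · refine Matrix.PosSemidef.one.smul ?_
      have : (0 : ℝ) ≤ (Fintype.card d : ℝ)⁻¹ := by positivity
      exact_mod_cast this
    · rw [Matrix.trace_smul, Matrix.trace_one]
      simp [hc]
  · have hpos : 0 < B.trace.re := lt_of_le_of_ne (trace_re_nonneg hB) (Ne.symm h)
    have hne : ((B.trace.re : ℝ) : ℂ) ≠ 0 := by exact_mod_cast h
    constructor
    · refine hB.smul ?_
      have : (0 : ℝ) ≤ (B.trace.re)⁻¹ := by positivity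
      exact_mod_cast this
    · rw [Matrix.trace_smul, ← trace_ofReal hB]
      simp [hne]

theorem nrm_smul [Nonempty d] {B : Matrix d d ℂ} (hB : B.PosSemidef) : ((B.trace.re : ℝ) : ℂ) • nrm B = B := by
  by_cases h : B.trace.re = 0
  · rw [h, eq_zero_of_trace_re2 hB h]
    simp
  · have hne : ((B.trace.re : ℝ) : ℂ) ≠ 0 := by exact_mod_cast h
    unfold nrm
    rw [if_neg h, smul_smul, mul_inv_cancel₀ hne, one_smul]

theorem entropy_nrm [Nonempty d] {Ψ : Matrix d d ℂ → Matrix e e ℂ} (hΨ : IsChannel Ψ) {B : Matrix d d ℂ}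
    (hB : B.PosSemidef) :
    vnEntropy (Ψ B) - Real.negMulLog B.trace.re = B.trace.re * vnEntropy (Ψ (nrm B)) := by
  have hd := nrm_density hB
  have hP := channel_psd hΨ hd.1
  have h1 : Ψ B = B.trace.re • Ψ (nrm B) := by
    conv_lhs => rw [← nrm_smul hB, hΨ.1.map_smul]
    ext i j
    simp
  rw [h1, vnEntropy_smul hP (trace_re_nonneg hB), hΨ.2.2, hd.2]
  simp

/-- Minimum output entropy step. -/
theorem moe_step {γ ν : ℝ} (hγ : γ ∈ Icc (0 : ℝ) 1) (hν : ν ∈ Icc (0 : ℝ) 1)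
    {Ψ : Matrix d d ℂ → Matrix e e ℂ} (hΨ : IsChannel Ψ)
    {ρ : Matrix (Bool × d) (Bool × d) ℂ} (hρ : IsDensity ρ) :
    ∃ (ρ₁ : Matrix Bool Bool ℂ) (ρ₂ : Matrix d d ℂ), IsDensity ρ₁ ∧ IsDensity ρ₂ ∧
      vnEntropy (gadMap γ ν ρ₁) + vnEntropy (Ψ ρ₂) ≤ vnEntropy (qubitTensor (gadMap γ ν) Ψ ρ) := by
  have hne : Nonempty d := by
    by_contra hne
    rw [not_nonempty_iff] at hne
    have := hρ.2
    simp [Matrix.trace] at this
  obtain ⟨hp, hff_tr, hff, htt⟩ := exPop_mem hρ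
  have hs1 : (1 : ℝ) ^ 2 = 1 := by norm_num
  have hstep := entropy_step hγ hν hΨ hρ
  have h0 := entropy_nrm hΨ hff
  have h1 := entropy_nrm hΨ htt
  rw [hff_tr] at h0
  change _ - Real.negMulLog (exPop ρ) = exPop ρ * _ at h1
  rw [h0, h1] at hstep
  rcases le_total (vnEntropy (Ψ (nrm (block ρ false false)))) (vnEntropy (Ψ (nrm (block ρ true true)))) with h | h
  · refine ⟨jp 1 (exPop ρ), nrm (block ρ false false), jp_density hs1 hp, nrm_density hff, ?_⟩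
    rw [gad_jp_entropy hγ hν hs1 hp]
    nlinarith [hp.1, hp.2]
  · refine ⟨jp 1 (exPop ρ), nrm (block ρ true true), jp_density hs1 hp, nrm_density htt, ?_⟩
    rw [gad_jp_entropy hγ hν hs1 hp]
    nlinarith [hp.1, hp.2]

lemma sum_fin_add {M : Type*} [AddCommMonoid M] {m : ℕ} (f : Fin m ⊕ Fin m → M) :
    ∑ k : Fin (m + m), f (finSumFinEquiv.symm k) = ∑ i, f (Sum.inl i) + ∑ i, f (Sum.inr i) := by
  rw [Equiv.sum_comp finSumFinEquiv.symm f, Fintype.sum_sum_type]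

lemma qb_sum_smul {ι : Type*} [Fintype ι] (q : ι → ℝ) (A B C D : ι → Matrix e e ℂ) :
    (∑ i, ((q i : ℝ) : ℂ) • qb (A i) (B i) (C i) (D i)) =
      qb (∑ i, ((q i : ℝ) : ℂ) • A i) (∑ i, ((q i : ℝ) : ℂ) • B i)
        (∑ i, ((q i : ℝ) : ℂ) • C i) (∑ i, ((q i : ℝ) : ℂ) • D i) := by
  ext ⟨s, i⟩ ⟨t, j⟩
  cases s <;> cases t <;> simp [qb, Matrix.sum_apply]

/-- Holevo step. Ensemble `(q_i, ρ_i)`, `p_i = exPop ρ_i`, `p̄ = Σ q_i p_i`. Let `X_i, Z_i = Ψ(diagonal blocks)`, `X̄ = Σ q_i X_i`, `Z̄ = Σ q_i Z_i`,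
`ω̄ = Σ q_i N⊗Ψ(ρ_i)`, and `T₁ = aX̄+bZ̄`, `T₂ = cX̄+dZ̄` its diagonal blocks; `t₂ = Tr T₂ = (1-γ)p̄+γν`, `t₁ = 1 - t₂`.
(1) `S(ω̄) ≤ S̃(T₁)+S̃(T₂)` (`vnEntropy_le_blocks`; `ω̄` has block form since each term has; use `qb` linear or view `ω̄` PSD).
(2) `S̃(T₁)+S̃(T₂) ≤ h(t₂) + S(T₁+T₂)`: from `vnEntropy_add_ge` (`P=T₁`,`Q=T₂`: `η(1)-η(t₁)-η(t₂) ≤ S(T₁+T₂)-S̃T₁-S̃T₂`), and `T₁+T₂ = X̄+Z̄ = Ψ(ρ̄_A)`, `ρ̄_A = Σ q_i (ρ_i^{ff}+ρ_i^{tt})`.
(3) `Σ q_i S(N⊗Ψ ρ_i) ≥ Σ q_i F(p_i) + Σ q_i[(1-p_i) S(Ψ ρ̂⁰_i) + p_i S(Ψ ρ̂¹_i)]` by `entropy_step`+`entropy_nrm`, and `Σ q_i F(p_i) ≥ F(p̄)` by `Fgad_convex` (`ConvexOn.map_sum_le`).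
(4) Output ensemble `ρ₂`: `Fin m ⊕ Fin m ≃ Fin (m+m)` (or `Fin (2*m)`), weights `q_i(1-p_i)` with state `ρ̂⁰_i`, weights `q_i p_i` with state `ρ̂¹_i`;
its average input is `ρ̄_A` (by `nrm_smul`), so its Holevo information is `S(Ψ ρ̄_A) - Σ q_i[(1-p_i)S(Ψ ρ̂⁰_i)+p_i S(Ψ ρ̂¹_i)]`.
Total: `χ ≤ h(t₂) - F(p̄) + χ₂ = gadRate γ ν p̄ + χ₂` (`gadRate_eq`). -/
theorem holevo_step {γ ν : ℝ} (hγ : γ ∈ Icc (0 : ℝ) 1) (hν : ν ∈ Icc (0 : ℝ) 1)
    {Ψ : Matrix d d ℂ → Matrix e e ℂ} (hΨ : IsChannel Ψ)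
    {m : ℕ} {q : Fin m → ℝ} {ρ : Fin m → Matrix (Bool × d) (Bool × d) ℂ} (hens : IsEnsemble q ρ) :
    ∃ p ∈ Icc (0 : ℝ) 1, ∃ (m₂ : ℕ) (q₂ : Fin m₂ → ℝ) (ρ₂ : Fin m₂ → Matrix d d ℂ), IsEnsemble q₂ ρ₂ ∧
      holevoInfo (qubitTensor (gadMap γ ν) Ψ) q ρ ≤ gadRate γ ν p + holevoInfo Ψ q₂ ρ₂ := by
  obtain ⟨hq0, hq1, hρ⟩ := hens
  have hm : Nonempty (Fin m) := by
    by_contra hne
    rw [not_nonempty_iff] at hne
    simp at hq1
  have hne : Nonempty d := by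
    by_contra hne
    rw [not_nonempty_iff] at hne
    have := (hρ hm.some).2
    simp [Matrix.trace] at this
  have hex := fun i => exPop_mem (hρ i)
  set P : Fin m → ℝ := fun i => exPop (ρ i) with hP
  have hP0 : ∀ i, 0 ≤ P i := fun i => (hex i).1.1
  have hP1 : ∀ i, P i ≤ 1 := fun i => (hex i).1.2
  set pb : ℝ := ∑ i, q i * P i with hpb
  have hpbm : pb ∈ Icc (0 : ℝ) 1 := by
    refine ⟨Finset.sum_nonneg fun i _ => mul_nonneg (hq0 i) (hP0 i), ?_⟩
    calc pb ≤ ∑ i, q i * 1 := Finset.sum_le_sum fun i _ => mul_le_mul_of_nonneg_left (hP1 i) (hq0 i)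
      _ = 1 := by simp [hq1]
  -- the blocks
  set B0 : Fin m → Matrix d d ℂ := fun i => block (ρ i) false false with hB0
  set B1 : Fin m → Matrix d d ℂ := fun i => block (ρ i) true true with hB1
  have hB0p : ∀ i, (B0 i).PosSemidef := fun i => (hex i).2.2.1
  have hB1p : ∀ i, (B1 i).PosSemidef := fun i => (hex i).2.2.2
  have htr0 : ∀ i, (B0 i).trace.re = 1 - P i := fun i => (hex i).2.1
  have htr1 : ∀ i, (B1 i).trace.re = P i := fun i => rfl
  -- the output ensemble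
  let ee := finSumFinEquiv (m := m) (n := m)
  let q₂f : Fin m ⊕ Fin m → ℝ := Sum.elim (fun i => q i * (1 - P i)) (fun i => q i * P i)
  let ρ₂f : Fin m ⊕ Fin m → Matrix d d ℂ := Sum.elim (fun i => nrm (B0 i)) (fun i => nrm (B1 i))
  refine ⟨pb, hpbm, m + m, fun k => q₂f (ee.symm k), fun k => ρ₂f (ee.symm k), ⟨?_, ?_, ?_⟩, ?_⟩
  · intro k
    show 0 ≤ q₂f (ee.symm k)
    generalize ee.symm k = z
    rcases z with i | i
    · exact mul_nonneg (hq0 i) (sub_nonneg.2 (hP1 i))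
    · exact mul_nonneg (hq0 i) (hP0 i)
  · rw [sum_fin_add q₂f, ← Finset.sum_add_distrib]
    simp only [q₂f, Sum.elim_inl, Sum.elim_inr]
    have : ∀ i, q i * (1 - P i) + q i * P i = q i := fun i => by ring
    simp only [this]
    exact hq1
  · intro k
    show IsDensity (ρ₂f (ee.symm k))
    generalize ee.symm k = z
    rcases z with i | i
    · exact nrm_density (hB0p i)
    · exact nrm_density (hB1p i)
  -- the main computation
  set X : Fin m → Matrix e e ℂ := fun i => Ψ (B0 i) with hX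
  set Y : Fin m → Matrix e e ℂ := fun i => Ψ (block (ρ i) false true) with hY
  set Z : Fin m → Matrix e e ℂ := fun i => Ψ (B1 i) with hZ
  have hXp : ∀ i, (X i).PosSemidef := fun i => channel_psd hΨ (hB0p i)
  have hZp : ∀ i, (Z i).PosSemidef := fun i => channel_psd hΨ (hB1p i)
  have hXtr : ∀ i, (X i).trace = (((1 - P i : ℝ)) : ℂ) := by
    intro i
    rw [hX, hΨ.2.2, ← trace_ofReal (hB0p i), htr0]
  have hZtr : ∀ i, (Z i).trace = ((P i : ℝ) : ℂ) := by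
    intro i
    rw [hZ, hΨ.2.2, ← trace_ofReal (hB1p i), htr1]
  set a : ℝ := 1 - γ * ν with ha
  set b : ℝ := γ * (1 - ν) with hb
  set c : ℝ := γ * ν with hc
  set f : ℝ := 1 - γ + γ * ν with hf
  set sq : ℂ := ((Real.sqrt (1 - γ) : ℝ) : ℂ) with hsq
  set T1 : Fin m → Matrix e e ℂ := fun i => a • X i + b • Z i with hT1
  set T2 : Fin m → Matrix e e ℂ := fun i => c • X i + f • Z i with hT2
  have hω : ∀ i, qubitTensor (gadMap γ ν) Ψ (ρ i) = qb (T1 i) (sq • Y i) (sq • (Y i)ᴴ) (T2 i) :=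
    fun i => qubitTensor_gad_eq γ ν hΨ (hρ i).1
  have hωp : ∀ i, (qb (T1 i) (sq • Y i) (sq • (Y i)ᴴ) (T2 i)).PosSemidef :=
    fun i => qubitTensor_gad_psd hγ hν (blocks_psd hΨ (hρ i).1)
  have hqc : ∀ i, (0 : ℂ) ≤ ((q i : ℝ) : ℂ) := fun i => by exact_mod_cast hq0 i
  have hωb : (qb (∑ i, ((q i : ℝ) : ℂ) • T1 i) (∑ i, ((q i : ℝ) : ℂ) • (sq • Y i))
      (∑ i, ((q i : ℝ) : ℂ) • (sq • (Y i)ᴴ)) (∑ i, ((q i : ℝ) : ℂ) • T2 i)).PosSemidef := by
    rw [← qb_sum_smul]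
    exact Matrix.posSemidef_sum _ fun i _ => (hωp i).smul (hqc i)
  set T₁ := ∑ i, ((q i : ℝ) : ℂ) • T1 i with hT₁
  set T₂ := ∑ i, ((q i : ℝ) : ℂ) • T2 i with hT₂
  have hT₁p : T₁.PosSemidef := qb_psd_left hωb
  have hT₂p : T₂.PosSemidef := qb_psd_right hωb
  -- step (1)
  have s1 : vnEntropy (∑ i, ((q i : ℝ) : ℂ) • qubitTensor (gadMap γ ν) Ψ (ρ i)) ≤
      vnEntropy T₁ + vnEntropy T₂ := by
    simp only [hω]
    rw [qb_sum_smul]
    exact vnEntropy_le_blocks hωb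
  -- traces
  set t : ℝ := (1 - γ) * pb + γ * ν with ht
  have hsumP : ∑ i, q i * (1 - P i) = 1 - pb := by
    simp only [mul_sub, mul_one, Finset.sum_sub_distrib, hq1, hpb]
  have hT₂tr : T₂.trace.re = t := by
    have : ∀ i, (((q i : ℝ) : ℂ) • T2 i).trace.re = c * (q i * (1 - P i)) + f * (q i * P i) := by
      intro i
      simp only [hT2, Matrix.trace_smul, Matrix.trace_add, hXtr, hZtr, smul_eq_mul, Complex.real_smul]
      simp only [← Complex.ofReal_mul, ← Complex.ofReal_add, Complex.ofReal_re]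
      ring
    rw [hT₂, Matrix.trace_sum, Complex.re_sum]
    simp only [this, Finset.sum_add_distrib, ← Finset.mul_sum]
    rw [hsumP, ← hpb, ht, hc, hf]
    ring
  have hT₁tr : T₁.trace.re = 1 - t := by
    have : ∀ i, (((q i : ℝ) : ℂ) • T1 i).trace.re = a * (q i * (1 - P i)) + b * (q i * P i) := by
      intro i
      simp only [hT1, Matrix.trace_smul, Matrix.trace_add, hXtr, hZtr, smul_eq_mul, Complex.real_smul]
      simp only [← Complex.ofReal_mul, ← Complex.ofReal_add, Complex.ofReal_re]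
      ring
    rw [hT₁, Matrix.trace_sum, Complex.re_sum]
    simp only [this, Finset.sum_add_distrib, ← Finset.mul_sum]
    rw [hsumP, ← hpb, ht, ha, hb]
    ring
  -- step (2)
  set W : Matrix e e ℂ := ∑ i, ((q i : ℝ) : ℂ) • (X i + Z i) with hW
  have hT12 : T₁ + T₂ = W := by
    rw [hT₁, hT₂, hW, ← Finset.sum_add_distrib]
    refine Finset.sum_congr rfl fun i _ => ?_
    rw [← smul_add]
    congr 1
    simp only [hT1, hT2]
    ext r s
    simp only [Matrix.add_apply, Matrix.smul_apply, Complex.real_smul, ha, hb, hc, hf]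
    push_cast
    ring
  have s2 := vnEntropy_add_ge hT₁p hT₂p
  rw [hT₁tr, hT₂tr, hT12] at s2
  have hone : 1 - t + t = 1 := by ring
  rw [hone, Real.negMulLog_one] at s2
  -- step (3)
  set S0 : Fin m → ℝ := fun i => vnEntropy (Ψ (nrm (B0 i))) with hS0
  set S1 : Fin m → ℝ := fun i => vnEntropy (Ψ (nrm (B1 i))) with hS1
  have s3 : ∀ i, Fgad γ ν (P i) + (1 - P i) * S0 i + P i * S1 i ≤
      vnEntropy (qubitTensor (gadMap γ ν) Ψ (ρ i)) := by
    intro i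
    have h := entropy_step hγ hν hΨ (hρ i)
    have h0 := entropy_nrm hΨ (hB0p i)
    have h1 := entropy_nrm hΨ (hB1p i)
    rw [htr0 i] at h0
    rw [htr1 i] at h1
    have e0 : vnEntropy (Ψ (block (ρ i) false false)) - Real.negMulLog (1 - exPop (ρ i)) =
        (1 - P i) * S0 i := h0
    have e1 : vnEntropy (Ψ (block (ρ i) true true)) - Real.negMulLog (exPop (ρ i)) =
        P i * S1 i := h1
    rw [e0, e1] at h
    exact h
  have s3' : ∑ i, q i * Fgad γ ν (P i) + ∑ i, (q i * (1 - P i) * S0 i + q i * P i * S1 i) ≤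
      ∑ i, q i * vnEntropy (qubitTensor (gadMap γ ν) Ψ (ρ i)) := by
    rw [← Finset.sum_add_distrib]
    refine Finset.sum_le_sum fun i _ => ?_
    have := mul_le_mul_of_nonneg_left (s3 i) (hq0 i)
    calc _ = q i * (Fgad γ ν (P i) + (1 - P i) * S0 i + P i * S1 i) := by ring
      _ ≤ _ := this
  have s3c : Fgad γ ν pb ≤ ∑ i, q i * Fgad γ ν (P i) := by
    have := (Fgad_convex hγ hν).map_sum_le (t := Finset.univ) (w := q) (p := P)
      (fun i _ => hq0 i) hq1 (fun i _ => (hex i).1)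
    simpa [smul_eq_mul, hpb] using this
  -- step (4)
  have hout : (∑ k, ((q₂f (ee.symm k) : ℝ) : ℂ) • Ψ (ρ₂f (ee.symm k))) = W := by
    rw [sum_fin_add (fun z => ((q₂f z : ℝ) : ℂ) • Ψ (ρ₂f z)), hW, ← Finset.sum_add_distrib]
    refine Finset.sum_congr rfl fun i _ => ?_
    simp only [q₂f, ρ₂f, Sum.elim_inl, Sum.elim_inr]
    have e0 : X i = ((1 - P i : ℝ) : ℂ) • Ψ (nrm (B0 i)) := by
      conv_lhs => rw [hX]
      show Ψ (B0 i) = _
      conv_lhs => rw [← nrm_smul (hB0p i), hΨ.1.map_smul, htr0]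
    have e1 : Z i = ((P i : ℝ) : ℂ) • Ψ (nrm (B1 i)) := by
      conv_lhs => rw [hZ]
      show Ψ (B1 i) = _
      conv_lhs => rw [← nrm_smul (hB1p i), hΨ.1.map_smul, htr1]
    rw [smul_add, e0, e1, smul_smul, smul_smul]
    push_cast
    rfl
  have hent : (∑ k, q₂f (ee.symm k) * vnEntropy (Ψ (ρ₂f (ee.symm k)))) =
      ∑ i, (q i * (1 - P i) * S0 i + q i * P i * S1 i) := by
    rw [sum_fin_add (fun z => q₂f z * vnEntropy (Ψ (ρ₂f z))), ← Finset.sum_add_distrib]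
    exact Finset.sum_congr rfl fun i _ => rfl
  unfold holevoInfo
  rw [hout, hent, gadRate_eq, Real.binEntropy_eq_negMulLog_add_negMulLog_one_sub, ← ht]
  linarith

end Crest.Agent.H8G
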