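import Mathlib

set_option autoImplicit false
open Real Set MeasureTheory Filter Topology

namespace Crest.Agent.H8S0423

/-- TP₂ / increasing-differences form of log-concavity. -/
def TP2 (f : ℝ → ℝ) : Prop :=
  ∀ A B e : ℝ, 0 ≤ e → e ≤ B - A → f A * f B ≤ f (A + e) * f (B - e)

lemma TP2.comp_mul {f : ℝ → ℝ} (hf : TP2 f) {c : ℝ} (hc : c ≠ 0) :
    TP2 (fun w => f (c * w)) := by
  intro A B e he heb
  rcases lt_or_gt_of_ne hc with hc | hc
  · have h := hf (c * B) (c * A) (-(c * e)) (by nlinarith) (by nlinarith)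
    have e1 : c * B + -(c * e) = c * (B - e) := by ring
    have e2 : c * A - -(c * e) = c * (A + e) := by ring
    rw [e1, e2] at h
    simpa [mul_comm] using h
  · have h := hf (c * A) (c * B) (c * e) (by positivity) (by nlinarith)
    have e1 : c * A + c * e = c * (A + e) := by ring
    have e2 : c * B - c * e = c * (B - e) := by ring
    rw [e1, e2] at h
    exact h

/-- An antitone function with the additive TP₂ property is continuous. -/
lemma continuous_of_antitone_diff {u : ℝ → ℝ} (hu : Antitone u)
    (hd : ∀ A B e : ℝ, 0 ≤ e → e ≤ B - A → u A + u B ≤ u (A + e) + u (B - e)) :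
    Continuous u := by
  rw [continuous_iff_continuousAt]
  intro w₀
  have hdense : Dense {x | ContinuousAt u x} := by
    have := (hu.countable_not_continuousAt).dense_compl ℝ
    convert this using 1
    ext x; simp
  obtain ⟨w₂, hw₂, hlt⟩ := hdense.exists_gt w₀
  have key : ∀ d : ℝ, |u (w₀ + d) - u w₀| ≤ |u (w₂ + d) - u w₂| := by
    intro d
    rcases le_total 0 d with hd0 | hd0
    · have h1 := hd w₀ (w₂ + d) d hd0 (by linarith)
      have e1 : w₂ + d - d = w₂ := by ring
      rw [e1] at h1
      have h2 : u (w₀ + d) ≤ u w₀ := hu (by linarith)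
      have h3 : u (w₂ + d) ≤ u w₂ := hu (by linarith)
      rw [abs_of_nonpos (by linarith), abs_of_nonpos (by linarith)]
      linarith
    · have h1 := hd (w₀ + d) w₂ (-d) (by linarith) (by linarith)
      have e1 : w₀ + d + -d = w₀ := by ring
      have e2 : w₂ - -d = w₂ + d := by ring
      rw [e1, e2] at h1
      have h2 : u w₀ ≤ u (w₀ + d) := hu (by linarith)
      have h3 : u w₂ ≤ u (w₂ + d) := hu (by linarith)
      rw [abs_of_nonneg (by linarith), abs_of_nonneg (by linarith)]
      linarith
  rw [Metric.continuousAt_iff]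
  intro ε hε
  obtain ⟨δ, hδ, hh⟩ := Metric.continuousAt_iff.mp hw₂ ε hε
  refine ⟨δ, hδ, ?_⟩
  intro x hx
  have h1 := key (x - w₀)
  have e1 : w₀ + (x - w₀) = x := by ring
  rw [e1] at h1
  have h2 := hh (x := w₂ + (x - w₀)) (by simpa [Real.dist_eq] using hx)
  rw [Real.dist_eq] at h2 ⊢
  linarith

/-- Non-negativity on an interval for a continuous midpoint-concave function vanishing at the
endpoints. -/
lemma nonneg_of_midpoint {v : ℝ → ℝ} (hc : Continuous v)
    (hm : ∀ x y, (v x + v y) / 2 ≤ v ((x + y) / 2)) {x y : ℝ} (hxy : x ≤ y)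
    (hx : 0 ≤ v x) (hy : 0 ≤ v y) {z : ℝ} (hz : z ∈ Icc x y) : 0 ≤ v z := by
  by_contra hneg
  push Not at hneg
  obtain ⟨z₁, hz₁, hmin⟩ := isCompact_Icc.exists_isMinOn (nonempty_Icc.mpr hxy) hc.continuousOn
  set m := v z₁ with hmdef
  have hmneg : m < 0 := lt_of_le_of_lt (hmin hz) hneg
  set Z := Icc x y ∩ {w | v w = m} with hZ
  have hZclosed : IsClosed Z := isClosed_Icc.inter (isClosed_eq hc continuous_const)
  have hZne : Z.Nonempty := ⟨z₁, hz₁, rfl⟩
  have hZbdd : BddBelow Z := ⟨x, fun w hw => hw.1.1⟩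
  have hs : sInf Z ∈ Z := hZclosed.csInf_mem hZne hZbdd
  set s := sInf Z with hsdef
  have hsx : x < s := by
    rcases lt_or_eq_of_le hs.1.1 with h | h
    · exact h
    · exfalso
      have : v s = m := hs.2
      rw [← h] at this
      linarith
  have hsy : s < y := by
    rcases lt_or_eq_of_le hs.1.2 with h | h
    · exact h
    · exfalso
      have : v s = m := hs.2
      rw [h] at this
      linarith
  set h := min (s - x) (y - s) with hh
  have hpos : 0 < h := lt_min (by linarith) (by linarith)
  have h1 : h ≤ s - x := min_le_left _ _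
  have h2 : h ≤ y - s := min_le_right _ _
  have hmp := hm (s - h) (s + h)
  have e : (s - h + (s + h)) / 2 = s := by ring
  rw [e] at hmp
  have hvs : v s = m := hs.2
  have hlow : m ≤ v (s + h) := hmin ⟨by linarith, by linarith⟩
  have hlow2 : m < v (s - h) := by
    have hle : m ≤ v (s - h) := hmin ⟨by linarith, by linarith⟩
    rcases lt_or_eq_of_le hle with h3 | h3
    · exact h3
    · exfalso
      have hmem : s - h ∈ Z := ⟨⟨by linarith, by linarith⟩, h3.symm⟩
      have := csInf_le hZbdd hmem
      linarith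
  linarith

/-- Midpoint concave + continuous ⇒ concave. -/
lemma concaveOn_of_midpoint {u : ℝ → ℝ} (hc : Continuous u)
    (hm : ∀ x y, (u x + u y) / 2 ≤ u ((x + y) / 2)) : ConcaveOn ℝ univ u := by
  refine ⟨convex_univ, ?_⟩
  -- reduce to the ordered case
  have key : ∀ x y a b : ℝ, x ≤ y → 0 ≤ a → 0 ≤ b → a + b = 1 →
      a * u x + b * u y ≤ u (a * x + b * y) := by
    intro x y a b hxy ha hb hab
    rcases eq_or_lt_of_le hxy with rfl | hlt
    · have : a * x + b * x = x := by rw [← add_mul, hab, one_mul]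
      rw [this, ← add_mul, hab, one_mul]
    set σ := (u y - u x) / (y - x) with hσ
    have hne : y - x ≠ 0 := ne_of_gt (sub_pos.mpr hlt)
    set v : ℝ → ℝ := fun z => u z - (u x + σ * (z - x)) with hv
    have hvc : Continuous v := by
      simp only [hv]; fun_prop
    have hvm : ∀ p q, (v p + v q) / 2 ≤ v ((p + q) / 2) := by
      intro p q
      have := hm p q
      simp only [hv]
      nlinarith
    have hvx : v x = 0 := by simp [hv]
    have hvy : v y = 0 := by
      simp only [hv, hσ]
      field_simp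
      ring
    have hz : a * x + b * y ∈ Icc x y := by
      have hb' : b = 1 - a := by linarith
      constructor
      · subst hb'; nlinarith
      · subst hb'; nlinarith
    have h0 := nonneg_of_midpoint hvc hvm hxy hvx.ge hvy.ge hz
    simp only [hv] at h0
    have e1 : a * u x + b * u y = u x + σ * (a * x + b * y - x) := by
      have hb' : b = 1 - a := by linarith
      subst hb'
      simp only [hσ]
      field_simp
      ring
    rw [e1]
    linarith
  intro x _ y _ a b ha hb hab
  simp only [smul_eq_mul]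
  rcases le_total x y with h | h
  · exact key x y a b h ha hb hab
  · have := key y x b a h hb ha (by linarith)
    rw [add_comm (a * x) (b * y), add_comm (a * u x) (b * u y)]
    exact this

/-- From the additive TP₂ property for an antitone function to concavity + continuity. -/
lemma concave_of_antitone_diff {u : ℝ → ℝ} (hu : Antitone u)
    (hd : ∀ A B e : ℝ, 0 ≤ e → e ≤ B - A → u A + u B ≤ u (A + e) + u (B - e)) :
    Continuous u ∧ ConcaveOn ℝ univ u := by
  have hc := continuous_of_antitone_diff hu hd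
  refine ⟨hc, concaveOn_of_midpoint hc ?_⟩
  intro x y
  rcases le_total x y with h | h
  · have := hd x y ((y - x) / 2) (by linarith) (by linarith)
    have e1 : x + (y - x) / 2 = (x + y) / 2 := by ring
    have e2 : y - (y - x) / 2 = (x + y) / 2 := by ring
    rw [e1, e2] at this
    linarith
  · have := hd y x ((x - y) / 2) (by linarith) (by linarith)
    have e1 : y + (x - y) / 2 = (x + y) / 2 := by ring
    have e2 : x - (x - y) / 2 = (x + y) / 2 := by ring
    rw [e1, e2] at this
    linarith

/-- Packaging: a positive antitone TP₂ function has continuous concave logarithm. -/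
lemma log_concave_of_TP2 {S : ℝ → ℝ} (hpos : ∀ w, 0 < S w) (hanti : Antitone S) (hS : TP2 S) :
    Continuous (fun w => Real.log (S w)) ∧ ConcaveOn ℝ univ (fun w => Real.log (S w)) := by
  apply concave_of_antitone_diff
  · intro a b hab
    exact Real.log_le_log (hpos b) (hanti hab)
  · intro A B e he heb
    have h := hS A B e he heb
    have h1 := Real.log_le_log (mul_pos (hpos A) (hpos B)) h
    rwa [Real.log_mul (hpos A).ne' (hpos B).ne',
      Real.log_mul (hpos _).ne' (hpos _).ne'] at h1

/-- Concave function versus the line through two points of its graph. -/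
lemma chord_lemma {s : Set ℝ} {f : ℝ → ℝ} (hf : ConcaveOn ℝ s f) {x₁ x₂ α β : ℝ}
    (hx₁ : x₁ ∈ s) (hx₂ : x₂ ∈ s) (hlt : x₁ < x₂)
    (h₁ : f x₁ = α + β * x₁) (h₂ : f x₂ = α + β * x₂) :
    (∀ x ∈ s, x₁ ≤ x → x ≤ x₂ → α + β * x ≤ f x) ∧
    (∀ x ∈ s, x ≤ x₁ ∨ x₂ ≤ x → f x ≤ α + β * x) := by
  have hd : 0 < x₂ - x₁ := sub_pos.mpr hlt
  constructor
  · intro x hx h1 h2
    have h := hf.2 hx₁ hx₂ (show 0 ≤ (x₂ - x) / (x₂ - x₁) from div_nonneg (by linarith) hd.le)
      (show 0 ≤ (x - x₁) / (x₂ - x₁) from div_nonneg (by linarith) hd.le)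
      (by field_simp; ring)
    simp only [smul_eq_mul] at h
    have e : (x₂ - x) / (x₂ - x₁) * x₁ + (x - x₁) / (x₂ - x₁) * x₂ = x := by
      field_simp; ring
    rw [e, h₁, h₂] at h
    have e2 : (x₂ - x) / (x₂ - x₁) * (α + β * x₁) + (x - x₁) / (x₂ - x₁) * (α + β * x₂)
        = α + β * x := by
      field_simp; ring
    rwa [e2] at h
  · intro x hx hout
    rcases hout with h1 | h1
    · rcases eq_or_lt_of_le h1 with rfl | h1
      · exact h₁.le
      have hd' : 0 < x₂ - x := by linarith
      have h := hf.2 hx hx₂ (show 0 ≤ (x₂ - x₁) / (x₂ - x) from div_nonneg (by linarith) hd'.le)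
        (show 0 ≤ (x₁ - x) / (x₂ - x) from div_nonneg (by linarith) hd'.le)
        (by field_simp; ring)
      simp only [smul_eq_mul] at h
      have e : (x₂ - x₁) / (x₂ - x) * x + (x₁ - x) / (x₂ - x) * x₂ = x₁ := by
        field_simp; ring
      rw [e, h₁, h₂] at h
      have hpos : 0 < (x₂ - x₁) / (x₂ - x) := div_pos hd hd'
      have e2 : (x₁ - x) / (x₂ - x) * (α + β * x₂)
          = α + β * x₁ - (x₂ - x₁) / (x₂ - x) * (α + β * x) := by
        field_simp; ring
      rw [e2] at h
      have h3 : (x₂ - x₁) / (x₂ - x) * f x ≤ (x₂ - x₁) / (x₂ - x) * (α + β * x) := by linarith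
      exact le_of_mul_le_mul_left h3 hpos
    · rcases eq_or_lt_of_le h1 with rfl | h1
      · exact h₂.le
      have hd' : 0 < x - x₁ := by linarith
      have h := hf.2 hx₁ hx (show 0 ≤ (x - x₂) / (x - x₁) from div_nonneg (by linarith) hd'.le)
        (show 0 ≤ (x₂ - x₁) / (x - x₁) from div_nonneg (by linarith) hd'.le)
        (by field_simp; ring)
      simp only [smul_eq_mul] at h
      have e : (x - x₂) / (x - x₁) * x₁ + (x₂ - x₁) / (x - x₁) * x = x₂ := by
        field_simp; ring
      rw [e, h₁, h₂] at h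
      have hpos : 0 < (x₂ - x₁) / (x - x₁) := div_pos hd hd'
      have e2 : (x - x₂) / (x - x₁) * (α + β * x₁)
          = α + β * x₂ - (x₂ - x₁) / (x - x₁) * (α + β * x) := by
        field_simp; ring
      rw [e2] at h
      have h3 : (x₂ - x₁) / (x - x₁) * f x ≤ (x₂ - x₁) / (x - x₁) * (α + β * x) := by linarith
      exact le_of_mul_le_mul_left h3 hpos

end Crest.Agent.H8S0423
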