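import Mathlib
import Crest.Agent.H8S0423A

set_option autoImplicit false
open Real Set MeasureTheory Filter Topology

namespace Crest.Agent.H8S0423

/-- density of the standard exponential law -/
noncomputable def E (x : ℝ) : ℝ := if 0 < x then Real.exp (-x) else 0

lemma E_eq_indicator : E = (Ioi (0:ℝ)).indicator (fun x => Real.exp (-x)) := by
  ext x; simp [E, indicator]

lemma E_nonneg (x : ℝ) : 0 ≤ E x := by
  unfold E; split_ifs <;> positivity

lemma E_pos {x : ℝ} (hx : 0 < x) : 0 < E x := by
  unfold E; rw [if_pos hx]; positivity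

lemma E_le_one (x : ℝ) : E x ≤ 1 := by
  unfold E; split_ifs with h
  · exact Real.exp_le_one_iff.mpr (by linarith)
  · norm_num

lemma E_measurable : Measurable E := by
  rw [E_eq_indicator]
  exact (Real.measurable_exp.comp measurable_neg).indicator measurableSet_Ioi

lemma E_integrable : Integrable E := by
  rw [E_eq_indicator, integrable_indicator_iff measurableSet_Ioi]
  have := exp_neg_integrableOn_Ioi 0 (b := 1) one_pos
  simpa using this

lemma integral_E : ∫ x, E x = 1 := by
  rw [E_eq_indicator, integral_indicator measurableSet_Ioi, integral_exp_neg_Ioi_zero]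

lemma hasDerivAt_mul_exp (α y : ℝ) (hα : 0 < α) :
    HasDerivAt (fun y => -(y / α + 1 / α ^ 2) * Real.exp (-α * y)) (y * Real.exp (-α * y)) y := by
  have h0 : HasDerivAt (fun y : ℝ => y / α + 1 / α ^ 2) (1 / α) y :=
    ((hasDerivAt_id y).div_const α).add_const (1 / α ^ 2)
  have h1 : HasDerivAt (fun y : ℝ => -(y / α + 1 / α ^ 2)) (-(1 / α)) y := h0.neg
  have h2 : HasDerivAt (fun y : ℝ => Real.exp (-α * y)) (Real.exp (-α * y) * (-α)) y := by
    have := ((hasDerivAt_id y).const_mul (-α)).exp
    simpa using this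
  have h := h1.mul h2
  have hne : α ≠ 0 := hα.ne'
  have e : y * Real.exp (-α * y) = -(1 / α) * Real.exp (-α * y) +
      -(y / α + 1 / α ^ 2) * (Real.exp (-α * y) * (-α)) := by
    field_simp
    ring
  rw [e]
  exact h

lemma tendsto_mul_exp (α : ℝ) (hα : 0 < α) :
    Tendsto (fun y => -(y / α + 1 / α ^ 2) * Real.exp (-α * y)) atTop (𝓝 0) := by
  have h1 : Tendsto (fun y : ℝ => (α * y) ^ 1 * Real.exp (-(α * y))) atTop (𝓝 0) :=
    (Real.tendsto_pow_mul_exp_neg_atTop_nhds_zero 1).comp (tendsto_id.const_mul_atTop hα)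
  have h2 : Tendsto (fun y : ℝ => Real.exp (-(α * y))) atTop (𝓝 0) :=
    Real.tendsto_exp_neg_atTop_nhds_zero.comp (tendsto_id.const_mul_atTop hα)
  have h3 := (h1.const_mul (-(1 / α ^ 2))).add (h2.const_mul (-(1 / α ^ 2)))
  simp only [mul_zero, add_zero] at h3
  refine h3.congr (fun y => ?_)
  have hne : α ≠ 0 := hα.ne'
  have e : -α * y = -(α * y) := by ring
  rw [e]
  field_simp
  ring

lemma integrableOn_mul_exp (α p : ℝ) (hα : 0 < α) (hp : 0 ≤ p) :
    IntegrableOn (fun y => y * Real.exp (-α * y)) (Ioi p) := by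
  refine integrableOn_Ioi_deriv_of_nonneg' (fun x _ => hasDerivAt_mul_exp α x hα) ?_
    (tendsto_mul_exp α hα)
  intro x hx
  have : 0 < x := lt_of_le_of_lt hp hx
  positivity

lemma integral_mul_exp (α p : ℝ) (hα : 0 < α) (hp : 0 ≤ p) :
    ∫ y in Ioi p, y * Real.exp (-α * y) = (p / α + 1 / α ^ 2) * Real.exp (-α * p) := by
  rw [integral_Ioi_of_hasDerivAt_of_nonneg' (fun x _ => hasDerivAt_mul_exp α x hα) ?_
    (tendsto_mul_exp α hα)]
  · ring
  · intro x hx
    have : 0 < x := lt_of_le_of_lt hp hx
    positivity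

/-- `x ↦ x e^{-x}` truncated to the positive half-line -/
noncomputable def mm (y : ℝ) : ℝ := y * E y

lemma mm_eq_indicator : mm = (Ioi (0:ℝ)).indicator (fun y => y * Real.exp (-1 * y)) := by
  ext y
  simp only [mm, E, indicator, mem_Ioi]
  split_ifs with h
  · simp
  · simp

lemma mm_nonneg (y : ℝ) : 0 ≤ mm y := by
  unfold mm E
  split_ifs with h
  · positivity
  · simp

lemma mm_le_one (y : ℝ) : mm y ≤ 1 := by
  unfold mm E
  split_ifs with h
  · have : y + 1 ≤ Real.exp y := Real.add_one_le_exp y
    rw [Real.exp_neg]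
    have hp := Real.exp_pos y
    rw [← div_eq_mul_inv, div_le_one hp]
    linarith
  · simp

lemma mm_measurable : Measurable mm := measurable_id.mul E_measurable

lemma mm_integrable : Integrable mm := by
  rw [mm_eq_indicator, integrable_indicator_iff measurableSet_Ioi]
  exact integrableOn_mul_exp 1 0 one_pos le_rfl

lemma integral_mm : ∫ y, mm y = 1 := by
  rw [mm_eq_indicator, integral_indicator measurableSet_Ioi, integral_mul_exp 1 0 one_pos le_rfl]
  simp

/-- Heaviside survival function of the constant `0`. -/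
noncomputable def H (w : ℝ) : ℝ := if w < 0 then 1 else 0

lemma H_measurable : Measurable H := by
  unfold H
  exact Measurable.ite measurableSet_Iio measurable_const measurable_const

lemma H_nonneg (w : ℝ) : 0 ≤ H w := by unfold H; split_ifs <;> norm_num
lemma H_le_one (w : ℝ) : H w ≤ 1 := by unfold H; split_ifs <;> norm_num

lemma H_antitone : Antitone H := by
  intro x y hxy
  unfold H
  by_cases hy : y < 0
  · rw [if_pos hy, if_pos (lt_of_le_of_lt hxy hy)]
  · rw [if_neg hy]; split_ifs <;> norm_num

lemma H_TP2 : TP2 H := by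
  intro A B e he heb
  have hnn : 0 ≤ H (A + e) * H (B - e) := mul_nonneg (H_nonneg _) (H_nonneg _)
  by_cases hB : B < 0
  · by_cases hA : A < 0
    · unfold H
      rw [if_pos hA, if_pos hB, if_pos (by linarith), if_pos (by linarith)]
    · have : H A = 0 := by unfold H; rw [if_neg hA]
      rw [this, zero_mul]
      exact hnn
  · have : H B = 0 := by unfold H; rw [if_neg hB]
    rw [this, mul_zero]
    exact hnn

/-- The integral operator `f ↦ E[f(w - a X)]`, `X` standard exponential. -/
noncomputable def T (a : ℝ) (f : ℝ → ℝ) (w : ℝ) : ℝ := ∫ x, f (w - a * x) * E x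

lemma integrable_bdd_mul_E {f : ℝ → ℝ} (hf : Measurable f) {C : ℝ} (hb : ∀ w, |f w| ≤ C) :
    Integrable (fun x => f x * E x) :=
  E_integrable.bdd_mul hf.aestronglyMeasurable (ae_of_all _ (fun x => by simpa using hb x))

lemma T_integrand_integrable {f : ℝ → ℝ} (hf : Measurable f) {C : ℝ} (hb : ∀ w, |f w| ≤ C)
    (a w : ℝ) : Integrable (fun x => f (w - a * x) * E x) :=
  integrable_bdd_mul_E (f := fun x => f (w - a * x)) (hf.comp (by fun_prop)) (fun x => hb _)

lemma T_antitone {f : ℝ → ℝ} (hanti : Antitone f) (hf : Measurable f) {C : ℝ}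
    (hb : ∀ w, |f w| ≤ C) (a : ℝ) : Antitone (T a f) := by
  intro w w' h
  apply integral_mono (T_integrand_integrable hf hb a w') (T_integrand_integrable hf hb a w)
  intro x
  exact mul_le_mul_of_nonneg_right (hanti (by linarith)) (E_nonneg x)

lemma T_nonneg {f : ℝ → ℝ} (h0 : ∀ w, 0 ≤ f w) (a w : ℝ) : 0 ≤ T a f w :=
  integral_nonneg (fun x => mul_nonneg (h0 _) (E_nonneg x))

lemma T_le_one {f : ℝ → ℝ} (hf : Measurable f) (h0 : ∀ w, 0 ≤ f w) (h1 : ∀ w, f w ≤ 1)
    (a w : ℝ) : T a f w ≤ 1 := by
  have hb : ∀ w, |f w| ≤ 1 := fun w => abs_le.mpr ⟨by linarith [h0 w], h1 w⟩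
  calc T a f w ≤ ∫ x, E x := by
        apply integral_mono (T_integrand_integrable hf hb a w) E_integrable
        intro x
        have := mul_le_mul_of_nonneg_right (h1 (w - a * x)) (E_nonneg x)
        simpa using this
    _ = 1 := integral_E

lemma T_zero (f : ℝ → ℝ) (w : ℝ) : T 0 f w = f w := by
  unfold T
  simp [integral_const_mul, integral_E]

lemma prod_integral_le {X Y : Set ℝ} (hX : MeasurableSet X) (hY : MeasurableSet Y)
    {φ₁ φ₂ ψ₁ ψ₂ : ℝ → ℝ} (h1 : IntegrableOn φ₁ X) (h2 : IntegrableOn φ₂ X)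
    (h3 : IntegrableOn ψ₁ Y) (h4 : IntegrableOn ψ₂ Y)
    (h : ∀ A ∈ X, ∀ B ∈ Y, φ₁ A * ψ₁ B ≤ φ₂ A * ψ₂ B) :
    (∫ A in X, φ₁ A) * (∫ B in Y, ψ₁ B) ≤ (∫ A in X, φ₂ A) * (∫ B in Y, ψ₂ B) := by
  have step : ∀ A ∈ X, φ₁ A * (∫ B in Y, ψ₁ B) ≤ φ₂ A * (∫ B in Y, ψ₂ B) := by
    intro A hA
    rw [← integral_const_mul, ← integral_const_mul]
    exact setIntegral_mono_on (h3.const_mul _) (h4.const_mul _) hY (h A hA)
  rw [← integral_mul_const, ← integral_mul_const]
  exact setIntegral_mono_on (h1.mul_const _) (h2.mul_const _) hX step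

lemma setIntegral_shift (p : ℝ → ℝ) (s : Set ℝ) (e : ℝ) :
    ∫ x in (fun y => y + e) ⁻¹' s, p (x + e) = ∫ x in s, p x :=
  (measurePreserving_add_right volume e).setIntegral_preimage_emb
    (measurableEmbedding_addRight e) p s

lemma integrableOn_shift {p : ℝ → ℝ} {s : Set ℝ} (e : ℝ) (h : IntegrableOn p s) :
    IntegrableOn (fun x => p (x + e)) ((fun y => y + e) ⁻¹' s) :=
  ((measurePreserving_add_right volume e).integrableOn_comp_preimage
    (measurableEmbedding_addRight e)).2 h

lemma R_TP2 {p : ℝ → ℝ} (hint : ∀ w, IntegrableOn p (Iio w)) (hp : TP2 p) :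
    TP2 (fun w => ∫ s in Iio w, p s) := by
  have key : ∀ A B c, 0 ≤ c → A + c ≤ B - c →
      (∫ s in Iio A, p s) * (∫ s in Iio B, p s) ≤
        (∫ s in Iio (A + c), p s) * (∫ s in Iio (B - c), p s) := by
    intro A B c hc hord
    set x' := A + c with hx'
    set y' := B - c with hy'
    set e := y' - A with he
    have he0 : 0 ≤ e := by simp only [he, hx', hy'] at *; linarith
    have hAx' : A ≤ x' := by simp only [hx']; linarith
    have hy'B : y' ≤ B := by simp only [hy']; linarith
    have split1 : ∫ s in Iio x', p s = (∫ s in Iio A, p s) + ∫ s in Ico A x', p s := by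
      rw [← Iio_union_Ico_eq_Iio hAx', setIntegral_union _ measurableSet_Ico
        ((hint A)) ((hint x').mono_set Ico_subset_Iio_self)]
      exact Set.disjoint_left.mpr (fun s hs hs2 => absurd hs2.1 (not_le.mpr hs))
    have split2 : ∫ s in Iio B, p s = (∫ s in Iio y', p s) + ∫ s in Ico y' B, p s := by
      rw [← Iio_union_Ico_eq_Iio hy'B, setIntegral_union _ measurableSet_Ico
        ((hint y')) ((hint B).mono_set Ico_subset_Iio_self)]
      exact Set.disjoint_left.mpr (fun s hs hs2 => absurd hs2.1 (not_le.mpr hs))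
    have pre1 : (fun y => y + (-e)) ⁻¹' (Ico A x') = Ico y' B := by
      ext s
      simp only [mem_preimage, mem_Ico, he, hx', hy']
      constructor
      · rintro ⟨h1, h2⟩; constructor <;> linarith
      · rintro ⟨h1, h2⟩; constructor <;> linarith
    have pre2 : (fun y => y + e) ⁻¹' (Iio y') = Iio A := by
      ext s
      simp only [mem_preimage, mem_Iio, he]
      constructor <;> intro h <;> linarith
    have shift1 : ∫ s in Ico A x', p s = ∫ s in Ico y' B, p (s + (-e)) := by
      rw [← setIntegral_shift p (Ico A x') (-e), pre1]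
    have shift2 : ∫ s in Iio y', p s = ∫ s in Iio A, p (s + e) := by
      rw [← setIntegral_shift p (Iio y') e, pre2]
    have hi1 : IntegrableOn (fun s => p (s + e)) (Iio A) := by
      have := integrableOn_shift e (hint y'); rwa [pre2] at this
    have hi2 : IntegrableOn (fun s => p (s + (-e))) (Ico y' B) := by
      have := integrableOn_shift (-e) ((hint x').mono_set (Ico_subset_Iio_self (a := A)))
      rwa [pre1] at this
    have hmain := prod_integral_le (X := Iio A) (Y := Ico y' B) measurableSet_Iio measurableSet_Ico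
      (φ₁ := p) (ψ₁ := p) (φ₂ := fun s => p (s + e)) (ψ₂ := fun s => p (s + (-e)))
      (hint A) hi1 ((hint B).mono_set Ico_subset_Iio_self) hi2
      (by
        intro s₁ hs₁ s₂ hs₂
        have hs₁' : s₁ < A := hs₁
        have hs₂' : y' ≤ s₂ := hs₂.1
        have := hp s₁ s₂ e he0 (by simp only [he]; linarith)
        simpa [sub_eq_add_neg] using this)
    rw [← shift1, ← shift2] at hmain
    rw [split1, split2]
    nlinarith
  intro A B e he heb
  by_cases hord : A + e ≤ B - e
  · exact key A B e he hord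
  · have := key A B (B - A - e) (by linarith) (by push Not at hord; linarith)
    have e1 : A + (B - A - e) = B - e := by ring
    have e2 : B - (B - A - e) = A + e := by ring
    rw [e1, e2] at this
    simp only
    linarith [mul_comm (∫ s in Iio (A + e), p s) (∫ s in Iio (B - e), p s)]

lemma T_one_eq (f : ℝ → ℝ) (w : ℝ) :
    T 1 f w = Real.exp (-w) * ∫ s in Iio w, f s * Real.exp s := by
  unfold T
  have h1 : (fun x => f (w - 1 * x) * E x) = fun x => (fun s => f s * E (w - s)) (w - x) := by
    ext x; simp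
  rw [h1, integral_sub_left_eq_self (fun s => f s * E (w - s)) volume w]
  have h2 : (fun s => f s * E (w - s)) =
      (Iio w).indicator (fun s => Real.exp (-w) * (f s * Real.exp s)) := by
    ext s
    by_cases hs : s < w
    · rw [indicator_of_mem (by exact hs)]
      have : E (w - s) = Real.exp (-(w - s)) := by
        unfold E; rw [if_pos (by linarith)]
      rw [this]
      have e : -(w - s) = -w + s := by ring
      rw [e, Real.exp_add]
      ring
    · rw [indicator_of_notMem (by exact hs)]
      have : E (w - s) = 0 := by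
        unfold E; rw [if_neg (by linarith)]
      rw [this]; ring
  rw [h2, integral_indicator measurableSet_Iio, integral_const_mul]

lemma T_one_TP2 {f : ℝ → ℝ} (hf : Measurable f) {C : ℝ} (hb : ∀ w, |f w| ≤ C) (hTP : TP2 f) :
    TP2 (T 1 f) := by
  set p : ℝ → ℝ := fun s => f s * Real.exp s with hp
  have hint : ∀ w, IntegrableOn p (Iio w) := by
    intro w
    have h := (integrableOn_exp_Iic w).mono_set (Iio_subset_Iic_self)
    exact Integrable.bdd_mul h hf.aestronglyMeasurable (ae_of_all _ (fun x => by simpa using hb x))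
  have hpTP : TP2 p := by
    intro A B e he heb
    have := hTP A B e he heb
    simp only [hp]
    have e1 : Real.exp (A + e) * Real.exp (B - e) = Real.exp A * Real.exp B := by
      rw [← Real.exp_add, ← Real.exp_add]; congr 1; ring
    have hpos : 0 ≤ Real.exp A * Real.exp B := by positivity
    calc f A * Real.exp A * (f B * Real.exp B) = (f A * f B) * (Real.exp A * Real.exp B) := by ring
      _ ≤ (f (A + e) * f (B - e)) * (Real.exp A * Real.exp B) :=
          mul_le_mul_of_nonneg_right this hpos
      _ = f (A + e) * Real.exp (A + e) * (f (B - e) * Real.exp (B - e)) := by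
          rw [← e1]; ring
  intro A B e he heb
  have hR := R_TP2 hint hpTP A B e he heb
  simp only at hR
  rw [T_one_eq, T_one_eq, T_one_eq, T_one_eq]
  have e1 : Real.exp (-(A + e)) * Real.exp (-(B - e)) = Real.exp (-A) * Real.exp (-B) := by
    rw [← Real.exp_add, ← Real.exp_add]; congr 1; ring
  have hpos : 0 ≤ Real.exp (-A) * Real.exp (-B) := by positivity
  calc Real.exp (-A) * (∫ s in Iio A, f s * Real.exp s) *
        (Real.exp (-B) * ∫ s in Iio B, f s * Real.exp s)
      = (Real.exp (-A) * Real.exp (-B)) * ((∫ s in Iio A, p s) * (∫ s in Iio B, p s)) := by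
        simp only [hp]; ring
    _ ≤ (Real.exp (-A) * Real.exp (-B)) *
        ((∫ s in Iio (A + e), p s) * (∫ s in Iio (B - e), p s)) :=
        mul_le_mul_of_nonneg_left hR hpos
    _ = _ := by
        rw [← e1]; simp only [hp]; ring

lemma T_TP2 {f : ℝ → ℝ} (hf : Measurable f) {C : ℝ} (hb : ∀ w, |f w| ≤ C) (hTP : TP2 f) (a : ℝ) :
    TP2 (T a f) := by
  by_cases ha : a = 0
  · subst ha
    have : T 0 f = f := by ext w; exact T_zero f w
    rwa [this]
  · have h1 : TP2 (T 1 (fun v => f (a * v))) :=
      T_one_TP2 (f := fun v => f (a * v)) (hf.comp (by fun_prop)) (fun w => hb _)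
        (hTP.comp_mul ha)
    have h2 := h1.comp_mul (inv_ne_zero ha)
    have h3 : T a f = fun w => T 1 (fun v => f (a * v)) (a⁻¹ * w) := by
      ext w
      unfold T
      congr 1
      ext x
      congr 2
      field_simp
    rw [h3]
    exact h2

end Crest.Agent.H8S0423
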