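import Mathlib
import Crest.Agent.H8S0423B

set_option autoImplicit false
open Real Set MeasureTheory Filter Topology

namespace Crest.Agent.H8S0423

lemma ind_Ico (a b : ℝ) (h : a ≤ b) :
    Integrable ((Ico a b).indicator (fun _ => (1:ℝ))) ∧
    ∫ w, (Ico a b).indicator (fun _ => (1:ℝ)) w = b - a := by
  constructor
  · rw [integrable_indicator_iff measurableSet_Ico]
    exact integrableOn_const (by simp)
  · rw [integral_indicator measurableSet_Ico]
    simp [h]

lemma H_shift_eq_of_nonneg {c : ℝ} (hc : 0 ≤ c) :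
    (fun w => H (w - c) - H w) = (Ico 0 c).indicator (fun _ => (1:ℝ)) := by
  ext w
  unfold H
  by_cases h1 : w - c < 0
  · by_cases h2 : w < 0
    · rw [if_pos h1, if_pos h2, indicator_of_notMem (by simp [h2])]; norm_num
    · rw [if_pos h1, if_neg h2, indicator_of_mem (by constructor <;> linarith)]; norm_num
  · have h2 : ¬ w < 0 := by linarith
    rw [if_neg h1, if_neg h2, indicator_of_notMem (by simp; intro _; linarith)]; norm_num

lemma H_shift_eq_of_nonpos {c : ℝ} (hc : c ≤ 0) :
    (fun w => H (w - c) - H w) = fun w => -(Ico c 0).indicator (fun _ => (1:ℝ)) w := by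
  ext w
  unfold H
  by_cases h1 : w - c < 0
  · have h2 : w < 0 := by linarith
    rw [if_pos h1, if_pos h2, indicator_of_notMem (by simp; intro h; linarith)]; norm_num
  · by_cases h2 : w < 0
    · rw [if_neg h1, if_pos h2, indicator_of_mem (by constructor <;> linarith)]; norm_num
    · rw [if_neg h1, if_neg h2, indicator_of_notMem (by simp [not_lt.mp h2])]
      norm_num

lemma H_shift_integrable (c : ℝ) : Integrable (fun w => H (w - c) - H w) := by
  rcases le_total 0 c with hc | hc
  · rw [H_shift_eq_of_nonneg hc]; exact (ind_Ico 0 c hc).1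
  · rw [H_shift_eq_of_nonpos hc]; exact (ind_Ico c 0 hc).1.neg

lemma H_shift_integral (c : ℝ) : ∫ w, (H (w - c) - H w) = c := by
  rcases le_total 0 c with hc | hc
  · rw [H_shift_eq_of_nonneg hc, (ind_Ico 0 c hc).2]; ring
  · rw [H_shift_eq_of_nonpos hc, integral_neg, (ind_Ico c 0 hc).2]; ring

lemma H_shift_norm (c : ℝ) : ∫ w, ‖H (w - c) - H w‖ = |c| := by
  rcases le_total 0 c with hc | hc
  · have : (fun w => ‖H (w - c) - H w‖) = (Ico 0 c).indicator (fun _ => (1:ℝ)) := by
      ext w
      have h := congrFun (H_shift_eq_of_nonneg hc) w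
      rw [h]
      by_cases hw : w ∈ Ico 0 c <;> simp [hw]
    rw [this, (ind_Ico 0 c hc).2, abs_of_nonneg hc]; ring
  · have : (fun w => ‖H (w - c) - H w‖) = (Ico c 0).indicator (fun _ => (1:ℝ)) := by
      ext w
      have h := congrFun (H_shift_eq_of_nonpos hc) w
      rw [h]
      by_cases hw : w ∈ Ico c 0 <;> simp [hw]
    rw [this, (ind_Ico c 0 hc).2, abs_of_nonpos hc]; ring

lemma T_mean {f : ℝ → ℝ} (hf : Measurable f) {C : ℝ} (hb : ∀ w, |f w| ≤ C)
    (hint : Integrable (fun w => f w - H w)) (a : ℝ) :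
    Integrable (fun w => T a f w - H w) ∧
      ∫ w, (T a f w - H w) = (∫ w, (f w - H w)) + a := by
  set G₁ : ℝ × ℝ → ℝ := fun z => (f (z.1 - a * z.2) - H (z.1 - a * z.2)) * E z.2 with hG₁
  set G₂ : ℝ × ℝ → ℝ := fun z => (H (z.1 - a * z.2) - H z.1) * E z.2 with hG₂
  have hshift : Measurable (fun z : ℝ × ℝ => z.1 - a * z.2) := by fun_prop
  have hG₁m : Measurable G₁ :=
    ((hf.comp hshift).sub (H_measurable.comp hshift)).mul (E_measurable.comp measurable_snd)
  have hG₂m : Measurable G₂ :=
    ((H_measurable.comp hshift).sub (H_measurable.comp measurable_fst)).mul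
      (E_measurable.comp measurable_snd)
  have hG₁i : Integrable G₁ (volume.prod volume) := by
    rw [integrable_prod_iff' hG₁m.aestronglyMeasurable]
    constructor
    · refine ae_of_all _ (fun x => ?_)
      exact (hint.comp_sub_right (a * x)).mul_const (E x)
    · have : (fun x : ℝ => ∫ w, ‖G₁ (w, x)‖) =
          fun x => (∫ w, ‖f w - H w‖) * E x := by
        ext x
        simp only [hG₁, norm_mul]
        rw [integral_mul_const]
        congr 1
        · exact integral_sub_right_eq_self (fun w => ‖f w - H w‖) (a * x)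
        · exact abs_of_nonneg (E_nonneg x)
      rw [this]
      exact E_integrable.const_mul _
  have hG₂i : Integrable G₂ (volume.prod volume) := by
    rw [integrable_prod_iff' hG₂m.aestronglyMeasurable]
    constructor
    · refine ae_of_all _ (fun x => ?_)
      exact (H_shift_integrable (a * x)).mul_const (E x)
    · have : (fun x : ℝ => ∫ w, ‖G₂ (w, x)‖) = fun x => |a| * mm x := by
        ext x
        simp only [hG₂, norm_mul]
        rw [integral_mul_const, H_shift_norm (a * x), Real.norm_of_nonneg (E_nonneg x), abs_mul]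
        unfold mm E
        split_ifs with h
        · rw [abs_of_pos h]; ring
        · simp
      rw [this]
      exact mm_integrable.const_mul _
  have hG₁fib : ∀ x, ∫ w, G₁ (w, x) = (∫ w, (f w - H w)) * E x := by
    intro x
    simp only [hG₁]
    rw [integral_mul_const]
    congr 1
    exact integral_sub_right_eq_self (fun w => f w - H w) (a * x)
  have hG₂fib : ∀ x, ∫ w, G₂ (w, x) = a * mm x := by
    intro x
    simp only [hG₂]
    rw [integral_mul_const, H_shift_integral (a * x)]
    unfold mm; ring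
  have hsum : ∀ w, T a f w - H w = ∫ x, (G₁ (w, x) + G₂ (w, x)) := by
    intro w
    have h1 : ∀ x, G₁ (w, x) + G₂ (w, x) = f (w - a * x) * E x - H w * E x := by
      intro x; simp only [hG₁, hG₂]; ring
    simp_rw [h1]
    rw [integral_sub (T_integrand_integrable hf hb a w) (E_integrable.const_mul _),
      integral_const_mul, integral_E, mul_one]
    rfl
  have hGi : Integrable (fun z : ℝ × ℝ => G₁ z + G₂ z) (volume.prod volume) := hG₁i.add hG₂i
  constructor
  · have := hGi.integral_prod_left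
    refine this.congr (ae_of_all _ (fun w => ?_))
    simp only
    exact (hsum w).symm
  · simp_rw [hsum]
    have hswap := integral_integral_swap (f := fun w x => G₁ (w, x) + G₂ (w, x)) (μ := volume)
      (ν := volume) hGi
    rw [hswap]
    have hfib : ∀ x, ∫ w, (G₁ (w, x) + G₂ (w, x)) =
        (∫ w, (f w - H w)) * E x + a * mm x := by
      intro x
      have h1 : Integrable (fun w => G₁ (w, x)) :=
        (hint.comp_sub_right (a * x)).mul_const (E x)
      have h2 : Integrable (fun w => G₂ (w, x)) :=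
        (H_shift_integrable (a * x)).mul_const (E x)
      rw [integral_add h1 h2]
      rw [hG₁fib, hG₂fib]
    simp_rw [hfib]
    rw [integral_add (E_integrable.const_mul _) (mm_integrable.const_mul _),
      integral_const_mul, integral_const_mul, integral_E, integral_mm]
    ring


lemma int_pos_of_Ioo {F : ℝ → ℝ} (hF0 : ∀ x, 0 ≤ F x) (hFi : Integrable F) {l u : ℝ} (hlu : l < u)
    (hpos : ∀ x ∈ Ioo l u, 0 < F x) : 0 < ∫ x, F x := by
  rw [integral_pos_iff_support_of_nonneg (fun x => hF0 x) hFi]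
  have hsub : Ioo l u ⊆ Function.support F := fun x hx => (hpos x hx).ne'
  refine lt_of_lt_of_le ?_ (measure_mono hsub)
  simpa using hlu

lemma T_pos_of_pos_left {f : ℝ → ℝ} (hf : Measurable f) {C : ℝ} (hb : ∀ w, |f w| ≤ C)
    (h0 : ∀ w, 0 ≤ f w) {c : ℝ} (hc : ∀ w < c, 0 < f w) {a : ℝ} (ha : 0 < a) (w : ℝ) :
    0 < T a f w := by
  refine int_pos_of_Ioo (l := max 0 ((w - c) / a)) (u := max 0 ((w - c) / a) + 1)
    (fun x => mul_nonneg (h0 _) (E_nonneg x)) (T_integrand_integrable hf hb a w) (by linarith) ?_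
  intro x hx
  have hx0 : 0 < x := lt_of_le_of_lt (le_max_left _ _) hx.1
  have hx1 : (w - c) / a < x := lt_of_le_of_lt (le_max_right _ _) hx.1
  have hx2 : w - c < a * x := by
    rw [div_lt_iff₀ ha] at hx1
    linarith
  exact mul_pos (hc _ (by linarith)) (E_pos hx0)

lemma T_pos_left {f : ℝ → ℝ} (hf : Measurable f) {C : ℝ} (hb : ∀ w, |f w| ≤ C)
    (h0 : ∀ w, 0 ≤ f w) {c : ℝ} (hc : ∀ w < c, 0 < f w) (a : ℝ) {w : ℝ} (hw : w < c) :
    0 < T a f w := by
  have hd : 0 < (c - w) / (|a| + 1) := div_pos (by linarith) (by positivity)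
  refine int_pos_of_Ioo (l := 0) (u := (c - w) / (|a| + 1))
    (fun x => mul_nonneg (h0 _) (E_nonneg x)) (T_integrand_integrable hf hb a w) hd ?_
  intro x hx
  have h1 : x * (|a| + 1) < c - w := by
    have := hx.2
    rwa [lt_div_iff₀ (by positivity)] at this
  have h2 : -(a * x) ≤ |a| * x := by
    have := neg_abs_le a
    nlinarith [hx.1]
  refine mul_pos (hc _ ?_) (E_pos hx.1)
  nlinarith [hx.1]

lemma T_pos_all {f : ℝ → ℝ} (hf : Measurable f) {C : ℝ} (hb : ∀ w, |f w| ≤ C)
    (h0 : ∀ w, 0 < f w) (a w : ℝ) : 0 < T a f w := by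
  refine int_pos_of_Ioo (l := 0) (u := 1)
    (fun x => mul_nonneg (h0 _).le (E_nonneg x)) (T_integrand_integrable hf hb a w) one_pos ?_
  intro x hx
  exact mul_pos (h0 _) (E_pos hx.1)

/-- The invariant properties of survival functions. -/
structure Good (S : ℝ → ℝ) (M : ℝ) : Prop where
  anti : Antitone S
  nonneg : ∀ w, 0 ≤ S w
  le_one : ∀ w, S w ≤ 1
  tp2 : TP2 S
  int : Integrable (fun w => S w - H w)
  mean : ∫ w, (S w - H w) = M
  posleft : ∃ c, ∀ w < c, 0 < S w

lemma Good.bd {S : ℝ → ℝ} {M : ℝ} (h : Good S M) (w : ℝ) : |S w| ≤ 1 :=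
  abs_le.mpr ⟨by linarith [h.nonneg w], h.le_one w⟩

lemma good_H : Good H 0 where
  anti := H_antitone
  nonneg := H_nonneg
  le_one := H_le_one
  tp2 := H_TP2
  int := by simp
  mean := by simp
  posleft := ⟨0, fun w hw => by unfold H; rw [if_pos hw]; norm_num⟩

lemma Good.T {S : ℝ → ℝ} {M : ℝ} (h : Good S M) (a : ℝ) : Good (T a S) (M + a) where
  anti := T_antitone h.anti h.anti.measurable h.bd a
  nonneg := T_nonneg h.nonneg a
  le_one := T_le_one h.anti.measurable h.nonneg h.le_one a
  tp2 := T_TP2 h.anti.measurable h.bd h.tp2 a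
  int := (T_mean h.anti.measurable h.bd h.int a).1
  mean := by rw [(T_mean h.anti.measurable h.bd h.int a).2, h.mean]
  posleft := by
    obtain ⟨c, hc⟩ := h.posleft
    exact ⟨c, fun w hw => T_pos_left h.anti.measurable h.bd h.nonneg hc a hw⟩

/-- Survival function of `∑ a_i X_i`, defined by recursion on the number of variables. -/
noncomputable def Sv : (N : ℕ) → (Fin N → ℝ) → ℝ → ℝ
  | 0, _ => H
  | N + 1, a => T (a 0) (Sv N (Fin.tail a))

lemma Sv_good (N : ℕ) (a : Fin N → ℝ) : Good (Sv N a) (∑ i, a i) := by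
  induction N with
  | zero => simpa [Sv] using good_H
  | succ N ih =>
    have := (ih (Fin.tail a)).T (a 0)
    have e : ∑ i, a i = ∑ i, Fin.tail a i + a 0 := by
      rw [Fin.sum_univ_succ, add_comm]; rfl
    rw [e]
    exact this

lemma Sv_pos (N : ℕ) (a : Fin N → ℝ) (h : ∃ i, 0 < a i) (w : ℝ) : 0 < Sv N a w := by
  induction N generalizing w with
  | zero => obtain ⟨i, _⟩ := h; exact i.elim0
  | succ N ih =>
    have hg := Sv_good N (Fin.tail a)
    obtain ⟨i, hi⟩ := h
    refine Fin.cases ?_ (fun j hj => ?_) i hi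
    · intro h0
      obtain ⟨c, hc⟩ := hg.posleft
      exact T_pos_of_pos_left hg.anti.measurable hg.bd hg.nonneg hc h0 w
    · exact T_pos_all hg.anti.measurable hg.bd
        (fun w' => ih (Fin.tail a) ⟨j, hj⟩ w') _ _

/-- product density on the orthant -/
noncomputable def PE {N : ℕ} (x : Fin N → ℝ) : ℝ := ∏ i, E (x i)

lemma PE_nonneg {N : ℕ} (x : Fin N → ℝ) : 0 ≤ PE x :=
  Finset.prod_nonneg (fun i _ => E_nonneg _)

lemma PE_integrable (N : ℕ) : Integrable (PE : (Fin N → ℝ) → ℝ) := by
  have := Integrable.fintype_prod (ι := Fin N) (f := fun _ => E) (μ := fun _ => volume)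
    (fun _ => E_integrable)
  show Integrable (fun x : Fin N → ℝ => ∏ i, E (x i)) volume
  rw [volume_pi]
  exact this

lemma integral_PE (N : ℕ) : ∫ x : Fin N → ℝ, PE x = 1 := by
  have := integral_fintype_prod_volume_eq_prod (ι := Fin N) (𝕜 := ℝ) (E := fun _ => ℝ)
    (fun _ => E)
  unfold PE
  rw [this]
  simp [integral_E]

lemma PE_cons {N : ℕ} (x₀ : ℝ) (x' : Fin N → ℝ) :
    PE (Fin.cons x₀ x' : Fin (N + 1) → ℝ) = E x₀ * PE x' := by
  unfold PE
  rw [Fin.prod_univ_succ]
  simp

lemma PE_measurable {N : ℕ} : Measurable (PE : (Fin N → ℝ) → ℝ) := by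
  unfold PE
  exact Finset.measurable_prod _ (fun i _ => E_measurable.comp (measurable_pi_apply i))

lemma fubini_PE {N : ℕ} {F : (Fin (N + 1) → ℝ) → ℝ} (hF : Measurable F) {C : ℝ}
    (hb : ∀ x, |F x| ≤ C) :
    ∫ x, F x * PE x = ∫ x₀, (∫ x', F (Fin.cons x₀ x') * PE x') * E x₀ := by
  set e : ℝ × (Fin N → ℝ) ≃ᵐ (Fin (N + 1) → ℝ) :=
    (MeasurableEquiv.piFinSuccAbove (fun _ => ℝ) 0).symm with he
  have hem : MeasurePreserving e (volume.prod volume) volume :=
    (volume_preserving_piFinSuccAbove (fun _ : Fin (N + 1) => ℝ) 0).symm _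
  have he_apply : ∀ p : ℝ × (Fin N → ℝ), e p = Fin.cons p.1 p.2 := by
    intro p
    simp [he, MeasurableEquiv.piFinSuccAbove_symm_apply, Fin.insertNthEquiv]
  rw [← hem.integral_comp']
  simp_rw [he_apply, PE_cons]
  have hmeas : Measurable (fun p : ℝ × (Fin N → ℝ) => F (Fin.cons p.1 p.2 : Fin (N + 1) → ℝ)) := by
    have : (fun p : ℝ × (Fin N → ℝ) => F (Fin.cons p.1 p.2 : Fin (N + 1) → ℝ)) = F ∘ e := by
      ext p; simp [he_apply]
    rw [this]
    exact hF.comp e.measurable
  have hi : Integrable (fun p : ℝ × (Fin N → ℝ) =>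
      F (Fin.cons p.1 p.2 : Fin (N + 1) → ℝ) * (E p.1 * PE p.2)) (volume.prod volume) := by
    refine (E_integrable.mul_prod (PE_integrable N)).bdd_mul hmeas.aestronglyMeasurable
      (c := C) (ae_of_all _ (fun p => by simpa using hb _))
  rw [integral_prod _ hi]
  refine integral_congr_ae (ae_of_all _ (fun x₀ => ?_))
  simp only
  rw [← integral_mul_const]
  refine integral_congr_ae (ae_of_all _ (fun x' => ?_))
  simp only
  ring

lemma Sv_eq (N : ℕ) (a : Fin N → ℝ) (w : ℝ) :
    Sv N a w = ∫ x : Fin N → ℝ, (if w < ∑ i, a i * x i then (1:ℝ) else 0) * PE x := by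
  induction N generalizing w with
  | zero =>
    have hv : (volume : Measure (Fin 0 → ℝ)).real univ = 1 := by
      rw [measureReal_def, volume_pi, Measure.pi_empty_univ]; simp
    simp [Sv, H, PE, hv]
  | succ N ih =>
    have hm : Measurable (fun x : Fin (N + 1) → ℝ => if w < ∑ i, a i * x i then (1:ℝ) else 0) := by
      refine Measurable.ite (measurableSet_lt measurable_const ?_) measurable_const measurable_const
      fun_prop
    rw [fubini_PE hm (C := 1) (fun x => by split_ifs <;> simp)]
    simp only [Sv, T]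
    refine integral_congr_ae (ae_of_all _ (fun x₀ => ?_))
    simp only
    rw [ih (Fin.tail a) (w - a 0 * x₀)]
    congr 1
    refine integral_congr_ae (ae_of_all _ (fun x' => ?_))
    simp only
    congr 1
    have e1 : ∑ i, a i * (Fin.cons x₀ x' : Fin (N + 1) → ℝ) i =
        a 0 * x₀ + ∑ i, Fin.tail a i * x' i := by
      rw [Fin.sum_univ_succ]
      simp [Fin.tail]
    rw [e1]
    by_cases h : w < a 0 * x₀ + ∑ i, Fin.tail a i * x' i
    · rw [if_pos h, if_pos (by linarith)]
    · rw [if_neg h, if_neg (by linarith)]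

end Crest.Agent.H8S0423
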