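import Mathlib
import Crest.Agent.H8S0423C
import Crest.Prelude.Def_TruncExpWeight

set_option autoImplicit false
open Real Set MeasureTheory Filter Topology
open Crest.AlgGeometry

namespace Crest.Agent.H8S0423

lemma mm_eq_on_pos {y : ℝ} (hy : 0 < y) : mm y = y * Real.exp (-y) := by
  unfold mm E; rw [if_pos hy]

lemma mm_eq_zero {y : ℝ} (hy : y ≤ 0) : mm y = 0 := by
  unfold mm E; rw [if_neg (by linarith)]; ring

lemma g_eq (c : ℝ) :
    truncExpWeight c = 1 - ∫ y, mm y * (if y < c then (1:ℝ) else 0) := by
  unfold truncExpWeight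
  by_cases hc : c ≤ 0
  · rw [if_pos hc]
    have : (fun y => mm y * (if y < c then (1:ℝ) else 0)) = fun _ => 0 := by
      ext y
      by_cases hy : y < c
      · rw [mm_eq_zero (by linarith)]; ring
      · rw [if_neg hy]; ring
    rw [this]; simp
  · rw [if_neg hc]
    push Not at hc
    have h1 : (fun y => mm y * (if y < c then (1:ℝ) else 0)) =
        fun y => mm y - (Ici c).indicator (fun y => y * Real.exp (-1 * y)) y := by
      ext y
      by_cases hy : y < c
      · rw [if_pos hy, indicator_of_notMem (by simpa using hy)]; ring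
      · rw [if_neg hy, indicator_of_mem (by simpa using hy),
          mm_eq_on_pos (by linarith [not_lt.mp hy])]
        simp
    rw [h1]
    have hi : Integrable ((Ici c).indicator (fun y => y * Real.exp (-1 * y))) := by
      rw [integrable_indicator_iff measurableSet_Ici, integrableOn_Ici_iff_integrableOn_Ioi]
      exact integrableOn_mul_exp 1 c one_pos hc.le
    rw [integral_sub mm_integrable hi, integral_mm, integral_indicator measurableSet_Ici,
      integral_Ici_eq_integral_Ioi, integral_mul_exp 1 c one_pos hc.le]
    simp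
    ring

/-- the statement's orthant integral in terms of `PE` -/
lemma orth_integral {N : ℕ} (F : (Fin N → ℝ) → ℝ) :
    ∫ x in Set.pi Set.univ (fun _ : Fin N => Set.Ioi (0 : ℝ)), F x * Real.exp (-∑ i, x i) =
      ∫ x, F x * PE x := by
  have hm : MeasurableSet (Set.pi Set.univ (fun _ : Fin N => Set.Ioi (0 : ℝ))) :=
    MeasurableSet.univ_pi (fun _ => measurableSet_Ioi)
  rw [← integral_indicator hm]
  refine integral_congr_ae (ae_of_all _ (fun x => ?_))
  by_cases hx : x ∈ Set.pi Set.univ (fun _ : Fin N => Set.Ioi (0 : ℝ))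
  · rw [indicator_of_mem hx]
    have : PE x = Real.exp (-∑ i, x i) := by
      unfold PE
      rw [← Finset.sum_neg_distrib, Real.exp_sum]
      refine Finset.prod_congr rfl (fun i _ => ?_)
      unfold E
      exact if_pos (hx i (mem_univ i))
    show F x * _ = F x * PE x
    rw [this]
  · rw [indicator_of_notMem hx]
    simp only [Set.mem_pi, mem_univ, true_implies, not_forall] at hx
    obtain ⟨i, hi⟩ := hx
    have : PE x = 0 := by
      unfold PE
      refine Finset.prod_eq_zero (Finset.mem_univ i) ?_
      unfold E
      rw [if_neg (by simpa using hi)]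
    show 0 = F x * PE x
    rw [this]; ring

/-- the key functional -/
noncomputable def J (t : ℝ) (S : ℝ → ℝ) : ℝ := ∫ y, mm y * S (y - t)

lemma link {N : ℕ} (a : Fin N → ℝ) (t : ℝ) :
    ∫ x : Fin N → ℝ, truncExpWeight (t + ∑ i, a i * x i) * PE x = 1 - J t (Sv N a) := by
  set Φ : (Fin N → ℝ) → ℝ → ℝ :=
    fun x y => mm y * (if y < t + ∑ i, a i * x i then (1:ℝ) else 0) * PE x with hΦ
  have hsetm : MeasurableSet {p : (Fin N → ℝ) × ℝ | p.2 < t + ∑ i, a i * p.1 i} := by
    refine measurableSet_lt measurable_snd ?_
    fun_prop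
  have hitem : Measurable (fun p : (Fin N → ℝ) × ℝ =>
      if p.2 < t + ∑ i, a i * p.1 i then (1:ℝ) else 0) :=
    Measurable.ite hsetm measurable_const measurable_const
  have hint : Integrable (Function.uncurry Φ) (volume.prod volume) := by
    have h0 := (PE_integrable N).mul_prod (g := mm) mm_integrable
    have h1 := h0.bdd_mul hitem.aestronglyMeasurable (c := 1)
      (ae_of_all _ (fun p => by split_ifs <;> simp))
    refine h1.congr (ae_of_all _ (fun p => ?_))
    simp only [Function.uncurry, hΦ]
    ring
  have hA : ∀ x, truncExpWeight (t + ∑ i, a i * x i) * PE x = PE x - ∫ y, Φ x y := by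
    intro x
    rw [g_eq]
    simp only [hΦ]
    rw [integral_mul_const]
    ring
  simp_rw [hA]
  have hi2 : Integrable (fun x => ∫ y, Φ x y) := hint.integral_prod_left
  rw [integral_sub (PE_integrable N) hi2, integral_PE]
  congr 1
  rw [integral_integral_swap hint]
  unfold J
  refine integral_congr_ae (ae_of_all _ (fun y => ?_))
  simp only [hΦ]
  rw [Sv_eq N a (y - t)]
  rw [← integral_const_mul]
  refine integral_congr_ae (ae_of_all _ (fun x => ?_))
  simp only
  have : (if y < t + ∑ i, a i * x i then (1:ℝ) else 0) =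
      (if y - t < ∑ i, a i * x i then (1:ℝ) else 0) := by
    by_cases h : y < t + ∑ i, a i * x i
    · rw [if_pos h, if_pos (by linarith)]
    · rw [if_neg h, if_neg (by linarith)]
  rw [this]
  ring

end Crest.Agent.H8S0423
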