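import Mathlib
import Crest.Agent.H8S0423D

set_option autoImplicit false
open Real Set MeasureTheory Filter Topology

namespace Crest.Agent.H8S0423

/-- Capped exponential comparison function -/
noncomputable def Cap (c β w : ℝ) : ℝ := min 1 (Real.exp (-c - w / β))

lemma Cap_le_one (c β w : ℝ) : Cap c β w ≤ 1 := min_le_left _ _

lemma Cap_pos (c β w : ℝ) : 0 < Cap c β w := lt_min one_pos (Real.exp_pos _)

lemma Cap_nonneg (c β w : ℝ) : 0 ≤ Cap c β w := (Cap_pos c β w).le

lemma Cap_continuous (c β : ℝ) : Continuous (Cap c β) := by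
  unfold Cap
  have : Continuous (fun w : ℝ => Real.exp (-c - w / β)) := by fun_prop
  exact continuous_const.min this

lemma Cap_eq_one {c β w : ℝ} (hβ : 0 < β) (hw : w ≤ -c * β) : Cap c β w = 1 := by
  unfold Cap
  apply min_eq_left
  apply Real.one_le_exp
  have : w / β ≤ -c := by rwa [div_le_iff₀ hβ]
  linarith

lemma Cap_eq_exp {c β w : ℝ} (hβ : 0 < β) (hw : -c * β ≤ w) :
    Cap c β w = Real.exp (-c - w / β) := by
  unfold Cap
  apply min_eq_right
  apply Real.exp_le_one_iff.mpr
  have : -c ≤ w / β := by rwa [le_div_iff₀ hβ]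
  linarith

lemma exp_tail (c β p : ℝ) (hβ : 0 < β) :
    IntegrableOn (fun w => Real.exp (-c - w / β)) (Ioi p) ∧
      ∫ w in Ioi p, Real.exp (-c - w / β) = β * Real.exp (-c - p / β) := by
  have hder : ∀ x ∈ Ici p, HasDerivAt (fun w => -β * Real.exp (-c - w / β))
      (Real.exp (-c - x / β)) x := by
    intro x _
    have h1 : HasDerivAt (fun w : ℝ => -c - w / β) (-(1 / β)) x := by
      have := ((hasDerivAt_id x).div_const β).const_sub (-c)
      simpa using this
    have h2 := (h1.exp).const_mul (-β)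
    have hne : β ≠ 0 := hβ.ne'
    have e : Real.exp (-c - x / β) = -β * (Real.exp (-c - x / β) * -(1 / β)) := by
      field_simp
    rw [e]
    exact h2
  have htend : Tendsto (fun w => -β * Real.exp (-c - w / β)) atTop (𝓝 0) := by
    have h1 : Tendsto (fun w : ℝ => c + w / β) atTop atTop :=
      tendsto_atTop_add_const_left _ _ (tendsto_id.atTop_div_const hβ)
    have h2 := Real.tendsto_exp_neg_atTop_nhds_zero.comp h1
    have h3 := h2.const_mul (-β)
    simp only [mul_zero] at h3
    refine h3.congr (fun w => ?_)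
    simp only [Function.comp]
    congr 2
    ring
  constructor
  · exact integrableOn_Ioi_deriv_of_nonneg' hder (fun x _ => (Real.exp_pos _).le) htend
  · rw [integral_Ioi_of_hasDerivAt_of_nonneg' hder (fun x _ => (Real.exp_pos _).le) htend]
    ring

lemma Cap_sub_H {c β : ℝ} (hβ : 0 < β) (hc : 0 ≤ c) :
    (fun w => Cap c β w - H w) = fun w =>
      (Ici (-c * β)).indicator (fun w => Real.exp (-c - w / β)) w -
        (Ico (-c * β) 0).indicator (fun _ => (1:ℝ)) w := by
  ext w
  have h0 : -c * β ≤ 0 := by nlinarith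
  by_cases h1 : w < -c * β
  · rw [Cap_eq_one hβ h1.le, indicator_of_notMem (by simpa using h1),
      indicator_of_notMem (fun h => absurd h.1 (not_le.mpr h1))]
    have : H w = 1 := by unfold H; rw [if_pos (by linarith)]
    rw [this]; ring
  · push Not at h1
    rw [Cap_eq_exp hβ h1, indicator_of_mem (by simpa using h1)]
    by_cases h2 : w < 0
    · rw [indicator_of_mem (show w ∈ Ico (-c * β) 0 from ⟨h1, h2⟩)]
      have : H w = 1 := by unfold H; rw [if_pos h2]
      rw [this]
    · rw [indicator_of_notMem (by simp [h2])]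
      have : H w = 0 := by unfold H; rw [if_neg h2]
      rw [this]

lemma Cap_mean {c β : ℝ} (hβ : 0 < β) (hc : 0 ≤ c) :
    Integrable (fun w => Cap c β w - H w) ∧ ∫ w, (Cap c β w - H w) = β * (1 - c) := by
  have h0 : -c * β ≤ 0 := by nlinarith
  have hi1 : Integrable ((Ici (-c * β)).indicator (fun w => Real.exp (-c - w / β))) := by
    rw [integrable_indicator_iff measurableSet_Ici, integrableOn_Ici_iff_integrableOn_Ioi]
    exact (exp_tail c β _ hβ).1
  have hi2 := (ind_Ico (-c * β) 0 h0)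
  rw [Cap_sub_H hβ hc]
  refine ⟨hi1.sub hi2.1, ?_⟩
  rw [integral_sub hi1 hi2.1, hi2.2, integral_indicator measurableSet_Ici,
    integral_Ici_eq_integral_Ioi, (exp_tail c β _ hβ).2]
  have : -c - -c * β / β = 0 := by
    have hne : β ≠ 0 := hβ.ne'
    field_simp
    ring
  rw [this]
  simp
  ring


/-- `1 + 1/b` parametrised computation for the comparison functionals -/
lemma J_Cap_large {t b : ℝ} (hb : 0 < b) (htb : t ≤ b) :
    J t (Cap 1 b) = Real.exp (t / b - 1) * (1 / (1 + 1 / b) ^ 2) := by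
  have hα : 0 < 1 + 1 / b := by positivity
  have h1 : (fun y => mm y * Cap 1 b (y - t)) =
      (Ioi (0:ℝ)).indicator
        (fun y => Real.exp (t / b - 1) * (y * Real.exp (-(1 + 1 / b) * y))) := by
    ext y
    by_cases hy : 0 < y
    · rw [indicator_of_mem (by simpa using hy), mm_eq_on_pos hy,
        Cap_eq_exp hb (by linarith)]
      have : Real.exp (t / b - 1) * (y * Real.exp (-(1 + 1 / b) * y)) =
          y * (Real.exp (t / b - 1) * Real.exp (-(1 + 1 / b) * y)) := by ring
      rw [this, ← Real.exp_add, mul_assoc, ← Real.exp_add]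
      congr 2
      field_simp
      ring
    · rw [indicator_of_notMem (by simpa using hy), mm_eq_zero (by linarith)]
      ring
  unfold J
  rw [h1, integral_indicator measurableSet_Ioi, integral_const_mul,
    integral_mul_exp _ 0 hα le_rfl]
  simp

lemma J_Cap_small {t b : ℝ} (hb : 0 < b) (htb : b < t) :
    J t (Cap 1 b) = 1 + Real.exp (t / b - 1) *
        (((t - b) / (1 + 1 / b) + 1 / (1 + 1 / b) ^ 2) * Real.exp (-(1 + 1 / b) * (t - b)))
        - (((t - b) / 1 + 1 / 1 ^ 2) * Real.exp (-1 * (t - b))) := by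
  have hα : 0 < 1 + 1 / b := by positivity
  have hv : 0 < t - b := by linarith
  set F : ℝ → ℝ := fun y => Real.exp (t / b - 1) * (y * Real.exp (-(1 + 1 / b) * y)) -
      y * Real.exp (-1 * y) with hF
  have h1 : (fun y => mm y * Cap 1 b (y - t)) =
      fun y => mm y + (Ici (t - b)).indicator F y := by
    ext y
    by_cases hy : t - b ≤ y
    · have hy0 : 0 < y := by linarith
      rw [indicator_of_mem (by simpa using hy), mm_eq_on_pos hy0,
        Cap_eq_exp hb (by linarith)]
      simp only [hF]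
      have e0 : Real.exp (-1 * y) = Real.exp (-y) := by congr 1; ring
      rw [e0]
      have : Real.exp (t / b - 1) * (y * Real.exp (-(1 + 1 / b) * y)) =
          y * (Real.exp (t / b - 1) * Real.exp (-(1 + 1 / b) * y)) := by ring
      rw [this, ← Real.exp_add]
      have e1 : t / b - 1 + -(1 + 1 / b) * y = -y + (-1 - (y - t) / b) := by
        field_simp
        ring
      rw [e1, Real.exp_add]
      ring
    · push Not at hy
      rw [indicator_of_notMem (show y ∉ Ici (t - b) from fun h => absurd h (not_le.mpr hy)),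
        Cap_eq_one hb (by linarith)]
      ring
  have hi1 : IntegrableOn (fun y => y * Real.exp (-(1 + 1 / b) * y)) (Ioi (t - b)) :=
    integrableOn_mul_exp _ _ hα hv.le
  have hi2 : IntegrableOn (fun y => y * Real.exp (-1 * y)) (Ioi (t - b)) :=
    integrableOn_mul_exp _ _ one_pos hv.le
  have hi3 : Integrable ((Ici (t - b)).indicator F) := by
    rw [integrable_indicator_iff measurableSet_Ici, integrableOn_Ici_iff_integrableOn_Ioi]
    exact (hi1.const_mul _).sub hi2
  unfold J
  rw [h1, integral_add mm_integrable hi3, integral_mm, integral_indicator measurableSet_Ici,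
    integral_Ici_eq_integral_Ioi]
  simp only [hF]
  rw [integral_sub (hi1.const_mul _) hi2, integral_const_mul,
    integral_mul_exp _ _ hα hv.le, integral_mul_exp _ _ one_pos hv.le]
  ring

/-- the extremal constant -/
noncomputable def kappa : ℝ := 4 / 9 * Real.exp (-(1 / 3))

lemma kappa_le : kappa ≤ 16 / 49 := by
  unfold kappa
  have h1 : (25:ℝ) / 18 ≤ Real.exp (1 / 3) := by
    have := Real.quadratic_le_exp_of_nonneg (x := 1 / 3) (by norm_num)
    norm_num at this ⊢
    linarith
  have h2 : Real.exp (-(1 / 3)) ≤ 18 / 25 := by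
    rw [Real.exp_neg]
    have hp : (0:ℝ) < 25 / 18 := by norm_num
    calc (Real.exp (1 / 3))⁻¹ ≤ (25 / 18 : ℝ)⁻¹ := inv_anti₀ hp h1
      _ = 18 / 25 := by norm_num
  nlinarith

lemma J_Cap_large_ge {b : ℝ} (hb : 0 < b) :
    kappa ≤ Real.exp ((4 / 3) / b - 1) * (1 / (1 + 1 / b) ^ 2) := by
  set v := 1 / b with hv
  have hvpos : 0 < v := by positivity
  have h1 : 2 / 3 * (1 + v) ≤ Real.exp (2 / 3 * v - 1 / 3) := by
    have := Real.add_one_le_exp (2 / 3 * v - 1 / 3)
    linarith
  have h2 : (2 / 3 * (1 + v)) ^ 2 ≤ Real.exp (2 / 3 * v - 1 / 3) ^ 2 :=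
    pow_le_pow_left₀ (by positivity) h1 2
  have h3 : Real.exp (2 / 3 * v - 1 / 3) ^ 2 = Real.exp (4 / 3 * v - 2 / 3) := by
    rw [← Real.exp_nat_mul]
    congr 1
    push_cast
    ring
  rw [h3] at h2
  have h4 : (4 / 3) / b - 1 = (4 / 3 * v - 2 / 3) + -(1 / 3) := by
    simp only [hv]
    ring
  rw [h4, Real.exp_add]
  unfold kappa
  have hpos : 0 < (1 + v) ^ 2 := by positivity
  have hep := Real.exp_pos (-(1 / 3))
  rw [show Real.exp (4 / 3 * v - 2 / 3) * Real.exp (-(1 / 3)) * (1 / (1 + v) ^ 2) =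
    (Real.exp (4 / 3 * v - 2 / 3) * Real.exp (-(1 / 3))) / (1 + v) ^ 2 by ring, le_div_iff₀ hpos]
  nlinarith

lemma exp_cubic_bound {v : ℝ} (hv : 0 ≤ v) : 1 + v + v ^ 2 / 2 + v ^ 3 / 6 ≤ Real.exp v := by
  have := Real.sum_le_exp_of_nonneg hv 4
  simp [Finset.sum_range_succ, Nat.factorial] at this
  linarith

lemma J_Cap_small_ge {b : ℝ} (hb : 0 < b) (htb : b < 4 / 3) :
    kappa ≤ J (4 / 3) (Cap 1 b) := by
  rw [J_Cap_small hb htb]
  set v : ℝ := 4 / 3 - b with hv
  have hv0 : 0 < v := by simp only [hv]; linarith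
  have hv1 : v < 4 / 3 := by simp only [hv]; linarith
  have hbv : b = 4 / 3 - v := by simp only [hv]; ring
  set c : ℝ := 7 / 3 - v with hc
  have hc1 : 1 < c := by simp only [hc]; linarith
  have e0 : Real.exp ((4 / 3) / b - 1) * Real.exp (-(1 + 1 / b) * v) = Real.exp (-v) := by
    rw [← Real.exp_add]
    congr 1
    have hbne : b ≠ 0 := hb.ne'
    have e : (4 / 3) / b - 1 + -(1 + 1 / b) * (4 / 3 - b) = -(4 / 3 - b) := by
      field_simp
      ring
    exact e
  have e1 : Real.exp ((4 / 3) / b - 1) *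
        ((v / (1 + 1 / b) + 1 / (1 + 1 / b) ^ 2) * Real.exp (-(1 + 1 / b) * v))
        - ((v / 1 + 1 / 1 ^ 2) * Real.exp (-1 * v)) =
      - (Real.exp (-v) * ((11 / 3 + v / 3 - v ^ 2) / c ^ 2)) := by
    have e2 : Real.exp (-1 * v) = Real.exp (-v) := by congr 1; ring
    rw [e2]
    have : Real.exp ((4 / 3) / b - 1) *
        ((v / (1 + 1 / b) + 1 / (1 + 1 / b) ^ 2) * Real.exp (-(1 + 1 / b) * v)) =
        (v / (1 + 1 / b) + 1 / (1 + 1 / b) ^ 2) *
          (Real.exp ((4 / 3) / b - 1) * Real.exp (-(1 + 1 / b) * v)) := by ring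
    rw [this, e0]
    have hbne : b ≠ 0 := hb.ne'
    have hb1 : b + 1 ≠ 0 := by positivity
    have hcb : c = b + 1 := by simp only [hc, hbv]; ring
    rw [hcb]
    have hvb : v = 4 / 3 - b := hv
    rw [hvb]
    field_simp
    ring
  have key : (11 / 3 + v / 3 - v ^ 2) / c ^ 2 ≤ 33 / 49 * Real.exp v := by
    have hcub := exp_cubic_bound hv0.le
    have hc2 : 0 < c ^ 2 := by positivity
    rw [div_le_iff₀ hc2]
    have hpoly : 11 / 3 + v / 3 - v ^ 2 ≤ 33 / 49 * ((1 + v + v ^ 2 / 2 + v ^ 3 / 6) * c ^ 2) := by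
      simp only [hc]
      set w := 4 / 3 - v with hw
      have hw0 : 0 < w := by simp only [hw]; linarith
      have hvw : v = 4 / 3 - w := by simp only [hw]; ring
      have hQ : 0 ≤ 34 / 297 + 295 / 594 * w + 13 / 54 * w ^ 2 - 11 / 18 * w ^ 3 + 1 / 6 * w ^ 4 := by
        have hw1 : w < 4 / 3 := by simp only [hw]; linarith
        nlinarith [mul_pos hw0 hw0, mul_pos (mul_pos hw0 hw0) hw0, sq_nonneg (w ^ 2 - 1),
          sq_nonneg (w - 1), mul_pos hw0 (sub_pos.mpr hw1)]
      have hexp : 33 / 49 * ((1 + v + v ^ 2 / 2 + v ^ 3 / 6) * (7 / 3 - v) ^ 2) -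
          (11 / 3 + v / 3 - v ^ 2) =
          33 / 49 * (v * (34 / 297 + 295 / 594 * w + 13 / 54 * w ^ 2 - 11 / 18 * w ^ 3 +
            1 / 6 * w ^ 4)) := by
        rw [hvw]
        ring
      have := mul_nonneg hv0.le hQ
      nlinarith
    have hmul : (1 + v + v ^ 2 / 2 + v ^ 3 / 6) * c ^ 2 ≤ Real.exp v * c ^ 2 :=
      mul_le_mul_of_nonneg_right hcub hc2.le
    nlinarith
  have hfinal : Real.exp (-v) * ((11 / 3 + v / 3 - v ^ 2) / c ^ 2) ≤ 33 / 49 := by
    have hp := Real.exp_pos (-v)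
    have h3 := mul_le_mul_of_nonneg_left key hp.le
    have h4 : Real.exp (-v) * (33 / 49 * Real.exp v) = 33 / 49 := by
      have : Real.exp (-v) * Real.exp v = 1 := by
        rw [← Real.exp_add]; simp
      linear_combination (33 / 49) * this
    linarith
  have hk := kappa_le
  have := e1
  linarith

lemma J_Cap_ge {b : ℝ} (hb : 0 < b) : kappa ≤ J (4 / 3) (Cap 1 b) := by
  rcases lt_or_ge b (4 / 3) with h | h
  · exact J_Cap_small_ge hb h
  · rw [J_Cap_large hb h]
    exact J_Cap_large_ge hb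

end Crest.Agent.H8S0423
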