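import Mathlib
import Crest.Agent.H8S0423E

set_option autoImplicit false
open Real Set MeasureTheory Filter Topology

namespace Crest.Agent.H8S0423

/-- The hypotheses on a survival function used in the main inequality. -/
structure Nice (S : ℝ → ℝ) : Prop where
  pos : ∀ w, 0 < S w
  le_one : ∀ w, S w ≤ 1
  anti : Antitone S
  tp2 : TP2 S
  int : Integrable (fun w => S w - H w)
  mean : ∫ w, (S w - H w) = 0

namespace Nice

variable {S : ℝ → ℝ} (hS : Nice S)
include hS

lemma u_cont : Continuous (fun w => Real.log (S w)) :=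
  (log_concave_of_TP2 hS.pos hS.anti hS.tp2).1

lemma u_conc : ConcaveOn ℝ univ (fun w => Real.log (S w)) :=
  (log_concave_of_TP2 hS.pos hS.anti hS.tp2).2

lemma u_nonpos (w : ℝ) : Real.log (S w) ≤ 0 :=
  Real.log_nonpos (hS.pos w).le (hS.le_one w)

lemma u_anti {x y : ℝ} (h : x ≤ y) : Real.log (S y) ≤ Real.log (S x) :=
  Real.log_le_log (hS.pos y) (hS.anti h)

lemma exp_u (w : ℝ) : Real.exp (Real.log (S w)) = S w := Real.exp_log (hS.pos w)

lemma measurable : Measurable S := hS.anti.measurable

lemma bd (w : ℝ) : |S w| ≤ 1 := abs_le.mpr ⟨by linarith [hS.pos w], hS.le_one w⟩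

lemma exists_larger {x : ℝ} (hx : Real.log (S x) < 0) :
    ∃ w, w < x ∧ Real.log (S x) < Real.log (S w) := by
  by_contra hcon
  push Not at hcon
  have hs1 : S x < 1 := by
    by_contra h
    push Not at h
    have : S x = 1 := le_antisymm (hS.le_one x) h
    rw [this, Real.log_one] at hx
    exact lt_irrefl _ hx
  set m := min x 0 with hm
  have hle : ∀ w, w < m → 1 - S x ≤ ‖S w - H w‖ := by
    intro w hw
    have hw1 : w < x := lt_of_lt_of_le hw (min_le_left _ _)
    have hw2 : w < 0 := lt_of_lt_of_le hw (min_le_right _ _)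
    have h1 : S w ≤ S x := by
      have := hcon w hw1
      exact (Real.log_le_log_iff (hS.pos w) (hS.pos x)).mp this
    have h2 : H w = 1 := by unfold H; rw [if_pos hw2]
    rw [h2, Real.norm_eq_abs, abs_sub_comm]
    exact le_trans (by linarith) (le_abs_self _)
  have hint : IntegrableOn (fun _ : ℝ => (1 - S x)) (Iio m) := by
    have h1 : IntegrableOn (fun w => ‖S w - H w‖) (Iio m) := hS.int.norm.integrableOn
    refine Integrable.mono' h1 aestronglyMeasurable_const ?_
    refine (ae_restrict_iff' measurableSet_Iio).mpr (ae_of_all _ (fun w hw => ?_))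
    have := hle w hw
    rw [Real.norm_of_nonneg (by linarith)]
    exact this
  rw [integrableOn_const_iff] at hint
  rcases hint with h | h
  · have := enorm_eq_zero.mp h
    linarith
  · simp at h

lemma strict {x y : ℝ} (hxy : x < y) (hx : Real.log (S x) < 0) :
    Real.log (S y) < Real.log (S x) := by
  obtain ⟨w, hwx, hw⟩ := hS.exists_larger hx
  by_contra hcon
  push Not at hcon
  have hd : 0 < y - w := by linarith
  have h := hS.u_conc.2 (mem_univ w) (mem_univ y)
    (show 0 ≤ (y - x) / (y - w) from div_nonneg (by linarith) hd.le)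
    (show 0 ≤ (x - w) / (y - w) from div_nonneg (by linarith) hd.le)
    (by field_simp; ring)
  simp only [smul_eq_mul] at h
  have e : (y - x) / (y - w) * w + (x - w) / (y - w) * y = x := by
    field_simp; ring
  rw [e] at h
  have hlam : 0 < (y - x) / (y - w) := div_pos (by linarith) hd
  have e2 : (x - w) / (y - w) = 1 - (y - x) / (y - w) := by
    field_simp; ring
  rw [e2] at h
  have hlam1 : 0 ≤ 1 - (y - x) / (y - w) := by
    rw [← e2]; exact div_nonneg (by linarith) hd.le
  have h5 := mul_lt_mul_of_pos_left hw hlam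
  have h6 := mul_le_mul_of_nonneg_left hcon hlam1
  nlinarith

lemma support_line {x : ℝ} (hx : Real.log (S x) < 0) :
    ∃ σ, σ < 0 ∧ ∀ w, Real.log (S w) ≤ Real.log (S x) + σ * (w - x) := by
  obtain ⟨w₀, hw₀, hw₀'⟩ := hS.exists_larger hx
  set A : Set ℝ := {r | ∃ w, x < w ∧ r = (Real.log (S w) - Real.log (S x)) / (w - x)} with hA
  -- slopes from the left bound slopes from the right
  have hslope : ∀ p q, p < x → x < q →
      (Real.log (S q) - Real.log (S x)) / (q - x) ≤
        (Real.log (S x) - Real.log (S p)) / (x - p) := by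
    intro p q hp hq
    have hd : 0 < q - p := by linarith
    have h := hS.u_conc.2 (mem_univ p) (mem_univ q)
      (show 0 ≤ (q - x) / (q - p) from div_nonneg (by linarith) hd.le)
      (show 0 ≤ (x - p) / (q - p) from div_nonneg (by linarith) hd.le)
      (by field_simp; ring)
    simp only [smul_eq_mul] at h
    have e : (q - x) / (q - p) * p + (x - p) / (q - p) * q = x := by
      field_simp; ring
    rw [e] at h
    have h1 : 0 < q - x := by linarith
    have h2 : 0 < x - p := by linarith
    rw [div_le_div_iff₀ h1 h2]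
    have h3 : (q - x) * Real.log (S p) + (x - p) * Real.log (S q) ≤
        (q - p) * Real.log (S x) := by
      have h4 : (q - x) / (q - p) * Real.log (S p) + (x - p) / (q - p) * Real.log (S q) =
          ((q - x) * Real.log (S p) + (x - p) * Real.log (S q)) / (q - p) := by
        field_simp
      rw [h4, div_le_iff₀ hd] at h
      linarith
    nlinarith
  have hne : A.Nonempty := ⟨_, x + 1, by linarith, rfl⟩
  have hbdd : BddAbove A := by
    refine ⟨(Real.log (S x) - Real.log (S w₀)) / (x - w₀), ?_⟩
    rintro r ⟨w, hw, rfl⟩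
    exact hslope w₀ w hw₀ hw
  set σ := sSup A with hσ
  have hσ_le : ∀ p, p < x → σ ≤ (Real.log (S x) - Real.log (S p)) / (x - p) := by
    intro p hp
    refine csSup_le hne ?_
    rintro r ⟨w, hw, rfl⟩
    exact hslope p w hp hw
  refine ⟨σ, ?_, ?_⟩
  · have h1 := hσ_le w₀ hw₀
    have h2 : (Real.log (S x) - Real.log (S w₀)) / (x - w₀) < 0 :=
      div_neg_of_neg_of_pos (by linarith) (by linarith)
    linarith
  · intro w
    rcases lt_trichotomy w x with h | h | h
    · have h1 := hσ_le w h
      have h2 : 0 < x - w := by linarith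
      rw [le_div_iff₀ h2] at h1
      nlinarith
    · subst h; simp
    · have h1 : (Real.log (S w) - Real.log (S x)) / (w - x) ≤ σ :=
        le_csSup hbdd ⟨w, h, rfl⟩
      have h2 : 0 < w - x := by linarith
      rw [div_le_iff₀ h2] at h1
      linarith

lemma grunbaum : -1 ≤ Real.log (S 0) := by
  by_contra hcon
  push Not at hcon
  obtain ⟨σ, hσ, hline⟩ := hS.support_line (x := 0) (by linarith)
  set c := -Real.log (S 0) with hc
  have hc1 : 1 < c := by simp only [hc]; linarith
  set β := -1 / σ with hβ
  have hβpos : 0 < β := by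
    simp only [hβ]
    exact div_pos_of_neg_of_neg (by norm_num) hσ
  have hle : ∀ w, S w ≤ Cap c β w := by
    intro w
    refine le_min (hS.le_one w) ?_
    rw [← hS.exp_u w]
    apply Real.exp_le_exp.mpr
    have := hline w
    have e : w / β = -σ * w := by
      simp only [hβ]
      have : σ ≠ 0 := hσ.ne
      field_simp
    rw [e]
    simp only [hc]
    linarith
  obtain ⟨hi, hm⟩ := Cap_mean (c := c) hβpos (by linarith)
  have h1 : ∫ w, (S w - H w) ≤ ∫ w, (Cap c β w - H w) :=
    integral_mono hS.int hi (fun w => by simp only; linarith [hle w])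
  rw [hS.mean, hm] at h1
  have : β * (1 - c) < 0 := mul_neg_of_pos_of_neg hβpos (by linarith)
  linarith

end Nice

lemma J_integrable {f : ℝ → ℝ} (hf : Measurable f) {C : ℝ} (hb : ∀ w, |f w| ≤ C) (t : ℝ) :
    Integrable (fun y => mm y * f (y - t)) :=
  mm_integrable.mul_bdd (c := C) (hf.comp (by fun_prop)).aestronglyMeasurable
    (ae_of_all _ (fun y => by simpa using hb _))

lemma Cap_bd (c β w : ℝ) : |Cap c β w| ≤ 1 :=
  abs_le.mpr ⟨by linarith [Cap_pos c β w], Cap_le_one c β w⟩

lemma compare_two_cross {S : ℝ → ℝ} (hS : Nice S) {t b lam : ℝ} (hb : 0 < b)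
    (h : ∀ y, 0 ≤ (mm y - lam) * (S (y - t) - Cap 1 b (y - t))) :
    J t (Cap 1 b) ≤ J t S := by
  obtain ⟨hci, hcm⟩ := Cap_mean (c := 1) hb zero_le_one
  have hCm : Measurable (Cap 1 b) := (Cap_continuous 1 b).measurable
  have hDw : Integrable (fun w => S w - Cap 1 b w) := by
    refine (hS.int.sub hci).congr (ae_of_all _ (fun w => ?_))
    simp only [Pi.sub_apply]
    ring
  have hDint : ∫ w, (S w - Cap 1 b w) = 0 := by
    have : (fun w => S w - Cap 1 b w) = fun w => (S w - H w) - (Cap 1 b w - H w) := by
      ext w; ring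
    rw [this, integral_sub hS.int hci, hS.mean, hcm]
    ring
  have hDy : Integrable (fun y => S (y - t) - Cap 1 b (y - t)) := hDw.comp_sub_right t
  have hDyint : ∫ y, (S (y - t) - Cap 1 b (y - t)) = 0 := by
    rw [← hDint]
    exact integral_sub_right_eq_self (fun w => S w - Cap 1 b w) t
  have hJS := J_integrable hS.measurable hS.bd t
  have hJC := J_integrable hCm (Cap_bd 1 b) t
  have hG : Integrable (fun y => (mm y - lam) * (S (y - t) - Cap 1 b (y - t))) := by
    have : (fun y => (mm y - lam) * (S (y - t) - Cap 1 b (y - t))) =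
        fun y => (mm y * S (y - t) - mm y * Cap 1 b (y - t)) -
          lam * (S (y - t) - Cap 1 b (y - t)) := by
      ext y; ring
    rw [this]
    exact (hJS.sub hJC).sub (hDy.const_mul _)
  have hnn : 0 ≤ ∫ y, (mm y - lam) * (S (y - t) - Cap 1 b (y - t)) :=
    integral_nonneg (fun y => h y)
  have hval : ∫ y, (mm y - lam) * (S (y - t) - Cap 1 b (y - t)) = J t S - J t (Cap 1 b) := by
    have : (fun y => (mm y - lam) * (S (y - t) - Cap 1 b (y - t))) =
        fun y => (mm y * S (y - t) - mm y * Cap 1 b (y - t)) -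
          lam * (S (y - t) - Cap 1 b (y - t)) := by
      ext y; ring
    have hJ12 : Integrable (fun y => mm y * S (y - t) - mm y * Cap 1 b (y - t)) := hJS.sub hJC
    rw [this, integral_sub hJ12 (hDy.const_mul lam), integral_sub hJS hJC,
      integral_const_mul, hDyint]
    unfold J
    ring
  rw [hval] at hnn
  linarith

lemma compare_pointwise {S : ℝ → ℝ} (hS : Nice S) {t b : ℝ}
    (h : ∀ y, 0 < y → Cap 1 b (y - t) ≤ S (y - t)) :
    J t (Cap 1 b) ≤ J t S := by
  have hCm : Measurable (Cap 1 b) := (Cap_continuous 1 b).measurable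
  refine integral_mono (J_integrable hCm (Cap_bd 1 b) t) (J_integrable hS.measurable hS.bd t) ?_
  intro y
  simp only
  by_cases hy : 0 < y
  · exact mul_le_mul_of_nonneg_left (h y hy) (mm_nonneg y)
  · rw [mm_eq_zero (by linarith)]; simp


/-! ### the level-set parametrisation -/

noncomputable def y1 (v : ℝ) : ℝ := v / (Real.exp v - 1)
noncomputable def y2 (v : ℝ) : ℝ := v + y1 v

lemma exp_sub_one_pos {v : ℝ} (hv : 0 < v) : 0 < Real.exp v - 1 := by
  have := Real.add_one_lt_exp hv.ne'
  linarith

lemma y1_pos {v : ℝ} (hv : 0 < v) : 0 < y1 v := div_pos hv (exp_sub_one_pos hv)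

lemma y1_lt_y2 {v : ℝ} (hv : 0 < v) : y1 v < y2 v := by unfold y2; linarith

lemma y2_pos {v : ℝ} (hv : 0 < v) : 0 < y2 v := lt_trans (y1_pos hv) (y1_lt_y2 hv)

lemma y1_le {v : ℝ} (hv : 0 < v) : y1 v ≤ 2 / v := by
  unfold y1
  have h := exp_sub_one_pos hv
  rw [div_le_div_iff₀ h hv]
  have := Real.quadratic_le_exp_of_nonneg hv.le
  nlinarith

lemma y2_ge {v : ℝ} (hv : 0 < v) : v ≤ y2 v := by
  unfold y2; linarith [y1_pos hv]

lemma y2_eq {v : ℝ} (hv : 0 < v) : y2 v = y1 v * Real.exp v := by
  unfold y2 y1
  have h := (exp_sub_one_pos hv).ne'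
  field_simp
  ring

lemma y1_cont : ContinuousOn y1 (Ioi 0) := by
  unfold y1
  refine continuousOn_id.div (by fun_prop) ?_
  intro v hv
  exact (exp_sub_one_pos hv).ne'

lemma y2_cont : ContinuousOn y2 (Ioi 0) := by
  unfold y2
  exact continuousOn_id.add y1_cont

lemma log_sub_concave : ConcaveOn ℝ (Ioi 0) (fun y => Real.log y - y) := by
  have h := (strictConcaveOn_log_Ioi.concaveOn).add ((convexOn_id (convex_Ioi (0:ℝ))).neg)
  have e : (fun y => Real.log y - y) = Real.log + -id := by
    ext y; simp [sub_eq_add_neg]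
  rw [e]
  exact h

lemma mm_eq_exp {y : ℝ} (hy : 0 < y) : mm y = Real.exp (Real.log y - y) := by
  rw [mm_eq_on_pos hy, sub_eq_add_neg, Real.exp_add, Real.exp_log hy]

lemma mm_sign {v : ℝ} (hv : 0 < v) :
    (∀ y, y1 v ≤ y → y ≤ y2 v → mm (y1 v) ≤ mm y) ∧
    (∀ y, y < y1 v ∨ y2 v < y → mm y ≤ mm (y1 v)) := by
  have hy1 := y1_pos hv
  have hy2 := y2_pos hv
  have heq : Real.log (y2 v) - y2 v = Real.log (y1 v) - y1 v := by
    rw [y2_eq hv, Real.log_mul hy1.ne' (Real.exp_pos v).ne', Real.log_exp, ← y2_eq hv]
    unfold y2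
    ring
  obtain ⟨h1, h2⟩ := chord_lemma (s := Ioi 0) (α := Real.log (y1 v) - y1 v) (β := 0)
    log_sub_concave (x₁ := y1 v) (x₂ := y2 v) hy1 hy2 (y1_lt_y2 hv) (by ring)
    (by rw [heq]; ring)
  constructor
  · intro y hl hu
    have hy : 0 < y := lt_of_lt_of_le hy1 hl
    rw [mm_eq_exp hy1, mm_eq_exp hy]
    apply Real.exp_le_exp.mpr
    have := h1 y hy hl hu
    linarith
  · intro y hy
    by_cases hy0 : 0 < y
    · rw [mm_eq_exp hy1, mm_eq_exp hy0]
      apply Real.exp_le_exp.mpr
      have := h2 y hy0 (hy.imp le_of_lt le_of_lt)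
      linarith
    · rw [mm_eq_zero (by linarith)]
      exact mm_nonneg _

/-- value at `0` of the chord over the level pair -/
noncomputable def chordA (S : ℝ → ℝ) (t v : ℝ) : ℝ :=
  Real.log (S (y1 v - t)) -
    (Real.log (S (y2 v - t)) - Real.log (S (y1 v - t))) / v * (y1 v - t)

lemma chordA_cont {S : ℝ → ℝ} (hS : Nice S) (t : ℝ) : ContinuousOn (chordA S t) (Ioi 0) := by
  unfold chordA
  have hu := hS.u_cont
  have h1 : ContinuousOn (fun v => Real.log (S (y1 v - t))) (Ioi 0) :=
    hu.comp_continuousOn (y1_cont.sub continuousOn_const)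
  have h2 : ContinuousOn (fun v => Real.log (S (y2 v - t))) (Ioi 0) :=
    hu.comp_continuousOn (y2_cont.sub continuousOn_const)
  refine h1.sub (ContinuousOn.mul (ContinuousOn.div (h2.sub h1) continuousOn_id ?_)
    (y1_cont.sub continuousOn_const))
  intro v hv
  exact (ne_of_gt hv)

/-- the chord line equalities -/
lemma chord_eqs {S : ℝ → ℝ} (t : ℝ) {v : ℝ} (hv : 0 < v) :
    Real.log (S (y1 v - t)) = chordA S t v +
        (Real.log (S (y2 v - t)) - Real.log (S (y1 v - t))) / v * (y1 v - t) ∧
    Real.log (S (y2 v - t)) = chordA S t v +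
        (Real.log (S (y2 v - t)) - Real.log (S (y1 v - t))) / v * (y2 v - t) := by
  constructor
  · unfold chordA; ring
  · unfold chordA
    have e : y2 v - t = (y1 v - t) + v := by unfold y2; ring
    rw [e]
    field_simp
    ring

lemma y2_half_le : y2 (1 / 2) ≤ 4 / 3 := by
  unfold y2 y1
  have hE : (8:ℝ) / 5 ≤ Real.exp (1 / 2) := by
    have := Real.quadratic_le_exp_of_nonneg (x := 1 / 2) (by norm_num)
    norm_num at this ⊢
    linarith
  have hpos : 0 < Real.exp (1 / 2) - 1 := by linarith
  have : (1 / 2) / (Real.exp (1 / 2) - 1) ≤ 5 / 6 := by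
    rw [div_le_iff₀ hpos]
    linarith
  linarith

lemma chordA_half {S : ℝ → ℝ} (hS : Nice S) : -1 ≤ chordA S (4 / 3) (1 / 2) := by
  have hv : (0:ℝ) < 1 / 2 := by norm_num
  obtain ⟨e1, e2⟩ := chord_eqs (S := S) (4 / 3) hv
  have hlt : y1 (1 / 2) - 4 / 3 < y2 (1 / 2) - 4 / 3 := by linarith [y1_lt_y2 hv]
  obtain ⟨_, h2⟩ := chord_lemma hS.u_conc (mem_univ _) (mem_univ _) hlt e1 e2
  have h3 := h2 0 (mem_univ _) (Or.inr (by linarith [y2_half_le]))
  have h4 := hS.grunbaum
  simp only [mul_zero, add_zero] at h3
  linarith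

/-- Case I: the chord over some level pair passes through `(0,-1)`. -/
lemma caseI {S : ℝ → ℝ} (hS : Nice S) {v : ℝ} (hv : 0 < v) (hA : chordA S (4 / 3) v = -1) :
    kappa ≤ J (4 / 3) S := by
  set t : ℝ := 4 / 3 with ht
  set σ := (Real.log (S (y2 v - t)) - Real.log (S (y1 v - t))) / v with hσ
  obtain ⟨e1, e2⟩ := chord_eqs (S := S) t hv
  rw [hA] at e1 e2
  have hlt : y1 v - t < y2 v - t := by linarith [y1_lt_y2 hv]
  -- the slope is negative
  have hσneg : σ < 0 := by
    have hx : Real.log (S (y2 v - t)) < Real.log (S (y1 v - t)) := by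
      by_cases h0 : Real.log (S (y1 v - t)) < 0
      · exact hS.strict hlt h0
      · have h1 : Real.log (S (y1 v - t)) = 0 := le_antisymm (hS.u_nonpos _) (not_lt.mp h0)
        have h2 : Real.log (S (y2 v - t)) ≤ 0 := hS.u_nonpos _
        rcases lt_or_eq_of_le h2 with h3 | h3
        · linarith
        · exfalso
          have : σ = 0 := by simp only [hσ, h1, h3]; simp
          have e1' : Real.log (S (y1 v - t)) = -1 + σ * (y1 v - t) := e1
          rw [this] at e1'
          simp only [zero_mul, add_zero] at e1'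
          linarith
    exact div_neg_of_neg_of_pos (by linarith) hv
  set b := -1 / σ with hb
  have hbpos : 0 < b := div_pos_of_neg_of_neg (by norm_num) hσneg
  have hline : ∀ w, -1 - w / b = -1 + σ * w := by
    intro w
    simp only [hb]
    have : σ ≠ 0 := hσneg.ne
    field_simp
    ring
  obtain ⟨hin, hout⟩ := chord_lemma hS.u_conc (mem_univ _) (mem_univ _) hlt e1 e2
  obtain ⟨hm1, hm2⟩ := mm_sign hv
  have hcmp := compare_two_cross hS (t := t) (lam := mm (y1 v)) hbpos (by
    intro y
    by_cases hy : y1 v ≤ y ∧ y ≤ y2 v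
    · have h1 := hm1 y hy.1 hy.2
      have h2 := hin (y - t) (mem_univ _) (by linarith [hy.1]) (by linarith [hy.2])
      have h3 : Cap 1 b (y - t) ≤ S (y - t) := by
        calc Cap 1 b (y - t) ≤ Real.exp (-1 - (y - t) / b) := min_le_right _ _
          _ ≤ Real.exp (Real.log (S (y - t))) := by
              apply Real.exp_le_exp.mpr
              rw [hline]
              exact h2
          _ = S (y - t) := hS.exp_u _
      exact mul_nonneg (by linarith) (by linarith)
    · have hy' : y < y1 v ∨ y2 v < y := by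
        by_contra hcon
        push Not at hcon
        exact hy hcon
      have h1 := hm2 y hy'
      have h2 := hout (y - t) (mem_univ _)
        (hy'.imp (fun h => by linarith) (fun h => by linarith))
      have h3 : S (y - t) ≤ Cap 1 b (y - t) := by
        refine le_min (hS.le_one _) ?_
        rw [← hS.exp_u (y - t)]
        apply Real.exp_le_exp.mpr
        rw [hline]
        exact h2
      exact mul_nonneg_of_nonpos_of_nonpos (by linarith) (by linarith))
  exact le_trans (J_Cap_ge hbpos) hcmp

/-- Case II: all chords pass above `(0,-1)`. -/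
lemma caseII {S : ℝ → ℝ} (hS : Nice S) (hA : ∀ v, 1 / 2 ≤ v → -1 < chordA S (4 / 3) v) :
    kappa ≤ J (4 / 3) S := by
  set t : ℝ := 4 / 3 with ht
  have htpos : 0 < t := by simp only [ht]; norm_num
  have hu0 := hS.grunbaum
  have hut : -1 < Real.log (S (-t)) := by
    by_contra hcon
    push Not at hcon
    have h1 : Real.log (S (-t)) < 0 := by linarith
    have h2 := hS.strict (x := -t) (y := 0) (by linarith) h1
    linarith
  -- slope of the limiting line
  set σ := -(1 + Real.log (S (-t))) / t with hσ
  have hσneg : σ < 0 := div_neg_of_neg_of_pos (by linarith) htpos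
  set b := -1 / σ with hb
  have hbpos : 0 < b := div_pos_of_neg_of_neg (by norm_num) hσneg
  have hline : ∀ w, -1 - w / b = -1 + σ * w := by
    intro w
    simp only [hb]
    have : σ ≠ 0 := hσneg.ne
    field_simp
    ring
  have hat : -1 + σ * (-t) = Real.log (S (-t)) := by
    simp only [hσ]
    field_simp
    ring
  -- the main inequality
  have hkey : ∀ w, -t < w → -1 + σ * w ≤ Real.log (S w) := by
    intro w hw
    rcases le_or_gt w 0 with h0 | h0
    · -- interpolate between `-t` and `0`
      have h := hS.u_conc.2 (mem_univ (-t)) (mem_univ (0:ℝ))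
        (show 0 ≤ -w / t from div_nonneg (by linarith) htpos.le)
        (show 0 ≤ (w + t) / t from div_nonneg (by linarith) htpos.le)
        (by field_simp; ring)
      simp only [smul_eq_mul] at h
      have e : -w / t * -t + (w + t) / t * 0 = w := by
        field_simp
        ring
      rw [e] at h
      have h1 : 0 ≤ (w + t) / t := div_nonneg (by linarith) htpos.le
      have h2 : 0 ≤ -w / t := div_nonneg (by linarith) htpos.le
      have h3 : (-w / t) * (-1 + σ * (-t)) + ((w + t) / t) * (-1) ≤
          -w / t * Real.log (S (-t)) + (w + t) / t * Real.log (S 0) := by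
        rw [hat]
        nlinarith
      have e2 : (-w / t) * (-1 + σ * (-t)) + ((w + t) / t) * (-1) = -1 + σ * w := by
        field_simp
        ring
      linarith
    · -- limit argument
      set ℓ : ℝ → ℝ := fun v => -1 + ((-1 - Real.log (S (y1 v - t))) / (t - y1 v)) * w with hℓ
      have hev : ∀ᶠ v in atTop, ℓ v ≤ Real.log (S w) := by
        filter_upwards [eventually_ge_atTop (2:ℝ), eventually_ge_atTop (w + t)] with v hv2 hvw
        have hv : 0 < v := by linarith
        have hy1le : y1 v ≤ 1 := by
          have := y1_le hv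
          have h2v : 2 / v ≤ 1 := by
            rw [div_le_one hv]; exact hv2
          linarith
        have hx1 : y1 v - t < 0 := by simp only [ht]; linarith
        have hy2le : w ≤ y2 v - t := by linarith [y2_ge hv]
        have hAv := hA v (by linarith)
        obtain ⟨e1, e2⟩ := chord_eqs (S := S) t hv
        have hlt : y1 v - t < y2 v - t := by linarith [y1_lt_y2 hv]
        obtain ⟨hin, _⟩ := chord_lemma hS.u_conc (mem_univ _) (mem_univ _) hlt e1 e2
        have h1 := hin w (mem_univ _) (by linarith) hy2le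
        -- compare slopes
        set σv := (Real.log (S (y2 v - t)) - Real.log (S (y1 v - t))) / v with hσv
        have hd : 0 < t - y1 v := by linarith
        have h2 : (-1 - Real.log (S (y1 v - t))) / (t - y1 v) ≤ σv := by
          rw [div_le_iff₀ hd]
          have : Real.log (S (y1 v - t)) = chordA S t v + σv * (y1 v - t) := e1
          nlinarith
        simp only [hℓ]
        have h3 := mul_le_mul_of_nonneg_right h2 h0.le
        linarith
      have hlim : Tendsto ℓ atTop (𝓝 (-1 + σ * w)) := by
        have hy1lim : Tendsto y1 atTop (𝓝 0) := by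
          have hup : Tendsto (fun v : ℝ => 2 / v) atTop (𝓝 0) :=
            tendsto_const_nhds.div_atTop tendsto_id
          refine tendsto_of_tendsto_of_tendsto_of_le_of_le' tendsto_const_nhds hup ?_ ?_
          · filter_upwards [eventually_gt_atTop (0:ℝ)] with v hv using (y1_pos hv).le
          · filter_upwards [eventually_gt_atTop (0:ℝ)] with v hv using y1_le hv
        have h1 : Tendsto (fun v => y1 v - t) atTop (𝓝 (-t)) := by
          have := hy1lim.sub_const t
          simpa using this
        have h2 : Tendsto (fun v => Real.log (S (y1 v - t))) atTop (𝓝 (Real.log (S (-t)))) :=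
          (hS.u_cont.tendsto _).comp h1
        have h3 : Tendsto (fun v => t - y1 v) atTop (𝓝 t) := by
          have := hy1lim.const_sub t
          simpa using this
        have h4 : Tendsto (fun v => (-1 - Real.log (S (y1 v - t))) / (t - y1 v)) atTop
            (𝓝 ((-1 - Real.log (S (-t))) / t)) :=
          (tendsto_const_nhds.sub h2).div h3 htpos.ne'
        have h5 := (h4.mul_const w).const_add (-1)
        have e : (-1 - Real.log (S (-t))) / t = σ := by
          simp only [hσ]
          ring
        rw [e] at h5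
        exact h5
      exact le_of_tendsto hlim hev
  have hcmp := compare_pointwise hS (t := t) (b := b) (by
    intro y hy
    have h1 := hkey (y - t) (by linarith)
    calc Cap 1 b (y - t) ≤ Real.exp (-1 - (y - t) / b) := min_le_right _ _
      _ ≤ Real.exp (Real.log (S (y - t))) := by
          apply Real.exp_le_exp.mpr
          rw [hline]
          exact h1
      _ = S (y - t) := hS.exp_u _)
  exact le_trans (J_Cap_ge hbpos) hcmp

/-- The main inequality. -/
theorem main_ineq {S : ℝ → ℝ} (hS : Nice S) : kappa ≤ J (4 / 3) S := by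
  by_cases h : ∀ v, 1 / 2 ≤ v → -1 < chordA S (4 / 3) v
  · exact caseII hS h
  · push Not at h
    obtain ⟨v₀, hv₀, hle⟩ := h
    have hcont : ContinuousOn (chordA S (4 / 3)) (Icc (1 / 2) v₀) :=
      (chordA_cont hS _).mono (fun x hx => lt_of_lt_of_le (by norm_num) hx.1)
    have hmem : (-1 : ℝ) ∈ Icc (chordA S (4 / 3) v₀) (chordA S (4 / 3) (1 / 2)) :=
      ⟨hle, chordA_half hS⟩
    obtain ⟨v, hv, hAv⟩ := intermediate_value_Icc' hv₀ hcont hmem
    exact caseI hS (lt_of_lt_of_le (by norm_num) hv.1) hAv

end Crest.Agent.H8S0423
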