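import Mathlib
import Crest.Agent.H8S0423F

set_option autoImplicit false
open Real Set MeasureTheory Filter Topology
open Crest.AlgGeometry

namespace Crest.Agent.H8S0423

lemma final_arith {E' : ℝ} (h : E' ≤ 1 - kappa) :
    Real.exp (4 / 3) / (4 / 3) * E' ≤ 3 / 4 * Real.exp (4 / 3) - Real.exp 1 / 3 := by
  have hpos : 0 < Real.exp (4 / 3) / (4 / 3) := by positivity
  have h1 := mul_le_mul_of_nonneg_left h hpos.le
  have h2 : Real.exp (4 / 3) / (4 / 3) * (1 - kappa) =
      3 / 4 * Real.exp (4 / 3) - Real.exp 1 / 3 := by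
    unfold kappa
    have : Real.exp (4 / 3) * Real.exp (-(1 / 3)) = Real.exp 1 := by
      rw [← Real.exp_add]; norm_num
    have e : Real.exp (4 / 3) / (4 / 3) * (1 - 4 / 9 * Real.exp (-(1 / 3))) =
        3 / 4 * Real.exp (4 / 3) - (Real.exp (4 / 3) * Real.exp (-(1 / 3))) / 3 := by ring
    rw [e, this]
  linarith

lemma part1 (N : ℕ) (a : Fin N → ℝ) (hsum : ∑ i, a i = 0) :
    Real.exp (4 / 3) / (4 / 3) *
        ∫ x in Set.pi Set.univ (fun _ : Fin N => Set.Ioi (0 : ℝ)),
          truncExpWeight (4 / 3 + ∑ i, a i * x i) * Real.exp (-∑ i, x i)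
      ≤ 3 / 4 * Real.exp (4 / 3) - Real.exp 1 / 3 := by
  apply final_arith
  rw [orth_integral (fun x => truncExpWeight (4 / 3 + ∑ i, a i * x i))]
  by_cases h : ∃ i, 0 < a i
  · rw [link]
    have hg := Sv_good N a
    have hS : Nice (Sv N a) :=
      { pos := Sv_pos N a h
        le_one := hg.le_one
        anti := hg.anti
        tp2 := hg.tp2
        int := hg.int
        mean := by rw [hg.mean, hsum] }
    have := main_ineq hS
    linarith
  · push Not at h
    have h0 : ∀ i, a i = 0 := by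
      intro i
      exact (Finset.sum_eq_zero_iff_of_nonpos (fun i _ => h i)).mp hsum i (Finset.mem_univ i)
    have e1 : ∀ x : Fin N → ℝ, truncExpWeight (4 / 3 + ∑ i, a i * x i) =
        (1 + 4 / 3) * Real.exp (-(4 / 3)) := by
      intro x
      simp only [h0, zero_mul, Finset.sum_const_zero, add_zero]
      unfold truncExpWeight
      rw [if_neg (by norm_num)]
    simp_rw [e1]
    rw [integral_const_mul, integral_PE, mul_one]
    unfold kappa
    set z := Real.exp (-(1 / 3)) with hz
    have hzpos : 0 < z := Real.exp_pos _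
    have hz4 : Real.exp (-(4 / 3)) = z ^ 4 := by
      rw [hz, ← Real.exp_nat_mul]
      congr 1
      norm_num
    have hzle : z ≤ 18 / 25 := by
      have h1 : (25:ℝ) / 18 ≤ Real.exp (1 / 3) := by
        have := Real.quadratic_le_exp_of_nonneg (x := 1 / 3) (by norm_num)
        norm_num at this ⊢
        linarith
      rw [hz, Real.exp_neg]
      calc (Real.exp (1 / 3))⁻¹ ≤ (25 / 18 : ℝ)⁻¹ := inv_anti₀ (by norm_num) h1
        _ = 18 / 25 := by norm_num
    rw [hz4]
    have hz4le : z ^ 4 ≤ (18 / 25) ^ 4 := pow_le_pow_left₀ hzpos.le hzle 4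
    norm_num at hz4le ⊢
    nlinarith

/-- the test coefficients -/
noncomputable def aSeq (q : ℝ) : (k : ℕ) → (Fin (k + 1) → ℝ)
  | 0 => fun _ => 2
  | k + 1 => Fin.cons (-2 * q) (aSeq q k)

lemma aSeq_sum (q : ℝ) (k : ℕ) : ∑ i, aSeq q k i = 2 - 2 * q * k := by
  induction k with
  | zero => simp [aSeq]
  | succ k ih =>
    rw [Fin.sum_univ_succ]
    simp only [aSeq, Fin.cons_zero, Fin.cons_succ, ih]
    push_cast
    ring

lemma T_H_bound (w : ℝ) : T 2 H w ≤ Real.exp (-w / 2) := by
  unfold T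
  have h1 : (fun x => H (w - 2 * x) * E x) =
      (Ioi (max 0 (w / 2))).indicator (fun x => Real.exp (-x)) := by
    ext x
    by_cases hx : max 0 (w / 2) < x
    · rw [indicator_of_mem (by simpa using hx)]
      have hx0 : 0 < x := lt_of_le_of_lt (le_max_left _ _) hx
      have hx1 : w / 2 < x := lt_of_le_of_lt (le_max_right _ _) hx
      have : H (w - 2 * x) = 1 := by
        unfold H; rw [if_pos (by linarith)]
      rw [this, one_mul]
      unfold E
      rw [if_pos hx0]
    · rw [indicator_of_notMem (by simpa using hx)]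
      push Not at hx
      by_cases hx0 : 0 < x
      · have hx1 : x ≤ w / 2 := by
          rcases le_max_iff.mp hx with h | h
          · linarith
          · exact h
        have : H (w - 2 * x) = 0 := by
          unfold H; rw [if_neg (by linarith)]
        rw [this, zero_mul]
      · have : E x = 0 := by
          unfold E; rw [if_neg hx0]
        rw [this, mul_zero]
  rw [h1, integral_indicator measurableSet_Ioi, integral_exp_neg_Ioi]
  apply Real.exp_le_exp.mpr
  have := le_max_right 0 (w / 2)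
  linarith

lemma T_step {f : ℝ → ℝ} (hf : Measurable f) (hb : ∀ w, |f w| ≤ 1) {C q : ℝ} (hC : 0 ≤ C)
    (hq : 0 ≤ q) (hbd : ∀ w, f w ≤ C * Real.exp (-w / 2)) (w : ℝ) :
    T (-2 * q) f w ≤ C * (1 / (1 + q)) * Real.exp (-w / 2) := by
  unfold T
  have hβ : 0 < 1 / (1 + q) := by positivity
  obtain ⟨hi, hv⟩ := exp_tail 0 (1 / (1 + q)) 0 hβ
  have hi' : Integrable ((Ioi (0:ℝ)).indicator
      (fun x => C * Real.exp (-w / 2) * Real.exp (-0 - x / (1 / (1 + q))))) := by
    rw [integrable_indicator_iff measurableSet_Ioi]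
    exact hi.const_mul _
  have hle : ∀ x, f (w - -2 * q * x) * E x ≤ (Ioi (0:ℝ)).indicator
      (fun x => C * Real.exp (-w / 2) * Real.exp (-0 - x / (1 / (1 + q)))) x := by
    intro x
    by_cases hx : 0 < x
    · rw [indicator_of_mem (by simpa using hx)]
      have h1 := hbd (w - -2 * q * x)
      have hE : E x = Real.exp (-x) := by unfold E; rw [if_pos hx]
      rw [hE]
      have h2 := mul_le_mul_of_nonneg_right h1 (Real.exp_pos (-x)).le
      refine le_trans h2 (le_of_eq ?_)
      have e : Real.exp (-(w - -2 * q * x) / 2) * Real.exp (-x) =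
          Real.exp (-w / 2) * Real.exp (-0 - x / (1 / (1 + q))) := by
        rw [← Real.exp_add, ← Real.exp_add]
        congr 1
        field_simp
        ring
      rw [mul_assoc, e, mul_assoc]
    · rw [indicator_of_notMem (by simpa using hx)]
      have : E x = 0 := by unfold E; rw [if_neg hx]
      rw [this, mul_zero]
  have h := integral_mono (T_integrand_integrable hf hb (-2 * q) w) hi' hle
  refine le_trans h (le_of_eq ?_)
  rw [integral_indicator measurableSet_Ioi, integral_const_mul, hv]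
  simp
  ring

lemma Sv_aSeq_bound {q : ℝ} (hq : 0 ≤ q) (k : ℕ) (w : ℝ) :
    Sv (k + 1) (aSeq q k) w ≤ (1 / (1 + q)) ^ k * Real.exp (-w / 2) := by
  induction k generalizing w with
  | zero =>
    simp only [pow_zero, one_mul]
    have : Sv (0 + 1) (aSeq q 0) w = T 2 H w := by
      simp [Sv, aSeq]
    rw [this]
    exact T_H_bound w
  | succ k ih =>
    have hg := Sv_good (k + 1) (aSeq q k)
    have e : Sv (k + 1 + 1) (aSeq q (k + 1)) w = T (-2 * q) (Sv (k + 1) (aSeq q k)) w := by
      simp only [Sv, aSeq, Fin.cons_zero, Fin.tail_cons]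
    rw [e]
    have hC : 0 ≤ (1 / (1 + q)) ^ k := by positivity
    have := T_step hg.anti.measurable hg.bd hC hq ih w
    refine le_trans this (le_of_eq ?_)
    rw [pow_succ]

lemma J_exp_bound {S : ℝ → ℝ} (hS : Measurable S) (hb : ∀ w, |S w| ≤ 1) {C : ℝ}
    (hC : ∀ w, S w ≤ C * Real.exp (-w / 2)) :
    J (4 / 3) S ≤ C * Real.exp (2 / 3) * (4 / 9) := by
  have hα : (0:ℝ) < 3 / 2 := by norm_num
  have hi0 := integrableOn_mul_exp (3 / 2) 0 hα le_rfl
  have hi : Integrable ((Ioi (0:ℝ)).indicator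
      (fun y => C * Real.exp (2 / 3) * (y * Real.exp (-(3 / 2) * y)))) := by
    rw [integrable_indicator_iff measurableSet_Ioi]
    exact hi0.const_mul _
  have hle : ∀ y, mm y * S (y - 4 / 3) ≤ (Ioi (0:ℝ)).indicator
      (fun y => C * Real.exp (2 / 3) * (y * Real.exp (-(3 / 2) * y))) y := by
    intro y
    by_cases hy : 0 < y
    · rw [indicator_of_mem (by simpa using hy)]
      have h1 := mul_le_mul_of_nonneg_left (hC (y - 4 / 3)) (mm_nonneg y)
      refine le_trans h1 (le_of_eq ?_)
      rw [mm_eq_on_pos hy]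
      have e : Real.exp (-y) * Real.exp (-(y - 4 / 3) / 2) =
          Real.exp (2 / 3) * Real.exp (-(3 / 2) * y) := by
        rw [← Real.exp_add, ← Real.exp_add]
        congr 1
        ring
      calc y * Real.exp (-y) * (C * Real.exp (-(y - 4 / 3) / 2))
          = y * C * (Real.exp (-y) * Real.exp (-(y - 4 / 3) / 2)) := by ring
        _ = _ := by rw [e]; ring
    · rw [indicator_of_notMem (by simpa using hy), mm_eq_zero (by linarith)]
      simp
  have h := integral_mono (J_integrable hS hb (4 / 3)) hi hle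
  refine le_trans h (le_of_eq ?_)
  rw [integral_indicator measurableSet_Ioi, integral_const_mul, integral_mul_exp _ 0 hα le_rfl]
  norm_num

lemma part2 (ε : ℝ) (hε : 0 < ε) : ∃ (N : ℕ) (a : Fin N → ℝ), 1 ≤ N ∧ ∑ i, a i = 0 ∧
    3 / 4 * Real.exp (4 / 3) - Real.exp 1 / 3 - ε <
      Real.exp (4 / 3) / (4 / 3) *
        ∫ x in Set.pi Set.univ (fun _ : Fin N => Set.Ioi (0 : ℝ)),
          truncExpWeight (4 / 3 + ∑ i, a i * x i) * Real.exp (-∑ i, x i) := by
  -- the limit
  have hlim0 : Tendsto (fun M : ℕ => (1 + 1 / (M:ℝ)) ^ M) atTop (𝓝 (Real.exp 1)) :=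
    Real.tendsto_one_add_div_pow_exp 1
  have hlim1 : Tendsto (fun M : ℕ => ((1 + 1 / (M:ℝ)) ^ M)⁻¹) atTop (𝓝 (Real.exp 1)⁻¹) :=
    hlim0.inv₀ (Real.exp_pos 1).ne'
  have hlim2 : Tendsto (fun M : ℕ => 1 / 3 * Real.exp 2 * ((1 + 1 / (M:ℝ)) ^ M)⁻¹) atTop
      (𝓝 (1 / 3 * Real.exp 2 * (Real.exp 1)⁻¹)) := hlim1.const_mul _
  have hval : 1 / 3 * Real.exp 2 * (Real.exp 1)⁻¹ = Real.exp 1 / 3 := by
    have : Real.exp 2 = Real.exp 1 * Real.exp 1 := by
      rw [← Real.exp_add]; norm_num
    rw [this]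
    have hne := (Real.exp_pos 1).ne'
    field_simp
  rw [hval] at hlim2
  have hev := hlim2.eventually (gt_mem_nhds (show Real.exp 1 / 3 < Real.exp 1 / 3 + ε by linarith))
  obtain ⟨M, hM1, hM⟩ := ((eventually_ge_atTop 1).and hev).exists
  have hMpos : (0:ℝ) < M := by exact_mod_cast hM1
  set q : ℝ := 1 / (M:ℝ) with hq
  have hq0 : 0 ≤ q := by positivity
  refine ⟨M + 1, aSeq q M, by omega, ?_, ?_⟩
  · rw [aSeq_sum]
    simp only [hq]
    field_simp
    ring
  · rw [orth_integral (fun x => truncExpWeight (4 / 3 + ∑ i, aSeq q M i * x i)), link]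
    have hg := Sv_good (M + 1) (aSeq q M)
    have hJ := J_exp_bound hg.anti.measurable hg.bd (C := (1 / (1 + q)) ^ M)
      (Sv_aSeq_bound hq0 M)
    have hpos : 0 < Real.exp (4 / 3) / (4 / 3) := by positivity
    have h1 := mul_le_mul_of_nonneg_left hJ hpos.le
    have e2 : (1 / (1 + q)) ^ M = ((1 + q) ^ M)⁻¹ := by
      rw [one_div, inv_pow]
    have e3 : Real.exp (4 / 3) / (4 / 3) * ((1 / (1 + q)) ^ M * Real.exp (2 / 3) * (4 / 9)) =
        1 / 3 * Real.exp 2 * ((1 + q) ^ M)⁻¹ := by
      have : Real.exp 2 = Real.exp (4 / 3) * Real.exp (2 / 3) := by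
        rw [← Real.exp_add]; norm_num
      rw [this, e2]
      field_simp
      norm_num
    rw [e3] at h1
    have e4 : Real.exp (4 / 3) / (4 / 3) * (1 - J (4 / 3) (Sv (M + 1) (aSeq q M))) =
        3 / 4 * Real.exp (4 / 3) -
          Real.exp (4 / 3) / (4 / 3) * J (4 / 3) (Sv (M + 1) (aSeq q M)) := by
      field_simp
    rw [e4]
    have hM' : 1 / 3 * Real.exp 2 * ((1 + q) ^ M)⁻¹ < Real.exp 1 / 3 + ε := hM
    linarith

end Crest.Agent.H8S0423
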