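/-
S0175 (Monge not attained for the 3-body repulsive cost): shared definitions.  See MGPLAN.md.
-/
import Crest.Prelude.Def_MultiMarginal

set_option autoImplicit false

open MeasureTheory Set
open scoped ENNReal ContDiff

namespace Crest.Agent.MG

open Crest.AnalysisR.OT

/-- The generic form of the conclusion of S0175, for a measure `μ` on `Ω` and cost `c`. -/
def MongeResult {Ω : Type*} [MeasurableSpace Ω] (μ : Measure Ω) (c : Ω × Ω × Ω → ℝ≥0∞) : Prop :=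
  ∃ π₀ : Measure (Ω × Ω × Ω), IsCoupling₃ μ π₀ ∧ ∫⁻ p, c p ∂π₀ < ⊤ ∧
    (∀ π : Measure (Ω × Ω × Ω), IsCoupling₃ μ π → ∫⁻ p, c p ∂π₀ ≤ ∫⁻ p, c p ∂π) ∧
    (∀ T₂ T₃ : Ω → Ω, Measurable T₂ → Measurable T₃ → μ.map T₂ = μ → μ.map T₃ = μ →
      ∫⁻ p, c p ∂π₀ < ∫⁻ x, c (x, T₂ x, T₃ x) ∂μ) ∧
    (∀ ε : ℝ≥0∞, 0 < ε → ∃ T₂ T₃ : Ω → Ω, Measurable T₂ ∧ Measurable T₃ ∧
      μ.map T₂ = μ ∧ μ.map T₃ = μ ∧
      ∫⁻ x, c (x, T₂ x, T₃ x) ∂μ < ∫⁻ p, c p ∂π₀ + ε)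

/-- the extra coordinates `q ∈ ℝ^n`, `d = n + 2`. -/
abbrev Fq (n : ℕ) := EuclideanSpace ℝ (Fin n)
/-- the model of `ℝ^(n+2)`: `x = (p, q)`. -/
abbrev Xs (n : ℕ) := ℂ × Fq n
/-- the base: `b = (R, q)`, `R = |p|²`. -/
abbrev Bs (n : ℕ) := ℝ × Fq n

instance instFactTwoPi : Fact (0 < 2 * Real.pi) := ⟨Real.two_pi_pos⟩

/-- the circle of angles -/
abbrev Tor := AddCircle (2 * Real.pi)

/-- `θ ↦ e^{iθ}` on the circle of angles. -/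
noncomputable def eT (θ : Tor) : ℂ := ((AddCircle.toCircle θ : Circle) : ℂ)

/-- `x = (p, q) ↦ (|p|², q)`. -/
noncomputable def prj {n : ℕ} (x : Xs n) : Bs n := (‖x.1‖ ^ 2, x.2)

/-- the angle of `p`. -/
noncomputable def ang {n : ℕ} (x : Xs n) : Tor := ((Complex.arg x.1 : ℝ) : Tor)

/-- polar chart: `((R, q), θ) ↦ (√R e^{iθ}, q)`. -/
noncomputable def chi {n : ℕ} (b : Bs n) (θ : Tor) : Xs n :=
  (((Real.sqrt b.1 : ℝ) : ℂ) * eT θ, b.2)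

/-- squared distance in the model. -/
noncomputable def D2 {n : ℕ} (x y : Xs n) : ℝ := ‖x.1 - y.1‖ ^ 2 + ‖x.2 - y.2‖ ^ 2

/-- the pair cost in the model. -/
noncomputable def pc {n : ℕ} (s : ℝ) (x y : Xs n) : ℝ≥0∞ :=
  ENNReal.ofReal (Real.sqrt (D2 x y)) ^ (-s)

/-- the triple cost in the model. -/
noncomputable def cX {n : ℕ} (s : ℝ) (a : Xs n × Xs n × Xs n) : ℝ≥0∞ :=
  pc s a.1 a.2.1 + pc s a.1 a.2.2 + pc s a.2.1 a.2.2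

/-- `g(t) = t^(-s/2)`: the basic convex function. -/
noncomputable def g (s t : ℝ) : ℝ := t ^ (-s / 2)

/-- `σ = 2/(s+2)`. -/
noncomputable def sig (s : ℝ) : ℝ := 2 / (s + 2)
/-- `G(k) = (1+k)^σ`: `ℓ² = G·L` on a hyperedge. -/
noncomputable def Gk (s k : ℝ) : ℝ := (1 + k) ^ sig s
/-- `P(k) = ((1+k)/(2k))^σ`: `Y = P·L` on a hyperedge. -/
noncomputable def Pk (s k : ℝ) : ℝ := ((1 + k) / (2 * k)) ^ sig s
/-- `ν(k) = k/(2(1+k))`. -/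
noncomputable def nuk (k : ℝ) : ℝ := k / (2 * (1 + k))
/-- `θ(k) = ν/(1-ν) = k/(2+k)`. -/
noncomputable def thk (k : ℝ) : ℝ := k / (2 + k)

/-- `L(y) = 1 - |p|² - 2|q|²`. -/
noncomputable def Lout {n : ℕ} (y : Xs n) : ℝ := 1 - ‖y.1‖ ^ 2 - 2 * ‖y.2‖ ^ 2
/-- the outer potential `u_O(y) = -2 L(y)^(-s/2)`. -/
noncomputable def uO {n : ℕ} (s : ℝ) (y : Xs n) : ℝ := -2 * g s (Lout y)
/-- the inner potential value on a hyperedge with parameters `k, L`. -/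
noncomputable def uI (s k L : ℝ) : ℝ := g s (Gk s k * L) + 2 * g s (Pk s k * L) + 4 * g s L

/-- The relations tying `(R, τ) = (|p|², |q|²)` of an inner point to the parameters `k, L`
of its hyperedge. (`ς = τ/(1-ν)²`.) -/
structure HRel (s k L R τ : ℝ) : Prop where
  hk : 0 < k
  hL : 0 < L
  r3 : Pk s k * L = (1 + k) ^ 2 * R + Gk s k * L / 4 + τ / (1 - nuk k) ^ 2
  r2 : L = 1 - (k ^ 2 * R + Gk s k * L / 4) - 2 * (nuk k) ^ 2 * (τ / (1 - nuk k) ^ 2)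

/-- the complex multiplier of the hyperedge: `ζ = -k + i·√(G L)/(2√R)`; the outer points are
`y₊ = (ζ p, -θ q)`, `y₋ = (conj ζ p, -θ q)`. -/
noncomputable def zetaP (s k L R : ℝ) : ℂ :=
  ((-k : ℝ) : ℂ) + ((Real.sqrt (Gk s k * L) / (2 * Real.sqrt R) : ℝ) : ℂ) * Complex.I

/-- `y₊`. -/
noncomputable def yPlus {n : ℕ} (s k L : ℝ) (x : Xs n) : Xs n :=
  (zetaP s k L (‖x.1‖ ^ 2) * x.1, (-thk k) • x.2)
/-- `y₋`. -/
noncomputable def yMinus {n : ℕ} (s k L : ℝ) (x : Xs n) : Xs n :=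
  ((starRingEnd ℂ) (zetaP s k L (‖x.1‖ ^ 2)) * x.1, (-thk k) • x.2)

end Crest.Agent.MG
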