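/-
S0175, piece ABS: the abstract optimal-transport argument.  See MGPLAN.md.
-/
import Crest.Agent.MGCore

set_option autoImplicit false

open MeasureTheory Set
open scoped ENNReal

namespace Crest.Agent.MG

open Crest.AnalysisR.OT

section Abs

variable {Ω : Type*} [MeasurableSpace Ω]

/-- The value of the dual functional on a coupling. -/
lemma coupling_V {μ : Measure Ω} {π : Measure (Ω × Ω × Ω)} (hπ : IsCoupling₃ μ π)
    {v : Ω → ℝ≥0∞} (hv : Measurable v) :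
    ∫⁻ p, (v p.1 + v p.2.1 + v p.2.2) ∂π =
      ∫⁻ x, v x ∂μ + ∫⁻ x, v x ∂μ + ∫⁻ x, v x ∂μ := by
  obtain ⟨h1, h2, h3⟩ := hπ
  have m1 : Measurable (fun p : Ω × Ω × Ω => p.1) := measurable_fst
  have m2 : Measurable (fun p : Ω × Ω × Ω => p.2.1) := measurable_fst.comp measurable_snd
  have m3 : Measurable (fun p : Ω × Ω × Ω => p.2.2) := measurable_snd.comp measurable_snd
  have e1 : ∫⁻ p, v p.1 ∂π = ∫⁻ x, v x ∂μ := by
    conv_rhs => rw [← h1]
    rw [lintegral_map hv m1]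
  have e2 : ∫⁻ p, v p.2.1 ∂π = ∫⁻ x, v x ∂μ := by
    conv_rhs => rw [← h2]
    rw [lintegral_map hv m2]
  have e3 : ∫⁻ p, v p.2.2 ∂π = ∫⁻ x, v x ∂μ := by
    conv_rhs => rw [← h3]
    rw [lintegral_map hv m3]
  have e4 : ∫⁻ p, (v p.1 + v p.2.1 + v p.2.2) ∂π = ∫⁻ p, (v p.1 + v p.2.1) ∂π + ∫⁻ p, v p.2.2 ∂π :=
    lintegral_add_right _ (hv.comp m3)
  have e5 : ∫⁻ p, (v p.1 + v p.2.1) ∂π = ∫⁻ p, v p.1 ∂π + ∫⁻ p, v p.2.1 ∂π :=
    lintegral_add_right _ (hv.comp m2)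
  rw [e4, e5, e1, e2, e3]

/-- Almost every triple of a coupling lies in a set of full measure. -/
lemma coupling_ae_mem {μ : Measure Ω} {π : Measure (Ω × Ω × Ω)} (hπ : IsCoupling₃ μ π)
    {H : Set Ω} (hae : ∀ᵐ x ∂μ, x ∈ H) :
    ∀ᵐ p ∂π, p.1 ∈ H ∧ p.2.1 ∈ H ∧ p.2.2 ∈ H := by
  obtain ⟨h1, h2, h3⟩ := hπ
  have m1 : Measurable (fun p : Ω × Ω × Ω => p.1) := measurable_fst
  have m2 : Measurable (fun p : Ω × Ω × Ω => p.2.1) := measurable_fst.comp measurable_snd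
  have m3 : Measurable (fun p : Ω × Ω × Ω => p.2.2) := measurable_snd.comp measurable_snd
  have a1 := ae_of_ae_map m1.aemeasurable (by rw [h1]; exact hae)
  have a2 := ae_of_ae_map m2.aemeasurable (by rw [h2]; exact hae)
  have a3 := ae_of_ae_map m3.aemeasurable (by rw [h3]; exact hae)
  filter_upwards [a1, a2, a3] with p p1 p2 p3
  exact ⟨p1, p2, p3⟩

lemma coupling_mass {μ : Measure Ω} [IsProbabilityMeasure μ] {π : Measure (Ω × Ω × Ω)}
    (hπ : IsCoupling₃ μ π) : π univ = 1 := by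
  have m1 : Measurable (fun p : Ω × Ω × Ω => p.1) := measurable_fst
  have := congrArg (fun m : Measure Ω => m univ) hπ.1
  simp only [Measure.map_apply m1 MeasurableSet.univ, preimage_univ, measure_univ] at this
  exact this

/-- Weak duality. -/
lemma dual_le {μ : Measure Ω} [IsProbabilityMeasure μ] {π : Measure (Ω × Ω × Ω)}
    (hπ : IsCoupling₃ μ π) {c : Ω × Ω × Ω → ℝ≥0∞}
    {v : Ω → ℝ≥0∞} (hv : Measurable v) {H : Set Ω} (hae : ∀ᵐ x ∂μ, x ∈ H) {K₀ : ℝ≥0∞}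
    (hdual : ∀ x ∈ H, ∀ y ∈ H, ∀ z ∈ H, v x + v y + v z ≤ c (x, y, z) + K₀) :
    ∫⁻ x, v x ∂μ + ∫⁻ x, v x ∂μ + ∫⁻ x, v x ∂μ ≤ ∫⁻ p, c p ∂π + K₀ := by
  rw [← coupling_V hπ hv]
  have h1 : ∫⁻ p, (v p.1 + v p.2.1 + v p.2.2) ∂π ≤ ∫⁻ p, (c p + K₀) ∂π := by
    apply lintegral_mono_ae
    filter_upwards [coupling_ae_mem hπ hae] with p hp
    exact hdual _ hp.1 _ hp.2.1 _ hp.2.2
  refine h1.trans (le_of_eq ?_)
  rw [lintegral_add_right _ measurable_const, lintegral_const, coupling_mass hπ, mul_one]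

/-- The key measure argument: an outer set covered by one branch of an inner set. -/
lemma branch_null {μ : Measure Ω} [IsProbabilityMeasure μ] {I O : Set Ω}
    (hI : MeasurableSet I) (_hO : MeasurableSet O)
    {y : Ω → Ω} (hy : Measurable y) (hm : μ.restrict O = (2 : ℝ≥0∞) • (μ.restrict I).map y)
    {T : Ω → Ω} (hT : Measurable T) (hmT : μ.map T = μ) {E : Set Ω} (hE : MeasurableSet E)
    (hE1 : ∀ x ∈ E, T x ∈ I ∧ x = y (T x)) (hE2 : ∀ᵐ x ∂μ, x ∈ E → x ∈ O) : μ E = 0 := by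
  set m := μ (y ⁻¹' E ∩ I) with hm_def
  have hme : (μ.restrict I) (y ⁻¹' E) = m := Measure.restrict_apply (hy hE)
  have h1 : μ E ≤ m := by
    have hsub : E ⊆ T ⁻¹' (y ⁻¹' E ∩ I) := by
      intro x hx
      obtain ⟨h2, h3⟩ := hE1 x hx
      refine ⟨?_, h2⟩
      change y (T x) ∈ E
      rw [← h3]
      exact hx
    calc μ E ≤ μ (T ⁻¹' (y ⁻¹' E ∩ I)) := measure_mono hsub
      _ = (μ.map T) (y ⁻¹' E ∩ I) := (Measure.map_apply hT ((hy hE).inter hI)).symm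
      _ = m := by rw [hmT]
  have h2 : μ E = 2 * m := by
    have e1 : μ E = μ (E ∩ O) := by
      apply measure_congr
      filter_upwards [hE2] with x hx
      apply propext
      exact ⟨fun h => ⟨h, hx h⟩, fun h => h.1⟩
    have e2 : μ (E ∩ O) = (μ.restrict O) E := (Measure.restrict_apply hE).symm
    rw [e1, e2, hm]
    simp only [Measure.smul_apply, smul_eq_mul]
    rw [Measure.map_apply hy hE, hme]
  have hfin : m ≠ ⊤ := measure_ne_top _ _
  have h3 : 2 * m ≤ m := h2 ▸ h1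
  have h4 : m = 0 := by
    by_contra hne
    have : m < 2 * m := by
      rw [two_mul]
      exact ENNReal.lt_add_right hfin hne
    exact absurd h3 (not_le.2 this)
  rw [h2, h4, mul_zero]

/-- Integration against the symmetrised plan. -/
lemma lintegral_sym {M : Measure Ω} {F₁ F₂ F₃ : Ω → Ω × Ω × Ω}
    (h₁ : Measurable F₁) (h₂ : Measurable F₂) (h₃ : Measurable F₃)
    {f : Ω × Ω × Ω → ℝ≥0∞} (hf : Measurable f) :
    ∫⁻ p, f p ∂(M.map F₁ + M.map F₂ + M.map F₃) =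
      ∫⁻ x, f (F₁ x) ∂M + ∫⁻ x, f (F₂ x) ∂M + ∫⁻ x, f (F₃ x) ∂M := by
  rw [lintegral_add_measure, lintegral_add_measure, lintegral_map hf h₁, lintegral_map hf h₂,
    lintegral_map hf h₃]

/-- Marginal of the symmetrised plan. -/
lemma map_sym {M : Measure Ω} {F₁ F₂ F₃ : Ω → Ω × Ω × Ω}
    (h₁ : Measurable F₁) (h₂ : Measurable F₂) (h₃ : Measurable F₃)
    {f : Ω × Ω × Ω → Ω} (hf : Measurable f) :
    (M.map F₁ + M.map F₂ + M.map F₃).map f =
      M.map (f ∘ F₁) + M.map (f ∘ F₂) + M.map (f ∘ F₃) := by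
  rw [Measure.map_add _ _ hf, Measure.map_add _ _ hf, Measure.map_map hf h₁, Measure.map_map hf h₂,
    Measure.map_map hf h₃]

end Abs

/-- Abstract theorem: potentials + rigid contact structure + doubling + approximate Monge data
imply `MongeResult`. -/
theorem monge_of_data {Ω : Type*} [MeasurableSpace Ω]
    (hEq : ∀ f g : Ω → Ω, Measurable f → Measurable g → MeasurableSet {x | f x = g x})
    (μ : Measure Ω) [IsProbabilityMeasure μ] (c : Ω × Ω × Ω → ℝ≥0∞) (hc : Measurable c)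
    (hcyc : ∀ x y z, c (x, y, z) = c (y, z, x))
    (I O : Set Ω) (hI : MeasurableSet I) (hO : MeasurableSet O) (hdisj : Disjoint I O)
    (hcov : μ (I ∪ O)ᶜ = 0) (hIpos : μ I ≠ 0)
    (yp ym : Ω → Ω) (hyp : Measurable yp) (hym : Measurable ym)
    (hmp : μ.restrict O = (2 : ℝ≥0∞) • (μ.restrict I).map yp)
    (hmm : μ.restrict O = (2 : ℝ≥0∞) • (μ.restrict I).map ym)
    (hyO : ∀ x ∈ I, yp x ∈ O ∧ ym x ∈ O)
    (v : Ω → ℝ≥0∞) (hv : Measurable v) (C : ℝ≥0∞) (hC : C ≠ ⊤) (hvb : ∀ x ∈ I ∪ O, v x ≤ C)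
    (K₀ : ℝ≥0∞) (hK₀ : K₀ ≠ ⊤)
    (hdual : ∀ x ∈ I ∪ O, ∀ y ∈ I ∪ O, ∀ z ∈ I ∪ O, v x + v y + v z ≤ c (x, y, z) + K₀)
    (hcontact : ∀ x ∈ I, v x + v (yp x) + v (ym x) = c (x, yp x, ym x) + K₀)
    (hrigid : ∀ x ∈ I ∪ O, ∀ y ∈ I, ∀ z ∈ I ∪ O, v x + v y + v z = c (x, y, z) + K₀ →
      x ∈ O ∧ (x = yp y ∨ x = ym y))
    (happ : ∀ ε : ℝ≥0∞, 0 < ε → ∃ (T₁ T₂ T₁' T₂' : Ω → Ω) (O₁ : Set Ω),
      Measurable T₁ ∧ Measurable T₂ ∧ Measurable T₁' ∧ Measurable T₂' ∧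
      MeasurableSet O₁ ∧ O₁ ⊆ O ∧
      (μ.restrict I).map T₁ = μ.restrict O₁ ∧ (μ.restrict I).map T₂ = μ.restrict (O \ O₁) ∧
      (∀ x ∈ I, T₁ x ∈ O₁ ∧ T₂ x ∈ O \ O₁ ∧ T₁' (T₁ x) = x ∧ T₂' (T₂ x) = x) ∧
      (∀ y ∈ O₁, T₁' y ∈ I ∧ T₁ (T₁' y) = y) ∧
      (∀ y ∈ O \ O₁, T₂' y ∈ I ∧ T₂ (T₂' y) = y) ∧
      ∫⁻ x in I, c (x, T₁ x, T₂ x) ∂μ < ∫⁻ x in I, c (x, yp x, ym x) ∂μ + ε) :
    MongeResult μ c := by
  classical
  set M := μ.restrict I with hM
  have hae : ∀ᵐ x ∂μ, x ∈ I ∪ O := by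
    rw [ae_iff]
    exact hcov
  have hsplit : M + μ.restrict O = μ := by
    rw [hM, ← Measure.restrict_union hdisj hO]
    exact Measure.restrict_eq_self_of_ae_mem hae
  have hAB : M.map yp = M.map ym := by
    have h := hmp.symm.trans hmm
    ext s hs
    have := congrArg (fun m : Measure Ω => m s) h
    simp only [Measure.smul_apply, smul_eq_mul] at this
    exact (ENNReal.mul_right_inj (by norm_num) (by norm_num)).1 this
  have hABO : M.map yp + M.map ym = μ.restrict O := by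
    rw [hmp, ← hAB, two_smul]
  -- the symmetrised plan
  let F₁ : Ω → Ω × Ω × Ω := fun x => (x, yp x, ym x)
  let F₂ : Ω → Ω × Ω × Ω := fun x => (yp x, ym x, x)
  let F₃ : Ω → Ω × Ω × Ω := fun x => (ym x, x, yp x)
  have mF₁ : Measurable F₁ := measurable_id.prodMk (hyp.prodMk hym)
  have mF₂ : Measurable F₂ := hyp.prodMk (hym.prodMk measurable_id)
  have mF₃ : Measurable F₃ := hym.prodMk (measurable_id.prodMk hyp)
  set π₀ : Measure (Ω × Ω × Ω) := M.map F₁ + M.map F₂ + M.map F₃ with hπ₀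
  have m1 : Measurable (fun p : Ω × Ω × Ω => p.1) := measurable_fst
  have m2 : Measurable (fun p : Ω × Ω × Ω => p.2.1) := measurable_fst.comp measurable_snd
  have m3 : Measurable (fun p : Ω × Ω × Ω => p.2.2) := measurable_snd.comp measurable_snd
  have hcoup : IsCoupling₃ μ π₀ := by
    refine ⟨?_, ?_, ?_⟩
    · rw [hπ₀, map_sym mF₁ mF₂ mF₃ m1]
      have e1 : (fun p : Ω × Ω × Ω => p.1) ∘ F₁ = id := rfl
      have e2 : (fun p : Ω × Ω × Ω => p.1) ∘ F₂ = yp := rfl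
      have e3 : (fun p : Ω × Ω × Ω => p.1) ∘ F₃ = ym := rfl
      rw [e1, e2, e3, Measure.map_id, add_assoc, hABO, hsplit]
    · rw [hπ₀, map_sym mF₁ mF₂ mF₃ m2]
      have e1 : (fun p : Ω × Ω × Ω => p.2.1) ∘ F₁ = yp := rfl
      have e2 : (fun p : Ω × Ω × Ω => p.2.1) ∘ F₂ = ym := rfl
      have e3 : (fun p : Ω × Ω × Ω => p.2.1) ∘ F₃ = id := rfl
      rw [e1, e2, e3, Measure.map_id, hABO, add_comm, hsplit]
    · rw [hπ₀, map_sym mF₁ mF₂ mF₃ m3]
      have e1 : (fun p : Ω × Ω × Ω => p.2.2) ∘ F₁ = ym := rfl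
      have e2 : (fun p : Ω × Ω × Ω => p.2.2) ∘ F₂ = id := rfl
      have e3 : (fun p : Ω × Ω × Ω => p.2.2) ∘ F₃ = yp := rfl
      rw [e1, e2, e3, Measure.map_id, add_comm (M.map ym) M, add_assoc, add_comm (M.map ym),
        hABO, hsplit]
  set W := ∫⁻ x in I, c (x, yp x, ym x) ∂μ with hW
  have hcostF₂ : ∀ x, c (F₂ x) = c (F₁ x) := fun x => (hcyc x (yp x) (ym x)).symm
  have hcostF₃ : ∀ x, c (F₃ x) = c (F₁ x) := fun x => hcyc (ym x) x (yp x)
  have hcost₀ : ∫⁻ p, c p ∂π₀ = W + W + W := by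
    rw [hπ₀, lintegral_sym mF₁ mF₂ mF₃ hc]
    simp only [hcostF₂, hcostF₃]
    rfl
  set V : Ω × Ω × Ω → ℝ≥0∞ := fun p => v p.1 + v p.2.1 + v p.2.2 with hV
  have mV : Measurable V := ((hv.comp m1).add (hv.comp m2)).add (hv.comp m3)
  have hcK : ∫⁻ p, (c p + K₀) ∂π₀ = ∫⁻ p, c p ∂π₀ + K₀ := by
    rw [lintegral_add_right _ measurable_const, lintegral_const, coupling_mass hcoup, mul_one]
  set S₀ := ∫⁻ x, v x ∂μ + ∫⁻ x, v x ∂μ + ∫⁻ x, v x ∂μ with hS₀
  have hV₀ : ∫⁻ p, V p ∂π₀ = ∫⁻ p, (c p + K₀) ∂π₀ := by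
    have mcK : Measurable (fun p => c p + K₀) := hc.add measurable_const
    rw [hπ₀, lintegral_sym mF₁ mF₂ mF₃ mV, lintegral_sym mF₁ mF₂ mF₃ mcK]
    have a1 : ∫⁻ x, V (F₁ x) ∂M = ∫⁻ x, (c (F₁ x) + K₀) ∂M := by
      apply setLIntegral_congr_fun hI
      intro x hx
      exact hcontact x hx
    have a2 : ∫⁻ x, V (F₂ x) ∂M = ∫⁻ x, (c (F₂ x) + K₀) ∂M := by
      apply setLIntegral_congr_fun hI
      intro x hx
      have := hcontact x hx
      simp only [hcostF₂, hV]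
      change v (yp x) + v (ym x) + v x = c (F₁ x) + K₀
      rw [← show v x + v (yp x) + v (ym x) = c (F₁ x) + K₀ from this]
      ac_rfl
    have a3 : ∫⁻ x, V (F₃ x) ∂M = ∫⁻ x, (c (F₃ x) + K₀) ∂M := by
      apply setLIntegral_congr_fun hI
      intro x hx
      have := hcontact x hx
      simp only [hcostF₃, hV]
      change v (ym x) + v x + v (yp x) = c (F₁ x) + K₀
      rw [← show v x + v (yp x) + v (ym x) = c (F₁ x) + K₀ from this]
      ac_rfl
    rw [a1, a2, a3]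
  have hS₀eq : S₀ = ∫⁻ p, c p ∂π₀ + K₀ := by
    rw [hS₀, ← coupling_V hcoup hv]
    exact hV₀.trans hcK
  have hvfin : ∫⁻ x, v x ∂μ ≠ ⊤ := by
    have : ∫⁻ x, v x ∂μ ≤ ∫⁻ _, C ∂μ := by
      apply lintegral_mono_ae
      filter_upwards [hae] with x hx
      exact hvb x hx
    rw [lintegral_const, measure_univ, mul_one] at this
    exact ne_top_of_le_ne_top hC this
  have hS₀fin : S₀ ≠ ⊤ := by
    rw [hS₀]
    exact ENNReal.add_ne_top.2 ⟨ENNReal.add_ne_top.2 ⟨hvfin, hvfin⟩, hvfin⟩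
  have hcfin : ∫⁻ p, c p ∂π₀ < ⊤ := by
    have : ∫⁻ p, c p ∂π₀ ≤ S₀ := by
      rw [hS₀eq]
      exact le_self_add
    exact lt_of_le_of_lt this hS₀fin.lt_top
  refine ⟨π₀, hcoup, hcfin, ?_, ?_, ?_⟩
  · -- optimality
    intro π hπ
    have h1 := dual_le hπ hv hae hdual
    rw [← hS₀, hS₀eq] at h1
    exact (ENNReal.add_le_add_iff_right hK₀).1 h1
  · -- no Monge minimiser
    intro T₂ T₃ hT₂ hT₃ hmT₂ hmT₃
    by_contra hcon
    rw [not_lt] at hcon
    let G : Ω → Ω × Ω × Ω := fun x => (x, T₂ x, T₃ x)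
    have mG : Measurable G := measurable_id.prodMk (hT₂.prodMk hT₃)
    have hcoupT : IsCoupling₃ μ (μ.map G) := by
      refine ⟨?_, ?_, ?_⟩
      · rw [Measure.map_map m1 mG]
        exact Measure.map_id
      · rw [Measure.map_map m2 mG]
        exact hmT₂
      · rw [Measure.map_map m3 mG]
        exact hmT₃
    have hVG : ∫⁻ x, V (G x) ∂μ = S₀ := by
      rw [← lintegral_map mV mG]
      exact coupling_V hcoupT hv
    have aeT₂ : ∀ᵐ x ∂μ, T₂ x ∈ I ∪ O :=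
      ae_of_ae_map hT₂.aemeasurable (by rw [hmT₂]; exact hae)
    have aeT₃ : ∀ᵐ x ∂μ, T₃ x ∈ I ∪ O :=
      ae_of_ae_map hT₃.aemeasurable (by rw [hmT₃]; exact hae)
    have hle : (fun x => V (G x)) ≤ᵐ[μ] (fun x => c (G x) + K₀) := by
      filter_upwards [hae, aeT₂, aeT₃] with x h1 h2 h3
      exact hdual x h1 _ h2 _ h3
    have hint : ∫⁻ x, (c (G x) + K₀) ∂μ ≤ ∫⁻ x, V (G x) ∂μ := by
      rw [lintegral_add_right _ measurable_const, lintegral_const, measure_univ, mul_one, hVG,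
        hS₀eq]
      gcongr
    have heq := ae_eq_of_ae_le_of_lintegral_le hle (by rw [hVG]; exact hS₀fin)
      ((hc.comp mG).add measurable_const).aemeasurable hint
    have hkey : ∀ᵐ x ∂μ, T₂ x ∈ I → x ∈ O ∧ (x = yp (T₂ x) ∨ x = ym (T₂ x)) := by
      filter_upwards [heq, hae, aeT₃] with x h h1 h3 h2
      exact hrigid x h1 (T₂ x) h2 (T₃ x) h3 h
    have hEp : μ {x | T₂ x ∈ I ∧ x = yp (T₂ x)} = 0 := by
      refine branch_null hI hO hyp hmp hT₂ hmT₂ ?_ ?_ ?_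
      · exact (hT₂ hI).inter (hEq id (yp ∘ T₂) measurable_id (hyp.comp hT₂))
      · intro x hx
        exact hx
      · filter_upwards [hkey] with x hx hxE
        exact (hx hxE.1).1
    have hEm : μ {x | T₂ x ∈ I ∧ x = ym (T₂ x)} = 0 := by
      refine branch_null hI hO hym hmm hT₂ hmT₂ ?_ ?_ ?_
      · exact (hT₂ hI).inter (hEq id (ym ∘ T₂) measurable_id (hym.comp hT₂))
      · intro x hx
        exact hx
      · filter_upwards [hkey] with x hx hxE
        exact (hx hxE.1).1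
    have hpre : μ (T₂ ⁻¹' I) = μ I := by
      rw [← Measure.map_apply hT₂ hI, hmT₂]
    have hle0 : μ (T₂ ⁻¹' I) ≤ μ ({x | T₂ x ∈ I ∧ x = yp (T₂ x)} ∪ {x | T₂ x ∈ I ∧ x = ym (T₂ x)}) := by
      apply measure_mono_ae
      filter_upwards [hkey] with x hx hxI
      rcases (hx hxI).2 with h | h
      · exact Or.inl ⟨hxI, h⟩
      · exact Or.inr ⟨hxI, h⟩
    have : μ (T₂ ⁻¹' I) = 0 := by
      refine le_antisymm (hle0.trans ?_) zero_le
      refine (measure_union_le _ _).trans ?_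
      rw [hEp, hEm, add_zero]
    exact hIpos (hpre ▸ this)
  · -- approximation
    intro ε hε
    obtain ⟨T₁, T₂, T₁', T₂', O₁, mT₁, mT₂, mT₁', mT₂', mO₁, hO₁, hmT₁, hmT₂, hforw, -, -, hlt⟩ :=
      happ (ε / 3) (ENNReal.div_pos hε.ne' (by norm_num))
    set O₂ := O \ O₁ with hO₂
    have mO₂ : MeasurableSet O₂ := hO.diff mO₁
    have hIO : ∀ x ∈ I, x ∉ O := fun x hx hx' => (Set.disjoint_left.1 hdisj) hx hx'
    have hMsplit : μ.restrict O₁ + μ.restrict O₂ = μ.restrict O := by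
      rw [← Measure.restrict_union Set.disjoint_sdiff_right mO₂, Set.union_sdiff_cancel hO₁]
    let S : Ω → Ω := fun x =>
      if x ∈ I then T₁ x else if x ∈ O₁ then T₂ (T₁' x) else if x ∈ O₂ then T₂' x else x
    have mS : Measurable S :=
      Measurable.ite hI mT₁ (Measurable.ite mO₁ (mT₂.comp mT₁') (Measurable.ite mO₂ mT₂' measurable_id))
    have hS0 : ∀ u ∈ I, S u = T₁ u := fun u hu => if_pos hu
    have hS1 : ∀ u ∈ I, S (T₁ u) = T₂ u := by
      intro u hu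
      obtain ⟨h1, h2, h3, h4⟩ := hforw u hu
      have h5 : T₁ u ∉ I := fun h => hIO _ h (hO₁ h1)
      change (if T₁ u ∈ I then _ else _) = _
      rw [if_neg h5, if_pos h1, h3]
    have hS2 : ∀ u ∈ I, S (T₂ u) = u := by
      intro u hu
      obtain ⟨h1, h2, h3, h4⟩ := hforw u hu
      have h5 : T₂ u ∉ I := fun h => hIO _ h h2.1
      change (if T₂ u ∈ I then _ else _) = _
      rw [if_neg h5, if_neg h2.2, if_pos h2, h4]
    have hmS0 : M.map S = μ.restrict O₁ := by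
      rw [← hmT₁]
      exact Measure.map_congr ((ae_restrict_iff' hI).2 (Filter.Eventually.of_forall hS0))
    have hmS1 : (μ.restrict O₁).map S = μ.restrict O₂ := by
      rw [← hmT₂, ← hmT₁, Measure.map_map mS mT₁]
      exact Measure.map_congr ((ae_restrict_iff' hI).2 (Filter.Eventually.of_forall hS1))
    have hmS2 : (μ.restrict O₂).map S = M := by
      rw [← hmT₂, Measure.map_map mS mT₂]
      conv_rhs => rw [← Measure.map_id (μ := M)]
      exact Measure.map_congr ((ae_restrict_iff' hI).2 (Filter.Eventually.of_forall hS2))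
    have hμ : μ = M + (μ.restrict O₁ + μ.restrict O₂) := by
      rw [hMsplit, hsplit]
    have hmS : μ.map S = μ := by
      conv_lhs => rw [hμ]
      rw [Measure.map_add _ _ mS, Measure.map_add _ _ mS, hmS0, hmS1, hmS2, ← add_assoc,
        hMsplit, add_comm]
      exact hsplit
    refine ⟨S, S ∘ S, mS, mS.comp mS, hmS, ?_, ?_⟩
    · rw [← Measure.map_map mS mS, hmS, hmS]
    · have mΦ : Measurable (fun x => c (x, S x, (S ∘ S) x)) :=
        hc.comp (measurable_id.prodMk (mS.prodMk (mS.comp mS)))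
      set A' := ∫⁻ x in I, c (x, T₁ x, T₂ x) ∂μ with hA'
      have c1 : ∫⁻ x, c (x, S x, (S ∘ S) x) ∂M = A' := by
        apply setLIntegral_congr_fun hI
        intro x hx
        change c (x, S x, S (S x)) = _
        rw [hS0 x hx, hS1 x hx]
      have c2 : ∫⁻ x, c (x, S x, (S ∘ S) x) ∂(μ.restrict O₁) = A' := by
        rw [← hmT₁, lintegral_map mΦ mT₁]
        apply setLIntegral_congr_fun hI
        intro x hx
        change c (T₁ x, S (T₁ x), S (S (T₁ x))) = _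
        rw [hS1 x hx, hS2 x hx]
        exact (hcyc x (T₁ x) (T₂ x)).symm
      have c3 : ∫⁻ x, c (x, S x, (S ∘ S) x) ∂(μ.restrict O₂) = A' := by
        rw [← hmT₂, lintegral_map mΦ mT₂]
        apply setLIntegral_congr_fun hI
        intro x hx
        change c (T₂ x, S (T₂ x), S (S (T₂ x))) = _
        rw [hS2 x hx, hS0 x hx]
        exact hcyc (T₂ x) x (T₁ x)
      have htot : ∫⁻ x, c (x, S x, (S ∘ S) x) ∂μ = 3 * A' := by
        conv_lhs => rw [hμ]
        rw [lintegral_add_measure, lintegral_add_measure, c1, c2, c3]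
        ring
      rw [htot, hcost₀]
      have h3 : (3 : ℝ≥0∞) * A' < 3 * (W + ε / 3) :=
        (ENNReal.mul_lt_mul_iff_right (a := 3) (by norm_num) (by norm_num)).2 hlt
      have h4 : (3 : ℝ≥0∞) * (W + ε / 3) = W + W + W + ε := by
        rw [mul_add, ENNReal.mul_div_cancel (a := 3) (by norm_num) (by norm_num)]
        ring
      rwa [h4] at h3

end Crest.Agent.MG
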