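/-
S0175, piece BUMP, generic lemmas: smoothness of the Jacobian determinant, gluing, push-forward of densities.
-/
import Crest.Agent.MGCore

set_option autoImplicit false

open MeasureTheory Set Filter Topology
open scoped ENNReal ContDiff

namespace Crest.Agent.MG

section
variable {E : Type*} [NormedAddCommGroup E] [NormedSpace ℝ E] [FiniteDimensional ℝ E]

/-- the determinant of continuous linear maps is smooth. -/
theorem contDiff_clm_det : ContDiff ℝ ∞ (fun f : E →L[ℝ] E => f.det) := by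
  classical
  let b := Module.finBasis ℝ E
  have hent : ∀ i j, ContDiff ℝ ∞ (fun f : E →L[ℝ] E => LinearMap.toMatrix b b (f : E →ₗ[ℝ] E) i j) := by
    intro i j
    let L : (E →L[ℝ] E) →ₗ[ℝ] ℝ :=
      { toFun := fun f => LinearMap.toMatrix b b (f : E →ₗ[ℝ] E) i j
        map_add' := by
          intro f f'
          simp
        map_smul' := by
          intro c f
          simp }
    exact (L.toContinuousLinearMap).contDiff
  have : (fun f : E →L[ℝ] E => f.det) =
      fun f : E →L[ℝ] E => Matrix.det (LinearMap.toMatrix b b (f : E →ₗ[ℝ] E)) := by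
    funext f
    exact (LinearMap.det_toMatrix b _).symm
  rw [this]
  simp_rw [Matrix.det_apply]
  refine ContDiff.sum fun σ _ => ?_
  refine ContDiff.const_smul _ ?_
  exact contDiff_prod fun i _ => hent _ _

/-- gluing: smooth on an open set, vanishing outside a closed subset of it. -/
theorem contDiff_of_vanish {f : E → ℝ} {W K : Set E} (hW : IsOpen W) (hK : IsClosed K) (hKW : K ⊆ W)
    (hf : ContDiffOn ℝ ∞ f W) (h0 : ∀ x, x ∉ K → f x = 0) : ContDiff ℝ ∞ f := by
  rw [contDiff_iff_contDiffAt]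
  intro x
  by_cases hx : x ∈ W
  · exact hf.contDiffAt (hW.mem_nhds hx)
  · have hxK : x ∉ K := fun h => hx (hKW h)
    have : f =ᶠ[𝓝 x] fun _ => 0 := by
      filter_upwards [hK.isOpen_compl.mem_nhds hxK] with y hy
      exact h0 y hy
    exact (contDiffAt_const).congr_of_eventuallyEq this

variable [MeasurableSpace E] [BorelSpace E]

/-- push-forward of a density under a diffeomorphism `Φ : W₁ → W₂` with inverse `ψ`. -/
theorem map_withDensity_of_inverse (μ : Measure E) [μ.IsAddHaarMeasure] {W₁ W₂ : Set E}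
    (hW₂ : IsOpen W₂) {Φ ψ : E → E} (hΦ : Measurable Φ) (hψ : ContDiffOn ℝ ∞ ψ W₂)
    (h21 : ∀ c ∈ W₂, ψ c ∈ W₁ ∧ Φ (ψ c) = c) (h12 : ∀ b ∈ W₁, Φ b ∈ W₂ ∧ ψ (Φ b) = b)
    (hW₁ : MeasurableSet W₁)
    (F : E → ℝ≥0∞) (hF : Measurable F) (hF0 : ∀ b, b ∉ W₁ → F b = 0) :
    (μ.withDensity F).map Φ =
      μ.withDensity (W₂.indicator (fun c => ENNReal.ofReal |(fderiv ℝ ψ c).det| * F (ψ c))) := by
  have hmW₂ : MeasurableSet W₂ := hW₂.measurableSet
  have hder : ∀ c ∈ W₂, HasFDerivWithinAt ψ (fderiv ℝ ψ c) W₂ c := by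
    intro c hc
    have h1 : ContDiffAt ℝ ∞ ψ c := hψ.contDiffAt (hW₂.mem_nhds hc)
    exact (h1.differentiableAt (by simp)).hasFDerivAt.hasFDerivWithinAt
  have hinj : InjOn ψ W₂ := by
    intro c hc c' hc' h
    rw [← (h21 c hc).2, ← (h21 c' hc').2, h]
  have himg : ψ '' W₂ = W₁ := by
    ext b
    constructor
    · rintro ⟨c, hc, rfl⟩
      exact (h21 c hc).1
    · intro hb
      exact ⟨Φ b, (h12 b hb).1, (h12 b hb).2⟩
  ext A hA
  rw [Measure.map_apply hΦ hA, withDensity_apply _ (hΦ hA), withDensity_apply _ hA]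
  -- left side as an integral over `W₁ = ψ '' W₂`
  have hL : ∫⁻ b in Φ ⁻¹' A, F b ∂μ = ∫⁻ b, (Φ ⁻¹' A).indicator F b ∂μ :=
    (lintegral_indicator (hΦ hA) F).symm
  have hL2 : ∫⁻ b, (Φ ⁻¹' A).indicator F b ∂μ = ∫⁻ b in W₁, (Φ ⁻¹' A).indicator F b ∂μ := by
    rw [← lintegral_indicator hW₁]
    refine lintegral_congr fun b => ?_
    by_cases hb : b ∈ W₁
    · simp [hb]
    · simp [hb, indicator, hF0 b hb]
  rw [hL, hL2, ← himg, lintegral_image_eq_lintegral_abs_det_fderiv_mul μ hmW₂ hder hinj]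
  -- right side
  have hR : ∫⁻ c in A, W₂.indicator (fun c => ENNReal.ofReal |(fderiv ℝ ψ c).det| * F (ψ c)) c ∂μ =
      ∫⁻ c in W₂, A.indicator (fun c => ENNReal.ofReal |(fderiv ℝ ψ c).det| * F (ψ c)) c ∂μ := by
    rw [← lintegral_indicator hA, ← lintegral_indicator hmW₂]
    refine lintegral_congr fun c => ?_
    by_cases h1 : c ∈ A <;> by_cases h2 : c ∈ W₂ <;> simp [h1, h2]
  rw [hR]
  refine setLIntegral_congr_fun hmW₂ fun c hc => ?_
  have h3 := (h21 c hc).2
  by_cases h4 : c ∈ A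
  · have h5 : ψ c ∈ Φ ⁻¹' A := by
      show Φ (ψ c) ∈ A
      rw [h3]; exact h4
    simp [h4, h5]
  · have h5 : ψ c ∉ Φ ⁻¹' A := by
      show Φ (ψ c) ∉ A
      rw [h3]; exact h4
    simp [h4, h5]

end

end Crest.Agent.MG
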