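/-
S0175: elementary facts on `g s t = t^(-s/2)` (positivity, antitonicity, tangent line with equality
case, relation to `pc`).
-/
import Crest.Agent.MGCore

set_option autoImplicit false

open MeasureTheory Set
open scoped ENNReal

namespace Crest.Agent.MG

theorem g_pos {s t : ℝ} (ht : 0 < t) : 0 < g s t := Real.rpow_pos_of_pos ht _

/-- the slope of the tangent of `g` at `t`: `-g'(t) = (s/2) t^(-s/2-1)`. -/
noncomputable def gSlope (s t : ℝ) : ℝ := (s / 2) * t ^ (-s / 2 - 1)

theorem gSlope_pos {s t : ℝ} (hs : 0 < s) (ht : 0 < t) : 0 < gSlope s t :=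
  mul_pos (by positivity) (Real.rpow_pos_of_pos ht _)

theorem gSlope_mul_self {s t : ℝ} (ht : 0 < t) : gSlope s t * t = (s / 2) * g s t := by
  unfold gSlope g
  rw [mul_assoc, ← Real.rpow_add_one ht.ne']
  congr 2
  ring

/-- Tangent line inequality for `g`, strict unless `t = t₀`. -/
theorem g_tangent {s t₀ t : ℝ} (hs : 0 < s) (ht₀ : 0 < t₀) (ht : 0 < t) :
    g s t₀ - gSlope s t₀ * (t - t₀) ≤ g s t ∧
      (g s t₀ - gSlope s t₀ * (t - t₀) = g s t → t = t₀) := by
  -- write `g s t = exp (a * v)`, with `a = -s/2`, `v = log t`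
  have hg : ∀ u : ℝ, 0 < u → g s u = Real.exp (-s / 2 * Real.log u) := by
    intro u hu
    unfold g
    rw [Real.rpow_def_of_pos hu, mul_comm]
  have hg0 : 0 < g s t₀ := g_pos ht₀
  have hsl : gSlope s t₀ * t₀ = (s / 2) * g s t₀ := gSlope_mul_self ht₀
  -- let `w = t/t₀`
  set w := t / t₀ with hw
  have hwpos : 0 < w := div_pos ht ht₀
  have hgt : g s t = g s t₀ * Real.exp (-s / 2 * Real.log w) := by
    rw [hg t ht, hg t₀ ht₀, ← Real.exp_add, hw, Real.log_div ht.ne' ht₀.ne']
    congr 1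
    ring
  have hlin : g s t₀ - gSlope s t₀ * (t - t₀) = g s t₀ * (1 - (s / 2) * (w - 1)) := by
    have : t = w * t₀ := by rw [hw]; field_simp
    rw [this]
    have : gSlope s t₀ * (w * t₀ - t₀) = (gSlope s t₀ * t₀) * (w - 1) := by ring
    rw [this, hsl]
    ring
  have hlog : Real.log w ≤ w - 1 := Real.log_le_sub_one_of_pos hwpos
  have hexp : -s / 2 * Real.log w + 1 ≤ Real.exp (-s / 2 * Real.log w) := Real.add_one_le_exp _
  have hs2 : 0 < s / 2 := by positivity
  have key : 1 - (s / 2) * (w - 1) ≤ Real.exp (-s / 2 * Real.log w) := by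
    have : (s / 2) * Real.log w ≤ (s / 2) * (w - 1) := mul_le_mul_of_nonneg_left hlog hs2.le
    have e : -s / 2 * Real.log w = -((s / 2) * Real.log w) := by ring
    rw [e] at hexp ⊢
    linarith
  constructor
  · rw [hlin, hgt]
    exact mul_le_mul_of_nonneg_left key hg0.le
  · intro heq
    rw [hlin, hgt] at heq
    have h1 : 1 - (s / 2) * (w - 1) = Real.exp (-s / 2 * Real.log w) :=
      mul_left_cancel₀ hg0.ne' heq
    -- equality forces `log w = w - 1`, so `w = 1`
    have hlogeq : Real.log w = w - 1 := by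
      by_contra hne
      have hlt : Real.log w < w - 1 := lt_of_le_of_ne hlog hne
      have : (s / 2) * Real.log w < (s / 2) * (w - 1) := mul_lt_mul_of_pos_left hlt hs2
      have e : -s / 2 * Real.log w = -((s / 2) * Real.log w) := by ring
      rw [e] at hexp h1
      linarith
    have hw1 : w = 1 := by
      by_contra hne
      have := Real.log_lt_sub_one_of_pos hwpos hne
      linarith
    rw [hw] at hw1
    field_simp at hw1
    linarith

/-- `g` is antitone (for `s > 0`). -/
theorem g_le_g {s t t' : ℝ} (hs : 0 < s) (ht : 0 < t) (htt' : t ≤ t') : g s t' ≤ g s t := by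
  unfold g
  exact Real.rpow_le_rpow_of_nonpos ht htt' (by linarith)

theorem g_lt_g {s t t' : ℝ} (hs : 0 < s) (ht : 0 < t) (htt' : t < t') : g s t' < g s t := by
  unfold g
  exact Real.rpow_lt_rpow_of_neg ht htt' (by linarith)

/-- Lipschitz bound from the tangent line. -/
theorem g_sub_le {s t t' : ℝ} (hs : 0 < s) (ht : 0 < t) (ht' : 0 < t') :
    g s t - g s t' ≤ gSlope s t * |t' - t| := by
  have := (g_tangent hs ht ht').1
  have h2 : gSlope s t * (t' - t) ≤ gSlope s t * |t' - t| :=
    mul_le_mul_of_nonneg_left (le_abs_self _) (gSlope_pos hs ht).le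
  linarith

theorem D2_nonneg {n : ℕ} (x y : Xs n) : 0 ≤ D2 x y := by
  unfold D2; positivity

theorem D2_comm {n : ℕ} (x y : Xs n) : D2 x y = D2 y x := by
  unfold D2; rw [norm_sub_rev x.1, norm_sub_rev x.2]

/-- `pc` in terms of `g`, for positive distance. -/
theorem pc_of_pos {n : ℕ} {s : ℝ} {x y : Xs n} (h : 0 < D2 x y) :
    pc s x y = ENNReal.ofReal (g s (D2 x y)) := by
  unfold pc g
  have h1 : 0 < Real.sqrt (D2 x y) := Real.sqrt_pos.mpr h
  rw [ENNReal.ofReal_rpow_of_pos h1, Real.sqrt_eq_rpow, ← Real.rpow_mul h.le]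
  congr 2
  ring

/-- `pc` is infinite at distance zero. -/
theorem pc_of_zero {n : ℕ} {s : ℝ} (hs : 0 < s) {x y : Xs n} (h : D2 x y = 0) :
    pc s x y = ⊤ := by
  unfold pc
  rw [h]
  simp [hs]

theorem pc_comm {n : ℕ} (s : ℝ) (x y : Xs n) : pc s x y = pc s y x := by
  unfold pc; rw [D2_comm]

end Crest.Agent.MG
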