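/-
S0175, piece FAM: the explicit two-parameter family of hyperedges in the chart `(k, ς)`,
its identities and its derivatives at the base point `k* = 2^(s+1)`, `ς = 0`.  See MGPLAN.md.
-/
import Crest.Agent.MGCore

set_option autoImplicit false

open MeasureTheory Set
open scoped ENNReal ContDiff

namespace Crest.Agent.MG

/-- `W(k) = P(k) - G(k)/4` -/
noncomputable def Wk (s k : ℝ) : ℝ := Pk s k - Gk s k / 4
/-- `D(k) = 1 + k² W/(1+k)² + G/4` -/
noncomputable def Dk (s k : ℝ) : ℝ := 1 + k ^ 2 * Wk s k / (1 + k) ^ 2 + Gk s k / 4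
/-- `e(k) = k²/(2(1+k)²)` -/
noncomputable def ek (k : ℝ) : ℝ := k ^ 2 / (2 * (1 + k) ^ 2)
/-- `L(k, ς) = (1 + e ς)/D` -/
noncomputable def Lf (s k v : ℝ) : ℝ := (1 + ek k * v) / Dk s k
/-- `R(k, ς) = (L W - ς)/(1+k)²` -/
noncomputable def Rf (s k v : ℝ) : ℝ := (Lf s k v * Wk s k - v) / (1 + k) ^ 2
/-- `Q(k, ς) = k² R + G L/4` -/
noncomputable def Qf (s k v : ℝ) : ℝ := k ^ 2 * Rf s k v + Gk s k * Lf s k v / 4
/-- the inner chart `(k, ς) ↦ (R, τ)` -/
noncomputable def Xi1 (s : ℝ) (a : ℝ × ℝ) : ℝ × ℝ := (Rf s a.1 a.2, (1 - nuk a.1) ^ 2 * a.2)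
/-- the outer chart `(k, ς) ↦ (Q, τ')` -/
noncomputable def Xi2 (s : ℝ) (a : ℝ × ℝ) : ℝ × ℝ := (Qf s a.1 a.2, (nuk a.1) ^ 2 * a.2)
/-- the base value of `k` -/
noncomputable def kst (s : ℝ) : ℝ := 2 ^ (s + 1)

private lemma Gk_pos' {s k : ℝ} (hk : 0 < k) : 0 < Gk s k :=
  Real.rpow_pos_of_pos (by linarith) _

private lemma Pk_pos' {s k : ℝ} (hk : 0 < k) : 0 < Pk s k :=
  Real.rpow_pos_of_pos (by positivity) _

private lemma Dk_eq {s k : ℝ} (hk : 0 < k) :
    Dk s k = 1 + Gk s k / 4 * ((1 + 2 * k) / (1 + k) ^ 2) + k ^ 2 * Pk s k / (1 + k) ^ 2 := by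
  unfold Dk Wk
  have h1 : (1 + k) ≠ 0 := by positivity
  field_simp
  ring

theorem Dk_pos {s k : ℝ} (hs : 0 < s) (hk : 0 < k) : 0 < Dk s k := by
  rw [Dk_eq hk]
  have := Gk_pos' (s := s) hk
  have := Pk_pos' (s := s) hk
  positivity

/-- `L = 1 - Q - 2 τ'` -/
theorem Lf_eq {s k v : ℝ} (hs : 0 < s) (hk : 0 < k) :
    Lf s k v = 1 - Qf s k v - 2 * ((nuk k) ^ 2 * v) := by
  have hD := Dk_pos hs hk
  have h1 : (1 + k) ≠ 0 := by positivity
  have hL : Lf s k v * Dk s k = 1 + ek k * v := by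
    unfold Lf
    field_simp
  unfold Qf Rf
  have e1 : k ^ 2 * ((Lf s k v * Wk s k - v) / (1 + k) ^ 2) + Gk s k * Lf s k v / 4 =
      Lf s k v * (Dk s k - 1) - k ^ 2 * v / (1 + k) ^ 2 := by
    unfold Dk
    field_simp
    ring
  rw [e1]
  have e2 : Lf s k v = 1 + ek k * v - Lf s k v * (Dk s k - 1) := by
    linear_combination hL
  have e3 : ek k * v = k ^ 2 * v / (1 + k) ^ 2 - 2 * (nuk k ^ 2 * v) := by
    unfold ek nuk
    field_simp
    ring
  rw [e3] at e2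
  linarith

private lemma one_sub_nuk_ne {k : ℝ} (hk : 0 < k) : 1 - nuk k ≠ 0 := by
  have : 1 - nuk k = (2 + k) / (2 * (1 + k)) := by
    unfold nuk
    field_simp
    ring
  rw [this]
  positivity

/-- the chart produces hyperedge relations -/
theorem hrel_of_chart {s k v : ℝ} (hs : 0 < s) (hk : 0 < k) (hL : 0 < Lf s k v) :
    HRel s k (Lf s k v) (Rf s k v) ((1 - nuk k) ^ 2 * v) := by
  have h1 : (1 + k) ≠ 0 := by positivity
  have hnu := one_sub_nuk_ne hk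
  have hv : (1 - nuk k) ^ 2 * v / (1 - nuk k) ^ 2 = v := by
    field_simp
  refine ⟨hk, hL, ?_, ?_⟩
  · rw [hv]
    unfold Rf Wk
    field_simp
    ring
  · rw [hv]
    have := Lf_eq (s := s) (k := k) (v := v) hs hk
    unfold Qf at this
    linarith

section smooth

variable {s : ℝ} {a : ℝ × ℝ}

private lemma cd_G (ha : 0 < a.1) : ContDiffAt ℝ ∞ (fun a : ℝ × ℝ => Gk s a.1) a := by
  unfold Gk
  have h1 : ContDiffAt ℝ ∞ (fun a : ℝ × ℝ => 1 + a.1) a := contDiffAt_const.add contDiffAt_fst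
  exact h1.rpow_const_of_ne (by positivity)

private lemma cd_P (ha : 0 < a.1) : ContDiffAt ℝ ∞ (fun a : ℝ × ℝ => Pk s a.1) a := by
  unfold Pk
  have h1 : ContDiffAt ℝ ∞ (fun a : ℝ × ℝ => (1 + a.1) / (2 * a.1)) a :=
    (contDiffAt_const.add contDiffAt_fst).div (contDiffAt_const.mul contDiffAt_fst) (by positivity)
  exact h1.rpow_const_of_ne (by positivity)

private lemma cd_W (ha : 0 < a.1) : ContDiffAt ℝ ∞ (fun a : ℝ × ℝ => Wk s a.1) a := by
  unfold Wk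
  exact (cd_P ha).sub ((cd_G ha).div_const _)

private lemma cd_1k2 : ContDiffAt ℝ ∞ (fun a : ℝ × ℝ => (1 + a.1) ^ 2) a :=
  (contDiffAt_const.add contDiffAt_fst).pow 2

private lemma cd_D (ha : 0 < a.1) : ContDiffAt ℝ ∞ (fun a : ℝ × ℝ => Dk s a.1) a := by
  unfold Dk
  have hfst : ContDiffAt ℝ ∞ (fun a : ℝ × ℝ => a.1) a := contDiffAt_fst
  exact (contDiffAt_const.add (((hfst.pow 2).mul (cd_W ha)).div cd_1k2 (by positivity))).add
    ((cd_G ha).div_const _)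

private lemma cd_e (ha : 0 < a.1) : ContDiffAt ℝ ∞ (fun a : ℝ × ℝ => ek a.1) a := by
  unfold ek
  have hfst : ContDiffAt ℝ ∞ (fun a : ℝ × ℝ => a.1) a := contDiffAt_fst
  exact (hfst.pow 2).div (contDiffAt_const.mul cd_1k2) (by positivity)

private lemma cd_L (hs : 0 < s) (ha : 0 < a.1) :
    ContDiffAt ℝ ∞ (fun a : ℝ × ℝ => Lf s a.1 a.2) a := by
  unfold Lf
  have hsnd : ContDiffAt ℝ ∞ (fun a : ℝ × ℝ => a.2) a := contDiffAt_snd
  exact (contDiffAt_const.add ((cd_e ha).mul hsnd)).div (cd_D ha) (Dk_pos hs ha).ne'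

private lemma cd_R (hs : 0 < s) (ha : 0 < a.1) :
    ContDiffAt ℝ ∞ (fun a : ℝ × ℝ => Rf s a.1 a.2) a := by
  unfold Rf
  have hsnd : ContDiffAt ℝ ∞ (fun a : ℝ × ℝ => a.2) a := contDiffAt_snd
  exact (((cd_L hs ha).mul (cd_W ha)).sub hsnd).div cd_1k2 (by positivity)

private lemma cd_Q (hs : 0 < s) (ha : 0 < a.1) :
    ContDiffAt ℝ ∞ (fun a : ℝ × ℝ => Qf s a.1 a.2) a := by
  unfold Qf
  have hfst : ContDiffAt ℝ ∞ (fun a : ℝ × ℝ => a.1) a := contDiffAt_fst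
  exact ((hfst.pow 2).mul (cd_R hs ha)).add (((cd_G ha).mul (cd_L hs ha)).div_const _)

private lemma cd_nu (ha : 0 < a.1) : ContDiffAt ℝ ∞ (fun a : ℝ × ℝ => nuk a.1) a := by
  unfold nuk
  have hfst : ContDiffAt ℝ ∞ (fun a : ℝ × ℝ => a.1) a := contDiffAt_fst
  exact hfst.div (contDiffAt_const.mul (contDiffAt_const.add hfst)) (by positivity)

end smooth

theorem contDiffOn_Xi1 {s : ℝ} (hs : 0 < s) : ContDiffOn ℝ ∞ (Xi1 s) {a | 0 < a.1} := by
  intro a ha
  apply ContDiffAt.contDiffWithinAt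
  unfold Xi1
  exact (cd_R hs ha).prodMk (((contDiffAt_const.sub (cd_nu ha)).pow 2).mul contDiffAt_snd)

theorem contDiffOn_Xi2 {s : ℝ} (hs : 0 < s) : ContDiffOn ℝ ∞ (Xi2 s) {a | 0 < a.1} := by
  intro a ha
  apply ContDiffAt.contDiffWithinAt
  unfold Xi2
  exact (cd_Q hs ha).prodMk (((cd_nu ha).pow 2).mul contDiffAt_snd)

theorem kst_pos (s : ℝ) : 0 < kst s := by
  unfold kst
  positivity

private lemma two_kst_rpow {s : ℝ} (hs : 0 < s) : (2 * kst s) ^ sig s = 4 := by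
  unfold kst sig
  have h1 : 2 * (2 : ℝ) ^ (s + 1) = 2 ^ (s + 2) := by
    have h0 : (2 : ℝ) ^ (s + 2) = 2 ^ (s + 1) * 2 := by
      rw [show s + 2 = (s + 1) + 1 by ring]
      exact Real.rpow_add_one (by norm_num) _
    rw [h0]
    ring
  rw [h1, ← Real.rpow_mul (by norm_num)]
  have h2 : (s + 2) * (2 / (s + 2)) = 2 := by
    field_simp
  rw [h2]
  norm_num

private lemma Pk_kst {s : ℝ} (hs : 0 < s) : Pk s (kst s) = Gk s (kst s) / 4 := by
  have hk := kst_pos s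
  unfold Pk Gk
  rw [Real.div_rpow (by positivity) (by positivity), two_kst_rpow hs]

private lemma Wk_kst {s : ℝ} (hs : 0 < s) : Wk s (kst s) = 0 := by
  unfold Wk
  rw [Pk_kst hs, sub_self]

theorem Rf_base {s : ℝ} (hs : 0 < s) : Rf s (kst s) 0 = 0 := by
  unfold Rf
  rw [Wk_kst hs]
  simp

theorem Lf_base_pos {s : ℝ} (hs : 0 < s) : 0 < Lf s (kst s) 0 := by
  unfold Lf
  have := Dk_pos hs (kst_pos s)
  simp only [mul_zero, add_zero]
  positivity

theorem Qf_base_pos {s : ℝ} (hs : 0 < s) : 0 < Qf s (kst s) 0 := by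
  unfold Qf
  rw [Rf_base hs, mul_zero, zero_add]
  have := Lf_base_pos hs
  have := Gk_pos' (s := s) (kst_pos s)
  positivity

section derivs

variable {s k : ℝ}

private lemma hd_G (hk : 0 < k) :
    HasDerivAt (Gk s) (sig s * Gk s k / (1 + k)) k := by
  have h1 : HasDerivAt (fun k : ℝ => 1 + k) 1 k := (hasDerivAt_id k).const_add 1
  have h2 := h1.rpow_const (p := sig s) (Or.inl (by positivity))
  have h3 : 1 * sig s * (1 + k) ^ (sig s - 1) = sig s * Gk s k / (1 + k) := by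
    unfold Gk
    rw [Real.rpow_sub_one (by positivity)]
    ring
  rw [h3] at h2
  exact h2

private lemma hd_P (hk : 0 < k) :
    HasDerivAt (Pk s) (-(sig s * Pk s k / (k * (1 + k)))) k := by
  have h0 : HasDerivAt (fun k : ℝ => 2 * k) 2 k := by
    simpa using (hasDerivAt_id k).const_mul 2
  have h1 : HasDerivAt (fun k : ℝ => (1 + k) / (2 * k)) ((1 * (2 * k) - (1 + k) * 2) / (2 * k) ^ 2) k :=
    ((hasDerivAt_id k).const_add 1).div h0 (by positivity)
  have h2 := h1.rpow_const (p := sig s) (Or.inl (by positivity))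
  have h3 : (1 * (2 * k) - (1 + k) * 2) / (2 * k) ^ 2 * sig s * ((1 + k) / (2 * k)) ^ (sig s - 1)
      = -(sig s * Pk s k / (k * (1 + k))) := by
    unfold Pk
    rw [Real.rpow_sub_one (by positivity)]
    field_simp
    ring
  rw [h3] at h2
  exact h2

private lemma hd_W (hk : 0 < k) :
    HasDerivAt (Wk s) (-(sig s * Pk s k / (k * (1 + k))) - (sig s * Gk s k / (1 + k)) / 4) k :=
  (hd_P hk).sub ((hd_G hk).div_const 4)

private lemma hd_1k2 (_hk : 0 < k) : HasDerivAt (fun k : ℝ => (1 + k) ^ 2) (2 * (1 + k)) k := by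
  have := ((hasDerivAt_id k).const_add 1).fun_pow 2
  simpa using this

/-- derivative of `D` at the base. -/
private lemma hd_D (hs : 0 < s) :
    HasDerivAt (Dk s) (sig s * Gk s (kst s) / (4 * (1 + kst s) ^ 2)) (kst s) := by
  have hk := kst_pos s
  have hW := hd_W (s := s) hk
  have hK2 : HasDerivAt (fun k : ℝ => k ^ 2) (2 * kst s) (kst s) := by
    simpa using (hasDerivAt_id (kst s)).fun_pow 2
  have h1 := (hK2.mul hW).div (hd_1k2 hk) (by positivity : (1 + kst s) ^ 2 ≠ 0)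
  have h2 := (h1.const_add 1).add ((hd_G (s := s) hk).div_const 4)
  have h3 : HasDerivAt (Dk s) _ (kst s) := h2
  convert h3 using 1
  have hWk : Wk s (kst s) = 0 := Wk_kst hs
  have hPk := Pk_kst hs
  have hfw : ((fun k : ℝ => k ^ 2) * Wk s) (kst s) = 0 := by
    simp only [Pi.mul_apply, hWk, mul_zero]
  simp only [hWk, hPk, hfw]
  field_simp
  ring

private lemma hd_J (hs : 0 < s) :
    ∃ J', HasDerivAt (fun k => (Dk s k)⁻¹ * ((1 + k) ^ 2)⁻¹) J' (kst s) := by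
  have hk := kst_pos s
  exact ⟨_, ((hd_D hs).inv (Dk_pos hs hk).ne').mul ((hd_1k2 hk).inv (by positivity))⟩

end derivs

/-- nondegeneracy at the base: `∂ₖ R(k*, 0) ≠ 0`. -/
theorem deriv_Rf_base {s : ℝ} (hs : 0 < s) :
    ∃ a : ℝ, a ≠ 0 ∧ HasDerivAt (fun k => Rf s k 0) a (kst s) := by
  have hk := kst_pos s
  obtain ⟨J', hJ⟩ := hd_J hs
  have hW := hd_W (s := s) hk
  have hD := Dk_pos hs hk
  have h1 := hW.mul hJ
  have hfun : (fun k => Rf s k 0) = (fun k => Wk s k * ((Dk s k)⁻¹ * ((1 + k) ^ 2)⁻¹)) := by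
    funext k'
    unfold Rf Lf
    simp only [mul_zero, add_zero, sub_zero, div_eq_mul_inv]
    ring
  rw [hfun]
  refine ⟨_, ?_, h1⟩
  rw [Wk_kst hs, zero_mul, add_zero, Pk_kst hs]
  have hG := Gk_pos' (s := s) hk
  have hσ : 0 < sig s := by
    unfold sig
    positivity
  have h2 : -(sig s * (Gk s (kst s) / 4) / (kst s * (1 + kst s))) -
      sig s * Gk s (kst s) / (1 + kst s) / 4 = -(sig s * Gk s (kst s) / (4 * kst s)) := by
    field_simp
    ring
  rw [h2]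
  have : 0 < sig s * Gk s (kst s) / (4 * kst s) * ((Dk s (kst s))⁻¹ * ((1 + kst s) ^ 2)⁻¹) := by
    positivity
  intro h0
  have h3 : sig s * Gk s (kst s) / (4 * kst s) * ((Dk s (kst s))⁻¹ * ((1 + kst s) ^ 2)⁻¹) = 0 := by
    linear_combination -h0
  exact absurd h3 this.ne'

/-- nondegeneracy at the base: `∂ₖ Q(k*, 0) ≠ 0`. -/
theorem deriv_Qf_base {s : ℝ} (hs : 0 < s) :
    ∃ a : ℝ, a ≠ 0 ∧ HasDerivAt (fun k => Qf s k 0) a (kst s) := by
  have hk := kst_pos s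
  have hD := Dk_pos hs hk
  have h1 := ((hd_D hs).inv hD.ne').const_sub 1
  have hfun : (fun k => Qf s k 0) =ᶠ[nhds (kst s)] (fun k => 1 - (Dk s k)⁻¹) := by
    have hopen : ∀ᶠ k in nhds (kst s), 0 < k := Ioi_mem_nhds hk
    filter_upwards [hopen] with k' hk'
    have h2 := Lf_eq (s := s) (k := k') (v := 0) hs hk'
    have h3 : Lf s k' 0 = (Dk s k')⁻¹ := by
      unfold Lf
      simp [div_eq_mul_inv]
    rw [h3] at h2
    simp only [mul_zero, sub_zero] at h2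
    linarith
  refine ⟨_, ?_, h1.congr_of_eventuallyEq hfun⟩
  have hG := Gk_pos' (s := s) hk
  have hσ : 0 < sig s := by
    unfold sig
    positivity
  have : 0 < sig s * Gk s (kst s) / (4 * (1 + kst s) ^ 2) / (Dk s (kst s)) ^ 2 := by positivity
  intro h0
  apply this.ne'
  linear_combination h0

end Crest.Agent.MG
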