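/-
S0175, piece LIFT: inverse function theorem for the charts, and the lift to the base `ℝ × ℝⁿ`:
the diffeomorphism `Φ : (R, q) ↦ (Q, -θ(k) q)` with inverse `ψ`.  See MGPLAN.md.
-/
import Crest.Agent.MGFam

set_option autoImplicit false

open MeasureTheory Set
open scoped ENNReal ContDiff Topology

namespace Crest.Agent.MG

/-- A smooth map on an open set with injective derivative at `a₀` has a local inverse which is
smooth on its whole domain. -/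
theorem exists_diffeo_chart {F : ℝ × ℝ → ℝ × ℝ} {a₀ : ℝ × ℝ} {S : Set (ℝ × ℝ)} (hS : IsOpen S)
    (ha₀ : a₀ ∈ S) (hF : ContDiffOn ℝ ∞ F S) (hD : Function.Injective (fderiv ℝ F a₀)) :
    ∃ e : OpenPartialHomeomorph (ℝ × ℝ) (ℝ × ℝ), a₀ ∈ e.source ∧ (∀ a, e a = F a) ∧
      e.source ⊆ S ∧ ∀ w ∈ e.target, ContDiffAt ℝ ∞ e.symm w := by
  have hFa₀ : ContDiffAt ℝ ∞ F a₀ := hF.contDiffAt (hS.mem_nhds ha₀)
  have hdiff : DifferentiableAt ℝ F a₀ := hFa₀.differentiableAt (by simp)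
  -- the derivative at `a₀` as an equivalence
  let E₀ : (ℝ × ℝ) ≃L[ℝ] (ℝ × ℝ) :=
    (LinearEquiv.ofInjectiveEndo (fderiv ℝ F a₀ : (ℝ × ℝ) →ₗ[ℝ] (ℝ × ℝ)) hD).toContinuousLinearEquiv
  have hE₀ : (E₀ : (ℝ × ℝ) →L[ℝ] (ℝ × ℝ)) = fderiv ℝ F a₀ := by
    ext <;> rfl
  have hFD : HasFDerivAt F (E₀ : (ℝ × ℝ) →L[ℝ] (ℝ × ℝ)) a₀ := by
    rw [hE₀]; exact hdiff.hasFDerivAt
  -- openness of invertibility
  have hcont : ContinuousOn (fderiv ℝ F) S :=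
    hF.continuousOn_fderiv_of_isOpen hS (by simp)
  have hnhds : ∀ᶠ a in 𝓝 a₀, a ∈ S ∧
      fderiv ℝ F a ∈ range ((↑) : ((ℝ × ℝ) ≃L[ℝ] (ℝ × ℝ)) → (ℝ × ℝ) →L[ℝ] (ℝ × ℝ)) := by
    refine Filter.Eventually.and (hS.mem_nhds ha₀) ?_
    have h1 : ContinuousAt (fderiv ℝ F) a₀ := hcont.continuousAt (hS.mem_nhds ha₀)
    have h2 := E₀.nhds
    rw [hE₀] at h2
    exact h1.eventually h2
  obtain ⟨N, hNsub, hNo, hNa⟩ := eventually_nhds_iff.mp hnhds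
  let e := (hFa₀.toOpenPartialHomeomorph F hFD (by simp)).restrOpen N hNo
  refine ⟨e, ?_, fun a => rfl, ?_, ?_⟩
  · rw [OpenPartialHomeomorph.restrOpen_source]
    exact ⟨hFa₀.mem_toOpenPartialHomeomorph_source hFD (by simp), hNa⟩
  · intro a ha
    rw [OpenPartialHomeomorph.restrOpen_source] at ha
    exact (hNsub a ha.2).1
  · intro w hw
    have hsrc : e.symm w ∈ e.source := e.map_target hw
    rw [OpenPartialHomeomorph.restrOpen_source] at hsrc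
    obtain ⟨hS', E, hE⟩ := hNsub _ hsrc.2
    have hsm : ContDiffAt ℝ ∞ F (e.symm w) := hF.contDiffAt (hS.mem_nhds hS')
    have hder : HasFDerivAt F (E : (ℝ × ℝ) →L[ℝ] (ℝ × ℝ)) (e.symm w) := by
      rw [hE]; exact (hsm.differentiableAt (by simp)).hasFDerivAt
    exact e.contDiffAt_symm hw hder hsm

/-- Triangular derivative. -/
theorem inj_of_triangular {F : ℝ × ℝ → ℝ × ℝ} {k₀ a h : ℝ} (hF : DifferentiableAt ℝ F (k₀, 0))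
    (ha : a ≠ 0) (hh : h ≠ 0) (h1 : HasDerivAt (fun k => (F (k, 0)).1) a k₀)
    (h2 : ∀ k, (F (k, 0)).2 = 0) (h3 : ∀ v, (F (k₀, v)).2 = h * v) :
    Function.Injective (fderiv ℝ F (k₀, 0)) := by
  set D := fderiv ℝ F (k₀, 0) with hDdef
  have hFD : HasFDerivAt F D (k₀, 0) := hF.hasFDerivAt
  -- `D (1, 0)`
  have hc1 : HasDerivAt (fun k : ℝ => F (k, 0)) (D (1, 0)) k₀ := by
    have hin : HasDerivAt (fun k : ℝ => ((k, (0 : ℝ)) : ℝ × ℝ)) ((1 : ℝ), (0 : ℝ)) k₀ :=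
      (hasDerivAt_id k₀).prodMk (hasDerivAt_const k₀ (0 : ℝ))
    exact hFD.comp_hasDerivAt k₀ hin
  have hc2 : HasDerivAt (fun v : ℝ => F (k₀, v)) (D (0, 1)) 0 := by
    have hin : HasDerivAt (fun v : ℝ => ((k₀, v) : ℝ × ℝ)) ((0 : ℝ), (1 : ℝ)) 0 :=
      (hasDerivAt_const (0 : ℝ) k₀).prodMk (hasDerivAt_id (0 : ℝ))
    exact hFD.comp_hasDerivAt (0 : ℝ) hin
  have e1 : (D (1, 0)).1 = a := by
    have := (hasFDerivAt_fst (𝕜 := ℝ) (p := F (k₀, 0)) (E := ℝ) (F := ℝ)).comp_hasDerivAt k₀ hc1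
    exact this.unique h1
  have e2 : (D (1, 0)).2 = 0 := by
    have := (hasFDerivAt_snd (𝕜 := ℝ) (p := F (k₀, 0)) (E := ℝ) (F := ℝ)).comp_hasDerivAt k₀ hc1
    have h0 : HasDerivAt (fun k => (F (k, 0)).2) 0 k₀ := by
      simp only [h2]; exact hasDerivAt_const _ _
    exact this.unique h0
  have e3 : (D (0, 1)).2 = h := by
    have := (hasFDerivAt_snd (𝕜 := ℝ) (p := F (k₀, 0)) (E := ℝ) (F := ℝ)).comp_hasDerivAt
      (0 : ℝ) hc2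
    have h0 : HasDerivAt (fun v => (F (k₀, v)).2) h 0 := by
      simp only [h3]; simpa using (hasDerivAt_id (0 : ℝ)).const_mul h
    exact this.unique h0
  have hinj : ∀ x : ℝ × ℝ, D x = 0 → x = 0 := by
    rintro ⟨x, y⟩ hxy
    have hdec : ((x, y) : ℝ × ℝ) = x • ((1 : ℝ), (0 : ℝ)) + y • ((0 : ℝ), (1 : ℝ)) := by
      ext <;> simp
    rw [hdec, map_add, map_smul, map_smul] at hxy
    have hs := congrArg Prod.snd hxy
    have hf := congrArg Prod.fst hxy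
    simp only [Prod.snd_add, Prod.fst_add, Prod.smul_snd, Prod.smul_fst, smul_eq_mul, e1, e2, e3,
      Prod.snd_zero, Prod.fst_zero, mul_zero, zero_add] at hs hf
    have hy : y = 0 := by
      rcases mul_eq_zero.mp hs with h' | h'
      · exact h'
      · exact absurd h' hh
    rw [hy] at hf
    simp only [zero_mul, add_zero] at hf
    have hx : x = 0 := by
      rcases mul_eq_zero.mp hf with h' | h'
      · exact h'
      · exact absurd h' ha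
    simp [hx, hy]
  exact (injective_iff_map_eq_zero D).mpr hinj

theorem nuk_ne_one {k : ℝ} (hk : 0 < k) : 1 - nuk k ≠ 0 := by
  have h1 : 1 + k ≠ 0 := by positivity
  have h : 1 - nuk k = (2 + k) / (2 * (1 + k)) := by
    unfold nuk
    field_simp
    ring
  rw [h]
  positivity

theorem nuk_ne_zero {k : ℝ} (hk : 0 < k) : nuk k ≠ 0 := by
  unfold nuk; positivity

theorem thk_ne_zero {k : ℝ} (hk : 0 < k) : thk k ≠ 0 := by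
  unfold thk; positivity

theorem thk_mul {k : ℝ} (hk : 0 < k) : thk k * (1 - nuk k) = nuk k := by
  unfold thk nuk
  have h1 : 1 + k ≠ 0 := by positivity
  have h2 : 2 + k ≠ 0 := by positivity
  field_simp
  ring

theorem isOpen_S : IsOpen {a : ℝ × ℝ | 0 < a.1} := isOpen_lt continuous_const continuous_fst

/-- Step 1: local inverses of both charts on a common neighbourhood `U` of `(k*, 0)`. -/
theorem exists_charts {s : ℝ} (hs : 0 < s) :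
    ∃ (U V₁ V₂ : Set (ℝ × ℝ)) (j₁ j₂ : ℝ × ℝ → ℝ × ℝ),
      IsOpen U ∧ IsOpen V₁ ∧ IsOpen V₂ ∧ (kst s, (0 : ℝ)) ∈ U ∧
      (∀ a ∈ U, 0 < a.1 ∧ 0 < Lf s a.1 a.2) ∧
      (∀ a ∈ U, Xi1 s a ∈ V₁ ∧ j₁ (Xi1 s a) = a) ∧ (∀ w ∈ V₁, j₁ w ∈ U ∧ Xi1 s (j₁ w) = w) ∧
      (∀ a ∈ U, Xi2 s a ∈ V₂ ∧ j₂ (Xi2 s a) = a) ∧ (∀ w ∈ V₂, j₂ w ∈ U ∧ Xi2 s (j₂ w) = w) ∧
      ContDiffOn ℝ ∞ j₁ V₁ ∧ ContDiffOn ℝ ∞ j₂ V₂ := by
  have hk := kst_pos s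
  have hS := isOpen_S
  have ha₀ : (kst s, (0 : ℝ)) ∈ {a : ℝ × ℝ | 0 < a.1} := hk
  have hX1 := contDiffOn_Xi1 hs
  have hX2 := contDiffOn_Xi2 hs
  have hd1 : DifferentiableAt ℝ (Xi1 s) (kst s, 0) :=
    (hX1.contDiffAt (hS.mem_nhds ha₀)).differentiableAt (by simp)
  have hd2 : DifferentiableAt ℝ (Xi2 s) (kst s, 0) :=
    (hX2.contDiffAt (hS.mem_nhds ha₀)).differentiableAt (by simp)
  obtain ⟨a1, ha1, hda1⟩ := deriv_Rf_base hs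
  obtain ⟨a2, ha2, hda2⟩ := deriv_Qf_base hs
  have hi1 : Function.Injective (fderiv ℝ (Xi1 s) (kst s, 0)) :=
    inj_of_triangular (h := (1 - nuk (kst s)) ^ 2) hd1 ha1 (pow_ne_zero _ (nuk_ne_one hk)) hda1
      (fun k => by simp [Xi1]) (fun v => by simp [Xi1])
  have hi2 : Function.Injective (fderiv ℝ (Xi2 s) (kst s, 0)) :=
    inj_of_triangular (h := (nuk (kst s)) ^ 2) hd2 ha2 (pow_ne_zero _ (nuk_ne_zero hk)) hda2
      (fun k => by simp [Xi2]) (fun v => by simp [Xi2])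
  obtain ⟨e₁, he₁a, he₁F, he₁S, he₁sm⟩ := exists_diffeo_chart hS ha₀ hX1 hi1
  obtain ⟨e₂, he₂a, he₂F, he₂S, he₂sm⟩ := exists_diffeo_chart hS ha₀ hX2 hi2
  -- the set where `L > 0`
  let P : Set (ℝ × ℝ) := {a | 0 < a.1} ∩
    (fun a : ℝ × ℝ => 1 - (Xi2 s a).1 - 2 * (Xi2 s a).2) ⁻¹' Ioi 0
  have hPo : IsOpen P := by
    refine ContinuousOn.isOpen_inter_preimage ?_ hS isOpen_Ioi
    have hc : ContinuousOn (Xi2 s) {a : ℝ × ℝ | 0 < a.1} := hX2.continuousOn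
    exact (continuousOn_const.sub hc.fst).sub (continuousOn_const.mul hc.snd)
  have hPL : ∀ a ∈ P, 0 < a.1 ∧ 0 < Lf s a.1 a.2 := by
    rintro a ⟨ha, hb⟩
    refine ⟨ha, ?_⟩
    rw [Lf_eq hs ha]
    exact hb
  have hPa₀ : (kst s, (0 : ℝ)) ∈ P := by
    refine ⟨hk, ?_⟩
    have := Lf_base_pos hs
    rw [Lf_eq hs hk] at this
    exact this
  let U : Set (ℝ × ℝ) := e₁.source ∩ e₂.source ∩ P
  have hUo : IsOpen U := (e₁.open_source.inter e₂.open_source).inter hPo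
  refine ⟨U, e₁.target ∩ e₁.symm ⁻¹' U, e₂.target ∩ e₂.symm ⁻¹' U, e₁.symm, e₂.symm, hUo,
    e₁.isOpen_inter_preimage_symm hUo, e₂.isOpen_inter_preimage_symm hUo,
    ⟨⟨he₁a, he₂a⟩, hPa₀⟩, fun a ha => hPL a ha.2, ?_, ?_, ?_, ?_, ?_, ?_⟩
  · intro a ha
    have h1 : e₁.symm (Xi1 s a) = a := by rw [← he₁F a]; exact e₁.left_inv ha.1.1
    refine ⟨⟨?_, ?_⟩, h1⟩
    · rw [← he₁F a]; exact e₁.map_source ha.1.1
    · simp only [mem_preimage, h1]; exact ha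
  · rintro w ⟨hw, hwU⟩
    refine ⟨hwU, ?_⟩
    rw [← he₁F]; exact e₁.right_inv hw
  · intro a ha
    have h1 : e₂.symm (Xi2 s a) = a := by rw [← he₂F a]; exact e₂.left_inv ha.1.2
    refine ⟨⟨?_, ?_⟩, h1⟩
    · rw [← he₂F a]; exact e₂.map_source ha.1.2
    · simp only [mem_preimage, h1]; exact ha
  · rintro w ⟨hw, hwU⟩
    refine ⟨hwU, ?_⟩
    rw [← he₂F]; exact e₂.right_inv hw
  · intro w hw
    exact (he₁sm w hw.1).contDiffWithinAt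
  · intro w hw
    exact (he₂sm w hw.1).contDiffWithinAt

variable {n : ℕ}

/-- `(R, q) ↦ (R, |q|²)`. -/
noncomputable def tauMap (b : Bs n) : ℝ × ℝ := (b.1, ‖b.2‖ ^ 2)

theorem contDiff_tauMap : ContDiff ℝ ∞ (tauMap : Bs n → ℝ × ℝ) := by
  unfold tauMap
  exact contDiff_fst.prodMk (contDiff_snd.norm_sq ℝ)

/-- `Φ` given an inverse chart `j₁`. -/
noncomputable def PhiOf (s : ℝ) (j₁ : ℝ × ℝ → ℝ × ℝ) (b : Bs n) : Bs n :=
  (Qf s (j₁ (tauMap b)).1 (j₁ (tauMap b)).2, (-thk (j₁ (tauMap b)).1) • b.2)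

/-- `ψ` given an inverse chart `j₂`. -/
noncomputable def PsiOf (s : ℝ) (j₂ : ℝ × ℝ → ℝ × ℝ) (c : Bs n) : Bs n :=
  (Rf s (j₂ (tauMap c)).1 (j₂ (tauMap c)).2, (-(thk (j₂ (tauMap c)).1)⁻¹) • c.2)

theorem contDiffOn_thk : ContDiffOn ℝ ∞ thk {k : ℝ | 0 < k} := by
  unfold thk
  refine contDiffOn_id.div (contDiffOn_const.add contDiffOn_id) ?_
  intro k hk
  have : (0 : ℝ) < k := hk
  show (2 : ℝ) + k ≠ 0
  positivity

/-- Step 2: `Φ : W₁ → W₂` and `ψ : W₂ → W₁` are mutually inverse and smooth. -/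
theorem lift_charts {s : ℝ} (hs : 0 < s) {U V₁ V₂ : Set (ℝ × ℝ)} {j₁ j₂ : ℝ × ℝ → ℝ × ℝ}
    (hV₁ : IsOpen V₁) (hV₂ : IsOpen V₂)
    (hU : ∀ a ∈ U, 0 < a.1 ∧ 0 < Lf s a.1 a.2)
    (h1 : ∀ a ∈ U, Xi1 s a ∈ V₁ ∧ j₁ (Xi1 s a) = a) (h1' : ∀ w ∈ V₁, j₁ w ∈ U ∧ Xi1 s (j₁ w) = w)
    (h2 : ∀ a ∈ U, Xi2 s a ∈ V₂ ∧ j₂ (Xi2 s a) = a) (h2' : ∀ w ∈ V₂, j₂ w ∈ U ∧ Xi2 s (j₂ w) = w)
    (hj₁ : ContDiffOn ℝ ∞ j₁ V₁) (hj₂ : ContDiffOn ℝ ∞ j₂ V₂) :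
    let W₁ : Set (Bs n) := tauMap ⁻¹' V₁
    let W₂ : Set (Bs n) := tauMap ⁻¹' V₂
    IsOpen W₁ ∧ IsOpen W₂ ∧
    (∀ b ∈ W₁, PhiOf s j₁ b ∈ W₂ ∧ PsiOf s j₂ (PhiOf s j₁ b) = b) ∧
    (∀ c ∈ W₂, PsiOf s j₂ c ∈ W₁ ∧ PhiOf s j₁ (PsiOf s j₂ c) = c) ∧
    ContDiffOn ℝ ∞ (PhiOf s j₁ : Bs n → Bs n) W₁ ∧ ContDiffOn ℝ ∞ (PsiOf s j₂ : Bs n → Bs n) W₂ ∧
    (∀ b ∈ W₁, HRel s (j₁ (tauMap b)).1 (Lf s (j₁ (tauMap b)).1 (j₁ (tauMap b)).2) b.1 (‖b.2‖ ^ 2)) ∧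
    (∀ b ∈ W₁, (PhiOf s j₁ b).1 =
      (j₁ (tauMap b)).1 ^ 2 * b.1 +
        Gk s (j₁ (tauMap b)).1 * Lf s (j₁ (tauMap b)).1 (j₁ (tauMap b)).2 / 4) := by
  intro W₁ W₂
  have hτ : Continuous (tauMap : Bs n → ℝ × ℝ) := contDiff_tauMap.continuous
  -- the basic data on `W₁`
  have hb1 : ∀ b ∈ W₁, j₁ (tauMap b) ∈ U ∧ Rf s (j₁ (tauMap b)).1 (j₁ (tauMap b)).2 = b.1 ∧
      (1 - nuk (j₁ (tauMap b)).1) ^ 2 * (j₁ (tauMap b)).2 = ‖b.2‖ ^ 2 := by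
    intro b hb
    obtain ⟨hU', hX⟩ := h1' _ hb
    refine ⟨hU', congrArg Prod.fst hX, congrArg Prod.snd hX⟩
  have hb2 : ∀ c ∈ W₂, j₂ (tauMap c) ∈ U ∧ Qf s (j₂ (tauMap c)).1 (j₂ (tauMap c)).2 = c.1 ∧
      (nuk (j₂ (tauMap c)).1) ^ 2 * (j₂ (tauMap c)).2 = ‖c.2‖ ^ 2 := by
    intro c hc
    obtain ⟨hU', hX⟩ := h2' _ hc
    refine ⟨hU', congrArg Prod.fst hX, congrArg Prod.snd hX⟩
  -- `τ ∘ Φ = Ξ₂ ∘ j₁ ∘ τ`
  have hτΦ : ∀ b ∈ W₁, tauMap (PhiOf s j₁ b) = Xi2 s (j₁ (tauMap b)) := by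
    intro b hb
    obtain ⟨hU', hR, hτ'⟩ := hb1 b hb
    have hk := (hU _ hU').1
    refine Prod.ext rfl ?_
    show ‖(-thk (j₁ (tauMap b)).1) • b.2‖ ^ 2 =
      (nuk (j₁ (tauMap b)).1) ^ 2 * (j₁ (tauMap b)).2
    rw [norm_smul, mul_pow, Real.norm_eq_abs, sq_abs, ← hτ', neg_sq, ← mul_assoc, ← mul_pow,
      thk_mul hk]
  have hτΨ : ∀ c ∈ W₂, tauMap (PsiOf s j₂ c) = Xi1 s (j₂ (tauMap c)) := by
    intro c hc
    obtain ⟨hU', hR, hτ'⟩ := hb2 c hc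
    have hk := (hU _ hU').1
    refine Prod.ext rfl ?_
    show ‖(-(thk (j₂ (tauMap c)).1)⁻¹) • c.2‖ ^ 2 =
      (1 - nuk (j₂ (tauMap c)).1) ^ 2 * (j₂ (tauMap c)).2
    rw [norm_smul, mul_pow, Real.norm_eq_abs, sq_abs, ← hτ', neg_sq]
    have hth := thk_mul hk
    have hth0 := thk_ne_zero hk
    have key : ((thk (j₂ (tauMap c)).1)⁻¹) ^ 2 * (nuk (j₂ (tauMap c)).1) ^ 2 =
        (1 - nuk (j₂ (tauMap c)).1) ^ 2 := by
      rw [← mul_pow]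
      congr 1
      rw [inv_mul_eq_iff_eq_mul₀ hth0]
      exact hth.symm
    rw [← mul_assoc, key]
  have hW1 : IsOpen W₁ := hV₁.preimage hτ
  have hW2 : IsOpen W₂ := hV₂.preimage hτ
  refine ⟨hW1, hW2, ?_, ?_, ?_, ?_, ?_, ?_⟩
  · intro b hb
    obtain ⟨hU', hR, hτ'⟩ := hb1 b hb
    have hk := (hU _ hU').1
    have hmem := h2 _ hU'
    refine ⟨?_, ?_⟩
    · show tauMap (PhiOf s j₁ b) ∈ V₂
      rw [hτΦ b hb]; exact hmem.1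
    · rw [PsiOf, hτΦ b hb, hmem.2, hR]
      refine Prod.ext rfl ?_
      simp only [PhiOf, smul_smul]
      rw [neg_mul_neg, inv_mul_cancel₀ (thk_ne_zero hk), one_smul]
  · intro c hc
    obtain ⟨hU', hR, hτ'⟩ := hb2 c hc
    have hk := (hU _ hU').1
    have hmem := h1 _ hU'
    refine ⟨?_, ?_⟩
    · show tauMap (PsiOf s j₂ c) ∈ V₁
      rw [hτΨ c hc]; exact hmem.1
    · rw [PhiOf, hτΨ c hc, hmem.2, hR]
      refine Prod.ext rfl ?_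
      simp only [PsiOf, smul_smul]
      rw [neg_mul_neg, mul_inv_cancel₀ (thk_ne_zero hk), one_smul]
  · -- smoothness of `Φ`
    have hj : ContDiffOn ℝ ∞ (fun b : Bs n => j₁ (tauMap b)) W₁ :=
      hj₁.comp contDiff_tauMap.contDiffOn (fun b hb => hb)
    have hmapsS : MapsTo (fun b : Bs n => j₁ (tauMap b)) W₁ {a : ℝ × ℝ | 0 < a.1} :=
      fun b hb => (hU _ (hb1 b hb).1).1
    have hQ : ContDiffOn ℝ ∞ (fun b : Bs n => (Xi2 s (j₁ (tauMap b))).1) W₁ :=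
      contDiff_fst.comp_contDiffOn ((contDiffOn_Xi2 hs).comp hj hmapsS)
    have hth : ContDiffOn ℝ ∞ (fun b : Bs n => thk (j₁ (tauMap b)).1) W₁ :=
      contDiffOn_thk.comp (contDiff_fst.comp_contDiffOn hj) hmapsS
    exact hQ.prodMk (hth.neg.smul contDiff_snd.contDiffOn)
  · -- smoothness of `ψ`
    have hj : ContDiffOn ℝ ∞ (fun c : Bs n => j₂ (tauMap c)) W₂ :=
      hj₂.comp contDiff_tauMap.contDiffOn (fun b hb => hb)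
    have hmapsS : MapsTo (fun c : Bs n => j₂ (tauMap c)) W₂ {a : ℝ × ℝ | 0 < a.1} :=
      fun c hc => (hU _ (hb2 c hc).1).1
    have hQ : ContDiffOn ℝ ∞ (fun c : Bs n => (Xi1 s (j₂ (tauMap c))).1) W₂ :=
      contDiff_fst.comp_contDiffOn ((contDiffOn_Xi1 hs).comp hj hmapsS)
    have hth : ContDiffOn ℝ ∞ (fun c : Bs n => thk (j₂ (tauMap c)).1) W₂ :=
      contDiffOn_thk.comp (contDiff_fst.comp_contDiffOn hj) hmapsS
    have hinv : ContDiffOn ℝ ∞ (fun c : Bs n => (thk (j₂ (tauMap c)).1)⁻¹) W₂ :=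
      hth.inv (fun c hc => thk_ne_zero (hU _ (hb2 c hc).1).1)
    exact hQ.prodMk (hinv.neg.smul contDiff_snd.contDiffOn)
  · intro b hb
    obtain ⟨hU', hR, hτ'⟩ := hb1 b hb
    have hk := hU _ hU'
    have := hrel_of_chart hs hk.1 hk.2
    rwa [hR, hτ'] at this
  · intro b hb
    obtain ⟨hU', hR, hτ'⟩ := hb1 b hb
    simp only [PhiOf, Qf]
    rw [hR]

end Crest.Agent.MG
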