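/-
S0175, piece BUMP, continuity lemmas for the family.
-/
import Crest.Agent.MGLift
import Crest.Agent.MGG
import Crest.Agent.MGBump0

set_option autoImplicit false

open MeasureTheory Set Filter Topology
open scoped ENNReal ContDiff

namespace Crest.Agent.MG

theorem continuousOn_Gk (s : ℝ) : ContinuousOn (Gk s) (Ioi 0) := by
  unfold Gk
  intro k hk
  have hk' : (0 : ℝ) < k := hk
  have h1 : ContinuousAt (fun k : ℝ => 1 + k) k := by fun_prop
  exact (h1.rpow_const (Or.inl (by positivity))).continuousWithinAt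

theorem continuousOn_Pk (s : ℝ) : ContinuousOn (Pk s) (Ioi 0) := by
  unfold Pk
  intro k hk
  have hk' : (0 : ℝ) < k := hk
  have h1 : ContinuousAt (fun k : ℝ => (1 + k) / (2 * k)) k :=
    ContinuousAt.div (by fun_prop) (by fun_prop) (by positivity)
  exact (h1.rpow_const (Or.inl (by positivity))).continuousWithinAt

theorem continuousOn_g (s : ℝ) : ContinuousOn (g s) (Ioi 0) := by
  unfold g
  intro k hk
  have hk' : (0 : ℝ) < k := hk
  exact (continuousAt_id.rpow_const (Or.inl hk'.ne')).continuousWithinAt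

theorem continuousOn_Lf {s : ℝ} (hs : 0 < s) :
    ContinuousOn (fun a : ℝ × ℝ => Lf s a.1 a.2) {a | 0 < a.1} := by
  have h1 : ContinuousOn (fun a : ℝ × ℝ => Qf s a.1 a.2) {a | 0 < a.1} :=
    (contDiffOn_Xi2 hs).continuousOn.fst
  have h2 : ContinuousOn (fun a : ℝ × ℝ => nuk a.1) {a | 0 < a.1} := by
    unfold nuk
    refine ContinuousOn.div (by fun_prop) (by fun_prop) ?_
    intro a ha
    have : (0 : ℝ) < a.1 := ha
    positivity
  have h3 : ContinuousOn (fun a : ℝ × ℝ => 1 - Qf s a.1 a.2 - 2 * ((nuk a.1) ^ 2 * a.2)) {a | 0 < a.1} :=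
    (continuousOn_const.sub h1).sub (continuousOn_const.mul ((h2.pow 2).mul continuousOn_snd))
  refine h3.congr ?_
  intro a ha
  exact Lf_eq hs ha

theorem thk_mul_one_sub {k : ℝ} (hk : 0 < k) : thk k * (1 - nuk k) = nuk k := by
  unfold thk nuk
  field_simp
  ring

theorem tauMap_zero {n : ℕ} : tauMap (0 : Bs n) = (0, 0) := by
  simp [tauMap]

end Crest.Agent.MG
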