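/-
S0175, piece BUMP: the densities on the base, with all the data the assembly needs.  See MGPLAN.md.
-/
import Crest.Agent.MGBump1

set_option autoImplicit false

open MeasureTheory Set Filter Topology
open scoped ENNReal ContDiff

namespace Crest.Agent.MG

variable {n : ℕ}

instance instHaarBs : (volume : Measure (Bs n)).IsAddHaarMeasure :=
  Measure.prod.instIsAddHaarMeasure _ _

/-- The normalised bump: for a ball in `Bs n`, a smooth nonnegative function vanishing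
off the closed ball, with `π ∫ f² = 1/3`. -/
theorem exists_bump (b₁ : Bs n) {r : ℝ} (hr : 0 < r) :
    ∃ f : Bs n → ℝ, ContDiff ℝ ∞ f ∧ (∀ b, 0 ≤ f b) ∧ (∀ b, b ∉ Metric.closedBall b₁ r → f b = 0) ∧
      ∫⁻ b, ENNReal.ofReal (f b ^ 2) = ENNReal.ofReal (1 / (3 * Real.pi)) := by
  let h : ContDiffBump b₁ := ⟨r / 2, r, by positivity, by linarith⟩
  have hc : ContDiff ℝ ∞ (h : Bs n → ℝ) := h.contDiff
  have hcs : HasCompactSupport (fun b => (h b) ^ 2) := by
    have : HasCompactSupport (h : Bs n → ℝ) := h.hasCompactSupport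
    exact this.comp_left (g := fun t : ℝ => t ^ 2) (by simp)
  have hcont : Continuous (fun b => (h b) ^ 2) := hc.continuous.pow 2
  have hA : 0 < ∫ b, (h b) ^ 2 := by
    refine hcont.integral_pos_of_hasCompactSupport_nonneg_nonzero hcs (fun b => by positivity) (x := b₁) ?_
    have : 0 < h b₁ := h.pos_of_mem_ball (Metric.mem_ball_self hr)
    positivity
  set A := ∫ b, (h b) ^ 2 with hAdef
  have hpi := Real.pi_pos
  set c₀ := Real.sqrt ((1 / (3 * Real.pi)) / A) with hc₀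
  have hc₀sq : c₀ ^ 2 = (1 / (3 * Real.pi)) / A := Real.sq_sqrt (by positivity)
  refine ⟨fun b => c₀ * h b, contDiff_const.mul hc, fun b => mul_nonneg (Real.sqrt_nonneg _) h.nonneg, ?_, ?_⟩
  · intro b hb
    have : h b = 0 := by
      apply h.zero_of_le_dist
      simp only [Metric.mem_closedBall, not_le] at hb
      exact hb.le
    simp [this]
  · have hint : Integrable (fun b => (c₀ * h b) ^ 2) (volume : Measure (Bs n)) := by
      have : Continuous (fun b => (c₀ * h b) ^ 2) := (continuous_const.mul hc.continuous).pow 2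
      refine this.integrable_of_hasCompactSupport ?_
      have e : (fun b => (c₀ * h b) ^ 2) = fun b => c₀ ^ 2 * (h b) ^ 2 := by
        funext b; ring
      rw [e]
      exact hcs.mul_left
    rw [← ofReal_integral_eq_lintegral_ofReal hint (Eventually.of_forall fun b => by positivity)]
    congr 1
    have e : (fun b => (c₀ * h b) ^ 2) = fun b => c₀ ^ 2 * (h b) ^ 2 := by
      funext b; ring
    simp only [e]
    rw [integral_const_mul, ← hAdef, hc₀sq]
    field_simp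

/-- nonvanishing of the Jacobian of `ψ` from the inverse map. -/
theorem det_ne_of_inverse {E : Type*} [NormedAddCommGroup E] [NormedSpace ℝ E] [FiniteDimensional ℝ E]
    {W₁ W₂ : Set E} (hW₁ : IsOpen W₁) (hW₂ : IsOpen W₂) {Φ ψ : E → E}
    (hΦ : ContDiffOn ℝ ∞ Φ W₁) (hψ : ContDiffOn ℝ ∞ ψ W₂)
    (h21 : ∀ c ∈ W₂, ψ c ∈ W₁ ∧ Φ (ψ c) = c) {c : E} (hc : c ∈ W₂) :
    (fderiv ℝ ψ c).det ≠ 0 := by
  have h1 : HasFDerivAt ψ (fderiv ℝ ψ c) c :=
    ((hψ.contDiffAt (hW₂.mem_nhds hc)).differentiableAt (by simp)).hasFDerivAt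
  have h2 : HasFDerivAt Φ (fderiv ℝ Φ (ψ c)) (ψ c) :=
    ((hΦ.contDiffAt (hW₁.mem_nhds (h21 c hc).1)).differentiableAt (by simp)).hasFDerivAt
  have h3 := h2.comp c h1
  have h4 : (Φ ∘ ψ) =ᶠ[𝓝 c] id := by
    filter_upwards [hW₂.mem_nhds hc] with y hy
    exact (h21 y hy).2
  have h5 : HasFDerivAt (Φ ∘ ψ) (ContinuousLinearMap.id ℝ E) c :=
    (hasFDerivAt_id c).congr_of_eventuallyEq h4
  have h6 := h3.unique h5
  intro h0
  have h7 : ((fderiv ℝ Φ (ψ c)).comp (fderiv ℝ ψ c)).det = 1 := by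
    rw [h6]
    simp [ContinuousLinearMap.det]
  have h8 : ((fderiv ℝ Φ (ψ c)).comp (fderiv ℝ ψ c)).det =
      (fderiv ℝ Φ (ψ c)).det * (fderiv ℝ ψ c).det := by
    simp [ContinuousLinearMap.det, ContinuousLinearMap.coe_comp, LinearMap.det_comp]
  rw [h8, h0, mul_zero] at h7
  exact zero_ne_one h7

/-- smoothness of `√|det Dψ|` on the open set. -/
theorem contDiffOn_sqrt_abs_det {E : Type*} [NormedAddCommGroup E] [NormedSpace ℝ E] [FiniteDimensional ℝ E]
    {W : Set E} (hW : IsOpen W) {ψ : E → E} (hψ : ContDiffOn ℝ ∞ ψ W)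
    (hdet : ∀ c ∈ W, (fderiv ℝ ψ c).det ≠ 0) :
    ContDiffOn ℝ ∞ (fun c => Real.sqrt |(fderiv ℝ ψ c).det|) W := by
  have h1 : ContDiffOn ℝ ∞ (fderiv ℝ ψ) W := hψ.fderiv_of_isOpen hW (by simp)
  have h2 : ContDiffOn ℝ ∞ (fun c => (fderiv ℝ ψ c).det) W :=
    contDiff_clm_det.comp_contDiffOn h1
  intro c hc
  have h3 : ContDiffAt ℝ ∞ (fun c => (fderiv ℝ ψ c).det) c := h2.contDiffAt (hW.mem_nhds hc)
  have h4 : ContDiffAt ℝ ∞ (fun c => |(fderiv ℝ ψ c).det|) c := h3.abs (hdet c hc)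
  have h5 : ContDiffAt ℝ ∞ (fun c => Real.sqrt |(fderiv ℝ ψ c).det|) c :=
    h4.sqrt (abs_ne_zero.mpr (hdet c hc))
  exact h5.contDiffWithinAt


theorem Gk_pos' {s k : ℝ} (hk : 0 < k) : 0 < Gk s k := Real.rpow_pos_of_pos (by linarith) _
theorem Pk_pos' {s k : ℝ} (hk : 0 < k) : 0 < Pk s k := Real.rpow_pos_of_pos (by positivity) _

theorem uI_pos' {s k L : ℝ} (hk : 0 < k) (hL : 0 < L) : 0 < uI s k L := by
  have h1 := g_pos (s := s) (mul_pos (Gk_pos' (s := s) hk) hL)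
  have h2 := g_pos (s := s) (mul_pos (Pk_pos' (s := s) hk) hL)
  have h3 := g_pos (s := s) hL
  unfold uI
  linarith

/-- The family data on the base. -/
theorem family (n : ℕ) {s : ℝ} (hs : 0 < s) :
    ∃ (fI fO : Bs n → ℝ) (KI KO : Set (Bs n)) (κ Lb : Bs n → ℝ) (Φ ψ : Bs n → Bs n) (ε d₀ C₀ : ℝ),
      ContDiff ℝ ∞ fI ∧ ContDiff ℝ ∞ fO ∧ (∀ b, 0 ≤ fI b) ∧ (∀ b, 0 ≤ fO b) ∧
      IsCompact KI ∧ IsCompact KO ∧ (∀ b, b ∉ KI → fI b = 0) ∧ (∀ b, b ∉ KO → fO b = 0) ∧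
      Disjoint KI KO ∧ (∀ b ∈ KI, 0 < b.1) ∧ (∀ c ∈ KO, 0 < c.1) ∧
      Measurable Φ ∧ Measurable ψ ∧ Measurable κ ∧ Measurable Lb ∧
      (∀ b ∈ KI, Φ b ∈ KO) ∧ (∀ c ∈ KO, ψ c ∈ KI) ∧
      (∀ b ∈ KI, ψ (Φ b) = b) ∧ (∀ c ∈ KO, Φ (ψ c) = c) ∧
      -- the change of variables: `Φ` pushes `fI²` to `½ fO²`
      (volume.withDensity (fun b => ENNReal.ofReal (fI b ^ 2))).map Φ =
        (2⁻¹ : ℝ≥0∞) • volume.withDensity (fun b => ENNReal.ofReal (fO b ^ 2)) ∧
      -- the mass: `π ∫ fI² = 1/3`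
      ∫⁻ b, ENNReal.ofReal (fI b ^ 2) = ENNReal.ofReal (1 / (3 * Real.pi)) ∧
      -- hyperedges
      (∀ b ∈ KI, HRel s (κ b) (Lb b) b.1 (‖b.2‖ ^ 2)) ∧
      (∀ b ∈ KI, Φ b = ((κ b) ^ 2 * b.1 + Gk s (κ b) * Lb b / 4, (-thk (κ b)) • b.2)) ∧
      -- smallness of the inner part
      0 < ε ∧ (∀ b ∈ KI, b.1 + ‖b.2‖ ^ 2 ≤ ε ^ 2) ∧
      (∀ b ∈ KI, 2 * uI s (κ b) (Lb b) < g s (4 * ε ^ 2)) ∧
      -- uniform bounds
      0 < d₀ ∧ (∀ b ∈ KI, d₀ ≤ Gk s (κ b) * Lb b ∧ d₀ ≤ Pk s (κ b) * Lb b) ∧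
      (∀ c ∈ KO, 0 < 1 - c.1 - 2 * ‖c.2‖ ^ 2 ∧ 2 * g s (1 - c.1 - 2 * ‖c.2‖ ^ 2) ≤ C₀) := by
  classical
  obtain ⟨U, V₁, V₂, j₁, j₂, hU, hV₁, hV₂, hbase, hUpos, h1, h1', h2, h2', hj₁, hj₂⟩ := exists_charts hs
  obtain ⟨hW₁, hW₂, hΦ12, hψ21, cΦ, cψ, hrelW, hQW⟩ :=
    lift_charts (n := n) hs hV₁ hV₂ hUpos h1 h1' h2 h2' hj₁ hj₂
  set W₁ : Set (Bs n) := tauMap ⁻¹' V₁ with hW₁def
  set W₂ : Set (Bs n) := tauMap ⁻¹' V₂ with hW₂def
  set Phi : Bs n → Bs n := PhiOf s j₁ with hPhi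
  set Psi : Bs n → Bs n := PsiOf s j₂ with hPsi
  -- the chart on W₁
  set A : Bs n → ℝ × ℝ := fun b => j₁ (tauMap b) with hA
  have hAU : ∀ b ∈ W₁, A b ∈ U := fun b hb => (h1' _ hb).1
  have hAX : ∀ b ∈ W₁, Xi1 s (A b) = tauMap b := fun b hb => (h1' _ hb).2
  have hAc : ContinuousOn A W₁ :=
    hj₁.continuousOn.comp contDiff_tauMap.continuous.continuousOn (fun b hb => hb)
  have hApos : ∀ b ∈ W₁, 0 < (A b).1 := fun b hb => (hUpos _ (hAU b hb)).1
  have hALpos : ∀ b ∈ W₁, 0 < Lf s (A b).1 (A b).2 := fun b hb => (hUpos _ (hAU b hb)).2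
  -- continuity of the auxiliary functions
  have cκ : ContinuousOn (fun b => (A b).1) W₁ := hAc.fst
  have cL : ContinuousOn (fun b => Lf s (A b).1 (A b).2) W₁ :=
    (continuousOn_Lf hs).comp hAc (fun b hb => hApos b hb)
  have cG : ContinuousOn (fun b => Gk s (A b).1) W₁ :=
    (continuousOn_Gk s).comp cκ (fun b hb => hApos b hb)
  have cP : ContinuousOn (fun b => Pk s (A b).1) W₁ :=
    (continuousOn_Pk s).comp cκ (fun b hb => hApos b hb)
  have hGpos : ∀ b ∈ W₁, 0 < Gk s (A b).1 := fun b hb => Gk_pos' (hApos b hb)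
  have hPpos : ∀ b ∈ W₁, 0 < Pk s (A b).1 := fun b hb => Pk_pos' (hApos b hb)
  have cGL : ContinuousOn (fun b => Gk s (A b).1 * Lf s (A b).1 (A b).2) W₁ := cG.mul cL
  have cPL : ContinuousOn (fun b => Pk s (A b).1 * Lf s (A b).1 (A b).2) W₁ := cP.mul cL
  have cU : ContinuousOn (fun b => uI s (A b).1 (Lf s (A b).1 (A b).2)) W₁ := by
    unfold uI
    have e1 := (continuousOn_g s).comp cGL (fun b hb => mul_pos (hGpos b hb) (hALpos b hb))
    have e2 := (continuousOn_g s).comp cPL (fun b hb => mul_pos (hPpos b hb) (hALpos b hb))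
    have e3 := (continuousOn_g s).comp cL (fun b hb => hALpos b hb)
    exact (e1.add (continuousOn_const.mul e2)).add (continuousOn_const.mul e3)
  have cQ : ContinuousOn (fun b => (Phi b).1) W₁ := cΦ.continuousOn.fst
  -- the base point
  have hX0 : Xi1 s (kst s, 0) = tauMap (0 : Bs n) := by
    rw [tauMap_zero]
    simp [Xi1, Rf_base hs]
  have h0W : (0 : Bs n) ∈ W₁ := by
    show tauMap (0 : Bs n) ∈ V₁
    rw [← hX0]
    exact (h1 _ hbase).1
  have hA0 : A 0 = (kst s, 0) := by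
    show j₁ (tauMap (0 : Bs n)) = _
    rw [← hX0]
    exact (h1 _ hbase).2
  -- constants at the base point
  set C := uI s (A 0).1 (Lf s (A 0).1 (A 0).2) + 1 with hC
  set d₀ := min (Gk s (A 0).1 * Lf s (A 0).1 (A 0).2) (Pk s (A 0).1 * Lf s (A 0).1 (A 0).2) / 2 with hd₀
  set L₁ := Lf s (A 0).1 (A 0).2 / 2 with hL₁
  set Q₁ := (Phi 0).1 / 2 with hQ₁
  have hG0 : 0 < Gk s (A 0).1 * Lf s (A 0).1 (A 0).2 := mul_pos (hGpos 0 h0W) (hALpos 0 h0W)
  have hP0 : 0 < Pk s (A 0).1 * Lf s (A 0).1 (A 0).2 := mul_pos (hPpos 0 h0W) (hALpos 0 h0W)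
  have hd₀pos : 0 < d₀ := by
    have := lt_min hG0 hP0
    positivity
  have hL₁pos : 0 < L₁ := by
    have := hALpos 0 h0W
    positivity
  have hQ₁pos : 0 < Q₁ := by
    have e : (Phi 0).1 = Qf s (kst s) 0 := by
      show Qf s (A 0).1 (A 0).2 = _
      rw [hA0]
    have := Qf_base_pos hs
    rw [hQ₁, e]
    positivity
  have hCpos : 0 < C := by
    have := uI_pos' (s := s) (hApos 0 h0W) (hALpos 0 h0W)
    linarith
  -- the neighbourhood
  have hnear : ∀ᶠ b in 𝓝 (0 : Bs n), b ∈ W₁ ∧ uI s (A b).1 (Lf s (A b).1 (A b).2) < C ∧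
      d₀ < Gk s (A b).1 * Lf s (A b).1 (A b).2 ∧ d₀ < Pk s (A b).1 * Lf s (A b).1 (A b).2 ∧
      L₁ < Lf s (A b).1 (A b).2 ∧ Q₁ < (Phi b).1 := by
    have hnhds := hW₁.mem_nhds h0W
    have f1 : uI s (A 0).1 (Lf s (A 0).1 (A 0).2) < C := by rw [hC]; linarith
    have f2 : d₀ < Gk s (A 0).1 * Lf s (A 0).1 (A 0).2 := by
      have := min_le_left (Gk s (A 0).1 * Lf s (A 0).1 (A 0).2) (Pk s (A 0).1 * Lf s (A 0).1 (A 0).2)
      have h0 := lt_min hG0 hP0
      rw [hd₀]; linarith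
    have f3 : d₀ < Pk s (A 0).1 * Lf s (A 0).1 (A 0).2 := by
      have := min_le_right (Gk s (A 0).1 * Lf s (A 0).1 (A 0).2) (Pk s (A 0).1 * Lf s (A 0).1 (A 0).2)
      have h0 := lt_min hG0 hP0
      rw [hd₀]; linarith
    have f4 : L₁ < Lf s (A 0).1 (A 0).2 := by
      rw [hL₁]; have := hALpos 0 h0W; linarith
    have f5 : Q₁ < (Phi 0).1 := by
      rw [hQ₁] at hQ₁pos ⊢; linarith
    have a1 := (cU.continuousAt hnhds).eventually_lt continuousAt_const f1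
    have a2 := continuousAt_const.eventually_lt (cGL.continuousAt hnhds) f2
    have a3 := continuousAt_const.eventually_lt (cPL.continuousAt hnhds) f3
    have a4 := continuousAt_const.eventually_lt (cL.continuousAt hnhds) f4
    have a5 := continuousAt_const.eventually_lt (cQ.continuousAt hnhds) f5
    filter_upwards [hnhds, a1, a2, a3, a4, a5] with b b0 b1 b2 b3 b4 b5
    exact ⟨b0, b1, b2, b3, b4, b5⟩
  obtain ⟨δ₀, hδ₀, hball⟩ := Metric.eventually_nhds_iff.mp hnear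
  -- the choice of η
  set t₀ := (2 * C + 1) ^ (-(2 / s)) with ht₀
  have ht₀pos : 0 < t₀ := Real.rpow_pos_of_pos (by positivity) _
  have hgt₀ : g s t₀ = 2 * C + 1 := by
    unfold g
    rw [ht₀, ← Real.rpow_mul (by positivity)]
    have : -(2 / s) * (-s / 2) = 1 := by field_simp
    rw [this, Real.rpow_one]
  set η := min (min (δ₀ / 2) 1) (min (Q₁ / 2) (t₀ / 16)) with hη
  have hηpos : 0 < η := lt_min (lt_min (by positivity) one_pos) (lt_min (by positivity) (by positivity))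
  have hηδ : η ≤ δ₀ / 2 := (min_le_left _ _).trans (min_le_left _ _)
  have hη1 : η ≤ 1 := (min_le_left _ _).trans (min_le_right _ _)
  have hηQ : η ≤ Q₁ / 2 := (min_le_right _ _).trans (min_le_left _ _)
  have hηt : η ≤ t₀ / 16 := (min_le_right _ _).trans (min_le_right _ _)
  have hg8 : 2 * C < g s (8 * η) := by
    have : g s t₀ < g s (8 * η) := g_lt_g hs (by positivity) (by linarith)
    rw [hgt₀] at this
    linarith
  -- the inner set
  set b₁ : Bs n := (η / 2, 0) with hb₁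
  set KI : Set (Bs n) := Metric.closedBall b₁ (η / 4) with hKI
  have hKInorm : ∀ b ∈ KI, |b.1 - η / 2| ≤ η / 4 ∧ ‖b.2‖ ≤ η / 4 := by
    intro b hb
    have h3 : ‖b - b₁‖ ≤ η / 4 := by
      rw [← dist_eq_norm]
      exact hb
    have h4 := norm_fst_le (b - b₁)
    have h5 := norm_snd_le (b - b₁)
    simp only [Prod.fst_sub, Prod.snd_sub, hb₁, sub_zero, Real.norm_eq_abs] at h4 h5
    exact ⟨h4.trans h3, h5.trans h3⟩
  have hKIball : ∀ b ∈ KI, dist b 0 < δ₀ := by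
    intro b hb
    obtain ⟨h3, h4⟩ := hKInorm b hb
    rw [dist_zero_right, Prod.norm_def]
    refine max_lt ?_ ?_
    · rw [Real.norm_eq_abs]
      have := abs_le.mp h3
      refine abs_lt.mpr ⟨?_, ?_⟩ <;> linarith [this.1, this.2]
    · linarith
  have hKInear := fun b (hb : b ∈ KI) => hball (hKIball b hb)
  have hKIW : KI ⊆ W₁ := fun b hb => (hKInear b hb).1
  have hKIc : IsCompact KI := isCompact_closedBall _ _
  have hKIpos : ∀ b ∈ KI, 0 < b.1 := by
    intro b hb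
    have := abs_le.mp (hKInorm b hb).1
    linarith [this.1]
  have hKIup : ∀ b ∈ KI, b.1 < Q₁ := by
    intro b hb
    have := abs_le.mp (hKInorm b hb).1
    linarith [this.2]
  -- the outer set
  set KO : Set (Bs n) := Phi '' KI with hKO
  have hKOc : IsCompact KO := hKIc.image_of_continuousOn (cΦ.continuousOn.mono hKIW)
  have hKOW : KO ⊆ W₂ := by
    rintro _ ⟨b, hb, rfl⟩
    exact (hΦ12 b (hKIW hb)).1
  -- inverse relations
  have h21 : ∀ c ∈ W₂, Psi c ∈ W₁ ∧ Phi (Psi c) = c := hψ21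
  have h12 : ∀ b ∈ W₁, Phi b ∈ W₂ ∧ Psi (Phi b) = b := hΦ12
  -- global measurable versions
  set PhiG : Bs n → Bs n := W₁.piecewise Phi (fun _ => 0) with hPhiG
  set PsiG : Bs n → Bs n := W₂.piecewise Psi (fun _ => 0) with hPsiG
  set κG : Bs n → ℝ := W₁.piecewise (fun b => (A b).1) (fun _ => 1) with hκG
  set LG : Bs n → ℝ := W₁.piecewise (fun b => Lf s (A b).1 (A b).2) (fun _ => 1) with hLG
  have mPhiG : Measurable PhiG :=
    cΦ.continuousOn.measurable_piecewise continuousOn_const hW₁.measurableSet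
  have mPsiG : Measurable PsiG :=
    cψ.continuousOn.measurable_piecewise continuousOn_const hW₂.measurableSet
  have mκG : Measurable κG := cκ.measurable_piecewise continuousOn_const hW₁.measurableSet
  have mLG : Measurable LG := cL.measurable_piecewise continuousOn_const hW₁.measurableSet
  have ePhi : ∀ b ∈ W₁, PhiG b = Phi b := fun b hb => by simp [hPhiG, hb]
  have ePsi : ∀ c ∈ W₂, PsiG c = Psi c := fun c hc => by simp [hPsiG, hc]
  have eκ : ∀ b ∈ W₁, κG b = (A b).1 := fun b hb => by simp [hκG, hb]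
  have eL : ∀ b ∈ W₁, LG b = Lf s (A b).1 (A b).2 := fun b hb => by simp [hLG, hb]
  -- the densities
  obtain ⟨fI, cfI, nfI, zfI, massI⟩ := exists_bump b₁ (show 0 < η / 4 by positivity)
  set J : Bs n → ℝ := fun c => Real.sqrt |(fderiv ℝ Psi c).det| with hJ
  have hdet : ∀ c ∈ W₂, (fderiv ℝ Psi c).det ≠ 0 := fun c hc =>
    det_ne_of_inverse hW₁ hW₂ cΦ cψ h21 hc
  have cJ : ContDiffOn ℝ ∞ J W₂ := contDiffOn_sqrt_abs_det hW₂ cψ hdet
  set fO : Bs n → ℝ := W₂.indicator (fun c => Real.sqrt 2 * fI (Psi c) * J c) with hfO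
  have nfO : ∀ c, 0 ≤ fO c := by
    intro c
    refine indicator_nonneg ?_ c
    intro y _
    exact mul_nonneg (mul_nonneg (Real.sqrt_nonneg _) (nfI _)) (Real.sqrt_nonneg _)
  have zfO : ∀ c, c ∉ KO → fO c = 0 := by
    intro c hc
    by_cases hc2 : c ∈ W₂
    · have h3 : Psi c ∉ KI := by
        intro h4
        exact hc ⟨Psi c, h4, (h21 c hc2).2⟩
      simp [hfO, hc2, zfI _ h3]
    · simp [hfO, hc2]
  have cfO : ContDiff ℝ ∞ fO := by
    refine contDiff_of_vanish hW₂ hKOc.isClosed hKOW ?_ zfO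
    have h3 : ContDiffOn ℝ ∞ (fun c => Real.sqrt 2 * fI (Psi c) * J c) W₂ :=
      (contDiffOn_const.mul (cfI.comp_contDiffOn cψ)).mul cJ
    refine h3.congr ?_
    intro c hc
    simp [hfO, hc]
  -- change of variables
  have hFI0 : ∀ b, b ∉ W₁ → ENNReal.ofReal (fI b ^ 2) = 0 := by
    intro b hb
    have : b ∉ KI := fun h => hb (hKIW h)
    simp [zfI b this]
  have mFI : Measurable (fun b : Bs n => ENNReal.ofReal (fI b ^ 2)) :=
    ENNReal.measurable_ofReal.comp ((cfI.continuous.pow 2).measurable)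
  have mFO : Measurable (fun b : Bs n => ENNReal.ofReal (fO b ^ 2)) :=
    ENNReal.measurable_ofReal.comp ((cfO.continuous.pow 2).measurable)
  have hcv := map_withDensity_of_inverse (volume : Measure (Bs n)) hW₂ mPhiG cψ
    (fun c hc => ⟨(h21 c hc).1, by rw [ePhi _ (h21 c hc).1]; exact (h21 c hc).2⟩)
    (fun b hb => ⟨by rw [ePhi b hb]; exact (h12 b hb).1, by rw [ePhi b hb]; exact (h12 b hb).2⟩)
    hW₁.measurableSet (fun b => ENNReal.ofReal (fI b ^ 2)) mFI hFI0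
  have hmap : (volume.withDensity (fun b => ENNReal.ofReal (fI b ^ 2))).map PhiG =
      (2⁻¹ : ℝ≥0∞) • volume.withDensity (fun b => ENNReal.ofReal (fO b ^ 2)) := by
    rw [hcv, ← withDensity_smul _ mFO]
    congr 1
    funext c
    by_cases hc : c ∈ W₂
    · have hJc : J c ^ 2 = |(fderiv ℝ Psi c).det| := Real.sq_sqrt (abs_nonneg _)
      have h3 : fO c ^ 2 = 2 * (fI (Psi c) ^ 2 * |(fderiv ℝ Psi c).det|) := by
        simp only [hfO, indicator_of_mem hc]
        have h2' : Real.sqrt 2 ^ 2 = 2 := Real.sq_sqrt (by norm_num)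
        calc (Real.sqrt 2 * fI (Psi c) * J c) ^ 2
            = Real.sqrt 2 ^ 2 * (fI (Psi c) ^ 2 * J c ^ 2) := by ring
          _ = _ := by rw [h2', hJc]
      simp only [indicator_of_mem hc, Pi.smul_apply, smul_eq_mul, h3]
      rw [ENNReal.ofReal_mul (by norm_num), ← mul_assoc]
      have h4 : (2 : ℝ≥0∞)⁻¹ * ENNReal.ofReal 2 = 1 := by
        rw [ENNReal.ofReal_ofNat]
        exact ENNReal.inv_mul_cancel (by norm_num) (by norm_num)
      rw [h4, one_mul, ENNReal.ofReal_mul (by positivity), mul_comm]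
    · have h3 : fO c = 0 := by simp [hfO, hc]
      simp [indicator_of_notMem hc, h3]
  -- now the list
  have hζ : ∀ b ∈ KI, ‖(Phi b).2‖ ^ 2 = (nuk (A b).1) ^ 2 * (A b).2 := by
    intro b hb
    have hbW := hKIW hb
    have hk := hApos b hbW
    have e1 : ‖b.2‖ ^ 2 = (1 - nuk (A b).1) ^ 2 * (A b).2 := by
      have := congrArg Prod.snd (hAX b hbW)
      exact this.symm
    have e2 : (Phi b).2 = (-thk (A b).1) • b.2 := rfl
    rw [e2, norm_smul, mul_pow, e1, Real.norm_eq_abs, sq_abs, neg_sq, ← mul_assoc, ← mul_pow,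
      thk_mul_one_sub hk]
  refine ⟨fI, fO, KI, KO, κG, LG, PhiG, PsiG, Real.sqrt (2 * η), d₀, 2 * g s L₁,
    cfI, cfO, nfI, nfO, hKIc, hKOc, zfI, zfO, ?_, hKIpos, ?_, mPhiG, mPsiG, mκG, mLG, ?_, ?_, ?_, ?_,
    hmap, massI, ?_, ?_, ?_, ?_, ?_, hd₀pos, ?_, ?_⟩
  · -- disjoint
    rw [Set.disjoint_left]
    rintro _ hb ⟨b', hb', rfl⟩
    have h3 := hKIup _ hb
    have h4 := (hKInear b' hb').2.2.2.2.2
    linarith
  · -- positivity on KO
    rintro _ ⟨b, hb, rfl⟩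
    have h4 := (hKInear b hb).2.2.2.2.2
    linarith
  · intro b hb
    rw [ePhi b (hKIW hb)]
    exact ⟨b, hb, rfl⟩
  · rintro _ ⟨b, hb, rfl⟩
    rw [ePsi _ (hKOW ⟨b, hb, rfl⟩), (h12 b (hKIW hb)).2]
    exact hb
  · intro b hb
    have hbW := hKIW hb
    rw [ePhi b hbW, ePsi _ (h12 b hbW).1]
    exact (h12 b hbW).2
  · rintro _ ⟨b, hb, rfl⟩
    have hbW := hKIW hb
    rw [ePsi _ (h12 b hbW).1, (h12 b hbW).2, ePhi b hbW]
  · intro b hb
    have hbW := hKIW hb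
    rw [eκ b hbW, eL b hbW]
    exact hrelW b hbW
  · intro b hb
    have hbW := hKIW hb
    rw [eκ b hbW, eL b hbW, ePhi b hbW]
    refine Prod.ext ?_ rfl
    exact hQW b hbW
  · exact Real.sqrt_pos.mpr (by positivity)
  · intro b hb
    rw [Real.sq_sqrt (by positivity)]
    obtain ⟨h3, h4⟩ := hKInorm b hb
    have h5 := abs_le.mp h3
    have h6 : ‖b.2‖ ^ 2 ≤ η := by
      have h7 : ‖b.2‖ ≤ 1 := by linarith
      nlinarith [norm_nonneg b.2]
    linarith [h5.2]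
  · intro b hb
    have hbW := hKIW hb
    rw [eκ b hbW, eL b hbW, Real.sq_sqrt (by positivity)]
    have h3 := (hKInear b hb).2.1
    have e : 4 * (2 * η) = 8 * η := by ring
    rw [e]
    linarith
  · intro b hb
    have hbW := hKIW hb
    rw [eκ b hbW, eL b hbW]
    have h3 := hKInear b hb
    exact ⟨h3.2.2.1.le, h3.2.2.2.1.le⟩
  · rintro _ ⟨b, hb, rfl⟩
    have hbW := hKIW hb
    have hk := hApos b hbW
    have h3 := hKInear b hb
    have e : 1 - (Phi b).1 - 2 * ‖(Phi b).2‖ ^ 2 = Lf s (A b).1 (A b).2 := by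
      rw [hζ b hb, Lf_eq hs hk]
      rfl
    rw [e]
    refine ⟨hALpos b hbW, ?_⟩
    have := g_le_g hs hL₁pos h3.2.2.2.2.1.le
    linarith

end Crest.Agent.MG
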