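/-
S0175, piece CERT: the contact certificate (tangent lines of `t^(-s/2)` + a quadratic identity).
See MGPLAN.md.
-/
import Crest.Agent.MGCore
import Crest.Agent.MGG

set_option autoImplicit false

open MeasureTheory Set
open scoped ENNReal

namespace Crest.Agent.MG

variable {n : ℕ}

section scalars

lemma one_sub_nuk {k : ℝ} (hk : 0 < k) : 1 - nuk k = (2 + k) / (2 * (1 + k)) := by
  unfold nuk
  field_simp
  ring

lemma one_sub_nuk_pos {k : ℝ} (hk : 0 < k) : 0 < 1 - nuk k := by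
  rw [one_sub_nuk hk]
  positivity

/-- `ν²·(τ/(1-ν)²) = θ²τ` -/
lemma nu_sq_div {k : ℝ} (hk : 0 < k) (τ : ℝ) :
    nuk k ^ 2 * (τ / (1 - nuk k) ^ 2) = thk k ^ 2 * τ := by
  rw [one_sub_nuk hk]
  unfold nuk thk
  field_simp

/-- `τ/(1-ν)² = (1+θ)²τ` -/
lemma div_one_sub_nu {k : ℝ} (hk : 0 < k) (τ : ℝ) :
    τ / (1 - nuk k) ^ 2 = (1 + thk k) ^ 2 * τ := by
  rw [one_sub_nuk hk]
  unfold thk
  field_simp
  ring

lemma Gk_pos {s k : ℝ} (hk : 0 < k) : 0 < Gk s k :=
  Real.rpow_pos_of_pos (by linarith) _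

lemma Pk_pos {s k : ℝ} (hk : 0 < k) : 0 < Pk s k :=
  Real.rpow_pos_of_pos (by positivity) _

/-- The relations between the tangent slopes. -/
lemma slopes {s k L : ℝ} (hs : 0 < s) (hk : 0 < k) (hL : 0 < L) :
    gSlope s (Pk s k * L) = 2 * k * gSlope s (Gk s k * L) ∧
    gSlope s L = (1 + k) * gSlope s (Gk s k * L) := by
  set e := -s / 2 - 1 with he
  have hσ : sig s * e = -1 := by
    unfold sig
    rw [he]
    field_simp
    ring
  have h1k : 0 < 1 + k := by linarith
  have hG : (Gk s k) ^ e = (1 + k)⁻¹ := by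
    unfold Gk
    rw [← Real.rpow_mul h1k.le, hσ, Real.rpow_neg_one]
  have hP : (Pk s k) ^ e = 2 * k / (1 + k) := by
    unfold Pk
    have h2 : 0 < (1 + k) / (2 * k) := by positivity
    rw [← Real.rpow_mul h2.le, hσ, Real.rpow_neg_one, inv_div]
  have hGL : (Gk s k * L) ^ e = (1 + k)⁻¹ * L ^ e := by
    rw [Real.mul_rpow (Gk_pos hk).le hL.le, hG]
  have hPL : (Pk s k * L) ^ e = 2 * k / (1 + k) * L ^ e := by
    rw [Real.mul_rpow (Pk_pos hk).le hL.le, hP]
  unfold gSlope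
  rw [← he, hGL, hPL]
  constructor
  · field_simp
  · field_simp

/-- The exact scalar form of the quadratic identity. -/
lemma quad_identity {k R τ Lo l2 Y mm ww pm bb dd qb : ℝ} (hk : 0 < k)
    (r3 : Y = (1 + k) ^ 2 * R + l2 / 4 + τ / (1 - nuk k) ^ 2)
    (r2 : Lo = 1 - (k ^ 2 * R + l2 / 4) - 2 * nuk k ^ 2 * (τ / (1 - nuk k) ^ 2)) :
    -((4 * ww + 4 * dd) - l2)
      - 2 * k * ((2 * (R - 2 * pm + mm) + 2 * ww + 2 * (τ - 2 * qb + bb) + 2 * dd) - 2 * Y)
      - 2 * (1 + k) * ((2 - (2 * mm + 2 * ww) - 2 * (2 * bb + 2 * dd)) - 2 * Lo)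
    = 4 * ((mm + 2 * k * pm + k ^ 2 * R)
        + (2 + k) * (bb + 2 * thk k * qb + thk k ^ 2 * τ) + (1 + k) * dd) := by
  rw [div_one_sub_nu hk] at r3
  rw [mul_assoc, nu_sq_div hk, ] at r2
  subst r3 r2
  unfold thk
  field_simp
  ring

end scalars

section generic

variable {E : Type*} [NormedAddCommGroup E] [InnerProductSpace ℝ E]

/-- the midpoint decomposition -/
lemma mid_decomp (u a b : E) (κ : ℝ) :
    ‖a - b‖ ^ 2 = 4 * ‖(1 / 2 : ℝ) • (a - b)‖ ^ 2 ∧
    ‖u - a‖ ^ 2 + ‖u - b‖ ^ 2 = 2 * (‖u‖ ^ 2 - 2 * inner ℝ u ((1 / 2 : ℝ) • (a + b)) +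
      ‖(1 / 2 : ℝ) • (a + b)‖ ^ 2) + 2 * ‖(1 / 2 : ℝ) • (a - b)‖ ^ 2 ∧
    ‖a‖ ^ 2 + ‖b‖ ^ 2 = 2 * ‖(1 / 2 : ℝ) • (a + b)‖ ^ 2 + 2 * ‖(1 / 2 : ℝ) • (a - b)‖ ^ 2 ∧
    ‖(1 / 2 : ℝ) • (a + b) + κ • u‖ ^ 2 = ‖(1 / 2 : ℝ) • (a + b)‖ ^ 2 +
      2 * κ * inner ℝ u ((1 / 2 : ℝ) • (a + b)) + κ ^ 2 * ‖u‖ ^ 2 := by
  refine ⟨?_, ?_, ?_, ?_⟩ <;>
  · simp only [← real_inner_self_eq_norm_sq, inner_add_left, inner_add_right, inner_sub_left,
      inner_sub_right, real_inner_smul_left, real_inner_smul_right]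
    rw [real_inner_comm a b]
    try rw [real_inner_comm u a]
    try rw [real_inner_comm u b]
    ring

end generic

section hyper

lemma norm_mul_sq' (a p : ℂ) : ‖a * p‖ ^ 2 = (a.re ^ 2 + a.im ^ 2) * ‖p‖ ^ 2 := by
  rw [norm_mul, mul_pow, Complex.sq_norm a, Complex.normSq_apply]
  ring

lemma norm_smul_sq' {E : Type*} [NormedAddCommGroup E] [NormedSpace ℝ E] (c : ℝ) (q : E) :
    ‖c • q‖ ^ 2 = c ^ 2 * ‖q‖ ^ 2 := by
  rw [norm_smul, mul_pow, Real.norm_eq_abs, sq_abs]

/-- `ω`, the imaginary part of `ζ`. -/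
noncomputable def omg (s k L R : ℝ) : ℝ := Real.sqrt (Gk s k * L) / (2 * Real.sqrt R)

lemma omg_sq {s k L R : ℝ} (hk : 0 < k) (hL : 0 < L) (hR : 0 < R) :
    omg s k L R ^ 2 * R = Gk s k * L / 4 := by
  have hG : 0 < Gk s k * L := mul_pos (Gk_pos hk) hL
  unfold omg
  rw [div_pow, mul_pow, Real.sq_sqrt hG.le, Real.sq_sqrt hR.le]
  field_simp
  norm_num

lemma omg_nonneg {s k L R : ℝ} : 0 ≤ omg s k L R := by
  unfold omg
  positivity

lemma zetaP_re {s k L R : ℝ} : (zetaP s k L R).re = -k := by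
  unfold zetaP
  generalize Real.sqrt (Gk s k * L) / (2 * Real.sqrt R) = w
  simp

lemma zetaP_im {s k L R : ℝ} : (zetaP s k L R).im = omg s k L R := by
  unfold zetaP omg
  generalize Real.sqrt (Gk s k * L) / (2 * Real.sqrt R) = w
  simp

/-- the exact values on a hyperedge -/
theorem hyper_values {s k L : ℝ} (hs : 0 < s) {x : Xs n} (hx : x.1 ≠ 0)
    (h : HRel s k L (‖x.1‖ ^ 2) (‖x.2‖ ^ 2)) :
    D2 x (yPlus s k L x) = Pk s k * L ∧ D2 x (yMinus s k L x) = Pk s k * L ∧
    D2 (yPlus s k L x) (yMinus s k L x) = Gk s k * L ∧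
    Lout (yPlus s k L x) = L ∧ Lout (yMinus s k L x) = L := by
  obtain ⟨hk, hL, r3, r2⟩ := h
  set R := ‖x.1‖ ^ 2 with hRdef
  set τ := ‖x.2‖ ^ 2 with hτdef
  have hR : 0 < R := by
    rw [hRdef]
    have := norm_pos_iff.2 hx
    positivity
  set ω := omg s k L R with hω
  have hω2 : ω ^ 2 * R = Gk s k * L / 4 := omg_sq hk hL hR
  have hre : (zetaP s k L R).re = -k := zetaP_re
  have him : (zetaP s k L R).im = ω := zetaP_im
  rw [div_one_sub_nu hk] at r3
  rw [mul_assoc, nu_sq_div hk] at r2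
  -- the `q` parts
  have hq1 : ‖x.2 - (-thk k) • x.2‖ ^ 2 = (1 + thk k) ^ 2 * τ := by
    have : x.2 - (-thk k) • x.2 = (1 + thk k) • x.2 := by
      rw [add_smul, one_smul, neg_smul, sub_neg_eq_add]
    rw [this, norm_smul_sq']
  have hq2 : ‖(-thk k) • x.2‖ ^ 2 = thk k ^ 2 * τ := by
    rw [norm_smul_sq']
    ring
  -- the `p` parts
  have hp1 : ‖x.1 - zetaP s k L R * x.1‖ ^ 2 = ((1 + k) ^ 2 + ω ^ 2) * R := by
    have : x.1 - zetaP s k L R * x.1 = (1 - zetaP s k L R) * x.1 := by ring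
    rw [this, norm_mul_sq']
    simp only [Complex.sub_re, Complex.sub_im, Complex.one_re, Complex.one_im, hre, him]
    ring
  have hp2 : ‖x.1 - (starRingEnd ℂ) (zetaP s k L R) * x.1‖ ^ 2 = ((1 + k) ^ 2 + ω ^ 2) * R := by
    have : x.1 - (starRingEnd ℂ) (zetaP s k L R) * x.1
        = (1 - (starRingEnd ℂ) (zetaP s k L R)) * x.1 := by ring
    rw [this, norm_mul_sq']
    simp only [Complex.sub_re, Complex.sub_im, Complex.one_re, Complex.one_im, Complex.conj_re,
      Complex.conj_im, hre, him]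
    ring
  have hp3 : ‖zetaP s k L R * x.1‖ ^ 2 = (k ^ 2 + ω ^ 2) * R := by
    rw [norm_mul_sq', hre, him]
    ring
  have hp4 : ‖(starRingEnd ℂ) (zetaP s k L R) * x.1‖ ^ 2 = (k ^ 2 + ω ^ 2) * R := by
    rw [norm_mul_sq', Complex.conj_re, Complex.conj_im, hre, him]
    ring
  have hp5 : ‖zetaP s k L R * x.1 - (starRingEnd ℂ) (zetaP s k L R) * x.1‖ ^ 2 = 4 * (ω ^ 2 * R) := by
    have : zetaP s k L R * x.1 - (starRingEnd ℂ) (zetaP s k L R) * x.1
        = (zetaP s k L R - (starRingEnd ℂ) (zetaP s k L R)) * x.1 := by ring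
    rw [this, norm_mul_sq']
    simp only [Complex.sub_re, Complex.sub_im, Complex.conj_re, Complex.conj_im, hre, him]
    ring
  refine ⟨?_, ?_, ?_, ?_, ?_⟩
  · unfold D2 yPlus
    simp only
    rw [hp1, hq1, r3]
    linear_combination hω2
  · unfold D2 yMinus
    simp only
    rw [hp2, hq1, r3]
    linear_combination hω2
  · unfold D2 yPlus yMinus
    simp only
    rw [hp5, hω2, sub_self, norm_zero]
    ring
  · unfold Lout yPlus
    simp only
    rw [hp3, hq2]
    conv_rhs => rw [r2]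
    linear_combination (-1 : ℝ) * hω2
  · unfold Lout yMinus
    simp only
    rw [hp4, hq2]
    conv_rhs => rw [r2]
    linear_combination (-1 : ℝ) * hω2

end hyper

section certificate

/-- the certificate, with its equality case. -/
theorem cert {s k L : ℝ} (hs : 0 < s) {x : Xs n} (hx : x.1 ≠ 0)
    (h : HRel s k L (‖x.1‖ ^ 2) (‖x.2‖ ^ 2)) (y z : Xs n)
    (hLy : 0 < Lout y) (hLz : 0 < Lout z) (hxy : 0 < D2 x y) (hxz : 0 < D2 x z) (hyz : 0 < D2 y z) :
    uI s k L + uO s y + uO s z ≤ g s (D2 x y) + g s (D2 x z) + g s (D2 y z) ∧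
    (uI s k L + uO s y + uO s z = g s (D2 x y) + g s (D2 x z) + g s (D2 y z) →
      (y = yPlus s k L x ∧ z = yMinus s k L x) ∨ (y = yMinus s k L x ∧ z = yPlus s k L x)) := by
  obtain ⟨hk, hL, r3, r2⟩ := h
  set R := ‖x.1‖ ^ 2 with hRdef
  set τ := ‖x.2‖ ^ 2 with hτdef
  have hR : 0 < R := by
    rw [hRdef]
    have := norm_pos_iff.2 hx
    positivity
  have hl2pos : 0 < Gk s k * L := mul_pos (Gk_pos hk) hL
  have hYpos : 0 < Pk s k * L := mul_pos (Pk_pos hk) hL
  obtain ⟨hB, hS⟩ := slopes hs hk hL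
  have hA : 0 < gSlope s (Gk s k * L) := gSlope_pos hs hl2pos
  obtain ⟨t1, e1⟩ := g_tangent hs hl2pos hyz
  obtain ⟨t2, e2⟩ := g_tangent hs hYpos hxy
  obtain ⟨t3, e3⟩ := g_tangent hs hYpos hxz
  obtain ⟨t4, e4⟩ := g_tangent hs hL hLy
  obtain ⟨t5, e5⟩ := g_tangent hs hL hLz
  rw [hB] at t2 e2 t3 e3
  rw [hS] at t4 e4 t5 e5
  set A := gSlope s (Gk s k * L) with hAdef
  obtain ⟨d1, d2, d3, d4⟩ := mid_decomp x.1 y.1 z.1 k
  obtain ⟨d1', d2', d3', d4'⟩ := mid_decomp x.2 y.2 z.2 (thk k)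
  set mm := ‖(1 / 2 : ℝ) • (y.1 + z.1)‖ ^ 2 with hmm
  set ww := ‖(1 / 2 : ℝ) • (y.1 - z.1)‖ ^ 2 with hww
  set pm := inner ℝ x.1 ((1 / 2 : ℝ) • (y.1 + z.1)) with hpm
  set bb := ‖(1 / 2 : ℝ) • (y.2 + z.2)‖ ^ 2 with hbb
  set dd := ‖(1 / 2 : ℝ) • (y.2 - z.2)‖ ^ 2 with hdd
  set qb := inner ℝ x.2 ((1 / 2 : ℝ) • (y.2 + z.2)) with hqb
  set sq1 := ‖(1 / 2 : ℝ) • (y.1 + z.1) + k • x.1‖ ^ 2 with hsq1
  set sq2 := ‖(1 / 2 : ℝ) • (y.2 + z.2) + thk k • x.2‖ ^ 2 with hsq2
  have hDyz : D2 y z = 4 * ww + 4 * dd := by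
    unfold D2
    rw [d1, d1']
  have hDsum : D2 x y + D2 x z = 2 * (R - 2 * pm + mm) + 2 * ww + 2 * (τ - 2 * qb + bb) + 2 * dd := by
    unfold D2
    linarith [d2, d2']
  have hLsum : Lout y + Lout z = 2 - (2 * mm + 2 * ww) - 2 * (2 * bb + 2 * dd) := by
    unfold Lout
    linarith [d3, d3']
  have hid := quad_identity (k := k) (R := R) (τ := τ) (Lo := L) (l2 := Gk s k * L)
    (Y := Pk s k * L) (mm := mm) (ww := ww) (pm := pm) (bb := bb) (dd := dd) (qb := qb) hk r3 r2
  rw [← hDyz, ← hDsum, ← hLsum, ← d4, ← d4'] at hid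
  have hsq1nn : 0 ≤ sq1 := by positivity
  have hsq2nn : 0 ≤ sq2 := by positivity
  have hddnn : 0 ≤ dd := by positivity
  have hk1 : 0 < 1 + k := by linarith
  have hk2 : 0 < 2 + k := by linarith
  have hQd : A * (D2 y z - Gk s k * L) + (2 * k * A) * (D2 x y - Pk s k * L)
      + (2 * k * A) * (D2 x z - Pk s k * L) + ((1 + k) * A) * (Lout y - L) * 2
      + ((1 + k) * A) * (Lout z - L) * 2 = -(A * (4 * (sq1 + (2 + k) * sq2 + (1 + k) * dd))) := by
    linear_combination (-A) * hid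
  have hQnn : 0 ≤ A * (4 * (sq1 + (2 + k) * sq2 + (1 + k) * dd)) := by positivity
  have huI : uI s k L + uO s y + uO s z = g s (Gk s k * L) + 2 * g s (Pk s k * L) + 4 * g s L
      - 2 * g s (Lout y) - 2 * g s (Lout z) := by
    unfold uI uO
    ring
  rw [huI]
  constructor
  · linarith
  · intro heq
    -- all the slacks vanish
    have f1 : g s (Gk s k * L) - A * (D2 y z - Gk s k * L) = g s (D2 y z) :=
      le_antisymm t1 (by linarith)
    have f4 : g s L - (1 + k) * A * (Lout y - L) = g s (Lout y) :=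
      le_antisymm t4 (by linarith)
    have f5 : g s L - (1 + k) * A * (Lout z - L) = g s (Lout z) :=
      le_antisymm t5 (by linarith)
    have v1 : D2 y z = Gk s k * L := e1 f1
    have v4 : Lout y = L := e4 f4
    have v5 : Lout z = L := e5 f5
    have hQ0 : A * (4 * (sq1 + (2 + k) * sq2 + (1 + k) * dd)) = 0 := le_antisymm (by linarith) hQnn
    have hsum0 : sq1 + (2 + k) * sq2 + (1 + k) * dd = 0 := by
      have := mul_eq_zero.1 hQ0
      rcases this with h0 | h0
      · exact absurd h0 hA.ne'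
      · linarith
    have hp2 : 0 ≤ (2 + k) * sq2 := by positivity
    have hp3 : 0 ≤ (1 + k) * dd := by positivity
    have s1 : sq1 = 0 := by linarith
    have s2 : sq2 = 0 := by
      have : (2 + k) * sq2 = 0 := by linarith
      exact (mul_eq_zero.1 this).resolve_left hk2.ne'
    have s3 : dd = 0 := by
      have : (1 + k) * dd = 0 := by linarith
      exact (mul_eq_zero.1 this).resolve_left hk1.ne'
    have n1 : (1 / 2 : ℝ) • (y.1 + z.1) + k • x.1 = 0 := by
      have : ‖(1 / 2 : ℝ) • (y.1 + z.1) + k • x.1‖ = 0 := by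
        rwa [hsq1, sq_eq_zero_iff] at s1
      exact norm_eq_zero.1 this
    have n2 : (1 / 2 : ℝ) • (y.2 + z.2) + thk k • x.2 = 0 := by
      have : ‖(1 / 2 : ℝ) • (y.2 + z.2) + thk k • x.2‖ = 0 := by
        rwa [hsq2, sq_eq_zero_iff] at s2
      exact norm_eq_zero.1 this
    have n3 : (1 / 2 : ℝ) • (y.2 - z.2) = 0 := by
      have : ‖(1 / 2 : ℝ) • (y.2 - z.2)‖ = 0 := by
        rwa [hdd, sq_eq_zero_iff] at s3
      exact norm_eq_zero.1 this
    have hyz2 : y.2 = z.2 := by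
      have := (smul_eq_zero.1 n3).resolve_left (by norm_num)
      exact sub_eq_zero.1 this
    have hy2 : y.2 = (-thk k) • x.2 := by
      rw [← hyz2] at n2
      have h2 : (1 / 2 : ℝ) • (y.2 + y.2) = y.2 := by
        rw [← two_smul ℝ, smul_smul]
        norm_num
      rw [h2] at n2
      rw [neg_smul]
      exact eq_neg_of_add_eq_zero_left n2
    have hz2 : z.2 = (-thk k) • x.2 := hyz2 ▸ hy2
    -- the complex coordinate
    set a : ℂ := y.1 / x.1 with ha
    have hy1 : y.1 = a * x.1 := by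
      rw [ha]
      field_simp
    have hz1 : z.1 = (((-2 * k : ℝ) : ℂ) - a) * x.1 := by
      have h3 : (1 / 2 : ℝ) • (y.1 + z.1) + k • x.1 = ((1 / 2 : ℂ)) * (y.1 + z.1) + (k : ℂ) * x.1 := by
        simp [Complex.real_smul]
        ring
      rw [h3] at n1
      have h4 : z.1 = ((-2 * k : ℝ) : ℂ) * x.1 - y.1 := by
        push_cast
        linear_combination (2 : ℂ) * n1
      rw [h4, hy1]
      ring
    -- `|y| = |z|` gives the real part
    have hnorm : ‖y.1‖ ^ 2 = ‖z.1‖ ^ 2 := by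
      have h5 : Lout y = Lout z := v4.trans v5.symm
      unfold Lout at h5
      rw [hyz2] at h5
      linarith
    have hre : a.re = -k := by
      rw [hy1, hz1, norm_mul_sq', norm_mul_sq'] at hnorm
      simp only [Complex.sub_re, Complex.sub_im, Complex.ofReal_re, Complex.ofReal_im] at hnorm
      have h6 := mul_right_cancel₀ hR.ne' hnorm
      have h7 : 4 * k * (k + a.re) = 0 := by linear_combination (-1 : ℝ) * h6
      have h8 : k + a.re = 0 := by
        have := (mul_eq_zero.1 h7).resolve_left (by positivity)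
        exact this
      linarith
    -- `D2 y z` gives the imaginary part
    have him2 : a.im ^ 2 = omg s k L R ^ 2 := by
      have h9 : D2 y z = ‖y.1 - z.1‖ ^ 2 := by
        unfold D2
        rw [hyz2, sub_self, norm_zero]
        ring
      have h10 : y.1 - z.1 = (((2 * k : ℝ) : ℂ) + 2 * a) * x.1 := by
        rw [hy1, hz1]
        push_cast
        ring
      rw [h9, h10, norm_mul_sq'] at v1
      simp only [Complex.add_re, Complex.add_im, Complex.ofReal_re, Complex.ofReal_im,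
        Complex.mul_re, Complex.mul_im, Complex.re_ofNat, Complex.im_ofNat, hre] at v1
      have h11 := omg_sq (s := s) (k := k) (L := L) (R := R) hk hL hR
      have h12 : (a.im ^ 2 - omg s k L R ^ 2) * R = 0 := by
        linear_combination (1 / 4 : ℝ) * v1 - h11
      have := (mul_eq_zero.1 h12).resolve_right hR.ne'
      linarith
    have hzre : (zetaP s k L R).re = -k := zetaP_re
    have hzim : (zetaP s k L R).im = omg s k L R := zetaP_im
    have hcases : a.im = omg s k L R ∨ a.im = -omg s k L R := sq_eq_sq_iff_eq_or_eq_neg.1 him2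
    rcases hcases with hc | hc
    · left
      have haz : a = zetaP s k L R := by
        apply Complex.ext
        · rw [hre, hzre]
        · rw [hc, hzim]
      constructor
      · apply Prod.ext
        · change y.1 = zetaP s k L R * x.1
          rw [← haz]
          exact hy1
        · exact hy2
      · apply Prod.ext
        · change z.1 = (starRingEnd ℂ) (zetaP s k L R) * x.1
          rw [hz1]
          congr 1
          apply Complex.ext
          · simp [hre, hzre]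
            ring
          · simp [hc, hzim]
        · exact hz2
    · right
      have haz : a = (starRingEnd ℂ) (zetaP s k L R) := by
        apply Complex.ext
        · rw [hre, Complex.conj_re, hzre]
        · rw [hc, Complex.conj_im, hzim]
      constructor
      · apply Prod.ext
        · change y.1 = (starRingEnd ℂ) (zetaP s k L R) * x.1
          rw [← haz]
          exact hy1
        · exact hy2
      · apply Prod.ext
        · change z.1 = zetaP s k L R * x.1
          rw [hz1]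
          congr 1
          apply Complex.ext
          · simp [hre, hzre]
            ring
          · simp [hc, hzim]
        · exact hz2

end certificate

end Crest.Agent.MG
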