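/-
S0175, piece CIRCLE: the angular compression maps.  See MGPLAN.md.
-/
import Crest.Agent.MGCore

set_option autoImplicit false

open MeasureTheory Set
open scoped ENNReal

namespace Crest.Agent.MG

namespace CircleAux

/-- the representative of an angle in `(0, 2π]` -/
noncomputable def rep (θ : Tor) : ℝ := ((AddCircle.equivIoc (2 * Real.pi) 0 θ : Ioc 0 (0 + 2 * Real.pi)) : ℝ)

lemma rep_mem (θ : Tor) : rep θ ∈ Ioc 0 (0 + 2 * Real.pi) :=
  (AddCircle.equivIoc (2 * Real.pi) 0 θ).2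

lemma coe_rep (θ : Tor) : ((rep θ : ℝ) : Tor) = θ := AddCircle.coe_equivIoc

lemma rep_coe {t : ℝ} (ht : t ∈ Ioc 0 (0 + 2 * Real.pi)) : rep (t : Tor) = t :=
  AddCircle.equivIoc_coe_of_mem ht

lemma measurable_rep : Measurable rep :=
  measurable_subtype_coe.comp (AddCircle.measurableEquivIoc (2 * Real.pi) 0).measurable

lemma eT_coe (t : ℝ) : eT (t : Tor) = Complex.exp (t * Complex.I) := by
  unfold eT
  rw [AddCircle.toCircle_apply_mk]
  have h2 : 2 * Real.pi / (2 * Real.pi) * t = t := by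
    rw [div_self (by positivity), one_mul]
  rw [h2, Circle.coe_exp]

lemma norm_eT_sub (a b : ℝ) : ‖eT (a : Tor) - eT (b : Tor)‖ ≤ |a - b| := by
  rw [eT_coe, eT_coe]
  have e : Complex.exp (a * Complex.I) - Complex.exp (b * Complex.I) =
      (Complex.exp (Complex.I * ((a - b : ℝ) : ℂ)) - 1) * Complex.exp (b * Complex.I) := by
    rw [sub_mul, ← Complex.exp_add, one_mul]
    congr 2
    push_cast
    ring
  rw [e, norm_mul, Complex.norm_exp_ofReal_mul_I, mul_one]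
  exact Real.norm_exp_I_mul_ofReal_sub_one_le

variable (L : ℝ)

/-- the index of the block `(jL, (j+1)L]` of `t`, as a real number -/
noncomputable def idx (t : ℝ) : ℝ := ((⌈t / L⌉ - 1 : ℤ) : ℝ)

lemma measurable_idx : Measurable (idx L) := by
  unfold idx
  have h : Measurable (fun t : ℝ => ⌈t / L⌉ - 1) :=
    ((Int.measurable_ceil).comp (measurable_id.div_const L)).sub_const 1
  exact (measurable_from_top (f := fun z : ℤ => (z : ℝ))).comp h

variable {L}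

lemma idx_spec (hL : 0 < L) (t : ℝ) : idx L t * L < t ∧ t ≤ (idx L t + 1) * L := by
  unfold idx
  push_cast
  constructor
  · have := Int.ceil_lt_add_one (t / L)
    have h : ((⌈t / L⌉ : ℝ) - 1) < t / L := by linarith
    calc ((⌈t / L⌉ : ℝ) - 1) * L < t / L * L := mul_lt_mul_of_pos_right h hL
      _ = t := by field_simp
  · have := Int.le_ceil (t / L)
    calc t = t / L * L := by field_simp
      _ ≤ (⌈t / L⌉ : ℝ) * L := mul_le_mul_of_nonneg_right this hL.le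
      _ = _ := by ring

lemma idx_eq (hL : 0 < L) {t : ℝ} (j : ℤ) (h1 : (j : ℝ) * L < t) (h2 : t ≤ ((j : ℝ) + 1) * L) :
    idx L t = j := by
  unfold idx
  have h : ⌈t / L⌉ = j + 1 := by
    rw [Int.ceil_eq_iff]
    push_cast
    constructor
    · rw [add_sub_cancel_right, lt_div_iff₀ hL]; exact h1
    · rw [div_le_iff₀ hL]; exact h2
  rw [h]; push_cast; ring

lemma idx_isInt (t : ℝ) : ∃ j : ℤ, idx L t = j := ⟨_, rfl⟩

lemma idx_eq' (hL : 0 < L) {t s : ℝ} (h1 : idx L s * L < t) (h2 : t ≤ (idx L s + 1) * L) :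
    idx L t = idx L s := by
  obtain ⟨j, hj⟩ := idx_isInt (L := L) s
  rw [hj] at h1 h2 ⊢
  exact idx_eq hL j h1 h2

variable (L)

noncomputable def c₁ (t : ℝ) : ℝ := t / 2 + idx L t * L / 2
noncomputable def c₂ (t : ℝ) : ℝ := t / 2 + idx L t * L / 2 + L / 2
noncomputable def d₁ (t : ℝ) : ℝ := 2 * t - idx L t * L
noncomputable def d₂ (t : ℝ) : ℝ := 2 * t - idx L t * L - L
def E : Set ℝ := {s | s - idx L s * L ≤ L / 2}

variable {L}

lemma measurable_c₁ : Measurable (c₁ L) := by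
  unfold c₁
  exact (measurable_id.div_const 2).add (((measurable_idx L).mul_const L).div_const 2)

lemma measurable_c₂ : Measurable (c₂ L) := by
  unfold c₂
  exact ((measurable_id.div_const 2).add (((measurable_idx L).mul_const L).div_const 2)).add_const _

lemma measurable_d₁ : Measurable (d₁ L) := by
  unfold d₁
  exact (measurable_id.const_mul 2).sub ((measurable_idx L).mul_const L)

lemma measurable_d₂ : Measurable (d₂ L) := by
  unfold d₂
  exact ((measurable_id.const_mul 2).sub ((measurable_idx L).mul_const L)).sub_const _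

lemma measurableSet_E : MeasurableSet (E L) :=
  measurableSet_le (measurable_id.sub ((measurable_idx L).mul_const L)) measurable_const

lemma idx_c₁ (hL : 0 < L) (t : ℝ) : idx L (c₁ L t) = idx L t := by
  obtain ⟨h1, h2⟩ := idx_spec hL t
  apply idx_eq' hL <;> unfold c₁ <;> nlinarith

lemma idx_c₂ (hL : 0 < L) (t : ℝ) : idx L (c₂ L t) = idx L t := by
  obtain ⟨h1, h2⟩ := idx_spec hL t
  apply idx_eq' hL <;> unfold c₂ <;> nlinarith

lemma d₁_c₁ (hL : 0 < L) (t : ℝ) : d₁ L (c₁ L t) = t := by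
  unfold d₁; rw [idx_c₁ hL]; unfold c₁; ring

lemma d₂_c₂ (hL : 0 < L) (t : ℝ) : d₂ L (c₂ L t) = t := by
  unfold d₂; rw [idx_c₂ hL]; unfold c₂; ring

lemma c₁_mem_E (hL : 0 < L) (t : ℝ) : c₁ L t ∈ E L := by
  show c₁ L t - idx L (c₁ L t) * L ≤ L / 2
  rw [idx_c₁ hL]
  obtain ⟨h1, h2⟩ := idx_spec hL t
  unfold c₁; nlinarith

lemma c₂_notMem_E (hL : 0 < L) (t : ℝ) : c₂ L t ∉ E L := by
  show ¬ (c₂ L t - idx L (c₂ L t) * L ≤ L / 2)
  rw [idx_c₂ hL]
  obtain ⟨h1, h2⟩ := idx_spec hL t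
  unfold c₂; push Not; nlinarith

lemma idx_d₁ (hL : 0 < L) {s : ℝ} (hs : s ∈ E L) : idx L (d₁ L s) = idx L s := by
  have hs' : s - idx L s * L ≤ L / 2 := hs
  obtain ⟨h1, h2⟩ := idx_spec hL s
  apply idx_eq' hL <;> unfold d₁ <;> nlinarith

lemma idx_d₂ (hL : 0 < L) {s : ℝ} (hs : s ∉ E L) : idx L (d₂ L s) = idx L s := by
  have hs' : ¬ (s - idx L s * L ≤ L / 2) := hs
  push Not at hs'
  obtain ⟨h1, h2⟩ := idx_spec hL s
  apply idx_eq' hL <;> unfold d₂ <;> nlinarith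

lemma c₁_d₁ (hL : 0 < L) {s : ℝ} (hs : s ∈ E L) : c₁ L (d₁ L s) = s := by
  unfold c₁; rw [idx_d₁ hL hs]; unfold d₁; ring

lemma c₂_d₂ (hL : 0 < L) {s : ℝ} (hs : s ∉ E L) : c₂ L (d₂ L s) = s := by
  unfold c₂; rw [idx_d₂ hL hs]; unfold d₂; ring

/-- the interval `(0, NL]` is preserved -/
lemma idx_bounds (hL : 0 < L) {N : ℕ} {t : ℝ} (ht : t ∈ Ioc (0 : ℝ) (N * L)) :
    0 ≤ idx L t ∧ idx L t + 1 ≤ N := by
  obtain ⟨h1, h2⟩ := idx_spec hL t
  obtain ⟨j, hj⟩ := idx_isInt (L := L) t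
  rw [hj] at h1 h2 ⊢
  constructor
  · have : (0 : ℝ) < (j + 1 : ℝ) := by
      by_contra hc
      push Not at hc
      nlinarith [ht.1]
    have h3 : (0 : ℤ) < j + 1 := by exact_mod_cast this
    have h4 : (0 : ℤ) ≤ j := by omega
    exact_mod_cast h4
  · have : (j : ℝ) < N := by
      by_contra hc
      push Not at hc
      nlinarith [ht.2]
    have h3 : j < (N : ℤ) := by exact_mod_cast this
    have h4 : j + 1 ≤ (N : ℤ) := by omega
    exact_mod_cast h4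

lemma c₁_mem_I (hL : 0 < L) {N : ℕ} {t : ℝ} (ht : t ∈ Ioc (0 : ℝ) (N * L)) :
    c₁ L t ∈ Ioc (0 : ℝ) (N * L) := by
  obtain ⟨h0, h3⟩ := idx_bounds hL ht
  obtain ⟨h1, h2⟩ := idx_spec hL t
  unfold c₁
  constructor <;> nlinarith [ht.1, ht.2]

lemma c₂_mem_I (hL : 0 < L) {N : ℕ} {t : ℝ} (ht : t ∈ Ioc (0 : ℝ) (N * L)) :
    c₂ L t ∈ Ioc (0 : ℝ) (N * L) := by
  obtain ⟨h0, h3⟩ := idx_bounds hL ht
  obtain ⟨h1, h2⟩ := idx_spec hL t
  unfold c₂
  constructor <;> nlinarith [ht.1, ht.2]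

lemma d₁_mem_I (hL : 0 < L) {N : ℕ} {s : ℝ} (ht : s ∈ Ioc (0 : ℝ) (N * L)) (hs : s ∈ E L) :
    d₁ L s ∈ Ioc (0 : ℝ) (N * L) := by
  have hs' : s - idx L s * L ≤ L / 2 := hs
  obtain ⟨h0, h3⟩ := idx_bounds hL ht
  obtain ⟨h1, h2⟩ := idx_spec hL s
  unfold d₁
  constructor <;> nlinarith [ht.1, ht.2]

lemma d₂_mem_I (hL : 0 < L) {N : ℕ} {s : ℝ} (ht : s ∈ Ioc (0 : ℝ) (N * L)) (hs : s ∉ E L) :
    d₂ L s ∈ Ioc (0 : ℝ) (N * L) := by
  have hs' : ¬ (s - idx L s * L ≤ L / 2) := hs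
  push Not at hs'
  obtain ⟨h0, h3⟩ := idx_bounds hL ht
  obtain ⟨h1, h2⟩ := idx_spec hL s
  unfold d₂
  constructor <;> nlinarith [ht.1, ht.2]

lemma abs_c₁_sub (hL : 0 < L) (t : ℝ) : |c₁ L t - t| ≤ L := by
  obtain ⟨h1, h2⟩ := idx_spec hL t
  unfold c₁
  rw [abs_le]
  constructor <;> nlinarith

lemma abs_c₂_sub (hL : 0 < L) (t : ℝ) : |c₂ L t - t| ≤ L := by
  obtain ⟨h1, h2⟩ := idx_spec hL t
  unfold c₂
  rw [abs_le]
  constructor <;> nlinarith

/-! ### the measure computation on one block -/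

lemma map_half (a : ℝ) :
    (volume : Measure ℝ).map (fun t => t / 2 + a) = (2 : ℝ≥0∞) • volume := by
  have h1 : (fun t : ℝ => t / 2 + a) = (fun t => t + a) ∘ (fun t => 2⁻¹ * t) := by
    ext t; simp [div_eq_inv_mul]
  rw [h1, ← Measure.map_map (measurable_add_const a) (measurable_const_mul _),
    Real.map_volume_mul_left (by norm_num), Measure.map_smul]
  have h2 : (volume : Measure ℝ).map (fun t => t + a) = volume := map_add_right_eq_self volume a
  rw [h2]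
  simp

/-- A block mapped affinely with factor `1/2`. -/
lemma block_map {S S' : Set ℝ} (hS' : MeasurableSet S') (a : ℝ)
    (hpre : ∀ t, t ∈ S ↔ t / 2 + a ∈ S') {c : ℝ → ℝ} (hc : Measurable c)
    (hS : MeasurableSet S)
    (hcS : ∀ t ∈ S, c t = t / 2 + a) :
    ((volume : Measure ℝ).restrict S).map c = (2 : ℝ≥0∞) • (volume : Measure ℝ).restrict S' := by
  have hae : c =ᵐ[(volume : Measure ℝ).restrict S] (fun t => t / 2 + a) :=
    (ae_restrict_iff' hS).2 (Filter.Eventually.of_forall hcS)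
  rw [Measure.map_congr hae]
  have hm : Measurable (fun t : ℝ => t / 2 + a) := (measurable_id.div_const 2).add_const a
  have hSeq : S = (fun t : ℝ => t / 2 + a) ⁻¹' S' := by
    ext t; exact hpre t
  rw [hSeq, ← Measure.restrict_map hm hS', map_half, Measure.restrict_smul]

lemma block_c₁ (hL : 0 < L) (j : ℤ) :
    ((volume : Measure ℝ).restrict (Ioc ((j : ℝ) * L) (((j : ℝ) + 1) * L))).map (c₁ L) =
      (2 : ℝ≥0∞) • (volume : Measure ℝ).restrict (Ioc ((j : ℝ) * L) ((j : ℝ) * L + L / 2)) := by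
  refine block_map measurableSet_Ioc ((j : ℝ) * L / 2) (fun t => ?_) measurable_c₁ measurableSet_Ioc
    (fun t ht => ?_)
  · simp only [mem_Ioc]
    constructor <;> rintro ⟨h1, h2⟩ <;> constructor <;> nlinarith
  · unfold c₁
    rw [idx_eq hL j ht.1 ht.2]

lemma block_c₂ (hL : 0 < L) (j : ℤ) :
    ((volume : Measure ℝ).restrict (Ioc ((j : ℝ) * L) (((j : ℝ) + 1) * L))).map (c₂ L) =
      (2 : ℝ≥0∞) • (volume : Measure ℝ).restrict (Ioc ((j : ℝ) * L + L / 2) (((j : ℝ) + 1) * L)) := by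
  refine block_map measurableSet_Ioc ((j : ℝ) * L / 2 + L / 2) (fun t => ?_) measurable_c₂ measurableSet_Ioc
    (fun t ht => ?_)
  · simp only [mem_Ioc]
    constructor <;> rintro ⟨h1, h2⟩ <;> constructor <;> nlinarith
  · unfold c₂
    rw [idx_eq hL j ht.1 ht.2]; ring

/-- decomposition of `(0, (N+1)L]` -/
lemma Ioc_succ (hL : 0 < L) (N : ℕ) :
    Ioc (0 : ℝ) (((N + 1 : ℕ) : ℝ) * L) = Ioc (0 : ℝ) (N * L) ∪ Ioc ((N : ℝ) * L) (((N : ℝ) + 1) * L) := by
  push_cast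
  rw [Ioc_union_Ioc_eq_Ioc (by positivity) (by nlinarith)]

lemma I_inter_E_succ (hL : 0 < L) (N : ℕ) :
    Ioc (0 : ℝ) (((N + 1 : ℕ) : ℝ) * L) ∩ E L =
      (Ioc (0 : ℝ) (N * L) ∩ E L) ∪ Ioc ((N : ℝ) * L) ((N : ℝ) * L + L / 2) := by
  rw [Ioc_succ hL, union_inter_distrib_right]
  congr 1
  ext s
  simp only [mem_inter_iff, mem_Ioc, E, mem_ofPred_eq]
  constructor
  · rintro ⟨⟨h1, h2⟩, h3⟩
    have h4 := idx_eq hL (N : ℤ) (t := s) (by exact_mod_cast h1) (by exact_mod_cast h2)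
    have h5 : idx L s = (N : ℝ) := by simpa using h4
    rw [h5] at h3
    exact ⟨h1, by linarith⟩
  · rintro ⟨h1, h2⟩
    have h2' : s ≤ ((N : ℝ) + 1) * L := by nlinarith
    have h4 := idx_eq hL (N : ℤ) (t := s) (by exact_mod_cast h1) (by exact_mod_cast h2')
    have h5 : idx L s = (N : ℝ) := by simpa using h4
    refine ⟨⟨h1, h2'⟩, ?_⟩
    rw [h5]; linarith

lemma I_diff_E_succ (hL : 0 < L) (N : ℕ) :
    Ioc (0 : ℝ) (((N + 1 : ℕ) : ℝ) * L) ∩ (E L)ᶜ =
      (Ioc (0 : ℝ) (N * L) ∩ (E L)ᶜ) ∪ Ioc ((N : ℝ) * L + L / 2) (((N : ℝ) + 1) * L) := by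
  rw [Ioc_succ hL, union_inter_distrib_right]
  congr 1
  ext s
  simp only [mem_inter_iff, mem_Ioc, E, mem_compl_iff, mem_ofPred_eq, not_le]
  constructor
  · rintro ⟨⟨h1, h2⟩, h3⟩
    have h4 := idx_eq hL (N : ℤ) (t := s) (by exact_mod_cast h1) (by exact_mod_cast h2)
    have h5 : idx L s = (N : ℝ) := by simpa using h4
    rw [h5] at h3
    exact ⟨by linarith, h2⟩
  · rintro ⟨h1, h2⟩
    have h1' : (N : ℝ) * L < s := by nlinarith
    have h4 := idx_eq hL (N : ℤ) (t := s) (by exact_mod_cast h1') (by exact_mod_cast h2)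
    have h5 : idx L s = (N : ℝ) := by simpa using h4
    refine ⟨⟨h1', h2⟩, ?_⟩
    rw [h5]; linarith

lemma map_c₁ (hL : 0 < L) (N : ℕ) :
    ((volume : Measure ℝ).restrict (Ioc (0 : ℝ) (N * L))).map (c₁ L) =
      (2 : ℝ≥0∞) • (volume : Measure ℝ).restrict (Ioc (0 : ℝ) (N * L) ∩ E L) := by
  induction N with
  | zero => simp
  | succ N ih =>
    have hdisj1 : Disjoint (Ioc (0 : ℝ) (N * L)) (Ioc ((N : ℝ) * L) (((N : ℝ) + 1) * L)) :=
      Ioc_disjoint_Ioc_of_le le_rfl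
    have hdisj2 : Disjoint (Ioc (0 : ℝ) (N * L) ∩ E L) (Ioc ((N : ℝ) * L) ((N : ℝ) * L + L / 2)) :=
      (Ioc_disjoint_Ioc_of_le le_rfl).mono_left inter_subset_left
    rw [I_inter_E_succ hL, Ioc_succ hL, Measure.restrict_union hdisj1 measurableSet_Ioc,
      Measure.map_add _ _ measurable_c₁, ih, Measure.restrict_union hdisj2 measurableSet_Ioc,
      smul_add]
    congr 1
    exact_mod_cast block_c₁ hL (N : ℤ)

lemma map_c₂ (hL : 0 < L) (N : ℕ) :
    ((volume : Measure ℝ).restrict (Ioc (0 : ℝ) (N * L))).map (c₂ L) =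
      (2 : ℝ≥0∞) • (volume : Measure ℝ).restrict (Ioc (0 : ℝ) (N * L) ∩ (E L)ᶜ) := by
  induction N with
  | zero => simp
  | succ N ih =>
    have hdisj1 : Disjoint (Ioc (0 : ℝ) (N * L)) (Ioc ((N : ℝ) * L) (((N : ℝ) + 1) * L)) :=
      Ioc_disjoint_Ioc_of_le le_rfl
    have hdisj2 : Disjoint (Ioc (0 : ℝ) (N * L) ∩ (E L)ᶜ)
        (Ioc ((N : ℝ) * L + L / 2) (((N : ℝ) + 1) * L)) :=
      (Ioc_disjoint_Ioc_of_le (by nlinarith)).mono_left inter_subset_left
    rw [I_diff_E_succ hL, Ioc_succ hL, Measure.restrict_union hdisj1 measurableSet_Ioc,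
      Measure.map_add _ _ measurable_c₂, ih, Measure.restrict_union hdisj2 measurableSet_Ioc,
      smul_add]
    congr 1
    exact_mod_cast block_c₂ hL (N : ℤ)

/-- from the real line to the circle -/
lemma circle_map {c : ℝ → ℝ} (hc : Measurable c) {F : Set ℝ} (hF : MeasurableSet F) {G : Set Tor}
    (hG : MeasurableSet G)
    (hI : MeasurableSet (Ioc (0 : ℝ) (0 + 2 * Real.pi)))
    (hmap : ((volume : Measure ℝ).restrict (Ioc (0 : ℝ) (0 + 2 * Real.pi))).map c =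
      (2 : ℝ≥0∞) • (volume : Measure ℝ).restrict (Ioc (0 : ℝ) (0 + 2 * Real.pi) ∩ F))
    (hGF : ∀ t ∈ Ioc (0 : ℝ) (0 + 2 * Real.pi), (t : Tor) ∈ G ↔ t ∈ F) :
    (volume : Measure Tor).map (fun θ => ((c (rep θ) : ℝ) : Tor)) =
      (2 : ℝ≥0∞) • (volume : Measure Tor).restrict G := by
  have hcoe : Measurable (fun t : ℝ => (t : Tor)) := AddCircle.measurable_mk'
  have hvol : (volume : Measure Tor) =
      ((volume : Measure ℝ).restrict (Ioc (0 : ℝ) (0 + 2 * Real.pi))).map (fun t : ℝ => (t : Tor)) :=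
    (AddCircle.measurePreserving_mk (2 * Real.pi) 0).map_eq.symm
  have hcomp : Measurable (fun θ : Tor => ((c (rep θ) : ℝ) : Tor)) :=
    hcoe.comp (hc.comp measurable_rep)
  have hae : (fun θ : Tor => ((c (rep θ) : ℝ) : Tor)) ∘ (fun t : ℝ => (t : Tor))
      =ᵐ[(volume : Measure ℝ).restrict (Ioc (0 : ℝ) (0 + 2 * Real.pi))]
      (fun t : ℝ => (t : Tor)) ∘ c := by
    refine (ae_restrict_iff' hI).2 (Filter.Eventually.of_forall fun t ht => ?_)
    simp only [Function.comp, rep_coe ht]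
  have hL : (volume : Measure Tor).map (fun θ => ((c (rep θ) : ℝ) : Tor)) =
      (2 : ℝ≥0∞) • ((volume : Measure ℝ).restrict (Ioc (0 : ℝ) (0 + 2 * Real.pi) ∩ F)).map
        (fun t : ℝ => (t : Tor)) := by
    conv_lhs => rw [hvol]
    rw [Measure.map_map hcomp hcoe, Measure.map_congr hae, ← Measure.map_map hcoe hc, hmap,
      Measure.map_smul]
  have hR : (volume : Measure Tor).restrict G =
      ((volume : Measure ℝ).restrict (Ioc (0 : ℝ) (0 + 2 * Real.pi) ∩ F)).map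
        (fun t : ℝ => (t : Tor)) := by
    conv_lhs => rw [hvol]
    rw [Measure.restrict_map hcoe hG, Measure.restrict_restrict (hcoe hG)]
    congr 2
    ext t
    simp only [mem_inter_iff, mem_preimage]
    constructor
    · rintro ⟨h1, h2⟩
      exact ⟨h2, (hGF t h2).1 h1⟩
    · rintro ⟨h1, h2⟩
      exact ⟨(hGF t h1).2 h2, h1⟩
  rw [hL, hR]

end CircleAux

open CircleAux

/-- For every `δ > 0`: a measurable partition `Ev, Evᶜ` of the circle and maps `C₁ : Tor → Ev`,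
`C₂ : Tor → Evᶜ`, bijective with measurable inverses `D₁, D₂`, compressing Lebesgue measure by
the factor 2 and moving points by at most `δ`.  (Blocks of length `2π/N`, first half in `Ev`,
`C₁` = the affine compression of each block onto its first half, `C₂` onto its second half.) -/
theorem compress (δ : ℝ) (hδ : 0 < δ) :
    ∃ (C₁ C₂ D₁ D₂ : Tor → Tor) (Ev : Set Tor),
      Measurable C₁ ∧ Measurable C₂ ∧ Measurable D₁ ∧ Measurable D₂ ∧ MeasurableSet Ev ∧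
      (volume : Measure Tor).map C₁ = (2 : ℝ≥0∞) • (volume : Measure Tor).restrict Ev ∧
      (volume : Measure Tor).map C₂ = (2 : ℝ≥0∞) • (volume : Measure Tor).restrict Evᶜ ∧
      (∀ θ, C₁ θ ∈ Ev ∧ D₁ (C₁ θ) = θ) ∧ (∀ θ, C₂ θ ∉ Ev ∧ D₂ (C₂ θ) = θ) ∧
      (∀ θ ∈ Ev, C₁ (D₁ θ) = θ) ∧ (∀ θ, θ ∉ Ev → C₂ (D₂ θ) = θ) ∧
      (∀ θ, ‖eT (C₁ θ) - eT θ‖ ≤ δ) ∧ (∀ θ, ‖eT (C₂ θ) - eT θ‖ ≤ δ) := by
  obtain ⟨N, hN⟩ := exists_nat_gt (2 * Real.pi / δ)
  have hNpos : (0 : ℝ) < N := lt_trans (by positivity) hN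
  set L : ℝ := 2 * Real.pi / N with hLdef
  have hL : 0 < L := by positivity
  have hLδ : L ≤ δ := by
    rw [hLdef, div_le_iff₀ hNpos]
    rw [div_lt_iff₀ hδ] at hN
    linarith
  have hI : (0 : ℝ) + 2 * Real.pi = N * L := by
    rw [hLdef]; field_simp; ring
  have hcoe : Measurable (fun t : ℝ => (t : Tor)) := AddCircle.measurable_mk'
  let Ev : Set Tor := rep ⁻¹' (E L)
  have hEv : MeasurableSet Ev := measurable_rep measurableSet_E
  refine ⟨fun θ => ((c₁ L (rep θ) : ℝ) : Tor), fun θ => ((c₂ L (rep θ) : ℝ) : Tor),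
    fun θ => ((d₁ L (rep θ) : ℝ) : Tor), fun θ => ((d₂ L (rep θ) : ℝ) : Tor), Ev,
    hcoe.comp (measurable_c₁.comp measurable_rep), hcoe.comp (measurable_c₂.comp measurable_rep),
    hcoe.comp (measurable_d₁.comp measurable_rep), hcoe.comp (measurable_d₂.comp measurable_rep),
    hEv, ?_, ?_, ?_, ?_, ?_, ?_, ?_, ?_⟩
  · refine circle_map measurable_c₁ (F := E L) measurableSet_E hEv measurableSet_Ioc ?_ ?_
    · rw [hI]; exact map_c₁ hL N
    · intro t ht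
      show rep (t : Tor) ∈ E L ↔ _
      rw [rep_coe ht]
  · refine circle_map measurable_c₂ (F := (E L)ᶜ) measurableSet_E.compl hEv.compl measurableSet_Ioc ?_ ?_
    · rw [hI]; exact map_c₂ hL N
    · intro t ht
      show ¬ (rep (t : Tor) ∈ E L) ↔ _
      rw [rep_coe ht]; rfl
  · intro θ
    have hm : rep θ ∈ Ioc (0 : ℝ) (N * L) := hI ▸ rep_mem θ
    have hm1 := c₁_mem_I hL hm
    rw [← hI] at hm1
    constructor
    · show rep _ ∈ E L
      rw [rep_coe hm1]; exact c₁_mem_E hL _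
    · simp only
      rw [rep_coe hm1, d₁_c₁ hL, coe_rep]
  · intro θ
    have hm : rep θ ∈ Ioc (0 : ℝ) (N * L) := hI ▸ rep_mem θ
    have hm1 := c₂_mem_I hL hm
    rw [← hI] at hm1
    constructor
    · show ¬ (rep _ ∈ E L)
      rw [rep_coe hm1]; exact c₂_notMem_E hL _
    · simp only
      rw [rep_coe hm1, d₂_c₂ hL, coe_rep]
  · intro θ hθ
    have hm : rep θ ∈ Ioc (0 : ℝ) (N * L) := hI ▸ rep_mem θ
    have hm1 := d₁_mem_I hL hm hθ
    rw [← hI] at hm1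
    simp only
    rw [rep_coe hm1, c₁_d₁ hL hθ, coe_rep]
  · intro θ hθ
    have hm : rep θ ∈ Ioc (0 : ℝ) (N * L) := hI ▸ rep_mem θ
    have hm1 := d₂_mem_I hL hm hθ
    rw [← hI] at hm1
    simp only
    rw [rep_coe hm1, c₂_d₂ hL hθ, coe_rep]
  · intro θ
    calc ‖eT ((c₁ L (rep θ) : ℝ) : Tor) - eT θ‖
        = ‖eT ((c₁ L (rep θ) : ℝ) : Tor) - eT ((rep θ : ℝ) : Tor)‖ := by rw [coe_rep]
      _ ≤ |c₁ L (rep θ) - rep θ| := norm_eT_sub _ _
      _ ≤ L := abs_c₁_sub hL _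
      _ ≤ δ := hLδ
  · intro θ
    calc ‖eT ((c₂ L (rep θ) : ℝ) : Tor) - eT θ‖
        = ‖eT ((c₂ L (rep θ) : ℝ) : Tor) - eT ((rep θ : ℝ) : Tor)‖ := by rw [coe_rep]
      _ ≤ |c₂ L (rep θ) - rep θ| := norm_eT_sub _ _
      _ ≤ L := abs_c₂_sub hL _
      _ ≤ δ := hLδ

end Crest.Agent.MG
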