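/-
S0175, MAIN part 1: the contact structure on the model (real inequalities).
-/
import Crest.Agent.MGBump
import Crest.Agent.MGCert
import Crest.Agent.MGG

set_option autoImplicit false

open MeasureTheory Set
open scoped ENNReal ContDiff

namespace Crest.Agent.MG

variable {n : ℕ}

/-- The family data, as a structure. -/
structure Fam (s : ℝ) (fI fO : Bs n → ℝ) (KI KO : Set (Bs n)) (κ Lb : Bs n → ℝ)
    (Φ ψ : Bs n → Bs n) (ε d₀ C₀ : ℝ) : Prop where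
  cI : ContDiff ℝ ∞ fI
  cO : ContDiff ℝ ∞ fO
  nI : ∀ b, 0 ≤ fI b
  nO : ∀ b, 0 ≤ fO b
  compI : IsCompact KI
  compO : IsCompact KO
  zI : ∀ b, b ∉ KI → fI b = 0
  zO : ∀ b, b ∉ KO → fO b = 0
  disj : Disjoint KI KO
  posI : ∀ b ∈ KI, 0 < b.1
  posO : ∀ c ∈ KO, 0 < c.1
  mΦ : Measurable Φ
  mψ : Measurable ψ
  mκ : Measurable κ
  mL : Measurable Lb
  ΦK : ∀ b ∈ KI, Φ b ∈ KO
  ψK : ∀ c ∈ KO, ψ c ∈ KI
  ψΦ : ∀ b ∈ KI, ψ (Φ b) = b
  Φψ : ∀ c ∈ KO, Φ (ψ c) = c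
  hmap : (volume.withDensity (fun b => ENNReal.ofReal (fI b ^ 2))).map Φ =
    (2⁻¹ : ℝ≥0∞) • volume.withDensity (fun b => ENNReal.ofReal (fO b ^ 2))
  mass : ∫⁻ b, ENNReal.ofReal (fI b ^ 2) = ENNReal.ofReal (1 / (3 * Real.pi))
  rel : ∀ b ∈ KI, HRel s (κ b) (Lb b) b.1 (‖b.2‖ ^ 2)
  Φeq : ∀ b ∈ KI, Φ b = ((κ b) ^ 2 * b.1 + Gk s (κ b) * Lb b / 4, (-thk (κ b)) • b.2)
  εpos : 0 < ε
  small : ∀ b ∈ KI, b.1 + ‖b.2‖ ^ 2 ≤ ε ^ 2
  uIb : ∀ b ∈ KI, 2 * uI s (κ b) (Lb b) < g s (4 * ε ^ 2)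
  d₀pos : 0 < d₀
  dlow : ∀ b ∈ KI, d₀ ≤ Gk s (κ b) * Lb b ∧ d₀ ≤ Pk s (κ b) * Lb b
  Lc : ∀ c ∈ KO, 0 < 1 - c.1 - 2 * ‖c.2‖ ^ 2 ∧ 2 * g s (1 - c.1 - 2 * ‖c.2‖ ^ 2) ≤ C₀

theorem exists_fam (n : ℕ) {s : ℝ} (hs : 0 < s) :
    ∃ (fI fO : Bs n → ℝ) (KI KO : Set (Bs n)) (κ Lb : Bs n → ℝ) (Φ ψ : Bs n → Bs n) (ε d₀ C₀ : ℝ),
      Fam s fI fO KI KO κ Lb Φ ψ ε d₀ C₀ := by
  obtain ⟨fI, fO, KI, KO, κ, Lb, Φ, ψ, ε, d₀, C₀, a1, a2, a3, a4, a5, a6, a7, a8, a9, a10, a11, a12,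
    a13, a14, a15, a16, a17, a18, a19, a20, a21, a22, a23, a24, a25, a26, a27, a28, a29⟩ :=
    family n hs
  exact ⟨fI, fO, KI, KO, κ, Lb, Φ, ψ, ε, d₀, C₀, a1, a2, a3, a4, a5, a6, a7, a8, a9, a10, a11, a12,
    a13, a14, a15, a16, a17, a18, a19, a20, a21, a22, a23, a24, a25, a26, a27, a28, a29⟩

/-- real cost -/
noncomputable def cR (s : ℝ) (x y z : Xs n) : ℝ := g s (D2 x y) + g s (D2 x z) + g s (D2 y z)

theorem cR_cyc (s : ℝ) (x y z : Xs n) : cR s x y z = cR s y z x := by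
  unfold cR; rw [D2_comm x z, D2_comm x y]; ring

theorem cR_swap (s : ℝ) (x y z : Xs n) : cR s x y z = cR s x z y := by
  unfold cR; rw [D2_comm y z]; ring

/-- the potential. -/
noncomputable def uu (s : ℝ) (KI : Set (Bs n)) (κ Lb : Bs n → ℝ) (x : Xs n) : ℝ :=
  by
    classical
    exact if prj x ∈ KI then uI s (κ (prj x)) (Lb (prj x)) else uO s x

section
variable {s : ℝ} {fI fO : Bs n → ℝ} {KI KO : Set (Bs n)} {κ Lb : Bs n → ℝ} {Φ ψ : Bs n → Bs n}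
  {ε d₀ C₀ : ℝ}

theorem uu_of_mem {x : Xs n} (h : prj x ∈ KI) :
    uu s KI κ Lb x = uI s (κ (prj x)) (Lb (prj x)) := by
  simp [uu, h]

theorem uu_of_not_mem {x : Xs n} (h : prj x ∉ KI) : uu s KI κ Lb x = uO s x := by
  simp [uu, h]

theorem norm_sq_prj_fst (x : Xs n) : (prj x).1 = ‖x.1‖ ^ 2 := rfl
theorem prj_snd (x : Xs n) : (prj x).2 = x.2 := rfl


theorem uI_pos {k L : ℝ} (hk : 0 < k) (hL : 0 < L) : 0 < uI s k L := by
  have h1 := g_pos (s := s) (mul_pos (Gk_pos (s := s) hk) hL)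
  have h2 := g_pos (s := s) (mul_pos (Pk_pos (s := s) hk) hL)
  have h3 := g_pos (s := s) hL
  unfold uI
  linarith

variable (F : Fam s fI fO KI KO κ Lb Φ ψ ε d₀ C₀)
include F

namespace Fam

theorem inner_ne {x : Xs n} (h : prj x ∈ KI) : x.1 ≠ 0 := by
  intro h0
  have := F.posI _ h
  simp [prj, h0] at this

theorem inner_rel {x : Xs n} (h : prj x ∈ KI) :
    HRel s (κ (prj x)) (Lb (prj x)) (‖x.1‖ ^ 2) (‖x.2‖ ^ 2) := F.rel _ h

theorem not_inner_of_outer {x : Xs n} (h : prj x ∈ KO) : prj x ∉ KI := fun h' =>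
  (Set.disjoint_left.mp F.disj) h' h

theorem outer_L {y : Xs n} (h : prj y ∈ KO) : 0 < Lout y := by
  have := (F.Lc _ h).1
  simpa [Lout, prj] using this

theorem uu_outer_neg (hs : 0 < s) {y : Xs n} (h : prj y ∈ KO) : uu s KI κ Lb y < 0 := by
  rw [uu_of_not_mem (F.not_inner_of_outer h)]
  have := g_pos (s := s) (F.outer_L h)
  unfold uO
  linarith

theorem uu_outer_ge {y : Xs n} (h : prj y ∈ KO) : -C₀ ≤ uu s KI κ Lb y := by
  rw [uu_of_not_mem (F.not_inner_of_outer h)]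
  have := (F.Lc _ h).2
  simp only [uO, Lout]
  simp only [prj] at this
  linarith

theorem uu_inner_pos {x : Xs n} (h : prj x ∈ KI) : 0 < uu s KI κ Lb x := by
  rw [uu_of_mem h]
  have hr := F.rel _ h
  exact uI_pos hr.hk hr.hL

theorem uu_inner_lt {x : Xs n} (h : prj x ∈ KI) : 2 * uu s KI κ Lb x < g s (4 * ε ^ 2) := by
  rw [uu_of_mem h]
  exact F.uIb _ h

theorem D2_inner_le {x y : Xs n} (hx : prj x ∈ KI) (hy : prj y ∈ KI) : D2 x y ≤ 4 * ε ^ 2 := by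
  have h1 := F.small _ hx
  have h2 := F.small _ hy
  simp only [prj] at h1 h2
  have e1 : ‖x.1 - y.1‖ ^ 2 ≤ 2 * ‖x.1‖ ^ 2 + 2 * ‖y.1‖ ^ 2 := by
    have := norm_sub_le x.1 y.1
    nlinarith [norm_nonneg (x.1 - y.1), norm_nonneg x.1, norm_nonneg y.1, sq_nonneg (‖x.1‖ - ‖y.1‖)]
  have e2 : ‖x.2 - y.2‖ ^ 2 ≤ 2 * ‖x.2‖ ^ 2 + 2 * ‖y.2‖ ^ 2 := by
    have := norm_sub_le x.2 y.2
    nlinarith [norm_nonneg (x.2 - y.2), norm_nonneg x.2, norm_nonneg y.2, sq_nonneg (‖x.2‖ - ‖y.2‖)]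
  unfold D2
  linarith

theorem g_inner_ge (hs : 0 < s) {x y : Xs n} (hx : prj x ∈ KI) (hy : prj y ∈ KI)
    (h : 0 < D2 x y) : g s (4 * ε ^ 2) ≤ g s (D2 x y) :=
  g_le_g hs h (F.D2_inner_le hx hy)

/-- triples with (at least) two inner points: strict. -/
theorem case_IIA (hs : 0 < s) {x y z : Xs n} (hx : prj x ∈ KI) (hy : prj y ∈ KI)
    (hz : prj z ∈ KI ∨ prj z ∈ KO) (hxy : 0 < D2 x y) (hxz : 0 < D2 x z) (hyz : 0 < D2 y z) :
    uu s KI κ Lb x + uu s KI κ Lb y + uu s KI κ Lb z < cR s x y z := by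
  have h1 := F.uu_inner_lt hx
  have h2 := F.uu_inner_lt hy
  have h3 := F.g_inner_ge hs hx hy hxy
  unfold cR
  rcases hz with hz | hz
  · have h4 := F.uu_inner_lt hz
    have h5 := F.g_inner_ge hs hx hz hxz
    have h6 := F.g_inner_ge hs hy hz hyz
    have h7 : 0 < g s (4 * ε ^ 2) := g_pos (by have := F.εpos; positivity)
    linarith
  · have h4 := F.uu_outer_neg hs hz
    have h5 := g_pos (s := s) hxz
    have h6 := g_pos (s := s) hyz
    linarith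

/-- triples without inner point: strict. -/
theorem case_OOO (hs : 0 < s) {x y z : Xs n} (hx : prj x ∈ KO) (hy : prj y ∈ KO)
    (hz : prj z ∈ KO) (hxy : 0 < D2 x y) (hxz : 0 < D2 x z) (hyz : 0 < D2 y z) :
    uu s KI κ Lb x + uu s KI κ Lb y + uu s KI κ Lb z < cR s x y z := by
  have h1 := F.uu_outer_neg hs hx
  have h2 := F.uu_outer_neg hs hy
  have h3 := F.uu_outer_neg hs hz
  have h4 := g_pos (s := s) hxy
  have h5 := g_pos (s := s) hxz
  have h6 := g_pos (s := s) hyz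
  unfold cR
  linarith

/-- triples with exactly one inner point: the certificate. -/
theorem case_IOO (hs : 0 < s) {x y z : Xs n} (hx : prj x ∈ KI) (hy : prj y ∈ KO)
    (hz : prj z ∈ KO) (hxy : 0 < D2 x y) (hxz : 0 < D2 x z) (hyz : 0 < D2 y z) :
    uu s KI κ Lb x + uu s KI κ Lb y + uu s KI κ Lb z ≤ cR s x y z ∧
    (uu s KI κ Lb x + uu s KI κ Lb y + uu s KI κ Lb z = cR s x y z →
      (y = yPlus s (κ (prj x)) (Lb (prj x)) x ∧ z = yMinus s (κ (prj x)) (Lb (prj x)) x) ∨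
      (y = yMinus s (κ (prj x)) (Lb (prj x)) x ∧ z = yPlus s (κ (prj x)) (Lb (prj x)) x)) := by
  rw [uu_of_mem hx, uu_of_not_mem (F.not_inner_of_outer hy), uu_of_not_mem (F.not_inner_of_outer hz)]
  exact cert hs (F.inner_ne hx) (F.inner_rel hx) y z (F.outer_L hy) (F.outer_L hz) hxy hxz hyz

/-- the dual inequality on the support. -/
theorem real_dual (hs : 0 < s) {x y z : Xs n} (hx : prj x ∈ KI ∨ prj x ∈ KO)
    (hy : prj y ∈ KI ∨ prj y ∈ KO) (hz : prj z ∈ KI ∨ prj z ∈ KO)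
    (hxy : 0 < D2 x y) (hxz : 0 < D2 x z) (hyz : 0 < D2 y z) :
    uu s KI κ Lb x + uu s KI κ Lb y + uu s KI κ Lb z ≤ cR s x y z := by
  have hyx : 0 < D2 y x := by rwa [D2_comm]
  have hzx : 0 < D2 z x := by rwa [D2_comm]
  have hzy : 0 < D2 z y := by rwa [D2_comm]
  rcases hx with hx | hx
  · rcases hy with hy | hy
    · exact (F.case_IIA hs hx hy hz hxy hxz hyz).le
    · rcases hz with hz | hz
      · have := F.case_IIA hs hz hx (Or.inr hy) hzx hzy hxy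
        rw [cR_cyc s z x y] at this
        linarith
      · exact (F.case_IOO hs hx hy hz hxy hxz hyz).1
  · rcases hy with hy | hy
    · rcases hz with hz | hz
      · have := F.case_IIA hs hy hz (Or.inr hx) hyz hyx hzx
        rw [cR_cyc s x y z]
        linarith
      · have := (F.case_IOO hs hy hz hx hyz hyx hzx).1
        rw [cR_cyc s x y z]
        linarith
    · rcases hz with hz | hz
      · have := (F.case_IOO hs hz hx hy hzx hzy hxy).1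
        rw [cR_cyc s z x y] at this
        linarith
      · exact (F.case_OOO hs hx hy hz hxy hxz hyz).le

/-- rigidity of the contact set. -/
theorem real_rigid (hs : 0 < s) {x y z : Xs n} (hx : prj x ∈ KI ∨ prj x ∈ KO)
    (hy : prj y ∈ KI) (hz : prj z ∈ KI ∨ prj z ∈ KO)
    (hxy : 0 < D2 x y) (hxz : 0 < D2 x z) (hyz : 0 < D2 y z)
    (heq : uu s KI κ Lb x + uu s KI κ Lb y + uu s KI κ Lb z = cR s x y z) :
    prj x ∈ KO ∧ (x = yPlus s (κ (prj y)) (Lb (prj y)) y ∨ x = yMinus s (κ (prj y)) (Lb (prj y)) y) := by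
  have hyx : 0 < D2 y x := by rwa [D2_comm]
  have hzx : 0 < D2 z x := by rwa [D2_comm]
  rcases hx with hx | hx
  · have := F.case_IIA hs hx hy hz hxy hxz hyz
    linarith
  rcases hz with hz | hz
  · have := F.case_IIA hs hy hz (Or.inr hx) hyz hyx hzx
    rw [← cR_cyc s x y z] at this
    linarith
  refine ⟨hx, ?_⟩
  have h := (F.case_IOO hs hy hz hx hyz hyx hzx).2 (by rw [← cR_cyc s x y z]; linarith)
  rcases h with h | h
  · exact Or.inr h.2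
  · exact Or.inl h.2

/-- Contact on a hyperedge: values. -/
theorem contact_values (hs : 0 < s) {x : Xs n} (hx : prj x ∈ KI) :
    0 < D2 x (yPlus s (κ (prj x)) (Lb (prj x)) x) ∧ 0 < D2 x (yMinus s (κ (prj x)) (Lb (prj x)) x) ∧
    0 < D2 (yPlus s (κ (prj x)) (Lb (prj x)) x) (yMinus s (κ (prj x)) (Lb (prj x)) x) ∧
    uI s (κ (prj x)) (Lb (prj x)) + uO s (yPlus s (κ (prj x)) (Lb (prj x)) x)
        + uO s (yMinus s (κ (prj x)) (Lb (prj x)) x) =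
      cR s x (yPlus s (κ (prj x)) (Lb (prj x)) x) (yMinus s (κ (prj x)) (Lb (prj x)) x) := by
  obtain ⟨h1, h2, h3, h4, h5⟩ := hyper_values hs (F.inner_ne hx) (F.inner_rel hx)
  have hr := F.rel _ hx
  have hP := mul_pos (Pk_pos (s := s) hr.hk) hr.hL
  have hG := mul_pos (Gk_pos (s := s) hr.hk) hr.hL
  refine ⟨by rw [h1]; exact hP, by rw [h2]; exact hP, by rw [h3]; exact hG, ?_⟩
  unfold cR uO uI
  rw [h1, h2, h3, h4, h5]
  ring

end Fam
end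
end Crest.Agent.MG
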