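/-
S0175, piece POLAR: polar coordinates on `ℂ × ℝⁿ` in the variables `(R = |p|², q, θ)`.  See MGPLAN.md.
-/
import Crest.Agent.MGCore

set_option autoImplicit false

open MeasureTheory Set
open scoped ENNReal

namespace Crest.Agent.MG

variable {n : ℕ}

theorem measurable_prj : Measurable (prj : Xs n → Bs n) := by
  unfold prj
  exact ((measurable_norm.comp measurable_fst).pow_const 2).prodMk measurable_snd

theorem measurable_ang : Measurable (ang : Xs n → Tor) := by
  unfold ang
  exact AddCircle.measurable_mk'.comp (Complex.measurable_arg.comp measurable_fst)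

lemma continuous_eT : Continuous eT := by
  unfold eT
  exact continuous_subtype_val.comp AddCircle.continuous_toCircle

theorem measurable_chi : Measurable (fun z : Bs n × Tor => chi z.1 z.2) := by
  unfold chi
  apply Continuous.measurable
  refine Continuous.prodMk ?_ (continuous_snd.comp continuous_fst)
  refine Continuous.mul ?_ (continuous_eT.comp continuous_snd)
  exact Complex.continuous_ofReal.comp
    (Real.continuous_sqrt.comp (continuous_fst.comp continuous_fst))

@[simp] theorem norm_eT (θ : Tor) : ‖eT θ‖ = 1 := by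
  unfold eT
  exact Circle.norm_coe _

theorem eT_add (θ θ' : Tor) : eT (θ + θ') = eT θ * eT θ' := by
  unfold eT
  rw [AddCircle.toCircle_add]
  rfl

theorem eT_sub (θ θ' : Tor) : eT (θ - θ') = eT θ * (starRingEnd ℂ) (eT θ') := by
  unfold eT
  rw [sub_eq_add_neg, AddCircle.toCircle_add, AddCircle.toCircle_neg, Circle.coe_mul,
    Circle.coe_inv_eq_conj]

/-- `e^{i arg z}` -/
theorem eT_arg (z : ℂ) (hz : z ≠ 0) : eT ((Complex.arg z : ℝ) : Tor) = z / ‖z‖ := by
  unfold eT
  rw [AddCircle.toCircle_apply_mk]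
  have h2 : 2 * Real.pi / (2 * Real.pi) * Complex.arg z = Complex.arg z := by
    rw [div_self (by positivity), one_mul]
  rw [h2, Circle.coe_exp]
  have hn : (‖z‖ : ℂ) ≠ 0 := by simpa using hz
  rw [eq_div_iff hn, mul_comm]
  exact Complex.norm_mul_exp_arg_mul_I z

theorem chi_prj_ang (x : Xs n) (hx : x.1 ≠ 0) : chi (prj x) (ang x) = x := by
  unfold chi prj ang
  refine Prod.ext ?_ rfl
  simp only
  rw [eT_arg _ hx, Real.sqrt_sq (norm_nonneg _)]
  have hn : (‖x.1‖ : ℂ) ≠ 0 := by simpa using hx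
  field_simp

theorem prj_chi (b : Bs n) (hb : 0 ≤ b.1) (θ : Tor) : prj (chi b θ) = b := by
  unfold chi prj
  refine Prod.ext ?_ rfl
  simp only
  rw [norm_mul, norm_eT, mul_one, Complex.norm_real, Real.norm_of_nonneg (Real.sqrt_nonneg _),
    Real.sq_sqrt hb]

theorem ang_chi (b : Bs n) (hb : 0 < b.1) (θ : Tor) : ang (chi b θ) = θ := by
  unfold ang chi
  simp only
  have hs : 0 < Real.sqrt b.1 := Real.sqrt_pos.2 hb
  have hne : ((Real.sqrt b.1 : ℝ) : ℂ) * eT θ ≠ 0 := by
    apply mul_ne_zero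
    · exact_mod_cast hs.ne'
    · intro h
      have := norm_eT θ
      rw [h] at this
      simp at this
  have h1 := eT_arg _ hne
  have hnorm : ‖((Real.sqrt b.1 : ℝ) : ℂ) * eT θ‖ = Real.sqrt b.1 := by
    rw [norm_mul, norm_eT, mul_one, Complex.norm_real, Real.norm_of_nonneg (Real.sqrt_nonneg _)]
  rw [hnorm] at h1
  have h2 : eT ((Complex.arg (((Real.sqrt b.1 : ℝ) : ℂ) * eT θ) : ℝ) : Tor) = eT θ := by
    rw [h1]
    have : ((Real.sqrt b.1 : ℝ) : ℂ) ≠ 0 := by exact_mod_cast hs.ne'
    field_simp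
  have hinj : Function.Injective (AddCircle.toCircle : Tor → Circle) :=
    AddCircle.injective_toCircle (by positivity)
  apply hinj
  exact Circle.ext h2

/-- polar coordinates with `R = r²` and angle in the circle. -/
lemma polar2 (K : ℝ × Tor → ℝ≥0∞) (hK : Measurable K) (hK0 : ∀ R θ, R ≤ 0 → K (R, θ) = 0) :
    ∫⁻ p : ℂ, K (‖p‖ ^ 2, ((Complex.arg p : ℝ) : Tor)) =
      (2⁻¹ : ℝ≥0∞) * ∫⁻ R : ℝ, ∫⁻ θ : Tor, K (R, θ) := by
  set M : ℝ → ℝ≥0∞ := fun R => ∫⁻ θ : Tor, K (R, θ) with hM
  have hMm : Measurable M := hK.lintegral_prod_right'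
  have hM0 : ∀ R, R ≤ 0 → M R = 0 := fun R hR => by
    simp only [hM]
    simp [hK0 R _ hR]
  rw [← Complex.lintegral_comp_polarCoord_symm, polarCoord_target]
  -- the integrand on the target
  have h1 : ∫⁻ p in Ioi (0 : ℝ) ×ˢ Ioo (-Real.pi) Real.pi,
        ENNReal.ofReal p.1 • K (‖Complex.polarCoord.symm p‖ ^ 2,
          ((Complex.arg (Complex.polarCoord.symm p) : ℝ) : Tor)) =
      ∫⁻ p in Ioi (0 : ℝ) ×ˢ Ioo (-Real.pi) Real.pi,
        ENNReal.ofReal p.1 * K (p.1 ^ 2, ((p.2 : ℝ) : Tor)) := by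
    apply setLIntegral_congr_fun (measurableSet_Ioi.prod measurableSet_Ioo)
    intro p hp
    have hr : 0 < p.1 := hp.1
    have ht : p.2 ∈ Ioc (-Real.pi) Real.pi := ⟨hp.2.1, hp.2.2.le⟩
    have e : Complex.polarCoord.symm p = p.1 * (Complex.cos p.2 + Complex.sin p.2 * Complex.I) := by
      rw [Complex.polarCoord_symm_apply]; push_cast; rfl
    simp only [e, smul_eq_mul]
    rw [Complex.arg_mul_cos_add_sin_mul_I hr ht]
    have hn : ‖(p.1 : ℂ) * (Complex.cos p.2 + Complex.sin p.2 * Complex.I)‖ = p.1 := by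
      rw [norm_mul, Complex.norm_real, Real.norm_of_nonneg hr.le]
      have : ‖(Complex.cos p.2 + Complex.sin p.2 * Complex.I : ℂ)‖ = 1 := by
        have := Complex.norm_exp_ofReal_mul_I p.2
        rwa [Complex.exp_mul_I] at this
      rw [this, mul_one]
    rw [hn]
  have hmeasP : Measurable (fun p : ℝ × ℝ => ENNReal.ofReal p.1 * K (p.1 ^ 2, ((p.2 : ℝ) : Tor))) :=
    measurable_fst.ennreal_ofReal.mul
      (hK.comp ((measurable_fst.pow_const 2).prodMk
        (AddCircle.measurable_mk'.comp measurable_snd)))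
  rw [h1, Measure.volume_eq_prod, ← Measure.prod_restrict, lintegral_prod _ hmeasP.aemeasurable]
  have h2 : ∀ r : ℝ, ∫⁻ t in Ioo (-Real.pi) Real.pi, ENNReal.ofReal r * K (r ^ 2, ((t : ℝ) : Tor)) =
      ENNReal.ofReal r * M (r ^ 2) := by
    intro r
    have hmeas : Measurable (fun t : ℝ => K (r ^ 2, ((t : ℝ) : Tor))) :=
      hK.comp (measurable_const.prodMk AddCircle.measurable_mk')
    rw [lintegral_const_mul _ hmeas, setLIntegral_congr Ioo_ae_eq_Ioc]
    have := AddCircle.lintegral_preimage (2 * Real.pi) (-Real.pi) (fun θ : Tor => K (r ^ 2, θ))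
    rw [show -Real.pi + 2 * Real.pi = Real.pi by ring] at this
    rw [this]
  simp only [h2]
  -- the substitution `R = r²`
  have himg : (fun r : ℝ => r ^ 2) '' Ioi 0 = Ioi 0 := by
    ext R
    constructor
    · rintro ⟨r, hr, rfl⟩
      exact pow_pos (show (0 : ℝ) < r from hr) 2
    · intro hR
      exact ⟨Real.sqrt R, Real.sqrt_pos.2 hR, Real.sq_sqrt (le_of_lt hR)⟩
  have hsub := lintegral_image_eq_lintegral_abs_deriv_mul (s := Ioi (0 : ℝ))
    (f := fun r : ℝ => r ^ 2) (f' := fun r => 2 * r) measurableSet_Ioi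
    (fun r _ => by simpa using (hasDerivAt_pow 2 r).hasDerivWithinAt)
    (fun a ha b hb hab => by
      have ha' : (0 : ℝ) < a := ha
      have hb' : (0 : ℝ) < b := hb
      exact (pow_left_inj₀ ha'.le hb'.le two_ne_zero).1 hab) M
  rw [himg] at hsub
  have hR : ∫⁻ R : ℝ, M R = ∫⁻ R in Ioi (0 : ℝ), M R := by
    rw [← lintegral_indicator measurableSet_Ioi]
    apply lintegral_congr
    intro R
    by_cases h : R ∈ Ioi (0 : ℝ)
    · rw [indicator_of_mem h]
    · rw [indicator_of_notMem h, hM0 R (not_lt.1 h)]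
  have hmeasQ : Measurable (fun x : ℝ => ENNReal.ofReal |2 * x| * M (x ^ 2)) :=
    (ENNReal.measurable_ofReal.comp ((measurable_const.mul measurable_id).abs)).mul
      (hMm.comp (measurable_id.pow_const 2))
  rw [hR, hsub, ← lintegral_const_mul _ hmeasQ]
  apply setLIntegral_congr_fun measurableSet_Ioi
  intro r hr
  have hr' : (0 : ℝ) < r := hr
  simp only
  rw [abs_of_pos (by positivity), ENNReal.ofReal_mul (by norm_num), ← mul_assoc, ← mul_assoc]
  congr 2
  rw [show ENNReal.ofReal 2 = 2 by simp, ENNReal.inv_mul_cancel (by simp) (by simp), one_mul]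

/-- The polar change of variables: for a density `F` on the base, vanishing for `R ≤ 0`,
the image of `F(|p|², q) dp dq` under `x ↦ ((|p|², q), θ)` is `½ F dR dq ⊗ dθ`. -/
theorem polar_map (F : Bs n → ℝ≥0∞) (hF : Measurable F) (hF0 : ∀ b : Bs n, b.1 ≤ 0 → F b = 0) :
    (volume.withDensity (fun x : Xs n => F (prj x))).map (fun x => (prj x, ang x)) =
      (2⁻¹ : ℝ≥0∞) • ((volume.withDensity F).prod (volume : Measure Tor)) := by
  have hζ : Measurable (fun x : Xs n => (prj x, ang x)) := measurable_prj.prodMk measurable_ang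
  ext A hA
  -- the test function
  set G : Bs n × Tor → ℝ≥0∞ := fun z => F z.1 * A.indicator 1 z with hG
  have hGm : Measurable G := (hF.comp measurable_fst).mul (measurable_one.indicator hA)
  have hG0 : ∀ b θ, b.1 ≤ 0 → G (b, θ) = 0 := fun b θ hb => by simp [hG, hF0 b hb]
  set K : ℝ × Tor → ℝ≥0∞ := fun z => ∫⁻ q : Fq n, G ((z.1, q), z.2) with hKdef
  have hGm' : Measurable (fun w : (ℝ × Tor) × Fq n => G ((w.1.1, w.2), w.1.2)) :=
    hGm.comp ((measurable_fst.fst.prodMk measurable_snd).prodMk measurable_fst.snd)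
  have hKm : Measurable K := hGm'.lintegral_prod_right'
  have hK0 : ∀ R θ, R ≤ 0 → K (R, θ) = 0 := fun R θ hR => by
    simp only [hKdef]
    have : ∀ q : Fq n, G ((R, q), θ) = 0 := fun q => hG0 (R, q) θ hR
    simp [this]
  -- left side
  have hL : ((volume : Measure (Xs n)).withDensity (fun x : Xs n => F (prj x))).map
        (fun x => (prj x, ang x)) A = ∫⁻ p : ℂ, K (‖p‖ ^ 2, ((Complex.arg p : ℝ) : Tor)) := by
    rw [Measure.map_apply hζ hA, withDensity_apply _ (hζ hA),
      ← lintegral_indicator (hζ hA)]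
    have : ∀ x : Xs n, (((fun x => (prj x, ang x)) ⁻¹' A).indicator (fun x => F (prj x)) x) =
        G (prj x, ang x) := by
      intro x
      by_cases hx : (prj x, ang x) ∈ A
      · simp [hG, hx]
      · simp [hG, hx]
    simp_rw [this]
    have hm : Measurable (fun x : Xs n => G (prj x, ang x)) := hGm.comp hζ
    rw [Measure.volume_eq_prod, lintegral_prod _ hm.aemeasurable]
    rfl
  -- right side
  have hR : ((volume.withDensity F).prod (volume : Measure Tor)) A =
      ∫⁻ R : ℝ, ∫⁻ θ : Tor, K (R, θ) := by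
    rw [Measure.prod_apply hA]
    have hm1 : Measurable (fun b : Bs n => (volume : Measure Tor) (Prod.mk b ⁻¹' A)) :=
      measurable_measure_prodMk_left hA
    rw [lintegral_withDensity_eq_lintegral_mul _ hF hm1]
    have e1 : ∀ b : Bs n, (F * fun b => (volume : Measure Tor) (Prod.mk b ⁻¹' A)) b =
        ∫⁻ θ : Tor, G (b, θ) := by
      intro b
      simp only [Pi.mul_apply, hG]
      have hm3 : Measurable (fun θ : Tor => A.indicator (1 : Bs n × Tor → ℝ≥0∞) (b, θ)) :=
        (measurable_one.indicator hA).comp measurable_prodMk_left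
      rw [lintegral_const_mul _ hm3]
      congr 1
      rw [← lintegral_indicator_one (measurable_prodMk_left hA)]
      rfl
    simp_rw [e1]
    have hm2 : Measurable (fun b : Bs n => ∫⁻ θ : Tor, G (b, θ)) := hGm.lintegral_prod_right'
    rw [Measure.volume_eq_prod, lintegral_prod _ hm2.aemeasurable]
    apply lintegral_congr
    intro R
    simp only [hKdef]
    rw [lintegral_lintegral_swap]
    exact (hGm.comp ((measurable_const.prodMk measurable_fst).prodMk measurable_snd)).aemeasurable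
  rw [hL, Measure.smul_apply, hR, smul_eq_mul]
  exact polar2 K hKm hK0

end Crest.Agent.MG
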