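/-
S0175, MAIN part 2: the hyperedge maps in the polar chart, the potentials in ENNReal form,
estimates for the approximate Monge maps.
-/
import Crest.Agent.MGMain1
import Crest.Agent.MGPolar

set_option autoImplicit false

open MeasureTheory Set
open scoped ENNReal ContDiff

namespace Crest.Agent.MG

variable {n : ℕ}

/-- the angular shift. -/
noncomputable def gam (s : ℝ) (κ Lb : Bs n → ℝ) (b : Bs n) : Tor :=
  ((Complex.arg (zetaP s (κ b) (Lb b) b.1) : ℝ) : Tor)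

theorem measurable_Gk (s : ℝ) : Measurable (Gk s) := by
  unfold Gk
  fun_prop

theorem measurable_Pk (s : ℝ) : Measurable (Pk s) := by
  unfold Pk
  fun_prop

theorem measurable_gam (s : ℝ) {κ Lb : Bs n → ℝ} (hκ : Measurable κ) (hL : Measurable Lb) :
    Measurable (gam s κ Lb) := by
  have h1 : Measurable (fun b : Bs n => zetaP s (κ b) (Lb b) b.1) := by
    unfold zetaP
    have := measurable_Gk s
    have h2 : Measurable (fun b : Bs n => Gk s (κ b)) := this.comp hκ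
    fun_prop
  have h2 : Measurable (fun b : Bs n => Complex.arg (zetaP s (κ b) (Lb b) b.1)) :=
    Complex.measurable_arg.comp h1
  exact (AddCircle.measurable_mk' (a := 2 * Real.pi)).comp h2

theorem zetaP_normSq {s k L R : ℝ} (hR : 0 < R) (hGL : 0 ≤ Gk s k * L) :
    ‖zetaP s k L R‖ ^ 2 * R = k ^ 2 * R + Gk s k * L / 4 := by
  have h1 : ‖zetaP s k L R‖ ^ 2 = Complex.normSq (zetaP s k L R) := by
    rw [Complex.normSq_eq_norm_sq]
  rw [h1]
  unfold zetaP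
  rw [Complex.normSq_apply]
  simp only [Complex.add_re, Complex.ofReal_re, Complex.mul_re, Complex.I_re, mul_zero,
    Complex.ofReal_im, Complex.I_im, mul_one, sub_self, add_zero, Complex.add_im, Complex.mul_im,
    zero_add, zero_mul]
  have hs : Real.sqrt R ^ 2 = R := Real.sq_sqrt hR.le
  have hs' : Real.sqrt (Gk s k * L) ^ 2 = Gk s k * L := Real.sq_sqrt hGL
  have hpos : 0 < Real.sqrt R := Real.sqrt_pos.mpr hR
  have : (Real.sqrt (Gk s k * L) / (2 * Real.sqrt R)) * (Real.sqrt (Gk s k * L) / (2 * Real.sqrt R)) * R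
      = Gk s k * L / 4 := by
    field_simp
    rw [hs', hs]
    ring
  nlinarith [this]

theorem zetaP_ne {s k L R : ℝ} (hk : 0 < k) : zetaP s k L R ≠ 0 := by
  intro h
  have := congrArg Complex.re h
  simp only [zetaP, Complex.add_re, Complex.ofReal_re, Complex.mul_re, Complex.I_re, mul_zero,
    Complex.ofReal_im, Complex.I_im, mul_one, sub_self, add_zero, Complex.zero_re] at this
  linarith

/-- the polar form of `y₊`. -/
theorem chi_add_gam {s : ℝ} {x : Xs n} {k L : ℝ} (hx : x.1 ≠ 0) (hk : 0 < k) (hGL : 0 ≤ Gk s k * L)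
    (q : Fq n) :
    chi ((k ^ 2 * ‖x.1‖ ^ 2 + Gk s k * L / 4, q) : Bs n)
      (ang x + ((Complex.arg (zetaP s k L (‖x.1‖ ^ 2)) : ℝ) : Tor)) =
      (zetaP s k L (‖x.1‖ ^ 2) * x.1, q) := by
  have hR : 0 < ‖x.1‖ ^ 2 := by positivity
  have hζ := zetaP_ne (s := s) (L := L) (R := ‖x.1‖ ^ 2) hk
  set ζ := zetaP s k L (‖x.1‖ ^ 2) with hζdef
  have hnorm := zetaP_normSq (s := s) (k := k) (L := L) hR hGL
  rw [← hζdef] at hnorm
  have hsqrt : Real.sqrt (k ^ 2 * ‖x.1‖ ^ 2 + Gk s k * L / 4) = ‖ζ‖ * ‖x.1‖ := by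
    rw [← hnorm, ← mul_pow, Real.sqrt_sq (by positivity)]
  unfold chi
  simp only [Prod.mk.injEq, and_true]
  rw [eT_add]
  unfold ang
  rw [eT_arg _ hx, eT_arg _ hζ, hsqrt]
  have h1 : (‖x.1‖ : ℂ) ≠ 0 := by exact_mod_cast (norm_ne_zero_iff.mpr hx)
  have h2 : (‖ζ‖ : ℂ) ≠ 0 := by exact_mod_cast (norm_ne_zero_iff.mpr hζ)
  push_cast
  field_simp

/-- the polar form of `y₋`. -/
theorem chi_sub_gam {s : ℝ} {x : Xs n} {k L : ℝ} (hx : x.1 ≠ 0) (hk : 0 < k) (hGL : 0 ≤ Gk s k * L)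
    (q : Fq n) :
    chi ((k ^ 2 * ‖x.1‖ ^ 2 + Gk s k * L / 4, q) : Bs n)
      (ang x - ((Complex.arg (zetaP s k L (‖x.1‖ ^ 2)) : ℝ) : Tor)) =
      ((starRingEnd ℂ) (zetaP s k L (‖x.1‖ ^ 2)) * x.1, q) := by
  have hR : 0 < ‖x.1‖ ^ 2 := by positivity
  have hζ := zetaP_ne (s := s) (L := L) (R := ‖x.1‖ ^ 2) hk
  set ζ := zetaP s k L (‖x.1‖ ^ 2) with hζdef
  have hnorm := zetaP_normSq (s := s) (k := k) (L := L) hR hGL
  rw [← hζdef] at hnorm
  have hsqrt : Real.sqrt (k ^ 2 * ‖x.1‖ ^ 2 + Gk s k * L / 4) = ‖ζ‖ * ‖x.1‖ := by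
    rw [← hnorm, ← mul_pow, Real.sqrt_sq (by positivity)]
  unfold chi
  simp only [Prod.mk.injEq, and_true]
  rw [eT_sub]
  unfold ang
  rw [eT_arg _ hx, eT_arg _ hζ, hsqrt]
  have h1 : (‖x.1‖ : ℂ) ≠ 0 := by exact_mod_cast (norm_ne_zero_iff.mpr hx)
  have h2 : (‖ζ‖ : ℂ) ≠ 0 := by exact_mod_cast (norm_ne_zero_iff.mpr hζ)
  simp only [map_div₀, Complex.conj_ofReal]
  push_cast
  field_simp

section
variable {s : ℝ} {fI fO : Bs n → ℝ} {KI KO : Set (Bs n)} {κ Lb : Bs n → ℝ} {Φ ψ : Bs n → Bs n}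
  {ε d₀ C₀ : ℝ}

namespace Fam
variable (F : Fam s fI fO KI KO κ Lb Φ ψ ε d₀ C₀)
include F

theorem GL_nonneg {b : Bs n} (hb : b ∈ KI) : 0 ≤ Gk s (κ b) * Lb b :=
  (mul_pos (Gk_pos (F.rel b hb).hk) (F.rel b hb).hL).le

theorem yp_eq {x : Xs n} (hx : prj x ∈ KI) :
    chi (Φ (prj x)) (ang x + gam s κ Lb (prj x)) = yPlus s (κ (prj x)) (Lb (prj x)) x := by
  have hk := (F.rel _ hx).hk
  rw [F.Φeq _ hx]
  exact chi_add_gam (F.inner_ne hx) hk (F.GL_nonneg hx) _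

theorem ym_eq {x : Xs n} (hx : prj x ∈ KI) :
    chi (Φ (prj x)) (ang x - gam s κ Lb (prj x)) = yMinus s (κ (prj x)) (Lb (prj x)) x := by
  have hk := (F.rel _ hx).hk
  rw [F.Φeq _ hx]
  exact chi_sub_gam (F.inner_ne hx) hk (F.GL_nonneg hx) _

theorem prj_yp {x : Xs n} (hx : prj x ∈ KI) (θ : Tor) :
    prj (chi (Φ (prj x)) θ) = Φ (prj x) :=
  prj_chi _ (F.posO _ (F.ΦK _ hx)).le θ

/-- `Q < 1` -/
theorem Q_lt_one {b : Bs n} (hb : b ∈ KI) : (Φ b).1 < 1 := by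
  have hr := F.rel b hb
  rw [F.Φeq b hb]
  have h1 := hr.r2
  have h2 := hr.hL
  have h3 : 0 ≤ 2 * (nuk (κ b)) ^ 2 * (‖b.2‖ ^ 2 / (1 - nuk (κ b)) ^ 2) := by positivity
  simp only
  linarith

end Fam
end

/-- perturbation of squared distances. -/
theorem norm_sq_perturb {a b a' b' : ℂ} {B δ₁ δ₂ : ℝ} (h1 : ‖a - a'‖ ≤ δ₁) (h2 : ‖b - b'‖ ≤ δ₂)
    (ha : ‖a‖ ≤ B) (hb : ‖b‖ ≤ B) (ha' : ‖a'‖ ≤ B) (hb' : ‖b'‖ ≤ B) :
    |‖a - b‖ ^ 2 - ‖a' - b'‖ ^ 2| ≤ 4 * B * (δ₁ + δ₂) := by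
  have e : ‖a - b‖ ^ 2 - ‖a' - b'‖ ^ 2 = (‖a - b‖ - ‖a' - b'‖) * (‖a - b‖ + ‖a' - b'‖) := by ring
  rw [e, abs_mul]
  have h3 : |‖a - b‖ - ‖a' - b'‖| ≤ δ₁ + δ₂ := by
    have := abs_norm_sub_norm_le (a - b) (a' - b')
    have h4 : a - b - (a' - b') = (a - a') - (b - b') := by ring
    rw [h4] at this
    have h5 := norm_sub_le (a - a') (b - b')
    linarith
  have h6 : ‖a - b‖ ≤ 2 * B := by
    have := norm_sub_le a b
    linarith
  have h7 : ‖a' - b'‖ ≤ 2 * B := by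
    have := norm_sub_le a' b'
    linarith
  have h8 : |‖a - b‖ + ‖a' - b'‖| ≤ 4 * B := by
    rw [abs_of_nonneg (by positivity)]
    linarith
  have hB : 0 ≤ B := le_trans (norm_nonneg _) ha
  calc |‖a - b‖ - ‖a' - b'‖| * |‖a - b‖ + ‖a' - b'‖|
      ≤ (δ₁ + δ₂) * (4 * B) := mul_le_mul h3 h8 (abs_nonneg _) (le_trans (abs_nonneg _) h3)
    _ = 4 * B * (δ₁ + δ₂) := by ring

theorem gSlope_anti {s t t' : ℝ} (hs : 0 < s) (ht : 0 < t) (h : t ≤ t') :
    gSlope s t' ≤ gSlope s t := by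
  unfold gSlope
  refine mul_le_mul_of_nonneg_left ?_ (by positivity)
  exact Real.rpow_le_rpow_of_nonpos ht h (by linarith)

/-- Lipschitz control of `g`, above a floor. -/
theorem g_perturb {s t t' d Δ : ℝ} (hs : 0 < s) (hd : 0 < d) (ht' : 2 * d ≤ t') (hΔ : Δ ≤ d)
    (h : |t - t'| ≤ Δ) : 0 < t ∧ g s t ≤ g s t' + gSlope s d * Δ := by
  have h1 : t' - Δ ≤ t := by
    have := (abs_le.mp h).1
    linarith
  have ht : d ≤ t := by linarith
  have ht0 : 0 < t := by linarith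
  refine ⟨ht0, ?_⟩
  have ht'0 : 0 < t' := by linarith
  have h2 := g_sub_le hs ht0 ht'0
  have h3 : gSlope s t ≤ gSlope s d := gSlope_anti hs hd ht
  have h4 : gSlope s t * |t' - t| ≤ gSlope s d * Δ := by
    rw [abs_sub_comm]
    exact mul_le_mul h3 h (abs_nonneg _) (gSlope_pos hs hd).le
  linarith

/-- `cX` in terms of `cR`. -/
theorem cX_of_pos {s : ℝ} {x y z : Xs n} (hxy : 0 < D2 x y) (hxz : 0 < D2 x z) (hyz : 0 < D2 y z) :
    cX s (x, y, z) = ENNReal.ofReal (cR s x y z) := by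
  unfold cX cR
  simp only
  rw [pc_of_pos hxy, pc_of_pos hxz, pc_of_pos hyz,
    ENNReal.ofReal_add (add_pos (g_pos hxy) (g_pos hxz)).le (g_pos hyz).le,
    ENNReal.ofReal_add (g_pos hxy).le (g_pos hxz).le]

theorem cX_top {s : ℝ} (hs : 0 < s) {x y z : Xs n}
    (h : ¬ (0 < D2 x y ∧ 0 < D2 x z ∧ 0 < D2 y z)) : cX s (x, y, z) = ⊤ := by
  unfold cX
  simp only
  have hn := fun u v : Xs n => D2_nonneg u v
  by_cases h1 : 0 < D2 x y
  · by_cases h2 : 0 < D2 x z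
    · have h3 : D2 y z = 0 := by
        have : ¬ 0 < D2 y z := fun h3 => h ⟨h1, h2, h3⟩
        linarith [hn y z]
      rw [pc_of_zero hs h3]; simp
    · have h3 : D2 x z = 0 := by linarith [hn x z]
      rw [pc_of_zero hs h3]; simp
  · have h3 : D2 x y = 0 := by linarith [hn x y]
    rw [pc_of_zero hs h3]; simp

theorem cX_cyc (s : ℝ) (x y z : Xs n) : cX s (x, y, z) = cX s (y, z, x) := by
  unfold cX
  simp only
  rw [pc_comm s x y, pc_comm s x z]
  ring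

theorem measurable_cX (s : ℝ) : Measurable (cX s : Xs n × Xs n × Xs n → ℝ≥0∞) := by
  have h : ∀ (u v : Xs n × Xs n × Xs n → Xs n), Measurable u → Measurable v →
      Measurable (fun a => pc s (u a) (v a)) := by
    intro u v hu hv
    unfold pc D2
    have h1 : Measurable (fun a => ‖(u a).1 - (v a).1‖) :=
      (hu.fst.sub hv.fst).norm
    have h2 : Measurable (fun a => ‖(u a).2 - (v a).2‖) :=
      (hu.snd.sub hv.snd).norm
    exact (ENNReal.measurable_ofReal.comp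
      (Real.continuous_sqrt.measurable.comp ((h1.pow_const 2).add (h2.pow_const 2)))).pow_const _
  unfold cX
  exact ((h _ _ measurable_fst (measurable_fst.comp measurable_snd)).add
    (h _ _ measurable_fst (measurable_snd.comp measurable_snd))).add
    (h _ _ (measurable_fst.comp measurable_snd) (measurable_snd.comp measurable_snd))

end Crest.Agent.MG
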