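/-
S0175, piece SKEW: the maps `y₊, y₋` and the approximate Monge maps in the polar chart.
See MGPLAN.md.  Uses `MeasurePreserving.skew_product`, `polar_map`, `compress`.
-/
import Crest.Agent.MGPolar
import Crest.Agent.MGCircle

set_option autoImplicit false

open MeasureTheory Set
open scoped ENNReal

namespace Crest.Agent.MG

variable {n : ℕ}

namespace SkewAux

/-- the polar chart, uncurried -/
noncomputable def chiU (z : Bs n × Tor) : Xs n := chi z.1 z.2

/-- `x ↦ (prj x, ang x)` -/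
noncomputable def zt (x : Xs n) : Bs n × Tor := (prj x, ang x)

lemma measurable_chiU : Measurable (chiU : Bs n × Tor → Xs n) := measurable_chi

lemma measurable_zt : Measurable (zt : Xs n → Bs n × Tor) :=
  measurable_prj.prodMk measurable_ang

lemma ne_zero_of_pos {x : Xs n} (h : 0 < (prj x).1) : x.1 ≠ 0 := by
  intro h0
  simp [prj, h0] at h

/-- the density `F∘prj` lives on `prj⁻¹ K`, where `chi` inverts `(prj, ang)`. -/
lemma ae_chi {F : Bs n → ℝ≥0∞} (hF : Measurable F) {K : Set (Bs n)}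
    (h0 : ∀ b, b ∉ K → F b = 0) (hpos : ∀ b ∈ K, 0 < b.1) :
    ∀ᵐ x ∂((volume : Measure (Xs n)).withDensity (fun x => F (prj x))), chiU (zt x) = x := by
  have hm : Measurable (fun x : Xs n => F (prj x)) := hF.comp measurable_prj
  rw [ae_withDensity_iff hm]
  refine Filter.Eventually.of_forall fun x hx => ?_
  have hK : prj x ∈ K := by
    by_contra hn
    exact hx (h0 _ hn)
  exact chi_prj_ang x (ne_zero_of_pos (hpos _ hK))

lemma F_zero {F : Bs n → ℝ≥0∞} {K : Set (Bs n)}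
    (h0 : ∀ b, b ∉ K → F b = 0) (hpos : ∀ b ∈ K, 0 < b.1) (b : Bs n) (hb : b.1 ≤ 0) : F b = 0 :=
  h0 b fun hK => absurd (hpos b hK) (not_lt.2 hb)

/-- restriction of the polar picture -/
lemma mu_restrict {F : Bs n → ℝ≥0∞} (hF : Measurable F) {K : Set (Bs n)}
    (h0 : ∀ b, b ∉ K → F b = 0) (hpos : ∀ b ∈ K, 0 < b.1)
    {A : Set (Bs n × Tor)} (hA : MeasurableSet A) :
    ((volume : Measure (Xs n)).withDensity (fun x => F (prj x))).restrict (zt ⁻¹' A) =
      (2⁻¹ : ℝ≥0∞) • (((volume.withDensity F).prod (volume : Measure Tor)).restrict A).map chiU := by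
  set μ := (volume : Measure (Xs n)).withDensity (fun x => F (prj x)) with hμ
  have hae : (chiU ∘ zt) =ᵐ[μ.restrict (zt ⁻¹' A)] id :=
    ae_restrict_of_ae (ae_chi hF h0 hpos)
  have key : μ.restrict (zt ⁻¹' A) = (μ.restrict (zt ⁻¹' A)).map (chiU ∘ zt) := by
    rw [Measure.map_congr hae, Measure.map_id]
  have hpol : μ.map zt = (2⁻¹ : ℝ≥0∞) • ((volume.withDensity F).prod (volume : Measure Tor)) :=
    polar_map F hF (F_zero h0 hpos)
  rw [key, ← Measure.map_map measurable_chiU measurable_zt,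
    ← Measure.restrict_map measurable_zt hA, hpol, Measure.restrict_smul, Measure.map_smul]

lemma mu_univ {F : Bs n → ℝ≥0∞} (hF : Measurable F) {K : Set (Bs n)}
    (h0 : ∀ b, b ∉ K → F b = 0) (hpos : ∀ b ∈ K, 0 < b.1) :
    (volume : Measure (Xs n)).withDensity (fun x => F (prj x)) =
      (2⁻¹ : ℝ≥0∞) • ((volume.withDensity F).prod (volume : Measure Tor)).map chiU := by
  have := mu_restrict hF h0 hpos (A := univ) MeasurableSet.univ
  simpa using this

/-- pushing `F∘prj` by a map in polar coordinates. -/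
lemma mu_map {F : Bs n → ℝ≥0∞} (hF : Measurable F) {K : Set (Bs n)}
    (h0 : ∀ b, b ∉ K → F b = 0) (hpos : ∀ b ∈ K, 0 < b.1)
    {S : Bs n × Tor → Bs n × Tor} (hS : Measurable S) :
    ((volume : Measure (Xs n)).withDensity (fun x => F (prj x))).map (fun x => chiU (S (zt x))) =
      (2⁻¹ : ℝ≥0∞) • (((volume.withDensity F).prod (volume : Measure Tor)).map S).map chiU := by
  have hpol : ((volume : Measure (Xs n)).withDensity (fun x => F (prj x))).map zt =
      (2⁻¹ : ℝ≥0∞) • ((volume.withDensity F).prod (volume : Measure Tor)) :=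
    polar_map F hF (F_zero h0 hpos)
  have : (fun x => chiU (S (zt x))) = (chiU ∘ S) ∘ (zt : Xs n → Bs n × Tor) := rfl
  rw [this, ← Measure.map_map (measurable_chiU.comp hS) measurable_zt, hpol, Measure.map_smul,
    Measure.map_map measurable_chiU hS]

/-- the skew product on `mF ⊗ vol` -/
lemma skew {m : Measure (Bs n)} [SFinite m] {Φ : Bs n → Bs n} (hΦ : Measurable Φ)
    {g : Bs n → Tor → Tor} (hg : Measurable (Function.uncurry g))
    {ν : Measure Tor} (hν : ∀ b, (volume : Measure Tor).map (g b) = ν) :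
    (m.prod (volume : Measure Tor)).map (fun p => (Φ p.1, g p.1 p.2)) = (m.map Φ).prod ν := by
  have h1 : MeasurePreserving Φ m (m.map Φ) := ⟨hΦ, rfl⟩
  exact (h1.skew_product hg (Filter.Eventually.of_forall hν)).map_eq

lemma mem_of_mem {K : Set (Bs n)} {x : Xs n} (hx : prj x ∈ K) (hpos : ∀ b ∈ K, 0 < b.1) :
    x.1 ≠ 0 := ne_zero_of_pos (hpos _ hx)

lemma chi_fst_sub (b : Bs n) (θ θ' : Tor) {δ : ℝ} (h : ‖eT θ - eT θ'‖ ≤ δ) :
    ‖(chi b θ).1 - (chi b θ').1‖ ≤ δ * Real.sqrt b.1 := by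
  have : (chi b θ).1 - (chi b θ').1 = ((Real.sqrt b.1 : ℝ) : ℂ) * (eT θ - eT θ') := by
    simp only [chi]; ring
  rw [this, norm_mul, Complex.norm_real, Real.norm_of_nonneg (Real.sqrt_nonneg _), mul_comm]
  exact mul_le_mul_of_nonneg_right h (Real.sqrt_nonneg _)

lemma map_add_vol (c : Tor) : (volume : Measure Tor).map (fun θ => θ + c) = volume :=
  (measurePreserving_add_right volume c).map_eq

lemma map_sub_vol (c : Tor) : (volume : Measure Tor).map (fun θ => θ - c) = volume := by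
  simp only [sub_eq_add_neg]
  exact map_add_vol (-c)

end SkewAux

open SkewAux

theorem skew_maps (FI FO : Bs n → ℝ≥0∞) (hFI : Measurable FI) (hFO : Measurable FO)
    (KI KO : Set (Bs n)) (hKI : MeasurableSet KI) (hKO : MeasurableSet KO)
    (hFI0 : ∀ b, b ∉ KI → FI b = 0) (hFO0 : ∀ b, b ∉ KO → FO b = 0)
    (hKIpos : ∀ b ∈ KI, 0 < b.1) (hKOpos : ∀ b ∈ KO, 0 < b.1)
    (hfinI : ∫⁻ b, FI b ≠ ⊤) (hfinO : ∫⁻ b, FO b ≠ ⊤)
    (Φ ψ : Bs n → Bs n) (hΦ : Measurable Φ) (hψ : Measurable ψ)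
    (hΦK : ∀ b ∈ KI, Φ b ∈ KO) (hψK : ∀ c ∈ KO, ψ c ∈ KI)
    (hψΦ : ∀ b ∈ KI, ψ (Φ b) = b) (hΦψ : ∀ c ∈ KO, Φ (ψ c) = c)
    (hmap : (volume.withDensity FI).map Φ = (2⁻¹ : ℝ≥0∞) • volume.withDensity FO)
    (γ : Bs n → Tor) (hγ : Measurable γ) :
    let μI : Measure (Xs n) := volume.withDensity (fun x => FI (prj x))
    let μO : Measure (Xs n) := volume.withDensity (fun x => FO (prj x))
    let I : Set (Xs n) := prj ⁻¹' KI
    let O : Set (Xs n) := prj ⁻¹' KO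
    let yp : Xs n → Xs n := fun x => chi (Φ (prj x)) (ang x + γ (prj x))
    let ym : Xs n → Xs n := fun x => chi (Φ (prj x)) (ang x - γ (prj x))
    Measurable yp ∧ Measurable ym ∧
    μO = (2 : ℝ≥0∞) • μI.map yp ∧ μO = (2 : ℝ≥0∞) • μI.map ym ∧
    ∀ δ : ℝ, 0 < δ → ∃ (T₁ T₂ T₁' T₂' : Xs n → Xs n) (O₁ : Set (Xs n)),
      Measurable T₁ ∧ Measurable T₂ ∧ Measurable T₁' ∧ Measurable T₂' ∧
      MeasurableSet O₁ ∧ O₁ ⊆ O ∧
      μI.map T₁ = μO.restrict O₁ ∧ μI.map T₂ = μO.restrict (O \ O₁) ∧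
      (∀ x ∈ I, T₁ x ∈ O₁ ∧ T₂ x ∈ O \ O₁ ∧ T₁' (T₁ x) = x ∧ T₂' (T₂ x) = x) ∧
      (∀ y ∈ O₁, T₁' y ∈ I ∧ T₁ (T₁' y) = y) ∧
      (∀ y ∈ O \ O₁, T₂' y ∈ I ∧ T₂ (T₂' y) = y) ∧
      (∀ x, (T₁ x).2 = (yp x).2 ∧ (T₂ x).2 = (ym x).2 ∧
        ‖(T₁ x).1 - (yp x).1‖ ≤ δ * Real.sqrt (Φ (prj x)).1 ∧
        ‖(T₂ x).1 - (ym x).1‖ ≤ δ * Real.sqrt (Φ (prj x)).1) := by
  intro μI μO I O yp ym
  have hmp : Measurable (prj : Xs n → Bs n) := measurable_prj
  have hma : Measurable (ang : Xs n → Tor) := measurable_ang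
  have hc : Measurable (chiU : Bs n × Tor → Xs n) := measurable_chiU
  have h2 : (2 : ℝ≥0∞) * 2⁻¹ = 1 := ENNReal.mul_inv_cancel (by simp) (by simp)
  have hO_eq : μO = (2⁻¹ : ℝ≥0∞) • ((volume.withDensity FO).prod (volume : Measure Tor)).map chiU :=
    mu_univ hFO hFO0 hKOpos
  -- a general computation for the exact maps
  have hexact : ∀ {g : Bs n → Tor → Tor}, Measurable (Function.uncurry g) →
      (∀ b, (volume : Measure Tor).map (g b) = volume) →
      μO = (2 : ℝ≥0∞) • μI.map (fun x => chi (Φ (prj x)) (g (prj x) (ang x))) := by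
    intro g hg hν
    have hS : Measurable (fun p : Bs n × Tor => (Φ p.1, g p.1 p.2)) :=
      (hΦ.comp measurable_fst).prodMk hg
    have h1 := mu_map hFI hFI0 hKIpos hS
    rw [skew hΦ hg hν, hmap, Measure.prod_smul_left] at h1
    have h3 : μI.map (fun x => chi (Φ (prj x)) (g (prj x) (ang x))) =
        (2⁻¹ : ℝ≥0∞) • (((2⁻¹ : ℝ≥0∞) • (volume.withDensity FO).prod (volume : Measure Tor)).map chiU) :=
      h1
    rw [h3, Measure.map_smul, hO_eq, smul_smul, smul_smul, mul_comm (2 : ℝ≥0∞)]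
    have h5 : ((2⁻¹ : ℝ≥0∞) * 2 * 2⁻¹) = 2⁻¹ := by rw [mul_comm (2⁻¹ : ℝ≥0∞) 2, h2, one_mul]
    rw [h5]
  -- exact maps
  have hugp : Measurable (Function.uncurry (fun (b : Bs n) (θ : Tor) => θ + γ b)) :=
    measurable_snd.add (hγ.comp measurable_fst)
  have hugm : Measurable (Function.uncurry (fun (b : Bs n) (θ : Tor) => θ - γ b)) :=
    measurable_snd.sub (hγ.comp measurable_fst)
  have hyp : Measurable yp :=
    hc.comp ((hΦ.comp hmp).prodMk (hma.add (hγ.comp hmp)))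
  have hym : Measurable ym :=
    hc.comp ((hΦ.comp hmp).prodMk (hma.sub (hγ.comp hmp)))
  refine ⟨hyp, hym, hexact hugp (fun b => map_add_vol _), hexact hugm (fun b => map_sub_vol _), ?_⟩
  intro δ hδ
  obtain ⟨C₁, C₂, D₁, D₂, Ev, hC₁, hC₂, hD₁, hD₂, hEv, hmC₁, hmC₂, hCD₁, hCD₂, hDC₁, hDC₂, hcl₁, hcl₂⟩ :=
    compress δ hδ
  -- the approximate maps
  let T₁ : Xs n → Xs n := fun x => chi (Φ (prj x)) (C₁ (ang x + γ (prj x)))
  let T₂ : Xs n → Xs n := fun x => chi (Φ (prj x)) (C₂ (ang x - γ (prj x)))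
  let T₁' : Xs n → Xs n := fun y => chi (ψ (prj y)) (D₁ (ang y) - γ (ψ (prj y)))
  let T₂' : Xs n → Xs n := fun y => chi (ψ (prj y)) (D₂ (ang y) + γ (ψ (prj y)))
  let O₁ : Set (Xs n) := O ∩ ang ⁻¹' Ev
  have hO₁ : O₁ = zt ⁻¹' (KO ×ˢ Ev) := by
    ext x; simp [O₁, O, zt]
  have hO₂ : O \ O₁ = zt ⁻¹' (KO ×ˢ Evᶜ) := by
    ext x; simp only [O₁, O, zt, mem_sdiff, mem_inter_iff, mem_preimage, mem_prod, mem_compl_iff]
    tauto
  have hmO_restrict : (volume.withDensity FO : Measure (Bs n)).restrict KO = volume.withDensity FO := by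
    apply Measure.restrict_eq_self_of_ae_mem
    rw [ae_withDensity_iff hFO]
    refine Filter.Eventually.of_forall fun b hb => ?_
    by_contra hn
    exact hb (hFO0 b hn)
  have hrestr : ∀ {E : Set Tor}, MeasurableSet E →
      μO.restrict (zt ⁻¹' (KO ×ˢ E)) =
        (2⁻¹ : ℝ≥0∞) • (((volume.withDensity FO).prod ((volume : Measure Tor).restrict E))).map chiU := by
    intro E hE
    rw [show μO = _ from rfl, mu_restrict hFO hFO0 hKOpos (hKO.prod hE), ← Measure.prod_restrict,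
      hmO_restrict]
  have happrox : ∀ {g : Bs n → Tor → Tor} {E : Set Tor}, Measurable (Function.uncurry g) →
      (∀ b, (volume : Measure Tor).map (g b) = (2 : ℝ≥0∞) • (volume : Measure Tor).restrict E) →
      μI.map (fun x => chi (Φ (prj x)) (g (prj x) (ang x))) =
        (2⁻¹ : ℝ≥0∞) • (((volume.withDensity FO).prod ((volume : Measure Tor).restrict E))).map chiU := by
    intro g E hg hν
    have hS : Measurable (fun p : Bs n × Tor => (Φ p.1, g p.1 p.2)) :=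
      (hΦ.comp measurable_fst).prodMk hg
    have h1 := mu_map hFI hFI0 hKIpos hS
    rw [skew hΦ hg hν, hmap, Measure.prod_smul_left, Measure.prod_smul_right, smul_smul,
      show ((2 : ℝ≥0∞)⁻¹ * 2) = 1 by rw [mul_comm]; exact h2, one_smul] at h1
    exact h1
  refine ⟨T₁, T₂, T₁', T₂', O₁, ?_, ?_, ?_, ?_, ?_, ?_, ?_, ?_, ?_, ?_, ?_, ?_⟩
  · exact hc.comp ((hΦ.comp hmp).prodMk (hC₁.comp (hma.add (hγ.comp hmp))))
  · exact hc.comp ((hΦ.comp hmp).prodMk (hC₂.comp (hma.sub (hγ.comp hmp))))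
  · exact hc.comp ((hψ.comp hmp).prodMk ((hD₁.comp hma).sub (hγ.comp (hψ.comp hmp))))
  · exact hc.comp ((hψ.comp hmp).prodMk ((hD₂.comp hma).add (hγ.comp (hψ.comp hmp))))
  · exact (hmp hKO).inter (hma hEv)
  · exact inter_subset_left
  · have hg : Measurable (Function.uncurry (fun (b : Bs n) (θ : Tor) => C₁ (θ + γ b))) :=
      hC₁.comp hugp
    have := happrox hg (E := Ev) (fun b => by
      rw [show (fun θ => C₁ (θ + γ b)) = C₁ ∘ (fun θ => θ + γ b) from rfl,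
        ← Measure.map_map hC₁ (measurable_add_const _), map_add_vol, hmC₁])
    rw [hO₁, hrestr hEv]
    exact this
  · have hg : Measurable (Function.uncurry (fun (b : Bs n) (θ : Tor) => C₂ (θ - γ b))) :=
      hC₂.comp hugm
    have := happrox hg (E := Evᶜ) (fun b => by
      rw [show (fun θ => C₂ (θ - γ b)) = C₂ ∘ (fun θ => θ - γ b) from rfl,
        ← Measure.map_map hC₂ (measurable_sub_const _), map_sub_vol, hmC₂])
    rw [hO₂, hrestr hEv.compl]
    exact this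
  · intro x hx
    have hb : prj x ∈ KI := hx
    have hx0 : x.1 ≠ 0 := mem_of_mem hb hKIpos
    have hΦb := hΦK _ hb
    have hpos := hKOpos _ hΦb
    have e1 : ∀ θ, prj (chi (Φ (prj x)) θ) = Φ (prj x) := fun θ => prj_chi _ hpos.le θ
    have e2 : ∀ θ, ang (chi (Φ (prj x)) θ) = θ := fun θ => ang_chi _ hpos θ
    refine ⟨⟨?_, ?_⟩, ⟨?_, ?_⟩, ?_, ?_⟩
    · show prj (T₁ x) ∈ KO
      simp only [T₁, e1]; exact hΦb
    · show ang (T₁ x) ∈ Ev
      simp only [T₁, e2]; exact (hCD₁ _).1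
    · show prj (T₂ x) ∈ KO
      simp only [T₂, e1]; exact hΦb
    · rintro ⟨-, h⟩
      have h' : ang (T₂ x) ∈ Ev := h
      simp only [T₂, e2] at h'
      exact (hCD₂ _).1 h'
    · simp only [T₁', T₁, e1, e2, hψΦ _ hb, (hCD₁ _).2, add_sub_cancel_right]
      exact chi_prj_ang x hx0
    · simp only [T₂', T₂, e1, e2, hψΦ _ hb, (hCD₂ _).2, sub_add_cancel]
      exact chi_prj_ang x hx0
  · intro y hy
    have hc' : prj y ∈ KO := hy.1
    have hE : ang y ∈ Ev := hy.2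
    have hy0 : y.1 ≠ 0 := mem_of_mem hc' hKOpos
    have hψc := hψK _ hc'
    have hpos := hKIpos _ hψc
    have e1 : ∀ θ, prj (chi (ψ (prj y)) θ) = ψ (prj y) := fun θ => prj_chi _ hpos.le θ
    have e2 : ∀ θ, ang (chi (ψ (prj y)) θ) = θ := fun θ => ang_chi _ hpos θ
    refine ⟨?_, ?_⟩
    · show prj (T₁' y) ∈ KI
      simp only [T₁', e1]; exact hψc
    · simp only [T₁, T₁', e1, e2, hΦψ _ hc', sub_add_cancel, hDC₁ _ hE]
      exact chi_prj_ang y hy0
  · intro y hy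
    have hc' : prj y ∈ KO := hy.1
    have hE : ang y ∉ Ev := fun h => hy.2 ⟨hy.1, h⟩
    have hy0 : y.1 ≠ 0 := mem_of_mem hc' hKOpos
    have hψc := hψK _ hc'
    have hpos := hKIpos _ hψc
    have e1 : ∀ θ, prj (chi (ψ (prj y)) θ) = ψ (prj y) := fun θ => prj_chi _ hpos.le θ
    have e2 : ∀ θ, ang (chi (ψ (prj y)) θ) = θ := fun θ => ang_chi _ hpos θ
    refine ⟨?_, ?_⟩
    · show prj (T₂' y) ∈ KI
      simp only [T₂', e1]; exact hψc
    · simp only [T₂, T₂', e1, e2, hΦψ _ hc', add_sub_cancel_right, hDC₂ _ hE]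
      exact chi_prj_ang y hy0
  · intro x
    exact ⟨rfl, rfl, chi_fst_sub _ _ _ (hcl₁ _), chi_fst_sub _ _ _ (hcl₂ _)⟩

end Crest.Agent.MG
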