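/-
S0175, MAIN part 3: assembly on the model `ℂ × ℝⁿ`.
-/
import Crest.Agent.MGMain2
import Crest.Agent.MGAbs
import Crest.Agent.MGSkew

set_option autoImplicit false

open MeasureTheory Set
open scoped ENNReal ContDiff

namespace Crest.Agent.MG

variable {n : ℕ}

theorem continuous_prj : Continuous (prj : Xs n → Bs n) := by
  unfold prj
  fun_prop

theorem contDiff_prj : ContDiff ℝ ∞ (prj : Xs n → Bs n) := by
  unfold prj
  refine ContDiff.prodMk ?_ contDiff_snd
  exact (contDiff_norm_sq ℝ).comp contDiff_fst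

theorem isCompact_prj_preimage {K : Set (Bs n)} (hK : IsCompact K) :
    IsCompact ((prj : Xs n → Bs n) ⁻¹' K) := by
  obtain ⟨M, hM⟩ := hK.isBounded.exists_norm_le
  have hclosed : IsClosed ((prj : Xs n → Bs n) ⁻¹' K) := hK.isClosed.preimage continuous_prj
  have hsub : (prj : Xs n → Bs n) ⁻¹' K ⊆ Metric.closedBall (0 : Xs n) (max (M + 1) M) := by
    intro x hx
    have h := hM _ hx
    rw [mem_closedBall_zero_iff, Prod.norm_def]
    have h1 : ‖(prj x).1‖ ≤ M := le_trans (norm_fst_le _) h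
    have h2 : ‖(prj x).2‖ ≤ M := le_trans (norm_snd_le _) h
    have h3 : ‖x.1‖ ^ 2 ≤ M := by
      have : (prj x).1 = ‖x.1‖ ^ 2 := rfl
      rw [this, Real.norm_eq_abs] at h1
      exact le_trans (le_abs_self _) h1
    have h4 : ‖x.1‖ ≤ M + 1 := by nlinarith [norm_nonneg x.1, sq_nonneg (‖x.1‖ - 1)]
    exact max_le_max h4 h2
  exact (isCompact_closedBall (0 : Xs n) _).of_isClosed_subset hclosed hsub

/-- concentration of a density measure -/
theorem wd_compl_zero {d : Xs n → ℝ≥0∞} {S : Set (Xs n)} (hS : MeasurableSet S)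
    (h : ∀ x, x ∉ S → d x = 0) : (volume.withDensity d) Sᶜ = 0 := by
  rw [withDensity_apply _ hS.compl]
  rw [setLIntegral_congr_fun hS.compl (g := fun _ => 0) (fun x hx => h x hx)]
  simp

section
variable {s : ℝ} {fI fO : Bs n → ℝ} {KI KO : Set (Bs n)} {κ Lb : Bs n → ℝ} {Φ ψ : Bs n → Bs n}
  {ε d₀ C₀ : ℝ}

/-- the function `f` on the model. -/
noncomputable def fX (fI fO : Bs n → ℝ) (x : Xs n) : ℝ := fI (prj x) + fO (prj x)

namespace Fam
variable (F : Fam s fI fO KI KO κ Lb Φ ψ ε d₀ C₀)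
include F

theorem fX_nonneg (x : Xs n) : 0 ≤ fX fI fO x := add_nonneg (F.nI _) (F.nO _)

theorem fX_contDiff : ContDiff ℝ ∞ (fX fI fO : Xs n → ℝ) :=
  (F.cI.comp contDiff_prj).add (F.cO.comp contDiff_prj)

theorem fX_compact : HasCompactSupport (fX fI fO : Xs n → ℝ) := by
  refine HasCompactSupport.intro (K := prj ⁻¹' (KI ∪ KO))
    (isCompact_prj_preimage (F.compI.union F.compO)) ?_
  intro x hx
  simp only [mem_preimage, mem_union, not_or] at hx
  simp [fX, F.zI _ hx.1, F.zO _ hx.2]

theorem fX_sq (x : Xs n) : ENNReal.ofReal (fX fI fO x ^ 2) =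
    ENNReal.ofReal (fI (prj x) ^ 2) + ENNReal.ofReal (fO (prj x) ^ 2) := by
  rw [← ENNReal.ofReal_add (by positivity) (by positivity)]
  congr 1
  have : fI (prj x) * fO (prj x) = 0 := by
    by_cases h : prj x ∈ KI
    · have h' : prj x ∉ KO := fun h' => (Set.disjoint_left.mp F.disj) h h'
      simp [F.zO _ h']
    · simp [F.zI _ h]
  unfold fX
  nlinarith [this]

theorem mFI : Measurable (fun b : Bs n => ENNReal.ofReal (fI b ^ 2)) :=
  ENNReal.measurable_ofReal.comp ((F.cI.continuous.pow 2).measurable)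

theorem mFO : Measurable (fun b : Bs n => ENNReal.ofReal (fO b ^ 2)) :=
  ENNReal.measurable_ofReal.comp ((F.cO.continuous.pow 2).measurable)

theorem hKI : MeasurableSet KI := F.compI.isClosed.measurableSet
theorem hKO : MeasurableSet KO := F.compO.isClosed.measurableSet

theorem hfinI : ∫⁻ b, ENNReal.ofReal (fI b ^ 2) ≠ ⊤ := by
  rw [F.mass]; exact ENNReal.ofReal_ne_top

/-- total masses on the base -/
theorem mass_O : ∫⁻ b, ENNReal.ofReal (fO b ^ 2) = 2 * ENNReal.ofReal (1 / (3 * Real.pi)) := by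
  have h := congrArg (fun m => m univ) F.hmap
  simp only [Measure.smul_apply, smul_eq_mul] at h
  rw [Measure.map_apply F.mΦ MeasurableSet.univ, preimage_univ, withDensity_apply _ MeasurableSet.univ,
    withDensity_apply _ MeasurableSet.univ, Measure.restrict_univ, F.mass] at h
  rw [h, ← mul_assoc]
  rw [ENNReal.mul_inv_cancel (by norm_num) (by norm_num), one_mul]

theorem hfinO : ∫⁻ b, ENNReal.ofReal (fO b ^ 2) ≠ ⊤ := by
  rw [F.mass_O]
  exact ENNReal.mul_ne_top (by norm_num) ENNReal.ofReal_ne_top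


/-- the inner mass on the model -/
theorem mass_I : (volume.withDensity (fun x : Xs n => ENNReal.ofReal (fI (prj x) ^ 2))) univ =
    ENNReal.ofReal (1 / 3) := by
  have h0 : ∀ b : Bs n, b.1 ≤ 0 → (fun b : Bs n => ENNReal.ofReal (fI b ^ 2)) b = 0 := by
    intro b hb
    have : b ∉ KI := fun hb' => absurd (F.posI b hb') (not_lt.mpr hb)
    simp [F.zI b this]
  have h := polar_map (n := n) (fun b => ENNReal.ofReal (fI b ^ 2)) F.mFI h0
  have h2 := congrArg (fun m => m univ) h
  simp only [Measure.smul_apply, smul_eq_mul] at h2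
  have hζ : Measurable (fun x : Xs n => (prj x, ang x)) := measurable_prj.prodMk measurable_ang
  rw [Measure.map_apply hζ MeasurableSet.univ, preimage_univ] at h2
  rw [h2, ← univ_prod_univ, Measure.prod_prod, withDensity_apply _ MeasurableSet.univ,
    Measure.restrict_univ, F.mass, AddCircle.measure_univ]
  have hpi := Real.pi_pos
  rw [← ENNReal.ofReal_mul (by positivity)]
  have e : 1 / (3 * Real.pi) * (2 * Real.pi) = 2 / 3 := by field_simp
  rw [e]
  have e2 : (2 : ℝ≥0∞)⁻¹ = ENNReal.ofReal (2⁻¹) := by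
    rw [ENNReal.ofReal_inv_of_pos (by norm_num)]
    norm_num
  rw [e2, ← ENNReal.ofReal_mul (by positivity)]
  congr 1
  norm_num

end Fam
end

end Crest.Agent.MG
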