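/-
S0175, MAIN part 4: applying the abstract theorem on the model `ℂ × ℝⁿ`.
-/
import Crest.Agent.MGMain3

set_option autoImplicit false

open MeasureTheory Set
open scoped ENNReal ContDiff

namespace Crest.Agent.MG

variable {n : ℕ}

section
variable {s : ℝ} {fI fO : Bs n → ℝ} {KI KO : Set (Bs n)} {κ Lb : Bs n → ℝ} {Φ ψ : Bs n → Bs n}
  {ε d₀ C₀ : ℝ}

namespace Fam
variable (F : Fam s fI fO KI KO κ Lb Φ ψ ε d₀ C₀)
include F

/-- the potential shifted to be nonnegative -/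
theorem uu_shift_nonneg (hs : 0 < s) {x : Xs n} (hx : prj x ∈ KI ∨ prj x ∈ KO) :
    0 ≤ uu s KI κ Lb x + max C₀ 0 := by
  rcases hx with hx | hx
  · have := F.uu_inner_pos hx
    have h2 := le_max_right C₀ 0
    linarith
  · have := F.uu_outer_ge hx
    have h2 := le_max_left C₀ 0
    linarith

theorem measurable_uu : Measurable (uu s KI κ Lb : Xs n → ℝ) := by
  classical
  have h1 : MeasurableSet {x : Xs n | prj x ∈ KI} := measurable_prj F.hKI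
  have hg : ∀ {f : Xs n → ℝ}, Measurable f → Measurable (fun x => g s (f x)) := by
    intro f hf
    unfold g
    fun_prop
  have hk : Measurable (fun x : Xs n => κ (prj x)) := F.mκ.comp measurable_prj
  have hL : Measurable (fun x : Xs n => Lb (prj x)) := F.mL.comp measurable_prj
  have hG : Measurable (fun x : Xs n => Gk s (κ (prj x))) := (measurable_Gk s).comp hk
  have hP : Measurable (fun x : Xs n => Pk s (κ (prj x))) := (measurable_Pk s).comp hk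
  have hI : Measurable (fun x : Xs n => uI s (κ (prj x)) (Lb (prj x))) := by
    unfold uI
    exact ((hg (hG.mul hL)).add (measurable_const.mul (hg (hP.mul hL)))).add
      (measurable_const.mul (hg hL))
  have hO : Measurable (fun x : Xs n => uO s x) := by
    unfold uO
    refine measurable_const.mul (hg ?_)
    unfold Lout
    fun_prop
  have : (uu s KI κ Lb : Xs n → ℝ) = fun x => if prj x ∈ KI then uI s (κ (prj x)) (Lb (prj x)) else uO s x := by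
    funext x
    by_cases h : prj x ∈ KI
    · simp [uu_of_mem h, h]
    · simp [uu_of_not_mem h, h]
  rw [this]
  exact Measurable.ite h1 hI hO


theorem norm_inner_le {x : Xs n} (hx : prj x ∈ KI) : ‖x.1‖ ≤ ε := by
  have h := F.small _ hx
  simp only [prj] at h
  have h2 : ‖x.1‖ ^ 2 ≤ ε ^ 2 := by nlinarith [sq_nonneg ‖x.2‖]
  exact (pow_le_pow_iff_left₀ (norm_nonneg _) F.εpos.le (by norm_num)).mp h2

theorem norm_yPlus_le {x : Xs n} (hx : prj x ∈ KI) :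
    ‖(yPlus s (κ (prj x)) (Lb (prj x)) x).1‖ ≤ 1 := by
  have hR : 0 < ‖x.1‖ ^ 2 := F.posI _ hx
  have h1 := zetaP_normSq (s := s) (k := κ (prj x)) (L := Lb (prj x)) hR (F.GL_nonneg hx)
  have h2 := F.Q_lt_one hx
  rw [F.Φeq _ hx] at h2
  simp only [prj] at h2 h1
  have h3 : ‖(yPlus s (κ (prj x)) (Lb (prj x)) x).1‖ ^ 2 < 1 := by
    simp only [yPlus, norm_mul, mul_pow, prj]
    rw [h1]
    exact h2
  have : ‖(yPlus s (κ (prj x)) (Lb (prj x)) x).1‖ ^ 2 ≤ 1 ^ 2 := by simpa using h3.le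
  exact (pow_le_pow_iff_left₀ (norm_nonneg _) zero_le_one (by norm_num)).mp this

theorem norm_yMinus_le {x : Xs n} (hx : prj x ∈ KI) :
    ‖(yMinus s (κ (prj x)) (Lb (prj x)) x).1‖ ≤ 1 := by
  have := F.norm_yPlus_le hx
  simpa [yPlus, yMinus, norm_mul] using this

/-- perturbed cost -/
theorem pt_close (hs : 0 < s) {x : Xs n} (hx : prj x ∈ KI) (a b : Xs n) {δ : ℝ} (hδ : 0 < δ) (hδ1 : δ ≤ 1)
    (h1 : a.2 = (yPlus s (κ (prj x)) (Lb (prj x)) x).2)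
    (h2 : b.2 = (yMinus s (κ (prj x)) (Lb (prj x)) x).2)
    (h3 : ‖a.1 - (yPlus s (κ (prj x)) (Lb (prj x)) x).1‖ ≤ δ)
    (h4 : ‖b.1 - (yMinus s (κ (prj x)) (Lb (prj x)) x).1‖ ≤ δ)
    (hΔ : 8 * (ε + 2) * δ ≤ d₀ / 2) :
    cX s (x, a, b) ≤ cX s (x, yPlus s (κ (prj x)) (Lb (prj x)) x, yMinus s (κ (prj x)) (Lb (prj x)) x) +
      ENNReal.ofReal (3 * gSlope s (d₀ / 2) * (8 * (ε + 2) * δ)) := by
  set yp := yPlus s (κ (prj x)) (Lb (prj x)) x with hyp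
  set ym := yMinus s (κ (prj x)) (Lb (prj x)) x with hym
  have hε := F.εpos
  have hd := F.d₀pos
  obtain ⟨v1, v2, v3, -, -⟩ := hyper_values hs (F.inner_ne hx) (F.inner_rel hx)
  rw [← hyp] at v1 v3
  rw [← hym] at v2 v3
  obtain ⟨hlG, hlP⟩ := F.dlow _ hx
  have hB0 : 0 ≤ ε + 2 := by linarith
  have hx1 := F.norm_inner_le hx
  have hp1 : ‖yp.1‖ ≤ 1 := F.norm_yPlus_le hx
  have hm1 : ‖ym.1‖ ≤ 1 := F.norm_yMinus_le hx
  have ha1 : ‖a.1‖ ≤ 2 := by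
    have := norm_sub_norm_le a.1 yp.1
    linarith
  have hb1 : ‖b.1‖ ≤ 2 := by
    have := norm_sub_norm_le b.1 ym.1
    linarith
  -- perturbation of the three squared distances
  have d1 : |D2 x a - D2 x yp| ≤ 8 * (ε + 2) * δ := by
    unfold D2
    rw [h1]
    have := norm_sq_perturb (a := x.1) (a' := x.1) (b := a.1) (b' := yp.1) (B := ε + 2) (δ₁ := 0) (δ₂ := δ)
      (by simp) h3 (by linarith) (by linarith) (by linarith) (by linarith)
    have e : ‖x.1 - a.1‖ ^ 2 + ‖x.2 - yp.2‖ ^ 2 - (‖x.1 - yp.1‖ ^ 2 + ‖x.2 - yp.2‖ ^ 2) =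
      ‖x.1 - a.1‖ ^ 2 - ‖x.1 - yp.1‖ ^ 2 := by ring
    rw [e]
    nlinarith
  have d2 : |D2 x b - D2 x ym| ≤ 8 * (ε + 2) * δ := by
    unfold D2
    rw [h2]
    have := norm_sq_perturb (a := x.1) (a' := x.1) (b := b.1) (b' := ym.1) (B := ε + 2) (δ₁ := 0) (δ₂ := δ)
      (by simp) h4 (by linarith) (by linarith) (by linarith) (by linarith)
    have e : ‖x.1 - b.1‖ ^ 2 + ‖x.2 - ym.2‖ ^ 2 - (‖x.1 - ym.1‖ ^ 2 + ‖x.2 - ym.2‖ ^ 2) =
      ‖x.1 - b.1‖ ^ 2 - ‖x.1 - ym.1‖ ^ 2 := by ring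
    rw [e]
    nlinarith
  have d3 : |D2 a b - D2 yp ym| ≤ 8 * (ε + 2) * δ := by
    unfold D2
    rw [h1, h2]
    have := norm_sq_perturb (a := a.1) (a' := yp.1) (b := b.1) (b' := ym.1) (B := ε + 2) (δ₁ := δ) (δ₂ := δ)
      h3 h4 (by linarith) (by linarith) (by linarith) (by linarith)
    have e : ‖a.1 - b.1‖ ^ 2 + ‖yp.2 - ym.2‖ ^ 2 - (‖yp.1 - ym.1‖ ^ 2 + ‖yp.2 - ym.2‖ ^ 2) =
      ‖a.1 - b.1‖ ^ 2 - ‖yp.1 - ym.1‖ ^ 2 := by ring
    rw [e]
    nlinarith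
  have hd2 : 0 < d₀ / 2 := by linarith
  have hΔ' : 0 ≤ 8 * (ε + 2) * δ := by positivity
  obtain ⟨p1, q1⟩ := g_perturb hs hd2 (t := D2 x a) (t' := D2 x yp) (by rw [v1]; linarith) hΔ d1
  obtain ⟨p2, q2⟩ := g_perturb hs hd2 (t := D2 x b) (t' := D2 x ym) (by rw [v2]; linarith) hΔ d2
  obtain ⟨p3, q3⟩ := g_perturb hs hd2 (t := D2 a b) (t' := D2 yp ym) (by rw [v3]; linarith) hΔ d3
  have hyp1 : 0 < D2 x yp := by rw [v1]; linarith
  have hym1 : 0 < D2 x ym := by rw [v2]; linarith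
  have hyy1 : 0 < D2 yp ym := by rw [v3]; linarith
  rw [cX_of_pos p1 p2 p3, cX_of_pos hyp1 hym1 hyy1]
  have hc0 : 0 ≤ cR s x yp ym :=
    (add_pos (add_pos (g_pos hyp1) (g_pos hym1)) (g_pos hyy1)).le
  have hS : 0 ≤ gSlope s (d₀ / 2) := (gSlope_pos hs hd2).le
  rw [← ENNReal.ofReal_add hc0 (by positivity)]
  apply ENNReal.ofReal_le_ofReal
  unfold cR
  nlinarith

theorem cost_bound (hs : 0 < s) {x : Xs n} (hx : prj x ∈ KI) :
    cX s (x, yPlus s (κ (prj x)) (Lb (prj x)) x, yMinus s (κ (prj x)) (Lb (prj x)) x) ≤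
      ENNReal.ofReal (3 * g s d₀) := by
  obtain ⟨v1, v2, v3, -, -⟩ := hyper_values hs (F.inner_ne hx) (F.inner_rel hx)
  obtain ⟨hlG, hlP⟩ := F.dlow _ hx
  have hd := F.d₀pos
  have hyp1 : 0 < D2 x (yPlus s (κ (prj x)) (Lb (prj x)) x) := by rw [v1]; linarith
  have hym1 : 0 < D2 x (yMinus s (κ (prj x)) (Lb (prj x)) x) := by rw [v2]; linarith
  have hyy1 : 0 < D2 (yPlus s (κ (prj x)) (Lb (prj x)) x) (yMinus s (κ (prj x)) (Lb (prj x)) x) := by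
    rw [v3]; linarith
  rw [cX_of_pos hyp1 hym1 hyy1]
  apply ENNReal.ofReal_le_ofReal
  unfold cR
  rw [v1, v2, v3]
  have h1 := g_le_g hs hd hlP
  have h2 := g_le_g hs hd hlG
  linarith

/-- sum of shifted potentials -/
theorem vsum (hs : 0 < s) {x y z : Xs n} (hx : prj x ∈ KI ∨ prj x ∈ KO)
    (hy : prj y ∈ KI ∨ prj y ∈ KO) (hz : prj z ∈ KI ∨ prj z ∈ KO) :
    ENNReal.ofReal (uu s KI κ Lb x + max C₀ 0) + ENNReal.ofReal (uu s KI κ Lb y + max C₀ 0) +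
      ENNReal.ofReal (uu s KI κ Lb z + max C₀ 0) =
    ENNReal.ofReal (uu s KI κ Lb x + uu s KI κ Lb y + uu s KI κ Lb z + 3 * max C₀ 0) := by
  have h1 := F.uu_shift_nonneg hs hx
  have h2 := F.uu_shift_nonneg hs hy
  have h3 := F.uu_shift_nonneg hs hz
  rw [← ENNReal.ofReal_add h1 h2, ← ENNReal.ofReal_add (add_nonneg h1 h2) h3]
  congr 1
  ring

/-- `cX + K₀` as an `ofReal` -/
theorem cXK (hs : 0 < s) {x y z : Xs n} (hxy : 0 < D2 x y) (hxz : 0 < D2 x z) (hyz : 0 < D2 y z) :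
    cX s (x, y, z) + ENNReal.ofReal (3 * max C₀ 0) = ENNReal.ofReal (cR s x y z + 3 * max C₀ 0) := by
  have h0 : 0 ≤ cR s x y z := (add_pos (add_pos (g_pos hxy) (g_pos hxz)) (g_pos hyz)).le
  have h1 : 0 ≤ 3 * max C₀ 0 := by
    have := le_max_right C₀ 0
    linarith
  rw [cX_of_pos hxy hxz hyz, ENNReal.ofReal_add h0 h1]

/-- the ENNReal dual inequality. -/
theorem ennreal_dual (hs : 0 < s) {x y z : Xs n} (hx : prj x ∈ KI ∨ prj x ∈ KO)
    (hy : prj y ∈ KI ∨ prj y ∈ KO) (hz : prj z ∈ KI ∨ prj z ∈ KO) :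
    ENNReal.ofReal (uu s KI κ Lb x + max C₀ 0) + ENNReal.ofReal (uu s KI κ Lb y + max C₀ 0) +
      ENNReal.ofReal (uu s KI κ Lb z + max C₀ 0) ≤ cX s (x, y, z) + ENNReal.ofReal (3 * max C₀ 0) := by
  by_cases h : 0 < D2 x y ∧ 0 < D2 x z ∧ 0 < D2 y z
  · obtain ⟨hxy, hxz, hyz⟩ := h
    rw [F.vsum hs hx hy hz, F.cXK hs hxy hxz hyz]
    apply ENNReal.ofReal_le_ofReal
    have := F.real_dual hs hx hy hz hxy hxz hyz
    linarith
  · rw [cX_top hs h]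
    simp

/-- the ENNReal rigidity. -/
theorem ennreal_rigid (hs : 0 < s) {x y z : Xs n} (hx : prj x ∈ KI ∨ prj x ∈ KO)
    (hy : prj y ∈ KI) (hz : prj z ∈ KI ∨ prj z ∈ KO)
    (heq : ENNReal.ofReal (uu s KI κ Lb x + max C₀ 0) + ENNReal.ofReal (uu s KI κ Lb y + max C₀ 0) +
      ENNReal.ofReal (uu s KI κ Lb z + max C₀ 0) = cX s (x, y, z) + ENNReal.ofReal (3 * max C₀ 0)) :
    prj x ∈ KO ∧ (x = yPlus s (κ (prj y)) (Lb (prj y)) y ∨ x = yMinus s (κ (prj y)) (Lb (prj y)) y) := by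
  rw [F.vsum hs hx (Or.inl hy) hz] at heq
  by_cases h : 0 < D2 x y ∧ 0 < D2 x z ∧ 0 < D2 y z
  · obtain ⟨hxy, hxz, hyz⟩ := h
    rw [F.cXK hs hxy hxz hyz] at heq
    have h1 := F.uu_shift_nonneg hs hx
    have h2 := F.uu_shift_nonneg hs (Or.inl hy)
    have h3 := F.uu_shift_nonneg hs hz
    have h4 : 0 ≤ cR s x y z := (add_pos (add_pos (g_pos hxy) (g_pos hxz)) (g_pos hyz)).le
    have h5 : 0 ≤ max C₀ 0 := le_max_right _ _
    rw [ENNReal.ofReal_eq_ofReal_iff (by linarith) (by linarith)] at heq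
    exact F.real_rigid hs hx hy hz hxy hxz hyz (by linarith)
  · rw [cX_top hs h] at heq
    simp at heq

/-- the ENNReal contact on hyperedges. -/
theorem ennreal_contact (hs : 0 < s) {x : Xs n} (hx : prj x ∈ KI)
    (hp : prj (yPlus s (κ (prj x)) (Lb (prj x)) x) ∈ KO)
    (hm : prj (yMinus s (κ (prj x)) (Lb (prj x)) x) ∈ KO) :
    ENNReal.ofReal (uu s KI κ Lb x + max C₀ 0) +
      ENNReal.ofReal (uu s KI κ Lb (yPlus s (κ (prj x)) (Lb (prj x)) x) + max C₀ 0) +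
      ENNReal.ofReal (uu s KI κ Lb (yMinus s (κ (prj x)) (Lb (prj x)) x) + max C₀ 0) =
    cX s (x, yPlus s (κ (prj x)) (Lb (prj x)) x, yMinus s (κ (prj x)) (Lb (prj x)) x) +
      ENNReal.ofReal (3 * max C₀ 0) := by
  obtain ⟨h1, h2, h3, h4⟩ := F.contact_values hs hx
  rw [F.vsum hs (Or.inl hx) (Or.inr hp) (Or.inr hm), F.cXK hs h1 h2 h3]
  congr 1
  rw [uu_of_mem hx, uu_of_not_mem (F.not_inner_of_outer hp), uu_of_not_mem (F.not_inner_of_outer hm),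
    h4]

end Fam
end

end Crest.Agent.MG
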