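/-
S0175, MAIN: the theorem on the model `ℂ × ℝⁿ`.
-/
import Crest.Agent.MGMain4

set_option autoImplicit false

open MeasureTheory Set
open scoped ENNReal ContDiff

namespace Crest.Agent.MG

variable {n : ℕ}

section
variable {s : ℝ} {fI fO : Bs n → ℝ} {KI KO : Set (Bs n)} {κ Lb : Bs n → ℝ} {Φ ψ : Bs n → Bs n}
  {ε d₀ C₀ : ℝ}

namespace Fam
variable (F : Fam s fI fO KI KO κ Lb Φ ψ ε d₀ C₀)
include F

theorem main_of_fam (hs : 0 < s) :
    ∫ x, fX fI fO x ^ 2 = 1 ∧
      MongeResult (volume.withDensity fun x : Xs n => ENNReal.ofReal (fX fI fO x ^ 2)) (cX s) := by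
  classical
  set FI : Bs n → ℝ≥0∞ := fun b => ENNReal.ofReal (fI b ^ 2) with hFI
  set FO : Bs n → ℝ≥0∞ := fun b => ENNReal.ofReal (fO b ^ 2) with hFO
  set μI : Measure (Xs n) := volume.withDensity (fun x => FI (prj x)) with hμI
  set μO : Measure (Xs n) := volume.withDensity (fun x => FO (prj x)) with hμO
  set μ : Measure (Xs n) := volume.withDensity fun x : Xs n => ENNReal.ofReal (fX fI fO x ^ 2) with hμ
  set I : Set (Xs n) := prj ⁻¹' KI with hIdef
  set O : Set (Xs n) := prj ⁻¹' KO with hOdef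
  have hI : MeasurableSet I := measurable_prj F.hKI
  have hO : MeasurableSet O := measurable_prj F.hKO
  have hdisj : Disjoint I O := by
    rw [Set.disjoint_left]
    intro x hx hx'
    exact (Set.disjoint_left.mp F.disj) hx hx'
  have hsum : μ = μI + μO := by
    have h : (fun x : Xs n => ENNReal.ofReal (fX fI fO x ^ 2)) =
        (fun x => FI (prj x)) + (fun x => FO (prj x)) := funext F.fX_sq
    rw [hμ, h, hμI, hμO]
    exact withDensity_add_left (F.mFI.comp measurable_prj) _
  have hFI0 : ∀ b, b ∉ KI → FI b = 0 := by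
    intro b hb; simp [hFI, F.zI b hb]
  have hFO0 : ∀ b, b ∉ KO → FO b = 0 := by
    intro b hb; simp [hFO, F.zO b hb]
  have hγ : Measurable (gam s κ Lb : Bs n → Tor) := measurable_gam s F.mκ F.mL
  obtain ⟨myp, mym, hmp, hmm, happ⟩ := skew_maps FI FO F.mFI F.mFO KI KO F.hKI F.hKO hFI0 hFO0 F.posI F.posO
    F.hfinI F.hfinO Φ ψ F.mΦ F.mψ F.ΦK F.ψK F.ψΦ F.Φψ F.hmap (gam s κ Lb) hγ
  set yp : Xs n → Xs n := fun x => chi (Φ (prj x)) (ang x + gam s κ Lb (prj x)) with hypdef
  set ym : Xs n → Xs n := fun x => chi (Φ (prj x)) (ang x - gam s κ Lb (prj x)) with hymdef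
  have hmp' : μO = (2 : ℝ≥0∞) • μI.map yp := hmp
  have hmm' : μO = (2 : ℝ≥0∞) • μI.map ym := hmm
  have hmI : μI univ = ENNReal.ofReal (1 / 3) := F.mass_I
  have hmO : μO univ = ENNReal.ofReal (2 / 3) := by
    rw [hmp']
    simp only [Measure.smul_apply, smul_eq_mul]
    rw [Measure.map_apply myp MeasurableSet.univ, preimage_univ, hmI]
    have : (2 : ℝ≥0∞) = ENNReal.ofReal 2 := by simp
    rw [this, ← ENNReal.ofReal_mul (by norm_num)]
    norm_num
  have hμuniv : μ univ = 1 := by
    rw [hsum, Measure.add_apply, hmI, hmO, ← ENNReal.ofReal_add (by norm_num) (by norm_num)]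
    norm_num
  haveI hprob : IsProbabilityMeasure μ := ⟨hμuniv⟩
  have hcI : μI Iᶜ = 0 := wd_compl_zero hI (fun x hx => hFI0 _ hx)
  have hcO : μO Oᶜ = 0 := wd_compl_zero hO (fun x hx => hFO0 _ hx)
  have hμIO : μI O = 0 := measure_mono_null (fun x hx hx' => (Set.disjoint_left.mp hdisj) hx' hx) hcI
  have hμOI : μO I = 0 := measure_mono_null (fun x hx hx' => (Set.disjoint_left.mp hdisj) hx hx') hcO
  have hresI : μ.restrict I = μI := by
    rw [hsum, Measure.restrict_add, Measure.restrict_eq_zero.mpr hμOI, add_zero]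
    exact Measure.restrict_eq_self_of_ae_mem (by rw [ae_iff]; exact hcI)
  have hresS : ∀ S : Set (Xs n), S ⊆ O → μ.restrict S = μO.restrict S := by
    intro S hS
    rw [hsum, Measure.restrict_add, Measure.restrict_eq_zero.mpr (measure_mono_null hS hμIO), zero_add]
  have hresO : μ.restrict O = μO := by
    rw [hresS O Subset.rfl]
    exact Measure.restrict_eq_self_of_ae_mem (by rw [ae_iff]; exact hcO)
  have hcov : μ (I ∪ O)ᶜ = 0 := by
    rw [hsum, Measure.add_apply]
    have h1 : μI (I ∪ O)ᶜ = 0 := measure_mono_null (compl_subset_compl.mpr subset_union_left) hcI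
    have h2 : μO (I ∪ O)ᶜ = 0 := measure_mono_null (compl_subset_compl.mpr subset_union_right) hcO
    rw [h1, h2, add_zero]
  have hμI_eq : μ I = ENNReal.ofReal (1 / 3) := by
    rw [← Measure.restrict_apply_univ, hresI, hmI]
  have hIpos : μ I ≠ 0 := by
    rw [hμI_eq]
    simp
  -- yp, ym on I
  have hypI : ∀ x ∈ I, yp x = yPlus s (κ (prj x)) (Lb (prj x)) x := fun x hx => F.yp_eq hx
  have hymI : ∀ x ∈ I, ym x = yMinus s (κ (prj x)) (Lb (prj x)) x := fun x hx => F.ym_eq hx
  have hyO : ∀ x ∈ I, yp x ∈ O ∧ ym x ∈ O := by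
    intro x hx
    have hx' : prj x ∈ KI := hx
    constructor
    · show prj (yp x) ∈ KO
      simp only [hypdef]
      rw [F.prj_yp hx']
      exact F.ΦK _ hx'
    · show prj (ym x) ∈ KO
      simp only [hymdef]
      rw [F.prj_yp hx']
      exact F.ΦK _ hx'
  -- potentials
  set C₁ := max C₀ 0 with hC₁
  have hC₁0 : 0 ≤ C₁ := le_max_right _ _
  set v : Xs n → ℝ≥0∞ := fun x => ENNReal.ofReal (uu s KI κ Lb x + C₁) with hv
  have mv : Measurable v :=
    ENNReal.measurable_ofReal.comp (F.measurable_uu.add measurable_const)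
  have hM : 0 < g s (4 * ε ^ 2) := g_pos (by have := F.εpos; positivity)
  have hvb : ∀ x ∈ I ∪ O, v x ≤ ENNReal.ofReal (g s (4 * ε ^ 2) + C₁) := by
    intro x hx
    apply ENNReal.ofReal_le_ofReal
    rcases hx with hx | hx
    · have := F.uu_inner_lt hx
      have h2 := F.uu_inner_pos hx
      linarith
    · have := F.uu_outer_neg hs hx
      linarith
  have hmain : MongeResult μ (cX s) := by
    refine monge_of_data (fun f g hf hg => measurableSet_eq_fun hf hg) μ (cX s) (measurable_cX s)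
      (cX_cyc s) I O hI hO hdisj hcov hIpos yp ym myp mym (by rw [hresO, hresI]; exact hmp')
      (by rw [hresO, hresI]; exact hmm') hyO v mv _ ENNReal.ofReal_ne_top hvb
      (ENNReal.ofReal (3 * C₁)) ENNReal.ofReal_ne_top ?_ ?_ ?_ ?_
    · intro x hx y hy z hz
      exact F.ennreal_dual hs hx hy hz
    · intro x hx
      have := F.ennreal_contact hs hx (by have := (hyO x hx).1; rwa [hypI x hx] at this)
        (by have := (hyO x hx).2; rwa [hymI x hx] at this)
      rw [hypI x hx, hymI x hx]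
      exact this
    · intro x hx y hy z hz heq
      have := F.ennreal_rigid hs hx hy hz heq
      rw [hypI y hy, hymI y hy]
      exact this
    · intro ε' hε'
      obtain ⟨r, hr0, hr1⟩ := ENNReal.lt_iff_exists_nnreal_btwn.mp hε'
      set η : ℝ := (r : ℝ) with hη
      have hηpos : 0 < η := by
        have : (0 : ℝ≥0∞) < r := hr0
        simpa [hη] using this
      have hηε : ENNReal.ofReal η < ε' := by
        simpa [hη] using hr1
      have hd2 : 0 < d₀ / 2 := by have := F.d₀pos; linarith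
      set Lip := gSlope s (d₀ / 2) with hLip
      have hLip0 : 0 < Lip := gSlope_pos hs hd2
      have hB : 0 < 8 * (ε + 2) := by have := F.εpos; linarith
      set Δ := min (d₀ / 2) (η / (3 * Lip + 1)) with hΔ
      have hΔ0 : 0 < Δ := lt_min hd2 (by positivity)
      set δ := min 1 (Δ / (8 * (ε + 2))) with hδ
      have hδ0 : 0 < δ := lt_min one_pos (by positivity)
      have hδ1 : δ ≤ 1 := min_le_left _ _
      have hδΔ : 8 * (ε + 2) * δ ≤ Δ := by
        have : δ ≤ Δ / (8 * (ε + 2)) := min_le_right _ _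
        calc 8 * (ε + 2) * δ ≤ 8 * (ε + 2) * (Δ / (8 * (ε + 2))) :=
              mul_le_mul_of_nonneg_left this hB.le
          _ = Δ := mul_div_cancel₀ _ hB.ne'
      have hΔd : Δ ≤ d₀ / 2 := min_le_left _ _
      have hΔη : 3 * Lip * Δ ≤ η := by
        have : Δ ≤ η / (3 * Lip + 1) := min_le_right _ _
        have h2 : (3 * Lip + 1) * Δ ≤ η := by
          calc (3 * Lip + 1) * Δ ≤ (3 * Lip + 1) * (η / (3 * Lip + 1)) :=
                mul_le_mul_of_nonneg_left this (by positivity)
            _ = η := by field_simp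
        nlinarith
      obtain ⟨T₁, T₂, T₁', T₂', O₁, m1, m2, m3, m4, mO₁, hO₁, hT₁, hT₂, hinv1, hinv2, hinv3, hclose⟩ :=
        happ δ hδ0
      refine ⟨T₁, T₂, T₁', T₂', O₁, m1, m2, m3, m4, mO₁, hO₁, ?_, ?_, hinv1, hinv2, hinv3, ?_⟩
      · rw [hresI, hresS O₁ hO₁]; exact hT₁
      · rw [hresI, hresS (O \ O₁) diff_subset]; exact hT₂
      · -- the cost estimate
        have hpt : ∀ x ∈ I, cX s (x, T₁ x, T₂ x) ≤ cX s (x, yp x, ym x) + ENNReal.ofReal η := by
          intro x hx
          obtain ⟨c1, c2, c3, c4⟩ := hclose x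
          have hx' : prj x ∈ KI := hx
          have hsq : Real.sqrt (Φ (prj x)).1 ≤ 1 := by
            have := (F.Q_lt_one hx').le
            rw [Real.sqrt_le_left (by norm_num)]
            simpa using this
          have hδ' : δ * Real.sqrt (Φ (prj x)).1 ≤ δ := by
            have := mul_le_mul_of_nonneg_left hsq hδ0.le
            linarith
          rw [hypI x hx] at c1 c3 ⊢
          rw [hymI x hx] at c2 c4 ⊢
          have := F.pt_close hs hx' (T₁ x) (T₂ x) hδ0 hδ1 c1 c2 (c3.trans hδ') (c4.trans hδ')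
            (hδΔ.trans hΔd)
          refine this.trans ?_
          gcongr
          have h3 : 3 * Lip * (8 * (ε + 2) * δ) ≤ 3 * Lip * Δ :=
            mul_le_mul_of_nonneg_left hδΔ (by positivity)
          linarith
        have hfin : ∫⁻ x in I, cX s (x, yp x, ym x) ∂μ ≠ ⊤ := by
          have : ∫⁻ x in I, cX s (x, yp x, ym x) ∂μ ≤ ∫⁻ _ in I, ENNReal.ofReal (3 * g s d₀) ∂μ := by
            refine setLIntegral_mono' hI ?_
            intro x hx
            rw [hypI x hx, hymI x hx]
            exact F.cost_bound hs hx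
          refine ne_top_of_le_ne_top ?_ this
          rw [setLIntegral_const]
          exact ENNReal.mul_ne_top ENNReal.ofReal_ne_top (measure_ne_top _ _)
        calc ∫⁻ x in I, cX s (x, T₁ x, T₂ x) ∂μ
            ≤ ∫⁻ x in I, (cX s (x, yp x, ym x) + ENNReal.ofReal η) ∂μ := setLIntegral_mono' hI hpt
          _ = ∫⁻ x in I, cX s (x, yp x, ym x) ∂μ + ENNReal.ofReal η * μ I := by
              rw [lintegral_add_right _ measurable_const, lintegral_const, Measure.restrict_apply_univ]
          _ < ∫⁻ x in I, cX s (x, yp x, ym x) ∂μ + ε' := by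
              refine ENNReal.add_lt_add_left hfin ?_
              have h1 : μ I ≤ 1 := prob_le_one
              calc ENNReal.ofReal η * μ I ≤ ENNReal.ofReal η * 1 := by gcongr
                _ = ENNReal.ofReal η := mul_one _
                _ < ε' := hηε
  refine ⟨?_, hmain⟩
  -- the integral
  have hnn : 0 ≤ᵐ[volume] (fun x : Xs n => fX fI fO x ^ 2) := Filter.Eventually.of_forall (fun x => by positivity)
  have hmeas : AEStronglyMeasurable (fun x : Xs n => fX fI fO x ^ 2) volume :=
    ((F.fX_contDiff.continuous.pow 2)).aestronglyMeasurable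
  rw [integral_eq_lintegral_of_nonneg_ae hnn hmeas]
  have : ∫⁻ x, ENNReal.ofReal (fX fI fO x ^ 2) = 1 := by
    have h := hμuniv
    rw [hμ, withDensity_apply _ MeasurableSet.univ, Measure.restrict_univ] at h
    exact h
  rw [this]
  simp

end Fam
end

/-- the theorem on the model -/
theorem main_model (n : ℕ) {s : ℝ} (hs : 0 < s) :
    ∃ f : Xs n → ℝ, (∀ x, 0 ≤ f x) ∧ ContDiff ℝ ∞ f ∧ HasCompactSupport f ∧
      ∫ x, f x ^ 2 = 1 ∧
      MongeResult (volume.withDensity fun x => ENNReal.ofReal (f x ^ 2)) (cX s) := by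
  obtain ⟨fI, fO, KI, KO, κ, Lb, Φ, ψ, ε, d₀, C₀, F⟩ := exists_fam n hs
  obtain ⟨h1, h2⟩ := F.main_of_fam hs
  exact ⟨fX fI fO, F.fX_nonneg, F.fX_contDiff, F.fX_compact, h1, h2⟩

end Crest.Agent.MG
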