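/-
S0175, piece TRANSFER: from the model `ℂ × ℝⁿ` to `EuclideanSpace ℝ (Fin d)`.  See MGPLAN.md.
-/
import Crest.Agent.MGCore

set_option autoImplicit false

open MeasureTheory Set
open scoped ENNReal ContDiff

namespace Crest.Agent.MG

open Crest.AnalysisR.OT

/-- A continuous linear equivalence `ℝ^(n+2) ≃ ℂ × ℝⁿ`, volume preserving, isometric for `D2`. -/
theorem exists_model_equiv (n : ℕ) :
    ∃ e : EuclideanSpace ℝ (Fin (n + 2)) ≃L[ℝ] Xs n,
      MeasurePreserving e volume volume ∧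
      ∀ x y, ‖x - y‖ ^ 2 = D2 (e x) (e y) := by
  have hfin : Module.finrank ℝ (WithLp 2 (ℂ × Fq n)) = n + 2 := by
    have h1 : Module.finrank ℝ (WithLp 2 (ℂ × Fq n)) = Module.finrank ℝ (ℂ × Fq n) :=
      (WithLp.linearEquiv 2 ℝ (ℂ × Fq n)).finrank_eq
    rw [h1, Module.finrank_prod, Complex.finrank_real_complex, finrank_euclideanSpace_fin]
    omega
  let b := (stdOrthonormalBasis ℝ (WithLp 2 (ℂ × Fq n))).reindex (finCongr hfin)
  let e₀ : EuclideanSpace ℝ (Fin (n + 2)) ≃ₗᵢ[ℝ] WithLp 2 (ℂ × Fq n) := b.repr.symm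
  refine ⟨e₀.toContinuousLinearEquiv.trans (WithLp.prodContinuousLinearEquiv 2 ℝ ℂ (Fq n)), ?_, ?_⟩
  · exact (WithLp.volume_preserving_ofLp ℂ (Fq n)).comp e₀.measurePreserving
  · intro x y
    have h : ‖x - y‖ = ‖e₀ x - e₀ y‖ := by
      rw [← map_sub, e₀.norm_map]
    rw [h, WithLp.prod_norm_sq_eq_of_L2]
    rfl

/-- Transport of `MongeResult` along a measurable equivalence. -/
theorem MongeResult.transfer {Ω Ω' : Type*} [MeasurableSpace Ω] [MeasurableSpace Ω']
    (e : Ω ≃ᵐ Ω') (μ : Measure Ω) (c : Ω × Ω × Ω → ℝ≥0∞) (c' : Ω' × Ω' × Ω' → ℝ≥0∞)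
    (hc : ∀ x y z, c (x, y, z) = c' (e x, e y, e z))
    (h : MongeResult (μ.map e) c') : MongeResult μ c := by
  have me : Measurable e := e.measurable
  have mes : Measurable e.symm := e.symm.measurable
  set μ' := μ.map e with hμ'
  have hμ : μ'.map e.symm = μ := by
    rw [hμ', Measure.map_map mes me]
    simp
  let E : Ω × Ω × Ω → Ω' × Ω' × Ω' := fun p => (e p.1, e p.2.1, e p.2.2)
  let Es : Ω' × Ω' × Ω' → Ω × Ω × Ω := fun p => (e.symm p.1, e.symm p.2.1, e.symm p.2.2)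
  have mf : Measurable (fun p : Ω × Ω × Ω => p.1) := measurable_fst
  have mg : Measurable (fun p : Ω × Ω × Ω => p.2.1) := measurable_fst.comp measurable_snd
  have mh : Measurable (fun p : Ω × Ω × Ω => p.2.2) := measurable_snd.comp measurable_snd
  have mf' : Measurable (fun p : Ω' × Ω' × Ω' => p.1) := measurable_fst
  have mg' : Measurable (fun p : Ω' × Ω' × Ω' => p.2.1) := measurable_fst.comp measurable_snd
  have mh' : Measurable (fun p : Ω' × Ω' × Ω' => p.2.2) := measurable_snd.comp measurable_snd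
  have mE : Measurable E := (me.comp mf).prodMk ((me.comp mg).prodMk (me.comp mh))
  have mEs : Measurable Es := (mes.comp mf').prodMk ((mes.comp mg').prodMk (mes.comp mh'))
  have hcE : ∀ p, c p = c' (E p) := fun p => hc p.1 p.2.1 p.2.2
  have hcEs : ∀ p, c (Es p) = c' p := by
    intro p
    change c (e.symm p.1, e.symm p.2.1, e.symm p.2.2) = c' p
    rw [hc]
    simp
  -- couplings transport both ways
  have coup1 : ∀ π, IsCoupling₃ μ π → IsCoupling₃ μ' (π.map E) := by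
    rintro π ⟨h1, h2, h3⟩
    refine ⟨?_, ?_, ?_⟩
    · rw [Measure.map_map mf' mE, hμ', ← h1, Measure.map_map me mf]
      rfl
    · rw [Measure.map_map mg' mE, hμ', ← h2, Measure.map_map me mg]
      rfl
    · rw [Measure.map_map mh' mE, hμ', ← h3, Measure.map_map me mh]
      rfl
  have coup2 : ∀ π, IsCoupling₃ μ' π → IsCoupling₃ μ (π.map Es) := by
    rintro π ⟨h1, h2, h3⟩
    refine ⟨?_, ?_, ?_⟩
    · rw [Measure.map_map mf mEs, ← hμ, ← h1, Measure.map_map mes mf']
      rfl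
    · rw [Measure.map_map mg mEs, ← hμ, ← h2, Measure.map_map mes mg']
      rfl
    · rw [Measure.map_map mh mEs, ← hμ, ← h3, Measure.map_map mes mh']
      rfl
  obtain ⟨π₀, hπ₀, hfin, hopt, hnm, happ⟩ := h
  -- cost of the image plans, via the measurable equivalence
  let Ee : (Ω × Ω × Ω) ≃ᵐ (Ω' × Ω' × Ω') := e.prodCongr (e.prodCongr e)
  have hEe : ∀ p, Ee p = E p := fun _ => rfl
  have hEes : ∀ p, Ee.symm p = Es p := fun _ => rfl
  have cost1 : ∀ π : Measure (Ω' × Ω' × Ω'), ∫⁻ p, c p ∂(π.map Es) = ∫⁻ p, c' p ∂π := by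
    intro π
    have hh : π.map Es = π.map Ee.symm := rfl
    rw [hh, Ee.symm.measurableEmbedding.lintegral_map]
    exact lintegral_congr fun p => hcEs p
  have cost2 : ∀ π : Measure (Ω × Ω × Ω), ∫⁻ p, c' p ∂(π.map E) = ∫⁻ p, c p ∂π := by
    intro π
    have hh : π.map E = π.map Ee := rfl
    rw [hh, Ee.measurableEmbedding.lintegral_map]
    exact lintegral_congr fun p => (hcE p).symm
  -- maps transport both ways
  have mapT : ∀ T : Ω → Ω, Measurable T → μ.map T = μ → μ'.map (e ∘ T ∘ e.symm) = μ' := by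
    intro T hT hTm
    have hm : Measurable (e ∘ T ∘ e.symm) := me.comp (hT.comp mes)
    rw [hμ', Measure.map_map hm me]
    have : (e ∘ T ∘ e.symm) ∘ e = e ∘ T := by
      funext x
      simp
    rw [this, ← Measure.map_map me hT, hTm]
  have mapT' : ∀ T : Ω' → Ω', Measurable T → μ'.map T = μ' → μ.map (e.symm ∘ T ∘ e) = μ := by
    intro T hT hTm
    have hm : Measurable (T ∘ e) := hT.comp me
    have : μ.map (e.symm ∘ T ∘ e) = (μ'.map T).map e.symm := by
      rw [hμ', Measure.map_map hT me, Measure.map_map mes (hT.comp me)]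
    rw [this, hTm, hμ]
  have costT : ∀ T₂ T₃ : Ω' → Ω', ∫⁻ x, c' (x, T₂ x, T₃ x) ∂μ' =
      ∫⁻ x, c (x, (e.symm ∘ T₂ ∘ e) x, (e.symm ∘ T₃ ∘ e) x) ∂μ := by
    intro T₂ T₃
    rw [hμ', e.measurableEmbedding.lintegral_map]
    refine lintegral_congr fun x => ?_
    rw [hc]
    simp
  refine ⟨π₀.map Es, coup2 _ hπ₀, ?_, ?_, ?_, ?_⟩
  · rw [cost1]
    exact hfin
  · intro π hπ
    rw [cost1, ← cost2]
    exact hopt _ (coup1 _ hπ)
  · intro T₂ T₃ hT₂ hT₃ hm₂ hm₃
    rw [cost1]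
    have h1 := hnm (e ∘ T₂ ∘ e.symm) (e ∘ T₃ ∘ e.symm) (me.comp (hT₂.comp mes))
      (me.comp (hT₃.comp mes)) (mapT T₂ hT₂ hm₂) (mapT T₃ hT₃ hm₃)
    rw [costT] at h1
    convert h1 using 4
    simp
  · intro ε hε
    obtain ⟨T₂, T₃, hT₂, hT₃, hm₂, hm₃, hlt⟩ := happ ε hε
    refine ⟨e.symm ∘ T₂ ∘ e, e.symm ∘ T₃ ∘ e, mes.comp (hT₂.comp me), mes.comp (hT₃.comp me),
      mapT' T₂ hT₂ hm₂, mapT' T₃ hT₃ hm₃, ?_⟩
    rw [cost1, ← costT]
    exact hlt

/-- The statement of S0175 from the model statement. -/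
theorem result_of_model (n : ℕ) (s : ℝ) (hs : 0 < s)
    (h : ∃ f : Xs n → ℝ, (∀ x, 0 ≤ f x) ∧ ContDiff ℝ ∞ f ∧ HasCompactSupport f ∧
      ∫ x, f x ^ 2 = 1 ∧
      MongeResult (volume.withDensity fun x => ENNReal.ofReal (f x ^ 2)) (cX s)) :
    ∃ ρ : EuclideanSpace ℝ (Fin (n + 2)) → ℝ, (∀ x, 0 ≤ ρ x) ∧ ContDiff ℝ ∞ ρ ∧ HasCompactSupport ρ ∧
      ContDiff ℝ ∞ (fun x => Real.sqrt (ρ x)) ∧ ∫ x, ρ x = 1 ∧
      MongeResult (measOfDensity ρ) (tripleCost s) := by
  obtain ⟨f, hf0, hfs, hfc, hfi, hM⟩ := h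
  obtain ⟨e, hmp, hD⟩ := exists_model_equiv n
  have hes : ContDiff ℝ ∞ e := e.contDiff
  have hfe : ContDiff ℝ ∞ (fun x => f (e x)) := hfs.comp hes
  have hfec : HasCompactSupport (fun x => f (e x)) := hfc.comp_homeomorph e.toHomeomorph
  let ee : EuclideanSpace ℝ (Fin (n + 2)) ≃ᵐ Xs n := e.toHomeomorph.toMeasurableEquiv
  have hee : ∀ x, ee x = e x := fun _ => rfl
  have hmp' : MeasurePreserving ee volume volume := hmp
  refine ⟨fun x => f (e x) ^ 2, fun x => by positivity, hfe.pow 2, ?_, ?_, ?_, ?_⟩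
  · exact hfec.mono (by
      intro x hx hzero
      apply hx
      simp [hzero])
  · have : (fun x => Real.sqrt (f (e x) ^ 2)) = fun x => f (e x) := by
      funext x
      exact Real.sqrt_sq (hf0 _)
    rw [this]
    exact hfe
  · rw [← hfi]
    exact hmp'.integral_comp' (fun y => f y ^ 2)
  · refine MongeResult.transfer ee _ _ (cX s) ?_ ?_
    · intro x y z
      have key : ∀ a b : EuclideanSpace ℝ (Fin (n + 2)), pairCost s a b = pc s (ee a) (ee b) := by
        intro a b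
        unfold pairCost pc
        rw [hee, hee, ← hD, Real.sqrt_sq (norm_nonneg _)]
      unfold tripleCost cX
      simp only [key]
    · have hmeas : (volume.withDensity fun x => ENNReal.ofReal (f (e x) ^ 2)).map ee =
          volume.withDensity fun x => ENNReal.ofReal (f x ^ 2) := by
        ext t ht
        rw [Measure.map_apply ee.measurable ht, withDensity_apply _ (ee.measurable ht),
          withDensity_apply _ ht]
        exact hmp'.setLIntegral_comp_preimage_emb ee.measurableEmbedding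
          (fun y => ENNReal.ofReal (f y ^ 2)) t
      unfold measOfDensity
      rw [hmeas]
      exact hM

end Crest.Agent.MG
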