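/-
S0109 project (row 82): optimal transport map stability, exponent 1/3.  See OTPLAN.md.
Core definitions for Laguerre cells over a uniform source on a convex body.
-/
import Mathlib
import Crest.Prelude.Def_QuadraticTransport

set_option autoImplicit false
open MeasureTheory Set
open scoped ENNReal RealInnerProductSpace

namespace Crest.Agent.OT

open Crest.AnalysisR.OT

/-- The ambient space. -/
abbrev E (d : ℕ) := EuclideanSpace ℝ (Fin d)

/-- A convex body. -/
structure Body {d : ℕ} (K : Set (E d)) : Prop where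
  compact : IsCompact K
  convex : Convex ℝ K
  nonempty_interior : (interior K).Nonempty

/-- The uniform probability measure (the source). -/
noncomputable abbrev rho {d : ℕ} (K : Set (E d)) : Measure (E d) := uniformProbOn K

variable {d : ℕ} {ι : Type*} [Fintype ι]

/-- The affine function of index `i`. -/
noncomputable def aff (p : ι → E d) (w : ι → ℝ) (i : ι) (x : E d) : ℝ := ⟪x, p i⟫ - w i

/-- The convex piecewise affine potential. -/
noncomputable def pot [Nonempty ι] (p : ι → E d) (w : ι → ℝ) (x : E d) : ℝ := ⨆ i, aff p w i x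

/-- The Laguerre cell of index `i` inside `K`. -/
def cell (K : Set (E d)) (p : ι → E d) (w : ι → ℝ) (i : ι) : Set (E d) :=
  {x | x ∈ K ∧ ∀ j, aff p w j x ≤ aff p w i x}

/-- Atoms: injective positions, positive masses summing to one. -/
structure IsAtoms (p : ι → E d) (m : ι → ℝ) : Prop where
  inj : Function.Injective p
  pos : ∀ i, 0 < m i
  sum : ∑ i, m i = 1

/-- Weights `w` solve the semi-discrete problem for the source `f ρ`: the cells have masses `m`. -/
def IsSol (K : Set (E d)) (f : E d → ℝ) (p : ι → E d) (m : ι → ℝ) (w : ι → ℝ) : Prop :=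
  ∀ i, ∫ x in cell K p w i, f x ∂(rho K) = m i

/-- Kantorovich functional. -/
noncomputable def kant [Nonempty ι] (K : Set (E d)) (f : E d → ℝ) (p : ι → E d) (m w : ι → ℝ) : ℝ :=
  ∫ x, pot p w x * f x ∂(rho K) + ∑ i, m i * w i

/-- Admissible densities w.r.t. `ρ`. -/
structure IsDens (K : Set (E d)) (f : E d → ℝ) : Prop where
  meas : Measurable f
  lo : ∀ x ∈ K, 1 / 2 ≤ f x
  hi : ∀ x ∈ K, f x ≤ 3 / 2
  total : ∫ x, f x ∂(rho K) = 1

/-- Barycenter of the cell `i` under `f ρ`, with mass `m i`. -/
noncomputable def bary (K : Set (E d)) (f : E d → ℝ) (p : ι → E d) (m w : ι → ℝ) (i : ι) : E d :=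
  (m i)⁻¹ • ∫ x in cell K p w i, f x • x ∂(rho K)

/-- An atomic optimal map (Laguerre map) for the uniform source. -/
structure LagMap (K : Set (E d)) (T : E d → E d) (p : ι → E d) (m w : ι → ℝ) : Prop where
  atoms : IsAtoms p m
  sol : IsSol K (fun _ => 1) p m w
  meas : Measurable T
  sel : ∀ x ∈ K, ∃ i, x ∈ cell K p w i ∧ T x = p i

/-! ### Basic API (piece CORE) -/

section API

variable {K : Set (E d)}

lemma Body.measurableSet (hK : Body K) : MeasurableSet K := hK.compact.measurableSet

lemma Body.volume_pos (hK : Body K) : 0 < volume K := by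
  obtain ⟨x, hx⟩ := hK.nonempty_interior
  have h1 : 0 < volume (interior K) := isOpen_interior.measure_pos volume ⟨x, hx⟩
  exact lt_of_lt_of_le h1 (measure_mono interior_subset)

lemma Body.volume_lt_top (hK : Body K) : volume K < ⊤ := hK.compact.measure_lt_top

lemma rho_ac (K : Set (E d)) : rho K ≪ volume := by
  unfold rho uniformProbOn
  exact (Measure.smul_absolutelyContinuous).trans Measure.restrict_le_self.absolutelyContinuous

lemma rho_apply (hK : Body K) {S : Set (E d)} (hS : MeasurableSet S) :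
    rho K S = (volume K)⁻¹ * volume (S ∩ K) := by
  unfold rho uniformProbOn
  rw [Measure.smul_apply, Measure.restrict_apply hS, smul_eq_mul]

lemma rho_isProb (hK : Body K) : IsProbabilityMeasure (rho K) := by
  constructor
  rw [rho_apply hK MeasurableSet.univ, Set.univ_inter]
  exact ENNReal.inv_mul_cancel hK.volume_pos.ne' hK.volume_lt_top.ne

lemma rho_ae_mem (hK : Body K) : ∀ᵐ x ∂(rho K), x ∈ K := by
  rw [ae_iff]
  have : {x | ¬ x ∈ K} = Kᶜ := rfl
  rw [this, rho_apply hK hK.measurableSet.compl]
  simp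

lemma measurableSet_cell (hK : Body K) (p : ι → E d) (w : ι → ℝ) (i : ι) :
    MeasurableSet (cell K p w i) := by
  have hc : ∀ j, Continuous (aff p w j) := fun j => by
    unfold aff
    fun_prop
  have : cell K p w i = K ∩ ⋂ j, {x | aff p w j x ≤ aff p w i x} := by
    ext x
    simp [cell]
  rw [this]
  refine hK.measurableSet.inter (MeasurableSet.iInter fun j => ?_)
  exact measurableSet_le (hc j).measurable (hc i).measurable

lemma exists_mem_cell [Nonempty ι] (p : ι → E d) (w : ι → ℝ) {x : E d} (hx : x ∈ K) :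
    ∃ i, x ∈ cell K p w i := by
  obtain ⟨i, -, hi⟩ := Finset.exists_max_image Finset.univ (fun j => aff p w j x)
    Finset.univ_nonempty
  exact ⟨i, hx, fun j => hi j (Finset.mem_univ j)⟩

/-- Hyperplanes are Lebesgue-null. -/
lemma hyperplane_null (L : E d →L[ℝ] ℝ) (hf : L ≠ 0) (c : ℝ) : volume (L ⁻¹' {c}) = 0 := by
  obtain ⟨x₀, hx₀⟩ := ContinuousLinearMap.exists_ne_zero hf
  let x₁ : E d := (c / L x₀) • x₀
  have hx₁ : L x₁ = c := by
    simp only [x₁, map_smul, smul_eq_mul]
    field_simp
  let Sub : Submodule ℝ (E d) := LinearMap.ker L.toLinearMap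
  have hSub : Sub ≠ ⊤ := by
    intro h
    have : x₀ ∈ Sub := h ▸ Submodule.mem_top
    exact hx₀ (by simpa [Sub, LinearMap.mem_ker] using this)
  have hnull : volume (Sub : Set (E d)) = 0 := Measure.addHaar_submodule _ _ hSub
  have hpre : (L ⁻¹' {c}) = (fun y => x₁ + y) '' (Sub : Set (E d)) := by
    ext y
    simp only [Set.mem_preimage, Set.mem_singleton_iff, Set.mem_image, SetLike.mem_coe, Sub,
      LinearMap.mem_ker]
    constructor
    · intro hy
      refine ⟨y - x₁, ?_, by abel⟩
      simp only [ContinuousLinearMap.coe_coe, map_sub, hy, hx₁, sub_self]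
    · rintro ⟨z, hz, rfl⟩
      simp only [ContinuousLinearMap.coe_coe] at hz
      rw [map_add, hx₁, hz, add_zero]
  rw [hpre, Set.image_add_left, measure_preimage_add]
  exact hnull

/-- Overlaps of distinct cells are `ρ`-null. -/
lemma rho_cell_inter [DecidableEq ι] (p : ι → E d) (hp : Function.Injective p) (w : ι → ℝ) {i j : ι} (hij : i ≠ j) :
    rho K (cell K p w i ∩ cell K p w j) = 0 := by
  apply rho_ac K
  -- the overlap lies in the hyperplane `⟪x, p i - p j⟫ = w i - w j`
  have hne : p i - p j ≠ 0 := sub_ne_zero.2 (fun h => hij (hp h))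
  have hsub : cell K p w i ∩ cell K p w j ⊆
      ((innerSL ℝ (p i - p j) : E d →L[ℝ] ℝ) ⁻¹' {w i - w j}) := by
    rintro x ⟨⟨-, h1⟩, ⟨-, h2⟩⟩
    have h3 := h1 j
    have h4 := h2 i
    unfold aff at h3 h4
    have h5 : ⟪x, p i⟫ - w i = ⟪x, p j⟫ - w j := le_antisymm h4 h3
    simp only [Set.mem_preimage, innerSL_apply_apply, Set.mem_singleton_iff]
    rw [real_inner_comm, inner_sub_right]
    linarith
  refine measure_mono_null hsub ?_
  have hf : (innerSL ℝ (p i - p j) : E d →L[ℝ] ℝ) ≠ 0 := by
    intro h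
    have := congrArg (fun L : E d →L[ℝ] ℝ => L (p i - p j)) h
    simp only [innerSL_apply_apply, zero_apply,
      real_inner_self_eq_norm_sq] at this
    exact hne (by simpa using this)
  exact hyperplane_null _ hf _

/-- The cells cover `K`, pairwise overlaps null: the measure of `ρ` restricted to `K`. -/
private lemma sum_cell_aux [Nonempty ι] [DecidableEq ι] (hK : Body K) (p : ι → E d) (hp : Function.Injective p)
    (w : ι → ℝ) {G : Type*} [NormedAddCommGroup G] [NormedSpace ℝ G] [CompleteSpace G]
    {F : E d → G} (hF : Integrable F (rho K)) :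
    ∑ i, ∫ x in cell K p w i, F x ∂(rho K) = ∫ x, F x ∂(rho K) := by
  have := rho_isProb hK
  have hU : (⋃ i, cell K p w i) =ᵐ[rho K] (Set.univ : Set (E d)) := by
    rw [ae_eq_univ]
    have h1 : (⋃ i, cell K p w i)ᶜ ⊆ Kᶜ := by
      intro x hx hxK
      obtain ⟨i, hi⟩ := exists_mem_cell p w hxK
      exact hx (Set.mem_iUnion.2 ⟨i, hi⟩)
    exact measure_mono_null h1 (rho_ae_mem hK)
  have hdisj : Pairwise (Function.onFun (AEDisjoint (rho K)) (fun i => cell K p w i)) := by
    intro i j hij
    exact rho_cell_inter p hp w hij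
  have h2 := integral_iUnion_ae (s := fun i => cell K p w i) (μ := rho K) (f := F)
    (fun i => (measurableSet_cell hK p w i).nullMeasurableSet) hdisj hF.integrableOn
  rw [setIntegral_congr_set hU, setIntegral_univ, tsum_fintype] at h2
  exact h2.symm

/-- Sum over cells of integrals is the integral over `K`. -/
lemma sum_setIntegral_cell [Nonempty ι] [DecidableEq ι] (hK : Body K) (p : ι → E d) (hp : Function.Injective p)
    (w : ι → ℝ) {F : E d → ℝ} (hF : Integrable F (rho K)) :
    ∑ i, ∫ x in cell K p w i, F x ∂(rho K) = ∫ x, F x ∂(rho K) :=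
  sum_cell_aux hK p hp w hF

/-- Vector-valued version. -/
lemma sum_setIntegral_cell_vec [Nonempty ι] [DecidableEq ι] (hK : Body K) (p : ι → E d) (hp : Function.Injective p)
    (w : ι → ℝ) {F : E d → E d} (hF : Integrable F (rho K)) :
    ∑ i, ∫ x in cell K p w i, F x ∂(rho K) = ∫ x, F x ∂(rho K) :=
  sum_cell_aux hK p hp w hF

/-- Midpoint of points of cells of `w`, `w'` lies in the cell of the average weight. -/
lemma midpoint_mem_cell (hK : Body K) (p : ι → E d) (w w' : ι → ℝ) (i : ι) {x y : E d}
    (hx : x ∈ cell K p w i) (hy : y ∈ cell K p w' i) :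
    midpoint ℝ x y ∈ cell K p (fun j => (w j + w' j) / 2) i := by
  refine ⟨hK.convex.midpoint_mem hx.1 hy.1, fun j => ?_⟩
  have h1 := hx.2 j
  have h2 := hy.2 j
  unfold aff at h1 h2 ⊢
  have key : ∀ a : E d, ⟪midpoint ℝ x y, a⟫ = (⟪x, a⟫ + ⟪y, a⟫) / 2 := by
    intro a
    rw [midpoint_eq_smul_add, real_inner_smul_left, inner_add_left]
    norm_num
    ring
  rw [key, key]
  linarith

lemma aff_le_pot [Nonempty ι] (p : ι → E d) (w : ι → ℝ) (i : ι) (x : E d) : aff p w i x ≤ pot p w x := by
  unfold pot
  exact le_ciSup (f := fun j => aff p w j x) (Set.finite_range _).bddAbove i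

lemma pot_eq_aff [Nonempty ι] {p : ι → E d} {w : ι → ℝ} {i : ι} {x : E d} (hx : x ∈ cell K p w i) :
    pot p w x = aff p w i x :=
  le_antisymm (ciSup_le (fun j => hx.2 j)) (aff_le_pot p w i x)

lemma continuous_pot [Nonempty ι] (p : ι → E d) (w : ι → ℝ) : Continuous (pot p w) := by
  have hc : ∀ j ∈ (Finset.univ : Finset ι), Continuous (aff p w j) := fun j _ => by
    unfold aff
    fun_prop
  have h1 := Continuous.finset_sup'_apply (s := (Finset.univ : Finset ι)) Finset.univ_nonempty hc
  have h2 : pot p w = fun x => (Finset.univ : Finset ι).sup' Finset.univ_nonempty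
      (fun j => aff p w j x) := by
    funext x
    refine le_antisymm (ciSup_le fun j => Finset.le_sup' (fun j => aff p w j x) (Finset.mem_univ j)) ?_
    exact Finset.sup'_le _ _ fun j _ => aff_le_pot p w j x
  rw [h2]
  exact h1

/-- Subgradient inequality. -/
lemma pot_ge [Nonempty ι] {p : ι → E d} {w : ι → ℝ} {i : ι} {x : E d} (hx : x ∈ cell K p w i) (z : E d) :
    pot p w x + ⟪z - x, p i⟫ ≤ pot p w z := by
  rw [pot_eq_aff hx]
  refine le_trans (le_of_eq ?_) (aff_le_pot p w i z)
  unfold aff
  rw [inner_sub_left]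
  ring

end API

end Crest.Agent.OT
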