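/-
S0109 project: existence / uniqueness / continuity of Laguerre weights (piece EXIST, see OTPLAN.md).
-/
import Crest.Agent.OTCore

set_option autoImplicit false
open MeasureTheory Set Filter Topology
open scoped ENNReal RealInnerProductSpace

namespace Crest.Agent.OT

variable {d : ℕ} {ι : Type*} [Fintype ι] [Nonempty ι] [DecidableEq ι] {K : Set (E d)}

/-! ### Elementary facts on the potential -/

omit [Nonempty ι] [DecidableEq ι] in
lemma exists_inner_bound (hK : Body K) (p : ι → E d) :
    ∃ C : ℝ, 0 ≤ C ∧ ∀ x ∈ K, ∀ k, |⟪x, p k⟫| ≤ C := by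
  obtain ⟨R, hR⟩ := hK.compact.isBounded.exists_norm_le
  refine ⟨max R 0 * ∑ k, ‖p k‖, by positivity, fun x hx k => ?_⟩
  calc |⟪x, p k⟫| ≤ ‖x‖ * ‖p k‖ := abs_real_inner_le_norm _ _
    _ ≤ max R 0 * ∑ k, ‖p k‖ := by
        gcongr
        · exact le_trans (hR x hx) (le_max_left _ _)
        · exact Finset.single_le_sum (f := fun k => ‖p k‖) (fun _ _ => norm_nonneg _)
            (Finset.mem_univ k)

omit [DecidableEq ι] in
lemma pot_le_of_forall {p : ι → E d} {w : ι → ℝ} {x : E d} {c : ℝ} (h : ∀ i, aff p w i x ≤ c) :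
    pot p w x ≤ c := ciSup_le h

omit [DecidableEq ι] in
lemma pot_exists (p : ι → E d) (w : ι → ℝ) (x : E d) : ∃ i, pot p w x = aff p w i x := by
  obtain ⟨i, hi⟩ := exists_eq_ciSup_of_finite (f := fun i => aff p w i x)
  exact ⟨i, hi.symm⟩

omit [DecidableEq ι] in
lemma pot_le_add {p : ι → E d} {w w' : ι → ℝ} {c : ℝ} (h : ∀ i, w' i ≤ w i + c) (x : E d) :
    pot p w x ≤ pot p w' x + c := by
  obtain ⟨i, hi⟩ := pot_exists p w x
  rw [hi]
  have := aff_le_pot p w' i x
  have h2 := h i
  simp only [aff] at *
  linarith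

omit [DecidableEq ι] in
lemma pot_add_const (p : ι → E d) (w : ι → ℝ) (c : ℝ) (x : E d) :
    pot p (fun i => w i + c) x = pot p w x - c := by
  apply le_antisymm
  · have := pot_le_add (p := p) (w := fun i => w i + c) (w' := w) (c := -c)
      (fun i => by simp) x
    linarith
  · have := pot_le_add (p := p) (w := w) (w' := fun i => w i + c) (c := c)
      (fun i => by simp) x
    linarith

omit [DecidableEq ι] in
lemma abs_pot_sub_le (p : ι → E d) (w w' : ι → ℝ) (x : E d) :
    |pot p w x - pot p w' x| ≤ ‖w - w'‖ := by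
  have h1 : ∀ i, |w i - w' i| ≤ ‖w - w'‖ := fun i => by
    have := norm_le_pi_norm (w - w') i
    simpa [Real.norm_eq_abs] using this
  rw [abs_le]
  constructor
  · have := pot_le_add (p := p) (w := w') (w' := w) (c := ‖w - w'‖)
      (fun i => by have := abs_le.1 (h1 i); linarith) x
    linarith
  · have := pot_le_add (p := p) (w := w) (w' := w') (c := ‖w - w'‖)
      (fun i => by have := abs_le.1 (h1 i); linarith) x
    linarith

omit [DecidableEq ι] in
lemma measurable_pot (p : ι → E d) (w : ι → ℝ) : Measurable (pot p w) :=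
  (continuous_pot p w).measurable

lemma integrable_of_bound_on (hK : Body K) {F : E d → ℝ} (hF : Measurable F) {C : ℝ}
    (h : ∀ x ∈ K, |F x| ≤ C) : Integrable F (rho K) := by
  haveI := rho_isProb hK
  exact Integrable.of_bound hF.aestronglyMeasurable C
    ((rho_ae_mem hK).mono fun x hx => by simpa using h x hx)

lemma IsDens.abs_le {f : E d → ℝ} (hf : IsDens K f) {x : E d} (hx : x ∈ K) : |f x| ≤ 3 / 2 := by
  rw [_root_.abs_le]; constructor
  · have := hf.lo x hx; linarith
  · exact hf.hi x hx

lemma IsDens.integrable (hK : Body K) {f : E d → ℝ} (hf : IsDens K f) : Integrable f (rho K) :=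
  integrable_of_bound_on hK hf.meas fun _ hx => hf.abs_le hx

lemma IsDens.nonneg {f : E d → ℝ} (hf : IsDens K f) {x : E d} (hx : x ∈ K) : 0 ≤ f x := by
  have := hf.lo x hx; linarith

omit [DecidableEq ι] in
lemma exists_pot_bound (hK : Body K) (p : ι → E d) (w : ι → ℝ) :
    ∃ C : ℝ, ∀ x ∈ K, |pot p w x| ≤ C := by
  obtain ⟨C, hC⟩ := hK.compact.exists_bound_of_continuousOn (continuous_pot p w).continuousOn
  exact ⟨C, fun x hx => by simpa [Real.norm_eq_abs] using hC x hx⟩

omit [DecidableEq ι] in
lemma integrable_pot_mul (hK : Body K) (p : ι → E d) (w : ι → ℝ) {g : E d → ℝ} (hg : Measurable g)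
    {B : ℝ} (hB : ∀ x ∈ K, |g x| ≤ B) : Integrable (fun x => pot p w x * g x) (rho K) := by
  obtain ⟨C, hC⟩ := exists_pot_bound hK p w
  refine integrable_of_bound_on hK ((measurable_pot p w).mul hg) (C := |C| * |B|) fun x hx => ?_
  rw [abs_mul]
  exact mul_le_mul ((hC x hx).trans (le_abs_self _)) ((hB x hx).trans (le_abs_self _))
    (abs_nonneg _) (abs_nonneg _)

omit [DecidableEq ι] [Nonempty ι] [Fintype ι] in
lemma integrable_inner_mul (hK : Body K) (a : E d) {g : E d → ℝ} (hg : Measurable g)
    {B : ℝ} (hB : ∀ x ∈ K, |g x| ≤ B) : Integrable (fun x => ⟪x, a⟫ * g x) (rho K) := by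
  obtain ⟨R, hR⟩ := hK.compact.isBounded.exists_norm_le
  have hm : Measurable fun x : E d => ⟪x, a⟫ := (continuous_id.inner continuous_const).measurable
  refine integrable_of_bound_on hK (hm.mul hg) (C := (|R| * ‖a‖) * |B|) fun x hx => ?_
  rw [abs_mul]
  refine mul_le_mul ?_ ((hB x hx).trans (le_abs_self _)) (abs_nonneg _) (by positivity)
  calc |⟪x, a⟫| ≤ ‖x‖ * ‖a‖ := abs_real_inner_le_norm _ _
    _ ≤ |R| * ‖a‖ := by
      gcongr
      exact (hR x hx).trans (le_abs_self _)

/-- The integrated potential is continuous in the weights. -/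
lemma continuous_potInt (hK : Body K) (p : ι → E d) {g : E d → ℝ} (hg : Measurable g)
    {B : ℝ} (hB : ∀ x ∈ K, |g x| ≤ B) :
    Continuous fun w : ι → ℝ => ∫ x, pot p w x * g x ∂(rho K) := by
  haveI := rho_isProb hK
  have hB0 : ∀ w w' : ι → ℝ, |∫ x, pot p w x * g x ∂(rho K) - ∫ x, pot p w' x * g x ∂(rho K)|
      ≤ ‖w - w'‖ * |B| := by
    intro w w'
    rw [← integral_sub (integrable_pot_mul hK p w hg hB) (integrable_pot_mul hK p w' hg hB)]
    have := norm_integral_le_of_norm_le_const (μ := rho K) (f := fun x =>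
      pot p w x * g x - pot p w' x * g x) (C := ‖w - w'‖ * |B|) (by
        refine (rho_ae_mem hK).mono fun x hx => ?_
        rw [← sub_mul, norm_mul, Real.norm_eq_abs, Real.norm_eq_abs]
        exact mul_le_mul (abs_pot_sub_le p w w' x) ((hB x hx).trans (le_abs_self _))
          (abs_nonneg _) (norm_nonneg _))
    simpa [Real.norm_eq_abs] using this
  have hL : LipschitzWith (Real.toNNReal |B|) fun w : ι → ℝ => ∫ x, pot p w x * g x ∂(rho K) := by
    refine LipschitzWith.of_dist_le_mul fun w w' => ?_
    rw [Real.dist_eq, dist_eq_norm, Real.coe_toNNReal _ (abs_nonneg _), mul_comm]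
    exact hB0 w w'
  exact hL.continuous

lemma continuous_kant (hK : Body K) {f : E d → ℝ} (hf : IsDens K f) (p : ι → E d) (m : ι → ℝ) :
    Continuous fun w : ι → ℝ => kant K f p m w := by
  unfold kant
  refine (continuous_potInt hK p hf.meas (fun _ hx => hf.abs_le hx)).add ?_
  exact continuous_finset_sum _ fun i _ => continuous_const.mul (continuous_apply i)

/-- `kant` is invariant under translation of the weights. -/
lemma kant_add_const (hK : Body K) {f : E d → ℝ} (hf : IsDens K f) {p : ι → E d} {m : ι → ℝ}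
    (hA : IsAtoms p m) (w : ι → ℝ) (c : ℝ) :
    kant K f p m (fun i => w i + c) = kant K f p m w := by
  unfold kant
  have h1 : ∀ x, pot p (fun i => w i + c) x * f x = pot p w x * f x - c * f x := fun x => by
    rw [pot_add_const]; ring
  simp_rw [h1]
  rw [integral_sub (integrable_pot_mul hK p w hf.meas (fun _ hx => hf.abs_le hx))
    ((hf.integrable hK).const_mul c), integral_const_mul, hf.total]
  have h2 : ∑ i, m i * (w i + c) = ∑ i, m i * w i + c * ∑ i, m i := by
    rw [Finset.mul_sum, ← Finset.sum_add_distrib]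
    exact Finset.sum_congr rfl fun i _ => by ring
  rw [h2, hA.sum]; ring

/-- Young: solutions minimize the Kantorovich functional, and the value is the correlation. -/
theorem kant_eq_corr (hK : Body K) {f : E d → ℝ} (hf : IsDens K f) {p : ι → E d} {m w : ι → ℝ}
    (hA : IsAtoms p m) (hw : IsSol K f p m w) :
    kant K f p m w = ∑ i, ∫ x in cell K p w i, ⟪x, p i⟫ * f x ∂(rho K) := by
  unfold kant
  rw [← sum_setIntegral_cell hK p hA.inj w
    (integrable_pot_mul hK p w hf.meas (fun _ hx => hf.abs_le hx))]
  have : ∀ i, ∫ x in cell K p w i, pot p w x * f x ∂(rho K)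
      = (∫ x in cell K p w i, ⟪x, p i⟫ * f x ∂(rho K)) - m i * w i := by
    intro i
    have h1 : ∫ x in cell K p w i, pot p w x * f x ∂(rho K)
        = ∫ x in cell K p w i, (⟪x, p i⟫ * f x - w i * f x) ∂(rho K) := by
      apply setIntegral_congr_fun (measurableSet_cell hK p w i)
      intro x hx
      simp only [pot_eq_aff hx, aff]; ring
    rw [h1, integral_sub
      ((integrable_inner_mul hK (p i) hf.meas (fun _ hx => hf.abs_le hx)).integrableOn)
      (((hf.integrable hK).const_mul (w i)).integrableOn), integral_const_mul, hw i]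
    ring
  simp_rw [this]
  rw [Finset.sum_sub_distrib]; ring

/-- The defect identity: `kant(w') - kant(w)` is a sum of nonnegative integrals over the cells of `w`. -/
lemma kant_sub_eq (hK : Body K) {f : E d → ℝ} (hf : IsDens K f) {p : ι → E d} {m w : ι → ℝ}
    (hA : IsAtoms p m) (hw : IsSol K f p m w) (w' : ι → ℝ) :
    kant K f p m w' - kant K f p m w
      = ∑ i, ∫ x in cell K p w i, (pot p w' x - aff p w' i x) * f x ∂(rho K) := by
  rw [kant_eq_corr hK hf hA hw]
  unfold kant
  rw [← sum_setIntegral_cell hK p hA.inj w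
    (integrable_pot_mul hK p w' hf.meas (fun _ hx => hf.abs_le hx))]
  have : ∀ i, ∫ x in cell K p w i, (pot p w' x - aff p w' i x) * f x ∂(rho K)
      = (∫ x in cell K p w i, pot p w' x * f x ∂(rho K))
        - (∫ x in cell K p w i, ⟪x, p i⟫ * f x ∂(rho K)) + m i * w' i := by
    intro i
    have h1 : ∫ x in cell K p w i, (pot p w' x - aff p w' i x) * f x ∂(rho K)
        = ∫ x in cell K p w i, (pot p w' x * f x - ⟪x, p i⟫ * f x + w' i * f x) ∂(rho K) := by
      apply setIntegral_congr_fun (measurableSet_cell hK p w i)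
      intro x _
      simp only [aff]; ring
    have hi1 : IntegrableOn (fun x => pot p w' x * f x) (cell K p w i) (rho K) :=
      (integrable_pot_mul hK p w' hf.meas (fun _ hx => hf.abs_le hx)).integrableOn
    have hi2 : IntegrableOn (fun x => ⟪x, p i⟫ * f x) (cell K p w i) (rho K) :=
      (integrable_inner_mul hK (p i) hf.meas (fun _ hx => hf.abs_le hx)).integrableOn
    have hi3 : IntegrableOn (fun x => w' i * f x) (cell K p w i) (rho K) :=
      ((hf.integrable hK).const_mul (w' i)).integrableOn
    have h2 := integral_add (f := fun x => pot p w' x * f x - ⟪x, p i⟫ * f x)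
      (g := fun x => w' i * f x) (hi1.sub hi2) hi3
    rw [h1, h2, integral_sub hi1 hi2, integral_const_mul, hw i]
    ring
  simp_rw [this]
  rw [Finset.sum_add_distrib, Finset.sum_sub_distrib]; ring

lemma cellDefect_nonneg (hK : Body K) {f : E d → ℝ} (hf : IsDens K f) {p : ι → E d} {w : ι → ℝ}
    (w' : ι → ℝ) (i : ι) :
    0 ≤ ∫ x in cell K p w i, (pot p w' x - aff p w' i x) * f x ∂(rho K) := by
  apply setIntegral_nonneg (measurableSet_cell hK p w i)
  intro x hx
  exact mul_nonneg (sub_nonneg.2 (aff_le_pot p w' i x)) (hf.nonneg hx.1)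

theorem kant_min (hK : Body K) {f : E d → ℝ} (hf : IsDens K f) {p : ι → E d} {m w : ι → ℝ}
    (hA : IsAtoms p m) (hw : IsSol K f p m w) (w' : ι → ℝ) :
    kant K f p m w ≤ kant K f p m w' := by
  have := kant_sub_eq hK hf hA hw w'
  have h2 : 0 ≤ ∑ i, ∫ x in cell K p w i, (pot p w' x - aff p w' i x) * f x ∂(rho K) :=
    Finset.sum_nonneg fun i _ => cellDefect_nonneg hK hf w' i
  linarith

/-- Minimizers are solutions (one-sided first variation and total mass). -/
theorem sol_of_min (hK : Body K) {f : E d → ℝ} (hf : IsDens K f) {p : ι → E d} {m w : ι → ℝ}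
    (hA : IsAtoms p m) (hmin : ∀ w', kant K f p m w ≤ kant K f p m w') : IsSol K f p m w := by
  haveI := rho_isProb hK
  have hfint := hf.integrable hK
  -- the one-sided inequality
  have hle : ∀ i, ∫ x in cell K p w i, f x ∂(rho K) ≤ m i := by
    intro i
    -- `S n`
    let t : ℕ → ℝ := fun n => 1 / ((n : ℝ) + 1)
    have ht0 : ∀ n, 0 < t n := fun n => by positivity
    have htlim : Tendsto t atTop (𝓝 0) := tendsto_one_div_add_atTop_nhds_zero_nat
    have htanti : Antitone t := fun a b hab => by
      apply one_div_le_one_div_of_le (by positivity)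
      have : (a : ℝ) ≤ b := by exact_mod_cast hab
      linarith
    let S : ℕ → Set (E d) := fun n => {x | x ∈ K ∧ ∀ j, j ≠ i → aff p w j x ≤ aff p w i x - t n}
    have hScont : ∀ j, Continuous (aff p w j) := fun j => by
      unfold aff
      exact (continuous_id.inner continuous_const).sub continuous_const
    have hSm : ∀ n, MeasurableSet (S n) := by
      intro n
      have : S n = K ∩ ⋂ j, {x | j ≠ i → aff p w j x ≤ aff p w i x - t n} := by
        ext x; simp [S]
      rw [this]
      refine hK.measurableSet.inter (MeasurableSet.iInter fun j => ?_)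
      by_cases hj : j = i
      · subst hj; simp
      · simp only [ne_eq, hj, not_false_eq_true, forall_const]
        exact measurableSet_le (hScont j).measurable ((hScont i).measurable.sub_const _)
    have hSmono : Monotone S := by
      intro a b hab x hx
      refine ⟨hx.1, fun j hj => ?_⟩
      have := hx.2 j hj
      have h3 := htanti hab
      linarith
    -- the inequality on `S n`
    have hSn : ∀ n, ∫ x in S n, f x ∂(rho K) ≤ m i := by
      intro n
      let w2 : ι → ℝ := Function.update w i (w i + t n)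
      have hw2i : w2 i = w i + t n := by simp [w2]
      have hw2j : ∀ j, j ≠ i → w2 j = w j := fun j hj => by simp [w2, hj]
      have hpot : ∀ x, x ∈ K → pot p w2 x * f x ≤ pot p w x * f x - t n * (S n).indicator f x := by
        intro x hx
        have hf0 := hf.nonneg hx
        by_cases hxS : x ∈ S n
        · rw [Set.indicator_of_mem hxS]
          have h4 : pot p w2 x ≤ aff p w i x - t n := by
            apply pot_le_of_forall
            intro j
            by_cases hj : j = i
            · subst hj; simp only [aff, hw2i]; linarith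
            · simp only [aff] at *
              rw [hw2j j hj]
              exact hxS.2 j hj
          have h5 := aff_le_pot p w i x
          nlinarith
        · rw [Set.indicator_of_notMem hxS]
          have h4 : pot p w2 x ≤ pot p w x + 0 :=
            pot_le_add (fun j => by
              by_cases hj : j = i
              · subst hj; rw [hw2i]; linarith [ht0 n]
              · rw [hw2j j hj]; linarith) x
          nlinarith
      have hint : ∫ x, pot p w2 x * f x ∂(rho K)
          ≤ ∫ x, pot p w x * f x ∂(rho K) - t n * ∫ x in S n, f x ∂(rho K) := by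
        have hi2 : Integrable ((S n).indicator f) (rho K) := hfint.indicator (hSm n)
        rw [← integral_indicator (hSm n), ← integral_const_mul,
          ← integral_sub (integrable_pot_mul hK p w hf.meas (fun _ hx => hf.abs_le hx))
            (hi2.const_mul _)]
        apply integral_mono_ae (integrable_pot_mul hK p w2 hf.meas (fun _ hx => hf.abs_le hx))
          ((integrable_pot_mul hK p w hf.meas (fun _ hx => hf.abs_le hx)).sub (hi2.const_mul _))
        exact (rho_ae_mem hK).mono fun x hx => hpot x hx
      have hsum : ∑ j, m j * w2 j = ∑ j, m j * w j + t n * m i := by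
        have : ∀ j, m j * w2 j = m j * w j + (if j = i then t n * m i else 0) := fun j => by
          by_cases hj : j = i
          · subst hj; rw [hw2i]; simp; ring
          · rw [hw2j j hj]; simp [hj]
        simp_rw [this]
        rw [Finset.sum_add_distrib]; simp
      have h6 := hmin w2
      unfold kant at h6
      rw [hsum] at h6
      have h7 : t n * ∫ x in S n, f x ∂(rho K) ≤ t n * m i := by linarith
      exact le_of_mul_le_mul_left h7 (ht0 n)
    -- pass to the limit
    have hlim : Tendsto (fun n => ∫ x in S n, f x ∂(rho K)) atTop (𝓝 (∫ x in ⋃ n, S n, f x ∂(rho K))) :=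
      tendsto_setIntegral_of_monotone hSm hSmono hfint.integrableOn
    have hO : ∫ x in ⋃ n, S n, f x ∂(rho K) ≤ m i := le_of_tendsto' hlim hSn
    -- cell is a.e. in the union
    have hae : (cell K p w i : Set (E d)) ≤ᵐ[rho K] (⋃ n, S n) := by
      have hnull : ∀ᵐ x ∂(rho K), ∀ j, j ≠ i → x ∉ cell K p w i ∩ cell K p w j := by
        rw [ae_all_iff]
        intro j
        by_cases hj : j = i
        · simp [hj]
        · have : rho K (cell K p w i ∩ cell K p w j) = 0 :=
            rho_cell_inter p hA.inj w (Ne.symm hj)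
          have h8 := measure_eq_zero_iff_ae_notMem.1 this
          exact h8.mono fun x hx _ => hx
      refine hnull.mono fun x hx hxc => ?_
      change x ∈ cell K p w i at hxc
      change x ∈ ⋃ n, S n
      have hstrict : ∀ j, j ≠ i → aff p w j x < aff p w i x := by
        intro j hj
        by_contra hcon
        push_neg at hcon
        refine hx j hj ⟨hxc, hxc.1, fun l => ?_⟩
        exact (hxc.2 l).trans hcon
      have hev : ∀ᶠ n in atTop, ∀ j, j ≠ i → aff p w j x ≤ aff p w i x - t n := by
        rw [eventually_all]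
        intro j
        by_cases hj : j = i
        · simp [hj]
        · have : ∀ᶠ n in atTop, t n < aff p w i x - aff p w j x :=
            htlim.eventually (gt_mem_nhds (sub_pos.2 (hstrict j hj)))
          refine this.mono fun n hn _ => ?_
          linarith
      obtain ⟨n, hn⟩ := hev.exists
      exact mem_iUnion.2 ⟨n, hxc.1, hn⟩
    have hmono : ∫ x in cell K p w i, f x ∂(rho K) ≤ ∫ x in ⋃ n, S n, f x ∂(rho K) := by
      apply setIntegral_mono_set hfint.integrableOn _ hae
      have : ∀ᵐ x ∂(rho K).restrict (⋃ n, S n), x ∈ K :=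
        ae_restrict_of_ae (rho_ae_mem hK)
      exact this.mono fun x hx => hf.nonneg hx
    exact hmono.trans hO
  -- sum
  have hsum : ∑ i, ∫ x in cell K p w i, f x ∂(rho K) = ∑ i, m i := by
    rw [sum_setIntegral_cell hK p hA.inj w hfint, hf.total, hA.sum]
  intro i
  exact (Finset.sum_eq_sum_iff_of_le fun i _ => hle i).1 hsum i (Finset.mem_univ i)

/-! ### Coercivity -/

lemma kant_lower (hK : Body K) {f : E d → ℝ} (hf : IsDens K f) {p : ι → E d} {m : ι → ℝ}
    (hA : IsAtoms p m) {C : ℝ} (hC : ∀ x ∈ K, ∀ k, |⟪x, p k⟫| ≤ C) (w : ι → ℝ) (j : ι)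
    (hj : ∀ k, w j ≤ w k) (i : ι) : m i * (w i - w j) - C ≤ kant K f p m w := by
  haveI := rho_isProb hK
  unfold kant
  have h1 : (-C - w j) * 1 ≤ ∫ x, pot p w x * f x ∂(rho K) := by
    rw [← hf.total, ← integral_const_mul]
    apply integral_mono_ae ((hf.integrable hK).const_mul _)
      (integrable_pot_mul hK p w hf.meas (fun _ hx => hf.abs_le hx))
    refine (rho_ae_mem hK).mono fun x hx => ?_
    have h2 : -C - w j ≤ pot p w x := by
      have h3 := aff_le_pot p w j x
      have h4 := (abs_le.1 (hC x hx j)).1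
      simp only [aff] at h3
      linarith
    exact mul_le_mul_of_nonneg_right h2 (hf.nonneg hx)
  have h2 : m i * (w i - w j) ≤ ∑ k, m k * (w k - w j) :=
    Finset.single_le_sum (f := fun k => m k * (w k - w j))
      (fun k _ => mul_nonneg (hA.pos k).le (sub_nonneg.2 (hj k))) (Finset.mem_univ i)
  have h3 : ∑ k, m k * (w k - w j) = ∑ k, m k * w k - w j := by
    have : ∀ k, m k * (w k - w j) = m k * w k - w j * m k := fun k => by ring
    simp_rw [this]
    rw [Finset.sum_sub_distrib, ← Finset.mul_sum, hA.sum]; ring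
  linarith

lemma kant_zero_le (hK : Body K) {f : E d → ℝ} (hf : IsDens K f) {p : ι → E d} {m : ι → ℝ}
    {C : ℝ} (hC : ∀ x ∈ K, ∀ k, |⟪x, p k⟫| ≤ C) :
    kant K f p m 0 ≤ C := by
  haveI := rho_isProb hK
  unfold kant
  have h1 : ∫ x, pot p 0 x * f x ∂(rho K) ≤ C * 1 := by
    rw [← hf.total, ← integral_const_mul]
    apply integral_mono_ae (integrable_pot_mul hK p 0 hf.meas (fun _ hx => hf.abs_le hx))
      ((hf.integrable hK).const_mul _)
    refine (rho_ae_mem hK).mono fun x hx => ?_
    have h2 : pot p 0 x ≤ C := by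
      apply pot_le_of_forall
      intro k
      have h4 := (abs_le.1 (hC x hx k)).2
      simp only [aff, Pi.zero_apply]
      linarith
    exact mul_le_mul_of_nonneg_right h2 (hf.nonneg hx)
  simpa using h1

/-- Normalization and a priori box for approximate minimizers. -/
lemma exists_normalized (hK : Body K) {f : E d → ℝ} (hf : IsDens K f) {p : ι → E d} {m : ι → ℝ}
    (hA : IsAtoms p m) {C : ℝ} (hC0 : 0 ≤ C) (hC : ∀ x ∈ K, ∀ k, |⟪x, p k⟫| ≤ C) (w : ι → ℝ)
    (hw : kant K f p m w ≤ C) :
    ∃ c : ℝ, (fun i => w i + c) ∈ Set.pi univ (fun _ : ι => Icc (0 : ℝ) (∑ k, 2 * C / m k)) := by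
  obtain ⟨j, hj⟩ := Finite.exists_min w
  refine ⟨-w j, fun i _ => ⟨by linarith [hj i], ?_⟩⟩
  have h1 := kant_lower hK hf hA hC (fun i => w i + -w j) j (fun k => by simpa using hj k) i
  rw [kant_add_const hK hf hA] at h1
  have h2 : m i * (w i + -w j - (w j + -w j)) ≤ 2 * C := by linarith
  have h3 : w i + -w j ≤ 2 * C / m i := by
    rw [le_div_iff₀ (hA.pos i)]
    nlinarith
  refine h3.trans ?_
  exact Finset.single_le_sum (f := fun k => 2 * C / m k)
    (fun k _ => div_nonneg (by linarith) (hA.pos k).le) (Finset.mem_univ i)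

/-- Existence of weights. -/
theorem exists_sol (hK : Body K) {f : E d → ℝ} (hf : IsDens K f) {p : ι → E d} {m : ι → ℝ}
    (hA : IsAtoms p m) : ∃ w, IsSol K f p m w := by
  obtain ⟨C, hC0, hC⟩ := exists_inner_bound hK p
  set M : ℝ := ∑ k, 2 * C / m k with hM
  have hM0 : 0 ≤ M := Finset.sum_nonneg fun k _ => div_nonneg (by linarith) (hA.pos k).le
  let box : Set (ι → ℝ) := Set.pi univ (fun _ => Icc (0 : ℝ) M)
  have hbox : IsCompact box := isCompact_univ_pi fun _ => isCompact_Icc
  have h0box : (0 : ι → ℝ) ∈ box := fun i _ => ⟨le_refl _, hM0⟩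
  obtain ⟨w, hwbox, hwmin⟩ := hbox.exists_isMinOn ⟨0, h0box⟩
    (continuous_kant hK hf p m).continuousOn
  refine ⟨w, sol_of_min hK hf hA fun w' => ?_⟩
  have hw0 : kant K f p m w ≤ kant K f p m 0 := hwmin h0box
  by_cases hcase : kant K f p m w' ≤ C
  · obtain ⟨c, hc⟩ := exists_normalized hK hf hA hC0 hC w' hcase
    have := hwmin hc
    simp only [mem_setOf_eq] at this
    rwa [kant_add_const hK hf hA] at this
  · push_neg at hcase
    have := kant_zero_le hK hf (p := p) (m := m) hC
    linarith

/-- Uniqueness of weights up to a constant. -/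
theorem sol_unique (hK : Body K) {f : E d → ℝ} (hf : IsDens K f) {p : ι → E d} {m w w' : ι → ℝ}
    (hA : IsAtoms p m) (hw : IsSol K f p m w) (hw' : IsSol K f p m w') :
    ∃ c, ∀ i, w' i = w i + c := by
  classical
  haveI := rho_isProb hK
  -- equality in Young
  have hkant : kant K f p m w' = kant K f p m w :=
    le_antisymm (kant_min hK hf hA hw' w) (kant_min hK hf hA hw w')
  have hdef : ∀ i, ∫ x in cell K p w i, (pot p w' x - aff p w' i x) * f x ∂(rho K) = 0 := by
    have h1 := kant_sub_eq hK hf hA hw w'
    rw [hkant, sub_self] at h1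
    exact fun i => (Finset.sum_eq_zero_iff_of_nonneg
      (fun i _ => cellDefect_nonneg hK hf w' i)).1 h1.symm i (Finset.mem_univ i)
  have hcont : ∀ i, Continuous (aff p w' i) := fun j => by
    unfold aff
    exact (continuous_id.inner continuous_const).sub continuous_const
  have key : ∀ i, ∀ᵐ x ∂(rho K), x ∈ cell K p w i → x ∈ cell K p w' i := by
    intro i
    have hnn : 0 ≤ᵐ[(rho K).restrict (cell K p w i)]
        fun x => (pot p w' x - aff p w' i x) * f x := by
      refine (ae_restrict_mem (measurableSet_cell hK p w i)).mono fun x hx => ?_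
      exact mul_nonneg (sub_nonneg.2 (aff_le_pot p w' i x)) (hf.nonneg hx.1)
    have hint : Integrable (fun x => (pot p w' x - aff p w' i x) * f x)
        ((rho K).restrict (cell K p w i)) := by
      have h2 : ∀ x, (pot p w' x - aff p w' i x) * f x = pot p w' x * f x
          - aff p w' i x * f x := fun x => by ring
      simp_rw [h2]
      refine (integrable_pot_mul hK p w' hf.meas (fun _ hx => hf.abs_le hx)).integrableOn.sub ?_
      have h3 : ∀ x, aff p w' i x * f x = ⟪x, p i⟫ * f x - w' i * f x := fun x => by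
        simp only [aff]; ring
      simp_rw [h3]
      exact (integrable_inner_mul hK (p i) hf.meas (fun _ hx => hf.abs_le hx)).integrableOn.sub
        ((hf.integrable hK).const_mul _).integrableOn
    have h4 := (integral_eq_zero_iff_of_nonneg_ae hnn hint).1 (hdef i)
    rw [EventuallyEq, ae_restrict_iff' (measurableSet_cell hK p w i)] at h4
    refine h4.mono fun x hx hxc => ?_
    have h5 := hx hxc
    have hfpos : 0 < f x := by have := hf.lo x hxc.1; linarith
    have h6 : pot p w' x = aff p w' i x := by
      have : pot p w' x - aff p w' i x = 0 := by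
        simpa [hfpos.ne'] using h5
      linarith
    refine ⟨hxc.1, fun j => ?_⟩
    rw [← h6]
    exact aff_le_pot p w' j x
  have hgood : ∀ᵐ x ∂(rho K), x ∈ K ∧ ∀ i, x ∈ cell K p w i → x ∈ cell K p w' i :=
    (rho_ae_mem hK).and (ae_all_iff.2 key)
  -- the difference of potentials
  let u : E d → ℝ := fun x => pot p w' x - pot p w x
  have hu : Continuous u := (continuous_pot p w').sub (continuous_pot p w)
  -- its values at good points
  have hval : ∀ x i, x ∈ cell K p w i → x ∈ cell K p w' i → u x = w i - w' i := by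
    intro x i h1 h2
    simp only [u, pot_eq_aff h1, pot_eq_aff h2, aff]; ring
  let F : Set ℝ := Set.range fun i => w i - w' i
  have hF : F.Finite := Set.finite_range _
  have hint : ∀ x ∈ interior K, u x ∈ F := by
    intro x hx
    by_contra hcon
    let U : Set (E d) := interior K ∩ u ⁻¹' Fᶜ
    have hU : IsOpen U := isOpen_interior.inter (hF.isClosed.isOpen_compl.preimage hu)
    have hUne : U.Nonempty := ⟨x, hx, hcon⟩
    have hpos : 0 < rho K U := by
      rw [rho_apply hK hU.measurableSet]
      have h1 : U ∩ K = U := inter_eq_left.2 (inter_subset_left.trans interior_subset)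
      rw [h1]
      apply ENNReal.mul_pos
      · exact ENNReal.inv_ne_zero.2 hK.volume_lt_top.ne
      · exact (hU.measure_pos volume hUne).ne'
    have hnull : rho K U = 0 := by
      apply measure_mono_null _ (ae_iff.1 hgood)
      intro y hy hgy
      obtain ⟨i, hi⟩ := exists_mem_cell p w hgy.1
      exact hy.2 ⟨i, (hval y i hi (hgy.2 i hi)).symm⟩
    exact hpos.ne' hnull
  obtain ⟨x0, hx0⟩ := hK.nonempty_interior
  have hconst : ∀ x ∈ interior K, u x = u x0 := by
    intro x hx
    exact hK.convex.interior.isPreconnected.constant_of_mapsTo hF.isDiscrete hu.continuousOn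
      hint hx hx0
  refine ⟨-u x0, fun i => ?_⟩
  -- the cell `i` has a good interior point
  have hfr : rho K (frontier K) = 0 :=
    rho_ac K (Convex.addHaar_frontier volume hK.convex)
  have hne : (rho K).restrict (cell K p w i) ≠ 0 := by
    intro h0
    have h1 := hw i
    rw [h0, integral_zero_measure] at h1
    exact (hA.pos i).ne h1
  haveI := ae_neBot.2 hne
  have hall : ∀ᵐ x ∂(rho K).restrict (cell K p w i),
      x ∈ cell K p w i ∧ (x ∈ K ∧ ∀ i, x ∈ cell K p w i → x ∈ cell K p w' i) ∧ x ∉ frontier K :=
    (ae_restrict_mem (measurableSet_cell hK p w i)).and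
      ((ae_restrict_of_ae hgood).and (ae_restrict_of_ae (measure_eq_zero_iff_ae_notMem.1 hfr)))
  obtain ⟨x, hxc, ⟨hxK, hxg⟩, hxf⟩ := hall.exists
  have hxint : x ∈ interior K := by
    by_contra hcon
    exact hxf ⟨subset_closure hxK, hcon⟩
  have h1 := hval x i hxc (hxg i hxc)
  have h2 := hconst x hxint
  linarith

/-- Continuity in the source: potentials of the perturbed sources `1 + ε q` converge, tested against `q`. -/
theorem tendsto_pot_perturb (hK : Body K) {p : ι → E d} {m w0 : ι → ℝ} (hA : IsAtoms p m)
    (h0 : IsSol K (fun _ => 1) p m w0) {q : E d → ℝ} (hq : Measurable q) {B : ℝ} (hB : ∀ x, |q x| ≤ B)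
    (hq0 : ∫ x, q x ∂(rho K) = 0) (ε : ℕ → ℝ) (hε : Tendsto ε atTop (𝓝 0))
    (hε0 : ∀ n, 0 < ε n) (hε1 : ∀ n, ε n * B ≤ 1 / 2) (w : ℕ → ι → ℝ)
    (hw : ∀ n, IsSol K (fun x => 1 + ε n * q x) p m (w n)) :
    Tendsto (fun n => ∫ x, pot p (w n) x * q x ∂(rho K)) atTop (𝓝 (∫ x, pot p w0 x * q x ∂(rho K))) := by
  haveI := rho_isProb hK
  have hB' : ∀ x ∈ K, |q x| ≤ B := fun x _ => hB x
  have hqint : Integrable q (rho K) := integrable_of_bound_on hK hq hB'
  have hone : IsDens K (fun _ => (1 : ℝ)) := ⟨measurable_const, fun _ _ => by norm_num,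
    fun _ _ => by norm_num, by simp⟩
  have hd : ∀ n, IsDens K (fun x => 1 + ε n * q x) := by
    intro n
    have hbd : ∀ x, |ε n * q x| ≤ 1 / 2 := fun x => by
      rw [abs_mul, abs_of_pos (hε0 n)]
      exact (mul_le_mul_of_nonneg_left (hB x) (hε0 n).le).trans (hε1 n)
    refine ⟨measurable_const.add (measurable_const.mul hq), fun x _ => ?_, fun x _ => ?_, ?_⟩
    · have := (abs_le.1 (hbd x)).1; linarith
    · have := (abs_le.1 (hbd x)).2; linarith
    · rw [integral_add (integrable_const _) (hqint.const_mul _), integral_const_mul, hq0]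
      simp
  obtain ⟨C, hC0, hC⟩ := exists_inner_bound hK p
  let box : Set (ι → ℝ) := Set.pi univ (fun _ => Icc (0 : ℝ) (∑ k, 2 * C / m k))
  have hbox : IsCompact box := isCompact_univ_pi fun _ => isCompact_Icc
  have hex : ∀ n, ∃ c : ℝ, (fun i => w n i + c) ∈ box := by
    intro n
    apply exists_normalized hK (hd n) hA hC0 hC
    exact (kant_min hK (hd n) hA (hw n) 0).trans (kant_zero_le hK (hd n) hC)
  choose c hc using hex
  let v : ℕ → ι → ℝ := fun n i => w n i + c n
  -- the functional
  let F : (ι → ℝ) → ℝ := fun w => ∫ x, pot p w x * q x ∂(rho K)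
  have hFcont : Continuous F := continuous_potInt hK p hq hB'
  have hFadd : ∀ (w : ι → ℝ) (c : ℝ), F (fun i => w i + c) = F w := by
    intro w c
    simp only [F]
    have h1 : ∀ x, pot p (fun i => w i + c) x * q x = pot p w x * q x - c * q x := fun x => by
      rw [pot_add_const]; ring
    simp_rw [h1]
    rw [integral_sub (integrable_pot_mul hK p w hq hB') (hqint.const_mul c), integral_const_mul,
      hq0]
    simp
  -- perturbation identity
  have hpert : ∀ (n : ℕ) (w : ι → ℝ), kant K (fun x => 1 + ε n * q x) p m w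
      = kant K (fun _ => 1) p m w + ε n * F w := by
    intro n w
    unfold kant
    simp only [F]
    have h1 : ∀ x, pot p w x * (1 + ε n * q x) = pot p w x * 1 + ε n * (pot p w x * q x) :=
      fun x => by ring
    simp_rw [h1]
    rw [integral_add (by simpa using (integrable_pot_mul hK p w (g := fun _ => (1 : ℝ))
      measurable_const (B := 1) (fun _ _ => by simp)))
      ((integrable_pot_mul hK p w hq hB').const_mul _), integral_const_mul]
    ring
  have hFw : ∀ n, F (w n) = F (v n) := fun n => (hFadd (w n) (c n)).symm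
  have hvmin : ∀ (n : ℕ) (w' : ι → ℝ), kant K (fun x => 1 + ε n * q x) p m (v n)
      ≤ kant K (fun x => 1 + ε n * q x) p m w' := by
    intro n w'
    change kant K (fun x => 1 + ε n * q x) p m (fun i => w n i + c n) ≤ _
    rw [kant_add_const hK (hd n) hA]
    exact kant_min hK (hd n) hA (hw n) w'
  rw [tendsto_iff_ultrafilter]
  intro U hU
  obtain ⟨v0, hv0, hlim⟩ := hbox.ultrafilter_le_nhds (U.map v) (by
    simp only [Ultrafilter.coe_map, le_principal_iff, mem_map]
    exact Filter.Eventually.of_forall fun n => hc n)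
  have hlim' : Tendsto v U (𝓝 v0) := hlim
  have hεU : Tendsto ε U (𝓝 0) := hε.mono_left hU
  -- limit is a minimizer
  have hv0min : ∀ w', kant K (fun _ => 1) p m v0 ≤ kant K (fun _ => 1) p m w' := by
    intro w'
    have hL : Tendsto (fun n => kant K (fun _ => 1) p m (v n) + ε n * F (v n)) U
        (𝓝 (kant K (fun _ => 1) p m v0 + 0 * F v0)) :=
      ((continuous_kant hK hone p m).tendsto v0 |>.comp hlim').add
        (hεU.mul ((hFcont.tendsto v0).comp hlim'))
    have hR : Tendsto (fun n => kant K (fun _ => 1) p m w' + ε n * F w') U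
        (𝓝 (kant K (fun _ => 1) p m w' + 0 * F w')) :=
      tendsto_const_nhds.add (hεU.mul tendsto_const_nhds)
    have := le_of_tendsto_of_tendsto' hL hR fun n => by
      rw [← hpert, ← hpert]
      exact hvmin n w'
    simpa using this
  have hv0sol := sol_of_min hK hone hA hv0min
  obtain ⟨c0, hc0⟩ := sol_unique hK hone hA h0 hv0sol
  have hFv0 : F v0 = F w0 := by
    have : v0 = fun i => w0 i + c0 := funext hc0
    rw [this, hFadd]
  have : Tendsto (fun n => F (w n)) U (𝓝 (F w0)) := by
    simp_rw [hFw, ← hFv0]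
    exact (hFcont.tendsto v0).comp hlim'
  exact this

/-- Existence of a Laguerre map for atoms. -/
theorem exists_lagMap (hK : Body K) {p : ι → E d} {m : ι → ℝ} (hA : IsAtoms p m) :
    ∃ w T, LagMap K T p m w := by
  classical
  haveI := rho_isProb hK
  have hone : IsDens K (fun _ => (1 : ℝ)) := ⟨measurable_const, fun _ _ => by norm_num,
    fun _ _ => by norm_num, by simp⟩
  obtain ⟨w, hw⟩ := exists_sol hK hone hA
  let i0 : ι := Classical.arbitrary ι
  let e : ι ≃ Fin (Fintype.card ι) := Fintype.equivFin ι
  let Sx : E d → Finset ι := fun x => Finset.univ.filter fun i => x ∈ cell K p w i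
  let g : E d → ι := fun x =>
    if h : (Sx x).Nonempty then (Finset.exists_min_image (Sx x) e h).choose else i0
  have hg1 : ∀ x, (Sx x).Nonempty → g x ∈ Sx x ∧ ∀ j ∈ Sx x, e (g x) ≤ e j := by
    intro x h
    simp only [g, dif_pos h]
    exact (Finset.exists_min_image (Sx x) e h).choose_spec
  have hg2 : ∀ x, ¬ (Sx x).Nonempty → g x = i0 := by
    intro x h
    simp only [g, dif_pos, h, dite_false]
  have hSx : ∀ x i, i ∈ Sx x ↔ x ∈ cell K p w i := fun x i => by simp [Sx]
  have hpre : ∀ i, MeasurableSet (g ⁻¹' {i}) := by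
    intro i
    have : g ⁻¹' {i} = (cell K p w i ∩ ⋂ j, ((cell K p w j)ᶜ ∪ {_x | e i ≤ e j})) ∪
        ((⋂ j, (cell K p w j)ᶜ) ∩ {_x | i = i0}) := by
      ext x
      simp only [mem_preimage, mem_singleton_iff, mem_union, mem_inter_iff, mem_iInter, mem_compl_iff,
        mem_setOf_eq]
      constructor
      · intro hx
        by_cases h : (Sx x).Nonempty
        · left
          obtain ⟨h1, h2⟩ := hg1 x h
          rw [hx] at h1 h2
          refine ⟨(hSx x i).1 h1, fun j => ?_⟩
          by_cases hj : x ∈ cell K p w j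
          · right; exact h2 j ((hSx x j).2 hj)
          · left; exact hj
        · right
          rw [hg2 x h] at hx
          refine ⟨fun j hj => h ⟨j, (hSx x j).2 hj⟩, hx.symm⟩
      · rintro (⟨h1, h2⟩ | ⟨h1, h2⟩)
        · have hne : (Sx x).Nonempty := ⟨i, (hSx x i).2 h1⟩
          obtain ⟨h3, h4⟩ := hg1 x hne
          have h5 := h4 i ((hSx x i).2 h1)
          have h6 : e i ≤ e (g x) := by
            rcases h2 (g x) with h7 | h7
            · exact absurd ((hSx x _).1 h3) h7
            · exact h7
          exact e.injective (le_antisymm h5 h6)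
        · have hne : ¬ (Sx x).Nonempty := by
            rintro ⟨j, hj⟩
            exact h1 j ((hSx x j).1 hj)
          rw [hg2 x hne, h2]
    rw [this]
    refine MeasurableSet.union ((measurableSet_cell hK p w i).inter
      (MeasurableSet.iInter fun j => ?_)) ((MeasurableSet.iInter fun j => ?_).inter ?_)
    · exact (measurableSet_cell hK p w j).compl.union (MeasurableSet.const _)
    · exact (measurableSet_cell hK p w j).compl
    · exact MeasurableSet.const _
  letI : MeasurableSpace ι := ⊤
  have hgm : Measurable g := measurable_to_countable' hpre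
  refine ⟨w, fun x => p (g x), ⟨hA, hw, (measurable_from_top (f := p)).comp hgm, fun x hx => ?_⟩⟩
  obtain ⟨i, hi⟩ := exists_mem_cell p w hx
  have hne : (Sx x).Nonempty := ⟨i, (hSx x i).2 hi⟩
  exact ⟨g x, (hSx x _).1 (hg1 x hne).1, rfl⟩

end Crest.Agent.OT
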