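/-
S0109 project: from potentials to maps by the translation trick (piece G1, see OTPLAN.md).
-/
import Crest.Agent.OTCore

set_option autoImplicit false
open MeasureTheory Set
open scoped ENNReal RealInnerProductSpace

namespace Crest.Agent.OT

open Crest.AnalysisR.OT

variable {d : ℕ} {K : Set (E d)}

/-- `K ∩ (K - v)`. -/
def Kp (K : Set (E d)) (v : E d) : Set (E d) := {x | x ∈ K ∧ x + v ∈ K}

lemma measurableSet_Kp (hK : Body K) (v : E d) : MeasurableSet (Kp K v) := by
  have : Kp K v = K ∩ (fun x => x + v) ⁻¹' K := rfl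
  rw [this]
  exact hK.measurableSet.inter (measurable_add_const v hK.measurableSet)

lemma Kp_subset (v : E d) : Kp K v ⊆ K := fun _ hx => hx.1

lemma Kp_neg_shift {v x : E d} (hx : x ∈ Kp K (-v)) : x + -v ∈ Kp K v := by
  refine ⟨hx.2, ?_⟩
  have : x + -v + v = x := by abel
  rw [this]
  exact hx.1

lemma setIntegral_rhoG1 (_hK : Body K) {A : Set (E d)} (hA : MeasurableSet A) (hAK : A ⊆ K)
    (F : E d → ℝ) :
    ∫ x in A, F x ∂(rho K) = (volume K)⁻¹.toReal * ∫ x in A, F x := by
  unfold rho uniformProbOn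
  rw [Measure.restrict_smul, integral_smul_measure, Measure.restrict_restrict hA,
    Set.inter_eq_left.mpr hAK, smul_eq_mul]

/-- Translation invariance on `K`. -/
lemma setIntegral_shift (hK : Body K) (v : E d) (F : E d → ℝ) :
    ∫ x in Kp K v, F (x + v) ∂(rho K) = ∫ y in Kp K (-v), F y ∂(rho K) := by
  rw [setIntegral_rhoG1 hK (measurableSet_Kp hK v) (Kp_subset v),
    setIntegral_rhoG1 hK (measurableSet_Kp hK (-v)) (Kp_subset (-v))]
  congr 1
  have hpre : (fun x => x + v) ⁻¹' (Kp K (-v)) = Kp K v := by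
    ext x
    simp only [Set.mem_preimage, Kp, Set.mem_ofPred_eq]
    have : x + v + -v = x := by abel
    rw [this]
    exact and_comm
  have := (measurePreserving_add_right (volume : Measure (E d)) v).setIntegral_preimage_emb
    (measurableEmbedding_addRight v) F (Kp K (-v))
  rw [hpre] at this
  exact this

lemma integrableOn_bdd {A : Set (E d)} [IsFiniteMeasure (rho K)] {G : E d → ℝ} (hG : Measurable G)
    (hA : MeasurableSet A) {B : ℝ} (hB : ∀ x ∈ A, |G x| ≤ B) : IntegrableOn G A (rho K) := by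
  refine Measure.integrableOn_of_bounded (M := B) (measure_ne_top _ _) hG.aestronglyMeasurable ?_
  rw [ae_restrict_iff' hA]
  exact Filter.Eventually.of_forall fun x hx => by simpa using hB x hx

/-- The measure of `K ∖ (K - v)` is at most linear in `‖v‖`. -/
lemma exists_P (hK : Body K) : ∃ P : ℝ, 0 ≤ P ∧ ∀ v : E d,
    (rho K).real (K \ Kp K v) ≤ P * ‖v‖ := by
  classical
  have hprob := rho_isProb hK
  obtain ⟨x₀, hx₀⟩ := hK.nonempty_interior
  obtain ⟨r, hr, hball⟩ := Metric.isOpen_iff.mp isOpen_interior x₀ hx₀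
  -- a closed ball inside `K`
  have hcb : Metric.closedBall x₀ (r / 2) ⊆ K := by
    intro y hy
    apply interior_subset
    apply hball
    exact Metric.closedBall_subset_ball (by linarith) hy
  set s : ℝ := r / 2 with hs
  have hspos : 0 < s := by positivity
  refine ⟨d / s, by positivity, fun v => ?_⟩
  by_cases hv0 : v = 0
  · subst hv0
    have : K \ Kp K 0 = ∅ := by
      ext x
      simp [Kp]
    rw [this]
    simp
  have hvpos : 0 < ‖v‖ := norm_pos_iff.mpr hv0
  have hdpos : 0 < d := by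
    rcases Nat.eq_zero_or_pos d with h | h
    · subst h
      exact absurd (Subsingleton.elim v 0) hv0
    · exact h
  have hdR : (1 : ℝ) ≤ d := by exact_mod_cast hdpos
  have hle1 : (rho K).real (K \ Kp K v) ≤ 1 := by
    exact measureReal_le_one
  by_cases hvs : s ≤ ‖v‖
  · refine hle1.trans ?_
    have : 1 ≤ ‖v‖ / s := (one_le_div hspos).mpr hvs
    calc (1 : ℝ) ≤ d * (‖v‖ / s) := by nlinarith
      _ = d / s * ‖v‖ := by ring
  push Not at hvs
  set t : ℝ := 1 - ‖v‖ / s with ht
  have hts : ‖v‖ / s < 1 := (div_lt_one hspos).mpr hvs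
  have hvs' : 0 < ‖v‖ / s := by positivity
  have ht0 : 0 < t := by rw [ht]; linarith
  have ht1 : t ≤ 1 := by rw [ht]; linarith
  -- the homothetic copy of `K` lies in `K ∩ (K - v)`
  have hsub : (AffineMap.homothety x₀ t) '' K ⊆ Kp K v := by
    rintro _ ⟨y, hy, rfl⟩
    have hx₀K : x₀ ∈ K := interior_subset hx₀
    have hform : AffineMap.homothety x₀ t y = t • y + (1 - t) • x₀ := by
      simp only [AffineMap.homothety_apply, vsub_eq_sub, vadd_eq_add, smul_sub, sub_smul, one_smul]
      abel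
    constructor
    · rw [hform]
      exact hK.convex hy hx₀K ht0.le (by linarith) (by ring)
    · let z : E d := x₀ + (s / ‖v‖) • v
      have hz : z ∈ K := by
        apply hcb
        simp only [z, Metric.mem_closedBall, dist_eq_norm, add_sub_cancel_left, norm_smul,
          Real.norm_eq_abs]
        rw [abs_of_pos (by positivity)]
        field_simp
        exact le_rfl
      have heq : AffineMap.homothety x₀ t y + v = t • y + (1 - t) • z := by
        rw [hform]
        simp only [z, smul_add, smul_smul]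
        have h1 : (1 - t) * (s / ‖v‖) = 1 := by
          rw [ht]
          field_simp
          ring
        rw [h1, one_smul]
        abel
      rw [heq]
      exact hK.convex hy hz ht0.le (by linarith) (by ring)
  -- volume comparison
  have hvol : ENNReal.ofReal (t ^ d) ≤ rho K (Kp K v) := by
    rw [rho_apply hK (measurableSet_Kp hK v), Set.inter_eq_left.mpr (Kp_subset v)]
    have h1 : volume ((AffineMap.homothety x₀ t) '' K) ≤ volume (Kp K v) := measure_mono hsub
    rw [Measure.addHaar_image_homothety, finrank_euclideanSpace_fin, abs_of_pos (by positivity)]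
      at h1
    calc ENNReal.ofReal (t ^ d)
        = (volume K)⁻¹ * (ENNReal.ofReal (t ^ d) * volume K) := by
          rw [mul_comm (ENNReal.ofReal _), ← mul_assoc,
            ENNReal.inv_mul_cancel hK.volume_pos.ne' hK.volume_lt_top.ne, one_mul]
      _ ≤ (volume K)⁻¹ * volume (Kp K v) := by gcongr
  have hreal : t ^ d ≤ (rho K).real (Kp K v) := by
    have := ENNReal.toReal_mono (measure_ne_top _ _) hvol
    rwa [ENNReal.toReal_ofReal (by positivity)] at this
  have hrK : (rho K).real K = 1 := by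
    have h0 : (rho K) Kᶜ = 0 := by
      have := rho_ae_mem hK
      rwa [ae_iff] at this
    have h1 : rho K K = 1 := by
      have h2 := prob_compl_eq_zero_iff (μ := rho K) hK.measurableSet
      exact h2.mp h0
    simp [Measure.real, h1]
  have hdiffeq : (rho K).real (K \ Kp K v) = 1 - (rho K).real (Kp K v) := by
    rw [measureReal_sdiff (Kp_subset v) (measurableSet_Kp hK v), hrK]
  have hbern : 1 + (d : ℝ) * (-(‖v‖ / s)) ≤ (1 + -(‖v‖ / s)) ^ d :=
    one_add_mul_le_pow (by linarith) d
  have ht' : (1 + -(‖v‖ / s)) = t := by rw [ht]; ring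
  rw [ht'] at hbern
  rw [hdiffeq]
  have : (d : ℝ) / s * ‖v‖ = d * (‖v‖ / s) := by ring
  rw [this]
  nlinarith

/-- Increments of a bounded function over the shift. -/
lemma shift_diff_le (hK : Body K) {P : ℝ}
    (hdiff : ∀ v : E d, (rho K).real (K \ Kp K v) ≤ P * ‖v‖)
    {F : E d → ℝ} (hF : Measurable F) {B : ℝ} (hB : ∀ x ∈ K, |F x| ≤ B) (v : E d) :
    IntegrableOn (fun x => F (x + v) - F x) (Kp K v) (rho K) ∧
    |∫ x in Kp K v, (F (x + v) - F x) ∂(rho K)| ≤ 2 * B * (P * ‖v‖) := by
  have hprob := rho_isProb hK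
  have hKm := hK.measurableSet
  have hB0 : 0 ≤ B := by
    obtain ⟨x, hx⟩ := hK.nonempty_interior
    exact (abs_nonneg _).trans (hB x (interior_subset hx))
  have hmV := measurableSet_Kp hK v
  have hmW := measurableSet_Kp hK (-v)
  have hi1 : IntegrableOn (fun x => F (x + v)) (Kp K v) (rho K) :=
    integrableOn_bdd (hF.comp (measurable_add_const v)) hmV (fun x hx => hB _ hx.2)
  have hi2 : IntegrableOn F (Kp K v) (rho K) :=
    integrableOn_bdd hF hmV (fun x hx => hB _ hx.1)
  have hi3 : IntegrableOn F (Kp K (-v)) (rho K) :=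
    integrableOn_bdd hF hmW (fun x hx => hB _ hx.1)
  have hiK : IntegrableOn F K (rho K) := integrableOn_bdd hF hKm hB
  refine ⟨hi1.sub hi2, ?_⟩
  rw [integral_sub hi1 hi2, setIntegral_shift hK v F]
  have e1 : ∫ x in Kp K (-v), F x ∂(rho K) = ∫ x in K, F x ∂(rho K) -
      ∫ x in K \ Kp K (-v), F x ∂(rho K) := by
    rw [setIntegral_sdiff hmW hiK (Kp_subset (-v))]
    ring
  have e2 : ∫ x in Kp K v, F x ∂(rho K) = ∫ x in K, F x ∂(rho K) -
      ∫ x in K \ Kp K v, F x ∂(rho K) := by
    rw [setIntegral_sdiff hmV hiK (Kp_subset v)]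
    ring
  rw [e1, e2]
  have b1 : ‖∫ x in K \ Kp K v, F x ∂(rho K)‖ ≤ B * (rho K).real (K \ Kp K v) :=
    norm_setIntegral_le_of_norm_le_const (measure_lt_top _ _)
      (fun x hx => by simpa using hB x hx.1)
  have b2 : ‖∫ x in K \ Kp K (-v), F x ∂(rho K)‖ ≤ B * (rho K).real (K \ Kp K (-v)) :=
    norm_setIntegral_le_of_norm_le_const (measure_lt_top _ _)
      (fun x hx => by simpa using hB x hx.1)
  have h1 := hdiff v
  have h2 := hdiff (-v)
  rw [norm_neg] at h2
  rw [Real.norm_eq_abs] at b1 b2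
  have c1 : |∫ x in K \ Kp K v, F x ∂(rho K)| ≤ B * (P * ‖v‖) :=
    b1.trans (mul_le_mul_of_nonneg_left h1 hB0)
  have c2 : |∫ x in K \ Kp K (-v), F x ∂(rho K)| ≤ B * (P * ‖v‖) :=
    b2.trans (mul_le_mul_of_nonneg_left h2 hB0)
  rw [abs_le] at c1 c2 ⊢
  constructor <;> linarith [c1.1, c1.2, c2.1, c2.2]

set_option maxHeartbeats 4000000 in
/-- Direction-wise estimate of the translation trick. -/
theorem g1_dir (hK : Body K) {P L : ℝ} (hL : 0 ≤ L)
    (hdiff : ∀ v : E d, (rho K).real (K \ Kp K v) ≤ P * ‖v‖)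
    {T S : E d → E d} {φ ψ : E d → ℝ} {A : ℝ}
    (hT : Measurable T) (hS : Measurable S) (hφ : Continuous φ) (hψ : Continuous ψ)
    (hTL : ∀ x ∈ K, ‖T x‖ ≤ L) (hSL : ∀ x ∈ K, ‖S x‖ ≤ L)
    (hφT : ∀ x ∈ K, ∀ z ∈ K, φ x + ⟪z - x, T x⟫ ≤ φ z)
    (hψS : ∀ x ∈ K, ∀ z ∈ K, ψ x + ⟪z - x, S x⟫ ≤ ψ z) (hA : 0 ≤ A)
    (hq : ∀ q : E d → ℝ, Measurable q → (∃ B, ∀ x, |q x| ≤ B) → ∫ x, q x ∂(rho K) = 0 →
        ∫ x, (ψ x - φ x) * q x ∂(rho K) ≤ A * Real.sqrt (∫ x, q x ^ 2 ∂(rho K)))
    {e : E d} (he : ‖e‖ = 1) {h : ℝ} (hh : 0 < h) :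
    ∫ x, ⟪T x - S x, e⟫ ^ 2 ∂(rho K) ≤
      A * Real.sqrt (24 * L ^ 2 * P * h) / h + 12 * L ^ 2 * P * h := by
  classical
  have hprob := rho_isProb hK
  have hKm := hK.measurableSet
  set v : E d := h • e with hv
  have hnv : ‖v‖ = h := by rw [hv, norm_smul, he, mul_one, Real.norm_eq_abs, abs_of_pos hh]
  set KV := Kp K v with hKV
  set KW := Kp K (-v) with hKW
  have hmV : MeasurableSet KV := measurableSet_Kp hK v
  have hmW : MeasurableSet KW := measurableSet_Kp hK (-v)
  have hdV : (rho K).real (K \ KV) ≤ P * h := by simpa [hnv] using hdiff v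
  have hdW : (rho K).real (K \ KW) ≤ P * h := by
    have := hdiff (-v)
    rwa [norm_neg, hnv] at this
  -- the two scalar functions
  set FT : E d → ℝ := fun x => ⟪T x, e⟫ with hFT
  set FS : E d → ℝ := fun x => ⟪S x, e⟫ with hFS
  have hmFT : Measurable FT := hT.inner measurable_const
  have hmFS : Measurable FS := hS.inner measurable_const
  have hbFT : ∀ x ∈ K, |FT x| ≤ L := fun x hx => by
    have := abs_real_inner_le_norm (T x) e
    rw [he, mul_one] at this
    exact this.trans (hTL x hx)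
  have hbFS : ∀ x ∈ K, |FS x| ≤ L := fun x hx => by
    have := abs_real_inner_le_norm (S x) e
    rw [he, mul_one] at this
    exact this.trans (hSL x hx)
  set w : E d → ℝ := fun x => FT x - FS x with hw
  have hwinner : ∀ x, ⟪T x - S x, e⟫ = w x := fun x => by
    simp only [hw, hFT, hFS, inner_sub_left]
  have hmw : Measurable w := hmFT.sub hmFS
  have hbw : ∀ x ∈ K, |w x| ≤ 2 * L := fun x hx => by
    have h1 := hbFT x hx
    have h2 := hbFS x hx
    rw [abs_le] at h1 h2 ⊢
    simp only [hw]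
    constructor <;> linarith [h1.1, h1.2, h2.1, h2.2]
  have hvin : ∀ a : E d, ⟪v, a⟫ = h * ⟪a, e⟫ := fun a => by
    rw [hv, real_inner_smul_left, real_inner_comm]
  -- subgradient facts on `KV`
  have hsubT1 : ∀ x ∈ KV, h * FT x ≤ φ (x + v) - φ x := fun x hx => by
    have := hφT x hx.1 (x + v) hx.2
    rw [add_sub_cancel_left, hvin] at this
    simp only [hFT]
    linarith
  have hsubT2 : ∀ x ∈ KV, φ (x + v) - φ x ≤ h * FT (x + v) := fun x hx => by
    have := hφT (x + v) hx.2 x hx.1
    have h2 : x - (x + v) = -v := by abel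
    rw [h2, inner_neg_left, hvin] at this
    simp only [hFT]
    linarith
  have hsubS1 : ∀ x ∈ KV, h * FS x ≤ ψ (x + v) - ψ x := fun x hx => by
    have := hψS x hx.1 (x + v) hx.2
    rw [add_sub_cancel_left, hvin] at this
    simp only [hFS]
    linarith
  have hsubS2 : ∀ x ∈ KV, ψ (x + v) - ψ x ≤ h * FS (x + v) := fun x hx => by
    have := hψS (x + v) hx.2 x hx.1
    have h2 : x - (x + v) = -v := by abel
    rw [h2, inner_neg_left, hvin] at this
    simp only [hFS]
    linarith
  have hmonoT : ∀ x ∈ KV, 0 ≤ FT (x + v) - FT x := fun x hx => by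
    have h1 := hsubT1 x hx
    have h2 := hsubT2 x hx
    have : h * (FT (x + v) - FT x) ≥ 0 := by nlinarith
    exact nonneg_of_mul_nonneg_right (by linarith) hh
  have hmonoS : ∀ x ∈ KV, 0 ≤ FS (x + v) - FS x := fun x hx => by
    have h1 := hsubS1 x hx
    have h2 := hsubS2 x hx
    have : h * (FS (x + v) - FS x) ≥ 0 := by nlinarith
    exact nonneg_of_mul_nonneg_right (by linarith) hh
  -- Omega
  set Om : E d → ℝ := fun x => (FT (x + v) - FT x) + (FS (x + v) - FS x) with hOm
  have hOm0 : ∀ x ∈ KV, 0 ≤ Om x := fun x hx => add_nonneg (hmonoT x hx) (hmonoS x hx)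
  have hmOm : Measurable Om :=
    ((hmFT.comp (measurable_add_const v)).sub hmFT).add ((hmFS.comp (measurable_add_const v)).sub hmFS)
  obtain ⟨hiT, hbT⟩ := shift_diff_le hK hdiff hmFT hbFT v
  obtain ⟨hiS, hbS⟩ := shift_diff_le hK hdiff hmFS hbFS v
  rw [hnv] at hbT hbS
  have hiOm : IntegrableOn Om KV (rho K) := hiT.add hiS
  have hintOm : ∫ x in KV, Om x ∂(rho K) ≤ 4 * L * (P * h) := by
    have : ∫ x in KV, Om x ∂(rho K) = ∫ x in KV, (FT (x + v) - FT x) ∂(rho K) +
        ∫ x in KV, (FS (x + v) - FS x) ∂(rho K) := integral_add hiT hiS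
    rw [this]
    have h1 := (abs_le.mp hbT).2
    have h2 := (abs_le.mp hbS).2
    linarith
  -- the potential difference
  set g : E d → ℝ := fun x => φ x - ψ x with hg
  have hcg : Continuous g := hφ.sub hψ
  obtain ⟨G0, hG0⟩ : ∃ G0, ∀ x ∈ K, ‖g x‖ ≤ G0 :=
    hK.compact.exists_bound_of_continuousOn hcg.continuousOn
  -- pointwise main inequality
  have hptw : ∀ x ∈ KV, h * w x ^ 2 ≤ w x * (g (x + v) - g x) + 2 * L * (h * Om x) := fun x hx => by
    have h1 := hsubT1 x hx
    have h2 := hsubT2 x hx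
    have h3 := hsubS1 x hx
    have h4 := hsubS2 x hx
    have hbwx := hbw x hx.1
    have hOmx := hOm0 x hx
    set D := g (x + v) - g x - h * w x with hD
    have hD1 : D ≤ h * Om x := by
      simp only [hD, hg, hw, hOm]
      nlinarith
    have hD2 : -(h * Om x) ≤ D := by
      simp only [hD, hg, hw, hOm]
      nlinarith
    have hDabs : |D| ≤ h * Om x := abs_le.mpr ⟨hD2, hD1⟩
    have key : h * w x ^ 2 = w x * (g (x + v) - g x) - w x * D := by
      simp only [hD]
      ring
    have : -(w x * D) ≤ |w x| * |D| := by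
      rw [← abs_mul]
      exact neg_le_abs _
    have h5 : |w x| * |D| ≤ 2 * L * (h * Om x) :=
      mul_le_mul hbwx hDabs (abs_nonneg _) (by positivity)
    rw [key]
    linarith
  -- bound on the shifted function
  have hshiftK : ∀ x ∈ KW, x + -v ∈ K := fun x hx => hx.2
  have hmshift : Measurable (fun x : E d => x + -v) := measurable_add_const (-v)
  set w' : E d → ℝ := fun x => w (x + -v) with hw'
  have hmw' : Measurable w' := hmw.comp hmshift
  have hbw' : ∀ x ∈ KW, |w' x| ≤ 2 * L := fun x hx => hbw _ (hshiftK x hx)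
  -- the test function
  set q : E d → ℝ := fun x => KV.indicator w x - KW.indicator w' x with hqdef
  have hmq : Measurable q := (hmw.indicator hmV).sub (hmw'.indicator hmW)
  have hbind1 : ∀ x, |KV.indicator w x| ≤ 2 * L := fun x => by
    by_cases hx : x ∈ KV
    · rw [Set.indicator_of_mem hx]
      exact hbw x hx.1
    · rw [Set.indicator_of_notMem hx, abs_zero]
      positivity
  have hbind2 : ∀ x, |KW.indicator w' x| ≤ 2 * L := fun x => by
    by_cases hx : x ∈ KW
    · rw [Set.indicator_of_mem hx]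
      exact hbw' x hx
    · rw [Set.indicator_of_notMem hx, abs_zero]
      positivity
  have hbq : ∀ x, |q x| ≤ 4 * L := fun x => by
    have h1 := hbind1 x
    have h2 := hbind2 x
    simp only [hqdef]
    rw [abs_le] at h1 h2 ⊢
    constructor <;> linarith [h1.1, h1.2, h2.1, h2.2]
  have hiw : IntegrableOn w KV (rho K) := integrableOn_bdd hmw hmV (fun x hx => hbw x hx.1)
  have hiw' : IntegrableOn w' KW (rho K) := integrableOn_bdd hmw' hmW hbw'
  have hshift_w : ∫ x in KW, w' x ∂(rho K) = ∫ x in KV, w x ∂(rho K) := by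
    have := setIntegral_shift hK (-v) w
    rwa [neg_neg] at this
  have hqint : ∫ x, q x ∂(rho K) = 0 := by
    simp only [hqdef]
    rw [integral_sub ((integrable_indicator_iff hmV).mpr hiw) ((integrable_indicator_iff hmW).mpr hiw'),
      integral_indicator hmV, integral_indicator hmW, hshift_w, sub_self]
  -- the pairing with the potential difference
  have hG00 : 0 ≤ G0 := by
    obtain ⟨x, hx⟩ := hK.nonempty_interior
    exact (norm_nonneg _).trans (hG0 x (interior_subset hx))
  have hmg : Measurable g := hcg.measurable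
  have hbg : ∀ x ∈ K, |g x| ≤ G0 := fun x hx => by simpa using hG0 x hx
  have hi1 : IntegrableOn (fun x => g x * w' x) KW (rho K) :=
    integrableOn_bdd (hmg.mul hmw') hmW (B := G0 * (2 * L)) (fun x hx => by
      rw [abs_mul]
      exact mul_le_mul (hbg x hx.1) (hbw' x hx) (abs_nonneg _) hG00)
  have hi2 : IntegrableOn (fun x => g x * w x) KV (rho K) :=
    integrableOn_bdd (hmg.mul hmw) hmV (B := G0 * (2 * L)) (fun x hx => by
      rw [abs_mul]
      exact mul_le_mul (hbg x hx.1) (hbw x hx.1) (abs_nonneg _) hG00)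
  have hi3 : IntegrableOn (fun x => g (x + v) * w x) KV (rho K) :=
    integrableOn_bdd ((hmg.comp (measurable_add_const v)).mul hmw) hmV (B := G0 * (2 * L))
      (fun x hx => by
      rw [abs_mul]
      exact mul_le_mul (hbg _ hx.2) (hbw x hx.1) (abs_nonneg _) hG00)
  have hpair : ∫ x, (ψ x - φ x) * q x ∂(rho K) = ∫ x in KV, w x * (g (x + v) - g x) ∂(rho K) := by
    have hpt : ∀ x, (ψ x - φ x) * q x =
        KW.indicator (fun x => g x * w' x) x - KV.indicator (fun x => g x * w x) x := fun x => by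
      simp only [hqdef, hg, Set.indicator_apply]
      split_ifs <;> ring
    simp only [hpt]
    rw [integral_sub ((integrable_indicator_iff hmW).mpr hi1) ((integrable_indicator_iff hmV).mpr hi2),
      integral_indicator hmW, integral_indicator hmV]
    have h1 : ∫ x in KW, g x * w' x ∂(rho K) = ∫ x in KV, g (x + v) * w x ∂(rho K) := by
      have := setIntegral_shift hK v (fun y => g y * w' y)
      rw [← this]
      refine setIntegral_congr_fun hmV fun x _ => ?_
      simp only [hw']
      have : x + v + -v = x := by abel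
      rw [this]
    rw [h1, ← integral_sub hi3 hi2]
    refine setIntegral_congr_fun hmV fun x _ => ?_
    beta_reduce
    ring
  -- the `L²` norm of the test function
  have hiOm' : IntegrableOn (fun x => Om (x + -v)) KW (rho K) :=
    integrableOn_bdd (hmOm.comp hmshift) hmW (B := 4 * L) (fun x hx => by
      have hy := Kp_neg_shift hx
      have h1 := hbFT _ hy.1
      have h2 := hbFT _ hy.2
      have h3 := hbFS _ hy.1
      have h4 := hbFS _ hy.2
      simp only [hOm]
      rw [abs_le] at h1 h2 h3 h4 ⊢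
      constructor <;> linarith [h1.1, h1.2, h2.1, h2.2, h3.1, h3.2, h4.1, h4.2])
  have hshift_Om : ∫ x in KW, Om (x + -v) ∂(rho K) = ∫ x in KV, Om x ∂(rho K) := by
    have := setIntegral_shift hK (-v) Om
    rwa [neg_neg] at this
  have hmdV : MeasurableSet (K \ KV) := hKm.diff hmV
  have hmdW : MeasurableSet (K \ KW) := hKm.diff hmW
  have hqsq : ∀ x, q x ^ 2 ≤ KW.indicator (fun x => 4 * L * Om (x + -v)) x +
      (K \ KV).indicator (fun _ => 4 * L ^ 2) x + (K \ KW).indicator (fun _ => 4 * L ^ 2) x := by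
    intro x
    have hL2 : 0 ≤ 4 * L ^ 2 := by positivity
    have h2nn : 0 ≤ (K \ KV).indicator (fun _ => 4 * L ^ 2) x :=
      Set.indicator_nonneg (fun _ _ => hL2) x
    have h3nn : 0 ≤ (K \ KW).indicator (fun _ => 4 * L ^ 2) x :=
      Set.indicator_nonneg (fun _ _ => hL2) x
    by_cases hxV : x ∈ KV
    · by_cases hxW : x ∈ KW
      · -- both
        have hy := Kp_neg_shift hxW
        have hOmy := hOm0 _ hy
        have hyv : x + -v + v = x := by abel
        have hq1 : q x = w x - w (x + -v) := by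
          simp only [hqdef, Set.indicator_of_mem hxV, Set.indicator_of_mem hxW, hw']
        have hmT := hmonoT _ hy
        have hmS := hmonoS _ hy
        rw [hyv] at hmT hmS
        have hOmy' : Om (x + -v) = (FT x - FT (x + -v)) + (FS x - FS (x + -v)) := by
          simp only [hOm, hyv]
        have habs : |q x| ≤ Om (x + -v) := by
          rw [hq1, hOmy']
          simp only [hw]
          rw [abs_le]
          constructor <;> linarith
        have hq4 := hbq x
        have : q x ^ 2 ≤ 4 * L * Om (x + -v) := by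
          rw [← sq_abs]
          nlinarith [abs_nonneg (q x)]
        rw [Set.indicator_of_mem hxW]
        linarith
      · -- only `KV`
        have hq1 : q x = w x := by
          simp only [hqdef, Set.indicator_of_mem hxV, Set.indicator_of_notMem hxW, sub_zero]
        have hxd : x ∈ K \ KW := ⟨hxV.1, hxW⟩
        rw [Set.indicator_of_notMem hxW, Set.indicator_of_mem hxd, hq1]
        have hb := hbw x hxV.1
        have : w x ^ 2 ≤ 4 * L ^ 2 := by
          rw [← sq_abs]
          nlinarith [abs_nonneg (w x)]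
        linarith
    · by_cases hxW : x ∈ KW
      · -- only `KW`
        have hy := Kp_neg_shift hxW
        have hq1 : q x = -w' x := by
          simp only [hqdef, Set.indicator_of_notMem hxV, Set.indicator_of_mem hxW, zero_sub]
        have hxd : x ∈ K \ KV := ⟨hxW.1, hxV⟩
        rw [Set.indicator_of_mem hxW, Set.indicator_of_mem hxd, hq1, neg_sq]
        have hb := hbw' x hxW
        have : w' x ^ 2 ≤ 4 * L ^ 2 := by
          rw [← sq_abs]
          nlinarith [abs_nonneg (w' x)]
        have := hOm0 _ hy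
        have : 0 ≤ 4 * L * Om (x + -v) := by positivity
        linarith
      · have hq1 : q x = 0 := by
          simp only [hqdef, Set.indicator_of_notMem hxV, Set.indicator_of_notMem hxW, sub_zero]
        rw [Set.indicator_of_notMem hxW, hq1]
        simp only [ne_eq, OfNat.ofNat_ne_zero, not_false_eq_true, zero_pow, zero_add]
        linarith
  have hiq2 : Integrable (fun x => q x ^ 2) (rho K) := by
    have := integrableOn_bdd (K := K) (A := Set.univ) (hmq.pow_const 2) MeasurableSet.univ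
      (B := (4 * L) ^ 2) (fun x _ => by
        rw [abs_pow]
        exact pow_le_pow_left₀ (abs_nonneg _) (hbq x) 2)
    simpa using this
  have hiI1 : Integrable (KW.indicator (fun x => 4 * L * Om (x + -v))) (rho K) :=
    (integrable_indicator_iff hmW).mpr (hiOm'.const_mul _)
  have hiI2 : Integrable ((K \ KV).indicator (fun _ : E d => 4 * L ^ 2)) (rho K) :=
    (integrable_indicator_iff hmdV).mpr (integrableOn_const (measure_ne_top _ _))
  have hiI3 : Integrable ((K \ KW).indicator (fun _ : E d => 4 * L ^ 2)) (rho K) :=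
    (integrable_indicator_iff hmdW).mpr (integrableOn_const (measure_ne_top _ _))
  have hIq : ∫ x, q x ^ 2 ∂(rho K) ≤ 24 * L ^ 2 * P * h := by
    have h1 : ∫ x, q x ^ 2 ∂(rho K) ≤ ∫ x, (KW.indicator (fun x => 4 * L * Om (x + -v)) x +
        (K \ KV).indicator (fun _ => 4 * L ^ 2) x + (K \ KW).indicator (fun _ => 4 * L ^ 2) x) ∂(rho K) :=
      integral_mono hiq2 ((hiI1.add hiI2).add hiI3) hqsq
    have h2 : ∫ x, (KW.indicator (fun x => 4 * L * Om (x + -v)) x +
        (K \ KV).indicator (fun _ => 4 * L ^ 2) x + (K \ KW).indicator (fun _ => 4 * L ^ 2) x) ∂(rho K)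
        = 4 * L * ∫ x in KV, Om x ∂(rho K) + 4 * L ^ 2 * (rho K).real (K \ KV)
          + 4 * L ^ 2 * (rho K).real (K \ KW) := by
      have hi12 : Integrable (fun x => KW.indicator (fun x => 4 * L * Om (x + -v)) x +
          (K \ KV).indicator (fun _ => 4 * L ^ 2) x) (rho K) := hiI1.add hiI2
      rw [integral_add hi12 hiI3, integral_add hiI1 hiI2, integral_indicator hmW,
        integral_indicator hmdV, integral_indicator hmdW, integral_const_mul, hshift_Om,
        setIntegral_const, setIntegral_const]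
      simp only [smul_eq_mul]
      ring
    rw [h2] at h1
    have hL4 : 0 ≤ 4 * L := by positivity
    have e1 : 4 * L * ∫ x in KV, Om x ∂(rho K) ≤ 4 * L * (4 * L * (P * h)) :=
      mul_le_mul_of_nonneg_left hintOm hL4
    have hL2 : 0 ≤ 4 * L ^ 2 := by positivity
    have e2 : 4 * L ^ 2 * (rho K).real (K \ KV) ≤ 4 * L ^ 2 * (P * h) :=
      mul_le_mul_of_nonneg_left hdV hL2
    have e3 : 4 * L ^ 2 * (rho K).real (K \ KW) ≤ 4 * L ^ 2 * (P * h) :=
      mul_le_mul_of_nonneg_left hdW hL2
    have e4 : 4 * L * (4 * L * (P * h)) + 4 * L ^ 2 * (P * h) + 4 * L ^ 2 * (P * h) =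
        24 * L ^ 2 * P * h := by ring
    linarith
  have hpairle : ∫ x in KV, w x * (g (x + v) - g x) ∂(rho K) ≤
      A * Real.sqrt (24 * L ^ 2 * P * h) := by
    rw [← hpair]
    refine (hq q hmq ⟨4 * L, hbq⟩ hqint).trans ?_
    exact mul_le_mul_of_nonneg_left (Real.sqrt_le_sqrt hIq) hA
  -- conclusion on `KV`
  have hiw2 : IntegrableOn (fun x => w x ^ 2) KV (rho K) :=
    integrableOn_bdd (hmw.pow_const 2) hmV (B := (2 * L) ^ 2) (fun x hx => by
      rw [abs_pow]
      exact pow_le_pow_left₀ (abs_nonneg _) (hbw x hx.1) 2)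
  have hiwg : IntegrableOn (fun x => w x * (g (x + v) - g x)) KV (rho K) := by
    have := hi3.sub hi2
    refine this.congr_fun (fun x _ => ?_) hmV
    simp only [Pi.sub_apply]
    ring
  have hKVbound : h * ∫ x in KV, w x ^ 2 ∂(rho K) ≤
      A * Real.sqrt (24 * L ^ 2 * P * h) + 2 * L * (h * (4 * L * (P * h))) := by
    have h1 : ∫ x in KV, h * w x ^ 2 ∂(rho K) ≤
        ∫ x in KV, (w x * (g (x + v) - g x) + 2 * L * (h * Om x)) ∂(rho K) :=
      setIntegral_mono_on (hiw2.const_mul h) (hiwg.add ((hiOm.const_mul h).const_mul (2 * L))) hmV hptw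
    rw [integral_const_mul, integral_add hiwg ((hiOm.const_mul h).const_mul (2 * L)),
      integral_const_mul, integral_const_mul] at h1
    have h2 : 2 * L * (h * ∫ x in KV, Om x ∂(rho K)) ≤ 2 * L * (h * (4 * L * (P * h))) := by
      gcongr
    linarith
  have hKVb2 : ∫ x in KV, w x ^ 2 ∂(rho K) ≤
      A * Real.sqrt (24 * L ^ 2 * P * h) / h + 8 * L ^ 2 * P * h := by
    have : ∫ x in KV, w x ^ 2 ∂(rho K) ≤
        (A * Real.sqrt (24 * L ^ 2 * P * h) + 2 * L * (h * (4 * L * (P * h)))) / h := by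
      rw [le_div_iff₀ hh]
      linarith
    refine this.trans (le_of_eq ?_)
    field_simp
    ring
  -- the complement
  have hdiffb : ∫ x in K \ KV, w x ^ 2 ∂(rho K) ≤ 4 * L ^ 2 * (P * h) := by
    have h1 : ‖∫ x in K \ KV, w x ^ 2 ∂(rho K)‖ ≤ 4 * L ^ 2 * (rho K).real (K \ KV) :=
      norm_setIntegral_le_of_norm_le_const (measure_lt_top _ _) (fun x hx => by
        have hb := hbw x hx.1
        have : w x ^ 2 ≤ 4 * L ^ 2 := by
          rw [← sq_abs]
          nlinarith [abs_nonneg (w x)]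
        rw [Real.norm_eq_abs, abs_of_nonneg (by positivity)]
        exact this)
    have h2 := (le_abs_self _).trans (by simpa using h1)
    exact h2.trans (mul_le_mul_of_nonneg_left hdV (by positivity))
  -- assemble
  have hwint : ∫ x, ⟪T x - S x, e⟫ ^ 2 ∂(rho K) = ∫ x in K, w x ^ 2 ∂(rho K) := by
    simp only [hwinner]
    rw [Measure.restrict_eq_self_of_ae_mem (rho_ae_mem hK)]
  have hiKw : IntegrableOn (fun x => w x ^ 2) K (rho K) :=
    integrableOn_bdd (hmw.pow_const 2) hKm (B := (2 * L) ^ 2) (fun x hx => by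
      rw [abs_pow]
      exact pow_le_pow_left₀ (abs_nonneg _) (hbw x hx) 2)
  have hsplit : ∫ x in K, w x ^ 2 ∂(rho K) =
      ∫ x in KV, w x ^ 2 ∂(rho K) + ∫ x in K \ KV, w x ^ 2 ∂(rho K) := by
    rw [setIntegral_sdiff hmV hiKw (Kp_subset v)]
    ring
  rw [hwint, hsplit]
  have e5 : 8 * L ^ 2 * P * h + 4 * L ^ 2 * (P * h) = 12 * L ^ 2 * P * h := by ring
  linarith

lemma integrable_of_bdd_K (hK : Body K) {G : E d → ℝ} (hG : Measurable G) {B : ℝ}
    (hB : ∀ x ∈ K, |G x| ≤ B) : Integrable G (rho K) := by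
  have hprob := rho_isProb hK
  have := integrableOn_bdd (K := K) hG hK.measurableSet hB
  rwa [IntegrableOn, Measure.restrict_eq_self_of_ae_mem (rho_ae_mem hK)] at this

/-- The coordinate unit vector. -/
noncomputable def eb (j : Fin d) : E d := EuclideanSpace.single j (1 : ℝ)

lemma norm_eb (j : Fin d) : ‖eb j‖ = 1 := by
  simp [eb]

lemma inner_eb (v : E d) (j : Fin d) : ⟪v, eb j⟫ = v j := by
  simp [eb, EuclideanSpace.inner_single_right]

lemma norm_sq_eq_sum_eb (v : E d) : ‖v‖ ^ 2 = ∑ j, ⟪v, eb j⟫ ^ 2 := by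
  rw [EuclideanSpace.norm_sq_eq]
  refine Finset.sum_congr rfl fun j _ => ?_
  rw [inner_eb, Real.norm_eq_abs, sq_abs]

lemma norm_le_sum_eb (v : E d) : ‖v‖ ≤ ∑ j, |⟪v, eb j⟫| := by
  have h0 : 0 ≤ ∑ j, |⟪v, eb j⟫| := Finset.sum_nonneg fun _ _ => abs_nonneg _
  refine (abs_le_of_sq_le_sq' ?_ h0).2
  rw [norm_sq_eq_sum_eb]
  have : ∑ j, ⟪v, eb j⟫ ^ 2 = ∑ j, |⟪v, eb j⟫| ^ 2 :=
    Finset.sum_congr rfl fun j _ => (sq_abs _).symm
  rw [this]
  exact Finset.sum_sq_le_sq_sum_of_nonneg (fun _ _ => abs_nonneg _)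

lemma nonpos_of_le_mul_pos {I c : ℝ} (h : ∀ t : ℝ, 0 < t → I ≤ c * t) : I ≤ 0 := by
  by_contra hI
  push Not at hI
  by_cases hc : 0 < c
  · have := h (I / (2 * c)) (by positivity)
    have e : c * (I / (2 * c)) = I / 2 := by field_simp
    rw [e] at this
    linarith
  · have := h 1 one_pos
    nlinarith

/-- Gagliardo-Nirenberg type step: `‖T - S‖₂² ≲ A^{2/3}` if `‖φ - ψ‖_{L²}`-dual bound `A` holds. -/
theorem g1 (hK : Body K) (L : ℝ) (hL : 0 ≤ L) :
    ∃ C : ℝ, 0 ≤ C ∧ ∀ (T S : E d → E d) (φ ψ : E d → ℝ) (A : ℝ),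
      Measurable T → Measurable S → Continuous φ → Continuous ψ →
      (∀ x ∈ K, ‖T x‖ ≤ L) → (∀ x ∈ K, ‖S x‖ ≤ L) →
      (∀ x ∈ K, ∀ z ∈ K, φ x + ⟪z - x, T x⟫ ≤ φ z) →
      (∀ x ∈ K, ∀ z ∈ K, ψ x + ⟪z - x, S x⟫ ≤ ψ z) → 0 ≤ A →
      (∀ q : E d → ℝ, Measurable q → (∃ B, ∀ x, |q x| ≤ B) → ∫ x, q x ∂(rho K) = 0 →
        ∫ x, (ψ x - φ x) * q x ∂(rho K) ≤ A * Real.sqrt (∫ x, q x ^ 2 ∂(rho K))) →
      ∫ x, ‖T x - S x‖ ^ 2 ∂(rho K) ≤ C * A ^ (2 / 3 : ℝ) := by
  obtain ⟨P, hP, hdiff⟩ := exists_P hK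
  set C₁ : ℝ := L * Real.sqrt (24 * P) + 12 * L ^ 2 * P with hC₁
  have hC₁0 : 0 ≤ C₁ := by positivity
  refine ⟨d * C₁, by positivity, ?_⟩
  intro T S φ ψ A hT hS hφ hψ hTL hSL hφT hψS hA hq
  have hdir : ∀ j : Fin d, ∫ x, ⟪T x - S x, eb j⟫ ^ 2 ∂(rho K) ≤ C₁ * A ^ (2 / 3 : ℝ) := by
    intro j
    have hbase := fun h (hh : 0 < h) => g1_dir hK hL hdiff hT hS hφ hψ hTL hSL hφT hψS hA hq
      (norm_eb j) hh
    rcases hA.eq_or_lt with hA0 | hApos
    · subst hA0
      have : ∫ x, ⟪T x - S x, eb j⟫ ^ 2 ∂(rho K) ≤ 0 := by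
        refine nonpos_of_le_mul_pos (c := 12 * L ^ 2 * P) fun t ht => ?_
        have := hbase t ht
        simpa using this
      rw [Real.zero_rpow (by norm_num), mul_zero]
      exact this
    · set s : ℝ := A ^ (1 / 3 : ℝ) with hs
      have hspos : 0 < s := by positivity
      have hs3 : s ^ 3 = A := by
        rw [hs, ← Real.rpow_natCast, ← Real.rpow_mul hA]
        norm_num
      have hs2 : A ^ (2 / 3 : ℝ) = s ^ 2 := by
        rw [hs, ← Real.rpow_natCast, ← Real.rpow_mul hA]
        norm_num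
      have := hbase (s ^ 2) (by positivity)
      rw [hs2]
      have hsq : Real.sqrt (24 * L ^ 2 * P * s ^ 2) = Real.sqrt (24 * P) * (L * s) := by
        have : 24 * L ^ 2 * P * s ^ 2 = (24 * P) * (L * s) ^ 2 := by ring
        rw [this, Real.sqrt_mul (by positivity), Real.sqrt_sq (by positivity)]
      rw [hsq] at this
      refine this.trans (le_of_eq ?_)
      rw [hC₁, ← hs3]
      field_simp
  have hi : ∀ j : Fin d, Integrable (fun x => ⟪T x - S x, eb j⟫ ^ 2) (rho K) := by
    intro j
    refine integrable_of_bdd_K hK (B := (2 * L) ^ 2) (((hT.sub hS).inner measurable_const).pow_const 2) ?_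
    intro x hx
    rw [abs_pow]
    refine pow_le_pow_left₀ (abs_nonneg _) ?_ 2
    refine (abs_real_inner_le_norm _ _).trans ?_
    rw [norm_eb, mul_one]
    refine (norm_sub_le _ _).trans ?_
    linarith [hTL x hx, hSL x hx]
  have hsum : ∫ x, ‖T x - S x‖ ^ 2 ∂(rho K) = ∑ j, ∫ x, ⟪T x - S x, eb j⟫ ^ 2 ∂(rho K) := by
    simp only [norm_sq_eq_sum_eb]
    exact integral_finsetSum _ fun j _ => hi j
  rw [hsum]
  calc ∑ j, ∫ x, ⟪T x - S x, eb j⟫ ^ 2 ∂(rho K) ≤ ∑ _j : Fin d, C₁ * A ^ (2 / 3 : ℝ) :=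
        Finset.sum_le_sum fun j _ => hdir j
    _ = d * C₁ * A ^ (2 / 3 : ℝ) := by
        simp only [Finset.sum_const, Finset.card_univ, Fintype.card_fin, nsmul_eq_mul]
        ring

set_option maxHeartbeats 2000000 in
/-- Direction-wise estimate for claim A. -/
theorem claimA_dir (hK : Body K) {P L : ℝ} (hL : 0 ≤ L)
    (hdiff : ∀ v : E d, (rho K).real (K \ Kp K v) ≤ P * ‖v‖)
    {T a : E d → E d} {φ β : E d → ℝ}
    (hT : Measurable T) (ha : Measurable a) (hφ : Continuous φ)
    (hTL : ∀ x ∈ K, ‖T x‖ ≤ L) (haL : ∀ x ∈ K, ‖a x‖ ≤ L)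
    (hφT : ∀ x ∈ K, ∀ z ∈ K, φ x + ⟪z - x, T x⟫ ≤ φ z)
    (hsupp : ∀ x ∈ K, ∀ z ∈ K, ⟪z, a x⟫ - β x ≤ φ z)
    (hβi : Integrable β (rho K))
    {e : E d} (he : ‖e‖ = 1) {h : ℝ} (hh : 0 < h) :
    Integrable (fun x => φ x + β x - ⟪x, a x⟫) (rho K) ∧
    (∀ᵐ x ∂(rho K), 0 ≤ φ x + β x - ⟪x, a x⟫) ∧
    ∫ x, |⟪a x - T x, e⟫| ∂(rho K) ≤
      (∫ x, (φ x + β x - ⟪x, a x⟫) ∂(rho K)) / h + 8 * L * P * h := by
  classical
  have hprob := rho_isProb hK
  have hKm := hK.measurableSet
  set v : E d := h • e with hv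
  have hnv : ‖v‖ = h := by rw [hv, norm_smul, he, mul_one, Real.norm_eq_abs, abs_of_pos hh]
  set KV := Kp K v with hKV
  set KW := Kp K (-v) with hKW
  have hmV : MeasurableSet KV := measurableSet_Kp hK v
  have hmW : MeasurableSet KW := measurableSet_Kp hK (-v)
  have hdV : (rho K).real (K \ KV) ≤ P * h := by simpa [hnv] using hdiff v
  have hdW : (rho K).real (K \ KW) ≤ P * h := by
    have := hdiff (-v)
    rwa [norm_neg, hnv] at this
  set F : E d → ℝ := fun x => ⟪T x, e⟫ with hF
  have hmF : Measurable F := hT.inner measurable_const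
  have hbF : ∀ x ∈ K, |F x| ≤ L := fun x hx => by
    have := abs_real_inner_le_norm (T x) e
    rw [he, mul_one] at this
    exact this.trans (hTL x hx)
  have hvin : ∀ b : E d, ⟪v, b⟫ = h * ⟪b, e⟫ := fun b => by
    rw [hv, real_inner_smul_left, real_inner_comm]
  -- the defect
  set D : E d → ℝ := fun x => φ x + β x - ⟪x, a x⟫ with hD
  have hD0 : ∀ x ∈ K, 0 ≤ D x := fun x hx => by
    have := hsupp x hx x hx
    simp only [hD]
    linarith
  obtain ⟨R, hR⟩ := hK.compact.isBounded.exists_norm_le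
  obtain ⟨Φ, hΦ⟩ : ∃ Φ, ∀ x ∈ K, ‖φ x‖ ≤ Φ :=
    hK.compact.exists_bound_of_continuousOn hφ.continuousOn
  have hiφ : Integrable φ (rho K) :=
    integrable_of_bdd_K hK hφ.measurable (fun x hx => by simpa using hΦ x hx)
  have hiin : Integrable (fun x => ⟪x, a x⟫) (rho K) := by
    refine integrable_of_bdd_K hK (B := R * L) (measurable_id.inner ha) ?_
    intro x hx
    refine (abs_real_inner_le_norm _ _).trans ?_
    exact mul_le_mul (hR x hx) (haL x hx) (norm_nonneg _) ((norm_nonneg _).trans (hR x hx))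
  have hiD : Integrable D (rho K) := (hiφ.add hβi).sub hiin
  refine ⟨hiD, ?_, ?_⟩
  · filter_upwards [rho_ae_mem hK] with x hx using hD0 x hx
  -- increments
  have hmonoV : ∀ x ∈ KV, 0 ≤ F (x + v) - F x := fun x hx => by
    have h1 := hφT x hx.1 (x + v) hx.2
    have h2 := hφT (x + v) hx.2 x hx.1
    have h3 : x - (x + v) = -v := by abel
    rw [add_sub_cancel_left, hvin] at h1
    rw [h3, inner_neg_left, hvin] at h2
    have : h * (F (x + v) - F x) ≥ 0 := by
      simp only [hF]
      nlinarith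
    exact nonneg_of_mul_nonneg_right (by linarith) hh
  have hmonoW : ∀ x ∈ KW, 0 ≤ F x - F (x + -v) := fun x hx => by
    have hy := Kp_neg_shift hx
    have := hmonoV _ hy
    have hyv : x + -v + v = x := by abel
    rwa [hyv] at this
  obtain ⟨hiV, hbV⟩ := shift_diff_le hK hdiff hmF hbF v
  obtain ⟨hiW, hbW⟩ := shift_diff_le hK hdiff hmF hbF (-v)
  rw [hnv] at hbV
  rw [norm_neg, hnv] at hbW
  have hbVle : ∫ x in KV, (F (x + v) - F x) ∂(rho K) ≤ 2 * L * (P * h) := (abs_le.mp hbV).2
  have hiW' : IntegrableOn (fun x => F x - F (x + -v)) KW (rho K) := by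
    refine hiW.neg.congr_fun (fun x _ => ?_) hmW
    simp only [Pi.neg_apply, neg_sub]
  have hbWle : ∫ x in KW, (F x - F (x + -v)) ∂(rho K) ≤ 2 * L * (P * h) := by
    have : ∫ x in KW, (F x - F (x + -v)) ∂(rho K) = - ∫ x in KW, (F (x + -v) - F x) ∂(rho K) := by
      rw [← integral_neg]
      refine setIntegral_congr_fun hmW fun x _ => ?_
      beta_reduce
      ring
    rw [this]
    have := (abs_le.mp hbW).1
    linarith
  -- pointwise bound
  have hmdV : MeasurableSet (K \ KV) := hKm.diff hmV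
  have hmdW : MeasurableSet (K \ KW) := hKm.diff hmW
  set G : E d → ℝ := fun x => |⟪a x - T x, e⟫| with hG
  have hmG : Measurable G := ((ha.sub hT).inner measurable_const).abs
  have hbG : ∀ x ∈ K, |G x| ≤ 2 * L := fun x hx => by
    simp only [hG, abs_abs]
    refine (abs_real_inner_le_norm _ _).trans ?_
    rw [he, mul_one]
    refine (norm_sub_le _ _).trans ?_
    linarith [hTL x hx, haL x hx]
  have hptw : ∀ x ∈ K, G x ≤ D x / h + KV.indicator (fun x => F (x + v) - F x) x +
      KW.indicator (fun x => F x - F (x + -v)) x + (K \ KV).indicator (fun _ => 2 * L) x +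
      (K \ KW).indicator (fun _ => 2 * L) x := by
    intro x hx
    have hDh : 0 ≤ D x / h := div_nonneg (hD0 x hx) hh.le
    have hL2 : 0 ≤ 2 * L := by positivity
    have hn1 : 0 ≤ KV.indicator (fun x => F (x + v) - F x) x :=
      Set.indicator_nonneg (fun y hy => hmonoV y hy) x
    have hn2 : 0 ≤ KW.indicator (fun x => F x - F (x + -v)) x :=
      Set.indicator_nonneg (fun y hy => hmonoW y hy) x
    have hn3 : 0 ≤ (K \ KV).indicator (fun _ => 2 * L) x :=
      Set.indicator_nonneg (fun _ _ => hL2) x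
    have hn4 : 0 ≤ (K \ KW).indicator (fun _ => 2 * L) x :=
      Set.indicator_nonneg (fun _ _ => hL2) x
    have hG2 : G x ≤ 2 * L := (le_abs_self _).trans (hbG x hx)
    by_cases hxV : x ∈ KV
    · by_cases hxW : x ∈ KW
      · -- both directions are available
        have hup : ⟪a x - T x, e⟫ ≤ D x / h + (F (x + v) - F x) := by
          have h1 := hsupp x hx (x + v) hxV.2
          have h2 := hφT (x + v) hxV.2 x hx
          have h3 : x - (x + v) = -v := by abel
          rw [h3, inner_neg_left, hvin] at h2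
          rw [inner_add_left, hvin] at h1
          have h4 : h * (⟪a x, e⟫ - F (x + v)) ≤ D x := by
            simp only [hD, hF]
            nlinarith
          have h5 : ⟪a x, e⟫ - F (x + v) ≤ D x / h := by
            rw [le_div_iff₀ hh]
            linarith
          rw [inner_sub_left]
          simp only [hF] at h5 ⊢
          linarith
        have hlo : -⟪a x - T x, e⟫ ≤ D x / h + (F x - F (x + -v)) := by
          have h1 := hsupp x hx (x + -v) hxW.2
          have h2 := hφT (x + -v) hxW.2 x hx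
          have h3 : x - (x + -v) = v := by abel
          rw [h3, hvin] at h2
          rw [inner_add_left, inner_neg_left, hvin] at h1
          have h4 : h * (F (x + -v) - ⟪a x, e⟫) ≤ D x := by
            simp only [hD, hF]
            nlinarith
          have h5 : F (x + -v) - ⟪a x, e⟫ ≤ D x / h := by
            rw [le_div_iff₀ hh]
            linarith
          rw [inner_sub_left]
          simp only [hF] at h5 ⊢
          linarith
        have hV' := hmonoV x hxV
        have hW' := hmonoW x hxW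
        rw [Set.indicator_of_mem hxV, Set.indicator_of_mem hxW] at *
        have : G x ≤ D x / h + (F (x + v) - F x) + (F x - F (x + -v)) := by
          simp only [hG]
          rw [abs_le]
          constructor <;> linarith
        linarith
      · have hxd : x ∈ K \ KW := ⟨hx, hxW⟩
        rw [Set.indicator_of_mem hxd]
        linarith
    · have hxd : x ∈ K \ KV := ⟨hx, hxV⟩
      rw [Set.indicator_of_mem hxd]
      linarith
  -- integrate
  have hiG : Integrable G (rho K) := integrable_of_bdd_K hK hmG hbG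
  have hiI1 : Integrable (KV.indicator (fun x => F (x + v) - F x)) (rho K) :=
    (integrable_indicator_iff hmV).mpr hiV
  have hiI2 : Integrable (KW.indicator (fun x => F x - F (x + -v))) (rho K) :=
    (integrable_indicator_iff hmW).mpr hiW'
  have hiI3 : Integrable ((K \ KV).indicator (fun _ : E d => 2 * L)) (rho K) :=
    (integrable_indicator_iff hmdV).mpr (integrableOn_const (measure_ne_top _ _))
  have hiI4 : Integrable ((K \ KW).indicator (fun _ : E d => 2 * L)) (rho K) :=
    (integrable_indicator_iff hmdW).mpr (integrableOn_const (measure_ne_top _ _))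
  have hiDh : Integrable (fun x => D x / h) (rho K) := hiD.div_const h
  have hi01 : Integrable (fun x => D x / h + KV.indicator (fun x => F (x + v) - F x) x) (rho K) :=
    hiDh.add hiI1
  have hi012 : Integrable (fun x => D x / h + KV.indicator (fun x => F (x + v) - F x) x +
      KW.indicator (fun x => F x - F (x + -v)) x) (rho K) := hi01.add hiI2
  have hi0123 : Integrable (fun x => D x / h + KV.indicator (fun x => F (x + v) - F x) x +
      KW.indicator (fun x => F x - F (x + -v)) x + (K \ KV).indicator (fun _ => 2 * L) x) (rho K) :=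
    hi012.add hiI3
  have hmono : ∫ x, G x ∂(rho K) ≤ ∫ x, (D x / h + KV.indicator (fun x => F (x + v) - F x) x +
      KW.indicator (fun x => F x - F (x + -v)) x + (K \ KV).indicator (fun _ => 2 * L) x +
      (K \ KW).indicator (fun _ => 2 * L) x) ∂(rho K) :=
    integral_mono_ae hiG (hi0123.add hiI4)
      (by filter_upwards [rho_ae_mem hK] with x hx using hptw x hx)
  rw [integral_add hi0123 hiI4, integral_add hi012 hiI3, integral_add hi01 hiI2,
    integral_add hiDh hiI1, integral_div, integral_indicator hmV, integral_indicator hmW,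
    integral_indicator hmdV, integral_indicator hmdW, setIntegral_const, setIntegral_const] at hmono
  simp only [smul_eq_mul] at hmono
  have e3 : (rho K).real (K \ KV) * (2 * L) ≤ P * h * (2 * L) :=
    mul_le_mul_of_nonneg_right hdV (by positivity)
  have e4 : (rho K).real (K \ KW) * (2 * L) ≤ P * h * (2 * L) :=
    mul_le_mul_of_nonneg_right hdW (by positivity)
  have e5 : 2 * L * (P * h) + 2 * L * (P * h) + P * h * (2 * L) + P * h * (2 * L) = 8 * L * P * h := by
    ring
  linarith

/-- Claim A: near-equality in Young's inequality forces `L¹` closeness of the maps. -/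
theorem claimA (hK : Body K) (L : ℝ) (hL : 0 ≤ L) :
    ∃ C : ℝ, 0 ≤ C ∧ ∀ (T a : E d → E d) (φ β : E d → ℝ),
      Measurable T → Measurable a → Measurable β → Continuous φ →
      (∀ x ∈ K, ‖T x‖ ≤ L) → (∀ x ∈ K, ‖a x‖ ≤ L) →
      (∀ x ∈ K, ∀ z ∈ K, φ x + ⟪z - x, T x⟫ ≤ φ z) →
      (∀ x ∈ K, ∀ z ∈ K, ⟪z, a x⟫ - β x ≤ φ z) →
      Integrable β (rho K) →
      ∫ x, ‖a x - T x‖ ∂(rho K)
        ≤ C * Real.sqrt (∫ x, (φ x + β x - ⟪x, a x⟫) ∂(rho K)) := by
  obtain ⟨P, hP, hdiff⟩ := exists_P hK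
  refine ⟨d * (1 + 8 * L * P), by positivity, ?_⟩
  intro T a φ β hT ha hβ hφ hTL haL hφT hsupp hβi
  have hbase := fun (j : Fin d) h (hh : 0 < h) =>
    claimA_dir hK hL hdiff hT ha hφ hTL haL hφT hsupp hβi (norm_eb j) hh
  set Γ : ℝ := ∫ x, (φ x + β x - ⟪x, a x⟫) ∂(rho K) with hΓ
  have hi : ∀ j : Fin d, Integrable (fun x => |⟪a x - T x, eb j⟫|) (rho K) := by
    intro j
    refine integrable_of_bdd_K hK (B := 2 * L) ((ha.sub hT).inner measurable_const).abs ?_
    intro x hx
    rw [abs_abs]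
    refine (abs_real_inner_le_norm _ _).trans ?_
    rw [norm_eb, mul_one]
    refine (norm_sub_le _ _).trans ?_
    linarith [hTL x hx, haL x hx]
  have hsumi : Integrable (fun x => ∑ j, |⟪a x - T x, eb j⟫|) (rho K) :=
    integrable_finsetSum _ fun j _ => hi j
  have hmn : Measurable (fun x => ‖a x - T x‖) := (ha.sub hT).norm
  have hin : Integrable (fun x => ‖a x - T x‖) (rho K) := by
    refine integrable_of_bdd_K hK (B := 2 * L) hmn ?_
    intro x hx
    rw [abs_norm]
    refine (norm_sub_le _ _).trans ?_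
    linarith [hTL x hx, haL x hx]
  have hle : ∀ h : ℝ, 0 < h → ∫ x, ‖a x - T x‖ ∂(rho K) ≤ d * (Γ / h + 8 * L * P * h) := by
    intro h hh
    calc ∫ x, ‖a x - T x‖ ∂(rho K) ≤ ∫ x, ∑ j, |⟪a x - T x, eb j⟫| ∂(rho K) :=
          integral_mono hin hsumi fun x => norm_le_sum_eb _
      _ = ∑ j, ∫ x, |⟪a x - T x, eb j⟫| ∂(rho K) := integral_finsetSum _ fun j _ => hi j
      _ ≤ ∑ _j : Fin d, (Γ / h + 8 * L * P * h) :=
          Finset.sum_le_sum fun j _ => (hbase j h hh).2.2
      _ = d * (Γ / h + 8 * L * P * h) := by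
          simp only [Finset.sum_const, Finset.card_univ, Fintype.card_fin, nsmul_eq_mul]
  -- `Γ ≥ 0`
  have hΓ0 : 0 ≤ Γ := by
    refine integral_nonneg_of_ae ?_
    filter_upwards [rho_ae_mem hK] with x hx
    have := hsupp x hx x hx
    show (0 : ℝ) ≤ φ x + β x - ⟪x, a x⟫
    linarith
  rcases hΓ0.eq_or_lt with h0 | hpos
  · rw [← h0, Real.sqrt_zero, mul_zero]
    refine nonpos_of_le_mul_pos (c := d * (8 * L * P)) fun t ht => ?_
    have := hle t ht
    rw [← h0] at this
    simp only [zero_div, zero_add] at this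
    linarith
  · have hs : 0 < Real.sqrt Γ := Real.sqrt_pos.mpr hpos
    have := hle (Real.sqrt Γ) hs
    refine this.trans (le_of_eq ?_)
    have hΓs : Γ = Real.sqrt Γ * Real.sqrt Γ := (Real.mul_self_sqrt hΓ0).symm
    have h1 : Γ / Real.sqrt Γ = Real.sqrt Γ := by
      nth_rewrite 1 [hΓs]
      field_simp
    rw [h1]
    ring

end Crest.Agent.OT
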