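/-
S0109 project: Prekopa-Leindler inequality on `EuclideanSpace ℝ (Fin d)` (piece PL, see OTPLAN.md).
Only bounded, boundedly supported functions are needed; this makes the induction on `d` easy.
-/
import Crest.Agent.OTCore

set_option autoImplicit false
open MeasureTheory Set
open scoped ENNReal

namespace Crest.Agent.OT

namespace PL

/-- Volume of the preimage under `u ↦ 2u - c`. -/
lemma vol_preimage (S : Set ℝ) (c : ℝ) :
    volume ((fun u : ℝ => 2 * u - c) ⁻¹' S) * 2 = volume S := by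
  have h1 : (fun u : ℝ => 2 * u - c) ⁻¹' S = (fun u : ℝ => 2 * u) ⁻¹' ((fun u : ℝ => u + (-c)) ⁻¹' S) := by
    ext u; simp [sub_eq_add_neg]
  rw [h1, Real.volume_preimage_mul_left (by norm_num : (2 : ℝ) ≠ 0), measure_preimage_add_right]
  have h2 : ENNReal.ofReal |(2 : ℝ)⁻¹| * 2 = 1 := by
    rw [abs_of_pos (by norm_num : (0 : ℝ) < 2⁻¹)]
    have : (2 : ℝ≥0∞) = ENNReal.ofReal 2 := by simp
    rw [this, ← ENNReal.ofReal_mul (by norm_num)]
    norm_num
  calc ENNReal.ofReal |(2 : ℝ)⁻¹| * volume S * 2 = (ENNReal.ofReal |(2 : ℝ)⁻¹| * 2) * volume S := by ring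
    _ = volume S := by rw [h2, one_mul]

/-- One-dimensional Brunn-Minkowski, midpoint form. -/
lemma bm1 (A B C : Set ℝ) (hA : MeasurableSet A) (hB : MeasurableSet B) (_hC : MeasurableSet C)
    (neA : A.Nonempty) (neB : B.Nonempty) (bddA : BddAbove A) (bddB : BddBelow B)
    (h : ∀ a ∈ A, ∀ b ∈ B, (a + b) / 2 ∈ C) :
    volume A + volume B ≤ 2 * volume C := by
  apply ENNReal.le_of_forall_pos_le_add
  intro ε hε _
  have hε' : (0 : ℝ) < ε := by exact_mod_cast hε
  -- choose points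
  obtain ⟨a', ha', haa⟩ := exists_lt_of_lt_csSup neA (sub_lt_self (sSup A) (half_pos hε'))
  obtain ⟨b', hb', hbb⟩ := exists_lt_of_csInf_lt neB (lt_add_of_pos_right (sInf B) (half_pos hε'))
  set A₁ := A ∩ Iio a' with hA₁
  set B₁ := B ∩ Ici b' with hB₁
  have hA₁m : MeasurableSet A₁ := hA.inter measurableSet_Iio
  have hB₁m : MeasurableSet B₁ := hB.inter measurableSet_Ici
  -- volumes
  have hvA : volume A ≤ volume A₁ + ENNReal.ofReal (ε / 2) := by
    have hsub : A ⊆ A₁ ∪ Icc a' (sSup A) := by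
      intro x hx
      by_cases hxa : x < a'
      · exact Or.inl ⟨hx, hxa⟩
      · exact Or.inr ⟨not_lt.mp hxa, le_csSup bddA hx⟩
    calc volume A ≤ volume (A₁ ∪ Icc a' (sSup A)) := measure_mono hsub
      _ ≤ volume A₁ + volume (Icc a' (sSup A)) := measure_union_le _ _
      _ ≤ _ := by
        gcongr
        rw [Real.volume_Icc]
        apply ENNReal.ofReal_le_ofReal
        linarith
  have hvB : volume B ≤ volume B₁ + ENNReal.ofReal (ε / 2) := by
    have hsub : B ⊆ B₁ ∪ Icc (sInf B) b' := by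
      intro x hx
      by_cases hxa : b' ≤ x
      · exact Or.inl ⟨hx, hxa⟩
      · exact Or.inr ⟨csInf_le bddB hx, (not_le.mp hxa).le⟩
    calc volume B ≤ volume (B₁ ∪ Icc (sInf B) b') := measure_mono hsub
      _ ≤ volume B₁ + volume (Icc (sInf B) b') := measure_union_le _ _
      _ ≤ _ := by
        gcongr
        rw [Real.volume_Icc]
        apply ENNReal.ofReal_le_ofReal
        linarith
  -- the two pieces inside C
  set C₁ := (fun u : ℝ => 2 * u - b') ⁻¹' A₁ with hC₁
  set C₂ := (fun u : ℝ => 2 * u - a') ⁻¹' B₁ with hC₂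
  have hm1 : Measurable (fun u : ℝ => 2 * u - b') := by fun_prop
  have hm2 : Measurable (fun u : ℝ => 2 * u - a') := by fun_prop
  have hC₁m : MeasurableSet C₁ := hm1 hA₁m
  have hC₂m : MeasurableSet C₂ := hm2 hB₁m
  have hdisj : Disjoint C₁ C₂ := by
    rw [Set.disjoint_left]
    rintro u ⟨_, h1⟩ ⟨_, h2⟩
    simp only [mem_Iio, mem_Ici] at h1 h2
    linarith
  have hsub : C₁ ∪ C₂ ⊆ C := by
    rintro u (⟨h1, _⟩ | ⟨h2, _⟩)
    · have := h _ h1 _ hb'
      have e : (2 * u - b' + b') / 2 = u := by ring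
      simpa [e] using this
    · have := h _ ha' _ h2
      have e : (a' + (2 * u - a')) / 2 = u := by ring
      simpa [e] using this
  have hvC : volume A₁ + volume B₁ ≤ 2 * volume C := by
    have h1 := vol_preimage A₁ b'
    have h2 := vol_preimage B₁ a'
    calc volume A₁ + volume B₁ = volume C₁ * 2 + volume C₂ * 2 := by rw [hC₁, hC₂, h1, h2]
      _ = 2 * (volume C₁ + volume C₂) := by ring
      _ = 2 * volume (C₁ ∪ C₂) := by rw [measure_union hdisj hC₂m]
      _ ≤ 2 * volume C := by gcongr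
  have hsum : ENNReal.ofReal (ε / 2) + ENNReal.ofReal (ε / 2) = (ε : ℝ≥0∞) := by
    rw [← ENNReal.ofReal_add (by positivity) (by positivity)]
    simp
  calc volume A + volume B ≤ (volume A₁ + ENNReal.ofReal (ε / 2)) + (volume B₁ + ENNReal.ofReal (ε / 2)) := by
        gcongr
    _ = (volume A₁ + volume B₁) + (ENNReal.ofReal (ε / 2) + ENNReal.ofReal (ε / 2)) := by ring
    _ ≤ 2 * volume C + ε := by rw [hsum]; gcongr

/-- AM-GM in `ℝ≥0∞`. -/
lemma amgm (X Y W : ℝ≥0∞) (h : X + Y ≤ 2 * W) : X * Y ≤ W ^ 2 := by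
  by_cases hW : W = ⊤
  · subst hW
    simp
  have h2W : 2 * W ≠ ⊤ := ENNReal.mul_ne_top (by simp) hW
  have hX : X ≠ ⊤ := by
    intro hX
    rw [hX] at h
    simp only [top_add, top_le_iff] at h
    exact h2W h
  have hY : Y ≠ ⊤ := by
    intro hY
    rw [hY] at h
    simp only [add_top, top_le_iff] at h
    exact h2W h
  lift X to NNReal using hX
  lift Y to NNReal using hY
  lift W to NNReal using hW
  norm_cast at h ⊢
  have h' : (X : ℝ) + Y ≤ 2 * W := by exact_mod_cast h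
  have : (X : ℝ) * Y ≤ (W : ℝ) ^ 2 := by
    have hX0 : (0 : ℝ) ≤ X := X.2
    have hY0 : (0 : ℝ) ≤ Y := Y.2
    nlinarith [sq_nonneg ((X : ℝ) - Y), sq_nonneg ((X : ℝ) + Y)]
  exact_mod_cast this

/-- Layer cake for a function bounded by one. -/
lemma layer (F : ℝ → ℝ) (hF : Measurable F) (F0 : ∀ x, 0 ≤ F x) (F1 : ∀ x, F x ≤ 1) :
    ∫⁻ x, ENNReal.ofReal (F x) = ∫⁻ t in Ioo (0 : ℝ) 1, volume {x | t < F x} := by
  rw [lintegral_eq_lintegral_meas_lt volume (Filter.Eventually.of_forall F0) hF.aemeasurable]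
  rw [← lintegral_indicator measurableSet_Ioi, ← lintegral_indicator measurableSet_Ioo]
  congr 1
  funext t
  by_cases ht : t ∈ Ioo (0 : ℝ) 1
  · rw [indicator_of_mem ht, indicator_of_mem (show t ∈ Ioi (0 : ℝ) from ht.1)]
  · rw [indicator_of_notMem ht]
    by_cases ht0 : t ∈ Ioi (0 : ℝ)
    · rw [indicator_of_mem ht0]
      have ht1 : 1 ≤ t := by
        by_contra hc
        exact ht ⟨ht0, not_le.mp hc⟩
      have : {x | t < F x} = ∅ := by
        ext x
        simp only [mem_empty_iff_false, iff_false]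
        show ¬ t < F x
        rw [not_lt]
        exact (F1 x).trans ht1
      rw [this, measure_empty]
    · rw [indicator_of_notMem ht0]

lemma layer_le (F : ℝ → ℝ) (hF : Measurable F) (F0 : ∀ x, 0 ≤ F x) :
    ∫⁻ t in Ioo (0 : ℝ) 1, volume {x | t < F x} ≤ ∫⁻ x, ENNReal.ofReal (F x) := by
  rw [lintegral_eq_lintegral_meas_lt volume (Filter.Eventually.of_forall F0) hF.aemeasurable]
  exact lintegral_mono_set Ioo_subset_Ioi_self

/-- The one dimensional inequality with exact suprema `a`, `b`. -/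
lemma pl1_core (f g h : ℝ → ℝ) (hf : Measurable f) (hg : Measurable g) (hh : Measurable h)
    (f0 : ∀ x, 0 ≤ f x) (g0 : ∀ x, 0 ≤ g x) (h0 : ∀ x, 0 ≤ h x)
    (a b : ℝ) (ha : 0 < a) (hb : 0 < b) (fa : ∀ x, f x ≤ a) (gb : ∀ x, g x ≤ b)
    (fs : ∀ t < a, ∃ x, t < f x) (gs : ∀ t < b, ∃ x, t < g x)
    (R : ℝ) (fR : ∀ x, f x ≠ 0 → |x| ≤ R) (gR : ∀ x, g x ≠ 0 → |x| ≤ R)
    (hmid : ∀ x y, f x * g y ≤ h ((x + y) / 2) ^ 2) :
    (∫⁻ x, ENNReal.ofReal (f x)) * (∫⁻ x, ENNReal.ofReal (g x)) ≤ (∫⁻ x, ENNReal.ofReal (h x)) ^ 2 := by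
  set c := Real.sqrt (a * b) with hc
  have hab : 0 < a * b := mul_pos ha hb
  have hc0 : 0 < c := Real.sqrt_pos.mpr hab
  have hcc : c * c = a * b := Real.mul_self_sqrt hab.le
  set F : ℝ → ℝ := fun x => f x / a with hFdef
  set G : ℝ → ℝ := fun x => g x / b with hGdef
  set K : ℝ → ℝ := fun x => h x / c with hKdef
  have hF : Measurable F := hf.div_const a
  have hG : Measurable G := hg.div_const b
  have hK : Measurable K := hh.div_const c
  have F0 : ∀ x, 0 ≤ F x := fun x => div_nonneg (f0 x) ha.le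
  have G0 : ∀ x, 0 ≤ G x := fun x => div_nonneg (g0 x) hb.le
  have K0 : ∀ x, 0 ≤ K x := fun x => div_nonneg (h0 x) hc0.le
  have F1 : ∀ x, F x ≤ 1 := fun x => (div_le_one ha).mpr (fa x)
  have G1 : ∀ x, G x ≤ 1 := fun x => (div_le_one hb).mpr (gb x)
  -- pointwise Brunn-Minkowski
  have key : ∀ t ∈ Ioo (0 : ℝ) 1, volume {x | t < F x} + volume {x | t < G x} ≤ 2 * volume {x | t < K x} := by
    rintro t ⟨ht0, ht1⟩
    apply bm1
    · exact measurableSet_lt measurable_const hF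
    · exact measurableSet_lt measurable_const hG
    · exact measurableSet_lt measurable_const hK
    · obtain ⟨x, hx⟩ := fs (t * a) (by nlinarith)
      exact ⟨x, (lt_div_iff₀ ha).mpr hx⟩
    · obtain ⟨x, hx⟩ := gs (t * b) (by nlinarith)
      exact ⟨x, (lt_div_iff₀ hb).mpr hx⟩
    · refine ⟨R, ?_⟩
      intro x hx
      have hx' : t < f x / a := hx
      have : f x ≠ 0 := by
        intro h0'
        rw [h0'] at hx'
        simp at hx'
        linarith
      exact (le_abs_self x).trans (fR x this)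
    · refine ⟨-R, ?_⟩
      intro x hx
      have hx' : t < g x / b := hx
      have : g x ≠ 0 := by
        intro h0'
        rw [h0'] at hx'
        simp at hx'
        linarith
      exact (abs_le.mp (gR x this)).1
    · intro x hx y hy
      have hx' : t < f x / a := hx
      have hy' : t < g y / b := hy
      show t < h ((x + y) / 2) / c
      have h1 : t ^ 2 < (h ((x + y) / 2) / c) ^ 2 := by
        have h2 : t ^ 2 < (f x / a) * (g y / b) := by
          have := mul_lt_mul'' hx' hy' ht0.le ht0.le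
          nlinarith
        have h3 : (f x / a) * (g y / b) = (f x * g y) / (a * b) := by
          field_simp
        have h4 : (h ((x + y) / 2) / c) ^ 2 = h ((x + y) / 2) ^ 2 / (a * b) := by
          rw [div_pow, sq c, hcc]
        rw [h4]
        rw [h3] at h2
        exact h2.trans_le (by gcongr; exact hmid x y)
      exact lt_of_pow_lt_pow_left₀ 2 (K0 _) h1
  -- integrate
  have hmF : Measurable (fun t : ℝ => volume {x | t < F x}) := by
    apply Antitone.measurable
    intro s t hst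
    exact measure_mono (fun x hx => lt_of_le_of_lt hst hx)
  have hmG : Measurable (fun t : ℝ => volume {x | t < G x}) := by
    apply Antitone.measurable
    intro s t hst
    exact measure_mono (fun x hx => lt_of_le_of_lt hst hx)
  have hsum : (∫⁻ x, ENNReal.ofReal (F x)) + (∫⁻ x, ENNReal.ofReal (G x)) ≤ 2 * ∫⁻ x, ENNReal.ofReal (K x) := by
    rw [layer F hF F0 F1, layer G hG G0 G1, ← lintegral_add_left hmF]
    calc ∫⁻ t in Ioo (0 : ℝ) 1, (volume {x | t < F x} + volume {x | t < G x})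
        ≤ ∫⁻ t in Ioo (0 : ℝ) 1, 2 * volume {x | t < K x} :=
          setLIntegral_mono' measurableSet_Ioo key
      _ = 2 * ∫⁻ t in Ioo (0 : ℝ) 1, volume {x | t < K x} := by
          rw [lintegral_const_mul']
          simp
      _ ≤ 2 * ∫⁻ x, ENNReal.ofReal (K x) := by
          exact mul_le_mul_right (layer_le K hK K0) 2
  have hprod := amgm _ _ _ hsum
  -- unscale
  have scale : ∀ (φ : ℝ → ℝ) (r : ℝ), Measurable φ → 0 < r →
      ∫⁻ x, ENNReal.ofReal (φ x / r) = ENNReal.ofReal r⁻¹ * ∫⁻ x, ENNReal.ofReal (φ x) := by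
    intro φ r hφ hr
    rw [← lintegral_const_mul _ hφ.ennreal_ofReal]
    congr 1
    funext x
    rw [← ENNReal.ofReal_mul (inv_nonneg.mpr hr.le), div_eq_inv_mul]
  rw [scale f a hf ha, scale g b hg hb, scale h c hh hc0] at hprod
  set If := ∫⁻ x, ENNReal.ofReal (f x)
  set Ig := ∫⁻ x, ENNReal.ofReal (g x)
  set Ih := ∫⁻ x, ENNReal.ofReal (h x)
  have hγ : ENNReal.ofReal a⁻¹ * ENNReal.ofReal b⁻¹ = ENNReal.ofReal c⁻¹ ^ 2 := by
    rw [← ENNReal.ofReal_mul (inv_nonneg.mpr ha.le), sq, ← ENNReal.ofReal_mul (inv_nonneg.mpr hc0.le)]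
    congr 1
    rw [← mul_inv, ← mul_inv, hcc]
  have hne0 : ENNReal.ofReal c⁻¹ ^ 2 ≠ 0 := by
    apply pow_ne_zero
    simp [hc0]
  have hnet : ENNReal.ofReal c⁻¹ ^ 2 ≠ ⊤ := by
    apply ENNReal.pow_ne_top
    simp
  have h5 : ENNReal.ofReal c⁻¹ ^ 2 * (If * Ig) ≤ ENNReal.ofReal c⁻¹ ^ 2 * Ih ^ 2 := by
    calc ENNReal.ofReal c⁻¹ ^ 2 * (If * Ig)
        = (ENNReal.ofReal a⁻¹ * If) * (ENNReal.ofReal b⁻¹ * Ig) := by rw [← hγ]; ring
      _ ≤ (ENNReal.ofReal c⁻¹ * Ih) ^ 2 := hprod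
      _ = _ := by ring
  exact (ENNReal.mul_le_mul_iff_right hne0 hnet).mp h5

/-- One dimensional inequality for real bounded boundedly supported functions. -/
lemma pl1_bdd (f g h : ℝ → ℝ) (hf : Measurable f) (hg : Measurable g) (hh : Measurable h)
    (f0 : ∀ x, 0 ≤ f x) (g0 : ∀ x, 0 ≤ g x) (h0 : ∀ x, 0 ≤ h x)
    (M R : ℝ) (fM : ∀ x, f x ≤ M) (gM : ∀ x, g x ≤ M)
    (fR : ∀ x, f x ≠ 0 → |x| ≤ R) (gR : ∀ x, g x ≠ 0 → |x| ≤ R)
    (hmid : ∀ x y, f x * g y ≤ h ((x + y) / 2) ^ 2) :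
    (∫⁻ x, ENNReal.ofReal (f x)) * (∫⁻ x, ENNReal.ofReal (g x)) ≤ (∫⁻ x, ENNReal.ofReal (h x)) ^ 2 := by
  by_cases hf0 : ∀ x, f x = 0
  · have : (∫⁻ x, ENNReal.ofReal (f x)) = 0 := by simp [hf0]
    simp [this]
  by_cases hg0 : ∀ x, g x = 0
  · have : (∫⁻ x, ENNReal.ofReal (g x)) = 0 := by simp [hg0]
    simp [this]
  push Not at hf0 hg0
  obtain ⟨x₀, hx₀⟩ := hf0
  obtain ⟨y₀, hy₀⟩ := hg0
  have bf : BddAbove (range f) := ⟨M, by rintro _ ⟨x, rfl⟩; exact fM x⟩
  have bg : BddAbove (range g) := ⟨M, by rintro _ ⟨x, rfl⟩; exact gM x⟩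
  refine pl1_core f g h hf hg hh f0 g0 h0 (⨆ x, f x) (⨆ x, g x) ?_ ?_ (fun x => le_ciSup bf x)
    (fun x => le_ciSup bg x) (fun t ht => exists_lt_of_lt_ciSup ht) (fun t ht => exists_lt_of_lt_ciSup ht)
    R fR gR hmid
  · exact lt_of_lt_of_le (lt_of_le_of_ne (f0 x₀) (Ne.symm hx₀)) (le_ciSup bf x₀)
  · exact lt_of_lt_of_le (lt_of_le_of_ne (g0 y₀) (Ne.symm hy₀)) (le_ciSup bg y₀)

/-- Truncation. -/
noncomputable def trunc (φ : ℝ → ℝ≥0∞) (n : ℕ) (x : ℝ) : ℝ≥0∞ :=
  if |x| ≤ n then min (φ x) n else 0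

lemma trunc_ne_top (φ : ℝ → ℝ≥0∞) (n : ℕ) (x : ℝ) : trunc φ n x ≠ ⊤ := by
  unfold trunc
  split_ifs
  · exact ne_top_of_le_ne_top (ENNReal.natCast_ne_top n) (min_le_right _ _)
  · simp

lemma trunc_meas (φ : ℝ → ℝ≥0∞) (hφ : Measurable φ) (n : ℕ) : Measurable (trunc φ n) := by
  unfold trunc
  refine Measurable.ite ?_ (hφ.min measurable_const) measurable_const
  exact measurableSet_le (by fun_prop) measurable_const

lemma trunc_mono (φ : ℝ → ℝ≥0∞) (x : ℝ) : Monotone (fun n : ℕ => trunc φ n x) := by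
  intro m n hmn
  simp only [trunc]
  have h' : (m : ℝ) ≤ n := by exact_mod_cast hmn
  split_ifs with h1 h2 h2
  · exact min_le_min_left _ (by exact_mod_cast hmn)
  · exact absurd (h1.trans h') h2
  · exact bot_le
  · exact le_rfl

lemma trunc_iSup (φ : ℝ → ℝ≥0∞) (x : ℝ) : ⨆ n : ℕ, trunc φ n x = φ x := by
  apply le_antisymm
  · apply iSup_le
    intro n
    simp only [trunc]
    split_ifs
    · exact min_le_left _ _
    · exact bot_le
  · apply le_of_forall_lt
    intro c hc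
    have hcT : c ≠ ⊤ := ne_top_of_lt hc
    obtain ⟨N, hN⟩ := exists_nat_ge |x|
    obtain ⟨N', hN'⟩ := ENNReal.exists_nat_gt hcT
    rw [lt_iSup_iff]
    refine ⟨max N N', ?_⟩
    simp only [trunc]
    rw [if_pos (hN.trans (by exact_mod_cast le_max_left N N'))]
    refine lt_min hc (hN'.trans_le ?_)
    exact_mod_cast le_max_right N N'

lemma trunc_mid (f g h : ℝ → ℝ≥0∞) (hmid : ∀ x y, f x * g y ≤ h ((x + y) / 2) ^ 2) (n : ℕ) (x y : ℝ) :
    trunc f n x * trunc g n y ≤ trunc h n ((x + y) / 2) ^ 2 := by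
  simp only [trunc]
  by_cases hx : |x| ≤ n
  · by_cases hy : |y| ≤ n
    · have hxy : |(x + y) / 2| ≤ n := by
        rw [abs_le] at hx hy ⊢
        constructor <;> linarith [hx.1, hx.2, hy.1, hy.2]
      rw [if_pos hx, if_pos hy, if_pos hxy]
      rcases le_total (h ((x + y) / 2)) n with hh | hh
      · rw [min_eq_left hh]
        exact (mul_le_mul' (min_le_left _ _) (min_le_left _ _)).trans (hmid x y)
      · rw [min_eq_right hh, sq]
        exact mul_le_mul' (min_le_right _ _) (min_le_right _ _)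
    · rw [if_neg hy]; simp
  · rw [if_neg hx]; simp

/-- The one dimensional inequality for arbitrary measurable functions into `ℝ≥0∞`. -/
lemma pl1 (f g h : ℝ → ℝ≥0∞) (hf : Measurable f) (hg : Measurable g) (hh : Measurable h)
    (hmid : ∀ x y, f x * g y ≤ h ((x + y) / 2) ^ 2) :
    (∫⁻ x, f x) * (∫⁻ x, g x) ≤ (∫⁻ x, h x) ^ 2 := by
  -- the truncated inequality
  have key : ∀ n : ℕ, (∫⁻ x, trunc f n x) * (∫⁻ x, trunc g n x) ≤ (∫⁻ x, h x) ^ 2 := by
    intro n
    have conv : ∀ φ : ℝ → ℝ≥0∞, (∫⁻ x, trunc φ n x) = ∫⁻ x, ENNReal.ofReal ((trunc φ n x).toReal) := by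
      intro φ
      congr 1
      funext x
      rw [ENNReal.ofReal_toReal (trunc_ne_top φ n x)]
    have hb : ∀ (φ : ℝ → ℝ≥0∞) (x : ℝ), (trunc φ n x).toReal ≤ n := by
      intro φ x
      have : trunc φ n x ≤ n := by
        simp only [trunc]
        split_ifs
        · exact min_le_right _ _
        · exact bot_le
      simpa using ENNReal.toReal_mono (ENNReal.natCast_ne_top n) this
    have hs : ∀ (φ : ℝ → ℝ≥0∞) (x : ℝ), (trunc φ n x).toReal ≠ 0 → |x| ≤ n := by
      intro φ x hx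
      by_contra hc
      apply hx
      simp [trunc, hc]
    have h1 := pl1_bdd (fun x => (trunc f n x).toReal) (fun x => (trunc g n x).toReal)
      (fun x => (trunc h n x).toReal) (trunc_meas f hf n).ennreal_toReal (trunc_meas g hg n).ennreal_toReal
      (trunc_meas h hh n).ennreal_toReal (fun _ => ENNReal.toReal_nonneg) (fun _ => ENNReal.toReal_nonneg)
      (fun _ => ENNReal.toReal_nonneg) n n (hb f) (hb g) (hs f) (hs g) (by
        intro x y
        have := trunc_mid f g h hmid n x y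
        have h2 := ENNReal.toReal_mono (ENNReal.pow_ne_top (trunc_ne_top h n _)) this
        simpa [ENNReal.toReal_mul, ENNReal.toReal_pow] using h2)
    rw [conv f, conv g]
    refine h1.trans ?_
    rw [← conv h]
    gcongr with x
    have : trunc h n x ≤ h x := by
      simp only [trunc]
      split_ifs
      · exact min_le_left _ _
      · exact bot_le
    exact this
  have hsupf : (∫⁻ x, f x) = ⨆ n : ℕ, ∫⁻ x, trunc f n x := by
    rw [← lintegral_iSup (trunc_meas f hf) (fun m n hmn x => trunc_mono f x hmn)]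
    simp_rw [trunc_iSup]
  have hsupg : (∫⁻ x, g x) = ⨆ n : ℕ, ∫⁻ x, trunc g n x := by
    rw [← lintegral_iSup (trunc_meas g hg) (fun m n hmn x => trunc_mono g x hmn)]
    simp_rw [trunc_iSup]
  rw [hsupf, hsupg, ENNReal.iSup_mul]
  apply iSup_le
  intro m
  rw [ENNReal.mul_iSup]
  apply iSup_le
  intro k
  refine le_trans ?_ (key (max m k))
  apply mul_le_mul'
  · exact lintegral_mono (fun x => trunc_mono f x (le_max_left m k))
  · exact lintegral_mono (fun x => trunc_mono g x (le_max_right m k))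

/-- Prekopa-Leindler on `Fin d → ℝ`, for arbitrary measurable functions into `ℝ≥0∞`. -/
theorem pl_pi : ∀ (d : ℕ) (f g h : (Fin d → ℝ) → ℝ≥0∞), Measurable f → Measurable g → Measurable h →
    (∀ x y, f x * g y ≤ h (fun i => (x i + y i) / 2) ^ 2) →
    (∫⁻ x, f x) * (∫⁻ x, g x) ≤ (∫⁻ x, h x) ^ 2 := by
  intro d
  induction d with
  | zero =>
    intro f g h hf hg hh hmid
    have hv : (volume : Measure (Fin 0 → ℝ)) = Measure.dirac 0 := Measure.volume_pi_eq_dirac 0
    rw [hv, lintegral_dirac' _ hf, lintegral_dirac' _ hg, lintegral_dirac' _ hh]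
    have := hmid 0 0
    have e : (fun i : Fin 0 => ((0 : Fin 0 → ℝ) i + (0 : Fin 0 → ℝ) i) / 2) = 0 := by
      funext i; exact i.elim0
    rwa [e] at this
  | succ d ih =>
    intro f g h hf hg hh hmid
    let e := MeasurableEquiv.piFinSuccAbove (fun _ : Fin (d + 1) => ℝ) 0
    have hp : MeasurePreserving e.symm (volume.prod volume) volume :=
      (volume_preserving_piFinSuccAbove (fun _ : Fin (d + 1) => ℝ) 0).symm
    have hint : ∀ φ : (Fin (d + 1) → ℝ) → ℝ≥0∞, Measurable φ →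
        (∫⁻ x, φ x) = ∫⁻ s : ℝ, ∫⁻ x : Fin d → ℝ, φ (e.symm (s, x)) := by
      intro φ hφ
      rw [← hp.lintegral_comp hφ]
      exact lintegral_prod (fun a => φ (e.symm a)) (hφ.comp e.symm.measurable).aemeasurable
    have hmeas : ∀ φ : (Fin (d + 1) → ℝ) → ℝ≥0∞, Measurable φ →
        Measurable (fun s : ℝ => ∫⁻ x : Fin d → ℝ, φ (e.symm (s, x))) := by
      intro φ hφ
      exact (hφ.comp e.symm.measurable).lintegral_prod_right'
    have hslice : ∀ (φ : (Fin (d + 1) → ℝ) → ℝ≥0∞) (s : ℝ), Measurable φ →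
        Measurable (fun x : Fin d → ℝ => φ (e.symm (s, x))) := by
      intro φ s hφ
      exact hφ.comp (e.symm.measurable.comp measurable_prodMk_left)
    rw [hint f hf, hint g hg, hint h hh]
    apply pl1 _ _ _ (hmeas f hf) (hmeas g hg) (hmeas h hh)
    intro s t
    apply ih _ _ _ (hslice f s hf) (hslice g t hg) (hslice h _ hh)
    intro x y
    refine (hmid _ _).trans_eq ?_
    congr 2
    funext i
    refine Fin.cases ?_ (fun j => ?_) i
    · simp [e, MeasurableEquiv.piFinSuccAbove]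
    · simp [e, MeasurableEquiv.piFinSuccAbove]

end PL

/-- Prekopa-Leindler, midpoint form. -/
theorem prekopa_leindler {d : ℕ} (f g h : E d → ℝ) (hf : Measurable f) (hg : Measurable g)
    (hh : Measurable h) (f0 : ∀ x, 0 ≤ f x) (g0 : ∀ x, 0 ≤ g x) (h0 : ∀ x, 0 ≤ h x)
    (M R : ℝ) (fM : ∀ x, f x ≤ M) (gM : ∀ x, g x ≤ M) (hM : ∀ x, h x ≤ M)
    (fR : ∀ x, f x ≠ 0 → ‖x‖ ≤ R) (gR : ∀ x, g x ≠ 0 → ‖x‖ ≤ R) (hR : ∀ x, h x ≠ 0 → ‖x‖ ≤ R)
    (hmid : ∀ x y, f x * g y ≤ h (midpoint ℝ x y) ^ 2) :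
    (∫ x, f x) * (∫ x, g x) ≤ (∫ x, h x) ^ 2 := by
  -- transfer to the coordinate space
  have hT : Measurable (WithLp.toLp 2 : (Fin d → ℝ) → E d) := (PiLp.volume_preserving_toLp (Fin d)).measurable
  have hpres := PiLp.volume_preserving_toLp (Fin d)
  have key := PL.pl_pi d (fun v => ENNReal.ofReal (f (WithLp.toLp 2 v))) (fun v => ENNReal.ofReal (g (WithLp.toLp 2 v)))
    (fun v => ENNReal.ofReal (h (WithLp.toLp 2 v)))
    (hf.comp hT).ennreal_ofReal (hg.comp hT).ennreal_ofReal (hh.comp hT).ennreal_ofReal (by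
      intro x y
      have e : midpoint ℝ (WithLp.toLp 2 x : E d) (WithLp.toLp 2 y) = WithLp.toLp 2 (fun i => (x i + y i) / 2) := by
        ext i
        simp [midpoint_eq_smul_add]
        ring
      have := hmid (WithLp.toLp 2 x) (WithLp.toLp 2 y)
      rw [e] at this
      rw [← ENNReal.ofReal_mul (f0 _), ← ENNReal.ofReal_pow (h0 _)]
      exact ENNReal.ofReal_le_ofReal this)
  have conv : ∀ φ : E d → ℝ, Measurable φ →
      (∫⁻ v : Fin d → ℝ, ENNReal.ofReal (φ (WithLp.toLp 2 v))) = ∫⁻ x : E d, ENNReal.ofReal (φ x) := by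
    intro φ hφ
    exact hpres.lintegral_comp hφ.ennreal_ofReal
  rw [conv f hf, conv g hg, conv h hh] at key
  have hfin : (∫⁻ x : E d, ENNReal.ofReal (h x)) ≠ ⊤ := by
    have hle : ∀ x, ENNReal.ofReal (h x) ≤ (Metric.closedBall (0 : E d) R).indicator (fun _ => ENNReal.ofReal M) x := by
      intro x
      by_cases hx : h x = 0
      · simp [hx]
      · have hm : x ∈ Metric.closedBall (0 : E d) R := by
          simpa using hR x hx
        rw [indicator_of_mem hm]
        exact ENNReal.ofReal_le_ofReal (hM x)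
    have : (∫⁻ x : E d, ENNReal.ofReal (h x)) ≤ ∫⁻ x : E d, (Metric.closedBall (0 : E d) R).indicator (fun _ => ENNReal.ofReal M) x :=
      lintegral_mono hle
    rw [lintegral_indicator measurableSet_closedBall, setLIntegral_const] at this
    refine ne_top_of_le_ne_top ?_ this
    exact ENNReal.mul_ne_top (by simp) measure_closedBall_lt_top.ne
  rw [integral_eq_lintegral_of_nonneg_ae (Filter.Eventually.of_forall f0) hf.aestronglyMeasurable,
    integral_eq_lintegral_of_nonneg_ae (Filter.Eventually.of_forall g0) hg.aestronglyMeasurable,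
    integral_eq_lintegral_of_nonneg_ae (Filter.Eventually.of_forall h0) hh.aestronglyMeasurable]
  rw [← ENNReal.toReal_mul, ← ENNReal.toReal_pow]
  exact ENNReal.toReal_mono (ENNReal.pow_ne_top hfin) key

end Crest.Agent.OT
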