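/-
S0109 project: piece KL, first part: Prekopa-Leindler with the Gaussian reference on subsets of `K`.
-/
import Crest.Agent.OTPL

set_option autoImplicit false
set_option linter.style.haveILetI false
set_option linter.unusedVariables false
open MeasureTheory Set
open scoped ENNReal RealInnerProductSpace

namespace Crest.Agent.OT

variable {d : ℕ} {K : Set (E d)}

/-- Strong convexity constant. -/
noncomputable def cR (R : ℝ) : ℝ := 1 / (32 * R ^ 2)

/-- The quadratic weight. -/
noncomputable def VR (R : ℝ) (x : E d) : ℝ := cR R * ‖x‖ ^ 2 / 2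

/-- The Gaussian weight. -/
noncomputable def wt (R : ℝ) (x : E d) : ℝ := Real.exp (-VR R x)

lemma measurable_VR (R : ℝ) : Measurable (VR (d := d) R) := by
  unfold VR
  fun_prop

lemma measurable_wt (R : ℝ) : Measurable (wt (d := d) R) := by
  unfold wt
  exact Real.measurable_exp.comp (measurable_VR R).neg

lemma wt_pos (R : ℝ) (x : E d) : 0 < wt R x := Real.exp_pos _

lemma cR_pos {R : ℝ} (hR : 0 < R) : 0 < cR R := by
  unfold cR; positivity

lemma VR_nonneg {R : ℝ} (hR : 0 < R) (x : E d) : 0 ≤ VR R x := by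
  unfold VR
  have := cR_pos hR
  positivity

lemma VR_le {R : ℝ} (hR : 0 < R) {x : E d} (hx : ‖x‖ ≤ R) : VR R x ≤ 1 / 64 := by
  unfold VR cR
  have h1 : ‖x‖ ^ 2 ≤ R ^ 2 := by
    have := norm_nonneg x
    nlinarith
  have h2 : 0 < R ^ 2 := by positivity
  rw [div_mul_eq_mul_div, div_div, div_le_iff₀ (by positivity)]
  nlinarith

lemma wt_le_one {R : ℝ} (hR : 0 < R) (x : E d) : wt R x ≤ 1 := by
  unfold wt
  rw [Real.exp_le_one_iff]
  linarith [VR_nonneg hR x]

/-- Parallelogram identity for `V`. -/
lemma VR_parallelogram (R : ℝ) (x y : E d) :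
    VR R x + VR R y = 2 * VR R (midpoint ℝ x y) + cR R / 4 * ‖x - y‖ ^ 2 := by
  unfold VR
  have h := parallelogram_law_with_norm ℝ x y
  have h2 : ‖midpoint ℝ x y‖ = (1 / 2) * ‖x + y‖ := by
    rw [midpoint_eq_smul_add, norm_smul]
    norm_num
  rw [h2]
  linear_combination (-(cR R) / 4) * h

/-- Integrability of functions measurable and bounded on `K`. -/
lemma integrable_rho (hK : Body K) {F : E d → ℝ} (hF : Measurable F) {B : ℝ}
    (hB : ∀ x ∈ K, |F x| ≤ B) : Integrable F (rho K) := by
  haveI := rho_isProb hK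
  refine Integrable.of_bound hF.aestronglyMeasurable B ?_
  filter_upwards [rho_ae_mem hK] with x hx
  simpa using hB x hx

lemma integrableOn_rho (hK : Body K) {F : E d → ℝ} (hF : Measurable F) {B : ℝ}
    (hB : ∀ x ∈ K, |F x| ≤ B) (C : Set (E d)) : IntegrableOn F C (rho K) :=
  (integrable_rho hK hF hB).integrableOn

lemma integrable_rho_vec (hK : Body K) {F : E d → E d} (hF : Measurable F) {B : ℝ}
    (hB : ∀ x ∈ K, ‖F x‖ ≤ B) : Integrable F (rho K) := by
  haveI := rho_isProb hK
  refine Integrable.of_bound hF.aestronglyMeasurable B ?_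
  filter_upwards [rho_ae_mem hK] with x hx
  exact hB x hx

/-- Integrals over subsets of `K` in terms of volume. -/
lemma setIntegral_rho (hK : Body K) {C : Set (E d)} (hC : C ⊆ K) (hCm : MeasurableSet C) (F : E d → ℝ) :
    ∫ x in C, F x ∂(rho K) = (volume K).toReal⁻¹ * ∫ x, C.indicator F x := by
  have h1 : (rho K).restrict C = (volume K)⁻¹ • volume.restrict C := by
    show ((volume K)⁻¹ • volume.restrict K).restrict C = _
    rw [Measure.restrict_smul, Measure.restrict_restrict hCm, inter_eq_left.mpr hC]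
  rw [h1, integral_smul_measure, integral_indicator hCm, ENNReal.toReal_inv, smul_eq_mul]

/-- Prekopa-Leindler with Gaussian weight on subsets of `K`. -/
theorem pl_rho (hK : Body K) {R : ℝ} (hR : 0 < R) (hKR : ∀ x ∈ K, ‖x‖ ≤ R)
    {C0 C1 Ch : Set (E d)} (hC0 : C0 ⊆ K) (hC1 : C1 ⊆ K) (hCh : Ch ⊆ K)
    (mC0 : MeasurableSet C0) (mC1 : MeasurableSet C1) (mCh : MeasurableSet Ch)
    (hmid : ∀ x ∈ C0, ∀ y ∈ C1, midpoint ℝ x y ∈ Ch)
    {A B : E d → ℝ} (mA : Measurable A) (mB : Measurable B) {M : ℝ}
    (hA : ∀ x ∈ K, |A x| ≤ M) (hB : ∀ x ∈ K, |B x| ≤ M)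
    (hAB : ∀ x ∈ C0, ∀ y ∈ C1, A x + B y ≤ cR R / 4 * ‖x - y‖ ^ 2) :
    (∫ x in C0, Real.exp (A x) * wt R x ∂(rho K)) * (∫ x in C1, Real.exp (B x) * wt R x ∂(rho K))
      ≤ (∫ x in Ch, wt R x ∂(rho K)) ^ 2 := by
  classical
  have hv : 0 < (volume K).toReal :=
    ENNReal.toReal_pos hK.volume_pos.ne' hK.volume_lt_top.ne
  by_cases hKne : K.Nonempty
  swap
  · -- cannot happen, but harmless
    exfalso
    rw [not_nonempty_iff_eq_empty] at hKne
    have := hK.volume_pos
    simp [hKne] at this
  obtain ⟨x0, hx0⟩ := hKne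
  have hM : 0 ≤ M := (abs_nonneg _).trans (hA x0 hx0)
  set f : E d → ℝ := C0.indicator (fun x => Real.exp (A x) * wt R x) with hf
  set g : E d → ℝ := C1.indicator (fun x => Real.exp (B x) * wt R x) with hg
  set h : E d → ℝ := Ch.indicator (fun x => wt R x) with hh
  have key := prekopa_leindler f g h
    ((Real.measurable_exp.comp mA).mul (measurable_wt R) |>.indicator mC0)
    ((Real.measurable_exp.comp mB).mul (measurable_wt R) |>.indicator mC1)
    ((measurable_wt R).indicator mCh)
    (fun x => indicator_nonneg (fun x _ => (mul_pos (Real.exp_pos _) (wt_pos R x)).le) x)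
    (fun x => indicator_nonneg (fun x _ => (mul_pos (Real.exp_pos _) (wt_pos R x)).le) x)
    (fun x => indicator_nonneg (fun x _ => (wt_pos R x).le) x)
    (Real.exp M) R
    (by
      intro x
      by_cases hx : x ∈ C0
      · rw [hf, indicator_of_mem hx]
        have h1 : Real.exp (A x) ≤ Real.exp M :=
          Real.exp_le_exp.mpr ((le_abs_self _).trans (hA x (hC0 hx)))
        have h2 := wt_le_one hR x
        have h3 := wt_pos R x
        have h4 := Real.exp_pos (A x)
        nlinarith
      · rw [hf, indicator_of_notMem hx]; exact (Real.exp_pos _).le)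
    (by
      intro x
      by_cases hx : x ∈ C1
      · rw [hg, indicator_of_mem hx]
        have h1 : Real.exp (B x) ≤ Real.exp M :=
          Real.exp_le_exp.mpr ((le_abs_self _).trans (hB x (hC1 hx)))
        have h2 := wt_le_one hR x
        have h3 := wt_pos R x
        have h4 := Real.exp_pos (B x)
        nlinarith
      · rw [hg, indicator_of_notMem hx]; exact (Real.exp_pos _).le)
    (by
      intro x
      by_cases hx : x ∈ Ch
      · rw [hh, indicator_of_mem hx]
        exact (wt_le_one hR x).trans (Real.one_le_exp hM)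
      · rw [hh, indicator_of_notMem hx]; exact (Real.exp_pos _).le)
    (by
      intro x hx
      have : x ∈ C0 := by
        by_contra hc
        exact hx (indicator_of_notMem hc _)
      exact hKR x (hC0 this))
    (by
      intro x hx
      have : x ∈ C1 := by
        by_contra hc
        exact hx (indicator_of_notMem hc _)
      exact hKR x (hC1 this))
    (by
      intro x hx
      have : x ∈ Ch := by
        by_contra hc
        exact hx (indicator_of_notMem hc _)
      exact hKR x (hCh this))
    (by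
      intro x y
      by_cases hx : x ∈ C0
      swap
      · rw [hf, indicator_of_notMem hx, zero_mul]; positivity
      by_cases hy : y ∈ C1
      swap
      · rw [hg, indicator_of_notMem hy, mul_zero]; positivity
      rw [hf, hg, hh, indicator_of_mem hx, indicator_of_mem hy, indicator_of_mem (hmid x hx y hy)]
      unfold wt
      have e1 : Real.exp (A x) * Real.exp (-VR R x) * (Real.exp (B y) * Real.exp (-VR R y))
          = Real.exp (A x + B y - (VR R x + VR R y)) := by
        rw [← Real.exp_add, ← Real.exp_add, ← Real.exp_add]; ring_nf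
      have e2 : Real.exp (-VR R (midpoint ℝ x y)) ^ 2 = Real.exp (-(2 * VR R (midpoint ℝ x y))) := by
        rw [sq, ← Real.exp_add]; ring_nf
      rw [e1, e2, Real.exp_le_exp, VR_parallelogram]
      have := hAB x hx y hy
      linarith)
  rw [setIntegral_rho hK hC0 mC0, setIntegral_rho hK hC1 mC1, setIntegral_rho hK hCh mCh]
  have hv' : 0 < (volume K).toReal⁻¹ := inv_pos.mpr hv
  calc _ = (volume K).toReal⁻¹ ^ 2 * ((∫ x, f x) * ∫ x, g x) := by ring
    _ ≤ (volume K).toReal⁻¹ ^ 2 * (∫ x, h x) ^ 2 := by gcongr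
    _ = _ := by ring

end Crest.Agent.OT
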