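/-
S0109 project: piece KL, second part: exponential moment bound for a Lipschitz function on Laguerre cells.
-/
import Crest.Agent.OTKL0

set_option autoImplicit false
set_option linter.style.haveILetI false
set_option linter.unusedVariables false
open MeasureTheory Set
open scoped ENNReal RealInnerProductSpace

namespace Crest.Agent.OT

variable {d : ℕ} {K : Set (E d)}

/-- The weighted mass. -/
noncomputable def Gam (R : ℝ) (K C : Set (E d)) : ℝ := ∫ x in C, wt R x ∂(rho K)

/-- The weighted average. -/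
noncomputable def Av (R : ℝ) (K C : Set (E d)) (G : E d → ℝ) : ℝ :=
  (∫ x in C, G x * wt R x ∂(rho K)) / Gam R K C

lemma exp_avg_le (hK : Body K) {R : ℝ} (hR : 0 < R) {C : Set (E d)} (hC : C ⊆ K)
    (mC : MeasurableSet C) (h0 : 0 < Gam R K C) {G : E d → ℝ} (mG : Measurable G) {B : ℝ}
    (hB : ∀ x ∈ K, |G x| ≤ B) (l : ℝ) :
    Gam R K C * Real.exp (l * Av R K C G) ≤ ∫ x in C, Real.exp (l * G x) * wt R x ∂(rho K) := by
  set E0 := Av R K C G with hE0
  have hw : ∀ x ∈ K, |wt R x| ≤ 1 := by
    intro x _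
    rw [abs_of_pos (wt_pos R x)]
    exact wt_le_one hR x
  have iw : IntegrableOn (fun x => wt R x) C (rho K) := integrableOn_rho hK (measurable_wt R) hw C
  have iGw : IntegrableOn (fun x => G x * wt R x) C (rho K) := by
    refine integrableOn_rho hK (F := fun x => G x * wt R x) (mG.mul (measurable_wt R)) (B := B * 1) ?_ C
    intro x hx
    show |G x * wt R x| ≤ B * 1
    rw [abs_mul]
    exact mul_le_mul (hB x hx) (hw x hx) (abs_nonneg _) ((abs_nonneg _).trans (hB x hx))
  have mexp : Measurable (fun x => Real.exp (l * G x) * wt R x) :=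
    (Real.measurable_exp.comp (mG.const_mul l)).mul (measurable_wt R)
  have iexp : IntegrableOn (fun x => Real.exp (l * G x) * wt R x) C (rho K) := by
    refine integrableOn_rho hK mexp (B := Real.exp (|l| * B) * 1) ?_ C
    intro x hx
    rw [abs_mul, abs_of_pos (Real.exp_pos _)]
    refine mul_le_mul ?_ (hw x hx) (abs_nonneg _) (Real.exp_pos _).le
    apply Real.exp_le_exp.mpr
    calc l * G x ≤ |l * G x| := le_abs_self _
      _ = |l| * |G x| := abs_mul _ _
      _ ≤ |l| * B := by gcongr; exact hB x hx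
  have hpoint : ∀ x ∈ C, Real.exp (l * E0) * (wt R x + l * (G x * wt R x - E0 * wt R x))
      ≤ Real.exp (l * G x) * wt R x := by
    intro x _
    have h1 : l * G x - l * E0 + 1 ≤ Real.exp (l * G x - l * E0) := Real.add_one_le_exp _
    have h2 : Real.exp (l * G x) = Real.exp (l * E0) * Real.exp (l * G x - l * E0) := by
      rw [← Real.exp_add]; ring_nf
    rw [h2]
    have h3 := wt_pos R x
    have h4 := Real.exp_pos (l * E0)
    have : Real.exp (l * E0) * (wt R x + l * (G x * wt R x - E0 * wt R x))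
        = Real.exp (l * E0) * ((l * G x - l * E0 + 1) * wt R x) := by ring
    rw [this, mul_assoc]
    gcongr
  have i2 : IntegrableOn (fun x => G x * wt R x - E0 * wt R x) C (rho K) := iGw.sub (iw.const_mul E0)
  have i3 : IntegrableOn (fun x => l * (G x * wt R x - E0 * wt R x)) C (rho K) := i2.const_mul l
  have i4 : IntegrableOn (fun x => wt R x + l * (G x * wt R x - E0 * wt R x)) C (rho K) := iw.add i3
  have i5 : IntegrableOn (fun x => Real.exp (l * E0) * (wt R x + l * (G x * wt R x - E0 * wt R x))) C (rho K) :=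
    i4.const_mul _
  have hint := setIntegral_mono_on (s := C) (μ := rho K) i5 iexp mC hpoint
  refine le_trans (le_of_eq ?_) hint
  have e1 : ∫ x in C, Real.exp (l * E0) * (wt R x + l * (G x * wt R x - E0 * wt R x)) ∂(rho K)
      = Real.exp (l * E0) * (Gam R K C + l * ((∫ x in C, G x * wt R x ∂(rho K)) - E0 * Gam R K C)) := by
    rw [integral_const_mul, integral_add iw i3, integral_const_mul, integral_sub iGw (iw.const_mul E0),
      integral_const_mul]
    rfl
  rw [e1]
  have e2 : (∫ x in C, G x * wt R x ∂(rho K)) - E0 * Gam R K C = 0 := by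
    rw [hE0]; unfold Av; field_simp; ring
  rw [e2]
  ring

/-- The key bound: the difference of the `Γ`-averages of a Lipschitz function on two cells
is controlled by the logarithmic defect `L`. -/
theorem cond_bound (hK : Body K) {R : ℝ} (hR : 0 < R) (hKR : ∀ x ∈ K, ‖x‖ ≤ R)
    {C0 C1 Ch : Set (E d)} (hC0 : C0 ⊆ K) (hC1 : C1 ⊆ K) (hCh : Ch ⊆ K)
    (mC0 : MeasurableSet C0) (mC1 : MeasurableSet C1) (mCh : MeasurableSet Ch)
    (hmid : ∀ x ∈ C0, ∀ y ∈ C1, midpoint ℝ x y ∈ Ch)
    {G : E d → ℝ} (mG : Measurable G) {B : ℝ} (hB : ∀ x ∈ K, |G x| ≤ B)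
    {Λ : ℝ} (hΛ : 0 < Λ) (hLip : ∀ x ∈ K, ∀ y ∈ K, |G x - G y| ≤ Λ * ‖x - y‖)
    (h0 : 0 < Gam R K C0) (h1 : 0 < Gam R K C1) :
    0 < Gam R K Ch ∧ (Av R K C0 G - Av R K C1 G) ^ 2 ≤
      128 * R ^ 2 * Λ ^ 2 * (2 * Real.log (Gam R K Ch) - Real.log (Gam R K C0) - Real.log (Gam R K C1)) := by
  have hc := cR_pos hR
  have hGh0 : 0 ≤ Gam R K Ch := setIntegral_nonneg mCh (fun x _ => (wt_pos R x).le)
  -- the master inequality
  have master : ∀ l : ℝ, Gam R K C0 * Gam R K C1 * Real.exp (l * (Av R K C0 G - Av R K C1 G) - l ^ 2 * Λ ^ 2 / cR R)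
      ≤ Gam R K Ch ^ 2 := by
    intro l
    set s := l ^ 2 * Λ ^ 2 / cR R with hs
    have hs0 : 0 ≤ s := by positivity
    have hBB : 0 ≤ B ∨ IsEmpty K := by
      by_cases hne : K.Nonempty
      · obtain ⟨x, hx⟩ := hne
        exact Or.inl ((abs_nonneg _).trans (hB x hx))
      · right
        exact not_nonempty_iff_eq_empty.mp hne ▸ inferInstance
    have key := pl_rho hK hR hKR hC0 hC1 hCh mC0 mC1 mCh hmid (A := fun x => l * G x)
      (B := fun x => -l * G x - s) (mG.const_mul l) ((mG.const_mul _).sub_const _)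
      (M := |l| * B + s)
      (by
        intro x hx
        have h2 := hB x hx
        have h3 : 0 ≤ |l| := abs_nonneg l
        rw [abs_mul]
        nlinarith)
      (by
        intro x hx
        have h2 := hB x hx
        have h3 : 0 ≤ |l| := abs_nonneg l
        calc |-l * G x - s| ≤ |-l * G x| + |s| := abs_sub _ _
          _ = |l| * |G x| + s := by rw [abs_mul, abs_neg, abs_of_nonneg hs0]
          _ ≤ _ := by nlinarith)
      (by
        intro x hx y hy
        have hL := hLip x (hC0 hx) y (hC1 hy)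
        set t := ‖x - y‖ with ht
        have h5 : l * (G x - G y) ≤ |l| * (Λ * t) := by
          calc l * (G x - G y) ≤ |l * (G x - G y)| := le_abs_self _
            _ = |l| * |G x - G y| := abs_mul _ _
            _ ≤ _ := by gcongr
        have h6 : |l| * (Λ * t) ≤ cR R / 4 * t ^ 2 + s := by
          have h7 : s = (|l| * Λ) ^ 2 / cR R := by
            rw [hs, mul_pow, sq_abs]
          rw [h7]
          have h8 : 0 ≤ cR R / 4 * (t - 2 * (|l| * Λ) / cR R) ^ 2 := by positivity
          have h9 : cR R / 4 * (t - 2 * (|l| * Λ) / cR R) ^ 2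
              = cR R / 4 * t ^ 2 - |l| * (Λ * t) + (|l| * Λ) ^ 2 / cR R := by
            field_simp
            ring
          linarith
        have e : l * G x + (-l * G y - s) = l * (G x - G y) - s := by ring
        rw [e]
        linarith)
    have e0 := exp_avg_le hK hR hC0 mC0 h0 mG hB l
    have e1 := exp_avg_le hK hR hC1 mC1 h1 mG hB (-l)
    have e3 : ∫ x in C1, Real.exp (-l * G x - s) * wt R x ∂(rho K)
        = Real.exp (-s) * ∫ x in C1, Real.exp (-l * G x) * wt R x ∂(rho K) := by
      rw [← integral_const_mul]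
      congr 1
      ext x
      have : Real.exp (-l * G x - s) = Real.exp (-s) * Real.exp (-l * G x) := by
        rw [← Real.exp_add]; ring_nf
      rw [this]; ring
    rw [e3] at key
    refine le_trans ?_ key
    have e4 : Gam R K C0 * Gam R K C1 * Real.exp (l * (Av R K C0 G - Av R K C1 G) - s)
        = (Gam R K C0 * Real.exp (l * Av R K C0 G))
          * (Real.exp (-s) * (Gam R K C1 * Real.exp (-l * Av R K C1 G))) := by
      have : Real.exp (l * (Av R K C0 G - Av R K C1 G) - s)
          = Real.exp (l * Av R K C0 G) * (Real.exp (-s) * Real.exp (-l * Av R K C1 G)) := by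
        rw [← Real.exp_add, ← Real.exp_add]; ring_nf
      rw [this]; ring
    rw [e4]
    have p1 : 0 ≤ Gam R K C0 * Real.exp (l * Av R K C0 G) := by positivity
    have p2 : 0 ≤ Real.exp (-s) * (Gam R K C1 * Real.exp (-l * Av R K C1 G)) := by positivity
    exact mul_le_mul e0 (by gcongr) p2 (p1.trans e0)
  -- positivity of `Gam Ch`
  have hpos : 0 < Gam R K Ch := by
    have := master 0
    simp only [zero_mul, ne_eq, OfNat.ofNat_ne_zero, not_false_eq_true, zero_pow, sub_self, Real.exp_zero, mul_one,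
      zero_div] at this
    have h2 : 0 < Gam R K C0 * Gam R K C1 := mul_pos h0 h1
    by_contra hcon
    have : Gam R K Ch = 0 := le_antisymm (not_lt.mp hcon) hGh0
    rw [this] at *
    nlinarith
  refine ⟨hpos, ?_⟩
  set Δ := Av R K C0 G - Av R K C1 G with hΔ
  set L := 2 * Real.log (Gam R K Ch) - Real.log (Gam R K C0) - Real.log (Gam R K C1) with hL
  have hlog : ∀ l : ℝ, l * Δ - l ^ 2 * Λ ^ 2 / cR R ≤ L := by
    intro l
    have := Real.log_le_log (by positivity) (master l)
    rw [Real.log_mul (by positivity) (Real.exp_pos _).ne', Real.log_mul h0.ne' h1.ne', Real.log_exp,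
      Real.log_pow] at this
    rw [hL]
    push_cast at this
    linarith
  have hfin := hlog (cR R * Δ / (2 * Λ ^ 2))
  have e5 : (cR R * Δ / (2 * Λ ^ 2)) * Δ - (cR R * Δ / (2 * Λ ^ 2)) ^ 2 * Λ ^ 2 / cR R
      = cR R * Δ ^ 2 / (4 * Λ ^ 2) := by
    field_simp
    ring
  rw [e5] at hfin
  have e6 : cR R = 1 / (32 * R ^ 2) := rfl
  rw [e6] at hfin
  have h7 : 1 / (32 * R ^ 2) * Δ ^ 2 / (4 * Λ ^ 2) = Δ ^ 2 / (128 * R ^ 2 * Λ ^ 2) := by
    field_simp
    ring
  rw [h7, div_le_iff₀ (by positivity)] at hfin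
  linarith

end Crest.Agent.OT
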