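/-
S0109 project: piece KL, third part: consequences of `cond_bound` for one triple of cells.
-/
import Crest.Agent.OTKL1

set_option autoImplicit false
set_option linter.style.haveILetI false
set_option linter.unusedVariables false
open MeasureTheory Set
open scoped ENNReal RealInnerProductSpace

namespace Crest.Agent.OT

variable {d : ℕ} {K : Set (E d)}

/-- Uniform mass. -/
noncomputable def mass (K C : Set (E d)) : ℝ := ∫ _ in C, (1 : ℝ) ∂(rho K)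

/-- First moment. -/
noncomputable def XX (K C : Set (E d)) : E d := ∫ x in C, x ∂(rho K)

lemma mass_nonneg (C : Set (E d)) : 0 ≤ mass K C := by
  unfold mass
  exact integral_nonneg (fun _ => zero_le_one)

lemma integrable_id_rho (hK : Body K) {R : ℝ} (hKR : ∀ x ∈ K, ‖x‖ ≤ R) :
    Integrable (fun x : E d => x) (rho K) :=
  integrable_rho_vec hK measurable_id hKR

lemma integrable_one_rho (hK : Body K) : Integrable (fun _ : E d => (1 : ℝ)) (rho K) := by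
  haveI := rho_isProb hK
  exact integrable_const _

lemma wt_ge {R : ℝ} (hR : 0 < R) {x : E d} (hx : ‖x‖ ≤ R) : 63 / 64 ≤ wt R x := by
  have h1 := Real.add_one_le_exp (-VR R x)
  have h2 := VR_le hR hx
  unfold wt
  linarith

lemma exp_V_le {R : ℝ} (hR : 0 < R) {x : E d} (hx : ‖x‖ ≤ R) : Real.exp (VR R x) ≤ 64 / 63 := by
  have h1 := wt_ge hR hx
  have h2 : Real.exp (VR R x) * wt R x = 1 := by
    unfold wt; rw [← Real.exp_add]; simp
  have h3 := wt_pos R x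
  have h4 : 0 < Real.exp (VR R x) := Real.exp_pos _
  nlinarith

lemma one_le_exp_V {R : ℝ} (hR : 0 < R) (x : E d) : 1 ≤ Real.exp (VR R x) :=
  Real.one_le_exp (VR_nonneg hR x)

lemma integrableOn_wt (hK : Body K) {R : ℝ} (hR : 0 < R) (C : Set (E d)) :
    IntegrableOn (fun x => wt R x) C (rho K) :=
  integrableOn_rho hK (measurable_wt R)
    (fun x _ => by rw [abs_of_pos (wt_pos R x)]; exact wt_le_one hR x) C

lemma gam_le_mass (hK : Body K) {R : ℝ} (hR : 0 < R) {C : Set (E d)} (mC : MeasurableSet C) :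
    Gam R K C ≤ mass K C := by
  unfold Gam mass
  exact setIntegral_mono_on (integrableOn_wt hK hR C) (integrable_one_rho hK).integrableOn mC
    (fun x _ => wt_le_one hR x)

lemma mass_le_gam (hK : Body K) {R : ℝ} (hR : 0 < R) (hKR : ∀ x ∈ K, ‖x‖ ≤ R) {C : Set (E d)}
    (hC : C ⊆ K) (mC : MeasurableSet C) : mass K C ≤ 64 / 63 * Gam R K C := by
  unfold Gam mass
  rw [← integral_const_mul]
  refine setIntegral_mono_on (integrable_one_rho hK).integrableOn ((integrableOn_wt hK hR C).const_mul _) mC ?_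
  intro x hx
  have := wt_ge hR (hKR x (hC hx))
  linarith

lemma norm_XX_le (hK : Body K) {R : ℝ} (hR : 0 < R) (hKR : ∀ x ∈ K, ‖x‖ ≤ R) {C : Set (E d)}
    (hC : C ⊆ K) (mC : MeasurableSet C) : ‖XX K C‖ ≤ R * mass K C := by
  unfold XX mass
  rw [← integral_const_mul, mul_one]
  calc ‖∫ x in C, x ∂(rho K)‖ ≤ ∫ x in C, ‖x‖ ∂(rho K) := norm_integral_le_integral_norm _
    _ ≤ ∫ _ in C, R ∂(rho K) := by
        refine setIntegral_mono_on (integrable_id_rho hK hKR).integrableOn.norm ?_ mC ?_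
        · haveI := rho_isProb hK
          exact (integrable_const _).integrableOn
        · intro x hx
          exact hKR x (hC hx)

lemma exp_V_mul_wt (R : ℝ) (x : E d) : Real.exp (VR R x) * wt R x = 1 := by
  unfold wt; rw [← Real.exp_add]; simp

lemma Av_exp (R : ℝ) (C : Set (E d)) :
    Av R K C (fun x => Real.exp (VR R x)) = mass K C / Gam R K C := by
  unfold Av mass
  congr 2
  ext x
  exact exp_V_mul_wt R x

lemma Av_inner (hK : Body K) {R : ℝ} (hKR : ∀ x ∈ K, ‖x‖ ≤ R) (C : Set (E d)) (e : E d) :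
    Av R K C (fun x => ⟪e, x⟫ * Real.exp (VR R x)) = ⟪e, XX K C⟫ / Gam R K C := by
  unfold Av XX
  congr 1
  rw [← integral_inner (integrable_id_rho hK hKR).integrableOn]
  congr 1
  ext x
  rw [mul_assoc, exp_V_mul_wt, mul_one]

lemma VR_lip {R : ℝ} (hR : 0 < R) {x y : E d} (hx : ‖x‖ ≤ R) (hy : ‖y‖ ≤ R) :
    |VR R x - VR R y| ≤ cR R * R * ‖x - y‖ := by
  have hc := cR_pos hR
  have e : VR R x - VR R y = cR R / 2 * ((‖x‖ + ‖y‖) * (‖x‖ - ‖y‖)) := by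
    unfold VR; ring
  rw [e, abs_mul, abs_mul, abs_of_pos (by positivity : 0 < cR R / 2),
    abs_of_nonneg (by positivity : 0 ≤ ‖x‖ + ‖y‖)]
  have h1 : |‖x‖ - ‖y‖| ≤ ‖x - y‖ := abs_norm_sub_norm_le x y
  have h2 : ‖x‖ + ‖y‖ ≤ 2 * R := by linarith
  calc cR R / 2 * ((‖x‖ + ‖y‖) * |‖x‖ - ‖y‖|) ≤ cR R / 2 * ((2 * R) * ‖x - y‖) := by
        gcongr
    _ = _ := by ring

lemma exp_V_lip {R : ℝ} (hR : 0 < R) {x y : E d} (hx : ‖x‖ ≤ R) (hy : ‖y‖ ≤ R) :
    |Real.exp (VR R x) - Real.exp (VR R y)| ≤ 64 / 63 * (cR R * R) * ‖x - y‖ := by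
  have hL := VR_lip hR hx hy
  have aux : ∀ a b : E d, ‖a‖ ≤ R → ‖b‖ ≤ R → Real.exp (VR R a) - Real.exp (VR R b)
      ≤ 64 / 63 * |VR R a - VR R b| := by
    intro a b ha hb
    have h1 := Real.add_one_le_exp (VR R b - VR R a)
    have h2 : Real.exp (VR R b) = Real.exp (VR R a) * Real.exp (VR R b - VR R a) := by
      rw [← Real.exp_add]; ring_nf
    have h3 : Real.exp (VR R a) * (1 - Real.exp (VR R b - VR R a)) ≤ Real.exp (VR R a) * (VR R a - VR R b) :=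
      mul_le_mul_of_nonneg_left (by linarith) (Real.exp_pos _).le
    have h4 : VR R a - VR R b ≤ |VR R a - VR R b| := le_abs_self _
    have h5 := exp_V_le hR ha
    have h6 := abs_nonneg (VR R a - VR R b)
    have h7 := Real.exp_pos (VR R a)
    nlinarith
  have h1 := aux x y hx hy
  have h2 := aux y x hy hx
  rw [abs_sub_comm] at h2
  have h3 : 64 / 63 * |VR R x - VR R y| ≤ 64 / 63 * (cR R * R * ‖x - y‖) := by gcongr
  rw [abs_le]
  constructor <;> nlinarith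

lemma cR_mul_sq {R : ℝ} (hR : 0 < R) : cR R * R ^ 2 = 1 / 32 := by
  unfold cR; field_simp

/-- `⟪e,x⟫ e^V` has Lipschitz constant `22/21` on `K`, for unit `e`. -/
lemma inner_exp_lip {R : ℝ} (hR : 0 < R) {e : E d} (he : ‖e‖ = 1) {x y : E d} (hx : ‖x‖ ≤ R) (hy : ‖y‖ ≤ R) :
    |⟪e, x⟫ * Real.exp (VR R x) - ⟪e, y⟫ * Real.exp (VR R y)| ≤ 22 / 21 * ‖x - y‖ := by
  have h1 := exp_V_lip hR hx hy
  have h2 := exp_V_le hR hx
  have h3 : |⟪e, x - y⟫| ≤ ‖x - y‖ := by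
    have := abs_real_inner_le_norm e (x - y)
    rwa [he, one_mul] at this
  have h4 : |⟪e, y⟫| ≤ R := by
    have := abs_real_inner_le_norm e y
    rw [he, one_mul] at this
    exact this.trans hy
  have e1 : ⟪e, x⟫ * Real.exp (VR R x) - ⟪e, y⟫ * Real.exp (VR R y)
      = ⟪e, x - y⟫ * Real.exp (VR R x) + ⟪e, y⟫ * (Real.exp (VR R x) - Real.exp (VR R y)) := by
    rw [inner_sub_right]; ring
  rw [e1]
  have h5 := norm_nonneg (x - y)
  have h6 : |⟪e, x - y⟫ * Real.exp (VR R x)| ≤ ‖x - y‖ * (64 / 63) := by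
    rw [abs_mul, abs_of_pos (Real.exp_pos _)]
    exact mul_le_mul h3 h2 (Real.exp_pos _).le h5
  have h7 : |⟪e, y⟫ * (Real.exp (VR R x) - Real.exp (VR R y))| ≤ R * (64 / 63 * (cR R * R) * ‖x - y‖) := by
    rw [abs_mul]
    exact mul_le_mul h4 h1 (abs_nonneg _) hR.le
  have h8 : R * (64 / 63 * (cR R * R) * ‖x - y‖) = 64 / 63 * (1 / 32) * ‖x - y‖ := by
    rw [← cR_mul_sq hR]; ring
  have h9 := abs_add_le (⟪e, x - y⟫ * Real.exp (VR R x)) (⟪e, y⟫ * (Real.exp (VR R x) - Real.exp (VR R y)))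
  rw [h8] at h7
  linarith

section triple

variable {R : ℝ} {C0 C1 Ch : Set (E d)}

/-- The logarithmic defect. -/
noncomputable def Ldef (R : ℝ) (K C0 C1 Ch : Set (E d)) : ℝ :=
  2 * Real.log (Gam R K Ch) - Real.log (Gam R K C0) - Real.log (Gam R K C1)

/-- First consequence: the `G`-ratios. -/
theorem triple_G (hK : Body K) (hR : 0 < R) (hKR : ∀ x ∈ K, ‖x‖ ≤ R)
    (hC0 : C0 ⊆ K) (hC1 : C1 ⊆ K) (hCh : Ch ⊆ K)
    (mC0 : MeasurableSet C0) (mC1 : MeasurableSet C1) (mCh : MeasurableSet Ch)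
    (hmid : ∀ x ∈ C0, ∀ y ∈ C1, midpoint ℝ x y ∈ Ch)
    (h0 : 0 < Gam R K C0) (h1 : 0 < Gam R K C1) :
    0 < Gam R K Ch ∧
    (mass K C0 / Gam R K C0 - mass K C1 / Gam R K C1) ^ 2 ≤ 13 / 100 * Ldef R K C0 C1 Ch := by
  have hc := cR_pos hR
  have hpos : 0 < 64 / 63 * (cR R * R) := by positivity
  have key := cond_bound hK hR hKR hC0 hC1 hCh mC0 mC1 mCh hmid (G := fun x => Real.exp (VR R x))
    (Real.measurable_exp.comp (measurable_VR R)) (B := 64 / 63)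
    (by
      intro x hx
      rw [abs_of_pos (Real.exp_pos _)]
      exact exp_V_le hR (hKR x hx))
    hpos (fun x hx y hy => exp_V_lip hR (hKR x hx) (hKR y hy)) h0 h1
  rw [Av_exp, Av_exp] at key
  refine ⟨key.1, ?_⟩
  refine key.2.trans ?_
  have e : 128 * R ^ 2 * (64 / 63 * (cR R * R)) ^ 2 = 128 * (64 / 63) ^ 2 * (cR R * R ^ 2) ^ 2 := by ring
  rw [e, cR_mul_sq hR]
  unfold Ldef
  have hL : 0 ≤ 2 * Real.log (Gam R K Ch) - Real.log (Gam R K C0) - Real.log (Gam R K C1) := by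
    have h2 := key.2
    have h3 : 0 ≤ 128 * R ^ 2 * (64 / 63 * (cR R * R)) ^ 2 := by positivity
    have h4 : 0 < 128 * R ^ 2 * (64 / 63 * (cR R * R)) ^ 2 := by positivity
    by_contra hcon
    push Not at hcon
    have := mul_neg_of_pos_of_neg h4 hcon
    nlinarith [sq_nonneg (mass K C0 / Gam R K C0 - mass K C1 / Gam R K C1)]
  gcongr
  norm_num

/-- Second consequence: first moments. -/
theorem triple_N (hK : Body K) (hR : 0 < R) (hKR : ∀ x ∈ K, ‖x‖ ≤ R)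
    (hC0 : C0 ⊆ K) (hC1 : C1 ⊆ K) (hCh : Ch ⊆ K)
    (mC0 : MeasurableSet C0) (mC1 : MeasurableSet C1) (mCh : MeasurableSet Ch)
    (hmid : ∀ x ∈ C0, ∀ y ∈ C1, midpoint ℝ x y ∈ Ch)
    (h0 : 0 < Gam R K C0) (h1 : 0 < Gam R K C1) :
    ‖(Gam R K C0)⁻¹ • XX K C0 - (Gam R K C1)⁻¹ • XX K C1‖ ^ 2 ≤ 141 * R ^ 2 * Ldef R K C0 C1 Ch := by
  set v := (Gam R K C0)⁻¹ • XX K C0 - (Gam R K C1)⁻¹ • XX K C1 with hv
  have hL0 : 0 ≤ Ldef R K C0 C1 Ch := by
    have := (triple_G hK hR hKR hC0 hC1 hCh mC0 mC1 mCh hmid h0 h1).2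
    nlinarith [sq_nonneg (mass K C0 / Gam R K C0 - mass K C1 / Gam R K C1)]
  have hunit : ∀ e : E d, ‖e‖ = 1 → ⟪e, v⟫ ^ 2 ≤ 141 * R ^ 2 * Ldef R K C0 C1 Ch := by
    intro e he
    have key := cond_bound hK hR hKR hC0 hC1 hCh mC0 mC1 mCh hmid
      (G := fun x => ⟪e, x⟫ * Real.exp (VR R x))
      (((measurable_const.inner measurable_id)).mul (Real.measurable_exp.comp (measurable_VR R)))
      (B := R * (64 / 63))
      (by
        intro x hx
        rw [abs_mul, abs_of_pos (Real.exp_pos _)]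
        have h2 : |⟪e, x⟫| ≤ R := by
          have := abs_real_inner_le_norm e x
          rw [he, one_mul] at this
          exact this.trans (hKR x hx)
        exact mul_le_mul h2 (exp_V_le hR (hKR x hx)) (Real.exp_pos _).le hR.le)
      (Λ := 22 / 21) (by norm_num) (fun x hx y hy => inner_exp_lip hR he (hKR x hx) (hKR y hy)) h0 h1
    rw [Av_inner hK hKR, Av_inner hK hKR] at key
    have e1 : ⟪e, v⟫ = ⟪e, XX K C0⟫ / Gam R K C0 - ⟪e, XX K C1⟫ / Gam R K C1 := by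
      rw [hv, inner_sub_right, inner_smul_right, inner_smul_right]
      ring
    rw [e1]
    refine key.2.trans ?_
    change 128 * R ^ 2 * (22 / 21) ^ 2 * Ldef R K C0 C1 Ch ≤ _
    have : 128 * R ^ 2 * (22 / 21) ^ 2 ≤ 141 * R ^ 2 := by
      have : 0 < R ^ 2 := by positivity
      nlinarith
    gcongr
  by_cases hv0 : v = 0
  · rw [hv0, norm_zero]
    have : 0 ≤ 141 * R ^ 2 * Ldef R K C0 C1 Ch := by positivity
    simpa using this
  · have hn : 0 < ‖v‖ := norm_pos_iff.mpr hv0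
    have h2 := hunit ((‖v‖)⁻¹ • v) (by rw [norm_smul, norm_inv, norm_norm]; field_simp)
    rw [inner_smul_left, real_inner_self_eq_norm_sq] at h2
    have e : (starRingEnd ℝ) ‖v‖⁻¹ * ‖v‖ ^ 2 = ‖v‖ := by
      simp only [conj_trivial]
      field_simp
    rwa [e] at h2

/-- The uniform barycenter difference. -/
theorem triple_bary (hK : Body K) (hR : 0 < R) (hKR : ∀ x ∈ K, ‖x‖ ≤ R)
    (hC0 : C0 ⊆ K) (hC1 : C1 ⊆ K) (hCh : Ch ⊆ K)
    (mC0 : MeasurableSet C0) (mC1 : MeasurableSet C1) (mCh : MeasurableSet Ch)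
    (hmid : ∀ x ∈ C0, ∀ y ∈ C1, midpoint ℝ x y ∈ Ch)
    (h0 : 0 < Gam R K C0) (h1 : 0 < Gam R K C1) :
    ‖(mass K C0)⁻¹ • XX K C0 - (mass K C1)⁻¹ • XX K C1‖ ^ 2 ≤ 283 * R ^ 2 * Ldef R K C0 C1 Ch := by
  have hG := (triple_G hK hR hKR hC0 hC1 hCh mC0 mC1 mCh hmid h0 h1).2
  have hN := triple_N hK hR hKR hC0 hC1 hCh mC0 mC1 mCh hmid h0 h1
  set G0 := mass K C0 / Gam R K C0 with hG0
  set G1 := mass K C1 / Gam R K C1 with hG1
  set N0 := (Gam R K C0)⁻¹ • XX K C0 with hN0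
  set N1 := (Gam R K C1)⁻¹ • XX K C1 with hN1
  have hm0 : 0 < mass K C0 := h0.trans_le (gam_le_mass hK hR mC0)
  have hm1 : 0 < mass K C1 := h1.trans_le (gam_le_mass hK hR mC1)
  have G0ge : 1 ≤ G0 := by
    rw [hG0, one_le_div h0]; exact gam_le_mass hK hR mC0
  have G1ge : 1 ≤ G1 := by
    rw [hG1, one_le_div h1]; exact gam_le_mass hK hR mC1
  set b1 := (mass K C1)⁻¹ • XX K C1 with hb1
  have hb1R : ‖b1‖ ≤ R := by
    rw [hb1, norm_smul, norm_inv, Real.norm_of_nonneg hm1.le]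
    have := norm_XX_le hK hR hKR hC1 mC1
    rw [inv_mul_le_iff₀ hm1]
    linarith
  have e0 : (mass K C0)⁻¹ • XX K C0 = G0⁻¹ • N0 := by
    rw [hG0, hN0, smul_smul]
    congr 1
    field_simp
  have e1 : N1 = G1 • b1 := by
    rw [hG1, hN1, hb1, smul_smul]
    congr 1
    field_simp
  have e2 : (mass K C0)⁻¹ • XX K C0 - b1 = G0⁻¹ • (N0 - N1) + (G0⁻¹ * (G1 - G0)) • b1 := by
    have h : G0⁻¹ * (G1 - G0) = G0⁻¹ * G1 - 1 := by
      have : G0 ≠ 0 := by linarith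
      field_simp
    have h' : G0⁻¹ • (G1 • b1) = (G0⁻¹ * G1) • b1 := smul_smul _ _ _
    rw [e0, e1, h, sub_smul, one_smul, smul_sub, h']
    abel
  rw [e2]
  have hG0inv : G0⁻¹ ≤ 1 := inv_le_one_of_one_le₀ G0ge
  have hG0inv0 : 0 < G0⁻¹ := inv_pos.mpr (by linarith)
  have n1 : ‖G0⁻¹ • (N0 - N1)‖ ≤ ‖N0 - N1‖ := by
    rw [norm_smul, Real.norm_of_nonneg hG0inv0.le]
    exact mul_le_of_le_one_left (norm_nonneg _) hG0inv
  have n2 : ‖(G0⁻¹ * (G1 - G0)) • b1‖ ≤ |G0 - G1| * R := by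
    rw [norm_smul, Real.norm_eq_abs, abs_mul, abs_of_pos hG0inv0, abs_sub_comm G1 G0]
    have : G0⁻¹ * |G0 - G1| ≤ |G0 - G1| := mul_le_of_le_one_left (abs_nonneg _) hG0inv
    exact mul_le_mul this hb1R (norm_nonneg _) (abs_nonneg _)
  have n3 := norm_add_le (G0⁻¹ • (N0 - N1)) ((G0⁻¹ * (G1 - G0)) • b1)
  have n4 : ‖G0⁻¹ • (N0 - N1) + (G0⁻¹ * (G1 - G0)) • b1‖ ≤ ‖N0 - N1‖ + |G0 - G1| * R := by linarith
  have hL0 : 0 ≤ Ldef R K C0 C1 Ch := by
    nlinarith [sq_nonneg (G0 - G1)]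
  have hsq : ‖G0⁻¹ • (N0 - N1) + (G0⁻¹ * (G1 - G0)) • b1‖ ^ 2 ≤ (‖N0 - N1‖ + |G0 - G1| * R) ^ 2 :=
    pow_le_pow_left₀ (norm_nonneg _) n4 2
  have h5 : (‖N0 - N1‖ + |G0 - G1| * R) ^ 2 ≤ 2 * ‖N0 - N1‖ ^ 2 + 2 * ((G0 - G1) ^ 2 * R ^ 2) := by
    have : (|G0 - G1| * R) ^ 2 = (G0 - G1) ^ 2 * R ^ 2 := by rw [mul_pow, sq_abs]
    nlinarith [sq_nonneg (‖N0 - N1‖ - |G0 - G1| * R)]
  have h6 : (G0 - G1) ^ 2 * R ^ 2 ≤ 13 / 100 * Ldef R K C0 C1 Ch * R ^ 2 := by gcongr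
  have h7 : 0 ≤ R ^ 2 * Ldef R K C0 C1 Ch := by positivity
  nlinarith

end triple

end Crest.Agent.OT
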