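/-
S0109 project: piece KL, fourth part: finite sums and weighted barycenters.
-/
import Crest.Agent.OTKL2

set_option autoImplicit false
set_option linter.style.haveILetI false
set_option linter.unusedVariables false
open MeasureTheory Set
open scoped ENNReal RealInnerProductSpace

namespace Crest.Agent.OT

/-- Gibbs plus second order Taylor. -/
theorem kl_sum {ι : Type*} [Fintype ι] (α β τ : ι → ℝ) (hα : ∀ i, 0 < α i) (hβ : ∀ i, 0 < β i)
    (hτ : ∀ i, 0 < τ i) (sα : ∑ i, α i = 1) (sβ : ∑ i, β i = 1) (sτ : ∑ i, τ i = 1)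
    (hl : ∀ i, |Real.log (α i) - Real.log (β i)| ≤ 1) :
    ∑ i, α i * (2 * Real.log (τ i) - Real.log (α i) - Real.log (β i))
      ≤ ∑ i, α i * (Real.log (α i) - Real.log (β i)) ^ 2 := by
  have key : ∀ i, α i * (2 * Real.log (τ i) - Real.log (α i) - Real.log (β i))
      ≤ 2 * (τ i - α i) + (α i * (Real.log (α i) - Real.log (β i)) ^ 2 + (α i - β i)) := by
    intro i
    have a := hα i
    have b := hβ i
    have t := hτ i
    -- first part: Gibbs
    have h1 : Real.log (τ i) - Real.log (α i) ≤ τ i / α i - 1 := by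
      rw [← Real.log_div t.ne' a.ne']
      exact Real.log_le_sub_one_of_pos (div_pos t a)
    have h2 : α i * (Real.log (τ i) - Real.log (α i)) ≤ τ i - α i := by
      have := mul_le_mul_of_nonneg_left h1 a.le
      have e : α i * (τ i / α i - 1) = τ i - α i := by field_simp
      rwa [e] at this
    -- second part
    set l := Real.log (α i) - Real.log (β i) with hl'
    have h3 := Real.abs_exp_sub_one_sub_id_le (x := -l) (by rw [abs_neg]; exact hl i)
    have h4 : Real.exp (-l) = β i / α i := by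
      rw [hl', neg_sub, Real.exp_sub, Real.exp_log b, Real.exp_log a]
    rw [h4, neg_sq] at h3
    have h5 := (abs_le.mp h3).2
    have h6 : α i * (β i / α i - 1 - -l) ≤ α i * l ^ 2 := mul_le_mul_of_nonneg_left h5 a.le
    have e : α i * (β i / α i - 1 - -l) = β i - α i + α i * l := by field_simp; ring
    rw [e] at h6
    have e2 : α i * (2 * Real.log (τ i) - Real.log (α i) - Real.log (β i))
        = 2 * (α i * (Real.log (τ i) - Real.log (α i))) + α i * l := by
      rw [hl']; ring
    rw [e2]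
    linarith
  calc _ ≤ ∑ i, (2 * (τ i - α i) + (α i * (Real.log (α i) - Real.log (β i)) ^ 2 + (α i - β i))) :=
        Finset.sum_le_sum (fun i _ => key i)
    _ = _ := by
        rw [Finset.sum_add_distrib, Finset.sum_add_distrib, ← Finset.mul_sum, Finset.sum_sub_distrib,
          Finset.sum_sub_distrib, sα, sβ, sτ]
        ring

/-- Elementary estimate for logarithms. -/
lemma sq_log_one_add_le {u : ℝ} (hu : |u| ≤ 1 / 2) : Real.log (1 + u) ^ 2 ≤ 4 * u ^ 2 := by
  have hu' := abs_le.mp hu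
  have hpos : 0 < 1 + u := by linarith
  have h1 : Real.log (1 + u) ≤ u := by
    have := Real.log_le_sub_one_of_pos hpos
    linarith
  have h2 : 1 - (1 + u)⁻¹ ≤ Real.log (1 + u) := Real.one_sub_inv_le_log_of_pos hpos
  have h3 : |Real.log (1 + u)| ≤ 2 * |u| := by
    rw [abs_le]
    constructor
    · have e : 1 - (1 + u)⁻¹ = u / (1 + u) := by field_simp; ring
      rw [e] at h2
      refine le_trans ?_ h2
      rw [le_div_iff₀ hpos]
      rcases abs_cases u with ⟨h, h'⟩ | ⟨h, h'⟩ <;> rw [h] <;> nlinarith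
    · have := le_abs_self u
      have := abs_nonneg u
      linarith
  have h4 : Real.log (1 + u) ^ 2 = |Real.log (1 + u)| ^ 2 := (sq_abs _).symm
  rw [h4]
  have h5 : |Real.log (1 + u)| ^ 2 ≤ (2 * |u|) ^ 2 := pow_le_pow_left₀ (abs_nonneg _) h3 2
  have h6 : (2 * |u|) ^ 2 = 4 * u ^ 2 := by rw [mul_pow, sq_abs]; norm_num
  linarith

/-- `log` is 1-Lipschitz on `[1, ∞)`. -/
lemma sq_log_sub_le {a b : ℝ} (ha : 1 ≤ a) (hb : 1 ≤ b) : (Real.log b - Real.log a) ^ 2 ≤ (a - b) ^ 2 := by
  have aux : ∀ x y : ℝ, 1 ≤ x → 1 ≤ y → Real.log x - Real.log y ≤ |x - y| := by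
    intro x y hx hy
    have hx0 : 0 < x := by linarith
    have hy0 : 0 < y := by linarith
    rw [← Real.log_div hx0.ne' hy0.ne']
    have h1 := Real.log_le_sub_one_of_pos (div_pos hx0 hy0)
    have h2 : x / y - 1 = (x - y) / y := by field_simp
    rw [h2] at h1
    refine h1.trans ?_
    rcases le_total x y with h | h
    · have : (x - y) / y ≤ 0 := div_nonpos_of_nonpos_of_nonneg (by linarith) hy0.le
      exact this.trans (abs_nonneg _)
    · rw [abs_of_nonneg (by linarith : 0 ≤ x - y)]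
      exact div_le_self (by linarith) hy
  have h1 := aux a b ha hb
  have h2 := aux b a hb ha
  rw [abs_sub_comm] at h2
  rw [← sq_abs (Real.log b - Real.log a), ← sq_abs (a - b)]
  refine pow_le_pow_left₀ (abs_nonneg _) ?_ 2
  rw [abs_le]
  constructor <;> linarith

variable {d : ℕ} {K : Set (E d)}

/-- Cauchy-Schwarz on a subset. -/
lemma sq_setIntegral_le (hK : Body K) {C : Set (E d)} {g : E d → ℝ} (mg : Measurable g) {B : ℝ}
    (hB : ∀ x ∈ K, |g x| ≤ B) :
    (∫ x in C, g x ∂(rho K)) ^ 2 ≤ mass K C * ∫ x in C, g x ^ 2 ∂(rho K) := by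
  have i1 : IntegrableOn g C (rho K) := integrableOn_rho hK mg hB C
  have i2 : IntegrableOn (fun x => g x ^ 2) C (rho K) :=
    integrableOn_rho hK (mg.pow_const 2) (B := B ^ 2) (by
      intro x hx
      rw [abs_pow]
      exact pow_le_pow_left₀ (abs_nonneg _) (hB x hx) 2) C
  have i0 : IntegrableOn (fun _ : E d => (1 : ℝ)) C (rho K) := (integrable_one_rho hK).integrableOn
  have h1 : ∀ t : ℝ, 0 ≤ (∫ x in C, g x ^ 2 ∂(rho K)) - 2 * t * (∫ x in C, g x ∂(rho K)) + t ^ 2 * mass K C := by
    intro t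
    have h2 : 0 ≤ ∫ x in C, (g x - t) ^ 2 ∂(rho K) := integral_nonneg (fun x => sq_nonneg _)
    have h3 : ∫ x in C, (g x - t) ^ 2 ∂(rho K)
        = (∫ x in C, g x ^ 2 ∂(rho K)) - 2 * t * (∫ x in C, g x ∂(rho K)) + t ^ 2 * mass K C := by
      have e : (fun x => (g x - t) ^ 2) = fun x => g x ^ 2 - 2 * t * g x + t ^ 2 * 1 := by
        ext x; ring
      have i4 : IntegrableOn (fun x => 2 * t * g x) C (rho K) := i1.const_mul _
      have i3 : IntegrableOn (fun x => g x ^ 2 - 2 * t * g x) C (rho K) := i2.sub i4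
      have i5 : IntegrableOn (fun _ : E d => t ^ 2 * (1 : ℝ)) C (rho K) := i0.const_mul _
      rw [e, integral_add i3 i5, integral_sub i2 i4, integral_const_mul, integral_const_mul]
      rfl
    rw [← h3]
    exact h2
  have hA := mass_nonneg (K := K) C
  rcases hA.eq_or_lt with h0 | h0
  · -- zero mass: the integral vanishes
    have h2 := h1 ((∫ x in C, g x ∂(rho K)) + (∫ x in C, g x ^ 2 ∂(rho K)) * (∫ x in C, g x ∂(rho K)) )
    rw [← h0] at h2 ⊢
    -- choose a large t
    have h3 := h1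
    rw [← h0] at h3
    simp only [mul_zero, add_zero] at h3
    have h4 : ∫ x in C, g x ∂(rho K) = 0 := by
      by_contra hne
      have := h3 (((∫ x in C, g x ^ 2 ∂(rho K)) + 1) / (2 * ∫ x in C, g x ∂(rho K)))
      have e : 2 * (((∫ x in C, g x ^ 2 ∂(rho K)) + 1) / (2 * ∫ x in C, g x ∂(rho K))) * (∫ x in C, g x ∂(rho K))
          = (∫ x in C, g x ^ 2 ∂(rho K)) + 1 := by
        field_simp
      rw [e] at this
      linarith
    rw [h4]
    simp
  · have h2 := h1 ((∫ x in C, g x ∂(rho K)) / mass K C)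
    have e : (∫ x in C, g x ^ 2 ∂(rho K)) - 2 * ((∫ x in C, g x ∂(rho K)) / mass K C) * (∫ x in C, g x ∂(rho K))
        + ((∫ x in C, g x ∂(rho K)) / mass K C) ^ 2 * mass K C
        = (∫ x in C, g x ^ 2 ∂(rho K)) - (∫ x in C, g x ∂(rho K)) ^ 2 / mass K C := by
      field_simp
      ring
    rw [e] at h2
    have h3 : (∫ x in C, g x ∂(rho K)) ^ 2 / mass K C ≤ ∫ x in C, g x ^ 2 ∂(rho K) := by linarith
    rw [div_le_iff₀ h0] at h3
    linarith

/-- The weighted barycenter versus the uniform barycenter. -/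
theorem weighted_bary (hK : Body K) {R : ℝ} (hR : 0 < R) (hKR : ∀ x ∈ K, ‖x‖ ≤ R) {C : Set (E d)}
    (hC : C ⊆ K) (mC : MeasurableSet C) {g : E d → ℝ} (mg : Measurable g) (hg1 : ∀ x ∈ K, |g x| ≤ 1 / 2)
    {m : ℝ} (hm : ∫ x in C, (1 + g x) ∂(rho K) = m) (mpos : 0 < m) (Apos : 0 < mass K C) :
    m * ‖m⁻¹ • (∫ x in C, (1 + g x) • x ∂(rho K)) - (mass K C)⁻¹ • XX K C‖ ^ 2
      ≤ 8 * R ^ 2 * ∫ x in C, g x ^ 2 ∂(rho K) := by
  set A := mass K C with hA
  set b := A⁻¹ • XX K C with hb
  have igC : IntegrableOn g C (rho K) := integrableOn_rho hK mg hg1 C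
  have i0 : IntegrableOn (fun _ : E d => (1 : ℝ)) C (rho K) := (integrable_one_rho hK).integrableOn
  have ix : IntegrableOn (fun x : E d => x) C (rho K) := (integrable_id_rho hK hKR).integrableOn
  have igx : IntegrableOn (fun x : E d => g x • x) C (rho K) := by
    refine (integrable_rho_vec hK (F := fun x => g x • x) (mg.smul measurable_id) (B := 1 / 2 * R) ?_).integrableOn
    intro x hx
    rw [norm_smul, Real.norm_eq_abs]
    exact mul_le_mul (hg1 x hx) (hKR x hx) (norm_nonneg _) (by norm_num)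
  have hmA : m = A + ∫ x in C, g x ∂(rho K) := by
    rw [← hm, integral_add i0 igC]
    rfl
  have hAm : A ≤ 2 * m := by
    have h1 : -(∫ x in C, g x ∂(rho K)) ≤ A / 2 := by
      rw [← integral_neg, hA]
      unfold mass
      have : (∫ _ in C, (1 : ℝ) ∂(rho K)) / 2 = ∫ _ in C, (1 / 2 : ℝ) ∂(rho K) := by
        rw [← integral_div]
      rw [this]
      refine setIntegral_mono_on igC.neg ?_ mC ?_
      · exact (i0.div_const 2)
      · intro x hx
        have := abs_le.mp (hg1 x (hC hx))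
        linarith [this.1]
    rw [hmA]
    linarith
  have hbR : ‖b‖ ≤ R := by
    rw [hb, norm_smul, norm_inv, Real.norm_of_nonneg Apos.le, inv_mul_le_iff₀ Apos]
    have := norm_XX_le hK hR hKR hC mC
    rw [← hA] at this
    linarith
  -- the main identity
  have e1 : ∫ x in C, (1 + g x) • x ∂(rho K) = XX K C + ∫ x in C, g x • x ∂(rho K) := by
    unfold XX
    rw [← integral_add ix igx]
    congr 1
    ext x
    rw [add_smul, one_smul]
  set Y := ∫ x in C, g x • x ∂(rho K) with hY
  have iYb : ∫ x in C, g x • (x - b) ∂(rho K) = Y - (∫ x in C, g x ∂(rho K)) • b := by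
    have e : (fun x => g x • (x - b)) = fun x => g x • x - g x • b := by
      ext x; rw [smul_sub]
    rw [e, integral_sub igx (igC.smul_const b), integral_smul_const]
  have hdiff : m • (m⁻¹ • (XX K C + Y) - b) = ∫ x in C, g x • (x - b) ∂(rho K) := by
    rw [iYb, smul_sub, smul_smul, mul_inv_cancel₀ mpos.ne', one_smul]
    have hXb : XX K C = A • b := by
      rw [hb, smul_smul, mul_inv_cancel₀ Apos.ne', one_smul]
    rw [hmA, add_smul]
    nth_rewrite 1 [hXb]
    abel
  -- norm bound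
  set H := ∫ x in C, |g x| ∂(rho K) with hH
  have hnorm : ‖∫ x in C, g x • (x - b) ∂(rho K)‖ ≤ 2 * R * H := by
    calc ‖∫ x in C, g x • (x - b) ∂(rho K)‖ ≤ ∫ x in C, ‖g x • (x - b)‖ ∂(rho K) :=
          norm_integral_le_integral_norm _
      _ ≤ ∫ x in C, 2 * R * |g x| ∂(rho K) := by
          refine setIntegral_mono_on ?_ ?_ mC ?_
          · refine (igx.sub (igC.smul_const b) |>.norm).congr ?_
            refine Filter.Eventually.of_forall (fun x => ?_)
            simp [smul_sub]
          · exact igC.abs.const_mul _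
          · intro x hx
            rw [norm_smul, Real.norm_eq_abs, mul_comm]
            have h1 : ‖x - b‖ ≤ 2 * R := by
              have := norm_sub_le x b
              have := hKR x (hC hx)
              linarith
            exact mul_le_mul_of_nonneg_right h1 (abs_nonneg _)
      _ = _ := by rw [integral_const_mul]
  have hCS : H ^ 2 ≤ A * ∫ x in C, g x ^ 2 ∂(rho K) := by
    have := sq_setIntegral_le hK (C := C) (g := fun x => |g x|) mg.abs (B := 1 / 2)
      (fun x hx => by rw [abs_abs]; exact hg1 x hx)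
    simpa [sq_abs] using this
  have hH0 : 0 ≤ H := integral_nonneg (fun x => abs_nonneg _)
  have hI0 : 0 ≤ ∫ x in C, g x ^ 2 ∂(rho K) := integral_nonneg (fun x => sq_nonneg _)
  rw [e1]
  set v := m⁻¹ • (XX K C + Y) - b with hv
  have h1 : m * ‖v‖ ≤ 2 * R * H := by
    have := congrArg norm hdiff
    rw [norm_smul, Real.norm_of_nonneg mpos.le] at this
    rw [this]
    exact hnorm
  have h2 : (m * ‖v‖) ^ 2 ≤ (2 * R * H) ^ 2 := pow_le_pow_left₀ (by positivity) h1 2
  have h3 : m * (m * ‖v‖ ^ 2) ≤ m * (8 * R ^ 2 * ∫ x in C, g x ^ 2 ∂(rho K)) := by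
    have e : m * (m * ‖v‖ ^ 2) = (m * ‖v‖) ^ 2 := by ring
    rw [e]
    refine h2.trans ?_
    have e2 : (2 * R * H) ^ 2 = 4 * R ^ 2 * H ^ 2 := by ring
    rw [e2]
    have h4 : 4 * R ^ 2 * H ^ 2 ≤ 4 * R ^ 2 * (A * ∫ x in C, g x ^ 2 ∂(rho K)) := by gcongr
    refine h4.trans ?_
    have h5 : A * ∫ x in C, g x ^ 2 ∂(rho K) ≤ 2 * m * ∫ x in C, g x ^ 2 ∂(rho K) := by gcongr
    have h6 : 0 < 4 * R ^ 2 := by positivity
    nlinarith
  exact le_of_mul_le_mul_left h3 mpos

end Crest.Agent.OT
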