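/-
S0109 project: the key estimate (piece KL, see OTPLAN.md): labelled barycenters of Laguerre cells are
Lipschitz in the source density, for arbitrary atoms.  Proof: Prekopa-Leindler with a Gaussian reference.
-/
import Crest.Agent.OTKL3
import Crest.Agent.OTExist

set_option autoImplicit false
set_option linter.style.haveILetI false
set_option linter.unusedVariables false
open MeasureTheory Set
open scoped ENNReal RealInnerProductSpace

namespace Crest.Agent.OT

variable {d : ℕ} {ι : Type*} [Fintype ι] [Nonempty ι] [DecidableEq ι] {K : Set (E d)}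

set_option maxHeartbeats 4000000 in
theorem kl_bound (hK : Body K) {R : ℝ} (hR : 0 < R) (hKR : ∀ x ∈ K, ‖x‖ ≤ R) {p : ι → E d} {m : ι → ℝ}
    (hA : IsAtoms p m) {g : E d → ℝ} (hg : Measurable g) (hg1 : ∀ x ∈ K, |g x| ≤ 1 / 2)
    (hg0 : ∫ x, g x ∂(rho K) = 0) {w0 w1 : ι → ℝ} (h0 : IsSol K (fun _ => 1) p m w0)
    (h1 : IsSol K (fun x => 1 + g x) p m w1) :
    ∑ i, m i * ‖bary K (fun x => 1 + g x) p m w1 i - bary K (fun _ => 1) p m w0 i‖ ^ 2
      ≤ 10000 * R ^ 2 * ∫ x, g x ^ 2 ∂(rho K) := by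
  haveI := rho_isProb hK
  set wh : ι → ℝ := fun j => (w0 j + w1 j) / 2 with hwh
  set C0 : ι → Set (E d) := fun i => cell K p w0 i with hC0
  set C1 : ι → Set (E d) := fun i => cell K p w1 i with hC1
  set Ch : ι → Set (E d) := fun i => cell K p wh i with hCh
  have sC0 : ∀ i, C0 i ⊆ K := fun i x hx => hx.1
  have sC1 : ∀ i, C1 i ⊆ K := fun i x hx => hx.1
  have sCh : ∀ i, Ch i ⊆ K := fun i x hx => hx.1
  have mC0 : ∀ i, MeasurableSet (C0 i) := fun i => measurableSet_cell hK p w0 i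
  have mC1 : ∀ i, MeasurableSet (C1 i) := fun i => measurableSet_cell hK p w1 i
  have mCh : ∀ i, MeasurableSet (Ch i) := fun i => measurableSet_cell hK p wh i
  have hmid : ∀ i, ∀ x ∈ C0 i, ∀ y ∈ C1 i, midpoint ℝ x y ∈ Ch i :=
    fun i x hx y hy => midpoint_mem_cell hK p w0 w1 i hx hy
  have hmi := hA.pos
  -- masses
  have mass0 : ∀ i, mass K (C0 i) = m i := fun i => h0 i
  have igC : ∀ C : Set (E d), IntegrableOn g C (rho K) := fun C => integrableOn_rho hK hg hg1 C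
  have i0C : ∀ C : Set (E d), IntegrableOn (fun _ : E d => (1 : ℝ)) C (rho K) :=
    fun C => (integrable_one_rho hK).integrableOn
  set gb : ι → ℝ := fun i => ∫ x in C1 i, g x ∂(rho K) with hgb
  set A1 : ι → ℝ := fun i => mass K (C1 i) with hA1
  have mass1 : ∀ i, m i = A1 i + gb i := by
    intro i
    have := h1 i
    rw [integral_add (i0C _) (igC _)] at this
    exact this.symm
  have gbabs : ∀ i, |gb i| ≤ A1 i / 2 := by
    intro i
    have h2 : |gb i| ≤ ∫ x in C1 i, |g x| ∂(rho K) := abs_integral_le_integral_abs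
    refine h2.trans ?_
    have e : A1 i / 2 = ∫ _ in C1 i, (1 / 2 : ℝ) ∂(rho K) := by
      rw [hA1]
      show (∫ _ in C1 i, (1 : ℝ) ∂(rho K)) / 2 = _
      rw [← integral_div]
    rw [e]
    exact setIntegral_mono_on (igC _).abs ((i0C _).div_const 2) (mC1 i) (fun x hx => hg1 x (sC1 i hx))
  have A1pos : ∀ i, 0 < A1 i := by
    intro i
    have h2 := hmi i
    have h3 := mass1 i
    have h4 := (abs_le.mp (gbabs i)).2
    linarith
  have A1le : ∀ i, A1 i ≤ 2 * m i := by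
    intro i
    have h3 := mass1 i
    have h4 := (abs_le.mp (gbabs i)).1
    linarith
  have mle : ∀ i, m i ≤ 3 / 2 * A1 i := by
    intro i
    have h3 := mass1 i
    have h4 := (abs_le.mp (gbabs i)).2
    linarith
  -- weighted masses
  set Γ0 : ι → ℝ := fun i => Gam R K (C0 i) with hΓ0
  set Γ1 : ι → ℝ := fun i => Gam R K (C1 i) with hΓ1
  set Γh : ι → ℝ := fun i => Gam R K (Ch i) with hΓh
  have Γ0le : ∀ i, Γ0 i ≤ m i := fun i => by
    rw [← mass0]; exact gam_le_mass hK hR (mC0 i)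
  have mleΓ0 : ∀ i, m i ≤ 64 / 63 * Γ0 i := fun i => by
    rw [← mass0]; exact mass_le_gam hK hR hKR (sC0 i) (mC0 i)
  have Γ1le : ∀ i, Γ1 i ≤ A1 i := fun i => gam_le_mass hK hR (mC1 i)
  have A1leΓ1 : ∀ i, A1 i ≤ 64 / 63 * Γ1 i := fun i => mass_le_gam hK hR hKR (sC1 i) (mC1 i)
  have Γ0pos : ∀ i, 0 < Γ0 i := fun i => by
    have := mleΓ0 i; have := hmi i; linarith
  have Γ1pos : ∀ i, 0 < Γ1 i := fun i => by
    have := A1leΓ1 i; have := A1pos i; linarith
  have tG := fun i => triple_G hK hR hKR (sC0 i) (sC1 i) (sCh i) (mC0 i) (mC1 i) (mCh i) (hmid i) (Γ0pos i) (Γ1pos i)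
  have Γhpos : ∀ i, 0 < Γh i := fun i => (tG i).1
  set L : ι → ℝ := fun i => Ldef R K (C0 i) (C1 i) (Ch i) with hL
  have Lnn : ∀ i, 0 ≤ L i := by
    intro i
    have := (tG i).2
    nlinarith [sq_nonneg (mass K (C0 i) / Gam R K (C0 i) - mass K (C1 i) / Gam R K (C1 i))]
  -- normalizing constant
  set Z : ℝ := ∫ x, wt R x ∂(rho K) with hZ
  have iwt : Integrable (fun x => wt R x) (rho K) :=
    integrable_rho hK (measurable_wt R) (fun x _ => by rw [abs_of_pos (wt_pos R x)]; exact wt_le_one hR x)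
  have sum0 : ∑ i, Γ0 i = Z := sum_setIntegral_cell hK p hA.inj w0 iwt
  have sum1 : ∑ i, Γ1 i = Z := sum_setIntegral_cell hK p hA.inj w1 iwt
  have sumh : ∑ i, Γh i = Z := sum_setIntegral_cell hK p hA.inj wh iwt
  have Zle : Z ≤ 1 := by
    have : Z ≤ ∫ _, (1 : ℝ) ∂(rho K) := integral_mono iwt (integrable_const _) (fun x => wt_le_one hR x)
    simpa using this
  have Zge : 63 / 64 ≤ Z := by
    have : ∫ _, (63 / 64 : ℝ) ∂(rho K) ≤ Z := by
      refine integral_mono_ae (integrable_const _) iwt ?_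
      filter_upwards [rho_ae_mem hK] with x hx
      exact wt_ge hR (hKR x hx)
    simpa using this
  have Zpos : 0 < Z := by linarith
  -- normalized quantities
  set α : ι → ℝ := fun i => Γ0 i / Z with hα
  set β : ι → ℝ := fun i => Γ1 i / Z with hβ
  set τ : ι → ℝ := fun i => Γh i / Z with hτ
  have αpos : ∀ i, 0 < α i := fun i => div_pos (Γ0pos i) Zpos
  have βpos : ∀ i, 0 < β i := fun i => div_pos (Γ1pos i) Zpos
  have τpos : ∀ i, 0 < τ i := fun i => div_pos (Γhpos i) Zpos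
  have sα : ∑ i, α i = 1 := by
    rw [hα, ← Finset.sum_div, sum0, div_self Zpos.ne']
  have sβ : ∑ i, β i = 1 := by
    rw [hβ, ← Finset.sum_div, sum1, div_self Zpos.ne']
  have sτ : ∑ i, τ i = 1 := by
    rw [hτ, ← Finset.sum_div, sumh, div_self Zpos.ne']
  have eL : ∀ i, 2 * Real.log (τ i) - Real.log (α i) - Real.log (β i) = L i := by
    intro i
    simp only [hτ, hα, hβ]
    rw [Real.log_div (Γhpos i).ne' Zpos.ne', Real.log_div (Γ0pos i).ne' Zpos.ne',
      Real.log_div (Γ1pos i).ne' Zpos.ne']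
    simp only [hL, hΓ0, hΓ1, hΓh, Ldef]
    ring
  have el : ∀ i, Real.log (α i) - Real.log (β i) = Real.log (Γ0 i) - Real.log (Γ1 i) := by
    intro i
    simp only [hα, hβ]
    rw [Real.log_div (Γ0pos i).ne' Zpos.ne', Real.log_div (Γ1pos i).ne' Zpos.ne']
    ring
  have habs : ∀ i, |Real.log (α i) - Real.log (β i)| ≤ 1 := by
    intro i
    rw [el, abs_le]
    have he := Real.exp_one_gt_d9
    have hm1 := hmi i
    have h1 := Γ0le i
    have h2 := mleΓ0 i
    have h3 := Γ1le i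
    have h4 := A1leΓ1 i
    have h5 := A1le i
    have h6 := mle i
    have h7 := Γ0pos i
    have h8 := Γ1pos i
    constructor
    · have : Real.log (Γ1 i) ≤ Real.log (Real.exp 1 * Γ0 i) := by
        refine Real.log_le_log h8 ?_
        nlinarith
      rw [Real.log_mul (Real.exp_pos _).ne' h7.ne', Real.log_exp] at this
      linarith
    · have : Real.log (Γ0 i) ≤ Real.log (Real.exp 1 * Γ1 i) := by
        refine Real.log_le_log h7 ?_
        nlinarith
      rw [Real.log_mul (Real.exp_pos _).ne' h8.ne', Real.log_exp] at this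
      linarith
  have base := kl_sum α β τ αpos βpos τpos sα sβ sτ habs
  -- decomposition ℓ = r + s
  set r : ι → ℝ := fun i => Real.log (m i) - Real.log (A1 i) with hr
  set G0 : ι → ℝ := fun i => m i / Γ0 i with hG0
  set G1 : ι → ℝ := fun i => A1 i / Γ1 i with hG1
  have G0ge : ∀ i, 1 ≤ G0 i := fun i => (one_le_div (Γ0pos i)).mpr (Γ0le i)
  have G1ge : ∀ i, 1 ≤ G1 i := fun i => (one_le_div (Γ1pos i)).mpr (Γ1le i)
  set s : ι → ℝ := fun i => Real.log (G1 i) - Real.log (G0 i) with hs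
  have els : ∀ i, Real.log (α i) - Real.log (β i) = r i + s i := by
    intro i
    rw [el]
    simp only [hr, hs, hG0, hG1]
    rw [Real.log_div (A1pos i).ne' (Γ1pos i).ne', Real.log_div (hmi i).ne' (Γ0pos i).ne']
    ring
  have hs2 : ∀ i, s i ^ 2 ≤ 13 / 100 * L i := by
    intro i
    refine (sq_log_sub_le (G0ge i) (G1ge i)).trans ?_
    have := (tG i).2
    rw [mass0] at this
    exact this
  -- absorbing
  have hsum1 : ∑ i, α i * L i ≤ 2 * ∑ i, α i * r i ^ 2 + 26 / 100 * ∑ i, α i * L i := by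
    have e1 : ∑ i, α i * (2 * Real.log (τ i) - Real.log (α i) - Real.log (β i)) = ∑ i, α i * L i :=
      Finset.sum_congr rfl (fun i _ => by rw [eL])
    rw [e1] at base
    refine base.trans ?_
    rw [Finset.mul_sum, Finset.mul_sum, ← Finset.sum_add_distrib]
    refine Finset.sum_le_sum (fun i _ => ?_)
    rw [els]
    have h1 := hs2 i
    have h2 := αpos i
    have h3 : (r i + s i) ^ 2 ≤ 2 * r i ^ 2 + 2 * s i ^ 2 := by nlinarith [sq_nonneg (r i - s i)]
    have h4 : α i * (r i + s i) ^ 2 ≤ α i * (2 * r i ^ 2 + 2 * (13 / 100 * L i)) := by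
      refine mul_le_mul_of_nonneg_left ?_ h2.le
      linarith
    nlinarith
  -- the r-bound
  have hI := fun C : Set (E d) => sq_setIntegral_le (K := K) hK (C := C) hg hg1
  have hmr : ∀ i, m i * r i ^ 2 ≤ 6 * ∫ x in C1 i, g x ^ 2 ∂(rho K) := by
    intro i
    set u := gb i / A1 i with hu
    have hA := A1pos i
    have e1 : m i = A1 i * (1 + u) := by
      rw [hu, mass1 i]; field_simp
    have hu' : |u| ≤ 1 / 2 := by
      rw [hu, abs_div, abs_of_pos hA, div_le_iff₀ hA]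
      have := gbabs i
      linarith
    have hupos : 0 < 1 + u := by
      have := (abs_le.mp hu').1; linarith
    have e2 : r i = Real.log (1 + u) := by
      simp only [hr]
      rw [e1, Real.log_mul hA.ne' hupos.ne']
      ring
    rw [e2]
    have h1 := sq_log_one_add_le hu'
    have h2 : m i * Real.log (1 + u) ^ 2 ≤ m i * (4 * u ^ 2) :=
      mul_le_mul_of_nonneg_left h1 (hmi i).le
    have h3 : m i * u ^ 2 ≤ 3 / 2 * (gb i ^ 2 / A1 i) := by
      have : u ^ 2 = gb i ^ 2 / A1 i ^ 2 := by rw [hu, div_pow]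
      rw [this]
      have h4 := mle i
      calc m i * (gb i ^ 2 / A1 i ^ 2) ≤ (3 / 2 * A1 i) * (gb i ^ 2 / A1 i ^ 2) := by gcongr
        _ = _ := by field_simp
    have h5 : gb i ^ 2 / A1 i ≤ ∫ x in C1 i, g x ^ 2 ∂(rho K) := by
      rw [div_le_iff₀ hA]
      have := hI (C1 i)
      rw [mul_comm] at this
      exact this
    nlinarith
  have sumg : ∑ i, ∫ x in C1 i, g x ^ 2 ∂(rho K) = ∫ x, g x ^ 2 ∂(rho K) := by
    refine sum_setIntegral_cell hK p hA.inj w1 ?_
    exact integrable_rho hK (hg.pow_const 2) (B := (1 / 2) ^ 2)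
      (fun x hx => by rw [abs_pow]; exact pow_le_pow_left₀ (abs_nonneg _) (hg1 x hx) 2)
  have Ig0 : 0 ≤ ∫ x, g x ^ 2 ∂(rho K) := integral_nonneg (fun x => sq_nonneg _)
  have αle : ∀ i, α i ≤ 64 / 63 * m i := by
    intro i
    have h1 := Γ0le i
    have h2 := Γ0pos i
    have h3 : Γ0 i / Z ≤ Γ0 i * (64 / 63) := by
      rw [div_le_iff₀ Zpos]
      have : Γ0 i * (64 / 63) * (63 / 64) ≤ Γ0 i * (64 / 63) * Z :=
        mul_le_mul_of_nonneg_left Zge (by positivity)
      linarith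
    have h4 : α i = Γ0 i / Z := rfl
    linarith
  have mleα : ∀ i, m i ≤ 64 / 63 * α i := by
    intro i
    have h1 := mleΓ0 i
    have h2 := Γ0pos i
    have h3 : Γ0 i ≤ Γ0 i / Z := by
      rw [le_div_iff₀ Zpos]
      exact mul_le_of_le_one_right h2.le Zle
    have h4 : α i = Γ0 i / Z := rfl
    linarith
  have hsumr : ∑ i, α i * r i ^ 2 ≤ 64 / 63 * (6 * ∫ x, g x ^ 2 ∂(rho K)) := by
    rw [← sumg, Finset.mul_sum, Finset.mul_sum]
    refine Finset.sum_le_sum (fun i _ => ?_)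
    have h1 := hmr i
    have h2 : α i * r i ^ 2 ≤ 64 / 63 * m i * r i ^ 2 :=
      mul_le_mul_of_nonneg_right (αle i) (sq_nonneg _)
    nlinarith
  have hsumL : ∑ i, α i * L i ≤ 17 * ∫ x, g x ^ 2 ∂(rho K) := by
    have : 0 ≤ ∑ i, α i * L i := Finset.sum_nonneg (fun i _ => mul_nonneg (αpos i).le (Lnn i))
    nlinarith
  -- barycenters
  have e0 : ∀ i, bary K (fun _ => 1) p m w0 i = (mass K (C0 i))⁻¹ • XX K (C0 i) := by
    intro i
    unfold bary XX
    rw [mass0]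
    simp only [one_smul]
    rfl
  have tb := fun i => triple_bary hK hR hKR (sC0 i) (sC1 i) (sCh i) (mC0 i) (mC1 i) (mCh i) (hmid i) (Γ0pos i) (Γ1pos i)
  have wb := fun i => weighted_bary hK hR hKR (sC1 i) (mC1 i) hg hg1 (h1 i) (hmi i) (A1pos i)
  have hfin : ∀ i, m i * ‖bary K (fun x => 1 + g x) p m w1 i - bary K (fun _ => 1) p m w0 i‖ ^ 2
      ≤ 2 * (8 * R ^ 2 * ∫ x in C1 i, g x ^ 2 ∂(rho K)) + 2 * (64 / 63 * 283 * R ^ 2 * (α i * L i)) := by
    intro i
    set b1 := bary K (fun x => 1 + g x) p m w1 i with hb1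
    set bt := (mass K (C1 i))⁻¹ • XX K (C1 i) with hbt
    set b0 := bary K (fun _ => 1) p m w0 i with hb0
    have h2 := wb i
    have h3 := tb i
    rw [← e0 i] at h3
    have e3 : b1 - b0 = (b1 - bt) + (bt - b0) := by abel
    rw [e3]
    have h4 : ‖(b1 - bt) + (bt - b0)‖ ^ 2 ≤ 2 * ‖b1 - bt‖ ^ 2 + 2 * ‖bt - b0‖ ^ 2 := by
      have h5 := norm_add_le (b1 - bt) (bt - b0)
      have h6 : ‖(b1 - bt) + (bt - b0)‖ ^ 2 ≤ (‖b1 - bt‖ + ‖bt - b0‖) ^ 2 :=
        pow_le_pow_left₀ (norm_nonneg _) h5 2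
      nlinarith [sq_nonneg (‖b1 - bt‖ - ‖bt - b0‖)]
    rw [norm_sub_rev bt b0] at h4
    have h7 : m i * ‖(b1 - bt) + (bt - b0)‖ ^ 2 ≤ m i * (2 * ‖b1 - bt‖ ^ 2 + 2 * ‖b0 - bt‖ ^ 2) :=
      mul_le_mul_of_nonneg_left h4 (hmi i).le
    have h8 : m i * ‖b0 - bt‖ ^ 2 ≤ 64 / 63 * 283 * R ^ 2 * (α i * L i) := by
      have h9 : m i * ‖b0 - bt‖ ^ 2 ≤ m i * (283 * R ^ 2 * L i) :=
        mul_le_mul_of_nonneg_left h3 (hmi i).le
      have h10 : m i * (283 * R ^ 2 * L i) ≤ (64 / 63 * α i) * (283 * R ^ 2 * L i) :=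
        mul_le_mul_of_nonneg_right (mleα i) (by have := Lnn i; positivity)
      nlinarith
    have h11 : m i * ‖b1 - bt‖ ^ 2 ≤ 8 * R ^ 2 * ∫ x in C1 i, g x ^ 2 ∂(rho K) := h2
    nlinarith
  calc ∑ i, m i * ‖bary K (fun x => 1 + g x) p m w1 i - bary K (fun _ => 1) p m w0 i‖ ^ 2
      ≤ ∑ i, (2 * (8 * R ^ 2 * ∫ x in C1 i, g x ^ 2 ∂(rho K)) + 2 * (64 / 63 * 283 * R ^ 2 * (α i * L i))) :=
        Finset.sum_le_sum (fun i _ => hfin i)
    _ = 2 * (8 * R ^ 2 * ∫ x, g x ^ 2 ∂(rho K)) + 2 * (64 / 63 * 283 * R ^ 2 * ∑ i, α i * L i) := by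
        rw [Finset.sum_add_distrib, ← Finset.mul_sum, ← Finset.mul_sum, ← Finset.mul_sum, ← Finset.mul_sum, sumg]
    _ ≤ 2 * (8 * R ^ 2 * ∫ x, g x ^ 2 ∂(rho K)) + 2 * (64 / 63 * 283 * R ^ 2 * (17 * ∫ x, g x ^ 2 ∂(rho K))) := by
        gcongr
    _ ≤ _ := by
        have : 0 ≤ R ^ 2 * ∫ x, g x ^ 2 ∂(rho K) := by positivity
        nlinarith

end Crest.Agent.OT
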