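/-
S0109/S0110 project (row 82): Young's inequality for Laguerre maps: they are optimal, and optimal maps
to the same target coincide with them a.e. (piece YOUNG, see OTPLAN.md).
-/
import Crest.Agent.OTCore

set_option autoImplicit false
open MeasureTheory Set
open scoped ENNReal RealInnerProductSpace

namespace Crest.Agent.OT

open Crest.AnalysisR.OT

variable {d : ℕ} {ι : Type*} [Fintype ι] [Nonempty ι] [DecidableEq ι] {K : Set (E d)}

section aux

variable {T : E d → E d} {p : ι → E d} {m w : ι → ℝ}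

/-- the weight function on the target -/
noncomputable def ywt (p : ι → E d) (w : ι → ℝ) (y : E d) : ℝ :=
  ∑ i, if y = p i then w i else 0

lemma ywt_apply (hp : Function.Injective p) (i : ι) : ywt p w (p i) = w i := by
  unfold ywt
  rw [Finset.sum_eq_single i]
  · simp
  · intro j _ hj
    rw [if_neg (fun h => hj (hp h).symm)]
  · simp

lemma measurable_ywt : Measurable (ywt p w) := by
  unfold ywt
  refine Finset.measurable_sum _ fun i _ => ?_
  exact Measurable.ite (measurableSet_singleton (p i)) measurable_const measurable_const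

/-- Almost every point lies in at most one cell. -/
lemma ae_unique_cell (hp : Function.Injective p) (w : ι → ℝ) :
    ∀ᵐ x ∂(rho K), ∀ i j, x ∈ cell K p w i → x ∈ cell K p w j → i = j := by
  rw [ae_all_iff]
  intro i
  rw [ae_all_iff]
  intro j
  by_cases hij : i = j
  · exact ae_of_all _ fun _ _ _ => hij
  · have h0 := rho_cell_inter (K := K) p hp w hij
    rw [ae_iff]
    refine measure_mono_null ?_ h0
    intro x hx
    simp only [Set.mem_setOf_eq, Classical.not_imp] at hx
    exact ⟨hx.1, hx.2.1⟩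

lemma LagMap.ae_cell (hK : Body K) (h : LagMap K T p m w) :
    ∀ᵐ x ∂(rho K), ∀ i, x ∈ cell K p w i → T x = p i := by
  filter_upwards [ae_unique_cell (K := K) h.atoms.inj w] with x hx i hxi
  obtain ⟨j, hj, hTj⟩ := h.sel x hxi.1
  rw [hx i j hxi hj]
  exact hTj

/-- `ρ (cell i) = m i`. -/
lemma LagMap.rho_cell (hK : Body K) (h : LagMap K T p m w) (i : ι) :
    rho K (cell K p w i) = ENNReal.ofReal (m i) := by
  have := rho_isProb hK
  have h1 := h.sol i
  simp only [setIntegral_const, smul_eq_mul, mul_one] at h1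
  rw [← h1, Measure.real, ENNReal.ofReal_toReal (measure_ne_top _ _)]

lemma LagMap.ae_range (hK : Body K) (h : LagMap K T p m w) :
    ∀ᵐ x ∂(rho K), ∃ i, x ∈ cell K p w i ∧ T x = p i := by
  filter_upwards [rho_ae_mem hK] with x hx
  exact h.sel x hx

lemma LagMap.ae_range' (hK : Body K) (h : LagMap K T p m w) :
    ∀ᵐ x ∂(rho K), ∃ i, T x = p i := by
  filter_upwards [rho_ae_mem hK] with x hx
  obtain ⟨i, -, hi⟩ := h.sel x hx
  exact ⟨i, hi⟩

lemma exists_bound_K (hK : Body K) : ∃ R, 0 ≤ R ∧ ∀ x ∈ K, ‖x‖ ≤ R := by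
  obtain ⟨R, hR⟩ := hK.compact.isBounded.exists_norm_le
  exact ⟨max R 0, le_max_right _ _, fun x hx => (hR x hx).trans (le_max_left _ _)⟩

/-- `ν`-a.e. values in the range of `p` transfer along equal push-forwards. -/
lemma ae_range_of_map_eq (hK : Body K) (h : LagMap K T p m w) {S : E d → E d} (hS : Measurable S)
    (hm : (rho K).map S = (rho K).map T) : ∀ᵐ x ∂(rho K), ∃ i, S x = p i := by
  have hfin : (Set.range p).Finite := Set.finite_range p
  have hmeas : MeasurableSet (Set.range p)ᶜ := hfin.measurableSet.compl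
  have h1 : (rho K).map T (Set.range p)ᶜ = 0 := by
    rw [Measure.map_apply h.meas hmeas]
    have h2 : T ⁻¹' (Set.range p)ᶜ ⊆ {x | ¬ x ∈ K} := by
      intro x hx hxK
      obtain ⟨i, -, hi⟩ := h.sel x hxK
      exact hx ⟨i, hi.symm⟩
    refine measure_mono_null h2 ?_
    exact (rho_ae_mem hK)
  rw [← hm, Measure.map_apply hS hmeas] at h1
  rw [ae_iff]
  refine measure_mono_null ?_ h1
  intro x hx
  simp only [Set.mem_setOf_eq, not_exists] at hx
  rintro ⟨i, hi⟩
  exact hx i hi.symm

/-- integrability of anything a.e. bounded and measurable. -/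
lemma integrable_of_bdd (hK : Body K) {F : E d → ℝ} (hF : Measurable F) {C : ℝ}
    (hC : ∀ᵐ x ∂(rho K), |F x| ≤ C) : Integrable F (rho K) := by
  have := rho_isProb hK
  exact Integrable.of_bound hF.aestronglyMeasurable C (by simpa [Real.norm_eq_abs] using hC)

/-- The package of bounds for a map with values a.e. in the range of `p`. -/
lemma moment_bounds (hK : Body K) {S : E d → E d} (hS : Measurable S)
    (hr : ∀ᵐ x ∂(rho K), ∃ i, S x = p i) :
    Integrable (fun x => ⟪x, S x⟫) (rho K) ∧ Integrable (fun x => ‖S x‖ ^ 2) (rho K) ∧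
    Integrable (fun x => ywt p w (S x)) (rho K) ∧ Integrable (fun x => ‖x‖ ^ 2) (rho K) ∧
    Integrable (fun x => ‖x - S x‖ ^ 2) (rho K) := by
  obtain ⟨R, hR0, hR⟩ := exists_bound_K hK
  set L := ∑ i, ‖p i‖ with hL
  have hLi : ∀ i, ‖p i‖ ≤ L := fun i =>
    Finset.single_le_sum (f := fun i => ‖p i‖) (fun _ _ => norm_nonneg _) (Finset.mem_univ i)
  have hL0 : 0 ≤ L := Finset.sum_nonneg fun _ _ => norm_nonneg _
  have hae := rho_ae_mem hK
  refine ⟨?_, ?_, ?_, ?_, ?_⟩
  · refine integrable_of_bdd hK (C := R * L) (measurable_id.inner hS) ?_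
    filter_upwards [hae, hr] with x hx ⟨i, hi⟩
    rw [hi]
    exact (abs_real_inner_le_norm _ _).trans (mul_le_mul (hR x hx) (hLi i) (norm_nonneg _) hR0)
  · refine integrable_of_bdd hK (C := L ^ 2) (hS.norm.pow_const 2) ?_
    filter_upwards [hr] with x ⟨i, hi⟩
    rw [hi, abs_of_nonneg (by positivity)]
    exact pow_le_pow_left₀ (norm_nonneg _) (hLi i) 2
  · refine integrable_of_bdd hK (C := ∑ i, |w i|) (measurable_ywt.comp hS) ?_
    filter_upwards with x
    unfold ywt
    refine (Finset.abs_sum_le_sum_abs _ _).trans (Finset.sum_le_sum fun i _ => ?_)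
    split_ifs
    · exact le_rfl
    · simpa using abs_nonneg (w i)
  · refine integrable_of_bdd hK (C := R ^ 2) (measurable_id.norm.pow_const 2) ?_
    filter_upwards [hae] with x hx
    rw [abs_of_nonneg (by positivity)]
    exact pow_le_pow_left₀ (norm_nonneg _) (hR x hx) 2
  · refine integrable_of_bdd hK (C := (R + L) ^ 2) ((measurable_id.sub hS).norm.pow_const 2) ?_
    filter_upwards [hae, hr] with x hx ⟨i, hi⟩
    rw [hi, abs_of_nonneg (by positivity)]
    refine pow_le_pow_left₀ (norm_nonneg _) ((norm_sub_le _ _).trans (add_le_add (hR x hx) (hLi i))) 2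

lemma integrable_pot (hK : Body K) (p : ι → E d) (w : ι → ℝ) : Integrable (pot p w) (rho K) := by
  have := rho_isProb hK
  obtain ⟨C, hC⟩ := hK.compact.exists_bound_of_continuousOn (continuous_pot p w).continuousOn
  refine integrable_of_bdd hK (C := C) (continuous_pot p w).measurable ?_
  filter_upwards [rho_ae_mem hK] with x hx
  exact hC x hx

/-- expansion of the quadratic cost -/
lemma cost_expand (hK : Body K) {S : E d → E d} (hS : Measurable S)
    (hr : ∀ᵐ x ∂(rho K), ∃ i, S x = p i) :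
    ∫ x, ‖x - S x‖ ^ 2 ∂(rho K) =
      ∫ x, ‖x‖ ^ 2 ∂(rho K) - 2 * ∫ x, ⟪x, S x⟫ ∂(rho K) + ∫ x, ‖S x‖ ^ 2 ∂(rho K) := by
  obtain ⟨h1, h2, -, h4, -⟩ := moment_bounds (w := 0) hK hS hr
  have e : (fun x => ‖x - S x‖ ^ 2) = fun x => ‖x‖ ^ 2 - 2 * ⟪x, S x⟫ + ‖S x‖ ^ 2 := by
    funext x
    rw [norm_sub_sq_real]
  rw [e]
  have i1 := integral_add (h4.sub (h1.const_mul 2)) h2
  have i2 := integral_sub h4 (h1.const_mul 2)
  have i3 := integral_const_mul (μ := rho K) 2 (fun x => ⟪x, S x⟫)
  simp only [Pi.sub_apply] at i1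
  rw [i1, i2, i3]

/-- lintegral version of the cost -/
lemma cost_lintegral (hK : Body K) {S : E d → E d} (hS : Measurable S)
    (hr : ∀ᵐ x ∂(rho K), ∃ i, S x = p i) :
    ∫⁻ x, ‖x - S x‖ₑ ^ 2 ∂(rho K) = ENNReal.ofReal (∫ x, ‖x - S x‖ ^ 2 ∂(rho K)) := by
  obtain ⟨-, -, -, -, h5⟩ := moment_bounds (w := 0) hK hS hr
  rw [ofReal_integral_eq_lintegral_ofReal h5 (ae_of_all _ fun x => by positivity)]
  refine lintegral_congr fun x => ?_
  rw [ENNReal.ofReal_pow (norm_nonneg _), ofReal_norm_eq_enorm]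

/-- a measurable function integrated against equal push-forwards -/
lemma integral_eq_of_map_eq {S S' : E d → E d} (hS : Measurable S) (hS' : Measurable S')
    (hm : (rho K).map S = (rho K).map S') {F : E d → ℝ} (hF : Measurable F) :
    ∫ x, F (S x) ∂(rho K) = ∫ x, F (S' x) ∂(rho K) := by
  rw [← integral_map hS.aemeasurable hF.aestronglyMeasurable,
    ← integral_map hS'.aemeasurable hF.aestronglyMeasurable, hm]

/-- Young's inequality, integrated. -/
lemma young_le (hK : Body K) (h : LagMap K T p m w) {S : E d → E d} (hS : Measurable S)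
    (hr : ∀ᵐ x ∂(rho K), ∃ i, S x = p i) :
    0 ≤ᵐ[rho K] fun x => pot p w x + ywt p w (S x) - ⟪x, S x⟫ := by
  filter_upwards [hr] with x ⟨i, hi⟩
  have h1 := aff_le_pot p w i x
  unfold aff at h1
  simp only [Pi.zero_apply]
  rw [hi, ywt_apply h.atoms.inj]
  linarith

/-- Measure version of the decomposition along cells. -/
lemma rho_sum_cells (hK : Body K) (hp : Function.Injective p) (w : ι → ℝ) {A : Set (E d)}
    (hA : MeasurableSet A) : ∑ i, rho K (A ∩ cell K p w i) = rho K A := by
  have hd : Pairwise (Function.onFun (AEDisjoint (rho K)) (fun i => A ∩ cell K p w i)) := by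
    intro i j hij
    refine measure_mono_null ?_ (rho_cell_inter (K := K) p hp w hij)
    rintro x ⟨⟨-, h1⟩, ⟨-, h2⟩⟩
    exact ⟨h1, h2⟩
  have h1 := measure_iUnion₀ (μ := rho K) hd
    (fun i => (hA.inter (measurableSet_cell hK p w i)).nullMeasurableSet)
  rw [tsum_fintype] at h1
  rw [← h1]
  refine measure_congr ?_
  filter_upwards [rho_ae_mem hK] with x hx
  apply propext
  constructor
  · intro hx2
    obtain ⟨i, hi⟩ := Set.mem_iUnion.1 hx2
    exact hi.1
  · intro hx2
    obtain ⟨i, hi⟩ := exists_mem_cell p w hx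
    exact Set.mem_iUnion.2 ⟨i, hx2, hi⟩

end aux

/-- A Laguerre map pushes `ρ` to the atomic measure. -/
theorem LagMap.map_eq (hK : Body K) {T : E d → E d} {p : ι → E d} {m w : ι → ℝ}
    (h : LagMap K T p m w) :
    (rho K).map T = ∑ i, ENNReal.ofReal (m i) • Measure.dirac (p i) := by
  ext S hS
  rw [Measure.map_apply h.meas hS]
  simp only [Measure.coe_finsetSum, Finset.sum_apply, Measure.smul_apply, smul_eq_mul,
    Measure.dirac_apply' _ hS]
  have hmT : MeasurableSet (T ⁻¹' S) := h.meas hS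
  rw [← rho_sum_cells hK h.atoms.inj w hmT]
  refine Finset.sum_congr rfl fun i _ => ?_
  have hae := h.ae_cell hK
  by_cases hi : p i ∈ S
  · rw [Set.indicator_of_mem hi, Pi.one_apply, mul_one, ← h.rho_cell hK i]
    refine measure_congr ?_
    filter_upwards [hae] with x hx
    apply propext
    constructor
    · intro hx2
      exact hx2.2
    · intro hx2
      refine ⟨?_, hx2⟩
      change T x ∈ S
      rw [hx i hx2]
      exact hi
  · rw [Set.indicator_of_notMem hi, mul_zero]
    rw [ae_iff] at hae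
    refine measure_mono_null ?_ hae
    rintro x ⟨hx1, hx2⟩ hx3
    exact hi (hx3 i hx2 ▸ hx1)

/-- The correlation of a Laguerre map equals the Kantorovich value. -/
theorem LagMap.corr_eq (hK : Body K) {T : E d → E d} {p : ι → E d} {m w : ι → ℝ}
    (h : LagMap K T p m w) :
    ∫ x, ⟪x, T x⟫ ∂(rho K) = ∫ x, pot p w x ∂(rho K) + ∑ i, m i * w i := by
  have := rho_isProb hK
  have hr := h.ae_range' hK
  obtain ⟨h1, -, -, -, -⟩ := moment_bounds (w := w) hK h.meas hr
  have h2 := integrable_pot hK p w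
  rw [← sum_setIntegral_cell hK p h.atoms.inj w h1, ← sum_setIntegral_cell hK p h.atoms.inj w h2,
    ← Finset.sum_add_distrib]
  refine Finset.sum_congr rfl fun i _ => ?_
  have hc := measurableSet_cell hK p w i
  have e1 : ∫ x in cell K p w i, ⟪x, T x⟫ ∂(rho K) =
      ∫ x in cell K p w i, (pot p w x + w i) ∂(rho K) := by
    refine setIntegral_congr_ae hc ?_
    filter_upwards [h.ae_cell hK] with x hx hxi
    rw [hx i hxi, pot_eq_aff hxi]
    unfold aff
    ring
  rw [e1, integral_add h2.integrableOn (integrable_const _)]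
  have h3 := h.sol i
  simp only [setIntegral_const, smul_eq_mul, mul_one] at h3
  simp only [setIntegral_const, smul_eq_mul]
  rw [h3]

/-- The integrated form of Young for a competitor `S` -/
private lemma corr_le (hK : Body K) {T S : E d → E d} {p : ι → E d} {m w : ι → ℝ}
    (h : LagMap K T p m w) (hS : Measurable S) (hm : (rho K).map S = (rho K).map T) :
    ∫ x, ⟪x, S x⟫ ∂(rho K) ≤ ∫ x, ⟪x, T x⟫ ∂(rho K) ∧
    (∫ x, ⟪x, T x⟫ ∂(rho K) ≤ ∫ x, ⟪x, S x⟫ ∂(rho K) →
      ∀ᵐ x ∂(rho K), pot p w x + ywt p w (S x) - ⟪x, S x⟫ = 0) := by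
  have := rho_isProb hK
  have hrS := ae_range_of_map_eq hK h hS hm
  have hrT := h.ae_range' hK
  obtain ⟨s1, -, s3, -, -⟩ := moment_bounds (w := w) hK hS hrS
  obtain ⟨t1, -, t3, -, -⟩ := moment_bounds (w := w) hK h.meas hrT
  have hp := integrable_pot hK p w
  have hwt := integral_eq_of_map_eq hS h.meas hm (measurable_ywt (p := p) (w := w))
  -- the value of the `ywt` integral
  have hTwt : ∫ x, pot p w x + ywt p w (T x) - ⟪x, T x⟫ ∂(rho K) = 0 := by
    have : (fun x => pot p w x + ywt p w (T x) - ⟪x, T x⟫) =ᵐ[rho K] fun _ => 0 := by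
      filter_upwards [h.ae_range hK] with x hx
      obtain ⟨i, hxi, hi⟩ := hx
      rw [hi, ywt_apply h.atoms.inj, pot_eq_aff hxi]
      unfold aff
      ring
    rw [integral_congr_ae this]
    simp
  have e1 : ∫ x, pot p w x + ywt p w (T x) - ⟪x, T x⟫ ∂(rho K) =
      ∫ x, pot p w x ∂(rho K) + ∫ x, ywt p w (T x) ∂(rho K) - ∫ x, ⟪x, T x⟫ ∂(rho K) := by
    have i1 := integral_sub (hp.add t3) t1
    have i2 := integral_add hp t3
    simp only [Pi.add_apply] at i1 i2
    rw [i1, i2]
  have e2 : ∫ x, pot p w x + ywt p w (S x) - ⟪x, S x⟫ ∂(rho K) =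
      ∫ x, pot p w x ∂(rho K) + ∫ x, ywt p w (S x) ∂(rho K) - ∫ x, ⟪x, S x⟫ ∂(rho K) := by
    have i1 := integral_sub (hp.add s3) s1
    have i2 := integral_add hp s3
    simp only [Pi.add_apply] at i1 i2
    rw [i1, i2]
  have hnn := young_le hK h hS hrS
  have hint : Integrable (fun x => pot p w x + ywt p w (S x) - ⟪x, S x⟫) (rho K) :=
    (hp.add s3).sub s1
  have h0 : 0 ≤ ∫ x, pot p w x + ywt p w (S x) - ⟪x, S x⟫ ∂(rho K) :=
    integral_nonneg_of_ae hnn
  constructor
  · rw [e2, hwt] at h0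
    rw [e1] at hTwt
    linarith
  · intro hle
    have h3 : ∫ x, pot p w x + ywt p w (S x) - ⟪x, S x⟫ ∂(rho K) = 0 := by
      apply le_antisymm _ h0
      rw [e2, hwt]
      rw [e1] at hTwt
      linarith
    have := (integral_eq_zero_iff_of_nonneg_ae hnn hint).1 h3
    filter_upwards [this] with x hx
    exact hx

private lemma cost_relation (hK : Body K) {T S : E d → E d} {p : ι → E d} {m w : ι → ℝ}
    (h : LagMap K T p m w) (hS : Measurable S) (hm : (rho K).map S = (rho K).map T) :
    ∫ x, ‖x - S x‖ ^ 2 ∂(rho K) - ∫ x, ‖x - T x‖ ^ 2 ∂(rho K) =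
      2 * (∫ x, ⟪x, T x⟫ ∂(rho K) - ∫ x, ⟪x, S x⟫ ∂(rho K)) := by
  have hrS := ae_range_of_map_eq hK h hS hm
  have hrT := h.ae_range' hK
  rw [cost_expand hK hS hrS, cost_expand hK h.meas hrT]
  have hn : Measurable (fun y : E d => ‖y‖ ^ 2) := measurable_id.norm.pow_const 2
  have := integral_eq_of_map_eq hS h.meas hm hn
  rw [this]
  ring

/-- Laguerre maps are optimal. -/
theorem lagMap_isOptimal (hK : Body K) {T : E d → E d} {p : ι → E d} {m w : ι → ℝ}
    (h : LagMap K T p m w) : IsOptimalMap (rho K) ((rho K).map T) T := by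
  refine ⟨h.meas, rfl, fun S hS hm => ?_⟩
  have hrS := ae_range_of_map_eq hK h hS hm
  have hrT := h.ae_range' hK
  rw [cost_lintegral hK h.meas hrT, cost_lintegral hK hS hrS]
  apply ENNReal.ofReal_le_ofReal
  have h1 := cost_relation hK h hS hm
  have h2 := (corr_le hK h hS hm).1
  linarith

/-- Any optimal map to the same target agrees a.e. with the Laguerre map. -/
theorem optimal_ae_eq (hK : Body K) {T T' : E d → E d} {p : ι → E d} {m w : ι → ℝ}
    (h : LagMap K T p m w) (hT' : IsOptimalMap (rho K) ((rho K).map T) T') :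
    T' =ᵐ[rho K] T := by
  obtain ⟨hS, hm, hopt⟩ := hT'
  have hrS := ae_range_of_map_eq hK h hS hm
  have hrT := h.ae_range' hK
  have hle := hopt T h.meas rfl
  rw [cost_lintegral hK h.meas hrT, cost_lintegral hK hS hrS] at hle
  have hnn : 0 ≤ ∫ x, ‖x - T x‖ ^ 2 ∂(rho K) := integral_nonneg fun x => by positivity
  have hle' := (ENNReal.ofReal_le_ofReal_iff hnn).1 hle
  have h1 := cost_relation hK h hS hm
  have h2 := (corr_le hK h hS hm).2 (by linarith)
  filter_upwards [h2, hrS, rho_ae_mem hK, ae_unique_cell (K := K) h.atoms.inj w, h.ae_range hK]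
    with x hx ⟨i, hi⟩ hxK huniq ⟨j, hxj, hj⟩
  rw [hi, ywt_apply h.atoms.inj] at hx
  have hxi : x ∈ cell K p w i := by
    refine ⟨hxK, fun l => ?_⟩
    have h3 := aff_le_pot p w l x
    have h4 : aff p w i x = pot p w x := by
      unfold aff
      linarith
    rw [h4]
    exact h3
  rw [hi, hj, huniq i j hxi hxj]

end Crest.Agent.OT
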