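/-
S0109 project: Lipschitz stability of the potentials for atomic targets (piece G2, see OTPLAN.md).
-/
import Crest.Agent.OTKL
import Crest.Agent.OTYoung

set_option autoImplicit false
open MeasureTheory Set
open scoped ENNReal RealInnerProductSpace

namespace Crest.Agent.OT

variable {d : ℕ} {K : Set (E d)}

section Reindex

lemma sum_fiber {Λ A : Type*} [Fintype Λ] [Fintype A] [DecidableEq A]
    (π : Λ → ℝ) (φ : Λ → A) (g : A → ℝ) :
    ∑ ℓ, π ℓ * g (φ ℓ) = ∑ a, (∑ ℓ, if φ ℓ = a then π ℓ else 0) * g a := by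
  simp only [Finset.sum_mul, ite_mul, zero_mul]
  rw [Finset.sum_comm]
  refine Finset.sum_congr rfl fun ℓ _ => ?_
  rw [Finset.sum_ite_eq]
  simp

end Reindex

section Dens

lemma isDens_one (hK : Body K) : IsDens K (fun _ => (1 : ℝ)) := by
  have := rho_isProb hK
  refine ⟨measurable_const, fun _ _ => by norm_num, fun _ _ => by norm_num, ?_⟩
  simp

lemma isDens_perturb (hK : Body K) {g : E d → ℝ} (hg : Measurable g) (hg1 : ∀ x ∈ K, |g x| ≤ 1 / 2)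
    (hg0 : ∫ x, g x ∂(rho K) = 0) (hgi : Integrable g (rho K)) : IsDens K (fun x => 1 + g x) := by
  have := rho_isProb hK
  refine ⟨measurable_const.add hg, fun x hx => ?_, fun x hx => ?_, ?_⟩
  · have := abs_le.1 (hg1 x hx)
    linarith [this.1]
  · have := abs_le.1 (hg1 x hx)
    linarith [this.2]
  · rw [integral_add (integrable_const _) hgi, hg0]
    simp

lemma integrable_dens_mul (hK : Body K) {f G : E d → ℝ} (hf : IsDens K f) (hG : Measurable G) {C : ℝ}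
    (hC : ∀ x ∈ K, |G x| ≤ C) : Integrable (fun x => G x * f x) (rho K) := by
  refine integrable_of_bdd hK (C := C * (3 / 2)) (hG.mul hf.meas) ?_
  filter_upwards [rho_ae_mem hK] with x hx
  rw [abs_mul]
  have h1 := hC x hx
  have h2 := hf.abs_le hx
  have h3 : 0 ≤ C := (abs_nonneg _).trans h1
  exact mul_le_mul h1 h2 (abs_nonneg _) h3

lemma integrable_dens_smul (hK : Body K) {f : E d → ℝ} (hf : IsDens K f) {R : ℝ}
    (hKR : ∀ x ∈ K, ‖x‖ ≤ R) : Integrable (fun x => f x • x) (rho K) := by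
  have := rho_isProb hK
  refine Integrable.of_bound (hf.meas.smul measurable_id).aestronglyMeasurable ((3 / 2) * R) ?_
  filter_upwards [rho_ae_mem hK] with x hx
  rw [norm_smul, Real.norm_eq_abs]
  exact mul_le_mul (hf.abs_le hx) (hKR x hx) (norm_nonneg _) (by norm_num)

/-- inner product against the barycenter -/
lemma setIntegral_inner_bary (hK : Body K) {f : E d → ℝ} (hf : IsDens K f) {R : ℝ}
    (hKR : ∀ x ∈ K, ‖x‖ ≤ R) {ι : Type*} [Fintype ι] {a : ι → E d} {mA wA : ι → ℝ} (i : ι)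
    (hm : mA i ≠ 0) (v : E d) :
    ∫ x in cell K a wA i, ⟪x, v⟫ * f x ∂(rho K) = mA i * ⟪bary K f a mA wA i, v⟫ := by
  have h1 : Integrable (fun x => f x • x) ((rho K).restrict (cell K a wA i)) :=
    (integrable_dens_smul hK hf hKR).restrict
  have h2 : ∫ x in cell K a wA i, ⟪x, v⟫ * f x ∂(rho K) =
      ⟪v, ∫ x in cell K a wA i, f x • x ∂(rho K)⟫ := by
    rw [← integral_inner h1 v]
    refine integral_congr_ae (ae_of_all _ fun x => ?_)
    simp only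
    rw [real_inner_smul_right, real_inner_comm]
    ring
  rw [h2]
  unfold bary
  rw [real_inner_smul_left, real_inner_comm]
  field_simp

lemma norm_bary_le (hK : Body K) {f : E d → ℝ} (hf : IsDens K f) {R : ℝ}
    (hKR : ∀ x ∈ K, ‖x‖ ≤ R) (hR : 0 ≤ R) {ι : Type*} [Fintype ι] {a : ι → E d} {mA wA : ι → ℝ} (i : ι)
    (hs : IsSol K f a mA wA) (hm : 0 < mA i) (hK' : MeasurableSet (cell K a wA i)) :
    ‖bary K f a mA wA i‖ ≤ R := by
  unfold bary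
  rw [norm_smul, norm_inv, Real.norm_eq_abs, abs_of_pos hm, inv_mul_le_iff₀ hm]
  have h1 : ‖∫ x in cell K a wA i, f x • x ∂(rho K)‖ ≤ ∫ x in cell K a wA i, R * f x ∂(rho K) := by
    refine norm_integral_le_of_norm_le ?_ ?_
    · have hi := integrable_dens_mul hK hf (G := fun _ => R) measurable_const (C := R)
        (fun _ _ => by rw [abs_of_nonneg hR])
      exact hi.restrict
    · refine (ae_restrict_iff' hK').2 (ae_of_all _ fun x hx => ?_)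
      rw [norm_smul, Real.norm_eq_abs, abs_of_nonneg (by linarith [hf.lo x hx.1])]
      rw [mul_comm]
      exact mul_le_mul_of_nonneg_right (hKR x hx.1) (by linarith [hf.lo x hx.1])
  rw [integral_const_mul, hs i] at h1
  linarith [h1, mul_comm R (mA i)]

end Dens

section Young

variable {A : Type*} [Fintype A] [Nonempty A] [DecidableEq A]
variable {Λ : Type*} [Fintype Λ] [Nonempty Λ]

/-- Young's inequality for a fractional plan. -/
theorem young_plan (hK : Body K) {f : E d → ℝ} (hf : IsDens K f) {R : ℝ} (hKR : ∀ x ∈ K, ‖x‖ ≤ R)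
    {a : A → E d} {mA wA : A → ℝ} (hA : IsAtoms a mA) (hs : IsSol K f a mA wA)
    {π : Λ → ℝ} (hπ : ∀ ℓ, 0 ≤ π ℓ) {φ : Λ → A}
    (hφ : ∀ a', (∑ ℓ, if φ ℓ = a' then π ℓ else 0) = mA a') (P' : Λ → E d) (w' : Λ → ℝ) :
    ∑ ℓ, π ℓ * ⟪bary K f a mA wA (φ ℓ), P' ℓ⟫ ≤ kant K f P' π w' := by
  set Ψ : E d → ℝ := fun x => pot P' w' x * f x with hΨ
  obtain ⟨C, hC⟩ := hK.compact.exists_bound_of_continuousOn (continuous_pot P' w').continuousOn
  have hΨi : Integrable Ψ (rho K) :=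
    integrable_dens_mul hK hf (continuous_pot P' w').measurable (C := C) (fun x hx => hC x hx)
  have hsplit := sum_setIntegral_cell hK a hA.inj wA hΨi
  -- one term
  have hterm : ∀ ℓ, mA (φ ℓ) * (⟪bary K f a mA wA (φ ℓ), P' ℓ⟫ - w' ℓ) ≤
      ∫ x in cell K a wA (φ ℓ), Ψ x ∂(rho K) := by
    intro ℓ
    have hm := hA.pos (φ ℓ)
    have hc := measurableSet_cell hK a wA (φ ℓ)
    have h1 : ∫ x in cell K a wA (φ ℓ), (⟪x, P' ℓ⟫ * f x - w' ℓ * f x) ∂(rho K) =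
        mA (φ ℓ) * (⟪bary K f a mA wA (φ ℓ), P' ℓ⟫ - w' ℓ) := by
      have i1 : IntegrableOn (fun x => ⟪x, P' ℓ⟫ * f x) (cell K a wA (φ ℓ)) (rho K) :=
        (integrable_dens_mul hK hf (G := fun x => ⟪x, P' ℓ⟫) (measurable_id.inner measurable_const)
          (C := R * ‖P' ℓ‖) (fun x hx => (abs_real_inner_le_norm _ _).trans
            (mul_le_mul_of_nonneg_right (hKR x hx) (norm_nonneg _)))).integrableOn
      have i2 : IntegrableOn (fun x => w' ℓ * f x) (cell K a wA (φ ℓ)) (rho K) :=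
        (integrable_dens_mul hK hf (G := fun _ => w' ℓ) measurable_const (C := |w' ℓ|)
          (fun _ _ => le_rfl)).integrableOn
      rw [integral_sub i1 i2, setIntegral_inner_bary hK hf hKR _ hm.ne', integral_const_mul, hs]
      ring
    rw [← h1]
    refine setIntegral_mono_on ?_ ?_ hc ?_
    · have i1 : Integrable (fun x => ⟪x, P' ℓ⟫ * f x) (rho K) :=
        integrable_dens_mul hK hf (G := fun x => ⟪x, P' ℓ⟫) (measurable_id.inner measurable_const)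
          (C := R * ‖P' ℓ‖) (fun x hx => (abs_real_inner_le_norm _ _).trans
            (mul_le_mul_of_nonneg_right (hKR x hx) (norm_nonneg _)))
      have i2 : Integrable (fun x => w' ℓ * f x) (rho K) :=
        integrable_dens_mul hK hf (G := fun _ => w' ℓ) measurable_const (C := |w' ℓ|)
          (fun _ _ => le_rfl)
      exact (i1.sub i2).integrableOn
    · exact hΨi.integrableOn
    · intro x hx
      have h2 := aff_le_pot P' w' ℓ x
      have h3 : 0 ≤ f x := by linarith [hf.lo x hx.1]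
      have h4 : ⟪x, P' ℓ⟫ * f x - w' ℓ * f x = aff P' w' ℓ x * f x := by
        unfold aff
        ring
      simp only [hΨ]
      rw [h4]
      exact mul_le_mul_of_nonneg_right h2 h3
  -- divide and sum
  have hterm2 : ∀ ℓ, π ℓ * (⟪bary K f a mA wA (φ ℓ), P' ℓ⟫ - w' ℓ) ≤
      π ℓ * ((∫ x in cell K a wA (φ ℓ), Ψ x ∂(rho K)) / mA (φ ℓ)) := by
    intro ℓ
    refine mul_le_mul_of_nonneg_left ?_ (hπ ℓ)
    rw [le_div_iff₀ (hA.pos (φ ℓ)), mul_comm]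
    exact hterm ℓ
  have hsum := Finset.sum_le_sum (s := Finset.univ) fun ℓ _ => hterm2 ℓ
  have hfib := sum_fiber π φ (fun a' => (∫ x in cell K a wA a', Ψ x ∂(rho K)) / mA a')
  have hfib2 : ∑ a', (∑ ℓ, if φ ℓ = a' then π ℓ else 0) *
      ((∫ x in cell K a wA a', Ψ x ∂(rho K)) / mA a') = ∫ x, Ψ x ∂(rho K) := by
    rw [← hsplit]
    refine Finset.sum_congr rfl fun a' _ => ?_
    rw [hφ a']
    have := (hA.pos a').ne'
    field_simp
  rw [hfib, hfib2] at hsum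
  simp only [mul_sub, Finset.sum_sub_distrib] at hsum
  unfold kant
  linarith

/-- pot does not see a surjective reindexing -/
lemma pot_comp [Nonempty A] (a : A → E d) (wA : A → ℝ) {φ : Λ → A} (hs : Function.Surjective φ) :
    pot (fun ℓ => a (φ ℓ)) (fun ℓ => wA (φ ℓ)) = pot a wA := by
  funext x
  refine le_antisymm (ciSup_le fun ℓ => aff_le_pot a wA (φ ℓ) x) (ciSup_le fun a' => ?_)
  obtain ⟨ℓ, rfl⟩ := hs a'
  exact aff_le_pot (fun ℓ => a (φ ℓ)) (fun ℓ => wA (φ ℓ)) ℓ x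

/-- Equality in Young at the lifted solution. -/
theorem young_eq (hK : Body K) {f : E d → ℝ} (hf : IsDens K f) {R : ℝ} (hKR : ∀ x ∈ K, ‖x‖ ≤ R)
    {a : A → E d} {mA wA : A → ℝ} (hA : IsAtoms a mA) (hs : IsSol K f a mA wA)
    {π : Λ → ℝ} {φ : Λ → A} (hsurj : Function.Surjective φ)
    (hφ : ∀ a', (∑ ℓ, if φ ℓ = a' then π ℓ else 0) = mA a') :
    kant K f (fun ℓ => a (φ ℓ)) π (fun ℓ => wA (φ ℓ)) =
      ∑ ℓ, π ℓ * ⟪bary K f a mA wA (φ ℓ), a (φ ℓ)⟫ := by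
  have h1 : kant K f (fun ℓ => a (φ ℓ)) π (fun ℓ => wA (φ ℓ)) = kant K f a mA wA := by
    unfold kant
    rw [pot_comp a wA hsurj]
    congr 1
    rw [sum_fiber π φ wA]
    exact Finset.sum_congr rfl fun a' _ => by rw [hφ a']
  rw [h1, kant_eq_corr hK hf hA hs, sum_fiber π φ (fun a' => ⟪bary K f a mA wA a', a a'⟫)]
  refine Finset.sum_congr rfl fun a' _ => ?_
  rw [hφ a', setIntegral_inner_bary hK hf hKR _ (hA.pos a').ne']

/-- The lifted solution minimizes the functional at its lifted positions. -/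
theorem min_lift (hK : Body K) {f : E d → ℝ} (hf : IsDens K f) {R : ℝ} (hKR : ∀ x ∈ K, ‖x‖ ≤ R)
    {a : A → E d} {mA wA : A → ℝ} (hA : IsAtoms a mA) (hs : IsSol K f a mA wA)
    {π : Λ → ℝ} (hπ : ∀ ℓ, 0 ≤ π ℓ) {φ : Λ → A} (hsurj : Function.Surjective φ)
    (hφ : ∀ a', (∑ ℓ, if φ ℓ = a' then π ℓ else 0) = mA a') (w' : Λ → ℝ) :
    kant K f (fun ℓ => a (φ ℓ)) π (fun ℓ => wA (φ ℓ)) ≤ kant K f (fun ℓ => a (φ ℓ)) π w' := by
  rw [young_eq hK hf hKR hA hs hsurj hφ]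
  exact young_plan hK hf hKR hA hs hπ hφ _ w'

end Young


section Merged

variable {Λ : Type*} [Fintype Λ] [Nonempty Λ]

/-- The merged system, abstract version. -/
theorem merged_aux {A : Type*} [Fintype A] [Nonempty A] [DecidableEq A]
    (hK : Body K) {R : ℝ} (hR : 0 < R) (hKR : ∀ x ∈ K, ‖x‖ ≤ R)
    {π : Λ → ℝ} (hπ : ∀ ℓ, 0 < π ℓ) {pA : A → E d} {mA : A → ℝ} (hAt : IsAtoms pA mA)
    {φ : Λ → A} (hsurj : Function.Surjective φ)
    (hmA : ∀ a, (∑ ℓ, if φ ℓ = a then π ℓ else 0) = mA a)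
    {g : E d → ℝ} (hg : Measurable g) (hg1 : ∀ x ∈ K, |g x| ≤ 1 / 2) (hg0 : ∫ x, g x ∂(rho K) = 0) :
    ∃ (w0 w1 : Λ → ℝ) (B0 B1 : Λ → E d),
      (∀ (P' : Λ → E d) (w' : Λ → ℝ), ∑ ℓ, π ℓ * ⟪B0 ℓ, P' ℓ⟫ ≤ kant K (fun _ => 1) P' π w') ∧
      (∀ (P' : Λ → E d) (w' : Λ → ℝ), ∑ ℓ, π ℓ * ⟪B1 ℓ, P' ℓ⟫ ≤ kant K (fun x => 1 + g x) P' π w') ∧
      kant K (fun _ => 1) (fun ℓ => pA (φ ℓ)) π w0 = ∑ ℓ, π ℓ * ⟪B0 ℓ, pA (φ ℓ)⟫ ∧
      kant K (fun x => 1 + g x) (fun ℓ => pA (φ ℓ)) π w1 = ∑ ℓ, π ℓ * ⟪B1 ℓ, pA (φ ℓ)⟫ ∧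
      (∀ ℓ, ‖B0 ℓ‖ ≤ R) ∧ (∀ ℓ, ‖B1 ℓ‖ ≤ R) ∧
      ∑ ℓ, π ℓ * ‖B1 ℓ - B0 ℓ‖ ^ 2 ≤ 10000 * R ^ 2 * ∫ x, g x ^ 2 ∂(rho K) := by
  have hgi : Integrable g (rho K) := integrable_of_bound_on hK hg hg1
  have hf0 : IsDens K (fun _ => (1 : ℝ)) := isDens_one hK
  have hf1 : IsDens K (fun x => 1 + g x) := isDens_perturb hK hg hg1 hg0 hgi
  obtain ⟨wA0, h0⟩ := exists_sol hK hf0 hAt
  obtain ⟨wA1, h1⟩ := exists_sol hK hf1 hAt
  refine ⟨fun ℓ => wA0 (φ ℓ), fun ℓ => wA1 (φ ℓ), fun ℓ => bary K (fun _ => 1) pA mA wA0 (φ ℓ),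
    fun ℓ => bary K (fun x => 1 + g x) pA mA wA1 (φ ℓ), ?_, ?_, ?_, ?_, ?_, ?_, ?_⟩
  · intro P' w'
    exact young_plan hK hf0 hKR hAt h0 (fun ℓ => (hπ ℓ).le) hmA P' w'
  · intro P' w'
    exact young_plan hK hf1 hKR hAt h1 (fun ℓ => (hπ ℓ).le) hmA P' w'
  · exact young_eq hK hf0 hKR hAt h0 hsurj hmA
  · exact young_eq hK hf1 hKR hAt h1 hsurj hmA
  · intro ℓ
    exact norm_bary_le hK hf0 hKR hR.le _ h0 (hAt.pos _) (measurableSet_cell hK _ _ _)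
  · intro ℓ
    exact norm_bary_le hK hf1 hKR hR.le _ h1 (hAt.pos _) (measurableSet_cell hK _ _ _)
  · have hkl := kl_bound hK hR hKR hAt hg hg1 hg0 h0 h1
    rw [sum_fiber π φ (fun a => ‖bary K (fun x => 1 + g x) pA mA wA1 a -
      bary K (fun _ => 1) pA mA wA0 a‖ ^ 2)]
    refine le_trans (le_of_eq ?_) hkl
    exact Finset.sum_congr rfl fun a _ => by rw [hmA a]

/-- The merged system at positions `P` (not necessarily injective). -/
theorem merged_system (hK : Body K) {R : ℝ} (hR : 0 < R) (hKR : ∀ x ∈ K, ‖x‖ ≤ R)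
    {π : Λ → ℝ} (hπ : ∀ ℓ, 0 < π ℓ) (hπ1 : ∑ ℓ, π ℓ = 1) (P : Λ → E d)
    {g : E d → ℝ} (hg : Measurable g) (hg1 : ∀ x ∈ K, |g x| ≤ 1 / 2) (hg0 : ∫ x, g x ∂(rho K) = 0) :
    ∃ (w0 w1 : Λ → ℝ) (B0 B1 : Λ → E d),
      (∀ (P' : Λ → E d) (w' : Λ → ℝ), ∑ ℓ, π ℓ * ⟪B0 ℓ, P' ℓ⟫ ≤ kant K (fun _ => 1) P' π w') ∧
      (∀ (P' : Λ → E d) (w' : Λ → ℝ), ∑ ℓ, π ℓ * ⟪B1 ℓ, P' ℓ⟫ ≤ kant K (fun x => 1 + g x) P' π w') ∧
      kant K (fun _ => 1) P π w0 = ∑ ℓ, π ℓ * ⟪B0 ℓ, P ℓ⟫ ∧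
      kant K (fun x => 1 + g x) P π w1 = ∑ ℓ, π ℓ * ⟪B1 ℓ, P ℓ⟫ ∧
      (∀ ℓ, ‖B0 ℓ‖ ≤ R) ∧ (∀ ℓ, ‖B1 ℓ‖ ≤ R) ∧
      ∑ ℓ, π ℓ * ‖B1 ℓ - B0 ℓ‖ ^ 2 ≤ 10000 * R ^ 2 * ∫ x, g x ^ 2 ∂(rho K) := by
  classical
  have hfin : Finite {a : E d // a ∈ Set.range P} := (Set.finite_range P).to_subtype
  letI : Fintype {a : E d // a ∈ Set.range P} := Fintype.ofFinite _
  let φ : Λ → {a : E d // a ∈ Set.range P} := fun ℓ => ⟨P ℓ, ℓ, rfl⟩
  have hsurj : Function.Surjective φ := by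
    rintro ⟨a, ℓ, rfl⟩
    exact ⟨ℓ, rfl⟩
  have hne : Nonempty {a : E d // a ∈ Set.range P} := ⟨φ (Classical.arbitrary Λ)⟩
  have hAt : IsAtoms (fun a : {a : E d // a ∈ Set.range P} => a.1)
      (fun a => ∑ ℓ, if φ ℓ = a then π ℓ else 0) := by
    refine ⟨Subtype.val_injective, fun a => ?_, ?_⟩
    · obtain ⟨ℓ, hℓ⟩ := hsurj a
      refine Finset.sum_pos' (fun ℓ' _ => ?_) ⟨ℓ, Finset.mem_univ _, ?_⟩
      · split_ifs
        · exact (hπ ℓ').le
        · exact le_rfl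
      · simp [hℓ, hπ ℓ]
    · have := sum_fiber π φ (fun _ => 1)
      simp only [mul_one] at this
      rw [hπ1] at this
      exact this.symm
  exact merged_aux hK hR hKR hπ hAt hsurj (fun _ => rfl) hg hg1 hg0

end Merged

/-- Telescoping for a mixed difference of two functions with supergradients. -/
lemma telescoping {v0 v1 A0 A1 : ℝ → ℝ} {M M' : ℝ}
    (h0 : ∀ t t', v0 t + (t' - t) * A0 t ≤ v0 t')
    (h1 : ∀ t t', v1 t + (t' - t) * A1 t ≤ v1 t')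
    (hM : ∀ t, |A1 t - A0 t| ≤ M) (hM' : ∀ t t', |A1 t - A1 t'| ≤ M') :
    (v1 1 - v1 0) - (v0 1 - v0 0) ≤ M := by
  have key : ∀ N : ℕ, 0 < N → (v1 1 - v1 0) - (v0 1 - v0 0) ≤ M + M' / N := by
    intro N hN
    have hN' : (0 : ℝ) < N := by exact_mod_cast hN
    set s : ℕ → ℝ := fun k => (k : ℝ) / N with hs
    have hstep : ∀ k : ℕ, s (k + 1) - s k = 1 / N := by
      intro k
      simp only [hs]
      push_cast
      field_simp
      ring
    have hind : ∀ k : ℕ, (v1 (s k) - v1 0) - (v0 (s k) - v0 0) ≤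
        (1 / N) * (A1 (s k) - A1 0) + k * (M / N) := by
      intro k
      induction k with
      | zero =>
        simp [hs]
      | succ k ih =>
        have e1 := h1 (s (k + 1)) (s k)
        have e0 := h0 (s k) (s (k + 1))
        have e2 := (abs_le.1 (hM (s k))).2
        have hst := hstep k
        have e3 : s k - s (k + 1) = -(1 / N) := by linarith
        rw [e3] at e1
        rw [hst] at e0
        have hinv : (0 : ℝ) < 1 / N := by positivity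
        have e4 : (1 / (N : ℝ)) * (A1 (s k) - A0 (s k)) ≤ (1 / N) * M :=
          mul_le_mul_of_nonneg_left e2 hinv.le
        push_cast
        have e5 : ((k : ℝ) + 1) * (M / N) = k * (M / N) + (1 / N) * M := by ring
        rw [e5]
        nlinarith
    have h1N : s N = 1 := by
      simp only [hs]
      field_simp
    have h := hind N
    rw [h1N] at h
    have e6 : (N : ℝ) * (M / N) = M := by field_simp
    rw [e6] at h
    have e7 : (1 / (N : ℝ)) * (A1 1 - A1 0) ≤ (1 / N) * M' :=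
      mul_le_mul_of_nonneg_left (abs_le.1 (hM' 1 0)).2 (by positivity)
    have e8 : (1 / (N : ℝ)) * M' = M' / N := by ring
    linarith
  have hM'0 : 0 ≤ M' := (abs_nonneg _).trans (hM' 0 0)
  by_contra hcon
  push Not at hcon
  obtain ⟨N, hN⟩ := exists_nat_gt (M' / ((v1 1 - v1 0) - (v0 1 - v0 0) - M))
  have hpos : 0 < (v1 1 - v1 0) - (v0 1 - v0 0) - M := by linarith
  have hN0 : (0 : ℝ) < N := lt_of_le_of_lt (div_nonneg hM'0 hpos.le) hN
  have hN1 : 0 < N := by exact_mod_cast hN0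
  have := key N hN1
  rw [div_lt_iff₀ hpos] at hN
  have h3 : M' / N < (v1 1 - v1 0) - (v0 1 - v0 0) - M := by
    rw [div_lt_iff₀ hN0]
    linarith
  linarith

/-- The functional for a perturbed density. -/
lemma kant_perturb (hK : Body K) {Λ : Type*} [Fintype Λ] [Nonempty Λ] (P : Λ → E d) (π w : Λ → ℝ)
    {g : E d → ℝ} (hg : Measurable g) {C : ℝ} (hC : ∀ x ∈ K, |g x| ≤ C) :
    kant K (fun x => 1 + g x) P π w = kant K (fun _ => 1) P π w + ∫ x, pot P w x * g x ∂(rho K) := by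
  unfold kant
  have e : ∀ x, pot P w x * (1 + g x) = pot P w x * 1 + pot P w x * g x := fun x => by ring
  simp only [e]
  rw [integral_add ?_ (integrable_pot_mul hK P w hg hC)]
  · ring
  · exact integrable_pot_mul hK P w measurable_const (B := 1) (fun _ _ => by norm_num)

lemma integral_pot_mul_const {Λ : Type*} [Fintype Λ] [Nonempty Λ] (P : Λ → E d) (w : Λ → ℝ) (ε : ℝ)
    (q : E d → ℝ) :
    ∫ x, pot P w x * (ε * q x) ∂(rho K) = ε * ∫ x, pot P w x * q x ∂(rho K) := by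
  rw [← integral_const_mul]
  refine integral_congr_ae (ae_of_all _ fun x => ?_)
  simp only
  ring

/-- Weighted Cauchy-Schwarz. -/
lemma weighted_cs {Λ : Type*} [Fintype Λ] {π : Λ → ℝ} (hπ : ∀ ℓ, 0 ≤ π ℓ) (x y : Λ → E d) :
    |∑ ℓ, π ℓ * ⟪x ℓ, y ℓ⟫| ≤ √(∑ ℓ, π ℓ * ‖x ℓ‖ ^ 2) * √(∑ ℓ, π ℓ * ‖y ℓ‖ ^ 2) := by
  have h1 : |∑ ℓ, π ℓ * ⟪x ℓ, y ℓ⟫| ≤ ∑ ℓ, (√(π ℓ) * ‖x ℓ‖) * (√(π ℓ) * ‖y ℓ‖) := by
    refine (Finset.abs_sum_le_sum_abs _ _).trans (Finset.sum_le_sum fun ℓ _ => ?_)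
    rw [abs_mul, abs_of_nonneg (hπ ℓ)]
    have h2 : √(π ℓ) * ‖x ℓ‖ * (√(π ℓ) * ‖y ℓ‖) = π ℓ * (‖x ℓ‖ * ‖y ℓ‖) := by
      have := Real.mul_self_sqrt (hπ ℓ)
      calc √(π ℓ) * ‖x ℓ‖ * (√(π ℓ) * ‖y ℓ‖) = (√(π ℓ) * √(π ℓ)) * (‖x ℓ‖ * ‖y ℓ‖) := by ring
        _ = _ := by rw [this]
    rw [h2]
    exact mul_le_mul_of_nonneg_left (abs_real_inner_le_norm _ _) (hπ ℓ)
  refine h1.trans ((Real.sum_mul_le_sqrt_mul_sqrt _ _ _).trans (le_of_eq ?_))
  congr 2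
  · refine Finset.sum_congr rfl fun ℓ _ => ?_
    rw [mul_pow, Real.sq_sqrt (hπ ℓ)]
  · refine Finset.sum_congr rfl fun ℓ _ => ?_
    rw [mul_pow, Real.sq_sqrt (hπ ℓ)]

section Plan

variable {ι ι' : Type*} [Fintype ι] [Nonempty ι] [DecidableEq ι] [Fintype ι'] [Nonempty ι']
  [DecidableEq ι']
variable {Λ : Type*} [Fintype Λ] [Nonempty Λ]

/-- The mixed difference along the linear path: the perturbed statement. -/
theorem g2_plan (hK : Body K) {R : ℝ} (hR : 0 < R) (hKR : ∀ x ∈ K, ‖x‖ ≤ R)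
    {p : ι → E d} {m w : ι → ℝ} {p' : ι' → E d} {m' wε : ι' → ℝ}
    (hA : IsAtoms p m) (hA' : IsAtoms p' m') (hw : IsSol K (fun _ => 1) p m w)
    {π : Λ → ℝ} (hπ : ∀ ℓ, 0 < π ℓ) (hπ1 : ∑ ℓ, π ℓ = 1)
    {φ : Λ → ι} {φ' : Λ → ι'} (hs : Function.Surjective φ) (hs' : Function.Surjective φ')
    (hf : ∀ i, (∑ ℓ, if φ ℓ = i then π ℓ else 0) = m i)
    (hf' : ∀ j, (∑ ℓ, if φ' ℓ = j then π ℓ else 0) = m' j)
    {q : E d → ℝ} (hq : Measurable q) {B : ℝ} (hB : ∀ x, |q x| ≤ B) (hq0 : ∫ x, q x ∂(rho K) = 0)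
    {ε : ℝ} (hε : 0 < ε) (hεB : ε * B ≤ 1 / 2)
    (hwε : IsSol K (fun x => 1 + ε * q x) p' m' wε) :
    ∫ x, (pot p' wε x - pot p w x) * q x ∂(rho K)
      ≤ 100 * R * √(∑ ℓ, π ℓ * ‖p' (φ' ℓ) - p (φ ℓ)‖ ^ 2) * √(∫ x, q x ^ 2 ∂(rho K)) := by
  have hπ0 : ∀ ℓ, 0 ≤ π ℓ := fun ℓ => (hπ ℓ).le
  set g : E d → ℝ := fun x => ε * q x with hgdef
  have hg : Measurable g := hq.const_mul ε
  have hgB : ∀ x, |g x| ≤ ε * B := fun x => by
    simp only [hgdef]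
    rw [abs_mul, abs_of_pos hε]
    exact mul_le_mul_of_nonneg_left (hB x) hε.le
  have hg1 : ∀ x ∈ K, |g x| ≤ 1 / 2 := fun x _ => (hgB x).trans hεB
  have hg0 : ∫ x, g x ∂(rho K) = 0 := by
    simp only [hgdef]
    rw [integral_const_mul, hq0, mul_zero]
  set δ : Λ → E d := fun ℓ => p' (φ' ℓ) - p (φ ℓ) with hδ
  set P : ℝ → Λ → E d := fun t ℓ => p (φ ℓ) + t • δ ℓ with hP
  have hP0 : P 0 = fun ℓ => p (φ ℓ) := by
    funext ℓ
    simp [hP]
  have hP1 : P 1 = fun ℓ => p' (φ' ℓ) := by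
    funext ℓ
    simp [hP, hδ]
  have hPt : ∀ t t' ℓ, P t' ℓ = P t ℓ + (t' - t) • δ ℓ := by
    intro t t' ℓ
    simp only [hP, sub_smul]
    abel
  have hms := fun t => merged_system hK hR hKR hπ hπ1 (P t) hg hg1 hg0
  choose w0 w1 B0 B1 hY0 hY1 hE0 hE1 hN0 hN1 hD using hms
  set v0 : ℝ → ℝ := fun t => kant K (fun _ => 1) (P t) π (w0 t) with hv0
  set v1 : ℝ → ℝ := fun t => kant K (fun x => 1 + g x) (P t) π (w1 t) with hv1
  set A0 : ℝ → ℝ := fun t => ∑ ℓ, π ℓ * ⟪B0 t ℓ, δ ℓ⟫ with hA0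
  set A1 : ℝ → ℝ := fun t => ∑ ℓ, π ℓ * ⟪B1 t ℓ, δ ℓ⟫ with hA1
  have hexp : ∀ (X : Λ → E d) (t t' : ℝ), ∑ ℓ, π ℓ * ⟪X ℓ, P t' ℓ⟫ =
      ∑ ℓ, π ℓ * ⟪X ℓ, P t ℓ⟫ + (t' - t) * ∑ ℓ, π ℓ * ⟪X ℓ, δ ℓ⟫ := by
    intro X t t'
    rw [Finset.mul_sum, ← Finset.sum_add_distrib]
    refine Finset.sum_congr rfl fun ℓ _ => ?_
    rw [hPt t t' ℓ, inner_add_right, real_inner_smul_right]
    ring
  have sg0 : ∀ t t', v0 t + (t' - t) * A0 t ≤ v0 t' := by
    intro t t'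
    simp only [hv0, hA0]
    rw [hE0 t, ← hexp]
    exact hY0 t (P t') (w0 t')
  have sg1 : ∀ t t', v1 t + (t' - t) * A1 t ≤ v1 t' := by
    intro t t'
    simp only [hv1, hA1]
    rw [hE1 t, ← hexp]
    exact hY1 t (P t') (w1 t')
  set W : ℝ := √(∑ ℓ, π ℓ * ‖δ ℓ‖ ^ 2) with hW
  set Q : ℝ := √(∫ x, q x ^ 2 ∂(rho K)) with hQ
  have hW0 : 0 ≤ W := Real.sqrt_nonneg _
  have hQ0 : 0 ≤ Q := Real.sqrt_nonneg _
  have hg2 : ∫ x, g x ^ 2 ∂(rho K) = ε ^ 2 * ∫ x, q x ^ 2 ∂(rho K) := by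
    simp only [hgdef, mul_pow]
    rw [integral_const_mul]
  have hqq : 0 ≤ ∫ x, q x ^ 2 ∂(rho K) := integral_nonneg fun x => sq_nonneg _
  have hsq : ∀ t, √(∑ ℓ, π ℓ * ‖B1 t ℓ - B0 t ℓ‖ ^ 2) ≤ 100 * R * ε * Q := by
    intro t
    refine Real.sqrt_le_iff.2 ⟨by positivity, ?_⟩
    refine (hD t).trans (le_of_eq ?_)
    rw [hg2, mul_pow, mul_pow, mul_pow, hQ, Real.sq_sqrt hqq]
    ring
  have hM : ∀ t, |A1 t - A0 t| ≤ 100 * R * ε * Q * W := by
    intro t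
    have e : A1 t - A0 t = ∑ ℓ, π ℓ * ⟪B1 t ℓ - B0 t ℓ, δ ℓ⟫ := by
      simp only [hA1, hA0]
      rw [← Finset.sum_sub_distrib]
      refine Finset.sum_congr rfl fun ℓ _ => ?_
      rw [inner_sub_left]
      ring
    rw [e]
    refine (weighted_cs hπ0 _ _).trans ?_
    exact mul_le_mul_of_nonneg_right (hsq t) hW0
  have hA1B : ∀ t, |A1 t| ≤ R * ∑ ℓ, π ℓ * ‖δ ℓ‖ := by
    intro t
    simp only [hA1]
    refine (Finset.abs_sum_le_sum_abs _ _).trans ?_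
    rw [Finset.mul_sum]
    refine Finset.sum_le_sum fun ℓ _ => ?_
    rw [abs_mul, abs_of_pos (hπ ℓ)]
    have h2 := abs_real_inner_le_norm (B1 t ℓ) (δ ℓ)
    have h3 : ‖B1 t ℓ‖ * ‖δ ℓ‖ ≤ R * ‖δ ℓ‖ := mul_le_mul_of_nonneg_right (hN1 t ℓ) (norm_nonneg _)
    calc π ℓ * |⟪B1 t ℓ, δ ℓ⟫| ≤ π ℓ * (R * ‖δ ℓ‖) :=
          mul_le_mul_of_nonneg_left (h2.trans h3) (hπ0 ℓ)
      _ = R * (π ℓ * ‖δ ℓ‖) := by ring
  have hM' : ∀ t t', |A1 t - A1 t'| ≤ 2 * (R * ∑ ℓ, π ℓ * ‖δ ℓ‖) := by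
    intro t t'
    have := abs_sub (A1 t) (A1 t')
    have h1 := hA1B t
    have h2 := hA1B t'
    linarith
  have htel := telescoping sg0 sg1 hM hM'
  -- endpoint comparisons
  have hf0 : IsDens K (fun _ => (1 : ℝ)) := isDens_one hK
  have hgi : Integrable g (rho K) := integrable_of_bound_on hK hg hg1
  have hf1 : IsDens K (fun x => 1 + g x) := isDens_perturb hK hg hg1 hg0 hgi
  -- v0 1 ≤ v1 1 - ε ∫ pot p' wε q
  have end1 : v0 1 + ε * ∫ x, pot p' wε x * q x ∂(rho K) ≤ v1 1 := by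
    have e1 : v0 1 ≤ kant K (fun _ => 1) (P 1) π (fun ℓ => wε (φ' ℓ)) := by
      simp only [hv0]
      rw [hE0 1]
      exact hY0 1 (P 1) _
    have e2 := kant_perturb hK (P 1) π (fun ℓ => wε (φ' ℓ)) hg (fun x _ => (hgB x))
    rw [hP1] at e2
    have e3 : pot (fun ℓ => p' (φ' ℓ)) (fun ℓ => wε (φ' ℓ)) = pot p' wε := pot_comp p' wε hs'
    rw [e3, hgdef, integral_pot_mul_const p' wε ε q, ← hgdef] at e2
    have e4 := min_lift hK hf1 hKR hA' hwε hπ0 hs' hf' (w1 1)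
    rw [← hP1] at e4 e2
    simp only [hv1]
    rw [hP1] at e1 e2 e4 ⊢
    linarith
  -- v1 0 ≤ v0 0 + ε ∫ pot p w q
  have end0 : v1 0 ≤ v0 0 + ε * ∫ x, pot p w x * q x ∂(rho K) := by
    have e1 : v1 0 ≤ kant K (fun x => 1 + g x) (P 0) π (fun ℓ => w (φ ℓ)) := by
      simp only [hv1]
      rw [hE1 0]
      exact hY1 0 (P 0) _
    have e2 := kant_perturb hK (P 0) π (fun ℓ => w (φ ℓ)) hg (fun x _ => (hgB x))
    rw [hP0] at e2
    have e3 : pot (fun ℓ => p (φ ℓ)) (fun ℓ => w (φ ℓ)) = pot p w := pot_comp p w hs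
    rw [e3, hgdef, integral_pot_mul_const p w ε q, ← hgdef] at e2
    have e4 := min_lift hK hf0 hKR hA hw hπ0 hs hf (w0 0)
    simp only [hv0]
    rw [hP0] at e1 ⊢
    linarith
  -- conclusion
  have hmain : ε * ((∫ x, pot p' wε x * q x ∂(rho K)) - ∫ x, pot p w x * q x ∂(rho K)) ≤
      ε * (100 * R * W * Q) := by
    have : 100 * R * ε * Q * W = ε * (100 * R * W * Q) := by ring
    rw [this] at htel
    linarith
  have hdiv := le_of_mul_le_mul_left hmain hε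
  have e : ∫ x, (pot p' wε x - pot p w x) * q x ∂(rho K) =
      (∫ x, pot p' wε x * q x ∂(rho K)) - ∫ x, pot p w x * q x ∂(rho K) := by
    rw [← integral_sub (integrable_pot_mul hK _ _ hq (fun x _ => hB x))
      (integrable_pot_mul hK _ _ hq (fun x _ => hB x))]
    refine integral_congr_ae (ae_of_all _ fun x => ?_)
    simp only
    ring
  rw [e]
  exact hdiv

end Plan

section Support

variable {ι ι' : Type*} [Fintype ι] [Fintype ι']

lemma sum_support (c : ι → ι' → ℝ) [Fintype {x : ι × ι' // 0 < c x.1 x.2}]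
    (c0 : ∀ i j, 0 ≤ c i j) (F : ι → ι' → ℝ) :
    ∑ ℓ : {x : ι × ι' // 0 < c x.1 x.2}, c ℓ.1.1 ℓ.1.2 * F ℓ.1.1 ℓ.1.2 =
      ∑ i, ∑ j, c i j * F i j := by
  classical
  rw [← Fintype.sum_prod_type' (fun i j => c i j * F i j)]
  rw [← Finset.sum_subtype (Finset.univ.filter fun x : ι × ι' => 0 < c x.1 x.2) (by simp)
    (fun x : ι × ι' => c x.1 x.2 * F x.1 x.2)]
  refine Finset.sum_filter_of_ne fun x _ hx => ?_
  have h1 : c x.1 x.2 ≠ 0 := left_ne_zero_of_mul hx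
  exact lt_of_le_of_ne (c0 _ _) h1.symm

end Support

theorem g2_atomic (hK : Body K) {R : ℝ} (hR : 0 < R) (hKR : ∀ x ∈ K, ‖x‖ ≤ R)
    {ι ι' : Type*} [Fintype ι] [Nonempty ι] [DecidableEq ι] [Fintype ι'] [Nonempty ι'] [DecidableEq ι']
    {p : ι → E d} {m w : ι → ℝ} {p' : ι' → E d} {m' w' : ι' → ℝ}
    (hA : IsAtoms p m) (hA' : IsAtoms p' m')
    (hw : IsSol K (fun _ => 1) p m w) (hw' : IsSol K (fun _ => 1) p' m' w')
    (c : ι → ι' → ℝ) (c0 : ∀ i j, 0 ≤ c i j) (c1 : ∀ i, ∑ j, c i j = m i) (c2 : ∀ j, ∑ i, c i j = m' j)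
    {q : E d → ℝ} (hq : Measurable q) {B : ℝ} (hB : ∀ x, |q x| ≤ B) (hq0 : ∫ x, q x ∂(rho K) = 0) :
    ∫ x, (pot p' w' x - pot p w x) * q x ∂(rho K)
      ≤ 100 * R * Real.sqrt (∑ i, ∑ j, c i j * ‖p i - p' j‖ ^ 2)
          * Real.sqrt (∫ x, q x ^ 2 ∂(rho K)) := by
  classical
  let Λ := {x : ι × ι' // 0 < c x.1 x.2}
  let π : Λ → ℝ := fun ℓ => c ℓ.1.1 ℓ.1.2
  let φ : Λ → ι := fun ℓ => ℓ.1.1
  let φ' : Λ → ι' := fun ℓ => ℓ.1.2
  have hπ : ∀ ℓ, 0 < π ℓ := fun ℓ => ℓ.2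
  have hs : Function.Surjective φ := by
    intro i
    by_contra hcon
    push Not at hcon
    have h0 : ∀ j, c i j = 0 := by
      intro j
      by_contra hne
      have hpos : 0 < c i j := lt_of_le_of_ne (c0 _ _) (Ne.symm hne)
      exact hcon ⟨(i, j), hpos⟩ rfl
    have := c1 i
    simp only [h0, Finset.sum_const_zero] at this
    exact (hA.pos i).ne this
  have hs' : Function.Surjective φ' := by
    intro j
    by_contra hcon
    push Not at hcon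
    have h0 : ∀ i, c i j = 0 := by
      intro i
      by_contra hne
      have hpos : 0 < c i j := lt_of_le_of_ne (c0 _ _) (Ne.symm hne)
      exact hcon ⟨(i, j), hpos⟩ rfl
    have := c2 j
    simp only [h0, Finset.sum_const_zero] at this
    exact (hA'.pos j).ne this
  haveI : Nonempty Λ := by
    obtain ⟨ℓ, _⟩ := hs (Classical.arbitrary ι)
    exact ⟨ℓ⟩
  have hπ1 : ∑ ℓ, π ℓ = 1 := by
    have := sum_support c c0 (fun _ _ => 1)
    simp only [mul_one, c1] at this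
    rw [hA.sum] at this
    exact this
  have hf : ∀ i, (∑ ℓ, if φ ℓ = i then π ℓ else 0) = m i := by
    intro i
    have := sum_support c c0 (fun i' _ => if i' = i then 1 else 0)
    simp only [mul_ite, mul_one, mul_zero] at this
    rw [← c1 i]
    refine this.trans ?_
    rw [Finset.sum_eq_single i]
    · simp
    · intro b _ hb
      simp [hb]
    · simp
  have hf' : ∀ j, (∑ ℓ, if φ' ℓ = j then π ℓ else 0) = m' j := by
    intro j
    have := sum_support c c0 (fun _ j' => if j' = j then 1 else 0)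
    simp only [mul_ite, mul_one, mul_zero] at this
    rw [← c2 j]
    refine this.trans ?_
    refine Finset.sum_congr rfl fun i _ => ?_
    rw [Finset.sum_eq_single j]
    · simp
    · intro b _ hb
      simp [hb]
    · simp
  have hcost : ∑ ℓ, π ℓ * ‖p' (φ' ℓ) - p (φ ℓ)‖ ^ 2 = ∑ i, ∑ j, c i j * ‖p i - p' j‖ ^ 2 := by
    have := sum_support c c0 (fun i j => ‖p i - p' j‖ ^ 2)
    rw [← this]
    refine Finset.sum_congr rfl fun ℓ _ => ?_
    rw [norm_sub_rev]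
  -- the sequence of perturbations
  have hB0 : 0 ≤ B := (abs_nonneg _).trans (hB 0)
  set ε : ℕ → ℝ := fun n => (1 / ((n : ℝ) + 1)) * (1 / (2 * B + 2)) with hε
  have hε0 : ∀ n, 0 < ε n := fun n => by
    simp only [hε]
    positivity
  have hε1 : ∀ n, ε n * B ≤ 1 / 2 := by
    intro n
    simp only [hε]
    have h1 : (1 / ((n : ℝ) + 1)) ≤ 1 := by
      rw [div_le_one (by positivity)]
      have : (0 : ℝ) ≤ n := Nat.cast_nonneg n
      linarith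
    have h2 : (1 / (2 * B + 2)) * B ≤ 1 / 2 := by
      rw [div_mul_eq_mul_div, div_le_iff₀ (by positivity)]
      linarith
    calc (1 / ((n : ℝ) + 1)) * (1 / (2 * B + 2)) * B = (1 / ((n : ℝ) + 1)) * ((1 / (2 * B + 2)) * B) := by
          ring
      _ ≤ 1 * (1 / 2) := mul_le_mul h1 h2 (by positivity) (by norm_num)
      _ = 1 / 2 := by norm_num
  have hεt : Filter.Tendsto ε Filter.atTop (nhds 0) := by
    have := (tendsto_one_div_add_atTop_nhds_zero_nat (𝕜 := ℝ)).mul_const (1 / (2 * B + 2))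
    simpa [hε] using this
  have hqi : Integrable q (rho K) := integrable_of_bound_on hK hq (fun x _ => hB x)
  have hsol : ∀ n, ∃ wn, IsSol K (fun x => 1 + ε n * q x) p' m' wn := by
    intro n
    have hg : Measurable fun x => ε n * q x := hq.const_mul _
    have hg1 : ∀ x ∈ K, |ε n * q x| ≤ 1 / 2 := fun x _ => by
      rw [abs_mul, abs_of_pos (hε0 n)]
      exact (mul_le_mul_of_nonneg_left (hB x) (hε0 n).le).trans (hε1 n)
    have hg0 : ∫ x, ε n * q x ∂(rho K) = 0 := by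
      rw [integral_const_mul, hq0, mul_zero]
    exact exists_sol hK (isDens_perturb hK hg hg1 hg0 (integrable_of_bound_on hK hg hg1)) hA'
  choose wn hwn using hsol
  have ht := tendsto_pot_perturb hK hA' hw' hq hB hq0 ε hεt hε0 hε1 wn hwn
  have e : ∀ (u : ι' → ℝ), ∫ x, (pot p' u x - pot p w x) * q x ∂(rho K) =
      (∫ x, pot p' u x * q x ∂(rho K)) - ∫ x, pot p w x * q x ∂(rho K) := by
    intro u
    rw [← integral_sub (integrable_pot_mul hK _ _ hq (fun x _ => hB x))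
      (integrable_pot_mul hK _ _ hq (fun x _ => hB x))]
    refine integral_congr_ae (ae_of_all _ fun x => ?_)
    simp only
    ring
  have hpl : ∀ n, (∫ x, pot p' (wn n) x * q x ∂(rho K)) - ∫ x, pot p w x * q x ∂(rho K) ≤
      100 * R * Real.sqrt (∑ i, ∑ j, c i j * ‖p i - p' j‖ ^ 2) * Real.sqrt (∫ x, q x ^ 2 ∂(rho K)) := by
    intro n
    have := g2_plan hK hR hKR hA hA' hw hπ hπ1 hs hs' hf hf' hq hB hq0 (hε0 n) (hε1 n) (hwn n)
    rw [hcost, e] at this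
    exact this
  rw [e]
  exact le_of_tendsto' (ht.sub_const _) hpl

end Crest.Agent.OT
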