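/-
S0109 project: stability of atomic Laguerre maps (piece STAB, see OTPLAN.md): assembly of G1 and G2.
-/
import Crest.Agent.OTG1
import Crest.Agent.OTG2

set_option autoImplicit false
open MeasureTheory Set
open scoped ENNReal RealInnerProductSpace

namespace Crest.Agent.OT

variable {d : ℕ} {K : Set (E d)}

theorem atomic_stability (hK : Body K) (L : ℝ) (hL : 0 ≤ L) :
    ∃ C : ℝ, 0 ≤ C ∧ ∀ {ι ι' : Type} [Fintype ι] [Nonempty ι] [DecidableEq ι] [Fintype ι'] [Nonempty ι']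
        [DecidableEq ι'] (T S : E d → E d) (p : ι → E d) (m w : ι → ℝ) (p' : ι' → E d) (m' w' : ι' → ℝ)
        (c : ι → ι' → ℝ),
      LagMap K T p m w → LagMap K S p' m' w' → (∀ i, ‖p i‖ ≤ L) → (∀ j, ‖p' j‖ ≤ L) →
      (∀ i j, 0 ≤ c i j) → (∀ i, ∑ j, c i j = m i) → (∀ j, ∑ i, c i j = m' j) →
      ∫ x, ‖T x - S x‖ ^ 2 ∂(rho K) ≤ C * (∑ i, ∑ j, c i j * ‖p i - p' j‖ ^ 2) ^ (1 / 3 : ℝ) := by
  obtain ⟨C₀, hC₀, hg1⟩ := g1 hK L hL
  obtain ⟨R₀, hR₀⟩ := hK.compact.isBounded.exists_norm_le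
  set R : ℝ := max R₀ 1 with hRdef
  have hR1 : 1 ≤ R := le_max_right _ _
  have hR : 0 < R := by linarith
  have hKR : ∀ x ∈ K, ‖x‖ ≤ R := fun x hx => (hR₀ x hx).trans (le_max_left _ _)
  refine ⟨C₀ * (100 * R) ^ (2 / 3 : ℝ), by positivity, ?_⟩
  intro ι ι' _ _ _ _ _ _ T S p m w p' m' w' c hT hS hp hp' c0 c1 c2
  set cost : ℝ := ∑ i, ∑ j, c i j * ‖p i - p' j‖ ^ 2 with hcost
  have hcost0 : 0 ≤ cost :=
    Finset.sum_nonneg fun i _ => Finset.sum_nonneg fun j _ => mul_nonneg (c0 i j) (by positivity)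
  have key := hg1 T S (pot p w) (pot p' w') (100 * R * Real.sqrt cost) hT.meas hS.meas
    (continuous_pot p w) (continuous_pot p' w')
    (fun x hx => by
      obtain ⟨i, -, hi⟩ := hT.sel x hx
      rw [hi]; exact hp i)
    (fun x hx => by
      obtain ⟨i, -, hi⟩ := hS.sel x hx
      rw [hi]; exact hp' i)
    (fun x hx z _ => by
      obtain ⟨i, hc, hi⟩ := hT.sel x hx
      rw [hi]; exact pot_ge hc z)
    (fun x hx z _ => by
      obtain ⟨i, hc, hi⟩ := hS.sel x hx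
      rw [hi]; exact pot_ge hc z)
    (by positivity)
    (fun q hq ⟨B, hB⟩ hq0 =>
      g2_atomic hK hR hKR hT.atoms hS.atoms hT.sol hS.sol c c0 c1 c2 hq hB hq0)
  refine key.trans (le_of_eq ?_)
  have h1 : 0 ≤ 100 * R := by positivity
  have h2 : (100 * R * Real.sqrt cost) ^ (2 / 3 : ℝ) = (100 * R) ^ (2 / 3 : ℝ) * cost ^ (1 / 3 : ℝ) := by
    rw [Real.mul_rpow h1 (Real.sqrt_nonneg _), Real.sqrt_eq_rpow, ← Real.rpow_mul hcost0]
    norm_num
  rw [h2, mul_assoc]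

end Crest.Agent.OT
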