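/-
S0109 project: approximation of general targets by atomic ones (piece APPROX steps 1-3, see OTPLAN.md).
-/
import Crest.Agent.OTStab
import Crest.Agent.OTExist
import Crest.Agent.OTYoung

set_option autoImplicit false
open MeasureTheory Set Filter Topology
open scoped ENNReal RealInnerProductSpace

namespace Crest.Agent.OT

open Crest.AnalysisR.OT

variable {d : ℕ} {K : Set (E d)}

/-- Measurable selection of an index among finitely many measurable sets. -/
lemma exists_measurable_choice {X ι : Type*} [MeasurableSpace X] [Fintype ι] [Nonempty ι]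
    (A : ι → Set X) (hA : ∀ i, MeasurableSet (A i)) :
    ∃ g : X → ι, (∀ i, MeasurableSet (g ⁻¹' {i})) ∧ ∀ x, (∃ i, x ∈ A i) → x ∈ A (g x) := by
  classical
  let i0 : ι := Classical.arbitrary ι
  let e : ι ≃ Fin (Fintype.card ι) := Fintype.equivFin ι
  let Sx : X → Finset ι := fun x => Finset.univ.filter fun i => x ∈ A i
  let g : X → ι := fun x =>
    if h : (Sx x).Nonempty then (Finset.exists_min_image (Sx x) e h).choose else i0
  have hg1 : ∀ x, (Sx x).Nonempty → g x ∈ Sx x ∧ ∀ j ∈ Sx x, e (g x) ≤ e j := by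
    intro x h
    simp only [g, dif_pos h]
    exact (Finset.exists_min_image (Sx x) e h).choose_spec
  have hg2 : ∀ x, ¬ (Sx x).Nonempty → g x = i0 := by
    intro x h
    simp only [g, h, dite_false]
  have hSx : ∀ x i, i ∈ Sx x ↔ x ∈ A i := fun x i => by simp [Sx]
  refine ⟨g, ?_, ?_⟩
  · intro i
    have : g ⁻¹' {i} = (A i ∩ ⋂ j, ((A j)ᶜ ∪ {_x | e i ≤ e j})) ∪
        ((⋂ j, (A j)ᶜ) ∩ {_x | i = i0}) := by
      ext x
      simp only [mem_preimage, mem_singleton_iff, mem_union, mem_inter_iff, mem_iInter, mem_compl_iff,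
        mem_setOf_eq]
      constructor
      · intro hx
        by_cases h : (Sx x).Nonempty
        · left
          obtain ⟨h1, h2⟩ := hg1 x h
          rw [hx] at h1 h2
          refine ⟨(hSx x i).1 h1, fun j => ?_⟩
          by_cases hj : x ∈ A j
          · right; exact h2 j ((hSx x j).2 hj)
          · left; exact hj
        · right
          rw [hg2 x h] at hx
          refine ⟨fun j hj => h ⟨j, (hSx x j).2 hj⟩, hx.symm⟩
      · rintro (⟨h1, h2⟩ | ⟨h1, h2⟩)
        · have hne : (Sx x).Nonempty := ⟨i, (hSx x i).2 h1⟩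
          obtain ⟨h3, h4⟩ := hg1 x hne
          have h5 := h4 i ((hSx x i).2 h1)
          have h6 : e i ≤ e (g x) := by
            rcases h2 (g x) with h7 | h7
            · exact absurd ((hSx x _).1 h3) h7
            · exact h7
          exact e.injective (le_antisymm h5 h6)
        · have hne : ¬ (Sx x).Nonempty := by
            rintro ⟨j, hj⟩
            exact h1 j ((hSx x j).1 hj)
          rw [hg2 x hne, h2]
    rw [this]
    refine MeasurableSet.union ((hA i).inter (MeasurableSet.iInter fun j => ?_))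
      ((MeasurableSet.iInter fun j => ?_).inter ?_)
    · exact (hA j).compl.union (MeasurableSet.const _)
    · exact (hA j).compl
    · exact MeasurableSet.const _
  · rintro x ⟨i, hi⟩
    exact (hSx x _).1 (hg1 x ⟨i, (hSx x i).2 hi⟩).1

/-- Finite measurable discretization of a compact set. -/
theorem exists_discretization {Y : Set (E d)} (hY : IsCompact Y) (hYn : Y.Nonempty) {η : ℝ} (hη : 0 < η) :
    ∃ (D : E d → E d) (F : Finset (E d)), Measurable D ∧ (∀ x, D x ∈ F) ∧ (∀ s ∈ F, s ∈ Y) ∧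
      ∀ y ∈ Y, ‖D y - y‖ ≤ η := by
  classical
  obtain ⟨y0, hy0⟩ := hYn
  obtain ⟨t, htY, htf, htc⟩ := hY.finite_cover_balls hη
  let F : Finset (E d) := insert y0 htf.toFinset
  haveI : Nonempty F := ⟨⟨y0, Finset.mem_insert_self _ _⟩⟩
  obtain ⟨g, hg, hg2⟩ := exists_measurable_choice (X := E d) (ι := F)
    (fun s => Metric.ball (s : E d) η) (fun s => measurableSet_ball)
  letI : MeasurableSpace F := ⊤
  have hgm : Measurable g := measurable_to_countable' hg
  refine ⟨fun x => (g x : E d), F, (measurable_from_top (f := fun s : F => (s : E d))).comp hgm,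
    fun x => (g x).2, ?_, ?_⟩
  · intro s hs
    rcases Finset.mem_insert.1 hs with rfl | hs
    · exact hy0
    · exact htY (htf.mem_toFinset.1 hs)
  · intro y hy
    obtain ⟨c, hc, hyc⟩ := mem_iUnion₂.1 (htc hy)
    have : y ∈ Metric.ball ((g y : F) : E d) η :=
      hg2 y ⟨⟨c, Finset.mem_insert_of_mem (htf.mem_toFinset.2 hc)⟩, hyc⟩
    have h2 := Metric.mem_ball.1 this
    rw [dist_comm, dist_eq_norm] at h2
    exact h2.le

/-- The atoms of `μ.map D`. -/
def atomsOf (μ : Measure (E d)) (D : E d → E d) (F : Finset (E d)) : Type :=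
  {s : E d // s ∈ F ∧ 0 < μ (D ⁻¹' {s})}

noncomputable instance (μ : Measure (E d)) (D : E d → E d) (F : Finset (E d)) : Fintype (atomsOf μ D F) := by
  classical
  unfold atomsOf
  haveI : Finite {s : E d // s ∈ F ∧ 0 < μ (D ⁻¹' {s})} :=
    Finite.of_injective (β := F) (fun s => ⟨s.1, s.2.1⟩) (by
      intro a b h
      simpa [Subtype.ext_iff] using h)
  exact Fintype.ofFinite _

noncomputable instance (μ : Measure (E d)) (D : E d → E d) (F : Finset (E d)) : DecidableEq (atomsOf μ D F) :=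
  Classical.decEq _

section atoms

variable {μ : Measure (E d)} {D : E d → E d} {F : Finset (E d)}

lemma sum_atomsOf {M : Type*} [AddCommMonoid M] (f : E d → M)
    (hf : ∀ s ∈ F, ¬ 0 < μ (D ⁻¹' {s}) → f s = 0) :
    ∑ s : atomsOf μ D F, f s.1 = ∑ s ∈ F, f s := by
  classical
  have h1 : ∑ s ∈ F.filter (fun s => 0 < μ (D ⁻¹' {s})), f s = ∑ s ∈ F, f s := by
    apply Finset.sum_filter_of_ne
    intro s hs hne
    by_contra hcon
    exact hne (hf s hs hcon)
  rw [← h1]
  exact (Finset.sum_subtype (p := fun s => s ∈ F ∧ 0 < μ (D ⁻¹' {s}))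
    (F.filter (fun s => 0 < μ (D ⁻¹' {s}))) (by simp) f).symm

lemma measure_eq_sum_fibers (hD : Measurable D) (hF : ∀ x, D x ∈ F) {A : Set (E d)}
    (hA : MeasurableSet A) : μ A = ∑ s ∈ F, μ (A ∩ D ⁻¹' {s}) := by
  classical
  rw [← measure_biUnion_finset]
  · congr 1
    ext x
    simp only [mem_iUnion, mem_inter_iff, mem_preimage, mem_singleton_iff, exists_and_left,
      exists_prop]
    constructor
    · intro hx
      exact ⟨hx, D x, hF x, rfl⟩
    · rintro ⟨hx, -⟩
      exact hx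
  · intro s _ s' _ hne
    refine Set.disjoint_left.2 ?_
    rintro x ⟨-, hx⟩ ⟨-, hx'⟩
    exact hne (hx.symm.trans hx')
  · intro s _
    exact hA.inter (hD (measurableSet_singleton s))

lemma sum_atoms_inter [IsFiniteMeasure μ] (hD : Measurable D) (hF : ∀ x, D x ∈ F) {A : Set (E d)}
    (hA : MeasurableSet A) :
    ∑ s : atomsOf μ D F, (μ (A ∩ D ⁻¹' {s.1})).toReal = (μ A).toReal := by
  rw [sum_atomsOf (μ := μ) (D := D) (F := F) (fun s => (μ (A ∩ D ⁻¹' {s})).toReal)]
  · rw [measure_eq_sum_fibers hD hF hA, ENNReal.toReal_sum]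
    exact fun s _ => measure_ne_top _ _
  · intro s _ hs
    have h0 : μ (D ⁻¹' {s}) = 0 := by simpa using hs
    have : μ (A ∩ D ⁻¹' {s}) = 0 := measure_mono_null inter_subset_right h0
    simp [this]

lemma map_eq_sum_dirac [IsFiniteMeasure μ] (hD : Measurable D) (hF : ∀ x, D x ∈ F) :
    μ.map D = ∑ s : atomsOf μ D F, ENNReal.ofReal (μ (D ⁻¹' {s.1})).toReal • Measure.dirac s.1 := by
  classical
  ext A hA
  rw [Measure.map_apply hD hA]
  simp only [Measure.coe_finsetSum, Finset.sum_apply, Measure.smul_apply, smul_eq_mul,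
    Measure.dirac_apply' _ hA]
  rw [sum_atomsOf (μ := μ) (D := D) (F := F)
    (fun s => ENNReal.ofReal (μ (D ⁻¹' {s})).toReal * A.indicator 1 s)]
  · rw [measure_eq_sum_fibers hD hF (hD hA)]
    refine Finset.sum_congr rfl fun s _ => ?_
    rw [ENNReal.ofReal_toReal (measure_ne_top _ _)]
    by_cases hs : s ∈ A
    · rw [Set.indicator_of_mem hs, Pi.one_apply, mul_one]
      congr 1
      ext x
      simp only [mem_inter_iff, mem_preimage, mem_singleton_iff]
      constructor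
      · rintro ⟨-, h⟩; exact h
      · intro h; exact ⟨h ▸ hs, h⟩
    · rw [Set.indicator_of_notMem hs, mul_zero]
      convert measure_empty (μ := μ)
      ext x
      simp only [mem_inter_iff, mem_preimage, mem_singleton_iff, mem_empty_iff_false, iff_false]
      rintro ⟨h1, h2⟩
      exact hs (h2 ▸ h1)
  · intro s _ hs
    have h0 : μ (D ⁻¹' {s}) = 0 := by simpa using hs
    simp [h0]

/-- The Laguerre map for the atoms of `μ.map D` pushes `ρ` to `μ.map D`. -/
lemma map_lag_eq [IsFiniteMeasure μ] (hK : Body K) (hD : Measurable D) (hF : ∀ x, D x ∈ F)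
    [Nonempty (atomsOf μ D F)] {T' : E d → E d} {w : atomsOf μ D F → ℝ}
    (hL : LagMap K T' (fun s : atomsOf μ D F => s.1) (fun s => (μ (D ⁻¹' {s.1})).toReal) w) :
    (rho K).map T' = μ.map D := by
  rw [hL.map_eq hK, map_eq_sum_dirac hD hF]

end atoms

section cost

variable {μ : Measure (E d)} {D D' : E d → E d} {F F' : Finset (E d)} {Y : Set (E d)}

/-- The natural coupling of two discretizations has small cost. -/
lemma cost_le (hμ : IsProbabilityOn Y μ) (hD : Measurable D) (hD' : Measurable D')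
    (hF' : ∀ x, D' x ∈ F') {η η' : ℝ} (hη : ∀ y ∈ Y, ‖D y - y‖ ≤ η)
    (hη' : ∀ y ∈ Y, ‖D' y - y‖ ≤ η')
    (hsum : ∑ s : atomsOf μ D F, (μ (D ⁻¹' {s.1})).toReal = 1) :
    ∑ s : atomsOf μ D F, ∑ s' : atomsOf μ D' F',
        (μ (D ⁻¹' {s.1} ∩ D' ⁻¹' {s'.1})).toReal * ‖s.1 - s'.1‖ ^ 2 ≤ (η + η') ^ 2 := by
  haveI := hμ.1
  have h1 : ∀ (s : atomsOf μ D F) (s' : atomsOf μ D' F'),
      (μ (D ⁻¹' {s.1} ∩ D' ⁻¹' {s'.1})).toReal * ‖s.1 - s'.1‖ ^ 2
        ≤ (μ (D ⁻¹' {s.1} ∩ D' ⁻¹' {s'.1})).toReal * (η + η') ^ 2 := by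
    intro s s'
    by_cases h0 : μ (D ⁻¹' {s.1} ∩ D' ⁻¹' {s'.1}) = 0
    · simp [h0]
    · refine mul_le_mul_of_nonneg_left ?_ ENNReal.toReal_nonneg
      have hne : ((D ⁻¹' {s.1} ∩ D' ⁻¹' {s'.1}) ∩ Y).Nonempty := by
        by_contra hcon
        rw [Set.not_nonempty_iff_eq_empty] at hcon
        apply h0
        refine measure_mono_null ?_ hμ.2
        intro x hx hxY
        have : x ∈ (D ⁻¹' {s.1} ∩ D' ⁻¹' {s'.1}) ∩ Y := ⟨hx, hxY⟩
        rw [hcon] at this
        exact this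
      obtain ⟨y, ⟨hy1, hy2⟩, hyY⟩ := hne
      have e1 : D y = s.1 := hy1
      have e2 : D' y = s'.1 := hy2
      have h2 : ‖s.1 - s'.1‖ ≤ η + η' := by
        rw [← e1, ← e2]
        calc ‖D y - D' y‖ = ‖(D y - y) - (D' y - y)‖ := by congr 1; abel
          _ ≤ ‖D y - y‖ + ‖D' y - y‖ := norm_sub_le _ _
          _ ≤ η + η' := add_le_add (hη y hyY) (hη' y hyY)
      exact pow_le_pow_left₀ (norm_nonneg _) h2 2
  calc _ ≤ ∑ s : atomsOf μ D F, ∑ s' : atomsOf μ D' F',
        (μ (D ⁻¹' {s.1} ∩ D' ⁻¹' {s'.1})).toReal * (η + η') ^ 2 :=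
        Finset.sum_le_sum fun s _ => Finset.sum_le_sum fun s' _ => h1 s s'
    _ = (∑ s : atomsOf μ D F, (μ (D ⁻¹' {s.1})).toReal) * (η + η') ^ 2 := by
        rw [Finset.sum_mul]
        refine Finset.sum_congr rfl fun s _ => ?_
        rw [← Finset.sum_mul, sum_atoms_inter hD' hF' (hD (measurableSet_singleton s.1))]
    _ = (η + η') ^ 2 := by rw [hsum, one_mul]

end cost

/-- All the atoms have norm at most `L`. -/
lemma lagBound {Y : Set (E d)} {L : ℝ} (hL : ∀ y ∈ Y, ‖y‖ ≤ L) {F : Finset (E d)}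
    (hFY : ∀ s ∈ F, s ∈ Y) {μ : Measure (E d)} {D : E d → E d} (s : atomsOf μ D F) : ‖s.1‖ ≤ L :=
  hL _ (hFY _ s.2.1)

/-- Step 1: the Cauchy estimate. -/
theorem lag_cauchy_bound (hK : Body K) {Y : Set (E d)} (hY : IsCompact Y) :
    ∃ C : ℝ, 0 ≤ C ∧ ∀ {μ : Measure (E d)} (_ : IsProbabilityOn Y μ) (D D' : E d → E d)
      (F F' : Finset (E d)) (η η' : ℝ) (_ : Measurable D) (_ : Measurable D')
      (_ : ∀ x, D x ∈ F) (_ : ∀ x, D' x ∈ F') (_ : ∀ s ∈ F, s ∈ Y) (_ : ∀ s ∈ F', s ∈ Y)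
      (_ : ∀ y ∈ Y, ‖D y - y‖ ≤ η) (_ : ∀ y ∈ Y, ‖D' y - y‖ ≤ η')
      (T T' : E d → E d) (w : atomsOf μ D F → ℝ) (w' : atomsOf μ D' F' → ℝ)
      [Nonempty (atomsOf μ D F)] [Nonempty (atomsOf μ D' F')]
      (_ : LagMap K T (fun s : atomsOf μ D F => s.1) (fun s => (μ (D ⁻¹' {s.1})).toReal) w)
      (_ : LagMap K T' (fun s : atomsOf μ D' F' => s.1) (fun s => (μ (D' ⁻¹' {s.1})).toReal) w'),
      ∫ x, ‖T x - T' x‖ ^ 2 ∂(rho K) ≤ C * ((η + η') ^ 2) ^ (1 / 3 : ℝ) := by
  obtain ⟨L0, hL0⟩ := hY.isBounded.exists_norm_le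
  set L : ℝ := max L0 0 with hLdef
  have hL : 0 ≤ L := le_max_right _ _
  have hLY : ∀ y ∈ Y, ‖y‖ ≤ L := fun y hy => (hL0 y hy).trans (le_max_left _ _)
  obtain ⟨C, hC0, hC⟩ := atomic_stability hK L hL
  refine ⟨C, hC0, ?_⟩
  intro μ hμ D D' F F' η η' hD hD' hF hF' hFY hFY' hη hη' T T' w w' _ _ hT hT'
  haveI := hμ.1
  have hb := hC T T' (fun s : atomsOf μ D F => s.1) (fun s => (μ (D ⁻¹' {s.1})).toReal) w
    (fun s : atomsOf μ D' F' => s.1) (fun s => (μ (D' ⁻¹' {s.1})).toReal) w'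
    (fun s s' => (μ (D ⁻¹' {s.1} ∩ D' ⁻¹' {s'.1})).toReal) hT hT'
    (fun s => lagBound hLY hFY s) (fun s => lagBound hLY hFY' s)
    (fun _ _ => ENNReal.toReal_nonneg)
    (fun s => sum_atoms_inter hD' hF' (hD (measurableSet_singleton s.1)))
    (fun s' => by
      simp_rw [inter_comm (D ⁻¹' {_})]
      exact sum_atoms_inter hD hF (hD' (measurableSet_singleton s'.1)))
  refine hb.trans (mul_le_mul_of_nonneg_left ?_ hC0)
  refine Real.rpow_le_rpow (Finset.sum_nonneg fun s _ => Finset.sum_nonneg fun s' _ =>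
    mul_nonneg ENNReal.toReal_nonneg (by positivity)) ?_ (by norm_num)
  exact cost_le hμ hD hD' hF' hη hη' hT.atoms.sum

/-- Norm in `L²` as an integral. -/
lemma norm_toLp_sq {ρ : Measure (E d)} {f : E d → E d} (hf : MemLp f 2 ρ) :
    ‖hf.toLp f‖ ^ 2 = ∫ x, ‖f x‖ ^ 2 ∂ρ := by
  rw [Lp.norm_toLp, hf.eLpNorm_eq_integral_rpow_norm (by norm_num) (by norm_num)]
  have h0 : 0 ≤ ∫ x, ‖f x‖ ^ (ENNReal.toReal 2) ∂ρ :=
    integral_nonneg fun x => by positivity
  rw [ENNReal.toReal_ofReal (by positivity), ← Real.rpow_natCast, ← Real.rpow_mul h0]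
  simp

/-- Bounded map with values a.e. in `Y`. -/
lemma ae_mem_of_map {ρ : Measure (E d)} {μ : Measure (E d)} {Y : Set (E d)} (hY : IsCompact Y)
    (hμ : IsProbabilityOn Y μ) {S : E d → E d} (hS : Measurable S) (hm : ρ.map S = μ) :
    ∀ᵐ x ∂ρ, S x ∈ Y := by
  have h1 : ρ (S ⁻¹' Yᶜ) = 0 := by
    rw [← Measure.map_apply hS hY.measurableSet.compl, hm]
    exact hμ.2
  exact measure_eq_zero_iff_ae_notMem.1 h1 |>.mono fun x hx => by simpa using hx

/-- Step 3: the correlation inequality from optimality. -/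
lemma corr_le_of_optimal (hK : Body K) {Y : Set (E d)} (hY : IsCompact Y) {μ : Measure (E d)}
    (hμ : IsProbabilityOn Y μ) {T S : E d → E d} (hT : IsOptimalMap (rho K) μ T)
    (hS : Measurable S) (hSm : (rho K).map S = μ) :
    ∫ x, ⟪x, S x⟫ ∂(rho K) ≤ ∫ x, ⟪x, T x⟫ ∂(rho K) := by
  haveI := rho_isProb hK
  obtain ⟨R, hR0, hR⟩ := exists_bound_K hK
  obtain ⟨L0, hL0⟩ := hY.isBounded.exists_norm_le
  set L : ℝ := max L0 0 with hLdef
  have hL : 0 ≤ L := le_max_right _ _
  have hLY : ∀ y ∈ Y, ‖y‖ ≤ L := fun y hy => (hL0 y hy).trans (le_max_left _ _)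
  have hae := rho_ae_mem hK
  -- general facts for a competitor
  have gen : ∀ U : E d → E d, Measurable U → (rho K).map U = μ →
      Integrable (fun x => ⟪x, U x⟫) (rho K) ∧ Integrable (fun x => ‖U x‖ ^ 2) (rho K) ∧
      Integrable (fun x => ‖x‖ ^ 2) (rho K) ∧ Integrable (fun x => ‖x - U x‖ ^ 2) (rho K) ∧
      (∫⁻ x, ‖x - U x‖ₑ ^ 2 ∂(rho K) = ENNReal.ofReal (∫ x, ‖x - U x‖ ^ 2 ∂(rho K))) ∧
      (∫ x, ‖x - U x‖ ^ 2 ∂(rho K) = ∫ x, ‖x‖ ^ 2 ∂(rho K) - 2 * ∫ x, ⟪x, U x⟫ ∂(rho K)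
        + ∫ x, ‖U x‖ ^ 2 ∂(rho K)) ∧
      (∫ x, ‖U x‖ ^ 2 ∂(rho K) = ∫ y, ‖y‖ ^ 2 ∂μ) := by
    intro U hU hUm
    have hr := ae_mem_of_map hY hμ hU hUm
    have i1 : Integrable (fun x => ⟪x, U x⟫) (rho K) := by
      refine integrable_of_bdd hK (C := R * L) (measurable_id.inner hU) ?_
      filter_upwards [hae, hr] with x hx hxY
      exact (abs_real_inner_le_norm _ _).trans (mul_le_mul (hR x hx) (hLY _ hxY) (norm_nonneg _) hR0)
    have i2 : Integrable (fun x => ‖U x‖ ^ 2) (rho K) := by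
      refine integrable_of_bdd hK (C := L ^ 2) (hU.norm.pow_const 2) ?_
      filter_upwards [hr] with x hxY
      rw [abs_of_nonneg (by positivity)]
      exact pow_le_pow_left₀ (norm_nonneg _) (hLY _ hxY) 2
    have i3 : Integrable (fun x => ‖x‖ ^ 2) (rho K) := by
      refine integrable_of_bdd hK (C := R ^ 2) (measurable_id.norm.pow_const 2) ?_
      filter_upwards [hae] with x hx
      rw [abs_of_nonneg (by positivity)]
      exact pow_le_pow_left₀ (norm_nonneg _) (hR x hx) 2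
    have i4 : Integrable (fun x => ‖x - U x‖ ^ 2) (rho K) := by
      refine integrable_of_bdd hK (C := (R + L) ^ 2) ((measurable_id.sub hU).norm.pow_const 2) ?_
      filter_upwards [hae, hr] with x hx hxY
      rw [abs_of_nonneg (by positivity)]
      exact pow_le_pow_left₀ (norm_nonneg _)
        ((norm_sub_le _ _).trans (add_le_add (hR x hx) (hLY _ hxY))) 2
    refine ⟨i1, i2, i3, i4, ?_, ?_, ?_⟩
    · rw [ofReal_integral_eq_lintegral_ofReal i4 (ae_of_all _ fun x => by positivity)]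
      refine lintegral_congr fun x => ?_
      rw [ENNReal.ofReal_pow (norm_nonneg _), ofReal_norm_eq_enorm]
    · have e : (fun x => ‖x - U x‖ ^ 2) = fun x => ‖x‖ ^ 2 - 2 * ⟪x, U x⟫ + ‖U x‖ ^ 2 := by
        funext x
        rw [norm_sub_sq_real]
      rw [e]
      have j1 := integral_add (i3.sub (i1.const_mul 2)) i2
      have j2 := integral_sub i3 (i1.const_mul 2)
      have j3 := integral_const_mul (μ := rho K) 2 (fun x => ⟪x, U x⟫)
      simp only [Pi.sub_apply] at j1
      rw [j1, j2, j3]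
    · rw [← hUm, integral_map hU.aemeasurable]
      exact (measurable_id.norm.pow_const 2).aestronglyMeasurable
  obtain ⟨_, _, _, iT, lT, eT, mT⟩ := gen T hT.1 hT.2.1
  obtain ⟨_, _, _, iS, lS, eS, mS⟩ := gen S hS hSm
  have h1 := hT.2.2 S hS hSm
  rw [lT, lS] at h1
  have h2 : ∫ x, ‖x - T x‖ ^ 2 ∂(rho K) ≤ ∫ x, ‖x - S x‖ ^ 2 ∂(rho K) :=
    (ENNReal.ofReal_le_ofReal_iff (integral_nonneg fun x => by positivity)).1 h1
  rw [eT, eS, mT, mS] at h2
  linarith

/-- Steps 1-3 of APPROX: the atomic Laguerre maps converge in `L²` to a map `That` pushing `ρ` to `μ`,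
and the correlation of `That` is at most that of any optimal map. -/
theorem exists_limit_map (hK : Body K) {Y : Set (E d)} (hY : IsCompact Y) {μ : Measure (E d)}
    {T : E d → E d} (hμ : IsProbabilityOn Y μ) (hT : IsOptimalMap (rho K) μ T)
    (D : ℕ → E d → E d) (F : ℕ → Finset (E d)) (η : ℕ → ℝ)
    (hD : ∀ n, Measurable (D n)) (hF : ∀ n x, D n x ∈ F n) (hFY : ∀ n, ∀ s ∈ F n, s ∈ Y)
    (hη : ∀ n, ∀ y ∈ Y, ‖D n y - y‖ ≤ η n) (hη0 : Tendsto η atTop (𝓝 0))
    (T' : ℕ → E d → E d) (w : ∀ n, atomsOf μ (D n) (F n) → ℝ)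
    [∀ n, Nonempty (atomsOf μ (D n) (F n))]
    (hL : ∀ n, LagMap K (T' n) (fun s : atomsOf μ (D n) (F n) => s.1)
      (fun s => (μ (D n ⁻¹' {s.1})).toReal) (w n)) :
    ∃ That : E d → E d, Measurable That ∧ (rho K).map That = μ ∧
      Tendsto (fun n => ∫ x, ‖T' n x - That x‖ ^ 2 ∂(rho K)) atTop (𝓝 0) ∧
      ∫ x, ⟪x, That x⟫ ∂(rho K) ≤ ∫ x, ⟪x, T x⟫ ∂(rho K) := by
  classical
  haveI := rho_isProb hK
  haveI := hμ.1
  obtain ⟨C, hC0, hC⟩ := lag_cauchy_bound hK hY
  obtain ⟨L0, hL0⟩ := hY.isBounded.exists_norm_le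
  set L : ℝ := max L0 0 with hLdef
  have hLY : ∀ y ∈ Y, ‖y‖ ≤ L := fun y hy => (hL0 y hy).trans (le_max_left _ _)
  -- `L²` representatives
  have hm : ∀ n, MemLp (T' n) 2 (rho K) := by
    intro n
    refine MemLp.of_bound (hL n).meas.aestronglyMeasurable L ?_
    filter_upwards [rho_ae_mem hK] with x hx
    obtain ⟨i, -, hi⟩ := (hL n).sel x hx
    rw [hi]
    exact lagBound hLY (hFY n) i
  let u : ℕ → Lp (E d) 2 (rho K) := fun n => (hm n).toLp (T' n)
  have hdist : ∀ n k, ‖u n - u k‖ ^ 2 = ∫ x, ‖T' n x - T' k x‖ ^ 2 ∂(rho K) := by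
    intro n k
    have := norm_toLp_sq ((hm n).sub (hm k))
    rw [MemLp.toLp_sub (hm n) (hm k)] at this
    simpa using this
  have hcau : CauchySeq u := by
    rw [cauchySeq_iff_tendsto_dist_atTop_0]
    have hη1 : Tendsto (fun p : ℕ × ℕ => η p.1 + η p.2) atTop (𝓝 0) := by
      have hfst : Tendsto (fun p : ℕ × ℕ => p.1) atTop atTop := by
        rw [← prod_atTop_atTop_eq]; exact tendsto_fst
      have hsnd : Tendsto (fun p : ℕ × ℕ => p.2) atTop atTop := by
        rw [← prod_atTop_atTop_eq]; exact tendsto_snd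
      have h1 : Tendsto (fun p : ℕ × ℕ => η p.1) atTop (𝓝 0) := hη0.comp hfst
      have h2 : Tendsto (fun p : ℕ × ℕ => η p.2) atTop (𝓝 0) := hη0.comp hsnd
      simpa using h1.add h2
    have hη2 : Tendsto (fun p : ℕ × ℕ => Real.sqrt (C * ((η p.1 + η p.2) ^ 2) ^ (1 / 3 : ℝ)))
        atTop (𝓝 0) := by
      have h3 : Continuous fun a : ℝ => Real.sqrt (C * (a ^ 2) ^ (1 / 3 : ℝ)) := by
        refine Real.continuous_sqrt.comp (continuous_const.mul ?_)
        exact (continuous_pow 2).rpow_const fun _ => Or.inr (by norm_num)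
      have h4 := (h3.tendsto 0).comp hη1
      have h5 : Real.sqrt (C * ((0 : ℝ) ^ 2) ^ (1 / 3 : ℝ)) = 0 := by
        have : ((0 : ℝ) ^ 2) ^ (1 / 3 : ℝ) = 0 := by
          rw [show ((0 : ℝ) ^ 2) = 0 by norm_num]
          exact Real.zero_rpow (by norm_num)
        rw [this]; simp
      rw [h5] at h4
      exact h4
    refine squeeze_zero (fun _ => dist_nonneg) (fun p => ?_) hη2
    rw [dist_eq_norm]
    apply Real.le_sqrt_of_sq_le
    rw [hdist]
    exact hC hμ (D p.1) (D p.2) (F p.1) (F p.2) (η p.1) (η p.2) (hD _) (hD _) (hF _) (hF _)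
      (hFY _) (hFY _) (hη _) (hη _) (T' p.1) (T' p.2) (w p.1) (w p.2) (hL p.1) (hL p.2)
  obtain ⟨v, hv⟩ := cauchySeq_tendsto_of_complete hcau
  let That : E d → E d := v
  have hThatm : Measurable That := (Lp.stronglyMeasurable v).measurable
  have hThatL : MemLp That 2 (rho K) := Lp.memLp v
  have hvL : hThatL.toLp That = v := Lp.toLp_coeFn v hThatL
  have hdist2 : ∀ n, ‖u n - v‖ ^ 2 = ∫ x, ‖T' n x - That x‖ ^ 2 ∂(rho K) := by
    intro n
    have := norm_toLp_sq ((hm n).sub hThatL)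
    rw [MemLp.toLp_sub (hm n) hThatL, hvL] at this
    simpa using this
  have hlim2 : Tendsto (fun n => ∫ x, ‖T' n x - That x‖ ^ 2 ∂(rho K)) atTop (𝓝 0) := by
    simp_rw [← hdist2]
    have h1 : Tendsto (fun n => ‖u n - v‖) atTop (𝓝 0) := by
      have := tendsto_iff_norm_sub_tendsto_zero.1 hv
      exact this
    simpa using h1.pow 2
  -- a.e. convergent subsequence
  have hmeas : TendstoInMeasure (rho K) (fun n => (u n : E d → E d)) atTop That :=
    tendstoInMeasure_of_tendsto_Lp hv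
  obtain ⟨ns, hns, hnsae⟩ := hmeas.exists_seq_tendsto_ae
  have hae : ∀ᵐ x ∂(rho K), Tendsto (fun i => T' (ns i) x) atTop (𝓝 (That x)) := by
    have h1 : ∀ᵐ x ∂(rho K), ∀ n, (u n : E d → E d) x = T' n x :=
      ae_all_iff.2 fun n => (hm n).coeFn_toLp
    filter_upwards [h1, hnsae] with x hx1 hx2
    simp_rw [← hx1]
    exact hx2
  -- pushforward
  have hmap : (rho K).map That = μ := by
    haveI : IsProbabilityMeasure ((rho K).map That) :=
      Measure.isProbabilityMeasure_map hThatm.aemeasurable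
    apply ext_of_forall_integral_eq_of_IsFiniteMeasure
    intro h
    rw [integral_map hThatm.aemeasurable h.continuous.aestronglyMeasurable]
    have hlimL : Tendsto (fun i => ∫ x, h (T' (ns i) x) ∂(rho K)) atTop (𝓝 (∫ x, h (That x) ∂(rho K))) := by
      refine tendsto_integral_of_dominated_convergence (fun _ => ‖h‖) (fun i => ?_)
        (integrable_const _) (fun i => ae_of_all _ fun x => h.norm_coe_le_norm _) ?_
      · exact (h.continuous.measurable.comp (hL _).meas).aestronglyMeasurable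
      · filter_upwards [hae] with x hx
        exact (h.continuous.tendsto _).comp hx
    have hlimR : Tendsto (fun i => ∫ x, h (T' (ns i) x) ∂(rho K)) atTop (𝓝 (∫ y, h y ∂μ)) := by
      have heq : ∀ n, ∫ x, h (T' n x) ∂(rho K) = ∫ y, h (D n y) ∂μ := by
        intro n
        have h1 := map_lag_eq hK (hD n) (hF n) (hL n)
        rw [← integral_map (hL n).meas.aemeasurable h.continuous.aestronglyMeasurable, h1,
          integral_map (hD n).aemeasurable h.continuous.aestronglyMeasurable]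
      have hlim3 : Tendsto (fun n => ∫ y, h (D n y) ∂μ) atTop (𝓝 (∫ y, h y ∂μ)) := by
        refine tendsto_integral_of_dominated_convergence (fun _ => ‖h‖) (fun n => ?_)
          (integrable_const _) (fun n => ae_of_all _ fun x => h.norm_coe_le_norm _) ?_
        · exact (h.continuous.measurable.comp (hD n)).aestronglyMeasurable
        · have hYae : ∀ᵐ y ∂μ, y ∈ Y :=
            measure_eq_zero_iff_ae_notMem.1 hμ.2 |>.mono fun x hx => by simpa using hx
          filter_upwards [hYae] with y hy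
          refine (h.continuous.tendsto y).comp ?_
          rw [tendsto_iff_norm_sub_tendsto_zero]
          exact squeeze_zero (fun _ => norm_nonneg _) (fun n => hη n y hy) hη0
      have h4 := (hlim3.comp hns.tendsto_atTop)
      simp_rw [heq]
      exact h4
    exact tendsto_nhds_unique hlimL hlimR
  exact ⟨That, hThatm, hmap, hlim2, corr_le_of_optimal hK hY hμ hT hThatm hmap⟩

end Crest.Agent.OT
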