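/-
S0109 project: approximation of general targets by atomic ones (piece APPROX, see OTPLAN.md).
-/
import Crest.Agent.OTApprox1

set_option autoImplicit false
open MeasureTheory Set Filter Topology
open scoped ENNReal RealInnerProductSpace

namespace Crest.Agent.OT

open Crest.AnalysisR.OT

variable {d : ℕ} {K : Set (E d)}

/-- Cauchy-Schwarz on a probability space. -/
lemma integral_le_sqrt_sq {ρ : Measure (E d)} [IsProbabilityMeasure ρ] {f : E d → ℝ}
    (h1 : Integrable f ρ) (h2 : Integrable (fun x => f x ^ 2) ρ) :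
    ∫ x, f x ∂ρ ≤ Real.sqrt (∫ x, f x ^ 2 ∂ρ) := by
  set c : ℝ := ∫ x, f x ∂ρ with hc
  apply Real.le_sqrt_of_sq_le
  have h0 : 0 ≤ ∫ x, (f x - c) ^ 2 ∂ρ := integral_nonneg fun x => by positivity
  have e : (fun x => (f x - c) ^ 2) = fun x => f x ^ 2 - 2 * c * f x + c ^ 2 := by
    funext x; ring
  rw [e] at h0
  have i1 := integral_add (μ := ρ) (f := fun x => f x ^ 2 - 2 * c * f x) (g := fun _ => c ^ 2)
    (h2.sub (h1.const_mul (2 * c))) (integrable_const _)
  have i2 := integral_sub (μ := ρ) (f := fun x => f x ^ 2) (g := fun x => 2 * c * f x)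
    h2 (h1.const_mul (2 * c))
  rw [i1, i2, integral_const_mul, ← hc] at h0
  simp only [integral_const, probReal_univ, smul_eq_mul, one_mul] at h0
  nlinarith

/-- One step of the approximation: the `L¹` distance from an atomic Laguerre map to `T` is controlled
by the correlation gap. -/
lemma lag_step (hK : Body K) {Y : Set (E d)} (hY : IsCompact Y) {μ : Measure (E d)}
    {T : E d → E d} (hμ : IsProbabilityOn Y μ) (hTm : Measurable T) (hTμ : (rho K).map T = μ)
    {L : ℝ} (hL0 : 0 ≤ L) (hLY : ∀ y ∈ Y, ‖y‖ ≤ L) {C : ℝ} (hC0 : 0 ≤ C)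
    (hC : ∀ (T a : E d → E d) (φ β : E d → ℝ),
      Measurable T → Measurable a → Measurable β → Continuous φ →
      (∀ x ∈ K, ‖T x‖ ≤ L) → (∀ x ∈ K, ‖a x‖ ≤ L) →
      (∀ x ∈ K, ∀ z ∈ K, φ x + ⟪z - x, T x⟫ ≤ φ z) →
      (∀ x ∈ K, ∀ z ∈ K, ⟪z, a x⟫ - β x ≤ φ z) →
      Integrable β (rho K) →
      ∫ x, ‖a x - T x‖ ∂(rho K)
        ≤ C * Real.sqrt (∫ x, (φ x + β x - ⟪x, a x⟫) ∂(rho K)))
    {R : ℝ} (hR0 : 0 ≤ R) (hR : ∀ x ∈ K, ‖x‖ ≤ R)
    {D : E d → E d} {F : Finset (E d)} {η : ℝ} (hD : Measurable D) (hF : ∀ x, D x ∈ F)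
    (hFY : ∀ s ∈ F, s ∈ Y) (hη : ∀ y ∈ Y, ‖D y - y‖ ≤ η)
    {T' : E d → E d} {w : atomsOf μ D F → ℝ} [Nonempty (atomsOf μ D F)]
    (hL : LagMap K T' (fun s : atomsOf μ D F => s.1) (fun s => (μ (D ⁻¹' {s.1})).toReal) w) :
    ∫ x, ‖T' x - T x‖ ∂(rho K) ≤
      C * Real.sqrt (∫ x, ⟪x, T' x⟫ ∂(rho K) - ∫ x, ⟪x, T x⟫ ∂(rho K) + R * η) + η := by
  classical
  have hprob := rho_isProb hK
  have hμ1 := hμ.1
  set p : atomsOf μ D F → E d := fun s => s.1 with hp
  set m : atomsOf μ D F → ℝ := fun s => (μ (D ⁻¹' {s.1})).toReal with hm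
  have hinj : Function.Injective p := hL.atoms.inj
  let s0 : atomsOf μ D F := Classical.arbitrary _
  let S : Finset (E d) := F.filter (fun s => 0 < μ (D ⁻¹' {s}))
  let A : E d → E d := fun y => if y ∈ S then y else s0.1
  have hA : Measurable A :=
    Measurable.ite (by simpa using S.measurableSet) measurable_id measurable_const
  let a : E d → E d := fun x => A (D (T x))
  have ha : Measurable a := hA.comp (hD.comp hTm)
  have hrange : ∀ x, ∃ i, a x = p i := by
    intro x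
    by_cases h : D (T x) ∈ S
    · refine ⟨⟨D (T x), Finset.mem_filter.1 h⟩, ?_⟩
      simp only [a, A, if_pos h, hp]
    · refine ⟨s0, ?_⟩
      simp only [a, A, if_neg h, hp]
  have hgoodμ : ∀ᵐ y ∂μ, D y ∈ S := by
    have h0 : μ (⋃ s ∈ ((F.filter (fun s => ¬ 0 < μ (D ⁻¹' {s})) : Finset (E d)) : Set (E d)),
        D ⁻¹' {s}) = 0 := by
      rw [measure_biUnion_null_iff (Finset.countable_toSet _)]
      intro s hs
      have hs' := (Finset.mem_filter.1 (Finset.mem_coe.1 hs)).2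
      simpa using hs'
    rw [ae_iff]
    refine measure_mono_null ?_ h0
    intro y hy
    simp only [mem_iUnion, mem_preimage, mem_singleton_iff, exists_prop]
    refine ⟨D y, Finset.mem_coe.2 (Finset.mem_filter.2 ⟨hF y, ?_⟩), rfl⟩
    intro hpos
    exact hy (Finset.mem_filter.2 ⟨hF y, hpos⟩)
  have hgood : ∀ᵐ x ∂(rho K), D (T x) ∈ S :=
    ae_of_ae_map hTm.aemeasurable (by rw [hTμ]; exact hgoodμ)
  have haDT : ∀ᵐ x ∂(rho K), a x = D (T x) := by
    filter_upwards [hgood] with x hx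
    simp only [a, A, if_pos hx]
  have hTY : ∀ᵐ x ∂(rho K), T x ∈ Y := ae_mem_of_map hY hμ hTm hTμ
  have hae := rho_ae_mem hK
  -- push-forwards
  have hmap : (rho K).map a = (rho K).map T' := by
    have e1 : (rho K).map a = (rho K).map (D ∘ T) := Measure.map_congr haDT
    rw [e1, ← Measure.map_map hD hTm, hTμ, map_lag_eq hK hD hF hL]
  have hra : ∀ᵐ x ∂(rho K), ∃ i, a x = p i := ae_of_all _ hrange
  have hrT' := hL.ae_range' hK
  obtain ⟨a1, -, a3, -, -⟩ := moment_bounds (w := w) hK ha hra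
  obtain ⟨t1, -, t3, -, -⟩ := moment_bounds (w := w) hK hL.meas hrT'
  have hpot := integrable_pot hK p w
  have hwt := integral_eq_of_map_eq ha hL.meas hmap (measurable_ywt (p := p) (w := w))
  have hT'wt : ∫ x, (pot p w x + ywt p w (T' x) - ⟪x, T' x⟫) ∂(rho K) = 0 := by
    have : (fun x => pot p w x + ywt p w (T' x) - ⟪x, T' x⟫) =ᵐ[rho K] fun _ => 0 := by
      filter_upwards [hL.ae_range hK] with x hx
      obtain ⟨i, hxi, hi⟩ := hx
      rw [hi, ywt_apply hinj, pot_eq_aff hxi]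
      unfold aff
      ring
    rw [integral_congr_ae this]
    simp
  have hsplit : ∀ S' : E d → E d, Integrable (fun x => ywt p w (S' x)) (rho K) →
      Integrable (fun x => ⟪x, S' x⟫) (rho K) →
      ∫ x, (pot p w x + ywt p w (S' x) - ⟪x, S' x⟫) ∂(rho K) =
        ∫ x, pot p w x ∂(rho K) + ∫ x, ywt p w (S' x) ∂(rho K) - ∫ x, ⟪x, S' x⟫ ∂(rho K) := by
    intro S' h1 h2
    have e1 := integral_sub (μ := rho K) (f := fun x => pot p w x + ywt p w (S' x))
      (g := fun x => ⟪x, S' x⟫) (hpot.add h1) h2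
    have e2 := integral_add (μ := rho K) (f := fun x => pot p w x)
      (g := fun x => ywt p w (S' x)) hpot h1
    rw [e1, e2]
  have hΓ : ∫ x, (pot p w x + ywt p w (a x) - ⟪x, a x⟫) ∂(rho K) =
      ∫ x, ⟪x, T' x⟫ ∂(rho K) - ∫ x, ⟪x, a x⟫ ∂(rho K) := by
    rw [hsplit a a3 a1]
    have := hsplit T' t3 t1
    rw [hT'wt] at this
    rw [hwt]
    linarith
  -- claim A
  have hT'L : ∀ x ∈ K, ‖T' x‖ ≤ L := by
    intro x hx
    obtain ⟨i, -, hi⟩ := hL.sel x hx
    rw [hi]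
    exact lagBound hLY hFY i
  have haL : ∀ x, ‖a x‖ ≤ L := by
    intro x
    obtain ⟨i, hi⟩ := hrange x
    rw [hi]
    exact lagBound hLY hFY i
  have hclaim := hC T' a (pot p w) (fun x => ywt p w (a x)) hL.meas ha (measurable_ywt.comp ha)
    (continuous_pot p w) hT'L (fun x _ => haL x)
    (fun x hx z _ => by
      obtain ⟨i, hic, hi⟩ := hL.sel x hx
      rw [hi]
      exact pot_ge hic z)
    (fun x _ z _ => by
      obtain ⟨i, hi⟩ := hrange x
      rw [hi, ywt_apply hinj]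
      exact aff_le_pot p w i z)
    a3
  rw [hΓ] at hclaim
  -- comparison of `a` and `T`
  have hclose : ∀ᵐ x ∂(rho K), ‖a x - T x‖ ≤ η := by
    filter_upwards [haDT, hTY] with x h1 h2
    rw [h1]
    exact hη _ h2
  have hTnorm : ∀ᵐ x ∂(rho K), ‖T x‖ ≤ L := by
    filter_upwards [hTY] with x h
    exact hLY _ h
  have hT1 : Integrable (fun x => ⟪x, T x⟫) (rho K) := by
    refine integrable_of_bdd hK (C := R * L) (measurable_id.inner hTm) ?_
    filter_upwards [hae, hTnorm] with x hx h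
    exact (abs_real_inner_le_norm _ _).trans (mul_le_mul (hR x hx) h (norm_nonneg _) hR0)
  have hcorr : ∫ x, ⟪x, T x⟫ ∂(rho K) ≤ ∫ x, ⟪x, a x⟫ ∂(rho K) + R * η := by
    have h1 : ∫ x, ⟪x, T x⟫ ∂(rho K) ≤ ∫ x, (⟪x, a x⟫ + R * η) ∂(rho K) := by
      refine integral_mono_ae hT1 (a1.add (integrable_const _)) ?_
      filter_upwards [hae, hclose] with x hx h
      have h2 : ⟪x, T x⟫ - ⟪x, a x⟫ = ⟪x, T x - a x⟫ := (inner_sub_right _ _ _).symm
      have h3 : ⟪x, T x - a x⟫ ≤ ‖x‖ * ‖T x - a x‖ := real_inner_le_norm _ _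
      have h4 : ‖T x - a x‖ ≤ η := by rw [norm_sub_rev]; exact h
      have h5 : ‖x‖ * ‖T x - a x‖ ≤ R * η :=
        mul_le_mul (hR x hx) h4 (norm_nonneg _) hR0
      linarith
    rw [integral_add a1 (integrable_const _)] at h1
    simpa using h1
  have hsq : Real.sqrt (∫ x, ⟪x, T' x⟫ ∂(rho K) - ∫ x, ⟪x, a x⟫ ∂(rho K)) ≤
      Real.sqrt (∫ x, ⟪x, T' x⟫ ∂(rho K) - ∫ x, ⟪x, T x⟫ ∂(rho K) + R * η) :=
    Real.sqrt_le_sqrt (by linarith)
  have hfinal1 : ∫ x, ‖a x - T' x‖ ∂(rho K) ≤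
      C * Real.sqrt (∫ x, ⟪x, T' x⟫ ∂(rho K) - ∫ x, ⟪x, T x⟫ ∂(rho K) + R * η) :=
    hclaim.trans (mul_le_mul_of_nonneg_left hsq hC0)
  -- triangle inequality
  have hi1 : Integrable (fun x => ‖a x - T' x‖) (rho K) := by
    refine integrable_of_bdd hK (C := L + L) (ha.sub hL.meas).norm ?_
    filter_upwards [hae] with x hx
    rw [abs_of_nonneg (norm_nonneg _)]
    exact (norm_sub_le _ _).trans (add_le_add (haL x) (hT'L x hx))
  have hi2 : Integrable (fun x => ‖T' x - T x‖) (rho K) := by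
    refine integrable_of_bdd hK (C := L + L) (hL.meas.sub hTm).norm ?_
    filter_upwards [hae, hTnorm] with x hx h
    rw [abs_of_nonneg (norm_nonneg _)]
    exact (norm_sub_le _ _).trans (add_le_add (hT'L x hx) h)
  have htri : ∫ x, ‖T' x - T x‖ ∂(rho K) ≤ ∫ x, (‖a x - T' x‖ + η) ∂(rho K) := by
    refine integral_mono_ae hi2 (hi1.add (integrable_const _)) ?_
    filter_upwards [hclose] with x h
    have h1 : T' x - T x = (a x - T x) - (a x - T' x) := by abel
    have h2 : ‖T' x - T x‖ ≤ ‖a x - T x‖ + ‖a x - T' x‖ := by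
      rw [h1]
      exact norm_sub_le _ _
    linarith
  rw [integral_add hi1 (integrable_const _)] at htri
  have e3 : ∫ _x, η ∂(rho K) = η := by simp
  rw [e3] at htri
  linarith

/-- Atomic approximations of an optimal map converge in `L²`. -/
theorem lagMap_tendsto (hK : Body K) {Y : Set (E d)} (hY : IsCompact Y) {μ : Measure (E d)}
    {T : E d → E d} (hμ : IsProbabilityOn Y μ) (hT : IsOptimalMap (rho K) μ T)
    (D : ℕ → E d → E d) (F : ℕ → Finset (E d)) (η : ℕ → ℝ)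
    (hD : ∀ n, Measurable (D n)) (hF : ∀ n x, D n x ∈ F n) (hFY : ∀ n, ∀ s ∈ F n, s ∈ Y)
    (hη : ∀ n, ∀ y ∈ Y, ‖D n y - y‖ ≤ η n) (hη0 : Tendsto η atTop (𝓝 0))
    (T' : ℕ → E d → E d) (w : ∀ n, atomsOf μ (D n) (F n) → ℝ)
    [∀ n, Nonempty (atomsOf μ (D n) (F n))]
    (hL : ∀ n, LagMap K (T' n) (fun s : atomsOf μ (D n) (F n) => s.1)
      (fun s => (μ (D n ⁻¹' {s.1})).toReal) (w n)) :
    Tendsto (fun n => ∫ x, ‖T' n x - T x‖ ^ 2 ∂(rho K)) atTop (𝓝 0) := by
  classical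
  have hprob := rho_isProb hK
  have hμ1 := hμ.1
  obtain ⟨hTm, hTμ, -⟩ := id hT
  obtain ⟨R, hR0, hR⟩ := exists_bound_K hK
  obtain ⟨L0, hL0⟩ := hY.isBounded.exists_norm_le
  set L : ℝ := max L0 0 with hLdef
  have hLn : 0 ≤ L := le_max_right _ _
  have hLY : ∀ y ∈ Y, ‖y‖ ≤ L := fun y hy => (hL0 y hy).trans (le_max_left _ _)
  obtain ⟨C, hC0, hC⟩ := claimA hK L hLn
  obtain ⟨That, hThm, hThμ, hTlim, hcorr⟩ :=
    exists_limit_map hK hY hμ hT D F η hD hF hFY hη hη0 T' w hL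
  have hae := rho_ae_mem hK
  have hThY : ∀ᵐ x ∂(rho K), That x ∈ Y := ae_mem_of_map hY hμ hThm hThμ
  have hTY : ∀ᵐ x ∂(rho K), T x ∈ Y := ae_mem_of_map hY hμ hTm hTμ
  have hT'L : ∀ n, ∀ x ∈ K, ‖T' n x‖ ≤ L := by
    intro n x hx
    obtain ⟨i, -, hi⟩ := (hL n).sel x hx
    rw [hi]
    exact lagBound hLY (hFY n) i
  -- integrability of correlations
  have hcorrI : ∀ U : E d → E d, Measurable U → (∀ᵐ x ∂(rho K), ‖U x‖ ≤ L) →
      Integrable (fun x => ⟪x, U x⟫) (rho K) := by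
    intro U hU hUL
    refine integrable_of_bdd hK (C := R * L) (measurable_id.inner hU) ?_
    filter_upwards [hae, hUL] with x hx h
    exact (abs_real_inner_le_norm _ _).trans (mul_le_mul (hR x hx) h (norm_nonneg _) hR0)
  have hT'Lae : ∀ n, ∀ᵐ x ∂(rho K), ‖T' n x‖ ≤ L := fun n => by
    filter_upwards [hae] with x hx using hT'L n x hx
  have hThL : ∀ᵐ x ∂(rho K), ‖That x‖ ≤ L := by
    filter_upwards [hThY] with x h using hLY _ h
  have hTL : ∀ᵐ x ∂(rho K), ‖T x‖ ≤ L := by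
    filter_upwards [hTY] with x h using hLY _ h
  -- the correlation of `T' n` converges to that of `That`
  have hg : ∀ n, |∫ x, ⟪x, T' n x⟫ ∂(rho K) - ∫ x, ⟪x, That x⟫ ∂(rho K)| ≤
      R * Real.sqrt (∫ x, ‖T' n x - That x‖ ^ 2 ∂(rho K)) := by
    intro n
    have i1 := hcorrI (T' n) (hL n).meas (hT'Lae n)
    have i2 := hcorrI That hThm hThL
    have hnorm : Integrable (fun x => ‖T' n x - That x‖) (rho K) := by
      refine integrable_of_bdd hK (C := L + L) ((hL n).meas.sub hThm).norm ?_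
      filter_upwards [hT'Lae n, hThL] with x h1 h2
      rw [abs_of_nonneg (norm_nonneg _)]
      exact (norm_sub_le _ _).trans (add_le_add h1 h2)
    have hnorm2 : Integrable (fun x => ‖T' n x - That x‖ ^ 2) (rho K) := by
      refine integrable_of_bdd hK (C := (L + L) ^ 2) (((hL n).meas.sub hThm).norm.pow_const 2) ?_
      filter_upwards [hT'Lae n, hThL] with x h1 h2
      rw [abs_of_nonneg (by positivity)]
      exact pow_le_pow_left₀ (norm_nonneg _) ((norm_sub_le _ _).trans (add_le_add h1 h2)) 2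
    have hcs := integral_le_sqrt_sq (ρ := rho K) hnorm hnorm2
    have e1 : ∫ x, ⟪x, T' n x⟫ ∂(rho K) - ∫ x, ⟪x, That x⟫ ∂(rho K) =
        ∫ x, ⟪x, T' n x - That x⟫ ∂(rho K) := by
      rw [← integral_sub i1 i2]
      refine integral_congr_ae (ae_of_all _ fun x => ?_)
      exact (inner_sub_right _ _ _).symm
    rw [e1]
    have h1 : |∫ x, ⟪x, T' n x - That x⟫ ∂(rho K)| ≤ ∫ x, |⟪x, T' n x - That x⟫| ∂(rho K) :=
      abs_integral_le_integral_abs
    have h2 : ∫ x, |⟪x, T' n x - That x⟫| ∂(rho K) ≤ ∫ x, R * ‖T' n x - That x‖ ∂(rho K) := by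
      refine integral_mono_ae (i1.sub i2 |>.congr (ae_of_all _ fun x => ?_)).abs (hnorm.const_mul R) ?_
      · exact (inner_sub_right _ _ _).symm
      · filter_upwards [hae] with x hx
        exact (abs_real_inner_le_norm _ _).trans
          (mul_le_mul_of_nonneg_right (hR x hx) (norm_nonneg _))
    rw [integral_const_mul] at h2
    exact h1.trans (h2.trans (mul_le_mul_of_nonneg_left hcs hR0))
  have hg0 : Tendsto (fun n => R * Real.sqrt (∫ x, ‖T' n x - That x‖ ^ 2 ∂(rho K))) atTop (𝓝 0) := by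
    have h1 := (Real.continuous_sqrt.tendsto 0).comp hTlim
    simpa using h1.const_mul R
  -- the key estimate
  have hstep : ∀ n, ∫ x, ‖T' n x - T x‖ ∂(rho K) ≤
      C * Real.sqrt (R * Real.sqrt (∫ x, ‖T' n x - That x‖ ^ 2 ∂(rho K)) + R * η n) + η n := by
    intro n
    have h1 := lag_step hK hY hμ hTm hTμ hLn hLY hC0 hC hR0 hR (hD n) (hF n) (hFY n) (hη n) (hL n)
    refine h1.trans (add_le_add_left (mul_le_mul_of_nonneg_left (Real.sqrt_le_sqrt ?_) hC0) _)
    have h2 := (abs_le.1 (hg n)).2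
    linarith
  have hbound0 : Tendsto (fun n => C * Real.sqrt (R * Real.sqrt (∫ x, ‖T' n x - That x‖ ^ 2 ∂(rho K))
      + R * η n) + η n) atTop (𝓝 0) := by
    have h1 := hg0.add (hη0.const_mul R)
    have h2 := (Real.continuous_sqrt.tendsto _).comp h1
    have h3 := (h2.const_mul C).add hη0
    simpa using h3
  have hL1 : Tendsto (fun n => (L + L) * ∫ x, ‖T' n x - T x‖ ∂(rho K)) atTop (𝓝 0) := by
    have hnn : ∀ n, 0 ≤ ∫ x, ‖T' n x - T x‖ ∂(rho K) := fun n =>
      integral_nonneg fun x => norm_nonneg _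
    have := squeeze_zero hnn hstep hbound0
    simpa using this.const_mul (L + L)
  refine squeeze_zero (fun n => integral_nonneg fun x => by positivity) (fun n => ?_) hL1
  have hnorm : Integrable (fun x => ‖T' n x - T x‖) (rho K) := by
    refine integrable_of_bdd hK (C := L + L) ((hL n).meas.sub hTm).norm ?_
    filter_upwards [hT'Lae n, hTL] with x h1 h2
    rw [abs_of_nonneg (norm_nonneg _)]
    exact (norm_sub_le _ _).trans (add_le_add h1 h2)
  have hnorm2 : Integrable (fun x => ‖T' n x - T x‖ ^ 2) (rho K) := by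
    refine integrable_of_bdd hK (C := (L + L) ^ 2) (((hL n).meas.sub hTm).norm.pow_const 2) ?_
    filter_upwards [hT'Lae n, hTL] with x h1 h2
    rw [abs_of_nonneg (by positivity)]
    exact pow_le_pow_left₀ (norm_nonneg _) ((norm_sub_le _ _).trans (add_le_add h1 h2)) 2
  rw [← integral_const_mul]
  refine integral_mono_ae hnorm2 (hnorm.const_mul _) ?_
  filter_upwards [hT'Lae n, hTL] with x h1 h2
  have h3 : ‖T' n x - T x‖ ≤ L + L := (norm_sub_le _ _).trans (add_le_add h1 h2)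
  have h4 := norm_nonneg (T' n x - T x)
  show ‖T' n x - T x‖ ^ 2 ≤ (L + L) * ‖T' n x - T x‖
  nlinarith

end Crest.Agent.OT
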