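/-
S0109 project: FINAL assembly helpers: atoms of a discretization, discretized couplings.
-/
import Crest.Agent.OTApprox

set_option autoImplicit false
open MeasureTheory Set Filter Topology
open scoped ENNReal RealInnerProductSpace

namespace Crest.Agent.OT

open Crest.AnalysisR.OT

variable {d : ℕ}

section Atoms

variable (μ : Measure (E d)) (D : E d → E d) (F : Finset (E d))

open Classical in
lemma sum_atomsOf_F (G : E d → ℝ) :
    ∑ s : atomsOf μ D F, G s.1 = ∑ s ∈ F.filter (fun s => 0 < μ (D ⁻¹' {s})), G s := by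
  symm
  unfold atomsOf
  exact Finset.sum_subtype _ (by simp) G

variable {μ D F}

lemma sum_measure_eq_one [IsProbabilityMeasure μ] (hD : Measurable D) (hF : ∀ x, D x ∈ F) :
    ∑ s ∈ F, μ (D ⁻¹' {s}) = 1 := by
  rw [sum_measure_preimage_singleton F (fun y _ => hD (measurableSet_singleton y))]
  have : D ⁻¹' (F : Set (E d)) = univ := by
    ext x; simp [hF x]
  rw [this, measure_univ]

lemma sum_toReal_F [IsProbabilityMeasure μ] (hD : Measurable D) (hF : ∀ x, D x ∈ F) :
    ∑ s ∈ F, (μ (D ⁻¹' {s})).toReal = 1 := by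
  rw [← ENNReal.toReal_sum (fun _ _ => measure_ne_top _ _), sum_measure_eq_one hD hF]
  simp

open Classical in
lemma sum_filter_eq_F (hG : ∀ s ∈ F, ¬ 0 < μ (D ⁻¹' {s}) → (μ (D ⁻¹' {s})).toReal = 0) :
    ∑ s ∈ F.filter (fun s => 0 < μ (D ⁻¹' {s})), (μ (D ⁻¹' {s})).toReal =
      ∑ s ∈ F, (μ (D ⁻¹' {s})).toReal := by
  apply Finset.sum_filter_of_ne
  intro s hs hne
  by_contra hc
  exact hne (hG s hs hc)

lemma isAtoms_atomsOf [IsProbabilityMeasure μ] (hD : Measurable D) (hF : ∀ x, D x ∈ F) :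
    IsAtoms (fun s : atomsOf μ D F => s.1) (fun s => (μ (D ⁻¹' {s.1})).toReal) := by
  classical
  refine ⟨Subtype.val_injective, fun s => ENNReal.toReal_pos s.2.2.ne' (measure_ne_top _ _), ?_⟩
  rw [sum_atomsOf_F μ D F (fun s => (μ (D ⁻¹' {s})).toReal), sum_filter_eq_F, sum_toReal_F hD hF]
  intro s _ h
  have : μ (D ⁻¹' {s}) = 0 := by simpa using h
  simp [this]

lemma nonempty_atomsOf [IsProbabilityMeasure μ] (hD : Measurable D) (hF : ∀ x, D x ∈ F) :
    Nonempty (atomsOf μ D F) := by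
  by_contra h
  have h0 : ∀ s ∈ F, μ (D ⁻¹' {s}) = 0 := by
    intro s hs
    by_contra hne
    exact h ⟨⟨s, hs, pos_iff_ne_zero.2 hne⟩⟩
  have := sum_measure_eq_one (μ := μ) hD hF
  rw [Finset.sum_eq_zero h0] at this
  exact zero_ne_one this

end Atoms

section Coupling

variable {μ ν : Measure (E d)} {π : Measure (E d × E d)} {D : E d → E d} {F : Finset (E d)}

/-- discretized coupling -/
noncomputable def cpl (π : Measure (E d × E d)) (D : E d → E d) (s s' : E d) : ℝ :=
  (π (Prod.fst ⁻¹' (D ⁻¹' {s}) ∩ Prod.snd ⁻¹' (D ⁻¹' {s'}))).toReal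

lemma cpl_nonneg (s s' : E d) : 0 ≤ cpl π D s s' := ENNReal.toReal_nonneg

lemma meas_rect (hD : Measurable D) (s s' : E d) :
    MeasurableSet (Prod.fst ⁻¹' (D ⁻¹' {s}) ∩ Prod.snd ⁻¹' (D ⁻¹' {s'}) : Set (E d × E d)) :=
  (measurable_fst (hD (measurableSet_singleton s))).inter
    (measurable_snd (hD (measurableSet_singleton s')))

lemma sum_cpl_snd_F [IsFiniteMeasure π] (hc : π.map Prod.fst = μ) (hD : Measurable D)
    (hF : ∀ x, D x ∈ F) (s : E d) :
    ∑ s' ∈ F, cpl π D s s' = (μ (D ⁻¹' {s})).toReal := by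
  unfold cpl
  rw [← ENNReal.toReal_sum (fun _ _ => measure_ne_top _ _)]
  congr 1
  have hS : MeasurableSet (Prod.fst ⁻¹' (D ⁻¹' {s}) : Set (E d × E d)) :=
    measurable_fst (hD (measurableSet_singleton s))
  have h1 := sum_measure_preimage_singleton (μ := π.restrict (Prod.fst ⁻¹' (D ⁻¹' {s})))
    (f := fun z : E d × E d => D z.2) F
    (fun y _ => (hD.comp measurable_snd) (measurableSet_singleton y))
  have h2 : (fun z : E d × E d => D z.2) ⁻¹' (F : Set (E d)) = univ := by
    ext z; simp [hF z.2]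
  rw [h2, Measure.restrict_apply MeasurableSet.univ, univ_inter] at h1
  rw [← hc, Measure.map_apply measurable_fst (hD (measurableSet_singleton s)), ← h1]
  apply Finset.sum_congr rfl
  intro s' _
  have hm : MeasurableSet ((fun z : E d × E d => D z.2) ⁻¹' {s'}) :=
    (hD.comp measurable_snd) (measurableSet_singleton s')
  rw [Measure.restrict_apply hm]
  congr 1
  ext z
  simp only [mem_inter_iff, mem_preimage, mem_singleton_iff]
  tauto

lemma sum_cpl_fst_F [IsFiniteMeasure π] (hc : π.map Prod.snd = ν) (hD : Measurable D)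
    (hF : ∀ x, D x ∈ F) (s' : E d) :
    ∑ s ∈ F, cpl π D s s' = (ν (D ⁻¹' {s'})).toReal := by
  unfold cpl
  rw [← ENNReal.toReal_sum (fun _ _ => measure_ne_top _ _)]
  congr 1
  have h1 := sum_measure_preimage_singleton (μ := π.restrict (Prod.snd ⁻¹' (D ⁻¹' {s'})))
    (f := fun z : E d × E d => D z.1) F
    (fun y _ => (hD.comp measurable_fst) (measurableSet_singleton y))
  have h2 : (fun z : E d × E d => D z.1) ⁻¹' (F : Set (E d)) = univ := by
    ext z; simp [hF z.1]
  rw [h2, Measure.restrict_apply MeasurableSet.univ, univ_inter] at h1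
  rw [← hc, Measure.map_apply measurable_snd (hD (measurableSet_singleton s')), ← h1]
  apply Finset.sum_congr rfl
  intro s _
  have hm : MeasurableSet ((fun z : E d × E d => D z.1) ⁻¹' {s}) :=
    (hD.comp measurable_fst) (measurableSet_singleton s)
  rw [Measure.restrict_apply hm]
  congr 1

lemma cpl_eq_zero_left [IsFiniteMeasure π] (hc : π.map Prod.fst = μ) (hD : Measurable D) {s : E d}
    (h : ¬ 0 < μ (D ⁻¹' {s})) (s' : E d) : cpl π D s s' = 0 := by
  have h0 : μ (D ⁻¹' {s}) = 0 := by simpa using h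
  rw [← hc, Measure.map_apply measurable_fst (hD (measurableSet_singleton s))] at h0
  unfold cpl
  rw [measure_mono_null inter_subset_left h0]
  simp

lemma cpl_eq_zero_right [IsFiniteMeasure π] (hc : π.map Prod.snd = ν) (hD : Measurable D) {s' : E d}
    (h : ¬ 0 < ν (D ⁻¹' {s'})) (s : E d) : cpl π D s s' = 0 := by
  have h0 : ν (D ⁻¹' {s'}) = 0 := by simpa using h
  rw [← hc, Measure.map_apply measurable_snd (hD (measurableSet_singleton s'))] at h0
  unfold cpl
  rw [measure_mono_null inter_subset_right h0]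
  simp

/-- the marginal of the restricted coupling on the atoms -/
lemma sum_cpl_atoms_right [IsFiniteMeasure π] (hc : π.map Prod.fst = μ) (hc' : π.map Prod.snd = ν)
    (hD : Measurable D) (hF : ∀ x, D x ∈ F) (s : E d) :
    ∑ s' : atomsOf ν D F, cpl π D s s'.1 = (μ (D ⁻¹' {s})).toReal := by
  classical
  rw [sum_atomsOf_F ν D F (fun s' => cpl π D s s'), ← sum_cpl_snd_F hc hD hF s]
  apply Finset.sum_filter_of_ne
  intro s' _ hne
  by_contra hcc
  exact hne (cpl_eq_zero_right hc' hD hcc s)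

lemma sum_cpl_atoms_left [IsFiniteMeasure π] (hc : π.map Prod.fst = μ) (hc' : π.map Prod.snd = ν)
    (hD : Measurable D) (hF : ∀ x, D x ∈ F) (s' : E d) :
    ∑ s : atomsOf μ D F, cpl π D s.1 s' = (ν (D ⁻¹' {s'})).toReal := by
  classical
  rw [sum_atomsOf_F μ D F (fun s => cpl π D s s'), ← sum_cpl_fst_F hc' hD hF s']
  apply Finset.sum_filter_of_ne
  intro s _ hne
  by_contra hcc
  exact hne (cpl_eq_zero_left hc hD hcc s')

/-- The discrete cost is the integral of the discretized cost. -/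
lemma sum_cpl_cost [IsFiniteMeasure π] (hc : π.map Prod.fst = μ) (hc' : π.map Prod.snd = ν)
    (hD : Measurable D) (hF : ∀ x, D x ∈ F) :
    ∑ s : atomsOf μ D F, ∑ s' : atomsOf ν D F, cpl π D s.1 s'.1 * ‖s.1 - s'.1‖ ^ 2 =
      ∫ z, ‖D z.1 - D z.2‖ ^ 2 ∂π := by
  classical
  -- pointwise decomposition
  have hpt : ∀ z : E d × E d, ‖D z.1 - D z.2‖ ^ 2 =
      ∑ s ∈ F, ∑ s' ∈ F, (Prod.fst ⁻¹' (D ⁻¹' {s}) ∩ Prod.snd ⁻¹' (D ⁻¹' {s'}) : Set (E d × E d)).indicator
        (fun _ => ‖s - s'‖ ^ 2) z := by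
    intro z
    rw [Finset.sum_eq_single (D z.1), Finset.sum_eq_single (D z.2)]
    · rw [indicator_of_mem]
      simp
    · intro b _ hb
      rw [indicator_of_notMem]
      simp only [mem_inter_iff, mem_preimage, mem_singleton_iff, not_and]
      exact fun _ h => hb h.symm
    · intro h; exact absurd (hF _) h
    · intro b _ hb
      apply Finset.sum_eq_zero
      intro s' _
      rw [indicator_of_notMem]
      simp only [mem_inter_iff, mem_preimage, mem_singleton_iff, not_and]
      exact fun h => absurd h.symm hb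
    · intro h; exact absurd (hF _) h
  have hint : ∀ s s' : E d, Integrable
      ((Prod.fst ⁻¹' (D ⁻¹' {s}) ∩ Prod.snd ⁻¹' (D ⁻¹' {s'}) : Set (E d × E d)).indicator
        (fun _ => ‖s - s'‖ ^ 2)) π := fun s s' =>
    (integrable_const _).indicator (meas_rect hD s s')
  simp_rw [hpt]
  rw [integral_finsetSum _ (fun s _ => integrable_finsetSum _ (fun s' _ => hint s s'))]
  have h1 : ∀ s ∈ F, ∫ z, ∑ s' ∈ F, (Prod.fst ⁻¹' (D ⁻¹' {s}) ∩ Prod.snd ⁻¹' (D ⁻¹' {s'}) : Set (E d × E d)).indicator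
      (fun _ => ‖s - s'‖ ^ 2) z ∂π = ∑ s' ∈ F, cpl π D s s' * ‖s - s'‖ ^ 2 := by
    intro s _
    rw [integral_finsetSum _ (fun s' _ => hint s s')]
    apply Finset.sum_congr rfl
    intro s' _
    rw [integral_indicator (meas_rect hD s s'), setIntegral_const, smul_eq_mul]
    unfold cpl
    rw [Measure.real]
  rw [Finset.sum_congr rfl h1]
  rw [sum_atomsOf_F μ D F (fun s => ∑ s' : atomsOf ν D F, cpl π D s s'.1 * ‖s - s'.1‖ ^ 2)]
  have h2 : ∀ s, ∑ s' : atomsOf ν D F, cpl π D s s'.1 * ‖s - s'.1‖ ^ 2 =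
      ∑ s' ∈ F, cpl π D s s' * ‖s - s'‖ ^ 2 := by
    intro s
    rw [sum_atomsOf_F ν D F (fun s' => cpl π D s s' * ‖s - s'‖ ^ 2)]
    apply Finset.sum_filter_of_ne
    intro s' _ hne
    by_contra hcc
    exact hne (by rw [cpl_eq_zero_right hc' hD hcc s, zero_mul])
  simp_rw [h2]
  apply Finset.sum_filter_of_ne
  intro s _ hne
  by_contra hcc
  apply hne
  apply Finset.sum_eq_zero
  intro s' _
  rw [cpl_eq_zero_left hc hD hcc s', zero_mul]

end Coupling

end Crest.Agent.OT
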