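/-
S0110 (row 82): sharpness of the exponent 1/3 (piece S110, see OTPLAN.md).
Three atom targets on the cube: explicit Laguerre maps, exact equality of masses by linear changes of variables.
-/
import Crest.Agent.OTYoung

set_option autoImplicit false
open MeasureTheory Set
open scoped ENNReal RealInnerProductSpace NNReal

namespace Crest.Agent.OT.S110

open Crest.AnalysisR.OT

variable {n : ℕ}

/-- The cube. -/
def Q (n : ℕ) : Set (E (n + 2)) := {x | ∀ i, |x i| ≤ 1}

lemma coord_cont (i : Fin (n + 2)) : Continuous (fun x : E (n + 2) => x i) :=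
  (EuclideanSpace.proj (𝕜 := ℝ) i).continuous

lemma coord_meas (i : Fin (n + 2)) : Measurable (fun x : E (n + 2) => x i) :=
  (coord_cont i).measurable

lemma Q_eq : (Q n) = (WithLp.ofLp : E (n + 2) → (Fin (n + 2) → ℝ)) ⁻¹' (Icc (fun _ => -1) (fun _ => 1)) := by
  ext x
  simp only [Q, mem_preimage, mem_Icc, Pi.le_def]
  constructor
  · intro h
    exact ⟨fun i => (abs_le.mp (h i)).1, fun i => (abs_le.mp (h i)).2⟩
  · rintro ⟨h1, h2⟩ i
    exact abs_le.mpr ⟨h1 i, h2 i⟩

lemma Q_eq_image : (Q n) = (WithLp.toLp 2 : (Fin (n + 2) → ℝ) → E (n + 2)) '' (Icc (fun _ => -1) (fun _ => 1)) := by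
  rw [Q_eq]
  ext x
  constructor
  · intro h
    exact ⟨WithLp.ofLp x, h, rfl⟩
  · rintro ⟨y, hy, rfl⟩
    exact hy

lemma body_Q : Body (Q n) := by
  refine ⟨?_, ?_, ?_⟩
  · rw [Q_eq_image]
    exact isCompact_Icc.image (PiLp.continuous_toLp 2 _)
  · intro x hx y hy a b ha hb hab i
    have h1 := hx i
    have h2 := hy i
    simp only [PiLp.add_apply, PiLp.smul_apply, smul_eq_mul]
    calc |a * x i + b * y i| ≤ |a * x i| + |b * y i| := abs_add_le _ _
      _ = a * |x i| + b * |y i| := by rw [abs_mul, abs_mul, abs_of_nonneg ha, abs_of_nonneg hb]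
      _ ≤ a * 1 + b * 1 := by gcongr
      _ = 1 := by linarith
  · refine ⟨0, ?_⟩
    rw [mem_interior]
    refine ⟨Metric.ball 0 1, ?_, Metric.isOpen_ball, Metric.mem_ball_self one_pos⟩
    intro x hx i
    have h1 : ‖x‖ < 1 := by simpa using hx
    have h2 := PiLp.norm_apply_le x i
    rw [Real.norm_eq_abs] at h2
    linarith

/-- Box volume. -/
lemma rho_box (a b : Fin (n + 2) → ℝ) (hab : ∀ i, a i ≤ b i) (hQ : ∀ i, -1 ≤ a i ∧ b i ≤ 1) :
    rho (Q n) {x | ∀ i, a i ≤ x i ∧ x i ≤ b i} = ENNReal.ofReal (∏ i, ((b i - a i) / 2)) := by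
  have hpres := PiLp.volume_preserving_ofLp (Fin (n + 2))
  have hvol : ∀ a' b' : Fin (n + 2) → ℝ, (∀ i, a' i ≤ b' i) →
      volume {x : E (n + 2) | ∀ i, a' i ≤ x i ∧ x i ≤ b' i} = ENNReal.ofReal (∏ i, (b' i - a' i)) := by
    intro a' b' h
    have e : {x : E (n + 2) | ∀ i, a' i ≤ x i ∧ x i ≤ b' i} =
        (WithLp.ofLp : E (n + 2) → (Fin (n + 2) → ℝ)) ⁻¹' (Icc a' b') := by
      ext x
      simp only [mem_setOf_eq, mem_preimage, mem_Icc, Pi.le_def]
      constructor
      · intro h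
        exact ⟨fun i => (h i).1, fun i => (h i).2⟩
      · rintro ⟨h1, h2⟩ i
        exact ⟨h1 i, h2 i⟩
    rw [e, hpres.measure_preimage measurableSet_Icc.nullMeasurableSet, Real.volume_Icc_pi,
      ENNReal.ofReal_prod_of_nonneg]
    intro i _
    linarith [h i]
  have hB : MeasurableSet {x : E (n + 2) | ∀ i, a i ≤ x i ∧ x i ≤ b i} := by
    have : {x : E (n + 2) | ∀ i, a i ≤ x i ∧ x i ≤ b i} = ⋂ i, ({x | a i ≤ x i} ∩ {x | x i ≤ b i}) := by
      ext x; simp
    rw [this]
    exact MeasurableSet.iInter fun i => (measurableSet_le measurable_const (coord_meas i)).inter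
      (measurableSet_le (coord_meas i) measurable_const)
  rw [rho_apply body_Q hB]
  have hsub : {x : E (n + 2) | ∀ i, a i ≤ x i ∧ x i ≤ b i} ∩ Q n = {x | ∀ i, a i ≤ x i ∧ x i ≤ b i} := by
    apply inter_eq_left.mpr
    intro x hx i
    have := hx i
    exact abs_le.mpr ⟨(hQ i).1.trans this.1, this.2.trans (hQ i).2⟩
  rw [hsub, hvol a b hab]
  have hQv : volume (Q n) = ENNReal.ofReal (∏ _i : Fin (n + 2), ((1 : ℝ) - (-1))) := by
    rw [← hvol (fun _ => -1) (fun _ => 1) (fun _ => by norm_num)]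
    congr 1
    ext x
    simp only [Q, mem_setOf_eq]
    exact forall_congr' fun i => abs_le
  rw [hQv]
  have hp : (0 : ℝ) < ∏ _i : Fin (n + 2), ((1 : ℝ) - (-1)) := Finset.prod_pos fun _ _ => by norm_num
  rw [← ENNReal.ofReal_inv_of_pos hp, ← ENNReal.ofReal_mul (inv_nonneg.mpr hp.le)]
  congr 1
  rw [Finset.prod_div_distrib]
  have : ∏ _i : Fin (n + 2), ((1 : ℝ) - (-1)) = ∏ _i : Fin (n + 2), (2 : ℝ) := by norm_num
  rw [this, div_eq_inv_mul]

/-- Box in the first two coordinates. -/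
def box (α0 β0 α1 β1 : ℝ) : Set (E (n + 2)) := {x | x ∈ Q n ∧ α0 ≤ x 0 ∧ x 0 ≤ β0 ∧ α1 ≤ x 1 ∧ x 1 ≤ β1}

lemma rho_box2 (α0 β0 α1 β1 : ℝ) (h0 : α0 ≤ β0) (h1 : α1 ≤ β1) (h2 : -1 ≤ α0) (h3 : β0 ≤ 1) (h4 : -1 ≤ α1) (h5 : β1 ≤ 1) :
    rho (Q n) (box α0 β0 α1 β1) = ENNReal.ofReal ((β0 - α0) / 2 * ((β1 - α1) / 2)) := by
  set a : Fin (n + 2) → ℝ := Fin.cons α0 (Fin.cons α1 (fun _ => -1)) with ha
  set b : Fin (n + 2) → ℝ := Fin.cons β0 (Fin.cons β1 (fun _ => 1)) with hb
  have e : (box α0 β0 α1 β1 : Set (E (n + 2))) = {x | ∀ i, a i ≤ x i ∧ x i ≤ b i} := by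
    ext x
    constructor
    · rintro ⟨hQx, h6, h7, h8, h9⟩ i
      refine Fin.cases ?_ (fun j => ?_) i
      · exact ⟨by simpa [ha] using h6, by simpa [hb] using h7⟩
      · refine Fin.cases ?_ (fun k => ?_) j
        · exact ⟨by simpa [ha] using h8, by simpa [hb] using h9⟩
        · have := abs_le.mp (hQx k.succ.succ)
          exact ⟨by simpa [ha] using this.1, by simpa [hb] using this.2⟩
    · intro h
      have h00 := h 0
      have h11 := h 1
      refine ⟨?_, by simpa [ha] using h00.1, by simpa [hb] using h00.2, by simpa [ha] using h11.1, by simpa [hb] using h11.2⟩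
      intro i
      refine Fin.cases ?_ (fun j => ?_) i
      · have h6 : α0 ≤ x 0 := by simpa [ha] using h00.1
        have h7 : x 0 ≤ β0 := by simpa [hb] using h00.2
        exact abs_le.mpr ⟨by linarith, by linarith⟩
      · refine Fin.cases ?_ (fun k => ?_) j
        · have h6 : α1 ≤ x 1 := by simpa [ha] using h11.1
          have h7 : x 1 ≤ β1 := by simpa [hb] using h11.2
          show |x 1| ≤ 1
          exact abs_le.mpr ⟨by linarith, by linarith⟩
        · have := h k.succ.succ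
          exact abs_le.mpr ⟨by simpa [ha] using this.1, by simpa [hb] using this.2⟩
  rw [e, rho_box a b]
  · congr 1
    rw [Fin.prod_univ_succ, Fin.prod_univ_succ]
    simp [ha, hb]
  · intro i
    refine Fin.cases ?_ (fun j => ?_) i
    · simpa [ha, hb] using h0
    · refine Fin.cases ?_ (fun k => ?_) j
      · simpa [ha, hb] using h1
      · simp [ha, hb]
  · intro i
    refine Fin.cases ?_ (fun j => ?_) i
    · simpa [ha, hb] using ⟨h2, h3⟩
    · refine Fin.cases ?_ (fun k => ?_) j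
      · simpa [ha, hb] using ⟨h4, h5⟩
      · simp [ha, hb]

/-- The unit vectors. -/
noncomputable def e0 : E (n + 2) := EuclideanSpace.single 0 (1 : ℝ)
noncomputable def e1 : E (n + 2) := EuclideanSpace.single 1 (1 : ℝ)

/-- The atoms. -/
noncomputable def p (τ : ℝ) : Fin 3 → E (n + 2) := ![τ • e0, e1, -e1]

/-- The weights. -/
noncomputable def w (τ J : ℝ) : Fin 3 → ℝ := ![τ * J, 0, 0]

lemma inner_e0 (x : E (n + 2)) : ⟪x, e0⟫ = x 0 := by
  simp [e0, EuclideanSpace.inner_single_right]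

lemma inner_e1 (x : E (n + 2)) : ⟪x, e1⟫ = x 1 := by
  simp [e1, EuclideanSpace.inner_single_right]

lemma aff0 (τ J : ℝ) (x : E (n + 2)) : aff (p τ) (w τ J) 0 x = τ * (x 0 - J) := by
  simp [aff, p, w, inner_smul_right, inner_e0]
  ring

lemma aff1 (τ J : ℝ) (x : E (n + 2)) : aff (p τ) (w τ J) 1 x = x 1 := by
  simp [aff, p, w, inner_e1]

lemma aff2 (τ J : ℝ) (x : E (n + 2)) : aff (p τ) (w τ J) 2 x = - x 1 := by
  simp [aff, p, w, inner_neg_right, inner_e1]

lemma cell0_iff (τ J : ℝ) (x : E (n + 2)) :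
    x ∈ cell (Q n) (p τ) (w τ J) 0 ↔ x ∈ Q n ∧ |x 1| ≤ τ * (x 0 - J) := by
  simp only [cell, mem_setOf_eq, Fin.forall_fin_succ, aff0, aff1, aff2]
  simp only [Fin.succ_zero_eq_one, Fin.succ_one_eq_two, aff0, aff1, aff2, IsEmpty.forall_iff, and_true, le_refl, true_and]
  constructor
  · rintro ⟨h0, h1, h2⟩
    exact ⟨h0, abs_le.mpr ⟨by linarith, h1⟩⟩
  · rintro ⟨h0, h1⟩
    exact ⟨h0, (abs_le.mp h1).2, by linarith [(abs_le.mp h1).1]⟩

lemma cell1_iff (τ J : ℝ) (x : E (n + 2)) :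
    x ∈ cell (Q n) (p τ) (w τ J) 1 ↔ x ∈ Q n ∧ τ * (x 0 - J) ≤ x 1 ∧ 0 ≤ x 1 := by
  simp only [cell, mem_setOf_eq, Fin.forall_fin_succ, aff0, aff1, aff2]
  simp only [Fin.succ_zero_eq_one, Fin.succ_one_eq_two, aff0, aff1, aff2, IsEmpty.forall_iff, and_true, le_refl, true_and]
  constructor
  · rintro ⟨h0, h1, h2⟩
    exact ⟨h0, h1, by linarith⟩
  · rintro ⟨h0, h1, h2⟩
    exact ⟨h0, h1, by linarith⟩

lemma cell2_iff (τ J : ℝ) (x : E (n + 2)) :
    x ∈ cell (Q n) (p τ) (w τ J) 2 ↔ x ∈ Q n ∧ τ * (x 0 - J) ≤ - x 1 ∧ x 1 ≤ 0 := by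
  simp only [cell, mem_setOf_eq, Fin.forall_fin_succ, aff0, aff1, aff2]
  simp only [Fin.succ_zero_eq_one, Fin.succ_one_eq_two, aff0, aff1, aff2, IsEmpty.forall_iff, and_true, le_refl, true_and]
  constructor
  · rintro ⟨h0, h1, h2⟩
    exact ⟨h0, h1, by linarith⟩
  · rintro ⟨h0, h1, h2⟩
    exact ⟨h0, h1, by linarith⟩

lemma p_coord1 (τ : ℝ) (i : Fin 3) : (p τ i : E (n + 2)) 1 = ![0, 1, -1] i := by
  fin_cases i <;> simp [p, e0, e1]

lemma p_inj (τ : ℝ) : Function.Injective (p τ : Fin 3 → E (n + 2)) := by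
  intro i j h
  have := congrArg (fun x : E (n + 2) => x 1) h
  simp only [p_coord1] at this
  fin_cases i <;> fin_cases j <;> first | rfl | (exfalso; norm_num at this)

/-- The map. -/
noncomputable def T (τ J : ℝ) (x : E (n + 2)) : E (n + 2) := by
  classical
  exact if |x 1| < τ * (x 0 - J) then p τ 0 else if 0 < x 1 then p τ 1 else p τ 2

lemma T_meas (τ J : ℝ) : Measurable (T τ J : E (n + 2) → E (n + 2)) := by
  classical
  unfold T
  refine Measurable.ite ?_ measurable_const (Measurable.ite ?_ measurable_const measurable_const)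
  · have h1 : Continuous (fun x : E (n + 2) => |(x 1 : ℝ)|) := (coord_cont 1).abs
    have h2 : Continuous (fun x : E (n + 2) => τ * ((x 0 : ℝ) - J)) :=
      continuous_const.mul ((coord_cont 0).sub continuous_const)
    exact measurableSet_lt h1.measurable h2.measurable
  · exact measurableSet_lt measurable_const (coord_meas 1)

lemma T_sel (τ J : ℝ) (x : E (n + 2)) (hx : x ∈ Q n) : ∃ i, x ∈ cell (Q n) (p τ) (w τ J) i ∧ T τ J x = p τ i := by
  classical
  by_cases h1 : |x 1| < τ * (x 0 - J)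
  · refine ⟨0, (cell0_iff τ J x).mpr ⟨hx, h1.le⟩, ?_⟩
    simp [T, h1]
  · by_cases h2 : 0 < x 1
    · refine ⟨1, (cell1_iff τ J x).mpr ⟨hx, ?_, h2.le⟩, ?_⟩
      · rw [abs_of_pos h2] at h1; linarith
      · simp [T, h1, h2]
    · have h3 : x 1 ≤ 0 := not_lt.mp h2
      refine ⟨2, (cell2_iff τ J x).mpr ⟨hx, ?_, h3⟩, ?_⟩
      · rw [abs_of_nonpos h3] at h1; linarith
      · simp [T, h1, h2]

/-- Masses. -/
noncomputable def m (τ J : ℝ) (i : Fin 3) : ℝ := (rho (Q n)).real (cell (Q n) (p τ : Fin 3 → E (n + 2)) (w τ J) i)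

lemma m_sum (τ J : ℝ) : ∑ i, (m (n := n) τ J i) = 1 := by
  have := rho_isProb (body_Q (n := n))
  have h := rho_sum_cells (body_Q (n := n)) (p_inj τ) (w τ J) MeasurableSet.univ
  simp only [univ_inter, measure_univ] at h
  have h2 := congrArg ENNReal.toReal h
  rw [ENNReal.toReal_sum (fun i _ => measure_ne_top _ _)] at h2
  simpa [m, Measure.real] using h2

lemma m_nonneg (τ J : ℝ) (i : Fin 3) : 0 ≤ m (n := n) τ J i := measureReal_nonneg

/-- General change of variables for diagonal maps. -/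
noncomputable def L (D : Fin (n + 2) → ℝ) : E (n + 2) →ₗ[ℝ] E (n + 2) :=
  Matrix.toEuclideanLin (Matrix.diagonal D)

lemma L_apply (D : Fin (n + 2) → ℝ) (x : E (n + 2)) (i : Fin (n + 2)) : L D x i = D i * x i := by
  have : L D x = WithLp.toLp 2 ((Matrix.diagonal D).mulVec (WithLp.ofLp x)) := rfl
  rw [this]
  simp [Matrix.mulVec_diagonal]

lemma L_det (D : Fin (n + 2) → ℝ) : LinearMap.det (L D) = ∏ i, D i := by
  rw [L, Matrix.toEuclideanLin_eq_toLin_orthonormal, LinearMap.det_toLin, Matrix.det_diagonal]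

lemma vol_L (D : Fin (n + 2) → ℝ) (hD : |∏ i, D i| = 1) (c : E (n + 2)) (S : Set (E (n + 2))) :
    volume ((fun x => c + L D x) ⁻¹' S) = volume S := by
  have hne : LinearMap.det (L D) ≠ 0 := by
    rw [L_det]
    intro h
    rw [h] at hD
    simp at hD
  have e : (fun x => c + L D x) ⁻¹' S = (L D) ⁻¹' ((fun y => c + y) ⁻¹' S) := rfl
  rw [e, Measure.addHaar_preimage_linearMap volume hne, L_det, abs_inv, hD, measure_preimage_add]
  simp

lemma rho_eq_of_preimage (D : Fin (n + 2) → ℝ) (hD : |∏ i, D i| = 1) (c : E (n + 2)) {S S' : Set (E (n + 2))}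
    (hS : MeasurableSet S) (hS' : MeasurableSet S') (hSQ : S ⊆ Q n) (hSQ' : S' ⊆ Q n)
    (h : S = (fun x => c + L D x) ⁻¹' S') : rho (Q n) S = rho (Q n) S' := by
  rw [rho_apply body_Q hS, rho_apply body_Q hS', inter_eq_left.mpr hSQ, inter_eq_left.mpr hSQ', h, vol_L D hD]

/-- Reflection gives equal side masses. -/
lemma m1_eq_m2 (τ J : ℝ) : m (n := n) τ J 1 = m (n := n) τ J 2 := by
  set D : Fin (n + 2) → ℝ := Fin.cons 1 (Fin.cons (-1) (fun _ => 1)) with hDdef
  have hD : |∏ i, D i| = 1 := by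
    rw [Fin.prod_univ_succ, Fin.prod_univ_succ]
    simp [hDdef]
  have h := rho_eq_of_preimage D hD 0 (S := cell (Q n) (p τ) (w τ J) 1) (S' := cell (Q n) (p τ) (w τ J) 2)
    (measurableSet_cell body_Q _ _ _) (measurableSet_cell body_Q _ _ _) (fun x hx => hx.1) (fun x hx => hx.1) (by
      ext x
      have c0 : L D x 0 = x 0 := by rw [L_apply]; simp [hDdef]
      have c1 : L D x 1 = - x 1 := by rw [L_apply]; simp [hDdef]
      have cs : ∀ k : Fin n, L D x k.succ.succ = x k.succ.succ := by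
        intro k; rw [L_apply]; simp [hDdef]
      have hQiff : (0 + L D x) ∈ Q n ↔ x ∈ Q n := by
        simp only [zero_add, Q, mem_setOf_eq]
        constructor
        · intro h i
          refine Fin.cases ?_ (fun j => ?_) i
          · simpa [c0] using h 0
          · refine Fin.cases ?_ (fun k => ?_) j
            · simpa [c1] using h 1
            · simpa [cs] using h k.succ.succ
        · intro h i
          refine Fin.cases ?_ (fun j => ?_) i
          · simpa [c0] using h 0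
          · refine Fin.cases ?_ (fun k => ?_) j
            · simpa [c1, abs_neg] using h 1
            · simpa [cs] using h k.succ.succ
      simp only [mem_preimage, cell1_iff, cell2_iff]
      rw [hQiff]
      simp only [zero_add, c0, c1, neg_neg, Left.neg_nonpos_iff])
  simp only [m, Measure.real, h]

/-- The change of variables for central cells. -/
lemma m0_eq (τ : ℝ) (h0 : 0 < τ) (h1 : τ ≤ 1 / 8) : m (n := n) τ 0 0 = m (n := n) (4 * τ) (1 / 2) 0 := by
  set D : Fin (n + 2) → ℝ := Fin.cons (1 / 2) (Fin.cons 2 (fun _ => 1)) with hDdef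
  have hD : |∏ i, D i| = 1 := by
    rw [Fin.prod_univ_succ, Fin.prod_univ_succ]
    simp [hDdef]
  set c : E (n + 2) := (1 / 2 : ℝ) • e0 with hc
  have c0 : c 0 = 1 / 2 := by simp [hc, e0]
  have c1 : c 1 = 0 := by simp [hc, e0]
  have cs : ∀ k : Fin n, c k.succ.succ = 0 := by intro k; simp [hc, e0]
  have h := rho_eq_of_preimage D hD c (S := cell (Q n) (p τ) (w τ 0) 0) (S' := cell (Q n) (p (4 * τ)) (w (4 * τ) (1 / 2)) 0)
    (measurableSet_cell body_Q _ _ _) (measurableSet_cell body_Q _ _ _) (fun x hx => hx.1) (fun x hx => hx.1) (by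
      ext x
      have a0 : (c + L D x) 0 = 1 / 2 + x 0 / 2 := by
        simp only [PiLp.add_apply, c0, L_apply]
        simp [hDdef]
        ring
      have a1 : (c + L D x) 1 = 2 * x 1 := by
        simp only [PiLp.add_apply, c1, L_apply]
        simp [hDdef]
      have as : ∀ k : Fin n, (c + L D x) k.succ.succ = x k.succ.succ := by
        intro k
        simp only [PiLp.add_apply, cs, L_apply]
        simp [hDdef]
      simp only [mem_preimage, cell0_iff]
      rw [a0, a1]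
      have hkey : |2 * x 1| ≤ 4 * τ * (1 / 2 + x 0 / 2 - 1 / 2) ↔ |x 1| ≤ τ * (x 0 - 0) := by
        rw [abs_mul, abs_of_pos (by norm_num : (0 : ℝ) < 2)]
        constructor <;> intro h2 <;> nlinarith
      rw [hkey]
      constructor
      · rintro ⟨hx, hxx⟩
        refine ⟨?_, hxx⟩
        have hx0 : 0 ≤ x 0 := by
          have : 0 ≤ τ * (x 0 - 0) := (abs_nonneg _).trans hxx
          have := (mul_nonneg_iff_of_pos_left h0).mp this
          linarith
        have hx01 := abs_le.mp (hx 0)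
        have hx1 : |x 1| ≤ 1 / 8 := by nlinarith
        intro i
        refine Fin.cases ?_ (fun j => ?_) i
        · rw [a0]
          exact abs_le.mpr ⟨by linarith [hx01.1], by linarith [hx01.2]⟩
        · refine Fin.cases ?_ (fun k => ?_) j
          · rw [show (Fin.succ (0 : Fin (n + 1))) = (1 : Fin (n + 2)) from rfl, a1, abs_mul, abs_of_pos (by norm_num : (0 : ℝ) < 2)]
            linarith
          · rw [as]
            exact hx k.succ.succ
      · rintro ⟨hx, hxx⟩
        refine ⟨?_, hxx⟩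
        have hx0 : 0 ≤ x 0 := by
          have : 0 ≤ τ * (x 0 - 0) := (abs_nonneg _).trans hxx
          have := (mul_nonneg_iff_of_pos_left h0).mp this
          linarith
        intro i
        refine Fin.cases ?_ (fun j => ?_) i
        · have := abs_le.mp (hx 0)
          rw [a0] at this
          exact abs_le.mpr ⟨by linarith, by linarith [this.2]⟩
        · refine Fin.cases ?_ (fun k => ?_) j
          · have := hx 1
            rw [a1, abs_mul, abs_of_pos (by norm_num : (0 : ℝ) < 2)] at this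
            show |x 1| ≤ 1
            linarith
          · have := hx k.succ.succ
            rwa [as] at this)
  simp only [m, Measure.real, h]


lemma box_meas (α0 β0 α1 β1 : ℝ) : MeasurableSet (box α0 β0 α1 β1 : Set (E (n + 2))) := by
  have e : (box α0 β0 α1 β1 : Set (E (n + 2))) =
      Q n ∩ ({x | α0 ≤ x 0} ∩ ({x | x 0 ≤ β0} ∩ ({x | α1 ≤ x 1} ∩ {x | x 1 ≤ β1}))) := rfl
  rw [e]
  exact body_Q.measurableSet.inter ((measurableSet_le measurable_const (coord_meas 0)).inter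
    ((measurableSet_le (coord_meas 0) measurable_const).inter
      ((measurableSet_le measurable_const (coord_meas 1)).inter
        (measurableSet_le (coord_meas 1) measurable_const))))

/-- The central mass is at most `τ`. -/
lemma m0_le (τ : ℝ) (h0 : 0 < τ) (h1 : τ ≤ 1 / 8) : m (n := n) τ 0 0 ≤ τ := by
  have hsub : cell (Q n) (p τ : Fin 3 → E (n + 2)) (w τ 0) 0 ⊆ box (-1) 1 (-τ) τ := by
    intro x hx
    obtain ⟨hQ, hxx⟩ := (cell0_iff τ 0 x).mp hx
    have h01 := abs_le.mp (hQ 0)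
    have h2 : |x 1| ≤ τ := by nlinarith
    have h3 := abs_le.mp h2
    exact ⟨hQ, h01.1, h01.2, h3.1, h3.2⟩
  have h2 := measure_mono (μ := rho (Q n)) hsub
  rw [rho_box2 (-1) 1 (-τ) τ (by norm_num) (by linarith) le_rfl le_rfl (by linarith) (by linarith)] at h2
  have h3 : (1 - (-1 : ℝ)) / 2 * ((τ - (-τ)) / 2) = τ := by ring
  rw [h3] at h2
  have := rho_isProb (body_Q (n := n))
  have h4 := ENNReal.toReal_mono ENNReal.ofReal_ne_top h2
  rwa [ENNReal.toReal_ofReal h0.le] at h4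

/-- The region where the two maps differ. -/
def B (τ : ℝ) : Set (E (n + 2)) := box (1 / 4) (1 / 2) (-τ / 8) (τ / 8)

lemma rho_B (τ : ℝ) (h0 : 0 < τ) (h1 : τ ≤ 1 / 8) : rho (Q n) (B τ : Set (E (n + 2))) = ENNReal.ofReal (τ / 64) := by
  rw [B, rho_box2 (1 / 4) (1 / 2) (-τ / 8) (τ / 8) (by norm_num) (by linarith) (by norm_num) (by norm_num) (by linarith) (by linarith)]
  congr 1
  ring

lemma B_sub (τ : ℝ) (h0 : 0 < τ) : (B τ : Set (E (n + 2))) ⊆ cell (Q n) (p τ) (w τ 0) 0 := by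
  rintro x ⟨hQ, h1, h2, h3, h4⟩
  refine (cell0_iff τ 0 x).mpr ⟨hQ, ?_⟩
  have : |x 1| ≤ τ / 8 := abs_le.mpr ⟨by linarith, h4⟩
  nlinarith

lemma m0_pos (τ : ℝ) (h0 : 0 < τ) (h1 : τ ≤ 1 / 8) : 0 < m (n := n) τ 0 0 := by
  have := rho_isProb (body_Q (n := n))
  have h2 := measure_mono (μ := rho (Q n)) (B_sub (n := n) τ h0)
  rw [rho_B τ h0 h1] at h2
  have h3 := ENNReal.toReal_mono (measure_ne_top _ _) h2
  rw [ENNReal.toReal_ofReal (by positivity)] at h3
  have h4 : (0 : ℝ) < τ / 64 := by positivity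
  exact lt_of_lt_of_le h4 h3

lemma side_eq (τ J : ℝ) : m (n := n) τ J 1 = (1 - m (n := n) τ J 0) / 2 ∧ m (n := n) τ J 2 = (1 - m (n := n) τ J 0) / 2 := by
  have h1 := m_sum (n := n) τ J
  rw [Fin.sum_univ_three] at h1
  have h2 := m1_eq_m2 (n := n) τ J
  constructor <;> linarith

/-- The Laguerre structure. -/
lemma lag (τ J : ℝ) (h : ∀ i, 0 < m (n := n) τ J i) :
    LagMap (Q n) (T τ J : E (n + 2) → E (n + 2)) (p τ) (m (n := n) τ J) (w τ J) := by
  refine ⟨⟨p_inj τ, h, m_sum τ J⟩, ?_, T_meas τ J, T_sel τ J⟩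
  intro i
  simp [m]

lemma p_mem (τ : ℝ) (h0 : 0 ≤ τ) (h1 : τ ≤ 1) (i : Fin 3) : (p τ i : E (n + 2)) ∈ Q n := by
  intro k
  fin_cases i
  · simp only [p, e0, Fin.zero_eta, Matrix.cons_val_zero, PiLp.smul_apply, smul_eq_mul]
    by_cases hk : k = 0
    · subst hk
      simp [abs_of_nonneg h0, h1]
    · simp [hk]
  · simp only [p, e1, Fin.mk_one, Matrix.cons_val_one, Matrix.cons_val_zero]
    by_cases hk : k = 1
    · subst hk
      simp
    · simp [hk]
  · simp only [p, e1, Fin.reduceFinMk, Matrix.cons_val, PiLp.neg_apply]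
    by_cases hk : k = 1
    · subst hk
      simp
    · simp [hk]

lemma T_mem (τ J : ℝ) (h0 : 0 ≤ τ) (h1 : τ ≤ 1) (x : E (n + 2)) : T τ J x ∈ Q n := by
  classical
  unfold T
  split_ifs
  · exact p_mem τ h0 h1 0
  · exact p_mem τ h0 h1 1
  · exact p_mem τ h0 h1 2

lemma exists_tau (α : ℝ) (hα : 1 / 3 < α) (C : ℝ≥0) :
    ∃ τ : ℝ, 0 < τ ∧ τ ≤ 1 / 8 ∧ (C : ℝ) * (9 * τ ^ 3) ^ α < τ / 64 := by
  set β := 3 * α - 1 with hβ
  have hβ0 : 0 < β := by rw [hβ]; linarith
  set K : ℝ := (C : ℝ) * 9 ^ α with hK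
  have hK0 : 0 ≤ K := by positivity
  set t : ℝ := (64 * (K + 1))⁻¹ with ht
  have ht0 : 0 < t := by positivity
  set τ₀ : ℝ := t ^ (1 / β) with hτ₀
  have hτ₀0 : 0 < τ₀ := Real.rpow_pos_of_pos ht0 _
  refine ⟨min (1 / 8) τ₀, lt_min (by norm_num) hτ₀0, min_le_left _ _, ?_⟩
  set τ := min (1 / 8) τ₀ with hτ
  have hτ0 : 0 < τ := lt_min (by norm_num) hτ₀0
  have h1 : τ ^ β ≤ t := by
    calc τ ^ β ≤ τ₀ ^ β := Real.rpow_le_rpow hτ0.le (min_le_right _ _) hβ0.le
      _ = t := by
        rw [hτ₀, ← Real.rpow_mul ht0.le, one_div, inv_mul_cancel₀ hβ0.ne', Real.rpow_one]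
  have h2 : (9 * τ ^ 3) ^ α = 9 ^ α * (τ * τ ^ β) := by
    rw [Real.mul_rpow (by norm_num) (by positivity)]
    congr 1
    rw [← Real.rpow_natCast, ← Real.rpow_mul hτ0.le]
    have : ((3 : ℕ) : ℝ) * α = 1 + β := by rw [hβ]; push_cast; ring
    rw [this, Real.rpow_add hτ0, Real.rpow_one]
  rw [h2]
  have h3 : K * τ ^ β < 1 / 64 := by
    have h4 : K * τ ^ β ≤ K * t := by gcongr
    have h5 : K * t < 1 / 64 := by
      rw [ht, mul_inv, ← mul_assoc, lt_div_iff₀ (by norm_num)]
      have : K + 1 > 0 := by linarith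
      field_simp
      linarith
    linarith
  calc (C : ℝ) * (9 ^ α * (τ * τ ^ β)) = τ * (K * τ ^ β) := by rw [hK]; ring
    _ < τ * (1 / 64) := by gcongr
    _ = τ / 64 := by ring

theorem main (n : ℕ) (α : ℝ) (hα : 1 / 3 < α) (C : ℝ≥0) :
    ∃ μ ν : Measure (E (n + 2)),
      IsProbabilityOn (Q n) μ ∧ IsProbabilityOn (Q n) ν ∧ IsThreeAtomic μ ∧ IsThreeAtomic ν ∧
      (∃ T, IsOptimalMap (uniformProbOn (Q n)) μ T) ∧ (∃ T, IsOptimalMap (uniformProbOn (Q n)) ν T) ∧
      ∀ Tμ Tν : E (n + 2) → E (n + 2),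
        IsOptimalMap (uniformProbOn (Q n)) μ Tμ → IsOptimalMap (uniformProbOn (Q n)) ν Tν →
        ∃ π : Measure (E (n + 2) × E (n + 2)), IsPairCoupling μ ν π ∧
          (C : ℝ≥0∞) * quadCost π ^ α < ∫⁻ x, ‖Tμ x - Tν x‖ₑ ^ 2 ∂(uniformProbOn (Q n)) := by
  obtain ⟨τ, h0, h1, hτ⟩ := exists_tau α hα C
  have hprob := rho_isProb (body_Q (n := n))
  -- masses
  have hm0 := m0_pos (n := n) τ h0 h1
  have hm0le := m0_le (n := n) τ h0 h1
  have hm0' := m0_eq (n := n) τ h0 h1
  obtain ⟨hs1, hs2⟩ := side_eq (n := n) τ 0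
  obtain ⟨hs1', hs2'⟩ := side_eq (n := n) (4 * τ) (1 / 2)
  have hside : 0 < (1 - m (n := n) τ 0 0) / 2 := by linarith
  have hpos1 : ∀ i, 0 < m (n := n) τ 0 i := by
    intro i
    fin_cases i
    · exact hm0
    · simp only [Fin.mk_one]; rw [hs1]; exact hside
    · show 0 < m τ 0 2
      rw [hs2]; exact hside
  have hm' : ∀ i, m (n := n) (4 * τ) (1 / 2) i = m (n := n) τ 0 i := by
    intro i
    fin_cases i
    · exact hm0'.symm
    · show m (4 * τ) (1 / 2) 1 = m τ 0 1
      rw [hs1', hs1, hm0']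
    · show m (4 * τ) (1 / 2) 2 = m τ 0 2
      rw [hs2', hs2, hm0']
  have hpos2 : ∀ i, 0 < m (n := n) (4 * τ) (1 / 2) i := fun i => by rw [hm']; exact hpos1 i
  have hlag1 := lag (n := n) τ 0 hpos1
  have hlag2 := lag (n := n) (4 * τ) (1 / 2) hpos2
  have hmap1 := hlag1.map_eq body_Q
  have hmap2 := hlag2.map_eq body_Q
  refine ⟨(rho (Q n)).map (T τ 0), (rho (Q n)).map (T (4 * τ) (1 / 2)), ⟨?_, ?_⟩, ⟨?_, ?_⟩,
    ⟨p τ, p_inj τ, m τ 0, hpos1, hmap1⟩, ⟨p (4 * τ), p_inj _, m (4 * τ) (1 / 2), hpos2, hmap2⟩,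
    ⟨_, lagMap_isOptimal body_Q hlag1⟩, ⟨_, lagMap_isOptimal body_Q hlag2⟩, ?_⟩
  · exact Measure.isProbabilityMeasure_map (T_meas τ 0).aemeasurable
  · rw [Measure.map_apply (T_meas τ 0) body_Q.measurableSet.compl]
    have : (T τ 0 : E (n + 2) → E (n + 2)) ⁻¹' (Q n)ᶜ = ∅ := by
      ext x
      simp only [mem_preimage, mem_compl_iff, mem_empty_iff_false, iff_false, not_not]
      exact T_mem τ 0 h0.le (by linarith) x
    rw [this, measure_empty]
  · exact Measure.isProbabilityMeasure_map (T_meas _ _).aemeasurable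
  · rw [Measure.map_apply (T_meas _ _) body_Q.measurableSet.compl]
    have : (T (4 * τ) (1 / 2) : E (n + 2) → E (n + 2)) ⁻¹' (Q n)ᶜ = ∅ := by
      ext x
      simp only [mem_preimage, mem_compl_iff, mem_empty_iff_false, iff_false, not_not]
      exact T_mem _ _ (by linarith) (by linarith) x
    rw [this, measure_empty]
  intro Tμ Tν hTμ hTν
  have hae1 := optimal_ae_eq body_Q hlag1 hTμ
  have hae2 := optimal_ae_eq body_Q hlag2 hTν
  set a := ENNReal.ofReal (m (n := n) τ 0 0) with ha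
  set b := ENNReal.ofReal (m (n := n) τ 0 1) with hb
  set c := ENNReal.ofReal (m (n := n) τ 0 2) with hc
  let P0 : E (n + 2) := τ • e0
  let P0' : E (n + 2) := (4 * τ) • e0
  let π : Measure (E (n + 2) × E (n + 2)) :=
    a • Measure.dirac (P0, P0') + b • Measure.dirac (e1, e1) + c • Measure.dirac (-e1, -e1)
  refine ⟨π, ⟨?_, ?_⟩, ?_⟩
  · rw [hmap1, Fin.sum_univ_three]
    simp only [π, Measure.map_add _ _ measurable_fst, Measure.map_smul, Measure.map_dirac' measurable_fst]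
    rfl
  · rw [hmap2, Fin.sum_univ_three, hm' 0, hm' 1, hm' 2]
    simp only [π, Measure.map_add _ _ measurable_snd, Measure.map_smul, Measure.map_dirac' measurable_snd]
    rfl
  · -- the cost
    have hf : Measurable (fun q : E (n + 2) × E (n + 2) => ‖q.1 - q.2‖ₑ ^ 2) :=
      ((measurable_fst.sub measurable_snd).enorm).pow_const 2
    have hcost : quadCost π ≤ ENNReal.ofReal (9 * τ ^ 3) := by
      have : quadCost π = a * ‖P0 - P0'‖ₑ ^ 2 := by
        simp only [quadCost, π]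
        rw [lintegral_add_measure, lintegral_add_measure, lintegral_smul_measure, lintegral_smul_measure,
          lintegral_smul_measure, lintegral_dirac' _ hf, lintegral_dirac' _ hf, lintegral_dirac' _ hf]
        simp
      rw [this]
      have hn : ‖P0 - P0'‖ₑ = ENNReal.ofReal (3 * τ) := by
        have e : P0 - P0' = (-(3 * τ)) • (e0 : E (n + 2)) := by
          simp only [P0, P0']
          rw [← sub_smul]
          congr 1
          ring
        rw [e, ← ofReal_norm, norm_smul, Real.norm_eq_abs, abs_neg, abs_of_pos (by positivity)]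
        simp [e0]
      rw [hn, ← ENNReal.ofReal_pow (by positivity), ha, ← ENNReal.ofReal_mul hm0.le]
      apply ENNReal.ofReal_le_ofReal
      have : (0 : ℝ) ≤ (3 * τ) ^ 2 := by positivity
      nlinarith
    have hα0 : 0 < α := by linarith
    have hlow : ENNReal.ofReal (τ / 64) ≤ ∫⁻ x, ‖Tμ x - Tν x‖ₑ ^ 2 ∂(rho (Q n)) := by
      have e : ∫⁻ x, ‖Tμ x - Tν x‖ₑ ^ 2 ∂(rho (Q n)) = ∫⁻ x, ‖T τ 0 x - T (4 * τ) (1 / 2) x‖ₑ ^ 2 ∂(rho (Q n)) := by
        apply lintegral_congr_ae
        filter_upwards [hae1, hae2] with x h1 h2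
        rw [h1, h2]
      have hBm : MeasurableSet (B τ : Set (E (n + 2))) := box_meas _ _ _ _
      rw [e, ← rho_B (n := n) τ h0 h1, ← lintegral_indicator_one hBm]
      apply lintegral_mono
      intro x
      by_cases hx : x ∈ (B τ : Set (E (n + 2)))
      · have hxB : x ∈ (box (1 / 4) (1 / 2) (-τ / 8) (τ / 8) : Set (E (n + 2))) := hx
        rw [indicator_of_mem hx]
        obtain ⟨hQ, h2, h3, h4, h5⟩ := hx
        have habs : |x 1| ≤ τ / 8 := abs_le.mpr ⟨by linarith, h5⟩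
        have hT1 : T τ 0 x = p τ 0 := by
          classical
          have : |x 1| < τ * (x 0 - 0) := by nlinarith
          unfold T
          rw [if_pos this]
        have hT2 : (T (4 * τ) (1 / 2) x) 1 = 1 ∨ (T (4 * τ) (1 / 2) x) 1 = -1 := by
          classical
          have hn : ¬ |x 1| < 4 * τ * (x 0 - 1 / 2) := by
            have : 4 * τ * (x 0 - 1 / 2) ≤ 0 := by nlinarith
            have h6 := abs_nonneg (x 1)
            linarith
          by_cases h7 : 0 < x 1
          · left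
            unfold T
            rw [if_neg hn, if_pos h7]
            simp [p_coord1]
          · right
            unfold T
            rw [if_neg hn, if_neg h7]
            simp [p_coord1]
        have hy : 1 ≤ ‖T τ 0 x - T (4 * τ) (1 / 2) x‖ := by
          have h6 := PiLp.norm_apply_le (T τ 0 x - T (4 * τ) (1 / 2) x) 1
          refine le_trans ?_ h6
          rw [PiLp.sub_apply, hT1, p_coord1, Real.norm_eq_abs]
          rcases hT2 with h7 | h7 <;> rw [h7] <;> norm_num
        have hy' : 1 ≤ ‖T τ 0 x - T (4 * τ) (1 / 2) x‖ₑ := by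
          rw [← ofReal_norm]
          simpa using ENNReal.ofReal_le_ofReal hy
        simpa using one_le_pow₀ hy'
      · rw [indicator_of_notMem hx]
        exact bot_le
    refine lt_of_lt_of_le ?_ hlow
    calc (C : ℝ≥0∞) * quadCost π ^ α ≤ (C : ℝ≥0∞) * ENNReal.ofReal (9 * τ ^ 3) ^ α := by
          gcongr
      _ = ENNReal.ofReal ((C : ℝ) * (9 * τ ^ 3) ^ α) := by
          rw [ENNReal.ofReal_mul (NNReal.coe_nonneg C), ENNReal.ofReal_rpow_of_nonneg (by positivity) hα0.le]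
          simp
      _ < ENNReal.ofReal (τ / 64) := by
          rw [ENNReal.ofReal_lt_ofReal_iff (by positivity)]
          exact hτ

end Crest.Agent.OT.S110
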