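import Crest.Statements.S0109
import Crest.Agent.OTFinal

set_option autoImplicit false
open MeasureTheory
open scoped ENNReal NNReal
open Crest.AnalysisR.OT
open Crest Crest.AnalysisR Crest.AnalysisR.OT

namespace Crest.Agent.S0109

open Crest.Agent.OT Filter Topology Set

private lemma three_sq {V : Type*} [NormedAddCommGroup V] (a b u v : V) :
    ‖a - b‖ ^ 2 ≤ 3 * ‖u - a‖ ^ 2 + 3 * ‖u - v‖ ^ 2 + 3 * ‖v - b‖ ^ 2 := by
  have h1 : ‖a - b‖ ≤ ‖u - a‖ + ‖u - v‖ + ‖v - b‖ := by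
    have : a - b = -(u - a) + (u - v) + (v - b) := by abel
    rw [this]
    calc ‖-(u - a) + (u - v) + (v - b)‖ ≤ ‖-(u - a) + (u - v)‖ + ‖v - b‖ := norm_add_le _ _
      _ ≤ ‖-(u - a)‖ + ‖u - v‖ + ‖v - b‖ := by gcongr; exact norm_add_le _ _
      _ = _ := by rw [norm_neg]
  have h2 : ‖a - b‖ ^ 2 ≤ (‖u - a‖ + ‖u - v‖ + ‖v - b‖) ^ 2 :=
    pow_le_pow_left₀ (norm_nonneg _) h1 2
  nlinarith [sq_nonneg (‖u - a‖ - ‖u - v‖), sq_nonneg (‖u - a‖ - ‖v - b‖),
    sq_nonneg (‖u - v‖ - ‖v - b‖)]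

/-- For every d ≥ 2 ... -/
theorem result
    (d : ℕ) (hd : 2 ≤ d) (K : Set (EuclideanSpace ℝ (Fin d))) (hKc : IsCompact K) (hKv : Convex ℝ K)
    (hKi : (interior K).Nonempty) (Y : Set (EuclideanSpace ℝ (Fin d))) (hYc : IsCompact Y) (hYn : Y.Nonempty) :
    ∃ C : ℝ≥0, ∀ μ ν : Measure (EuclideanSpace ℝ (Fin d)), IsProbabilityOn Y μ → IsProbabilityOn Y ν →
      ∀ Tμ Tν : EuclideanSpace ℝ (Fin d) → EuclideanSpace ℝ (Fin d),
        IsOptimalMap (uniformProbOn K) μ Tμ → IsOptimalMap (uniformProbOn K) ν Tν →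
        ∀ π : Measure (EuclideanSpace ℝ (Fin d) × EuclideanSpace ℝ (Fin d)), IsPairCoupling μ ν π →
          ∫⁻ x, ‖Tμ x - Tν x‖ₑ ^ 2 ∂(uniformProbOn K) ≤ C * quadCost π ^ (1 / 3 : ℝ) := by
  classical
  have hK : Body K := ⟨hKc, hKv, hKi⟩
  obtain ⟨L, hLY⟩ := hYc.isBounded.exists_norm_le
  have hL0 : 0 ≤ L := by
    obtain ⟨y, hy⟩ := hYn
    exact (norm_nonneg y).trans (hLY y hy)
  obtain ⟨C₀, hC₀, hstab⟩ := atomic_stability hK L hL0
  refine ⟨Real.toNNReal (3 * C₀), ?_⟩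
  intro μ ν hμ hν Tμ Tν hTμ hTν π hπ
  have := rho_isProb hK
  have : IsProbabilityMeasure μ := hμ.1
  have : IsProbabilityMeasure ν := hν.1
  have hπ1 : π.map Prod.fst = μ := hπ.1
  have hπ2 : π.map Prod.snd = ν := hπ.2
  have hπuniv : π univ = 1 := by
    have := measure_univ (μ := μ)
    rw [← hπ1, Measure.map_apply measurable_fst MeasurableSet.univ] at this
    simpa using this
  have : IsProbabilityMeasure π := ⟨hπuniv⟩
  have hYm : MeasurableSet Y := hYc.measurableSet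
  -- a.e. bounds
  have hπY : ∀ᵐ z ∂π, z.1 ∈ Y ∧ z.2 ∈ Y := by
    have h1 : π (Prod.fst ⁻¹' Yᶜ) = 0 := by
      have := hμ.2
      rwa [← hπ1, Measure.map_apply measurable_fst hYm.compl] at this
    have h2 : π (Prod.snd ⁻¹' Yᶜ) = 0 := by
      have := hν.2
      rwa [← hπ2, Measure.map_apply measurable_snd hYm.compl] at this
    have h1' : ∀ᵐ z ∂π, z.1 ∈ Y := by
      rw [ae_iff]
      exact h1
    have h2' : ∀ᵐ z ∂π, z.2 ∈ Y := by
      rw [ae_iff]
      exact h2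
    filter_upwards [h1', h2'] with z h3 h4 using ⟨h3, h4⟩
  have hmapY : ∀ {T : E d → E d} {m : Measure (E d)}, Measurable T → (rho K).map T = m → m Yᶜ = 0 →
      ∀ᵐ x ∂(rho K), ‖T x‖ ≤ L := by
    intro T m hT hm h0
    rw [← hm, Measure.map_apply hT hYm.compl] at h0
    have : ∀ᵐ x ∂(rho K), T x ∈ Y := by
      rw [ae_iff]
      exact h0
    filter_upwards [this] with x hx using hLY _ hx
  have hTμb := hmapY hTμ.1 hTμ.2.1 hμ.2
  have hTνb := hmapY hTν.1 hTν.2.1 hν.2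
  -- integrability of squared differences of a.e. bounded maps
  have hsqint : ∀ {A B : E d → E d}, Measurable A → Measurable B → (∀ᵐ x ∂(rho K), ‖A x‖ ≤ L) →
      (∀ᵐ x ∂(rho K), ‖B x‖ ≤ L) → Integrable (fun x => ‖A x - B x‖ ^ 2) (rho K) := by
    intro A B hA hB hAb hBb
    refine Integrable.of_bound (((hA.sub hB).norm.pow_const 2).aestronglyMeasurable) ((L + L) ^ 2) ?_
    filter_upwards [hAb, hBb] with x h1 h2
    rw [Real.norm_of_nonneg (by positivity)]
    exact pow_le_pow_left₀ (norm_nonneg _) ((norm_sub_le _ _).trans (add_le_add h1 h2)) 2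
  -- the discretizations
  let η : ℕ → ℝ := fun n => 1 / ((n : ℝ) + 1)
  have hηpos : ∀ n, 0 < η n := fun n => by positivity
  have hη0 : Tendsto η atTop (𝓝 0) := tendsto_one_div_add_atTop_nhds_zero_nat
  have hdisc := fun n => exists_discretization hYc hYn (hηpos n)
  choose D F hDm hDF hFY hDη using hdisc
  have nμ : ∀ n, Nonempty (atomsOf μ (D n) (F n)) := fun n => nonempty_atomsOf (hDm n) (hDF n)
  have nν : ∀ n, Nonempty (atomsOf ν (D n) (F n)) := fun n => nonempty_atomsOf (hDm n) (hDF n)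
  have hlμ := fun n => exists_lagMap hK (isAtoms_atomsOf (μ := μ) (hDm n) (hDF n))
  have hlν := fun n => exists_lagMap hK (isAtoms_atomsOf (μ := ν) (hDm n) (hDF n))
  choose w T' hT' using hlμ
  choose w' S' hS' using hlν
  have hboundμ : ∀ n, ∀ s : atomsOf μ (D n) (F n), ‖s.1‖ ≤ L := fun n s => hLY _ (hFY n _ s.2.1)
  have hboundν : ∀ n, ∀ s : atomsOf ν (D n) (F n), ‖s.1‖ ≤ L := fun n s => hLY _ (hFY n _ s.2.1)
  have hT'b : ∀ n, ∀ᵐ x ∂(rho K), ‖T' n x‖ ≤ L := by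
    intro n
    filter_upwards [rho_ae_mem hK] with x hx
    obtain ⟨i, -, hi⟩ := (hT' n).sel x hx
    rw [hi]
    exact hboundμ n i
  have hS'b : ∀ n, ∀ᵐ x ∂(rho K), ‖S' n x‖ ≤ L := by
    intro n
    filter_upwards [rho_ae_mem hK] with x hx
    obtain ⟨i, -, hi⟩ := (hS' n).sel x hx
    rw [hi]
    exact hboundν n i
  -- limits of the approximations
  have hlim1 := lagMap_tendsto hK hYc hμ hTμ D F η hDm hDF hFY hDη hη0 T' w hT'
  have hlim2 := lagMap_tendsto hK hYc hν hTν D F η hDm hDF hFY hDη hη0 S' w' hS'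
  -- the real cost
  set cost : ℝ := ∫ z, ‖z.1 - z.2‖ ^ 2 ∂π with hcost
  have hcost0 : 0 ≤ cost := integral_nonneg fun z => by positivity
  have hzint : Integrable (fun z : E d × E d => ‖z.1 - z.2‖ ^ 2) π := by
    refine Integrable.of_bound (((measurable_fst.sub measurable_snd).norm.pow_const 2).aestronglyMeasurable)
      ((L + L) ^ 2) ?_
    filter_upwards [hπY] with z hz
    rw [Real.norm_of_nonneg (by positivity)]
    exact pow_le_pow_left₀ (norm_nonneg _)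
      ((norm_sub_le _ _).trans (add_le_add (hLY _ hz.1) (hLY _ hz.2))) 2
  -- bound for the discretized cost
  have hcostn : ∀ n, ∫ z, ‖D n z.1 - D n z.2‖ ^ 2 ∂π ≤ cost + (8 * L * η n + 4 * η n ^ 2) := by
    intro n
    have hm1 : Measurable (fun z : E d × E d => ‖D n z.1 - D n z.2‖ ^ 2) :=
      (((hDm n).comp measurable_fst).sub ((hDm n).comp measurable_snd)).norm.pow_const 2
    have hi1 : Integrable (fun z : E d × E d => ‖D n z.1 - D n z.2‖ ^ 2) π := by
      refine Integrable.of_bound hm1.aestronglyMeasurable ((L + L) ^ 2) ?_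
      refine Filter.Eventually.of_forall fun z => ?_
      rw [Real.norm_of_nonneg (by positivity)]
      exact pow_le_pow_left₀ (norm_nonneg _) ((norm_sub_le _ _).trans
        (add_le_add (hLY _ (hFY n _ (hDF n _))) (hLY _ (hFY n _ (hDF n _))))) 2
    have hi2 : Integrable (fun z : E d × E d => ‖z.1 - z.2‖ ^ 2 + (8 * L * η n + 4 * η n ^ 2)) π :=
      hzint.add (integrable_const _)
    have h := integral_mono_ae hi1 hi2 (by
      filter_upwards [hπY] with z hz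
      have h1 : ‖D n z.1 - D n z.2‖ ≤ ‖z.1 - z.2‖ + 2 * η n := by
        have e : D n z.1 - D n z.2 = (z.1 - z.2) + (D n z.1 - z.1) - (D n z.2 - z.2) := by abel
        rw [e]
        have h3 := hDη n z.1 hz.1
        have h4 := hDη n z.2 hz.2
        calc ‖(z.1 - z.2) + (D n z.1 - z.1) - (D n z.2 - z.2)‖
            ≤ ‖(z.1 - z.2) + (D n z.1 - z.1)‖ + ‖D n z.2 - z.2‖ := norm_sub_le _ _
          _ ≤ ‖z.1 - z.2‖ + ‖D n z.1 - z.1‖ + ‖D n z.2 - z.2‖ := by gcongr; exact norm_add_le _ _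
          _ ≤ _ := by linarith
      have h2 : ‖z.1 - z.2‖ ≤ 2 * L := by
        have := (norm_sub_le z.1 z.2).trans (add_le_add (hLY _ hz.1) (hLY _ hz.2))
        linarith
      have hη := hηpos n
      have h5 : ‖D n z.1 - D n z.2‖ ^ 2 ≤ (‖z.1 - z.2‖ + 2 * η n) ^ 2 :=
        pow_le_pow_left₀ (norm_nonneg _) h1 2
      nlinarith [norm_nonneg (z.1 - z.2)])
    rw [integral_add hzint (integrable_const _)] at h
    simpa using h
  -- the stability estimate at level `n`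
  have hn : ∀ n, ∫ x, ‖T' n x - S' n x‖ ^ 2 ∂(rho K) ≤
      C₀ * (cost + (8 * L * η n + 4 * η n ^ 2)) ^ (1 / 3 : ℝ) := by
    intro n
    have h := hstab (ι := atomsOf μ (D n) (F n)) (ι' := atomsOf ν (D n) (F n)) (T' n) (S' n)
      (fun s => s.1) (fun s => (μ (D n ⁻¹' {s.1})).toReal) (w n)
      (fun s => s.1) (fun s => (ν (D n ⁻¹' {s.1})).toReal) (w' n)
      (fun s s' => cpl π (D n) s.1 s'.1) (hT' n) (hS' n) (hboundμ n) (hboundν n)
      (fun _ _ => cpl_nonneg _ _)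
      (fun s => sum_cpl_atoms_right hπ1 hπ2 (hDm n) (hDF n) s.1)
      (fun s' => sum_cpl_atoms_left hπ1 hπ2 (hDm n) (hDF n) s'.1)
    refine h.trans ?_
    rw [sum_cpl_cost hπ1 hπ2 (hDm n) (hDF n)]
    refine mul_le_mul_of_nonneg_left ?_ hC₀
    exact Real.rpow_le_rpow (integral_nonneg fun z => by positivity) (hcostn n) (by norm_num)
  -- the three point inequality
  set I : ℝ := ∫ x, ‖Tμ x - Tν x‖ ^ 2 ∂(rho K) with hI
  have hIint : Integrable (fun x => ‖Tμ x - Tν x‖ ^ 2) (rho K) := hsqint hTμ.1 hTν.1 hTμb hTνb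
  have hle : ∀ n, I ≤ 3 * (∫ x, ‖T' n x - Tμ x‖ ^ 2 ∂(rho K)) +
      3 * (C₀ * (cost + (8 * L * η n + 4 * η n ^ 2)) ^ (1 / 3 : ℝ)) +
      3 * (∫ x, ‖S' n x - Tν x‖ ^ 2 ∂(rho K)) := by
    intro n
    have i1 := hsqint (hT' n).meas hTμ.1 (hT'b n) hTμb
    have i2 := hsqint (hT' n).meas (hS' n).meas (hT'b n) (hS'b n)
    have i3 := hsqint (hS' n).meas hTν.1 (hS'b n) hTνb
    have i4 : Integrable (fun x => 3 * ‖T' n x - Tμ x‖ ^ 2 + 3 * ‖T' n x - S' n x‖ ^ 2) (rho K) :=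
      (i1.const_mul 3).add (i2.const_mul 3)
    have i5 : Integrable (fun x => 3 * ‖T' n x - Tμ x‖ ^ 2 + 3 * ‖T' n x - S' n x‖ ^ 2 +
        3 * ‖S' n x - Tν x‖ ^ 2) (rho K) := i4.add (i3.const_mul 3)
    have h := integral_mono hIint i5
      (fun x => three_sq (Tμ x) (Tν x) (T' n x) (S' n x))
    rw [integral_add i4 (i3.const_mul 3), integral_add (i1.const_mul 3) (i2.const_mul 3),
      integral_const_mul, integral_const_mul, integral_const_mul] at h
    have := hn n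
    linarith
  -- passing to the limit
  have hlimR : Tendsto (fun n => 3 * (∫ x, ‖T' n x - Tμ x‖ ^ 2 ∂(rho K)) +
      3 * (C₀ * (cost + (8 * L * η n + 4 * η n ^ 2)) ^ (1 / 3 : ℝ)) +
      3 * (∫ x, ‖S' n x - Tν x‖ ^ 2 ∂(rho K))) atTop (𝓝 (3 * 0 + 3 * (C₀ * cost ^ (1 / 3 : ℝ)) + 3 * 0)) := by
    have h1 : Tendsto (fun n => cost + (8 * L * η n + 4 * η n ^ 2)) atTop (𝓝 cost) := by
      have : Tendsto (fun n => cost + (8 * L * η n + 4 * η n ^ 2)) atTop
          (𝓝 (cost + (8 * L * 0 + 4 * 0 ^ 2))) :=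
        tendsto_const_nhds.add ((hη0.const_mul _).add ((hη0.pow 2).const_mul _))
      simpa using this
    have h2 := h1.rpow_const (p := (1 / 3 : ℝ)) (Or.inr (by norm_num))
    exact ((hlim1.const_mul 3).add ((h2.const_mul C₀).const_mul 3)).add (hlim2.const_mul 3)
  have hfinal : I ≤ 3 * C₀ * cost ^ (1 / 3 : ℝ) := by
    have := ge_of_tendsto' hlimR hle
    nlinarith
  -- conversion to `ℝ≥0∞`
  have hL : ∫⁻ x, ‖Tμ x - Tν x‖ₑ ^ 2 ∂(uniformProbOn K) = ENNReal.ofReal I := by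
    rw [hI, ofReal_integral_eq_lintegral_ofReal hIint (Filter.Eventually.of_forall fun x => by positivity)]
    apply lintegral_congr
    intro x
    rw [ENNReal.ofReal_pow (norm_nonneg _), ofReal_norm]
  have hR : quadCost π = ENNReal.ofReal cost := by
    unfold quadCost
    rw [hcost, ofReal_integral_eq_lintegral_ofReal hzint (Filter.Eventually.of_forall fun x => by positivity)]
    apply lintegral_congr
    intro x
    rw [ENNReal.ofReal_pow (norm_nonneg _), ofReal_norm]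
  rw [hL, hR, ENNReal.ofReal_rpow_of_nonneg hcost0 (by norm_num)]
  have hC : ((Real.toNNReal (3 * C₀) : ℝ≥0) : ℝ≥0∞) = ENNReal.ofReal (3 * C₀) := rfl
  rw [hC, ← ENNReal.ofReal_mul (by positivity)]
  exact ENNReal.ofReal_le_ofReal hfinal

end Crest.Agent.S0109
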