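import Crest.Statements.S0166
import Crest.Agent.H4Depth
import Crest.Agent.H4Dia

set_option autoImplicit false
open Crest Crest.AnalysisR

namespace Crest.Agent.S0166

/-- There is a real Banach space (RealBanach record) that is separable, infinite-dimensional and reflexive, whose given norm has at every t > 0 averaged midpoint asymptotic modulus at least √(1 + t²/12) - 1 and at least (√(1 + t²/4) - 1)/2 and maximum-based midpoint modulus at least √(1 + t²/4) - 1, on which no equivalent norm is asymptotically uniformly convex, and in which for every k every map of the depth-k countably branching diamond graph of distortion at most D has 1 + k/4 ≤ D². -/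
theorem result :
    ∃ E : Crest.AnalysisR.RealBanach, E.IsSeparableInfiniteDim ∧ E.IsReflexive ∧
      (∀ t : ℝ, 0 < t → E.MidpointModulusGE E.norm t (Real.sqrt (1 + t ^ 2 / 12) - 1) ∧
        E.MidpointModulusGE E.norm t ((Real.sqrt (1 + t ^ 2 / 4) - 1) / 2) ∧
        E.MaxMidpointModulusGE E.norm t (Real.sqrt (1 + t ^ 2 / 4) - 1)) ∧
      (∀ N : E.X → ℝ, E.IsEquivNorm N → ¬ E.IsAUC N) ∧
      ∀ (k : ℕ) (f : Crest.AnalysisR.DiamondVertex k → E.X) (D : ℝ),
        E.HasDistortionLE k f D → 1 + (k : ℝ) / 4 ≤ D ^ 2 := by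
  let E : Crest.AnalysisR.RealBanach :=
    ⟨lp Crest.Agent.H4Depth.Xs 2, inferInstance, inferInstance, inferInstance⟩
  have hNA : ∀ N : lp Crest.Agent.H4Depth.Xs 2 → ℝ, Crest.Agent.H4Auc.EquivN N →
      ¬ Crest.Agent.H4Auc.AUCg N := Crest.Agent.H4Depth.not_aucg_sum
  have hmid : ∀ (t : ℝ) (x : lp Crest.Agent.H4Depth.Xs 2), ‖x‖ = 1 → ∀ η : ℝ, 0 < η →
      ∃ F : Submodule ℝ (lp Crest.Agent.H4Depth.Xs 2), Crest.Agent.H4Auc.Cof F ∧ ∀ y ∈ F, ‖y‖ = 1 →
        Real.sqrt (1 + t ^ 2 / 4) - η ≤ (‖x + t • y‖ + ‖x - t • y‖) / 2 :=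
    fun t x hx η hη => Crest.Agent.H4Sum.midpoint_of_tc Crest.Agent.H4Depth.tc_Xs x hx t hη
  refine ⟨E, ⟨Crest.Agent.H4Depth.separable_Xs, ?_⟩, Crest.Agent.H4Depth.reflexive_Xs, ?_, ?_, ?_⟩
  · change ¬ FiniteDimensional ℝ (lp Crest.Agent.H4Depth.Xs 2)
    exact Crest.Agent.H4Auc.infinite_dim_of_not_aucg (hNA _ Crest.Agent.H4Auc.equivN_norm)
  · intro t ht
    have hs1 : 0 ≤ Real.sqrt (1 + t ^ 2 / 4) - 1 := by
      have : Real.sqrt 1 ≤ Real.sqrt (1 + t ^ 2 / 4) :=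
        Real.sqrt_le_sqrt (by nlinarith [sq_nonneg t])
      rw [Real.sqrt_one] at this
      linarith
    refine ⟨?_, ?_, ?_⟩
    · intro (x : lp Crest.Agent.H4Depth.Xs 2) hx η hη
      obtain ⟨F, hF, h⟩ := hmid t x hx η hη
      refine ⟨(F : Set (lp Crest.Agent.H4Depth.Xs 2)), Crest.Agent.H4Auc.isCof_of E F hF,
        fun (y : lp Crest.Agent.H4Depth.Xs 2) hy hy1 => ?_⟩
      have h1 := h y hy hy1
      change Real.sqrt (1 + t ^ 2 / 12) - 1 - η ≤ (‖x + t • y‖ + ‖x - t • y‖) / 2 - 1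
      have h2 : Real.sqrt (1 + t ^ 2 / 12) ≤ Real.sqrt (1 + t ^ 2 / 4) :=
        Real.sqrt_le_sqrt (by nlinarith [sq_nonneg t])
      linarith
    · intro (x : lp Crest.Agent.H4Depth.Xs 2) hx η hη
      obtain ⟨F, hF, h⟩ := hmid t x hx η hη
      refine ⟨(F : Set (lp Crest.Agent.H4Depth.Xs 2)), Crest.Agent.H4Auc.isCof_of E F hF,
        fun (y : lp Crest.Agent.H4Depth.Xs 2) hy hy1 => ?_⟩
      have h1 := h y hy hy1
      change (Real.sqrt (1 + t ^ 2 / 4) - 1) / 2 - η ≤ (‖x + t • y‖ + ‖x - t • y‖) / 2 - 1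
      linarith
    · intro (x : lp Crest.Agent.H4Depth.Xs 2) hx η hη
      obtain ⟨F, hF, h⟩ := hmid t x hx η hη
      refine ⟨(F : Set (lp Crest.Agent.H4Depth.Xs 2)), Crest.Agent.H4Auc.isCof_of E F hF,
        fun (y : lp Crest.Agent.H4Depth.Xs 2) hy hy1 => ?_⟩
      have h1 := h y hy hy1
      change Real.sqrt (1 + t ^ 2 / 4) - 1 - η ≤ max ‖x + t • y‖ ‖x - t • y‖ - 1
      have h2 := le_max_left ‖x + t • y‖ ‖x - t • y‖
      have h3 := le_max_right ‖x + t • y‖ ‖x - t • y‖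
      linarith
  · intro N hN hA
    exact hNA N (Crest.Agent.H4Auc.equivN_of _ hN) (Crest.Agent.H4Auc.aucg_of _ hA)
  · intro k f D hf
    obtain ⟨s, hs, h⟩ := hf
    exact Crest.Agent.H4Dia.diamond_bound (X := lp Crest.Agent.H4Depth.Xs 2)
      Crest.Agent.H4Depth.tc_Xs Crest.Agent.H4Depth.reflexive_Xs k f D s hs h

end Crest.Agent.S0166
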