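import Crest.Statements.S0167
import Crest.Agent.H4Daug
import Crest.Agent.H4L1

set_option autoImplicit false
open Crest Crest.AnalysisR

namespace Crest.Agent.S0167

/-- Let E be an infinite-dimensional closed subspace of the real L¹ of a probability space whose closed unit ball is totally bounded for convergence in measure and whose norm has the Daugavet property. Then at every unit x ∈ E and every t > 0 the averaged midpoint quantity sup_F inf_y ((‖x+ty‖+‖x-ty‖)/2 - 1) equals max(t/2, t-1) and the one-sided one sup_F inf_y (‖x+ty‖ - 1) equals max(0, t-2), as matching lower and upper bounds, and E admits no equivalent asymptotically uniformly convex norm. -/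
theorem result (Ω : Type) [MeasurableSpace Ω] (P : MeasureTheory.Measure Ω) [MeasureTheory.IsProbabilityMeasure P]
    (E : Submodule ℝ (MeasureTheory.Lp ℝ 1 P)) (hcl : IsClosed (E : Set (MeasureTheory.Lp ℝ 1 P)))
    (hinf : ¬ FiniteDimensional ℝ E)
    (htb : Crest.AnalysisR.L1Subspace.UnitBallTotallyBoundedInMeasure P E)
    (hD : Crest.AnalysisR.L1Subspace.HasDaugavetProperty E) :
    (∀ t : ℝ, 0 < t →
      (Crest.AnalysisR.L1Subspace.toRealBanach P E hcl).MidpointModulusGE
          (Crest.AnalysisR.L1Subspace.toRealBanach P E hcl).norm t (max (t / 2) (t - 1)) ∧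
        (Crest.AnalysisR.L1Subspace.toRealBanach P E hcl).MidpointModulusLE
          (Crest.AnalysisR.L1Subspace.toRealBanach P E hcl).norm t (max (t / 2) (t - 1)) ∧
        (Crest.AnalysisR.L1Subspace.toRealBanach P E hcl).OneSidedModulusGE
          (Crest.AnalysisR.L1Subspace.toRealBanach P E hcl).norm t (max 0 (t - 2)) ∧
        (Crest.AnalysisR.L1Subspace.toRealBanach P E hcl).OneSidedModulusLE
          (Crest.AnalysisR.L1Subspace.toRealBanach P E hcl).norm t (max 0 (t - 2))) ∧
      ∀ N : E → ℝ, (Crest.AnalysisR.L1Subspace.toRealBanach P E hcl).IsEquivNorm N →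
        ¬ (Crest.AnalysisR.L1Subspace.toRealBanach P E hcl).IsAUC N := by
  obtain ⟨e, he⟩ : ∃ e : E, ‖e‖ = 1 := by
    rcases subsingleton_or_nontrivial E with h | h
    · have : Finite E := Finite.of_subsingleton
      exact absurd (Module.Finite.of_finite : Module.Finite ℝ E) hinf
    · obtain ⟨x, hx⟩ := exists_ne (0 : E)
      refine ⟨‖x‖⁻¹ • x, ?_⟩
      rw [norm_smul, norm_inv, norm_norm, inv_mul_cancel₀ (norm_ne_zero_iff.mpr hx)]
  refine ⟨fun t ht => ⟨?_, ?_, ?_, ?_⟩, ?_⟩
  · intro (x : E) hx η hη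
    obtain ⟨F, hF, h⟩ := Crest.Agent.H4L1.midpoint_ge E htb x hx ht hη
    refine ⟨(F : Set E), Crest.Agent.H4Auc.isCof_of (Crest.AnalysisR.L1Subspace.toRealBanach P E hcl) F hF, fun (y : E) hy hy1 => ?_⟩
    change max (t / 2) (t - 1) - η ≤ (‖x + t • y‖ + ‖x - t • y‖) / 2 - 1
    have h1 := h y hy hy1
    have hy1' : ‖y‖ = 1 := hy1
    have h2 : 2 * t ≤ ‖x + t • y‖ + ‖x - t • y‖ := by
      have e1 : (2 * t) • y = (x + t • y) - (x - t • y) := by
        rw [two_mul, add_smul]
        abel
      have e2 := norm_sub_le (x + t • y) (x - t • y)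
      rw [← e1, norm_smul, hy1', mul_one, Real.norm_eq_abs, abs_of_pos (by positivity)] at e2
      exact e2
    have h3 : max (t / 2) (t - 1) ≤ (‖x + t • y‖ + ‖x - t • y‖) / 2 - 1 + η := by
      refine max_le ?_ ?_ <;> linarith
    linarith
  · intro (x : E) hx F hF η hη
    obtain ⟨S, rfl, hcl', hfd⟩ := hF
    have hx' : ‖x‖ = 1 := hx
    obtain ⟨y, hy, hy1, h⟩ := Crest.Agent.H4Daug.midpoint_le hD he hx' (F := S) ⟨hcl', hfd⟩ ht hη
    exact ⟨y, hy, hy1, h⟩
  · intro (x : E) hx η hη
    have hx' : ‖x‖ = 1 := hx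
    obtain ⟨F, hF, h⟩ := Crest.Agent.H4Daug.one_sided_ge hx' ht
    refine ⟨(F : Set E), Crest.Agent.H4Auc.isCof_of (Crest.AnalysisR.L1Subspace.toRealBanach P E hcl) F hF, fun (y : E) hy hy1 => ?_⟩
    have := h y hy hy1
    change max 0 (t - 2) - η ≤ ‖x + t • y‖ - 1
    linarith
  · intro (x : E) hx F hF η hη
    obtain ⟨S, rfl, hcl', hfd⟩ := hF
    have hx' : ‖x‖ = 1 := hx
    obtain ⟨y, hy, hy1, h⟩ := Crest.Agent.H4Daug.one_sided_le hD he hx' (F := S) ⟨hcl', hfd⟩ ht hη
    refine ⟨y, hy, hy1, ?_⟩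
    change ‖x + t • y‖ - 1 ≤ max 0 (t - 2) + η
    have h2 : max 1 (t - 1) - 1 ≤ max 0 (t - 2) := by
      rcases le_total 1 (t - 1) with h3 | h3
      · rw [max_eq_right h3]
        have := le_max_right 0 (t - 2)
        linarith
      · rw [max_eq_left h3]
        have := le_max_left 0 (t - 2)
        linarith
    linarith
  · intro N hN hA
    exact Crest.Agent.H4Daug.not_aucg hD he N (Crest.Agent.H4Auc.equivN_of _ hN)
      (Crest.Agent.H4Auc.aucg_of _ hA)

end Crest.Agent.S0167
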