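-- Proof of S0223: the law of the arrangement after `t` shuffles is supported on at most
-- `2 ^ (m * t)` permutations, so it is far from uniform when that number is small.
import Crest.Statements.S0223

set_option autoImplicit false
open Crest Crest.ProbabilityR

namespace Crest.Agent.S0223

open Crest.ProbabilityR.Shuffle

lemma stepPos_injective (m : ℕ) (c : Fin m → Bool) : Function.Injective (stepPos m c) := by
  intro x y hxy
  have hm : 0 < m := by have := x.isLt; omega
  have hval := congrArg Fin.val hxy
  simp only [stepPos] at hval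
  have hx := x.isLt
  have hy := y.isLt
  have hxm : x.val % m < m := Nat.mod_lt _ hm
  have hym : y.val % m < m := Nat.mod_lt _ hm
  have hu : x.val % m = y.val % m := by
    split_ifs at hval <;> omega
  have hc : c ⟨x.val % m, hxm⟩ = c ⟨y.val % m, hym⟩ := by
    congr 1
    exact Fin.ext hu
  have hb : (xor (decide (m ≤ x.val)) (c ⟨x.val % m, hxm⟩) = true) ↔
      (xor (decide (m ≤ y.val)) (c ⟨y.val % m, hym⟩) = true) := by
    constructor
    · intro h
      by_contra hn
      rw [if_pos h, if_neg hn] at hval
      omega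
    · intro h
      by_contra hn
      rw [if_pos h, if_neg hn] at hval
      omega
  rw [hc] at hb
  have hd : decide (m ≤ x.val) = decide (m ≤ y.val) := by
    cases h1 : decide (m ≤ x.val) <;> cases h2 : decide (m ≤ y.val) <;>
      cases h3 : c ⟨y.val % m, hym⟩ <;> simp_all
  have hd' : m ≤ x.val ↔ m ≤ y.val := by simpa using hd
  apply Fin.ext
  have h1 := Nat.mod_add_div x.val m
  have h2 := Nat.mod_add_div y.val m
  by_cases hcase : m ≤ x.val
  · have hcase' := hd'.1 hcase
    have e1 : x.val / m = 1 := by
      apply Nat.div_eq_of_lt_le <;> omega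
    have e2 : y.val / m = 1 := by
      apply Nat.div_eq_of_lt_le <;> omega
    rw [e1] at h1; rw [e2] at h2; omega
  · have hcase' : ¬ m ≤ y.val := fun h => hcase (hd'.2 h)
    have e1 : x.val / m = 0 := Nat.div_eq_of_lt (by omega)
    have e2 : y.val / m = 0 := Nat.div_eq_of_lt (by omega)
    rw [e1] at h1; rw [e2] at h2; omega

lemma iterPos_bijective (m : ℕ) : ∀ (t : ℕ) (cs : Fin t → Fin m → Bool),
    Function.Bijective (iterPos m t cs)
  | 0, _ => by
      exact Function.bijective_id
  | t + 1, cs => by
      have h1 := iterPos_bijective m t (fun i => cs i.castSucc)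
      have h2 : Function.Bijective (stepPos m (cs (Fin.last t))) :=
        Finite.injective_iff_bijective.mp (stepPos_injective m _)
      exact h2.comp h1

/-- Generic total-variation bound. -/
lemma tv_lower_bound {G : Type*} [Fintype G] [DecidableEq G] (P : G → ℝ) (hP0 : ∀ g, 0 ≤ P g)
    (hP1 : ∑ g, P g = 1) (U : ℝ) (hU : 0 ≤ U)
    (A : Finset G) (hA : ∀ g, g ∉ A → P g = 0) :
    (Fintype.card G : ℝ) * U - (A.card : ℝ) * U + 1 - (A.card : ℝ) * U ≤ ∑ g, |P g - U| := by
  classical
  have hsplit : ∑ g, |P g - U| = ∑ g ∈ A, |P g - U| + ∑ g ∈ Finset.univ \ A, |P g - U| := by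
    rw [add_comm, Finset.sum_sdiff (Finset.subset_univ A)]
  have h1 : ∑ g ∈ A, (P g - U) ≤ ∑ g ∈ A, |P g - U| :=
    Finset.sum_le_sum fun g _ => le_abs_self _
  have h2 : ∑ g ∈ A, P g = 1 := by
    rw [← hP1]
    refine Finset.sum_subset (Finset.subset_univ A) ?_
    intro g _ hg
    exact hA g hg
  have h3 : ∑ g ∈ Finset.univ \ A, |P g - U| = ((Fintype.card G : ℝ) - A.card) * U := by
    have : ∀ g ∈ Finset.univ \ A, |P g - U| = U := by
      intro g hg
      have hgA : g ∉ A := by simpa using hg
      rw [hA g hgA, zero_sub, abs_neg, abs_of_nonneg hU]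
    rw [Finset.sum_congr rfl this, Finset.sum_const, nsmul_eq_mul,
      Finset.card_sdiff_of_subset (Finset.subset_univ A), Finset.card_univ]
    rw [Nat.cast_sub (Finset.card_le_univ A)]
  have h4 : ∑ g ∈ A, (P g - U) = 1 - (A.card : ℝ) * U := by
    rw [Finset.sum_sub_distrib, h2, Finset.sum_const, nsmul_eq_mul]
  rw [hsplit, h3]
  nlinarith [h1, h4]

/-- For a deck of `2 * 2 ^ d` cards and every number `t` of shuffles, the total variation distance between the law of the arrangement of the deck and the uniform law on all arrangements is at least `1 - 2 ^ (2 ^ d * t) / (2 * 2 ^ d)!`. -/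
theorem result (d t : ℕ) :
    1 - (2 : ℝ) ^ (2 ^ d * t) / ((2 * 2 ^ d).factorial : ℝ)
      ≤ Crest.ProbabilityR.Shuffle.tvFromUniform (2 ^ d) t := by
  classical
  set m := 2 ^ d with hm
  set N : ℝ := ((2 * m).factorial : ℝ) with hN
  have hNpos : 0 < N := by
    rw [hN]; exact_mod_cast Nat.factorial_pos _
  -- tables
  let T := Fin t → Fin m → Bool
  have hTcard : (Fintype.card T : ℝ) = (2 : ℝ) ^ (m * t) := by
    simp only [T, Fintype.card_fun, Fintype.card_fin, Fintype.card_bool]
    push_cast
    rw [← pow_mul, mul_comm]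
  have hTpos : (0 : ℝ) < Fintype.card T := by rw [hTcard]; positivity
  -- the permutation of a table
  let perm : T → Equiv.Perm (Fin (2 * m)) := fun cs =>
    Equiv.ofBijective _ (iterPos_bijective m t cs)
  have hperm : ∀ cs (g : Equiv.Perm (Fin (2 * m))),
      iterPos m t cs = ⇑g ↔ perm cs = g := by
    intro cs g
    constructor
    · intro h; ext x; simp [perm, h]
    · intro h; rw [← h]; rfl
  -- probabilities
  let P : Equiv.Perm (Fin (2 * m)) → ℝ := fun g =>
    Crest.FinProb.uniformProb {cs : Fin t → Fin m → Bool | iterPos m t cs = ⇑g}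
  have hPdef : ∀ g, P g = ((Finset.univ.filter fun cs : T => perm cs = g).card : ℝ)
      / (Fintype.card T : ℝ) := by
    intro g
    simp only [P, Crest.FinProb.uniformProb]
    congr 2
    congr 1
    · ext cs
      simp [hperm]
  have hP0 : ∀ g, 0 ≤ P g := by
    intro g; rw [hPdef]; positivity
  have hP1 : ∑ g, P g = 1 := by
    have : ∑ g, ((Finset.univ.filter fun cs : T => perm cs = g).card : ℝ) = Fintype.card T := by
      have h := Finset.card_eq_sum_card_fiberwise
        (f := perm) (s := (Finset.univ : Finset T)) (t := (Finset.univ : Finset (Equiv.Perm (Fin (2 * m)))))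
        (fun _ _ => Finset.mem_univ _)
      rw [Finset.card_univ] at h
      rw [h]; push_cast; rfl
    simp_rw [hPdef]
    rw [← Finset.sum_div, this, div_self hTpos.ne']
  let A : Finset (Equiv.Perm (Fin (2 * m))) := Finset.univ.image perm
  have hA : ∀ g, g ∉ A → P g = 0 := by
    intro g hg
    rw [hPdef]
    have : (Finset.univ.filter fun cs : T => perm cs = g) = ∅ := by
      apply Finset.filter_eq_empty_iff.2
      intro cs _ hcs
      exact hg (Finset.mem_image.2 ⟨cs, Finset.mem_univ _, hcs⟩)
    rw [this]; simp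
  have hAcard : (A.card : ℝ) ≤ (2 : ℝ) ^ (m * t) := by
    rw [← hTcard]
    exact_mod_cast Finset.card_image_le.trans (le_of_eq (Finset.card_univ))
  have hcardG : (Fintype.card (Equiv.Perm (Fin (2 * m))) : ℝ) = N := by
    rw [Fintype.card_perm, Fintype.card_fin]
  have key := tv_lower_bound P hP0 hP1 (1 / N) (by positivity) A hA
  rw [hcardG] at key
  have hdiv : N * (1 / N) = 1 := by field_simp
  have hgoal : Crest.ProbabilityR.Shuffle.tvFromUniform m t =
      (1 / 2) * ∑ g : Equiv.Perm (Fin (2 * m)), |P g - 1 / N| := rfl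
  rw [hgoal]
  have h5 : (A.card : ℝ) * (1 / N) ≤ (2 : ℝ) ^ (m * t) / N := by
    rw [mul_one_div]
    gcongr
  linarith

end Crest.Agent.S0223
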