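import Crest.Statements.S0254
import Crest.Agent.H5SLEdgeNoise

set_option autoImplicit false
set_option linter.unusedSectionVars false
set_option linter.unusedVariables false
open Crest Crest.ProbabilityR

namespace Crest.Agent.S0254

open MeasureTheory Filter Topology Crest.Agent.H5SL Crest.ProbabilityR.SpanningTrees
  Crest.ProbabilityR.GraphTables Crest.ProbabilityR.Labels

lemma graphOfTable_tableOf (G : SimpleGraph ℕ) : graphOfTable (tableOf G) = G := by
  ext u v
  unfold graphOfTable tableOf
  simp only [SimpleGraph.fromRel_adj, decide_eq_true_eq]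
  constructor
  · rintro ⟨_, h | h⟩
    · exact h
    · exact SimpleGraph.Adj.symm h
  · intro h
    exact ⟨G.ne_of_adj h, Or.inl h⟩

/-- the rule, given an edge noise -/
noncomputable def Phi (code : SimpleGraph ℕ → (ℕ → unitInterval) → Sym2 ℕ → Code) (G : SimpleGraph ℕ)
    (x : ℕ → unitInterval) (e : Sym2 ℕ) : Bool :=
  outB (sol (DG G) (fun f s => extCode (code G x f) s) e)

lemma Phi_measurable (code : SimpleGraph ℕ → (ℕ → unitInterval) → Sym2 ℕ → Code)
    (hcode : ∀ z, Measurable (fun p : (ℕ → ℕ → Bool) × (ℕ → unitInterval) => code (graphOfTable p.1) p.2 z)) :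
    Measurable (fun p : (ℕ → ℕ → Bool) × (ℕ → unitInterval) => Phi code (graphOfTable p.1) p.2) := by
  refine measurable_pi_iff.2 fun e => ?_
  refine measurable_outB_sol (Q := (ℕ → ℕ → Bool) × (ℕ → unitInterval))
    (D := fun q => DG (graphOfTable q.1)) (N := fun q f s => extCode (code (graphOfTable q.1) q.2 f) s)
    ?_ ?_ e
  · intro e'
    have h1 := measurable_DG e'
    have h2 : Measurable (fun r : ((ℕ → ℕ → Bool) × (ℕ → unitInterval)) × (Sym2 ℕ → ℝ) => (r.1.1, r.2)) :=
      (measurable_fst.comp measurable_fst).prodMk measurable_snd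
    have h3 := h1.comp h2
    exact h3
  · intro f
    have h1 : Measurable (fun r : Code × ℝ => extCode r.1 r.2) := measurable_extCode
    have h2 : Measurable (fun r : ((ℕ → ℕ → Bool) × (ℕ → unitInterval)) × ℝ =>
        (code (graphOfTable r.1.1) r.1.2 f, r.2)) :=
      ((hcode f).comp measurable_fst).prodMk measurable_snd
    have h3 := h1.comp h2
    exact h3

lemma Phi_equivariant (code : SimpleGraph ℕ → (ℕ → unitInterval) → Sym2 ℕ → Code)
    (hcode : ∀ (σ : Equiv.Perm ℕ) (G : SimpleGraph ℕ) (x : ℕ → unitInterval) (z : Sym2 ℕ),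
      code (G.comap σ) (x ∘ σ) z = code G x (Sym2.map σ z))
    (σ : Equiv.Perm ℕ) (G : SimpleGraph ℕ) (x : ℕ → unitInterval) :
    Phi code (G.comap σ) (x ∘ σ) = Phi code G x ∘ Sym2.map σ := by
  funext e
  have h : ∀ t, sol (DG G) (fun f s => extCode (code G x f) s) (Sym2.map σ e) t =
      sol (DG (G.comap σ)) (fun f s => extCode (code (G.comap σ) (x ∘ σ) f) s) e t :=
    fun t => sol_relabel (Sym2.map σ) (fun e' y' => DG_map σ G e' y')
      (fun e' s => by rw [hcode]) e t
  have h2 : sol (DG G) (fun f s => extCode (code G x f) s) (Sym2.map σ e) =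
      sol (DG (G.comap σ)) (fun f s => extCode (code (G.comap σ) (x ∘ σ) f) s) e := funext h
  show outB (sol (DG (G.comap σ)) (fun f s => extCode (code (G.comap σ) (x ∘ σ) f) s) e) =
    outB (sol (DG G) (fun f s => extCode (code G x f) s) (Sym2.map σ e))
  rw [h2]

theorem Phi_at_edge (code : SimpleGraph ℕ → (ℕ → unitInterval) → Sym2 ℕ → Code)
    (G : SimpleGraph ℕ) (x : ℕ → unitInterval) (e : G.edgeSet) :
    Phi code G x e.1 = PhiE (DI G) (fun e : G.edgeSet => code G x e.1) e := by
  have h : ∀ t, sol (DG G) (fun f s => extCode (code G x f) s) e.1 t =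
      sol (DI G) (fun (f : G.edgeSet) s => extCode (code G x f.1) s) e t := by
    intro t
    refine sol_relabel (Subtype.val : G.edgeSet → Sym2 ℕ) ?_ (fun e' s => rfl) e t
    intro e' y'
    unfold DI
    apply DG_congr
    intro f hf
    exact (extY_of_mem G y' hf).symm
  have h2 : sol (DG G) (fun f s => extCode (code G x f) s) e.1 =
      sol (DI G) (fun (f : G.edgeSet) s => extCode (code G x f.1) s) e := funext h
  show outB (sol (DG G) (fun f s => extCode (code G x f) s) e.1) =
    outB (sol (DI G) (fun (f : G.edgeSet) s => extCode (code G x f.1) s) e)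
  rw [h2]

/-- One rule from (graph on `ℕ`, labels in `[0,1]^ℕ`) to edge sets, jointly measurable in (adjacency table, labels) and commuting on every input with every permutation of `ℕ` acting on graph, labels and pairs, gives i.i.d. uniform labels the free uniform spanning forest's law on every connected locally finite graph: along every exhaustion by finite connected induced pieces, for finite edge sets `F` the chance that the piece's uniform spanning tree contains `F` tends to that for the output. -/
theorem result :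
    ∃ Φ : SimpleGraph ℕ → (ℕ → unitInterval) → (Sym2 ℕ → Bool),
      Measurable (fun p : (ℕ → ℕ → Bool) × (ℕ → unitInterval) =>
          Φ (Crest.ProbabilityR.GraphTables.graphOfTable p.1) p.2) ∧
      (∀ (σ : Equiv.Perm ℕ) (G : SimpleGraph ℕ) (x : ℕ → unitInterval),
          Φ (G.comap ⇑σ) (x ∘ ⇑σ) = Φ G x ∘ Sym2.map ⇑σ) ∧
      ∀ G : SimpleGraph ℕ, G.Connected → (∀ v : ℕ, (G.neighborSet v).Finite) →
        ∀ S : ℕ → Finset ℕ, Monotone S → (∀ v : ℕ, ∃ n, v ∈ S n) →
          (∀ n, (G.induce (S n : Set ℕ)).Connected) →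
          ∀ F : Finset (Sym2 ℕ), (↑F : Set (Sym2 ℕ)) ⊆ G.edgeSet →
            Filter.Tendsto (fun n => Crest.ProbabilityR.SpanningTrees.ustContains G (S n) F) Filter.atTop
              (nhds (((Crest.ProbabilityR.Labels.labelMeasure ℕ).map (Φ G) {ω | ∀ e ∈ F, ω e = true}).toReal)) := by
  classical
  obtain ⟨code, hm, heq, hlaw⟩ := exists_edge_noise
  refine ⟨Phi code, Phi_measurable code hm, Phi_equivariant code heq, ?_⟩
  intro G hG hlf S hS hex hc F hF
  obtain ⟨ν, hνp, hν⟩ := exists_fsf hG hlf
  have hD := driftData_DI G hG hlf hν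
  have hE := engine hD isWiener_wienerLaw
  have hconst : Measurable (fun x : ℕ → unitInterval => (tableOf G, x)) :=
    measurable_const.prodMk measurable_id
  have hmPhi : Measurable (Phi code G) := by
    have h := (Phi_measurable code hm).comp hconst
    simp only [Function.comp_def, graphOfTable_tableOf] at h
    exact h
  have hmc : Measurable (fun (x : ℕ → unitInterval) (e : G.edgeSet) => code G x e.1) := by
    refine measurable_pi_iff.2 fun e => ?_
    have h := (hm e.1).comp hconst
    simp only [Function.comp_def, graphOfTable_tableOf] at h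
    exact h
  have hev : MeasurableSet {ω : Sym2 ℕ → Bool | ∀ e ∈ F, ω e = true} := measurableSet_evF F
  rw [Measure.map_apply hmPhi hev]
  let F' : Finset G.edgeSet := F.subtype (· ∈ G.edgeSet)
  have hset : Phi code G ⁻¹' {ω : Sym2 ℕ → Bool | ∀ e ∈ F, ω e = true} =
      (fun (x : ℕ → unitInterval) (e : G.edgeSet) => code G x e.1) ⁻¹' (PhiE (DI G) ⁻¹' evF F') := by
    ext x
    simp only [Set.mem_preimage, Set.mem_ofPred_eq, evF]
    constructor
    · intro h e he
      rw [← Phi_at_edge]
      exact h e.1 (Finset.mem_subtype.1 he)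
    · intro h e he
      have he' : e ∈ G.edgeSet := hF he
      have := h ⟨e, he'⟩ (Finset.mem_subtype.2 he)
      rw [← Phi_at_edge] at this
      exact this
  have hmass : labelMeasure ℕ (Phi code G ⁻¹' {ω : Sym2 ℕ → Bool | ∀ e ∈ F, ω e = true}) = ν (evF F) := by
    rw [hset, ← Measure.map_apply hmc ((measurable_PhiE hD) (measurableSet_evF F')), hlaw G hlf,
      ← Measure.map_apply (measurable_PhiE hD) (measurableSet_evF F'), hE]
    unfold nuI
    rw [Measure.map_apply (measurable_resI G) (measurableSet_evF F')]
    congr 1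
    ext ω
    simp only [Set.mem_preimage, evF, Set.mem_ofPred_eq]
    constructor
    · intro h e he
      have he' : e ∈ G.edgeSet := hF he
      exact h ⟨e, he'⟩ (Finset.mem_subtype.2 he)
    · intro h e he
      exact h e.1 (Finset.mem_subtype.1 he)
  rw [hmass]
  have h5 : (ν (evF F)).toReal = rhoInf G F := hν F hF
  rw [h5]
  exact tendsto_ust hS hex hc hF

end Crest.Agent.S0254
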