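import Crest.Statements.S0255
import Crest.Agent.H5SLBridge

set_option autoImplicit false
set_option linter.unusedSectionVars false
set_option linter.unusedVariables false
set_option linter.unusedSimpArgs false
open Crest Crest.ProbabilityR

namespace Crest.Agent.S0255

open MeasureTheory ProbabilityTheory Filter Topology Crest.Agent.H5SL
open Crest.ProbabilityR.StronglyRayleigh

section Aux

variable {Γ : Type*} [Group Γ] [DecidableEq Γ]

lemma stable_of_sr {ν : Measure (Γ → Bool)} (hsr : IsStronglyRayleigh ν) (V : Finset Γ) :
    Stable (cylP ν V) V := by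
  intro z hz
  exact hsr V z hz

lemma measurable_leftShift (g : Γ) : Measurable (leftShift g : (Γ → Bool) → (Γ → Bool)) :=
  measurable_pi_iff.2 fun h => measurable_pi_apply _

lemma map_leftShift {ν : Measure (Γ → Bool)} (hinv : IsShiftInvariant ν) (g : Γ) :
    ν.map (leftShift g) = ν := by
  ext A hA
  rw [Measure.map_apply (measurable_leftShift g) hA]
  exact hinv g A hA

lemma integral_shift {ν : Measure (Γ → Bool)} (hinv : IsShiftInvariant ν) (g : Γ)
    {F : (Γ → Bool) → ℝ} (hF : Measurable F) :
    ∫ x, F (leftShift g x) ∂ν = ∫ x, F x ∂ν := by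
  conv_rhs => rw [← map_leftShift hinv g]
  rw [integral_map (measurable_leftShift g).aemeasurable hF.aestronglyMeasurable]

lemma tilt_shift (g : Γ) (V : Finset Γ) (y' : Γ → ℝ) (x : Γ → Bool) :
    tiltExp (V.image (g * ·)) y' (leftShift g x) = tiltExp V (fun f => y' (g * f)) x := by
  unfold tiltExp
  congr 1
  rw [Finset.sum_image (fun a _ b _ h => mul_left_cancel h)]
  apply Finset.sum_congr rfl
  intro f _
  simp [leftShift]

lemma meanOn_shift {ν : Measure (Γ → Bool)} [IsProbabilityMeasure ν] (hinv : IsShiftInvariant ν)
    (g : Γ) (V : Finset Γ) (e : Γ) (y' : Γ → ℝ) :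
    meanOn ν (V.image (g * ·)) (g * e) y' = meanOn ν V e (fun f => y' (g * f)) := by
  by_cases he : e ∈ V
  · have he' : g * e ∈ V.image (g * ·) := Finset.mem_image_of_mem _ he
    rw [meanOn_eq_integral ν _ he', meanOn_eq_integral ν _ he]
    have hm1 : Measurable (fun x : Γ → Bool => tiltExp (V.image (g * ·)) y' x) :=
      measurable_tiltExp _ _
    have hm2 : Measurable (fun x : Γ → Bool => spin (x (g * e)) * tiltExp (V.image (g * ·)) y' x) :=
      (measurable_spin.comp (measurable_pi_apply _)).mul hm1
    rw [← integral_shift hinv g hm1, ← integral_shift hinv g hm2]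
    simp_rw [tilt_shift]
    simp [leftShift]
  · have he' : g * e ∉ V.image (g * ·) := by
      intro h
      obtain ⟨a, ha, hae⟩ := Finset.mem_image.1 h
      exact he (by rwa [mul_left_cancel hae] at ha)
    simp [meanOn, he, he']

end Aux

/-- For a countable group `Γ` and a strongly Rayleigh probability law `ν` on binary configurations `Γ → Bool` that is invariant under every left shift `a ↦ (h ↦ a (g⁻¹ h))`, there is a measurable map from independent uniform labels indexed by `Γ` to configurations that commutes with every left shift and pushes the label law forward to `ν`. -/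
theorem result (Γ : Type*) [Group Γ]
    [Countable Γ] (ν : MeasureTheory.Measure (Γ → Bool)) [MeasureTheory.IsProbabilityMeasure ν]
    (hsr : Crest.ProbabilityR.StronglyRayleigh.IsStronglyRayleigh ν)
    (hinv : Crest.ProbabilityR.StronglyRayleigh.IsShiftInvariant ν) :
    ∃ Φ : (Γ → unitInterval) → (Γ → Bool), Measurable Φ ∧
      (∀ (g : Γ) (u : Γ → unitInterval),
        Φ (Crest.ProbabilityR.StronglyRayleigh.leftShift g u) =
          Crest.ProbabilityR.StronglyRayleigh.leftShift g (Φ u)) ∧
      (Crest.ProbabilityR.Labels.labelMeasure Γ).map Φ = ν := by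
  classical
  obtain ⟨f, hf, hfw⟩ := exists_code_map
  have hw := isWiener_wienerLaw
  have hprob := hw.prob
  -- the windows
  obtain ⟨ex, hexm, hexh⟩ := exists_exhaustion (X := Γ)
  let V0 : ℕ → Finset Γ := fun n => insert 1 (ex n)
  let U : Γ → ℕ → Finset Γ := fun e n => (V0 n).image (e * ·)
  have hUm : ∀ e, Monotone (U e) := by
    intro e a b hab
    exact Finset.image_subset_image (Finset.insert_subset_insert _ (hexm hab))
  have hUex : ∀ e f, ∃ n, f ∈ U e n := by
    intro e f
    obtain ⟨n, hn⟩ := hexh (e⁻¹ * f)
    refine ⟨n, Finset.mem_image.2 ⟨e⁻¹ * f, Finset.mem_insert_of_mem hn, by simp⟩⟩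
  have hD := driftData_of_stable ν (stable_of_sr hsr) U hUm hUex
  set D := driftOf ν U with hDdef
  -- the labels
  let lab : (Γ → unitInterval) → (Γ → Code) := fun u g => f (u g)
  have hlabm : Measurable lab := measurable_pi_iff.2 fun g => hf.comp (measurable_pi_apply g)
  have hlab : (Crest.ProbabilityR.Labels.labelMeasure Γ).map lab = wI Γ wienerLaw := by
    unfold Crest.ProbabilityR.Labels.labelMeasure wI
    have h := Measure.infinitePi_map_pi (X := fun _ : Γ => unitInterval)
      (μ := fun _ : Γ => (volume : Measure unitInterval)) (f := fun _ => f) (fun _ => hf)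
    rw [hfw] at h
    exact h
  -- equivariance of the drift
  have hDshift : ∀ (g e : Γ) (y' : Γ → ℝ), D (g * e) y' = D e (y' ∘ (g * ·)) := by
    intro g e y'
    simp only [hDdef, driftOf]
    congr 1
    ext n
    have h1 : U (g * e) n = (U e n).image (g * ·) := by
      simp only [U]
      rw [Finset.image_image]
      congr 1
      ext x
      simp [mul_assoc]
    rw [h1, meanOn_shift hinv]
    rfl
  refine ⟨fun u => PhiE D (lab u), (measurable_PhiE hD).comp hlabm, ?_, ?_⟩
  · intro g u
    funext h
    simp only [PhiE, leftShift]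
    have h1 := sol_relabel (D := D) (D' := D) (N := fun f' s => extCode (lab u f') s)
      (N' := fun f' s => extCode (lab (leftShift g u) f') s) (fun e => g * e)
      (fun e y' => hDshift g e y') (fun e s => by simp [lab, leftShift])
    have h2 : h = g * (g⁻¹ * h) := by simp
    conv_lhs => rw [h2]
    congr 1
    funext t
    exact h1 _ t
  · change Measure.map (PhiE D ∘ lab) _ = ν
    rw [← Measure.map_map (measurable_PhiE hD) hlabm, hlab]
    exact engine hD hw

end Crest.Agent.S0255
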