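import Crest.Agent.TetCover2

set_option autoImplicit false
open MeasureTheory Measure Module
open scoped ENNReal RealInnerProductSpace

namespace Crest.Agent.TetCover

open Crest.Agent.TetArea

/-- The directions of the family. -/
noncomputable def famU : Fin NN ⊕ Fin NN → E3 :=
  Sum.elim (fun i => unitDir (dL (cc i))) (fun i => unitDir (dU (cc i)))
/-- First vertices. -/
noncomputable def famP : Fin NN ⊕ Fin NN → E3 :=
  Sum.elim (fun i => proj (unitDir (dL (cc i))) (AL (cc i)))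
    (fun i => proj (unitDir (dU (cc i))) (AU (cc i)))
/-- Second vertices. -/
noncomputable def famQ : Fin NN ⊕ Fin NN → E3 :=
  Sum.elim (fun i => proj (unitDir (dL (cc i))) (BL (cc i)))
    (fun i => proj (unitDir (dU (cc i))) (BU (cc i)))
/-- Third vertices. -/
noncomputable def famR : Fin NN ⊕ Fin NN → E3 :=
  Sum.elim (fun i => proj (unitDir (dL (cc i))) (CL (cc i)))
    (fun i => proj (unitDir (dU (cc i))) (CU (cc i)))

lemma fam_unit (i : Fin NN ⊕ Fin NN) : ‖famU i‖ = 1 := by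
  rcases i with i | i
  · exact norm_unitDir (dL_ne _)
  · exact norm_unitDir (dU_ne _)

lemma fam_perp (i : Fin NN ⊕ Fin NN) :
    inner ℝ (famP i) (famU i) = 0 ∧ inner ℝ (famQ i) (famU i) = 0 ∧
      inner ℝ (famR i) (famU i) = 0 := by
  rcases i with i | i
  · have h := norm_unitDir (dL_ne (cc i))
    exact ⟨inner_proj _ _ h, inner_proj _ _ h, inner_proj _ _ h⟩
  · have h := norm_unitDir (dU_ne (cc i))
    exact ⟨inner_proj _ _ h, inner_proj _ _ h, inner_proj _ _ h⟩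

lemma fam_cover {P : E3} (hP : P ∈ tetK) :
    ∃ i : Fin NN ⊕ Fin NN, P ∈ Cyl (famU i) (famP i) (famQ i) (famR i) := by
  rcases cover_point hP with ⟨i, hi⟩ | ⟨i, hi⟩
  · exact ⟨Sum.inl i, hi⟩
  · exact ⟨Sum.inr i, hi⟩

/-- The total area of the family. -/
noncomputable def famTotal : ℝ :=
  ∑ i, (μHE[2] (convexHull ℝ {famP i, famQ i, famR i})).toReal

theorem famTotal_le : famTotal ≤ Real.sqrt 2 * (1 / 2 - 9 / 10000000) := by
  have h : famTotal = Real.sqrt 2 *
      ∑ i : Fin NN, 2 * dlt * (HH (cc i) ^ 2 / Real.sqrt (1 + aa (cc i))) := by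
    unfold famTotal
    rw [Fintype.sum_sum_type, Finset.mul_sum, ← Finset.sum_add_distrib]
    apply Finset.sum_congr rfl
    intro i _
    simp only [famP, famQ, famR, Sum.elim_inl, Sum.elim_inr]
    rw [area_lower, area_upper]
    ring
  rw [h]
  exact mul_le_mul_of_nonneg_left total_bound (Real.sqrt_nonneg _)

/-- The padding triangle has the prescribed area. -/
lemma pad_area {A : ℝ} (hA : 0 ≤ A) :
    (μHE[2] (convexHull ℝ ({0, v3 0 1 0, v3 0 0 (2 * A)} : Set E3))).toReal = A := by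
  rw [triangle_area, ENNReal.toReal_ofReal (by positivity)]
  have e : ‖v3 0 1 0 - (0 : E3)‖ ^ 2 * ‖v3 0 0 (2 * A) - (0 : E3)‖ ^ 2 -
      inner ℝ (v3 0 1 0 - (0 : E3)) (v3 0 0 (2 * A) - (0 : E3)) ^ 2 = (2 * A) ^ 2 := by
    simp only [sub_zero, norm_sq_coord, inner_coord, v3_0, v3_1, v3_2]
    ring
  rw [e, Real.sqrt_sq (by positivity)]
  ring

/-- The trivial triangle has zero area. -/
lemma zero_area : (μHE[2] (convexHull ℝ ({0, 0, 0} : Set E3))).toReal = 0 := by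
  have := degenerate_area (0 : E3) 0
  rw [this]
  rfl

lemma inner_zero_e1 : inner ℝ (0 : E3) e1v = 0 := by simp

lemma inner_v1_e1 : inner ℝ (v3 0 1 0) e1v = 0 := by
  rw [inner_coord]
  simp [e1v]

lemma inner_v2_e1 (t : ℝ) : inner ℝ (v3 0 0 t) e1v = 0 := by
  rw [inner_coord]
  simp [e1v]

/-- Padding: any total area at least that of the family is attained, with any number of cylinders
larger than the number used by the family. -/
theorem pad_family {M : ℕ} (hM : 2 * NN + 1 ≤ M) {TT : ℝ} (hTT : famTotal ≤ TT) :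
    ∃ u p q r : Fin M → E3, (∀ i, ‖u i‖ = 1) ∧
      (∀ i, inner ℝ (p i) (u i) = 0 ∧ inner ℝ (q i) (u i) = 0 ∧ inner ℝ (r i) (u i) = 0) ∧
      tetK ⊆ ⋃ i, {x : E3 | ∃ b ∈ convexHull ℝ {p i, q i, r i}, ∃ t : ℝ, x = b + t • u i} ∧
      ∑ i, (μHE[2] (convexHull ℝ ({p i, q i, r i} : Set E3))).toReal = TT := by
  obtain ⟨k, hk⟩ : ∃ k, M = 2 * NN + 1 + k := ⟨M - (2 * NN + 1), by omega⟩
  have hcard : Fintype.card ((Fin NN ⊕ Fin NN) ⊕ (Unit ⊕ Fin k)) = M := by
    simp only [Fintype.card_sum, Fintype.card_fin, Fintype.card_unit]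
    omega
  let e : ((Fin NN ⊕ Fin NN) ⊕ (Unit ⊕ Fin k)) ≃ Fin M := Fintype.equivFinOfCardEq hcard
  set A := TT - famTotal with hA
  have hA0 : 0 ≤ A := by rw [hA]; linarith
  let U : (Fin NN ⊕ Fin NN) ⊕ (Unit ⊕ Fin k) → E3 := Sum.elim famU (fun _ => e1v)
  let P : (Fin NN ⊕ Fin NN) ⊕ (Unit ⊕ Fin k) → E3 := Sum.elim famP (fun _ => 0)
  let Q : (Fin NN ⊕ Fin NN) ⊕ (Unit ⊕ Fin k) → E3 :=
    Sum.elim famQ (Sum.elim (fun _ => v3 0 1 0) (fun _ => 0))
  let R : (Fin NN ⊕ Fin NN) ⊕ (Unit ⊕ Fin k) → E3 :=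
    Sum.elim famR (Sum.elim (fun _ => v3 0 0 (2 * A)) (fun _ => 0))
  refine ⟨fun j => U (e.symm j), fun j => P (e.symm j), fun j => Q (e.symm j),
    fun j => R (e.symm j), ?_, ?_, ?_, ?_⟩
  · intro j
    change ‖U (e.symm j)‖ = 1
    generalize e.symm j = s
    rcases s with i | i
    · exact fam_unit i
    · exact norm_e1v
  · intro j
    change inner ℝ (P (e.symm j)) (U (e.symm j)) = 0 ∧ inner ℝ (Q (e.symm j)) (U (e.symm j)) = 0 ∧
      inner ℝ (R (e.symm j)) (U (e.symm j)) = 0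
    generalize e.symm j = s
    rcases s with i | (_ | i)
    · exact fam_perp i
    · exact ⟨inner_zero_e1, inner_v1_e1, inner_v2_e1 _⟩
    · exact ⟨inner_zero_e1, inner_zero_e1, inner_zero_e1⟩
  · intro x hx
    obtain ⟨i, hi⟩ := fam_cover hx
    refine Set.mem_iUnion.mpr ⟨e (Sum.inl i), ?_⟩
    simp only [Equiv.symm_apply_apply]
    exact hi
  · have hsum := e.symm.sum_comp (fun s => (μHE[2] (convexHull ℝ ({P s, Q s, R s} : Set E3))).toReal)
    have h1 : ∑ a : Fin NN ⊕ Fin NN, (μHE[2] (convexHull ℝ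
        ({P (Sum.inl a), Q (Sum.inl a), R (Sum.inl a)} : Set E3))).toReal = famTotal := rfl
    have h2 : ∑ a : Unit, (μHE[2] (convexHull ℝ
        ({P (Sum.inr (Sum.inl a)), Q (Sum.inr (Sum.inl a)), R (Sum.inr (Sum.inl a))} :
          Set E3))).toReal = A := by
      simp only [Fintype.sum_unique]
      exact pad_area hA0
    have h3 : ∑ a : Fin k, (μHE[2] (convexHull ℝ
        ({P (Sum.inr (Sum.inr a)), Q (Sum.inr (Sum.inr a)), R (Sum.inr (Sum.inr a))} :
          Set E3))).toReal = 0 := by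
      apply Finset.sum_eq_zero
      intro a _
      exact zero_area
    have h4 : ∑ a : Unit ⊕ Fin k, (μHE[2] (convexHull ℝ
        ({P (Sum.inr a), Q (Sum.inr a), R (Sum.inr a)} : Set E3))).toReal = A := by
      rw [Fintype.sum_sum_type, h2, h3, add_zero]
    rw [hsum, Fintype.sum_sum_type, h1, h4, hA]
    ring

/-- The family indexed by a `Fin`, for S0324. -/
theorem fin_family :
    ∃ (m : ℕ) (u p q r : Fin m → E3), (∀ i, ‖u i‖ = 1) ∧
      (∀ i, inner ℝ (p i) (u i) = 0 ∧ inner ℝ (q i) (u i) = 0 ∧ inner ℝ (r i) (u i) = 0) ∧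
      tetK ⊆ ⋃ i, {x : E3 | ∃ b ∈ convexHull ℝ {p i, q i, r i}, ∃ t : ℝ, x = b + t • u i} ∧
      ∑ i, (μHE[2] (convexHull ℝ ({p i, q i, r i} : Set E3))).toReal = famTotal := by
  exact ⟨2 * NN + 1, pad_family le_rfl le_rfl⟩

end Crest.Agent.TetCover
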