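import Crest.Statements.S0324
import Crest.Agent.TetCover3

set_option autoImplicit false
open MeasureTheory
open scoped ENNReal
open Crest Crest.GeometryTopology Crest.GeometryTopology.Convex

namespace Crest.Agent.S0324

/-- The regular tetrahedron `K` with vertices `(±1, 0, 0)`, `(0, ±1, √2)` is covered by finitely many cylinders `Bᵢ + ℝ uᵢ`, each with unit direction `uᵢ` and base `Bᵢ` a triangle (convex hull of three points) in the plane `uᵢ^⊥`, whose total base area `∑ᵢ area(Bᵢ)` is smaller, by a positive margin, than half the area of the orthogonal projection of `K` onto `v^⊥` for every unit vector `v`; areas are 2-dimensional Hausdorff measure. -/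
theorem result :
    ∃ (m : ℕ) (u p q r : Fin m → EuclideanSpace ℝ (Fin 3)),
      (∀ i, ‖u i‖ = 1) ∧
      (∀ i, inner ℝ (p i) (u i) = 0 ∧ inner ℝ (q i) (u i) = 0 ∧ inner ℝ (r i) (u i) = 0) ∧
      convexHull ℝ {!₂[1, 0, 0], !₂[-1, 0, 0], !₂[0, 1, Real.sqrt 2], !₂[0, -1, Real.sqrt 2]} ⊆
        ⋃ i, {x : EuclideanSpace ℝ (Fin 3) | ∃ b ∈ convexHull ℝ {p i, q i, r i}, ∃ t : ℝ, x = b + t • u i} ∧
      ∃ δ : ℝ, 0 < δ ∧ ∀ v : EuclideanSpace ℝ (Fin 3), ‖v‖ = 1 →
        ∑ i, (μH[(2 : ℝ)] (convexHull ℝ {p i, q i, r i})).toReal + δ ≤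
          (μH[(2 : ℝ)] ((fun y => y - inner ℝ y v • v) '' convexHull ℝ {!₂[1, 0, 0], !₂[-1, 0, 0], !₂[0, 1, Real.sqrt 2], !₂[0, -1, Real.sqrt 2]})).toReal / 2 := by
  classical
  obtain ⟨m, u, p, q, r, hu, hperp, hcov, htot⟩ := Crest.Agent.TetCover.fin_family
  have hc : (0:ℝ) < (Crest.Agent.TetArea.areaConst : ℝ) := by
    exact_mod_cast Crest.Agent.TetArea.areaConst_pos
  obtain ⟨c, hcdef⟩ : ∃ c : ℝ, c = (Crest.Agent.TetArea.areaConst : ℝ) := ⟨_, rfl⟩
  rw [← hcdef] at hc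
  have hδ : 0 < Real.sqrt 2 * (9 / 10000000) / c :=
    div_pos (mul_pos (Real.sqrt_pos.mpr (by norm_num)) (by norm_num)) hc
  refine ⟨m, u, p, q, r, hu, hperp, hcov, Real.sqrt 2 * (9 / 10000000) / c, hδ, ?_⟩
  intro v hv
  have hs : ∑ i, (μH[(2:ℝ)] (convexHull ℝ {p i, q i, r i})).toReal =
      Crest.Agent.TetCover.famTotal / c := by
    rw [← htot, Finset.sum_div]
    apply Finset.sum_congr rfl
    intro i _
    rw [Crest.Agent.TetArea.muH_toReal_eq, hcdef]
  have hshadow : Real.sqrt 2 ≤ (μHE[2] (Crest.Agent.TetArea.shadow v)).toReal :=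
    (ENNReal.ofReal_le_iff_le_toReal (Crest.Agent.TetArea.shadow_ne_top v hv)).mp
      (Crest.Agent.TetArea.shadow_lower v hv)
  have hS : (μH[(2:ℝ)] ((fun y => y - inner ℝ y v • v) '' convexHull ℝ {!₂[1, 0, 0], !₂[-1, 0, 0], !₂[0, 1, Real.sqrt 2], !₂[0, -1, Real.sqrt 2]})).toReal =
      (μHE[2] (Crest.Agent.TetArea.shadow v)).toReal / c := by
    rw [hcdef]
    exact Crest.Agent.TetArea.muH_toReal_eq (Crest.Agent.TetArea.shadow v)
  rw [hs, hS]
  have hT := Crest.Agent.TetCover.famTotal_le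
  have key : Crest.Agent.TetCover.famTotal + Real.sqrt 2 * (9 / 10000000) ≤
      (μHE[2] (Crest.Agent.TetArea.shadow v)).toReal / 2 := by
    linarith
  calc Crest.Agent.TetCover.famTotal / c + Real.sqrt 2 * (9 / 10000000) / c
      = (Crest.Agent.TetCover.famTotal + Real.sqrt 2 * (9 / 10000000)) / c := by ring
    _ ≤ ((μHE[2] (Crest.Agent.TetArea.shadow v)).toReal / 2) / c :=
        div_le_div_of_nonneg_right key hc.le
    _ = (μHE[2] (Crest.Agent.TetArea.shadow v)).toReal / c / 2 := by ring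

end Crest.Agent.S0324
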