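import Crest.Agent.Tet7Lattice

set_option autoImplicit false
set_option linter.unusedSimpArgs false
set_option linter.unnecessarySimpa false
set_option linter.unusedTactic false
set_option linter.unreachableTactic false
set_option linter.unusedVariables false

open MeasureTheory Metric Set
open scoped RealInnerProductSpace ENNReal

namespace Crest.Agent.Tet7Lattice

section Frame

variable (b : OrthonormalBasis (Fin 2) ℝ E2)

/-- Norm bound for the inverse of `I + s A` in a frame. -/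
theorem norm_le_of_frame (A : E2 → E2) (β κ L s ℓ : ℝ) (v : E2)
    (hA0 : ⟪b 0, A v⟫ = β * ⟪b 1, v⟫) (hA1 : ⟪b 1, A v⟫ = κ * ⟪b 0, v⟫)
    (hL : 0 < L) (hs : |s| ≤ L) (h0 : 0 ≤ β * κ) (h1 : L ^ 2 * (β * κ) < 1) (hℓ : 0 < ℓ)
    (hw0 : |⟪b 0, v + s • A v⟫| ≤ ℓ / 2) (hw1 : |⟪b 1, v + s • A v⟫| ≤ ℓ / 2) :
    ‖v‖ ≤ (1 + L * (|β| + |κ|) / 2) / (1 - L ^ 2 * (β * κ)) * ℓ := by
  set v₁ := ⟪b 0, v⟫ with hv₁
  set v₂ := ⟪b 1, v⟫ with hv₂
  set d₀ := 1 - L ^ 2 * (β * κ) with hd₀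
  have hd₀pos : 0 < d₀ := by rw [hd₀]; linarith
  have e1 : ⟪b 0, v + s • A v⟫ = v₁ + s * β * v₂ := by
    rw [inner_add_right, inner_smul_right, hA0]; ring
  have e2 : ⟪b 1, v + s • A v⟫ = v₂ + s * κ * v₁ := by
    rw [inner_add_right, inner_smul_right, hA1]; ring
  rw [e1] at hw0
  rw [e2] at hw1
  have hs2 : s ^ 2 ≤ L ^ 2 := by
    rw [← sq_abs s]; gcongr
  set d := 1 - s ^ 2 * (β * κ) with hd
  have hdd : d₀ ≤ d := by
    rw [hd, hd₀]; nlinarith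
  have hdpos : 0 < d := by linarith
  have k1 : v₁ * d = (v₁ + s * β * v₂) - s * β * (v₂ + s * κ * v₁) := by
    rw [hd]; ring
  have k2 : v₂ * d = (v₂ + s * κ * v₁) - s * κ * (v₁ + s * β * v₂) := by
    rw [hd]; ring
  have hsβ : |s * β| ≤ L * |β| := by
    rw [abs_mul]; gcongr
  have hsκ : |s * κ| ≤ L * |κ| := by
    rw [abs_mul]; gcongr
  have b1 : |v₁| * d₀ ≤ ℓ / 2 + L * |β| * (ℓ / 2) := by
    calc |v₁| * d₀ ≤ |v₁| * d := by gcongr
      _ = |v₁ * d| := by rw [abs_mul, abs_of_pos hdpos]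
      _ = |(v₁ + s * β * v₂) - s * β * (v₂ + s * κ * v₁)| := by rw [k1]
      _ ≤ |v₁ + s * β * v₂| + |s * β * (v₂ + s * κ * v₁)| := abs_sub _ _
      _ = |v₁ + s * β * v₂| + |s * β| * |v₂ + s * κ * v₁| := by rw [abs_mul]
      _ ≤ ℓ / 2 + L * |β| * (ℓ / 2) := by
        gcongr
  have b2 : |v₂| * d₀ ≤ ℓ / 2 + L * |κ| * (ℓ / 2) := by
    calc |v₂| * d₀ ≤ |v₂| * d := by gcongr
      _ = |v₂ * d| := by rw [abs_mul, abs_of_pos hdpos]
      _ = |(v₂ + s * κ * v₁) - s * κ * (v₁ + s * β * v₂)| := by rw [k2]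
      _ ≤ |v₂ + s * κ * v₁| + |s * κ * (v₁ + s * β * v₂)| := abs_sub _ _
      _ = |v₂ + s * κ * v₁| + |s * κ| * |v₁ + s * β * v₂| := by rw [abs_mul]
      _ ≤ ℓ / 2 + L * |κ| * (ℓ / 2) := by
        gcongr
  have hn := norm_le_frame b v
  rw [div_mul_eq_mul_div, le_div_iff₀ hd₀pos]
  calc ‖v‖ * d₀ ≤ (|v₁| + |v₂|) * d₀ := by gcongr
    _ = |v₁| * d₀ + |v₂| * d₀ := by ring
    _ ≤ _ := by nlinarith

/-- One tile covers the point. -/
theorem tile_step (V : E2 → E2) (A : E2 → E2) (L C τ ϖ ℓ s : ℝ) (p q : E2)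
    (hs : |s| ≤ L) (hτ : 0 < τ) (hℓ : 0 < ℓ)
    (hw0 : |⟪b 0, (p - q) + s • A (p - q)⟫| ≤ ℓ / 2)
    (hw1 : |⟪b 1, (p - q) + s • A (p - q)⟫| ≤ ℓ / 2)
    (hpq : ‖p - q‖ ≤ C * ℓ)
    (hE : ‖V p - V q - A (p - q)‖ ≤ ϖ * ‖p - q‖)
    (hϖ : 2 * L * ϖ * C ≤ τ) (hϖ0 : 0 ≤ ϖ) (hL : 0 ≤ L) :
    ∃ x ∈ Icc (0 : ℝ) 1, ∃ y ∈ Icc (0 : ℝ) 1,
      p + s • V p = (q - (((1 + τ) * ℓ / 2) • (b 0 + b 1))) + x • (((1 + τ) * ℓ) • b 0)
        + y • (((1 + τ) * ℓ) • b 1) + s • V q := by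
  set E := V p - V q - A (p - q) with hEdef
  set R := (p - q) + s • A (p - q) + s • E with hR
  have hRid : p + s • V p = q + s • V q + R := by
    rw [hR, hEdef]; module
  have hsE : ‖s • E‖ ≤ τ * ℓ / 2 := by
    rw [norm_smul, Real.norm_eq_abs]
    calc |s| * ‖E‖ ≤ L * (ϖ * (C * ℓ)) := by
          gcongr
          exact hE.trans (by gcongr)
      _ = (2 * L * ϖ * C) * ℓ / 2 := by ring
      _ ≤ τ * ℓ / 2 := by gcongr
  have hpos : 0 < (1 + τ) * ℓ := by positivity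
  set W₁ := ⟪b 0, R⟫ with hW₁
  set W₂ := ⟪b 1, R⟫ with hW₂
  have hW₁b : |W₁| ≤ (1 + τ) * ℓ / 2 := by
    rw [hW₁, hR, inner_add_right]
    refine (abs_add_le _ _).trans ?_
    have := abs_inner_le b 0 (s • E)
    nlinarith
  have hW₂b : |W₂| ≤ (1 + τ) * ℓ / 2 := by
    rw [hW₂, hR, inner_add_right]
    refine (abs_add_le _ _).trans ?_
    have := abs_inner_le b 1 (s • E)
    nlinarith
  have hRdec : R = W₁ • b 0 + W₂ • b 1 := frame_decomp b R
  refine ⟨W₁ / ((1 + τ) * ℓ) + 1 / 2, ?_, W₂ / ((1 + τ) * ℓ) + 1 / 2, ?_, ?_⟩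
  · have := abs_le.mp hW₁b
    constructor
    · have : -(1 / 2) ≤ W₁ / ((1 + τ) * ℓ) := by
        rw [le_div_iff₀ hpos]; linarith
      linarith
    · have : W₁ / ((1 + τ) * ℓ) ≤ 1 / 2 := by
        rw [div_le_iff₀ hpos]; linarith
      linarith
  · have := abs_le.mp hW₂b
    constructor
    · have : -(1 / 2) ≤ W₂ / ((1 + τ) * ℓ) := by
        rw [le_div_iff₀ hpos]; linarith
      linarith
    · have : W₂ / ((1 + τ) * ℓ) ≤ 1 / 2 := by
        rw [div_le_iff₀ hpos]; linarith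
      linarith
  · have hx : (W₁ / ((1 + τ) * ℓ) + 1 / 2) * ((1 + τ) * ℓ) = W₁ + (1 + τ) * ℓ / 2 := by
      field_simp
    have hy : (W₂ / ((1 + τ) * ℓ) + 1 / 2) * ((1 + τ) * ℓ) = W₂ + (1 + τ) * ℓ / 2 := by
      field_simp
    rw [hRid, smul_smul, smul_smul, hx, hy, hRdec]
    module


/-! ### Cells and counting -/

/-- half-open lattice cell -/
def cell (ℓ : ℝ) (m n : ℤ) : Set E2 :=
  {v | ⟪b 0, v⟫ ∈ Ico (ℓ * (m - 1 / 2)) (ℓ * (m + 1 / 2)) ∧
       ⟪b 1, v⟫ ∈ Ico (ℓ * (n - 1 / 2)) (ℓ * (n + 1 / 2))}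

theorem measurableSet_cell (ℓ : ℝ) (m n : ℤ) : MeasurableSet (cell b ℓ m n) := by
  have h0 : Measurable fun v : E2 => ⟪b 0, v⟫ := (continuous_const.inner continuous_id).measurable
  have h1 : Measurable fun v : E2 => ⟪b 1, v⟫ := (continuous_const.inner continuous_id).measurable
  exact (h0 measurableSet_Ico).inter (h1 measurableSet_Ico)

theorem volume_cell (ℓ : ℝ) (hℓ : 0 < ℓ) (m n : ℤ) :
    volume (cell b ℓ m n) = ENNReal.ofReal (ℓ ^ 2) := by
  have hmp : MeasurePreserving (fun v : E2 => (b.repr v).ofLp) volume volume :=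
    (PiLp.volume_preserving_ofLp (Fin 2)).comp b.measurePreserving_repr
  have hset : cell b ℓ m n = (fun v : E2 => (b.repr v).ofLp) ⁻¹'
      (pi univ ![Ico (ℓ * (m - 1 / 2)) (ℓ * (m + 1 / 2)), Ico (ℓ * (n - 1 / 2)) (ℓ * (n + 1 / 2))]) := by
    ext v
    simp [cell, Set.mem_pi, Fin.forall_fin_two, OrthonormalBasis.repr_apply_apply]
  rw [hset, hmp.measure_preimage (MeasurableSet.univ_pi (fun i => by
    fin_cases i <;> simp [measurableSet_Ico])).nullMeasurableSet, volume_pi_pi]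
  simp only [Fin.prod_univ_two]
  simp only [Matrix.cons_val_zero, Matrix.cons_val_one, Real.volume_Ico]
  rw [← ENNReal.ofReal_mul (by nlinarith)]
  congr 1
  ring

theorem cell_disjoint (ℓ : ℝ) (hℓ : 0 < ℓ) {m n m' n' : ℤ} (hne : (m, n) ≠ (m', n')) :
    Disjoint (cell b ℓ m n) (cell b ℓ m' n') := by
  rw [Set.disjoint_left]
  rintro v ⟨⟨h1, h2⟩, ⟨h3, h4⟩⟩ ⟨⟨h5, h6⟩, ⟨h7, h8⟩⟩
  apply hne
  have key : ∀ a a' : ℤ, ℓ * ((a : ℝ) - 1 / 2) < ℓ * ((a' : ℝ) + 1 / 2) → a ≤ a' := by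
    intro a a' h
    have : (a : ℝ) - 1 / 2 < a' + 1 / 2 := lt_of_mul_lt_mul_left h hℓ.le
    have : (a : ℝ) < a' + 1 := by linarith
    have : a < a' + 1 := by exact_mod_cast this
    omega
  have e1 : m = m' := le_antisymm (key _ _ (by linarith)) (key _ _ (by linarith))
  have e2 : n = n' := le_antisymm (key _ _ (by linarith)) (key _ _ (by linarith))
  rw [e1, e2]

/-- Counting: lattice cells are disjoint of area `ℓ²`. -/
theorem count_le (ℓ : ℝ) (hℓ : 0 < ℓ) (F : Finset (ℤ × ℤ)) (S : Set E2)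
    (hS : ∀ i ∈ F, cell b ℓ i.1 i.2 ⊆ S) :
    (F.card : ℝ≥0∞) * ENNReal.ofReal (ℓ ^ 2) ≤ volume S := by
  have h1 : volume (⋃ i ∈ F, cell b ℓ i.1 i.2) = ∑ i ∈ F, volume (cell b ℓ i.1 i.2) := by
    apply measure_biUnion_finset
    · intro i _ j _ hij
      exact cell_disjoint b ℓ hℓ (m := i.1) (n := i.2) (m' := j.1) (n' := j.2) (by simpa using hij)
    · intro i _
      exact measurableSet_cell b ℓ _ _
  have h2 : ∑ i ∈ F, volume (cell b ℓ i.1 i.2) = (F.card : ℝ≥0∞) * ENNReal.ofReal (ℓ ^ 2) := by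
    rw [Finset.sum_congr rfl (fun i _ => volume_cell b ℓ hℓ i.1 i.2)]
    simp
  rw [← h2, ← h1]
  exact measure_mono (iUnion₂_subset hS)

theorem cell_near (ℓ : ℝ) (hℓ : 0 < ℓ) (m n : ℤ) (v : E2) (hv : v ∈ cell b ℓ m n) :
    ‖v - lat b ℓ m n‖ ≤ ℓ := by
  obtain ⟨⟨h1, h2⟩, ⟨h3, h4⟩⟩ := hv
  refine (norm_le_frame b _).trans ?_
  rw [inner_sub_right, inner_sub_right, inner_lat0, inner_lat1]
  have b1 : |⟪b 0, v⟫ - ℓ * m| ≤ ℓ / 2 := by
    rw [abs_le]; constructor <;> nlinarith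
  have b2 : |⟪b 1, v⟫ - ℓ * n| ≤ ℓ / 2 := by
    rw [abs_le]; constructor <;> nlinarith
  linarith

/-- Lattice points near a bounded set are finite in number. -/
theorem finite_lat (ℓ : ℝ) (hℓ : 0 < ℓ) (R : ℝ) :
    {i : ℤ × ℤ | ‖lat b ℓ i.1 i.2‖ ≤ R}.Finite := by
  obtain ⟨N, hN⟩ := exists_int_gt (R / ℓ)
  have hN' : R < N * ℓ := by rwa [div_lt_iff₀ hℓ] at hN
  refine ((Set.finite_Icc (-N) N).prod (Set.finite_Icc (-N) N)).subset ?_
  rintro ⟨m, n⟩ hi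
  simp only [mem_ofPred_eq] at hi
  have h0 := abs_inner_le b 0 (lat b ℓ m n)
  have h1 := abs_inner_le b 1 (lat b ℓ m n)
  rw [inner_lat0] at h0
  rw [inner_lat1] at h1
  have key : ∀ k : ℤ, |ℓ * k| ≤ R → -N ≤ k ∧ k ≤ N := by
    intro k hk
    rw [abs_le] at hk
    constructor
    · have : (-N : ℝ) < k + 1 := by nlinarith
      have : -N < k + 1 := by exact_mod_cast this
      have h5 : ((-N : ℤ) : ℝ) ≤ k := by
        have : ℓ * (-N) < ℓ * k := by nlinarith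
        have := lt_of_mul_lt_mul_left this hℓ.le
        push_cast
        linarith
      exact_mod_cast h5
    · have h5 : (k : ℝ) ≤ N := by
        have : ℓ * k < ℓ * N := by nlinarith
        have := lt_of_mul_lt_mul_left this hℓ.le
        linarith
      exact_mod_cast h5
  exact ⟨key m (h0.trans hi), key n (h1.trans hi)⟩


end Frame

/-! ### Covers -/

/-- The weight `J`. -/
noncomputable def J (h : ℝ) (g : E2) : ℝ := 1 / Real.sqrt (1 + (g 0) ^ 2 + h ^ 2 * (g 1) ^ 2)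

theorem J_pos (h : ℝ) (g : E2) : 0 < J h g := by
  unfold J; positivity

theorem J_le_one (h : ℝ) (g : E2) : J h g ≤ 1 := by
  unfold J
  rw [div_le_one (by positivity)]
  rw [Real.one_le_sqrt]
  nlinarith [sq_nonneg (g 0), mul_nonneg (sq_nonneg h) (sq_nonneg (g 1))]

theorem J_continuous (h : ℝ) : Continuous (J h) := by
  unfold J
  have hne : ∀ g : E2, Real.sqrt (1 + (g 0) ^ 2 + h ^ 2 * (g 1) ^ 2) ≠ 0 := fun g => by positivity
  refine Continuous.div continuous_const ?_ hne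
  fun_prop

/-- A finite cover by sheared tiles of weight at most `W`. -/
def Cov (h : ℝ) (S : Set (ℝ × E2)) (W : ℝ) : Prop :=
  ∃ (ι : Type) (_ : Fintype ι) (c a b g : ι → E2),
    (∀ i, a i ≠ 0 ∧ ‖b i‖ = ‖a i‖ ∧ inner ℝ (a i) (b i) = 0) ∧
    S ⊆ ⋃ i, {z : ℝ × E2 | ∃ x ∈ Icc (0 : ℝ) 1, ∃ y ∈ Icc (0 : ℝ) 1,
        z.2 = c i + x • a i + y • b i + z.1 • g i} ∧
    ∑ i, ‖a i‖ ^ 2 * J h (g i) ≤ W

theorem Cov.empty (h : ℝ) : Cov h ∅ 0 :=
  ⟨Empty, inferInstance, fun i => i.elim, fun i => i.elim, fun i => i.elim, fun i => i.elim,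
    fun i => i.elim, by simp, by simp⟩

theorem Cov.union {h : ℝ} {S S' : Set (ℝ × E2)} {W W' : ℝ} (H : Cov h S W) (H' : Cov h S' W') :
    Cov h (S ∪ S') (W + W') := by
  obtain ⟨ι, _, c, a, b, g, h1, h2, h3⟩ := H
  obtain ⟨ι', _, c', a', b', g', h1', h2', h3'⟩ := H'
  refine ⟨ι ⊕ ι', inferInstance, Sum.elim c c', Sum.elim a a', Sum.elim b b', Sum.elim g g',
    ?_, ?_, ?_⟩
  · rintro (i | i)
    · exact h1 i
    · exact h1' i
  · rintro z (hz | hz)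
    · obtain ⟨i, hi⟩ := mem_iUnion.mp (h2 hz)
      exact mem_iUnion.mpr ⟨Sum.inl i, hi⟩
    · obtain ⟨i, hi⟩ := mem_iUnion.mp (h2' hz)
      exact mem_iUnion.mpr ⟨Sum.inr i, hi⟩
  · rw [Fintype.sum_sum_type]
    simpa using add_le_add h3 h3'

theorem Cov.mono {h : ℝ} {S S' : Set (ℝ × E2)} {W W' : ℝ} (H : Cov h S W) (hS : S' ⊆ S)
    (hW : W ≤ W') : Cov h S' W' := by
  obtain ⟨ι, i0, c, a, b, g, h1, h2, h3⟩ := H
  exact ⟨ι, i0, c, a, b, g, h1, hS.trans h2, h3.trans hW⟩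

theorem Cov.biUnion {h : ℝ} {κ : Type*} (I : Finset κ) (S : κ → Set (ℝ × E2)) (W : κ → ℝ)
    (H : ∀ i ∈ I, Cov h (S i) (W i)) : Cov h (⋃ i ∈ I, S i) (∑ i ∈ I, W i) := by
  classical
  induction I using Finset.induction_on with
  | empty => simpa using Cov.empty h
  | insert i I hi ih =>
    rw [Finset.sum_insert hi, Finset.set_biUnion_insert]
    exact (H i (Finset.mem_insert_self _ _)).union
      (ih fun j hj => H j (Finset.mem_insert_of_mem hj))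

/-- The ruled set over `P`. -/
def Rul (L : ℝ) (V : E2 → E2) (P : Set E2) : Set (ℝ × E2) :=
  {z | ∃ p ∈ P, |z.1| ≤ L ∧ z.2 = p + z.1 • V p}

theorem Rul_biUnion {κ : Type*} (L : ℝ) (V : E2 → E2) (I : Finset κ) (P : κ → Set E2) :
    Rul L V (⋃ i ∈ I, P i) = ⋃ i ∈ I, Rul L V (P i) := by
  ext z
  simp only [Rul, mem_ofPred_eq, mem_iUnion, exists_prop]
  constructor
  · rintro ⟨p, ⟨i, hi, hp⟩, h2⟩
    exact ⟨i, hi, p, hp, h2⟩
  · rintro ⟨i, hi, p, hp, h2⟩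
    exact ⟨p, ⟨i, hi, hp⟩, h2⟩

/-- Local lemma. -/
theorem local_lemma (V : E2 → E2) (U : Set E2) (hU : IsOpen U) (hV : ContDiffOn ℝ 1 V U)
    (L h : ℝ) (hL : 0 < L) (p₀ : E2) (hp₀ : p₀ ∈ U)
    (htr : LinearMap.trace ℝ _ (fderiv ℝ V p₀).toLinearMap = 0)
    (hdet : -(L ^ 2)⁻¹ < LinearMap.det (fderiv ℝ V p₀).toLinearMap ∧
      LinearMap.det (fderiv ℝ V p₀).toLinearMap ≤ 0)
    (τ ς : ℝ) (hτ : 0 < τ) (hς : 0 < ς) :
    ∃ r : ℝ, 0 < r ∧ ball p₀ r ⊆ U ∧ (∀ ξ ∈ ball p₀ r, |J h (V ξ) - J h (V p₀)| ≤ ς) ∧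
      ∀ P : Set E2, IsCompact P → P ⊆ ball p₀ r → ∀ η : ℝ, 0 < η →
        Cov h (Rul L V P) ((1 + τ) ^ 2 * (J h (V p₀) + ς) * ((volume P).toReal + η)) := by
  classical
  set A := fderiv ℝ V p₀ with hA
  obtain ⟨b, h0, h1⟩ := exists_frame A.toLinearMap htr
  have h0' : ⟪b 0, A (b 0)⟫ = 0 := h0
  have h1' : ⟪b 1, A (b 1)⟫ = 0 := h1
  set β := ⟪b 0, A (b 1)⟫ with hβ
  set κ := ⟪b 1, A (b 0)⟫ with hκ
  have hdetf : LinearMap.det A.toLinearMap = -(β * κ) := by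
    have := det_frame A.toLinearMap b
    simp only [ContinuousLinearMap.coe_coe] at this
    rw [this, h0', h1']
    ring
  have hβκ0 : 0 ≤ β * κ := by
    have := hdet.2
    rw [hdetf] at this
    linarith
  have hβκ1 : L ^ 2 * (β * κ) < 1 := by
    have := hdet.1
    rw [hdetf] at this
    have hL2 : 0 < L ^ 2 := by positivity
    have h3 : β * κ < (L ^ 2)⁻¹ := by linarith
    calc L ^ 2 * (β * κ) < L ^ 2 * (L ^ 2)⁻¹ := by gcongr
      _ = 1 := mul_inv_cancel₀ hL2.ne'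
  have hA0 : ∀ v : E2, ⟪b 0, A v⟫ = β * ⟪b 1, v⟫ := by
    intro v
    conv_lhs => rw [frame_decomp b v]
    rw [map_add, map_smul, map_smul, inner_add_right, inner_smul_right, inner_smul_right, h0']
    ring
  have hA1 : ∀ v : E2, ⟪b 1, A v⟫ = κ * ⟪b 0, v⟫ := by
    intro v
    conv_lhs => rw [frame_decomp b v]
    rw [map_add, map_smul, map_smul, inner_add_right, inner_smul_right, inner_smul_right, h1']
    ring
  set d₀ := 1 - L ^ 2 * (β * κ) with hd₀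
  have hd₀pos : 0 < d₀ := by rw [hd₀]; linarith
  set C := (1 + L * (|β| + |κ|) / 2) / d₀ with hC
  have hCpos : 0 < C := by
    rw [hC]; positivity
  set ϖ := τ / (2 * L * C) with hϖ
  have hϖpos : 0 < ϖ := by rw [hϖ]; positivity
  have hϖC : 2 * L * ϖ * C ≤ τ := by
    rw [hϖ]
    apply le_of_eq
    field_simp
  -- continuity
  have hcont : ContinuousAt (fderiv ℝ V) p₀ :=
    (hV.continuousOn_fderiv_of_isOpen hU le_rfl).continuousAt (hU.mem_nhds hp₀)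
  have hdiff : ∀ x ∈ U, DifferentiableAt ℝ V x := fun x hx =>
    (hV.differentiableOn (by simp) x hx).differentiableAt (hU.mem_nhds hx)
  have hVc : ContinuousAt V p₀ := (hdiff p₀ hp₀).continuousAt
  have hJc : ContinuousAt (fun ξ => J h (V ξ)) p₀ :=
    (J_continuous h).continuousAt.comp hVc
  obtain ⟨r₁, hr₁, hr₁U⟩ := Metric.isOpen_iff.mp hU p₀ hp₀
  obtain ⟨r₂, hr₂, hr₂D⟩ := Metric.continuousAt_iff.mp hcont ϖ hϖpos
  obtain ⟨r₃, hr₃, hr₃J⟩ := Metric.continuousAt_iff.mp hJc ς hς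
  set r' := min r₁ (min r₂ r₃) with hr'
  have hr'pos : 0 < r' := by rw [hr']; positivity
  have hbU : ball p₀ r' ⊆ U := (ball_subset_ball (min_le_left _ _)).trans hr₁U
  have hbD : ∀ ξ ∈ ball p₀ r', ‖fderiv ℝ V ξ - A‖ ≤ ϖ := by
    intro ξ hξ
    have h3 : dist ξ p₀ < r₂ := lt_of_lt_of_le (mem_ball.mp hξ)
      ((min_le_right _ _).trans (min_le_left _ _))
    have := hr₂D h3
    rw [dist_eq_norm] at this
    exact this.le
  have hbJ : ∀ ξ ∈ ball p₀ r', |J h (V ξ) - J h (V p₀)| ≤ ς := by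
    intro ξ hξ
    have h3 : dist ξ p₀ < r₃ := lt_of_lt_of_le (mem_ball.mp hξ)
      ((min_le_right _ _).trans (min_le_right _ _))
    have := hr₃J h3
    rw [Real.dist_eq] at this
    exact this.le
  -- mean value
  have hE : ∀ p ∈ ball p₀ r', ∀ q ∈ ball p₀ r', ‖V p - V q - A (p - q)‖ ≤ ϖ * ‖p - q‖ := by
    intro p hp q hq
    have hconv : Convex ℝ (ball p₀ r') := convex_ball _ _
    have hd : ∀ x ∈ ball p₀ r', DifferentiableAt ℝ (fun y => V y - A y) x := fun x hx =>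
      (hdiff x (hbU hx)).sub A.differentiableAt
    have hb : ∀ x ∈ ball p₀ r', ‖fderiv ℝ (fun y => V y - A y) x‖ ≤ ϖ := by
      intro x hx
      have : fderiv ℝ (fun y => V y - A y) x = fderiv ℝ V x - A := by
        rw [fderiv_fun_sub (hdiff x (hbU hx)) A.differentiableAt, A.fderiv]
      rw [this]
      exact hbD x hx
    have := hconv.norm_image_sub_le_of_norm_fderiv_le hd hb hq hp
    have e : V p - V q - A (p - q) = (V p - A p) - (V q - A q) := by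
      rw [map_sub]; abel
    rw [e]
    exact this
  refine ⟨r' / 2, by positivity, (ball_subset_ball (by linarith)).trans hbU,
    fun ξ hξ => hbJ ξ (ball_subset_ball (by linarith) hξ), ?_⟩
  intro P hP hPb η hη
  -- choose the thickening
  have hPfin : volume P ≠ ∞ := hP.measure_lt_top.ne
  have htends := tendsto_measure_cthickening_of_isClosed (μ := (volume : Measure E2)) (s := P)
    ⟨1, one_pos, (hP.cthickening (r := 1)).measure_lt_top.ne⟩ hP.isClosed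
  have hlt : volume P < ENNReal.ofReal ((volume P).toReal + η) := by
    rw [← ENNReal.ofReal_toReal hPfin]
    rw [ENNReal.toReal_ofReal ENNReal.toReal_nonneg]
    exact (ENNReal.ofReal_lt_ofReal_iff (by positivity)).mpr (by linarith)
  have hev := htends.eventually (gt_mem_nhds hlt)
  obtain ⟨ρ₀, hρ₀, hρ₀'⟩ := Metric.eventually_nhds_iff.mp hev
  set ℓ := min ((ρ₀ / 2) / (C + 1)) ((r' / 2) / C) with hℓdef
  have hℓ : 0 < ℓ := by rw [hℓdef]; positivity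
  have hℓ1 : (C + 1) * ℓ ≤ ρ₀ / 2 := by
    have : ℓ ≤ (ρ₀ / 2) / (C + 1) := min_le_left _ _
    rw [le_div_iff₀ (by positivity)] at this
    linarith
  have hℓ2 : C * ℓ ≤ r' / 2 := by
    have : ℓ ≤ (r' / 2) / C := min_le_right _ _
    rw [le_div_iff₀ hCpos] at this
    linarith
  -- the lattice points
  obtain ⟨R, hR⟩ := hP.isBounded.exists_norm_le
  have hfin : {i : ℤ × ℤ | ∃ p ∈ P, ‖p - lat b ℓ i.1 i.2‖ ≤ C * ℓ}.Finite := by
    refine (finite_lat b ℓ hℓ (R + C * ℓ)).subset ?_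
    rintro ⟨m, n⟩ ⟨p, hp, hpq⟩
    simp only [mem_ofPred_eq] at hpq ⊢
    have h3 : ‖lat b ℓ m n‖ ≤ ‖p‖ + ‖p - lat b ℓ m n‖ := by
      have := norm_sub_le p (p - lat b ℓ m n)
      simpa using this
    linarith [hR p hp]
  set F := hfin.toFinset with hF
  have hFmem : ∀ i, i ∈ F ↔ ∃ p ∈ P, ‖p - lat b ℓ i.1 i.2‖ ≤ C * ℓ := by
    intro i; simp [hF]
  -- lattice points lie in the ball
  have hFball : ∀ i ∈ F, lat b ℓ i.1 i.2 ∈ ball p₀ r' := by
    intro i hi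
    obtain ⟨p, hp, hpq⟩ := (hFmem i).mp hi
    have hp' : dist p p₀ < r' / 2 := mem_ball.mp (hPb hp)
    rw [mem_ball]
    calc dist (lat b ℓ i.1 i.2) p₀ ≤ dist (lat b ℓ i.1 i.2) p + dist p p₀ := dist_triangle _ _ _
      _ < r' / 2 + r' / 2 := by
        rw [dist_comm (lat b ℓ i.1 i.2) p, dist_eq_norm]
        linarith
      _ = r' := by ring
  -- counting
  have hcount : (F.card : ℝ≥0∞) * ENNReal.ofReal (ℓ ^ 2) ≤
      volume (cthickening ((C + 1) * ℓ) P) := by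
    apply count_le b ℓ hℓ
    intro i hi v hv
    obtain ⟨p, hp, hpq⟩ := (hFmem i).mp hi
    have hvn := cell_near b ℓ hℓ i.1 i.2 v hv
    apply mem_cthickening_of_dist_le v p _ P hp
    rw [dist_eq_norm]
    calc ‖v - p‖ ≤ ‖v - lat b ℓ i.1 i.2‖ + ‖lat b ℓ i.1 i.2 - p‖ := norm_sub_le_norm_sub_add_norm_sub _ _ _
      _ ≤ ℓ + C * ℓ := by
        rw [norm_sub_rev (lat b ℓ i.1 i.2) p]
        linarith
      _ = (C + 1) * ℓ := by ring
  have hvolN : volume (cthickening ((C + 1) * ℓ) P) ≤ ENNReal.ofReal ((volume P).toReal + η) := by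
    have : volume (cthickening ((C + 1) * ℓ) P) < ENNReal.ofReal ((volume P).toReal + η) := by
      apply hρ₀'
      rw [Real.dist_eq, sub_zero, abs_of_pos (by positivity)]
      linarith
    exact this.le
  have hcountR : (F.card : ℝ) * ℓ ^ 2 ≤ (volume P).toReal + η := by
    have h3 := hcount.trans hvolN
    have hnn : 0 ≤ (volume P).toReal + η := by positivity
    have e : (F.card : ℝ≥0∞) * ENNReal.ofReal (ℓ ^ 2) = ENNReal.ofReal ((F.card : ℝ) * ℓ ^ 2) := by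
      rw [ENNReal.ofReal_mul (Nat.cast_nonneg (F.card)), ENNReal.ofReal_natCast]
    rw [e] at h3
    exact (ENNReal.ofReal_le_ofReal_iff hnn).mp h3
  -- the cover
  refine ⟨↥F, inferInstance,
    fun i => lat b ℓ i.1.1 i.1.2 - (((1 + τ) * ℓ / 2) • (b 0 + b 1)),
    fun _ => ((1 + τ) * ℓ) • b 0, fun _ => ((1 + τ) * ℓ) • b 1,
    fun i => V (lat b ℓ i.1.1 i.1.2), ?_, ?_, ?_⟩
  · intro i
    have hpos : 0 < (1 + τ) * ℓ := by positivity
    refine ⟨?_, ?_, ?_⟩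
    · rw [Ne, smul_eq_zero, not_or]
      refine ⟨hpos.ne', ?_⟩
      intro h3
      have := norm_frame b 0
      rw [h3] at this
      simp at this
    · rw [norm_smul, norm_smul, norm_frame, norm_frame]
    · rw [inner_smul_left, inner_smul_right, frame_01]
      simp
  · rintro ⟨s, z⟩ ⟨p, hp, hs, hz⟩
    simp only at hs hz
    -- lattice point
    have hp0 : 0 ≤ (s * β) * (s * κ) := by
      have : (s * β) * (s * κ) = s ^ 2 * (β * κ) := by ring
      rw [this]; positivity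
    have hp1 : (s * β) * (s * κ) < 1 := by
      have : (s * β) * (s * κ) = s ^ 2 * (β * κ) := by ring
      rw [this]
      have hs2 : s ^ 2 ≤ L ^ 2 := by
        rw [← sq_abs s]; gcongr
      nlinarith
    obtain ⟨m, n, hw0, hw1⟩ := lattice_real β κ s ℓ hℓ hp0 hp1 ⟪b 0, p⟫ ⟪b 1, p⟫
    set q := lat b ℓ m n with hq
    have hv0 : ⟪b 0, (p - q) + s • A (p - q)⟫ = (⟪b 0, p⟫ - ℓ * m) + s * β * (⟪b 1, p⟫ - ℓ * n) := by
      rw [inner_add_right, inner_smul_right, hA0, inner_sub_right, inner_sub_right, hq,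
        inner_lat0, inner_lat1]
      ring
    have hv1 : ⟪b 1, (p - q) + s • A (p - q)⟫ = (⟪b 1, p⟫ - ℓ * n) + s * κ * (⟪b 0, p⟫ - ℓ * m) := by
      rw [inner_add_right, inner_smul_right, hA1, inner_sub_right, inner_sub_right, hq,
        inner_lat0, inner_lat1]
      ring
    rw [← hv0] at hw0
    rw [← hv1] at hw1
    have hpq : ‖p - q‖ ≤ C * ℓ := by
      have := norm_le_of_frame b A β κ L s ℓ (p - q) (hA0 _) (hA1 _) hL hs hβκ0 hβκ1 hℓ hw0 hw1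
      exact this
    have hi : (m, n) ∈ F := (hFmem (m, n)).mpr ⟨p, hp, hpq⟩
    have hpb : p ∈ ball p₀ r' := ball_subset_ball (by linarith) (hPb hp)
    have hqb : q ∈ ball p₀ r' := hFball (m, n) hi
    obtain ⟨x, hx, y, hy, hxy⟩ := tile_step b V A L C τ ϖ ℓ s p q hs hτ hℓ hw0 hw1 hpq
      (hE p hpb q hqb) hϖC hϖpos.le hL.le
    refine mem_iUnion.mpr ⟨⟨(m, n), hi⟩, x, hx, y, hy, ?_⟩
    simp only
    rw [hz, hxy]
  · have hnorm : ‖((1 + τ) * ℓ) • b 0‖ = (1 + τ) * ℓ := by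
      rw [norm_smul, norm_frame, mul_one, Real.norm_eq_abs, abs_of_pos (by positivity)]
    have hJb : ∀ i : ↥F, J h (V (lat b ℓ i.1.1 i.1.2)) ≤ J h (V p₀) + ς := by
      intro i
      have := (abs_le.mp (hbJ _ (hFball i.1 i.2))).2
      linarith
    calc ∑ i : ↥F, ‖((1 + τ) * ℓ) • b 0‖ ^ 2 * J h (V (lat b ℓ i.1.1 i.1.2))
        ≤ ∑ i : ↥F, ((1 + τ) * ℓ) ^ 2 * (J h (V p₀) + ς) := by
          apply Finset.sum_le_sum
          intro i _
          rw [hnorm]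
          exact mul_le_mul_of_nonneg_left (hJb i) (by positivity)
      _ = (1 + τ) ^ 2 * (J h (V p₀) + ς) * ((F.card : ℝ) * ℓ ^ 2) := by
          simp only [Finset.sum_const, Finset.card_univ, Fintype.card_coe, nsmul_eq_mul]
          ring
      _ ≤ (1 + τ) ^ 2 * (J h (V p₀) + ς) * ((volume P).toReal + η) := by
          have hJp := J_pos h (V p₀)
          gcongr

end Crest.Agent.Tet7Lattice
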