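import Crest.Statements.S0326
import Crest.Agent.Tet7Local

set_option autoImplicit false
open MeasureTheory
open scoped ENNReal
open Crest Crest.GeometryTopology Crest.GeometryTopology.Convex

namespace Crest.Agent.S0326

open Crest.Agent.Tet7Lattice Metric Set

theorem norm_le_coords (v : E2) : ‖v‖ ≤ |v 0| + |v 1| := by
  rw [EuclideanSpace.norm_eq, Real.sqrt_le_iff]
  refine ⟨by positivity, ?_⟩
  simp only [Fin.sum_univ_two, Real.norm_eq_abs]
  nlinarith [abs_nonneg (v 0), abs_nonneg (v 1)]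

theorem abs_coord_le (v : E2) (i : Fin 2) : |v i| ≤ ‖v‖ := by
  simpa using PiLp.norm_apply_le (p := 2) v i

theorem volume_hyperplane (i : Fin 2) (t : ℝ) : volume {p : E2 | p i = t} = 0 := by
  have hmp := PiLp.volume_preserving_ofLp (Fin 2)
  have hset : {p : E2 | p i = t} = (@WithLp.ofLp 2 (Fin 2 → ℝ)) ⁻¹' {f : Fin 2 → ℝ | f i = t} := by
    ext p; simp
  have hmeas : MeasurableSet {f : Fin 2 → ℝ | f i = t} :=
    measurableSet_eq_fun (measurable_pi_apply i) measurable_const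
  rw [hset, hmp.measure_preimage hmeas.nullMeasurableSet, volume_pi, Measure.pi_hyperplane]

theorem final_arith (τ ς η N Iv vD S1 S2 ε : ℝ) (hτ0 : 0 < τ) (hτ1 : τ ≤ 1) (hς0 : 0 < ς) (hη0 : 0 < η)
    (hN0 : 0 ≤ N) (hIv0 : 0 ≤ Iv) (hIvle : Iv ≤ vD) (hτv : τ * vD ≤ ε / 12) (hςv : ς * vD ≤ ε / 32)
    (hηN : η * N ≤ ε / 32) (hS1 : S1 ≤ Iv + 2 * ς * vD) (hS2 : S2 ≤ 2 * (η * N)) :
    (1 + τ) ^ 2 * (S1 + S2) ≤ Iv + ε := by
  have hvD : 0 ≤ vD := hIv0.trans hIvle
  have h1 : 0 ≤ ς * vD := by positivity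
  have h2 : 0 ≤ η * N := by positivity
  have hX : S1 + S2 ≤ Iv + 2 * (ς * vD) + 2 * (η * N) := by linarith
  have hX0 : 0 ≤ Iv + 2 * (ς * vD) + 2 * (η * N) := by positivity
  have hτ' : (1 + τ) ^ 2 ≤ 1 + 3 * τ := by nlinarith
  calc (1 + τ) ^ 2 * (S1 + S2) ≤ (1 + τ) ^ 2 * (Iv + 2 * (ς * vD) + 2 * (η * N)) := by gcongr
    _ ≤ (1 + 3 * τ) * (Iv + 2 * (ς * vD) + 2 * (η * N)) := by gcongr
    _ = Iv + 2 * (ς * vD) + 2 * (η * N) + 3 * (τ * Iv)
          + 3 * τ * (2 * (ς * vD) + 2 * (η * N)) := by ring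
    _ ≤ Iv + ε := by
        have a1 : τ * Iv ≤ τ * vD := by gcongr
        have a2 : 3 * τ * (2 * (ς * vD) + 2 * (η * N)) ≤ 3 * 1 * (2 * (ς * vD) + 2 * (η * N)) := by
          gcongr
        nlinarith

/-- Main theorem with `Cov`. -/
theorem main_cov
    (D : Set E2) (hD : IsCompact D)
    (V : E2 → E2) (U : Set E2)
    (hU : IsOpen U) (hDU : D ⊆ U) (hV : ContDiffOn ℝ 1 V U) (L h : ℝ) (hL : 0 < L)
    (htr : ∀ p ∈ D, LinearMap.trace ℝ _ (fderiv ℝ V p).toLinearMap = 0)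
    (hdet : ∀ p ∈ D, -(L ^ 2)⁻¹ < LinearMap.det (fderiv ℝ V p).toLinearMap ∧
      LinearMap.det (fderiv ℝ V p).toLinearMap ≤ 0)
    (ε : ℝ) (hε : 0 < ε) :
    Cov h (Rul L V D) ((∫ p in D, J h (V p)) + ε) := by
  classical
  rcases D.eq_empty_or_nonempty with rfl | hne
  · refine (Cov.empty h).mono ?_ ?_
    · rintro z ⟨p, hp, _⟩
      exact hp.elim
    · simp [hε.le]
  have : Nonempty D := hne.to_subtype
  obtain ⟨vD, hvD⟩ : ∃ vD, vD = (volume D).toReal := ⟨_, rfl⟩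
  have hvD0 : 0 ≤ vD := hvD ▸ ENNReal.toReal_nonneg
  have hDfin : volume D < ∞ := hD.measure_lt_top
  obtain ⟨τ, hτ⟩ : ∃ τ, τ = min 1 (ε / (12 * (vD + 1))) := ⟨_, rfl⟩
  obtain ⟨ς, hς⟩ : ∃ ς, ς = min 1 (ε / (32 * (vD + 1))) := ⟨_, rfl⟩
  have hτpos : 0 < τ := by rw [hτ]; positivity
  have hςpos : 0 < ς := by rw [hς]; positivity
  have hτ1 : τ ≤ 1 := hτ ▸ min_le_left _ _
  have hς1 : ς ≤ 1 := hς ▸ min_le_left _ _
  have hτv : τ * vD ≤ ε / 12 := by
    have : τ ≤ ε / (12 * (vD + 1)) := hτ ▸ min_le_right _ _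
    rw [le_div_iff₀ (by positivity)] at this
    nlinarith
  have hςv : ς * vD ≤ ε / 32 := by
    have : ς ≤ ε / (32 * (vD + 1)) := hς ▸ min_le_right _ _
    rw [le_div_iff₀ (by positivity)] at this
    nlinarith
  -- local lemma at every point
  have hloc : ∀ q : D, ∃ r : ℝ, 0 < r ∧ ball q.1 r ⊆ U ∧
      (∀ ξ ∈ ball q.1 r, |J h (V ξ) - J h (V q.1)| ≤ ς) ∧
      ∀ P : Set E2, IsCompact P → P ⊆ ball q.1 r → ∀ η : ℝ, 0 < η →
        Cov h (Rul L V P) ((1 + τ) ^ 2 * (J h (V q.1) + ς) * ((volume P).toReal + η)) :=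
    fun q => local_lemma V U hU hV L h hL q.1 (hDU q.2) (htr q.1 q.2) (hdet q.1 q.2) τ ς hτpos hςpos
  choose r hrpos hrU hrJ hrC using hloc
  obtain ⟨δ, hδ, hleb⟩ := lebesgue_number_lemma_of_metric hD (c := fun q : D => ball q.1 (r q))
    (fun q => isOpen_ball) (fun x hx => mem_iUnion.mpr ⟨⟨x, hx⟩, mem_ball_self (hrpos _)⟩)
  -- grid
  obtain ⟨M, hM⟩ : ∃ M : ℝ, M = 3 / δ := ⟨_, rfl⟩
  have hMpos : 0 < M := by rw [hM]; positivity
  let idx : E2 → ℤ × ℤ := fun p => (⌊M * p 0⌋, ⌊M * p 1⌋)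
  have hfinI : (idx '' D).Finite := by
    obtain ⟨R, hR⟩ := hD.isBounded.exists_norm_le
    obtain ⟨N, hN⟩ := exists_int_gt (M * R)
    refine ((Set.finite_Icc (-(N + 1)) N).prod (Set.finite_Icc (-(N + 1)) N)).subset ?_
    rintro i ⟨p, hp, rfl⟩
    have key : ∀ j : Fin 2, -(N + 1) ≤ ⌊M * p j⌋ ∧ ⌊M * p j⌋ ≤ N := by
      intro j
      have h1 := abs_coord_le p j
      have h2 := hR p hp
      have h3 : |M * p j| ≤ M * R := by
        rw [abs_mul, abs_of_pos hMpos]; gcongr; linarith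
      have h4 := abs_le.mp h3
      constructor
      · have h5 : ((-(N + 1) : ℤ) : ℝ) ≤ M * p j := by push_cast; linarith
        exact Int.le_floor.mpr h5
      · have h5 : ((⌊M * p j⌋ : ℤ) : ℝ) ≤ N := by
          have := Int.floor_le (M * p j)
          linarith
        exact_mod_cast h5
    exact ⟨key 0, key 1⟩
  set I := hfinI.toFinset with hI
  have hImem : ∀ i, i ∈ I ↔ ∃ p ∈ D, idx p = i := by
    intro i; simp [hI]
  -- half-open and closed pieces
  let Dh : ℤ × ℤ → Set E2 := fun i => D ∩ {p | idx p = i}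
  let Pc : ℤ × ℤ → Set E2 := fun i => D ∩ {p | (i.1 : ℝ) ≤ M * p 0 ∧ M * p 0 ≤ i.1 + 1 ∧
    (i.2 : ℝ) ≤ M * p 1 ∧ M * p 1 ≤ i.2 + 1}
  have hDhP : ∀ i, Dh i ⊆ Pc i := by
    rintro i p ⟨hp, hpi⟩
    refine ⟨hp, ?_⟩
    have hi1 : ⌊M * p 0⌋ = i.1 := congrArg Prod.fst hpi
    have hi2 : ⌊M * p 1⌋ = i.2 := congrArg Prod.snd hpi
    have a1 := Int.floor_le (M * p 0)
    have a2 := Int.lt_floor_add_one (M * p 0)
    have a3 := Int.floor_le (M * p 1)
    have a4 := Int.lt_floor_add_one (M * p 1)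
    rw [hi1] at a1 a2
    rw [hi2] at a3 a4
    exact ⟨a1, a2.le, a3, a4.le⟩
  have hPcompact : ∀ i, IsCompact (Pc i) := by
    intro i
    apply hD.inter_right
    have c0 : Continuous fun p : E2 => M * p 0 := by fun_prop
    have c1 : Continuous fun p : E2 => M * p 1 := by fun_prop
    have : {p : E2 | (i.1 : ℝ) ≤ M * p 0 ∧ M * p 0 ≤ i.1 + 1 ∧
        (i.2 : ℝ) ≤ M * p 1 ∧ M * p 1 ≤ i.2 + 1} =
        {p | (i.1 : ℝ) ≤ M * p 0} ∩ ({p | M * p 0 ≤ i.1 + 1} ∩
          ({p | (i.2 : ℝ) ≤ M * p 1} ∩ {p | M * p 1 ≤ i.2 + 1})) := by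
      ext p; simp
    rw [this]
    exact (isClosed_le continuous_const c0).inter ((isClosed_le c0 continuous_const).inter
      ((isClosed_le continuous_const c1).inter (isClosed_le c1 continuous_const)))
  have hPvol : ∀ i, volume (Pc i) ≤ volume (Dh i) := by
    intro i
    have hsub : Pc i ⊆ Dh i ∪ ({p | p 0 = (i.1 + 1) / M} ∪ {p | p 1 = (i.2 + 1) / M}) := by
      rintro p ⟨hp, a1, a2, a3, a4⟩
      by_cases h0 : M * p 0 = i.1 + 1
      · right; left
        show p 0 = (i.1 + 1) / M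
        rw [eq_div_iff hMpos.ne']; linarith
      by_cases h1 : M * p 1 = i.2 + 1
      · right; right
        show p 1 = (i.2 + 1) / M
        rw [eq_div_iff hMpos.ne']; linarith
      left
      refine ⟨hp, ?_⟩
      have f0 : ⌊M * p 0⌋ = i.1 := by
        rw [Int.floor_eq_iff]
        exact ⟨a1, lt_of_le_of_ne a2 h0⟩
      have f1 : ⌊M * p 1⌋ = i.2 := by
        rw [Int.floor_eq_iff]
        exact ⟨a3, lt_of_le_of_ne a4 h1⟩
      show (⌊M * p 0⌋, ⌊M * p 1⌋) = i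
      rw [f0, f1]
    refine (measure_mono hsub).trans ?_
    refine (measure_union_le _ _).trans ?_
    have : volume ({p : E2 | p 0 = (i.1 + 1) / M} ∪ {p | p 1 = (i.2 + 1) / M}) = 0 := by
      refine le_antisymm ((measure_union_le _ _).trans ?_) (by simp)
      rw [volume_hyperplane, volume_hyperplane]
      simp
    rw [this, add_zero]
  have hDhmeas : ∀ i, MeasurableSet (Dh i) := by
    intro i
    apply hD.measurableSet.inter
    have m0 : Measurable fun p : E2 => ⌊M * p 0⌋ :=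
      Int.measurable_floor.comp (by fun_prop)
    have m1 : Measurable fun p : E2 => ⌊M * p 1⌋ :=
      Int.measurable_floor.comp (by fun_prop)
    have : {p : E2 | idx p = i} = (fun p : E2 => ⌊M * p 0⌋) ⁻¹' {i.1} ∩
        (fun p : E2 => ⌊M * p 1⌋) ⁻¹' {i.2} := by
      ext p
      simp [idx, Prod.ext_iff]
    rw [this]
    exact (m0 (measurableSet_singleton _)).inter (m1 (measurableSet_singleton _))
  -- choice of points
  have hpick : ∀ i ∈ I, ∃ q : D, Pc i ⊆ ball q.1 (r q) := by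
    intro i hi
    obtain ⟨x, hx, hxi⟩ := (hImem i).mp hi
    obtain ⟨q, hq⟩ := hleb x hx
    refine ⟨q, ?_⟩
    refine Subset.trans ?_ hq
    intro p hp
    have hxP := hDhP i ⟨hx, hxi⟩
    obtain ⟨_, a1, a2, a3, a4⟩ := hp
    obtain ⟨_, b1, b2, b3, b4⟩ := hxP
    rw [mem_ball, dist_eq_norm]
    have c0 : |(p - x) 0| ≤ 1 / M := by
      have : (p - x) 0 = p 0 - x 0 := by simp
      rw [this, abs_le, le_div_iff₀ hMpos]
      constructor
      · have : (-(1 / M)) * M = -1 := by field_simp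
        nlinarith
      · rw [mul_comm] ; nlinarith
    have c1 : |(p - x) 1| ≤ 1 / M := by
      have : (p - x) 1 = p 1 - x 1 := by simp
      rw [this, abs_le, le_div_iff₀ hMpos]
      constructor
      · have : (-(1 / M)) * M = -1 := by field_simp
        nlinarith
      · rw [mul_comm] ; nlinarith
    have hn := norm_le_coords (p - x)
    have hMδ : 1 / M = δ / 3 := by
      rw [hM]; field_simp
    rw [hMδ] at c0 c1
    linarith
  choose! q hq using hpick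
  -- the cover
  obtain ⟨N, hN⟩ : ∃ N : ℝ, N = (I.card : ℝ) := ⟨_, rfl⟩
  have hN0 : 0 ≤ N := by rw [hN]; positivity
  obtain ⟨η, hη⟩ : ∃ η : ℝ, η = ε / (32 * (N + 1)) := ⟨_, rfl⟩
  have hηpos : 0 < η := by rw [hη]; positivity
  have hηN : η * N ≤ ε / 32 := by
    rw [hη, div_mul_eq_mul_div, div_le_iff₀ (by positivity)]
    nlinarith
  have hcov := Cov.biUnion (h := h) I (fun i => Rul L V (Pc i))
    (fun i => (1 + τ) ^ 2 * (J h (V (q i).1) + ς) * ((volume (Pc i)).toReal + η))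
    (fun i hi => hrC (q i) (Pc i) (hPcompact i) (hq i hi) η hηpos)
  rw [← Rul_biUnion] at hcov
  refine hcov.mono ?_ ?_
  · -- D is the union
    rintro z ⟨p, hp, hz⟩
    refine ⟨p, ?_, hz⟩
    have hi : idx p ∈ I := (hImem _).mpr ⟨p, hp, rfl⟩
    exact mem_biUnion hi (hDhP _ ⟨hp, rfl⟩)
  · -- cost
    set f : E2 → ℝ := fun p => J h (V p) with hf
    have hVcont : ContinuousOn V D := hV.continuousOn.mono hDU
    have hfcont : ContinuousOn f D := (J_continuous h).comp_continuousOn hVcont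
    have hfint : IntegrableOn f D := hfcont.integrableOn_compact hD
    have hg : IntegrableOn (fun p => f p + 2 * ς) D :=
      hfint.add (integrableOn_const hDfin.ne)
    have hDunion : D = ⋃ i ∈ I, Dh i := by
      ext p
      constructor
      · intro hp
        exact mem_biUnion ((hImem _).mpr ⟨p, hp, rfl⟩) ⟨hp, rfl⟩
      · intro hp
        obtain ⟨i, _, hpi⟩ := mem_iUnion₂.mp hp
        exact hpi.1
    have hsplit : ∫ p in D, (f p + 2 * ς) = ∑ i ∈ I, ∫ p in Dh i, (f p + 2 * ς) := by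
      conv_lhs => rw [hDunion]
      apply integral_biUnion_finset
      · intro i _; exact hDhmeas i
      · intro i _ j _ hij
        rw [Function.onFun, Set.disjoint_left]
        rintro p ⟨_, hpi⟩ ⟨_, hpj⟩
        exact hij (hpi.symm.trans hpj)
      · intro i _
        exact hg.mono_set inter_subset_left
    have hvalue : ∫ p in D, (f p + 2 * ς) = (∫ p in D, f p) + 2 * ς * vD := by
      rw [integral_add hfint (integrableOn_const hDfin.ne), setIntegral_const, smul_eq_mul, mul_comm _ (2 * ς), hvD]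
      rfl
    have hpiece : ∀ i ∈ I, (J h (V (q i).1) + ς) * (volume (Pc i)).toReal
        ≤ ∫ p in Dh i, (f p + 2 * ς) := by
      intro i hi
      have hJp := J_pos h (V (q i).1)
      have hDhfin : volume (Dh i) < ∞ := (measure_mono inter_subset_left).trans_lt hDfin
      have h1 : (volume (Pc i)).toReal ≤ (volume (Dh i)).toReal :=
        ENNReal.toReal_mono hDhfin.ne (hPvol i)
      have h2 : (J h (V (q i).1) + ς) * (volume (Dh i)).toReal
          = ∫ p in Dh i, (J h (V (q i).1) + ς) := by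
        rw [setIntegral_const, smul_eq_mul, mul_comm]; rfl
      calc (J h (V (q i).1) + ς) * (volume (Pc i)).toReal
          ≤ (J h (V (q i).1) + ς) * (volume (Dh i)).toReal := by gcongr
        _ = ∫ p in Dh i, (J h (V (q i).1) + ς) := h2
        _ ≤ ∫ p in Dh i, (f p + 2 * ς) := by
          apply setIntegral_mono_on (integrableOn_const hDhfin.ne)
            (hg.mono_set inter_subset_left) (hDhmeas i)
          intro p hp
          have hpb := hq i hi (hDhP i hp)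
          have := abs_le.mp (hrJ (q i) p hpb)
          simp only [hf]
          linarith [this.1]
    set Iv := ∫ p in D, f p with hIv
    have hIv0 : 0 ≤ Iv := setIntegral_nonneg hD.measurableSet fun p _ => (J_pos h _).le
    have hIvle : Iv ≤ vD := by
      have : Iv ≤ ∫ p in D, (1 : ℝ) :=
        setIntegral_mono_on hfint (integrableOn_const hDfin.ne) hD.measurableSet
          fun p _ => J_le_one h _
      rw [hvD]
      simpa [Measure.real] using this
    have hsum1 : ∑ i ∈ I, (J h (V (q i).1) + ς) * (volume (Pc i)).toReal ≤ Iv + 2 * ς * vD := by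
      rw [← hvalue, hsplit]
      exact Finset.sum_le_sum hpiece
    have hsum2 : ∑ i ∈ I, (J h (V (q i).1) + ς) * η ≤ 2 * (η * N) := by
      have : ∀ i ∈ I, (J h (V (q i).1) + ς) * η ≤ 2 * η := by
        intro i _
        have := J_le_one h (V (q i).1)
        nlinarith
      refine (Finset.sum_le_sum this).trans ?_
      simp only [Finset.sum_const, nsmul_eq_mul]
      rw [hN]; linarith
    have hsum : ∑ i ∈ I, (1 + τ) ^ 2 * (J h (V (q i).1) + ς) * ((volume (Pc i)).toReal + η)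
        = (1 + τ) ^ 2 * (∑ i ∈ I, (J h (V (q i).1) + ς) * (volume (Pc i)).toReal
          + ∑ i ∈ I, (J h (V (q i).1) + ς) * η) := by
      rw [← Finset.sum_add_distrib, Finset.mul_sum]
      apply Finset.sum_congr rfl
      intro i _
      ring
    rw [hsum]
    exact final_arith τ ς η N Iv vD _ _ ε hτpos hτ1 hςpos hηpos hN0 hIv0 hIvle hτv hςv hηN hsum1 hsum2

/-- Let D ⊂ ℝ² be compact, V : ℝ² → ℝ² be C¹ on an open set containing D, and L, h > 0, with tr DV(p) = 0 and −1/L² < det DV(p) ≤ 0 for p ∈ D. Let E ⊂ ℝ × ℝ² be the ruled set of points (s, p + s V(p)), p ∈ D, −L ≤ s ≤ L. For every ε > 0, finitely many squares Tᵢ = cᵢ + [0,1]aᵢ + [0,1]bᵢ (aᵢ ⊥ bᵢ of equal nonzero length) and velocities gᵢ ∈ ℝ² exist whose sheared cylinders {(s, ξ) : ξ ∈ Tᵢ + s gᵢ} cover E, with ∑ᵢ area(Tᵢ) J(gᵢ) ≤ ∫_D J(V(p)) dp + ε, where J(g) = (1 + g₁² + h² g₂²)^(−1/2). -/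
theorem result
    (D : Set (EuclideanSpace ℝ (Fin 2))) (hD : IsCompact D)
    (V : EuclideanSpace ℝ (Fin 2) → EuclideanSpace ℝ (Fin 2)) (U : Set (EuclideanSpace ℝ (Fin 2)))
    (hU : IsOpen U) (hDU : D ⊆ U) (hV : ContDiffOn ℝ 1 V U) (L h : ℝ) (hL : 0 < L) (hh : 0 < h)
    (htr : ∀ p ∈ D, LinearMap.trace ℝ _ (fderiv ℝ V p).toLinearMap = 0)
    (hdet : ∀ p ∈ D, -(L ^ 2)⁻¹ < LinearMap.det (fderiv ℝ V p).toLinearMap ∧
      LinearMap.det (fderiv ℝ V p).toLinearMap ≤ 0)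
    (ε : ℝ) (hε : 0 < ε) :
    ∃ (k : ℕ) (c a b g : Fin k → EuclideanSpace ℝ (Fin 2)),
      (∀ i, a i ≠ 0 ∧ ‖b i‖ = ‖a i‖ ∧ inner ℝ (a i) (b i) = 0) ∧
      {z : ℝ × EuclideanSpace ℝ (Fin 2) | ∃ p ∈ D, abs z.1 ≤ L ∧ z.2 = p + z.1 • V p} ⊆
        ⋃ i, {z : ℝ × EuclideanSpace ℝ (Fin 2) | ∃ x ∈ Set.Icc (0 : ℝ) 1, ∃ y ∈ Set.Icc (0 : ℝ) 1,
          z.2 = c i + x • a i + y • b i + z.1 • g i} ∧
      ∑ i, ‖a i‖ ^ 2 / Real.sqrt (1 + (g i 0) ^ 2 + h ^ 2 * (g i 1) ^ 2) ≤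
        (∫ p in D, 1 / Real.sqrt (1 + (V p 0) ^ 2 + h ^ 2 * (V p 1) ^ 2)) + ε := by
  obtain ⟨ι, i0, c, a, b, g, h1, h2, h3⟩ :=
    main_cov D hD V U hU hDU hV L h hL htr hdet ε hε
  let e := Fintype.equivFin ι
  refine ⟨Fintype.card ι, c ∘ e.symm, a ∘ e.symm, b ∘ e.symm, g ∘ e.symm,
    fun i => h1 _, ?_, ?_⟩
  · intro z hz
    obtain ⟨i, hi⟩ := mem_iUnion.mp (h2 hz)
    refine mem_iUnion.mpr ⟨e i, ?_⟩
    simpa using hi
  · have hs : ∑ i, ‖(a ∘ e.symm) i‖ ^ 2 / Real.sqrt (1 + ((g ∘ e.symm) i 0) ^ 2 +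
        h ^ 2 * ((g ∘ e.symm) i 1) ^ 2) = ∑ i, ‖a i‖ ^ 2 * J h (g i) := by
      rw [← Equiv.sum_comp e.symm]
      apply Finset.sum_congr rfl
      intro i _
      simp [J, div_eq_mul_inv]
    rw [hs]
    exact h3

end Crest.Agent.S0326
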