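import Crest.Agent.Tet7Gram

set_option autoImplicit false
set_option linter.unusedSimpArgs false
set_option linter.unnecessarySimpa false
set_option linter.unusedTactic false
set_option linter.unreachableTactic false
set_option linter.unusedVariables false

open MeasureTheory Metric Set
open scoped RealInnerProductSpace ENNReal Pointwise

namespace Crest.Agent.Tet7Sim

open Crest.Agent.Tet7Gram
open Crest.Agent.TetArea (gram2 gram2_nonneg triangle_area parallelogram_area mem_convexHull_triple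
  lin2 lin2_apply area_lin2_image area_translate)

abbrev E2 := EuclideanSpace ℝ (Fin 2)

/-! ### Similarity -/

/-- The model tetrahedron can be moved to any regular tetrahedron by a similarity. -/
theorem exists_similarity (w : Fin 4 → E3) (ℓ : ℝ) (hℓ : 0 < ℓ)
    (hw : ∀ i j, i ≠ j → dist (w i) (w j) = ℓ) :
    ∃ (Q : E3 ≃ₗᵢ[ℝ] E3) (T : E3),
      w 0 = (ℓ / 2) • Q !₂[1, 0, 0] + T ∧ w 1 = (ℓ / 2) • Q !₂[-1, 0, 0] + T ∧
      w 2 = (ℓ / 2) • Q !₂[0, 1, Real.sqrt 2] + T ∧ w 3 = (ℓ / 2) • Q !₂[0, -1, Real.sqrt 2] + T := by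
  set r₀ := ℓ / 2 with hr₀
  have hr₀pos : 0 < r₀ := by positivity
  have hs2 : Real.sqrt 2 ^ 2 = 2 := Real.sq_sqrt (by norm_num)
  have hs2pos : 0 < Real.sqrt 2 := Real.sqrt_pos.mpr (by norm_num)
  -- the three edge vectors
  set g0 := (1 / r₀) • (w 1 - w 0) with hg0
  set g1 := (1 / r₀) • (w 2 - w 0) with hg1
  set g2 := (1 / r₀) • (w 3 - w 0) with hg2
  have hn : ∀ i j, i ≠ j → ‖w i - w j‖ ^ 2 = ℓ ^ 2 := by
    intro i j hij
    rw [← dist_eq_norm, hw i j hij]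
  have hscale : (1 / r₀) ^ 2 * ℓ ^ 2 = 4 := by
    rw [hr₀]; field_simp; norm_num
  have gnorm : ∀ i : Fin 4, i ≠ 0 → ‖(1 / r₀) • (w i - w 0)‖ ^ 2 = 4 := by
    intro i hi
    rw [norm_smul, mul_pow, hn i 0 hi, Real.norm_eq_abs, sq_abs, hscale]
  have ginner : ∀ i j : Fin 4, i ≠ 0 → j ≠ 0 → i ≠ j →
      ⟪(1 / r₀) • (w i - w 0), (1 / r₀) • (w j - w 0)⟫ = 2 := by
    intro i j hi hj hij
    have h1 := hn i j hij
    have e : w i - w j = (w i - w 0) - (w j - w 0) := by abel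
    rw [e, norm_sub_sq_real, hn i 0 hi, hn j 0 hj] at h1
    rw [inner_smul_left, inner_smul_right]
    simp only [conj_trivial]
    have h2 : ⟪w i - w 0, w j - w 0⟫ = ℓ ^ 2 / 2 := by linarith
    rw [h2, ← mul_assoc, ← sq, mul_div_assoc', hscale]
    norm_num
  have g00 : ‖g0‖ ^ 2 = 4 := gnorm 1 (by decide)
  have g11 : ‖g1‖ ^ 2 = 4 := gnorm 2 (by decide)
  have g22 : ‖g2‖ ^ 2 = 4 := gnorm 3 (by decide)
  have g01 : ⟪g0, g1⟫ = 2 := ginner 1 2 (by decide) (by decide) (by decide)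
  have g02 : ⟪g0, g2⟫ = 2 := ginner 1 3 (by decide) (by decide) (by decide)
  have g12 : ⟪g1, g2⟫ = 2 := ginner 2 3 (by decide) (by decide) (by decide)
  -- the linear map
  let c0 : E3 → ℝ := fun x => -(x 0 + x 2 / Real.sqrt 2) / 2
  let c1 : E3 → ℝ := fun x => (x 1 + x 2 / Real.sqrt 2) / 2
  let c2 : E3 → ℝ := fun x => (-x 1 + x 2 / Real.sqrt 2) / 2
  let Ql : E3 →ₗ[ℝ] E3 :=
    { toFun := fun x => c0 x • g0 + c1 x • g1 + c2 x • g2
      map_add' := by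
        intro x y
        simp only [c0, c1, c2, PiLp.add_apply]
        module
      map_smul' := by
        intro t x
        simp only [c0, c1, c2, PiLp.smul_apply, smul_eq_mul, RingHom.id_apply]
        module }
  have hQl : ∀ x, Ql x = c0 x • g0 + c1 x • g1 + c2 x • g2 := fun x => rfl
  have hnorm : ∀ x, ‖Ql x‖ = ‖x‖ := by
    intro x
    have h1 : ‖Ql x‖ ^ 2 = ‖x‖ ^ 2 := by
      rw [hQl, ← real_inner_self_eq_norm_sq]
      simp only [inner_add_left, inner_add_right, inner_smul_left, inner_smul_right, conj_trivial,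
        real_inner_self_eq_norm_sq, g00, g11, g22, g01, g02, g12, real_inner_comm g0 g1,
        real_inner_comm g0 g2, real_inner_comm g1 g2]
      rw [norm_sq_coords]
      simp only [c0, c1, c2]
      have hy : x 2 ^ 2 = 2 * (x 2 / Real.sqrt 2) ^ 2 := by
        field_simp
        rw [hs2]
      rw [hy]
      ring
    have := sq_eq_sq₀ (norm_nonneg (Ql x)) (norm_nonneg x)
    exact this.mp h1
  let Qi : E3 →ₗᵢ[ℝ] E3 := ⟨Ql, hnorm⟩
  let Q : E3 ≃ₗᵢ[ℝ] E3 := Qi.toLinearIsometryEquiv rfl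
  have hQ : ∀ x, Q x = c0 x • g0 + c1 x • g1 + c2 x • g2 := fun x => rfl
  have hr₀g : ∀ i : Fin 4, r₀ • ((1 / r₀) • (w i - w 0)) = w i - w 0 := by
    intro i
    rw [smul_smul, mul_one_div_cancel hr₀pos.ne', one_smul]
  refine ⟨Q, (1 / 2 : ℝ) • (w 0 + w 1), ?_, ?_, ?_, ?_⟩
  · rw [hQ]
    simp only [c0, c1, c2]
    have e : r₀ • ((-((!₂[1, 0, 0] : E3) 0 + (!₂[1, 0, 0] : E3) 2 / Real.sqrt 2) / 2) • g0 +
        (((!₂[1, 0, 0] : E3) 1 + (!₂[1, 0, 0] : E3) 2 / Real.sqrt 2) / 2) • g1 +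
        ((-(!₂[1, 0, 0] : E3) 1 + (!₂[1, 0, 0] : E3) 2 / Real.sqrt 2) / 2) • g2)
        = (-(1 / 2) : ℝ) • (r₀ • g0) := by
      simp
      module
    rw [e, hg0, hr₀g]
    module
  · rw [hQ]
    simp only [c0, c1, c2]
    have e : r₀ • ((-((!₂[-1, 0, 0] : E3) 0 + (!₂[-1, 0, 0] : E3) 2 / Real.sqrt 2) / 2) • g0 +
        (((!₂[-1, 0, 0] : E3) 1 + (!₂[-1, 0, 0] : E3) 2 / Real.sqrt 2) / 2) • g1 +
        ((-(!₂[-1, 0, 0] : E3) 1 + (!₂[-1, 0, 0] : E3) 2 / Real.sqrt 2) / 2) • g2)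
        = ((1 / 2) : ℝ) • (r₀ • g0) := by
      simp
      module
    rw [e, hg0, hr₀g]
    module
  · rw [hQ]
    simp only [c0, c1, c2]
    have h1 : Real.sqrt 2 / Real.sqrt 2 = 1 := div_self hs2pos.ne'
    have e : r₀ • ((-((!₂[0, 1, Real.sqrt 2] : E3) 0 + (!₂[0, 1, Real.sqrt 2] : E3) 2 / Real.sqrt 2) / 2) • g0 +
        (((!₂[0, 1, Real.sqrt 2] : E3) 1 + (!₂[0, 1, Real.sqrt 2] : E3) 2 / Real.sqrt 2) / 2) • g1 +
        ((-(!₂[0, 1, Real.sqrt 2] : E3) 1 + (!₂[0, 1, Real.sqrt 2] : E3) 2 / Real.sqrt 2) / 2) • g2)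
        = (-(1 / 2) : ℝ) • (r₀ • g0) + r₀ • g1 := by
      simp [h1]
      norm_num
      module
    rw [e, hg0, hg1, hr₀g, hr₀g]
    module
  · rw [hQ]
    simp only [c0, c1, c2]
    have h1 : Real.sqrt 2 / Real.sqrt 2 = 1 := div_self hs2pos.ne'
    have e : r₀ • ((-((!₂[0, -1, Real.sqrt 2] : E3) 0 + (!₂[0, -1, Real.sqrt 2] : E3) 2 / Real.sqrt 2) / 2) • g0 +
        (((!₂[0, -1, Real.sqrt 2] : E3) 1 + (!₂[0, -1, Real.sqrt 2] : E3) 2 / Real.sqrt 2) / 2) • g1 +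
        ((-(!₂[0, -1, Real.sqrt 2] : E3) 1 + (!₂[0, -1, Real.sqrt 2] : E3) 2 / Real.sqrt 2) / 2) • g2)
        = (-(1 / 2) : ℝ) • (r₀ • g0) + r₀ • g2 := by
      simp [h1]
      norm_num
      module
    rw [e, hg0, hg2, hr₀g, hr₀g]
    module

/-- Measure under a similarity. -/
theorem sim_measure (r : ℝ) (hr : 0 < r) (Q : E3 ≃ₗᵢ[ℝ] E3) (t : E3) (X : Set E3) :
    μHE[2] ((fun x => r • Q x + t) '' X) = ENNReal.ofReal (r ^ 2) * μHE[2] X := by
  have h1 : (fun x => r • Q x + t) '' X = (fun y => t + y) '' (r • (Q '' X)) := by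
    ext z
    simp only [mem_image, mem_smul_set]
    constructor
    · rintro ⟨x, hx, rfl⟩
      exact ⟨r • Q x, ⟨Q x, ⟨x, hx, rfl⟩, rfl⟩, add_comm _ _⟩
    · rintro ⟨_, ⟨_, ⟨x, hx, rfl⟩, rfl⟩, rfl⟩
      exact ⟨x, hx, add_comm _ _⟩
  rw [h1, area_translate, Measure.euclideanHausdorffMeasure_smul₀ 2 hr.ne',
    Q.isometry.euclideanHausdorffMeasure_image]
  have h2 : ((‖r‖₊ ^ 2 : NNReal) : ℝ≥0∞) = ENNReal.ofReal (r ^ 2) := by
    rw [ENNReal.ofReal_pow hr.le, ENNReal.coe_pow]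
    congr 1
    rw [← enorm_eq_nnnorm, Real.enorm_eq_ofReal hr.le]
  rw [ENNReal.smul_def, smul_eq_mul, h2]

/-! ### Strips -/

/-- A triangle is covered by `n` parallelograms. -/
theorem strip_cover (p q r x : E3) (n : ℕ) (hn : 0 < n) (hx : x ∈ convexHull ℝ {p, q, r}) :
    ∃ j : Fin n, ∃ s ∈ Icc (0 : ℝ) 1, ∃ t ∈ Icc (0 : ℝ) 1,
      x = (p + ((j : ℝ) / n) • (q - p)) + s • ((1 / (n : ℝ)) • (q - p))
        + t • ((1 - (j : ℝ) / n) • (r - p)) := by
  obtain ⟨w₀, w₁, w₂, h0, h1, h2, hsum, rfl⟩ := (mem_convexHull_triple _ _ _ _).mp hx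
  have hnR : (0 : ℝ) < n := by exact_mod_cast hn
  set J : ℕ := min ⌊(n : ℝ) * w₁⌋₊ (n - 1) with hJ
  have hJn : J < n := by
    have : J ≤ n - 1 := min_le_right _ _
    omega
  have hJR : (J : ℝ) ≤ (n : ℝ) - 1 := by
    have : J + 1 ≤ n := hJn
    have : ((J + 1 : ℕ) : ℝ) ≤ n := by exact_mod_cast this
    push_cast at this
    linarith
  have hw1 : w₁ ≤ 1 := by linarith
  have hJ1 : (J : ℝ) ≤ (n : ℝ) * w₁ := by
    have h3 : (J : ℝ) ≤ (⌊(n : ℝ) * w₁⌋₊ : ℝ) := by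
      exact_mod_cast (min_le_left _ _ : J ≤ ⌊(n : ℝ) * w₁⌋₊)
    exact h3.trans (Nat.floor_le (by positivity))
  have hJ2 : (n : ℝ) * w₁ ≤ J + 1 := by
    by_cases hc : ⌊(n : ℝ) * w₁⌋₊ ≤ n - 1
    · have e : J = ⌊(n : ℝ) * w₁⌋₊ := min_eq_left hc
      rw [e]
      exact (Nat.lt_floor_add_one _).le
    · have e : J = n - 1 := min_eq_right (by omega)
      have e2 : ((n - 1 : ℕ) : ℝ) = (n : ℝ) - 1 := by
        rw [Nat.cast_sub hn]; simp
      rw [e, e2]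
      nlinarith
  have hJdiv : (J : ℝ) / n ≤ 1 - 1 / n := by
    rw [div_le_iff₀ hnR]
    have : (1 - 1 / (n : ℝ)) * n = n - 1 := by field_simp
    rw [this]
    exact hJR
  have hpos : 0 < 1 - (J : ℝ) / n := by
    have : 0 < 1 / (n : ℝ) := by positivity
    linarith
  have hle : w₂ ≤ 1 - (J : ℝ) / n := by
    have : (J : ℝ) / n ≤ w₁ := by
      rw [div_le_iff₀ hnR]; linarith
    linarith
  refine ⟨⟨J, hJn⟩, (n : ℝ) * w₁ - J, ⟨by linarith, by linarith⟩, w₂ / (1 - (J : ℝ) / n),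
    ⟨div_nonneg h2 hpos.le, (div_le_one hpos).mpr hle⟩, ?_⟩
  simp only [smul_smul]
  have e1 : ((n : ℝ) * w₁ - J) * (1 / (n : ℝ)) = w₁ - (J : ℝ) / n := by
    field_simp
  have e2 : w₂ / (1 - (J : ℝ) / n) * (1 - (J : ℝ) / n) = w₂ := div_mul_cancel₀ _ hpos.ne'
  rw [e1, e2]
  have e3 : w₀ = 1 - w₁ - w₂ := by linarith
  rw [e3]
  module

lemma sum_range_cast (n : ℕ) : ∑ j ∈ Finset.range n, (j : ℝ) = (n : ℝ) * (n - 1) / 2 := by
  induction n with
  | zero => simp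
  | succ k ih =>
    rw [Finset.sum_range_succ, ih]
    push_cast
    ring

/-- Total area of the strips. -/
theorem strip_area (p q r : E3) (n : ℕ) (hn : 0 < n) :
    ∑ j : Fin n, (μHE[2] {x : E3 | ∃ s ∈ Icc (0 : ℝ) 1, ∃ t ∈ Icc (0 : ℝ) 1,
        x = (p + ((j : ℝ) / n) • (q - p)) + s • ((1 / (n : ℝ)) • (q - p))
          + t • ((1 - (j : ℝ) / n) • (r - p))}).toReal
      = (1 + 1 / (n : ℝ)) * (μHE[2] (convexHull ℝ {p, q, r})).toReal := by
  have hnR : (0 : ℝ) < n := by exact_mod_cast hn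
  set G := ‖q - p‖ ^ 2 * ‖r - p‖ ^ 2 - ⟪q - p, r - p⟫ ^ 2 with hG
  have hG0 : 0 ≤ G := gram2_nonneg (q - p) (r - p)
  have hterm : ∀ j : Fin n, (μHE[2] {x : E3 | ∃ s ∈ Icc (0 : ℝ) 1, ∃ t ∈ Icc (0 : ℝ) 1,
        x = (p + ((j : ℝ) / n) • (q - p)) + s • ((1 / (n : ℝ)) • (q - p))
          + t • ((1 - (j : ℝ) / n) • (r - p))}).toReal
      = (1 / (n : ℝ)) * (1 - (j : ℝ) / n) * Real.sqrt G := by
    intro j
    have hj : (j : ℝ) < n := by exact_mod_cast j.2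
    have hpos : 0 ≤ 1 - (j : ℝ) / n := by
      have : (j : ℝ) / n ≤ 1 := (div_le_one hnR).mpr hj.le
      linarith
    rw [parallelogram_area, ENNReal.toReal_ofReal (Real.sqrt_nonneg _)]
    have e : ‖(1 / (n : ℝ)) • (q - p)‖ ^ 2 * ‖(1 - (j : ℝ) / n) • (r - p)‖ ^ 2
        - inner ℝ ((1 / (n : ℝ)) • (q - p)) ((1 - (j : ℝ) / n) • (r - p)) ^ 2
        = ((1 / (n : ℝ)) * (1 - (j : ℝ) / n)) ^ 2 * G := by
      rw [norm_smul, norm_smul, inner_smul_left, inner_smul_right, mul_pow, mul_pow,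
        Real.norm_eq_abs, Real.norm_eq_abs, sq_abs, sq_abs, hG]
      simp only [conj_trivial]
      ring
    rw [e, Real.sqrt_mul (sq_nonneg _), Real.sqrt_sq (by positivity)]
  rw [Finset.sum_congr rfl (fun j _ => hterm j), triangle_area, ENNReal.toReal_ofReal (by positivity)]
  rw [← hG, ← Finset.sum_mul, ← Finset.mul_sum]
  have hsum : ∑ j : Fin n, (1 - (j : ℝ) / n) = ((n : ℝ) + 1) / 2 := by
    rw [Fin.sum_univ_eq_sum_range (fun j => 1 - (j : ℝ) / n) n, Finset.sum_sub_distrib,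
      ← Finset.sum_div, sum_range_cast]
    simp
    field_simp
    ring
  rw [hsum]
  field_simp

/-! ### Open enlargement -/

/-- Compact subsets of a plane have bounded relatively open neighbourhoods of nearly equal area. -/
theorem open_enlarge (u : E3) (hu : ‖u‖ = 1) (X : Set E3) (hX : IsCompact X)
    (hXu : ∀ x ∈ X, ⟪x, u⟫ = 0) (ς : ℝ) (hς : 0 < ς) :
    ∃ B : Set E3, Bornology.IsBounded B ∧ (∃ O : Set E3, IsOpen O ∧ B = O ∩ {x | inner ℝ x u = 0}) ∧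
      X ⊆ B ∧ (μHE[2] B).toReal ≤ (μHE[2] X).toReal + ς := by
  -- an orthonormal basis with last vector `u`
  have hon : Orthonormal ℝ (({2} : Set (Fin 3)).domRestrict fun _ : Fin 3 => u) :=
    ⟨fun _ => hu, fun i j hij => absurd (Subtype.ext (i.2.trans j.2.symm)) hij⟩
  obtain ⟨b, hb⟩ := hon.exists_orthonormalBasis_extension_of_card_eq (by simp)
  have hb2 : b 2 = u := hb 2 rfl
  set e₀ := b 0 with he₀
  set e₁ := b 1 with he₁
  have hn0 : ‖e₀‖ = 1 := b.norm_eq_one 0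
  have hn1 : ‖e₁‖ = 1 := b.norm_eq_one 1
  have h00 : ⟪e₀, e₀⟫ = 1 := by rw [real_inner_self_eq_norm_sq, hn0]; norm_num
  have h11 : ⟪e₁, e₁⟫ = 1 := by rw [real_inner_self_eq_norm_sq, hn1]; norm_num
  have h01 : ⟪e₀, e₁⟫ = 0 := b.inner_eq_zero (i := 0) (j := 1) (by decide)
  have h10 : ⟪e₁, e₀⟫ = 0 := b.inner_eq_zero (i := 1) (j := 0) (by decide)
  have h0u : ⟪e₀, u⟫ = 0 := by
    rw [← hb2]; exact b.inner_eq_zero (i := 0) (j := 2) (by decide)
  have h1u : ⟪e₁, u⟫ = 0 := by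
    rw [← hb2]; exact b.inner_eq_zero (i := 1) (j := 2) (by decide)
  let ρ : E3 → E2 := fun y => !₂[⟪e₀, y⟫, ⟪e₁, y⟫]
  have hρc : Continuous ρ := by
    refine (PiLp.continuous_toLp 2 _).comp ?_
    refine continuous_pi fun i => ?_
    fin_cases i
    · simpa using continuous_const.inner continuous_id
    · simpa using continuous_const.inner continuous_id
  let ι : E2 →ₗ[ℝ] E3 := lin2 e₀ e₁
  have hιu : ∀ z, ⟪ι z, u⟫ = 0 := by
    intro z
    simp only [ι, lin2_apply, inner_add_left, inner_smul_left, h0u, h1u]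
    simp
  have hρι : ∀ z, ρ (ι z) = z := by
    intro z
    ext i
    fin_cases i
    · simp [ρ, ι, inner_add_right, inner_smul_right, hn0, h01]
    · simp [ρ, ι, inner_add_right, inner_smul_right, hn1, h10]
  have hιρ : ∀ y, ⟪y, u⟫ = 0 → ι (ρ y) = y := by
    intro y hy
    have h1 := b.sum_repr' y
    have hy' : ⟪u, y⟫ = 0 := by rw [real_inner_comm]; exact hy
    rw [Fin.sum_univ_three, hb2, hy', zero_smul, add_zero] at h1
    simpa [ρ, ι] using h1
  have hgram : gram2 e₀ e₁ = 1 := by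
    unfold gram2
    rw [← real_inner_self_eq_norm_sq, ← real_inner_self_eq_norm_sq, h00, h11, h01]
    norm_num
  have harea : ∀ s : Set E2, μHE[2] (ι '' s) = volume s := by
    intro s
    rw [area_lin2_image, hgram]
    simp
  -- the planar set
  set X₂ := ρ '' X with hX₂
  have hX₂c : IsCompact X₂ := hX.image hρc
  have hXι : X = ι '' X₂ := by
    ext x
    constructor
    · intro hx
      exact ⟨ρ x, ⟨x, hx, rfl⟩, hιρ x (hXu x hx)⟩
    · rintro ⟨_, ⟨y, hy, rfl⟩, rfl⟩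
      rwa [hιρ y (hXu y hy)]
  have hfin : volume X₂ ≠ ∞ := hX₂c.measure_lt_top.ne
  have htends := tendsto_measure_cthickening_of_isClosed (μ := (volume : Measure E2)) (s := X₂)
    ⟨1, one_pos, (hX₂c.cthickening (r := 1)).measure_lt_top.ne⟩ hX₂c.isClosed
  have hlt : volume X₂ < ENNReal.ofReal ((volume X₂).toReal + ς) := by
    rw [← ENNReal.ofReal_toReal hfin]
    rw [ENNReal.toReal_ofReal ENNReal.toReal_nonneg]
    exact (ENNReal.ofReal_lt_ofReal_iff (by positivity)).mpr (by linarith)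
  obtain ⟨ρ₀, hρ₀, hρ₀'⟩ := Metric.eventually_nhds_iff.mp (htends.eventually (gt_mem_nhds hlt))
  have hr : volume (cthickening (ρ₀ / 2) X₂) < ENNReal.ofReal ((volume X₂).toReal + ς) := by
    apply hρ₀'
    rw [Real.dist_eq, sub_zero, abs_of_pos (by positivity)]
    linarith
  set W := thickening (ρ₀ / 2) X₂ with hW
  have hWo : IsOpen W := isOpen_thickening
  have hWsub : W ⊆ cthickening (ρ₀ / 2) X₂ := thickening_subset_cthickening _ _
  refine ⟨ι '' W, ?_, ⟨ρ ⁻¹' W, hWo.preimage hρc, ?_⟩, ?_, ?_⟩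
  · have hc : IsCompact (ι '' cthickening (ρ₀ / 2) X₂) :=
      (hX₂c.cthickening).image ι.continuous_of_finiteDimensional
    exact hc.isBounded.subset (image_mono hWsub)
  · ext y
    constructor
    · rintro ⟨z, hz, rfl⟩
      refine ⟨?_, hιu z⟩
      show ρ (ι z) ∈ W
      rwa [hρι]
    · rintro ⟨h1, h2⟩
      exact ⟨ρ y, h1, hιρ y h2⟩
  · rw [hXι]
    exact image_mono (self_subset_thickening (by positivity) _)
  · rw [harea]
    conv_rhs => rw [hXι, harea]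
    have h1 : volume W ≤ ENNReal.ofReal ((volume X₂).toReal + ς) :=
      (measure_mono hWsub).trans hr.le
    have h2 := ENNReal.toReal_mono ENNReal.ofReal_ne_top h1
    rwa [ENNReal.toReal_ofReal (by positivity)] at h2

end Crest.Agent.Tet7Sim
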