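import Crest.Statements.S0327
import Crest.Agent.S0324
import Crest.Agent.Tet7Sim

set_option autoImplicit false
set_option maxHeartbeats 4000000
open MeasureTheory
open scoped ENNReal
open Crest Crest.GeometryTopology Crest.GeometryTopology.Convex

namespace Crest.Agent.S0327

open Crest.Agent.Tet7Gram Crest.Agent.Tet7Sim Metric Set
open Crest.Agent.TetArea (gram2 mem_convexHull_triple muH_toReal_eq areaConst areaConst_pos parallelogram_area)
open scoped RealInnerProductSpace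

/-- Images of convex hulls under similarities. -/
lemma image_convexHull_sim (r : ℝ) (Q : E3 ≃ₗᵢ[ℝ] E3) (t : E3) (s : Set E3) :
    (fun x => r • Q x + t) '' convexHull ℝ s = convexHull ℝ ((fun x => r • Q x + t) '' s) := by
  let L : E3 →ₗ[ℝ] E3 := r • (Q.toLinearEquiv : E3 →ₗ[ℝ] E3)
  let f : E3 →ᵃ[ℝ] E3 := L.toAffineMap + AffineMap.const ℝ E3 t
  have hf : (f : E3 → E3) = fun x => r • Q x + t := by
    funext x
    simp [f, L]
  have := f.image_convexHull s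
  rwa [hf] at this

/-- Ratio bound. -/
lemma ratio_lt {ι : Type*} [Fintype ι] (a D : ι → ℝ) (ha : ∀ k, 0 ≤ a k) (δ₁ : ℝ) (hδ₁ : 0 < δ₁)
    (hD : ∀ k, (∑ k, a k) + δ₁ ≤ D k / 2) : ∑ k, a k / D k < 1 / 2 := by
  set S := ∑ k, a k with hS
  have hS0 : 0 ≤ S := Finset.sum_nonneg fun k _ => ha k
  have hpos : 0 < 2 * (S + δ₁) := by positivity
  have h1 : ∀ k, a k / D k ≤ a k / (2 * (S + δ₁)) := by
    intro k
    have h2 : 2 * (S + δ₁) ≤ D k := by linarith [hD k]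
    exact div_le_div_of_nonneg_left (ha k) hpos h2
  calc ∑ k, a k / D k ≤ ∑ k, a k / (2 * (S + δ₁)) := Finset.sum_le_sum fun k _ => h1 k
    _ = S / (2 * (S + δ₁)) := by rw [← Finset.sum_div]
    _ < 1 / 2 := by
      rw [div_lt_div_iff₀ hpos (by norm_num)]
      nlinarith


/-- Let K ⊂ ℝ³ be a regular tetrahedron (convex hull of four points with equal pairwise distances ℓ > 0); areas are Lebesgue-normalised 2-dimensional Hausdorff measure, π_v y = y − ⟪y, v⟫ v. (1) Finitely many cylinders Bᵢ + ℝ uᵢ, ‖uᵢ‖ = 1, with parallelogram bases Bᵢ = cᵢ + [0,1]aᵢ + [0,1]bᵢ in uᵢ^⊥ cover K, ∑ᵢ area(Bᵢ) being below half of area(π_v K) by a positive margin for all unit v, and ∑ᵢ area(Bᵢ)/area(π_{uᵢ} K) < 1/2. (2) The same with bounded relatively open subsets of the uᵢ^⊥ as bases. -/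
theorem result
    (w : Fin 4 → EuclideanSpace ℝ (Fin 3)) (ℓ : ℝ) (hℓ : 0 < ℓ)
    (hw : ∀ i j, i ≠ j → dist (w i) (w j) = ℓ) :
    (∃ (k : ℕ) (u c a b : Fin k → EuclideanSpace ℝ (Fin 3)),
      (∀ i, ‖u i‖ = 1) ∧
      (∀ i, inner ℝ (c i) (u i) = 0 ∧ inner ℝ (a i) (u i) = 0 ∧ inner ℝ (b i) (u i) = 0) ∧
      convexHull ℝ (Set.range w) ⊆ ⋃ i, {x : EuclideanSpace ℝ (Fin 3) |
        ∃ s ∈ Set.Icc (0 : ℝ) 1, ∃ t ∈ Set.Icc (0 : ℝ) 1, ∃ τ : ℝ, x = c i + s • a i + t • b i + τ • u i} ∧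
      (∃ δ : ℝ, 0 < δ ∧ ∀ v : EuclideanSpace ℝ (Fin 3), ‖v‖ = 1 →
        (∑ i, (μHE[2] {x : EuclideanSpace ℝ (Fin 3) |
            ∃ s ∈ Set.Icc (0 : ℝ) 1, ∃ t ∈ Set.Icc (0 : ℝ) 1, x = c i + s • a i + t • b i}).toReal) + δ ≤
          (μHE[2] ((fun y => y - inner ℝ y v • v) '' convexHull ℝ (Set.range w))).toReal / 2) ∧
      ∑ i, (μHE[2] {x : EuclideanSpace ℝ (Fin 3) |
            ∃ s ∈ Set.Icc (0 : ℝ) 1, ∃ t ∈ Set.Icc (0 : ℝ) 1, x = c i + s • a i + t • b i}).toReal /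
          (μHE[2] ((fun y => y - inner ℝ y (u i) • u i) '' convexHull ℝ (Set.range w))).toReal < 1 / 2) ∧
    (∃ (k : ℕ) (u : Fin k → EuclideanSpace ℝ (Fin 3)) (B : Fin k → Set (EuclideanSpace ℝ (Fin 3))),
      (∀ i, ‖u i‖ = 1) ∧
      (∀ i, Bornology.IsBounded (B i) ∧ ∃ O : Set (EuclideanSpace ℝ (Fin 3)), IsOpen O ∧
        B i = O ∩ {x | inner ℝ x (u i) = 0}) ∧
      convexHull ℝ (Set.range w) ⊆
        ⋃ i, {x : EuclideanSpace ℝ (Fin 3) | ∃ y ∈ B i, ∃ τ : ℝ, x = y + τ • u i} ∧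
      (∃ δ : ℝ, 0 < δ ∧ ∀ v : EuclideanSpace ℝ (Fin 3), ‖v‖ = 1 →
        (∑ i, (μHE[2] (B i)).toReal) + δ ≤
          (μHE[2] ((fun y => y - inner ℝ y v • v) '' convexHull ℝ (Set.range w))).toReal / 2) ∧
      ∑ i, (μHE[2] (B i)).toReal /
          (μHE[2] ((fun y => y - inner ℝ y (u i) • u i) '' convexHull ℝ (Set.range w))).toReal < 1 / 2) := by
  classical
  obtain ⟨m, u, p, q, r, hu, hperp, hcov, δ, hδ, hmar⟩ := Crest.Agent.S0324.result
  obtain ⟨Q, T, h0, h1, h2, h3⟩ := exists_similarity w ℓ hℓ hw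
  set K : Set E3 := convexHull ℝ {!₂[1, 0, 0], !₂[-1, 0, 0], !₂[0, 1, Real.sqrt 2], !₂[0, -1, Real.sqrt 2]} with hK
  obtain ⟨r₀, hr₀def⟩ : ∃ r₀, r₀ = ℓ / 2 := ⟨_, rfl⟩
  rw [← hr₀def] at h0 h1 h2 h3
  have hr₀ : 0 < r₀ := by rw [hr₀def]; positivity
  set Ψ : E3 → E3 := fun x => r₀ • Q x + T with hΨ
  have hconv : convexHull ℝ (Set.range w) = Ψ '' K := by
    rw [hK, hΨ, image_convexHull_sim]
    congr 1
    ext y
    simp only [mem_range, mem_image, mem_insert_iff, mem_singleton_iff]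
    constructor
    · rintro ⟨i, rfl⟩
      fin_cases i
      · exact ⟨_, Or.inl rfl, h0.symm⟩
      · exact ⟨_, Or.inr (Or.inl rfl), h1.symm⟩
      · exact ⟨_, Or.inr (Or.inr (Or.inl rfl)), h2.symm⟩
      · exact ⟨_, Or.inr (Or.inr (Or.inr rfl)), h3.symm⟩
    · rintro ⟨x, hx | hx | hx | hx, rfl⟩
      · rw [hx]; exact ⟨0, h0⟩
      · rw [hx]; exact ⟨1, h1⟩
      · rw [hx]; exact ⟨2, h2⟩
      · rw [hx]; exact ⟨3, h3⟩
  -- shadows
  have hshadow : ∀ v : E3, ‖v‖ = 1 →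
      (μHE[2] ((fun y => y - inner ℝ y (Q v) • Q v) '' convexHull ℝ (Set.range w))).toReal =
        r₀ ^ 2 * (μHE[2] ((fun y => y - inner ℝ y v • v) '' K)).toReal := by
    intro v hv
    have e : (fun y => y - inner ℝ y (Q v) • Q v) '' convexHull ℝ (Set.range w) =
        (fun y => r₀ • Q y + (T - inner ℝ T (Q v) • Q v)) '' ((fun y => y - inner ℝ y v • v) '' K) := by
      rw [hconv, image_image, image_image]
      apply image_congr
      intro x _
      simp only [hΨ, inner_add_left, inner_smul_left, Q.inner_map_map, conj_trivial, map_sub, map_smul,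
        smul_sub, add_smul, mul_smul]
      abel
    rw [e, sim_measure r₀ hr₀, ENNReal.toReal_mul, ENNReal.toReal_ofReal (by positivity)]
  -- the constant
  have hc : (0 : ℝ) < (areaConst : ℝ) := by exact_mod_cast areaConst_pos
  obtain ⟨c, hcdef⟩ : ∃ c : ℝ, c = (areaConst : ℝ) := ⟨_, rfl⟩
  rw [← hcdef] at hc
  obtain ⟨A, hAdef⟩ : ∃ A : Fin m → ℝ, A = fun i => (μHE[2] (convexHull ℝ {p i, q i, r i})).toReal := ⟨_, rfl⟩
  have hA0 : ∀ i, 0 ≤ A i := fun i => by rw [hAdef]; exact ENNReal.toReal_nonneg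
  obtain ⟨S, hSdef⟩ : ∃ S, S = ∑ i, A i := ⟨_, rfl⟩
  have hS0 : 0 ≤ S := by rw [hSdef]; exact Finset.sum_nonneg fun i _ => hA0 i
  obtain ⟨δ₀, hδ₀def⟩ : ∃ δ₀, δ₀ = c * δ := ⟨_, rfl⟩
  have hδ₀ : 0 < δ₀ := by rw [hδ₀def]; positivity
  have hmar' : ∀ v : E3, ‖v‖ = 1 → S + δ₀ ≤ (μHE[2] ((fun y => y - inner ℝ y v • v) '' K)).toReal / 2 := by
    intro v hv
    have h4 := hmar v hv
    simp only [muH_toReal_eq] at h4
    rw [← hcdef, ← Finset.sum_div] at h4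
    have h5 : (∑ i, (μHE[2] (convexHull ℝ {p i, q i, r i})).toReal) = S := by
      rw [hSdef, hAdef]
    rw [h5] at h4
    have h6 : S / c + δ = (S + δ₀) / c := by
      rw [hδ₀def]; field_simp
    rw [h6, div_div, mul_comm c 2, ← div_div, div_le_div_iff_of_pos_right hc] at h4
    exact h4
  have hmar'' : ∀ v' : E3, ‖v'‖ = 1 → r₀ ^ 2 * (S + δ₀) ≤
      (μHE[2] ((fun y => y - inner ℝ y v' • v') '' convexHull ℝ (Set.range w))).toReal / 2 := by
    intro v' hv'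
    have hv : ‖Q.symm v'‖ = 1 := by rw [Q.symm.norm_map]; exact hv'
    have e := hshadow (Q.symm v') hv
    rw [Q.apply_symm_apply] at e
    rw [e]
    have := hmar' _ hv
    have hr2 : 0 < r₀ ^ 2 := by positivity
    nlinarith
  -- new data
  obtain ⟨u', hu'def⟩ : ∃ u' : Fin m → E3, u' = fun i => Q (u i) := ⟨_, rfl⟩
  have hu'n : ∀ i, ‖u' i‖ = 1 := fun i => by rw [hu'def]; simp only; rw [Q.norm_map]; exact hu i
  obtain ⟨c', hc'def⟩ : ∃ c' : Fin m → E3, c' = fun i => T - inner ℝ T (u' i) • u' i := ⟨_, rfl⟩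
  have hc'perp : ∀ i, ⟪c' i, u' i⟫ = 0 := by
    intro i
    rw [hc'def]
    simp only
    rw [inner_sub_left, inner_smul_left, real_inner_self_eq_norm_sq, hu'n i]
    simp
  obtain ⟨mp, hmp⟩ : ∃ mp : Fin m → E3 → E3, mp = fun i x => r₀ • Q x + c' i := ⟨_, rfl⟩
  have hmpperp : ∀ i x, ⟪x, u i⟫ = 0 → ⟪mp i x, u' i⟫ = 0 := by
    intro i x hx
    rw [hmp]
    simp only
    rw [inner_add_left, hc'perp, add_zero, inner_smul_left, hu'def]
    simp only
    rw [Q.inner_map_map, hx]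
    simp
  obtain ⟨p', hp'def⟩ : ∃ p' : Fin m → E3, p' = fun i => mp i (p i) := ⟨_, rfl⟩
  obtain ⟨q', hq'def⟩ : ∃ q' : Fin m → E3, q' = fun i => mp i (q i) := ⟨_, rfl⟩
  obtain ⟨s', hs'def⟩ : ∃ s' : Fin m → E3, s' = fun i => mp i (r i) := ⟨_, rfl⟩
  have hp'perp : ∀ i, ⟪p' i, u' i⟫ = 0 := fun i => by
    rw [hp'def]; exact hmpperp i _ (hperp i).1
  have hq'perp : ∀ i, ⟪q' i, u' i⟫ = 0 := fun i => by
    rw [hq'def]; exact hmpperp i _ (hperp i).2.1
  have hs'perp : ∀ i, ⟪s' i, u' i⟫ = 0 := fun i => by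
    rw [hs'def]; exact hmpperp i _ (hperp i).2.2
  have himage : ∀ i, mp i '' convexHull ℝ {p i, q i, r i} = convexHull ℝ {p' i, q' i, s' i} := by
    intro i
    rw [hmp]
    simp only
    rw [image_convexHull_sim]
    congr 1
    rw [image_insert_eq, image_insert_eq, image_singleton, hp'def, hq'def, hs'def, hmp]
  have harea : ∀ i, (μHE[2] (convexHull ℝ {p' i, q' i, s' i})).toReal = r₀ ^ 2 * A i := by
    intro i
    rw [← himage i, hmp, hAdef]
    simp only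
    rw [sim_measure r₀ hr₀, ENNReal.toReal_mul, ENNReal.toReal_ofReal (by positivity)]
  have hcover : ∀ y ∈ convexHull ℝ (Set.range w), ∃ i, ∃ b' ∈ convexHull ℝ {p' i, q' i, s' i},
      ∃ τ : ℝ, y = b' + τ • u' i := by
    intro y hy
    rw [hconv] at hy
    obtain ⟨x, hx, rfl⟩ := hy
    obtain ⟨i, b, hb, t, rfl⟩ := mem_iUnion.mp (hcov hx)
    refine ⟨i, mp i b, himage i ▸ mem_image_of_mem _ hb, r₀ * t + inner ℝ T (u' i), ?_⟩
    rw [hmp, hc'def, hΨ, hu'def]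
    simp only
    rw [map_add, map_smul, smul_add, smul_smul, add_smul]
    module
  have hu'mar := hmar''
  have hr2 : 0 < r₀ ^ 2 := by positivity
  obtain ⟨δ₁, hδ₁def⟩ : ∃ δ₁, δ₁ = r₀ ^ 2 * δ₀ / 2 := ⟨_, rfl⟩
  have hδ₁ : 0 < δ₁ := by rw [hδ₁def]; positivity
  constructor
  · -- part 1
    obtain ⟨n, hn, hnS⟩ : ∃ n : ℕ, 0 < n ∧ S / (n : ℝ) ≤ δ₀ / 2 := by
      obtain ⟨n, hn⟩ := exists_nat_gt (2 * S / δ₀)
      have hnpos : (0 : ℝ) < (n : ℝ) + 1 := by positivity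
      refine ⟨n + 1, Nat.succ_pos _, ?_⟩
      rw [div_le_iff₀ (by exact_mod_cast hnpos)]
      rw [div_lt_iff₀ hδ₀] at hn
      push_cast
      nlinarith
    have hnR : (0 : ℝ) < n := by exact_mod_cast hn
    let ι := Fin m × Fin n
    let e := Fintype.equivFin ι
    let U : ι → E3 := fun k => u' k.1
    let C : ι → E3 := fun k => p' k.1 + ((k.2 : ℝ) / n) • (q' k.1 - p' k.1)
    let Av : ι → E3 := fun k => (1 / (n : ℝ)) • (q' k.1 - p' k.1)
    let Bv : ι → E3 := fun k => (1 - (k.2 : ℝ) / n) • (s' k.1 - p' k.1)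
    let ar : ι → ℝ := fun k => (μHE[2] {x : E3 | ∃ s ∈ Icc (0 : ℝ) 1, ∃ t ∈ Icc (0 : ℝ) 1,
        x = C k + s • Av k + t • Bv k}).toReal
    have har0 : ∀ k, 0 ≤ ar k := fun k => ENNReal.toReal_nonneg
    have hsum : ∑ k, ar k = (1 + 1 / (n : ℝ)) * (r₀ ^ 2 * S) := by
      rw [Fintype.sum_prod_type]
      have : ∀ i : Fin m, ∑ j : Fin n, ar (i, j) = (1 + 1 / (n : ℝ)) * (r₀ ^ 2 * A i) := by
        intro i
        rw [← harea i, ← strip_area (p' i) (q' i) (s' i) n hn]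
      rw [Finset.sum_congr rfl (fun i _ => this i), ← Finset.mul_sum, ← Finset.mul_sum, ← hSdef]
    have hmargin : (∑ k, ar k) + δ₁ ≤ r₀ ^ 2 * (S + δ₀) := by
      rw [hsum, hδ₁def]
      have e1 : (1 + 1 / (n : ℝ)) * (r₀ ^ 2 * S) = r₀ ^ 2 * S + r₀ ^ 2 * (S / n) := by ring
      rw [e1]
      have : r₀ ^ 2 * (S / n) ≤ r₀ ^ 2 * (δ₀ / 2) := by gcongr
      nlinarith
    refine ⟨Fintype.card ι, U ∘ e.symm, C ∘ e.symm, Av ∘ e.symm, Bv ∘ e.symm,
      fun i => hu'n _, ?_, ?_, ⟨δ₁, hδ₁, ?_⟩, ?_⟩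
    · intro i
      have ip := hp'perp (e.symm i).1
      have iq := hq'perp (e.symm i).1
      have is := hs'perp (e.symm i).1
      refine ⟨?_, ?_, ?_⟩
      · simp only [Function.comp, U, C, inner_add_left, inner_smul_left, inner_sub_left, ip, iq, conj_trivial]
        ring
      · simp only [Function.comp, U, Av, inner_smul_left, inner_sub_left, ip, iq, conj_trivial]
        ring
      · simp only [Function.comp, U, Bv, inner_smul_left, inner_sub_left, ip, is, conj_trivial]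
        ring
    · intro y hy
      obtain ⟨i, b', hb', τ, rfl⟩ := hcover y hy
      obtain ⟨j, s, hs, t, ht, hst⟩ := strip_cover (p' i) (q' i) (s' i) b' n hn hb'
      refine mem_iUnion.mpr ⟨e (i, j), s, hs, t, ht, τ, ?_⟩
      simp only [Function.comp, Equiv.symm_apply_apply, U, C, Av, Bv]
      rw [hst]
    · intro v hv
      have hsum2 : ∑ i, (μHE[2] {x : E3 | ∃ s ∈ Icc (0 : ℝ) 1, ∃ t ∈ Icc (0 : ℝ) 1,
          x = (C ∘ e.symm) i + s • (Av ∘ e.symm) i + t • (Bv ∘ e.symm) i}).toReal = ∑ k, ar k :=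
        Equiv.sum_comp e.symm ar
      rw [hsum2]
      exact hmargin.trans (hmar'' v hv)
    · have hsum3 : ∑ i, (μHE[2] {x : E3 | ∃ s ∈ Icc (0 : ℝ) 1, ∃ t ∈ Icc (0 : ℝ) 1,
          x = (C ∘ e.symm) i + s • (Av ∘ e.symm) i + t • (Bv ∘ e.symm) i}).toReal /
            (μHE[2] ((fun y => y - inner ℝ y ((U ∘ e.symm) i) • (U ∘ e.symm) i) ''
              convexHull ℝ (Set.range w))).toReal =
          ∑ k, ar k / (μHE[2] ((fun y => y - inner ℝ y (U k) • U k) ''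
              convexHull ℝ (Set.range w))).toReal :=
        Equiv.sum_comp e.symm (fun k => ar k / (μHE[2] ((fun y => y - inner ℝ y (U k) • U k) ''
              convexHull ℝ (Set.range w))).toReal)
      rw [hsum3]
      exact ratio_lt ar _ har0 δ₁ hδ₁ (fun k => hmargin.trans (hmar'' _ (hu'n _)))
  · -- part 2
    obtain ⟨ς, hςdef⟩ : ∃ ς, ς = δ₁ / ((m : ℝ) + 1) := ⟨_, rfl⟩
    have hς : 0 < ς := by rw [hςdef]; positivity
    have hopen := fun i => open_enlarge (u' i) (hu'n i) (convexHull ℝ {p' i, q' i, s' i})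
      (Set.Finite.isCompact_convexHull ℝ (Set.toFinite ({p' i, q' i, s' i} : Set E3))) (fun x hx => by
        obtain ⟨a, b, c, _, _, _, _, rfl⟩ := (mem_convexHull_triple _ _ _ _).mp hx
        rw [inner_add_left, inner_add_left, inner_smul_left, inner_smul_left, inner_smul_left,
          hp'perp, hq'perp, hs'perp]
        simp) ς hς
    choose B hBb hBO hBsub hBar using hopen
    have hsum : (∑ i, (μHE[2] (B i)).toReal) + δ₁ ≤ r₀ ^ 2 * (S + δ₀) := by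
      have h1 : ∑ i, (μHE[2] (B i)).toReal ≤ ∑ i, (r₀ ^ 2 * A i + ς) := by
        apply Finset.sum_le_sum
        intro i _
        rw [← harea i]
        exact hBar i
      rw [Finset.sum_add_distrib, ← Finset.mul_sum, ← hSdef, Finset.sum_const, Finset.card_univ,
        Fintype.card_fin, nsmul_eq_mul] at h1
      have h2 : (m : ℝ) * ς ≤ δ₁ := by
        rw [hςdef, mul_div_assoc', div_le_iff₀ (by positivity)]
        nlinarith
      have h3 : δ₁ + δ₁ = r₀ ^ 2 * δ₀ := by rw [hδ₁def]; ring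
      nlinarith
    refine ⟨m, u', B, hu'n, fun i => ⟨hBb i, hBO i⟩, ?_, ⟨δ₁, hδ₁, ?_⟩, ?_⟩
    · intro y hy
      obtain ⟨i, b', hb', τ, rfl⟩ := hcover y hy
      exact mem_iUnion.mpr ⟨i, b', hBsub i hb', τ, rfl⟩
    · intro v hv
      exact hsum.trans (hmar'' v hv)
    · exact ratio_lt _ _ (fun i => ENNReal.toReal_nonneg) δ₁ hδ₁ (fun k => hsum.trans (hmar'' _ (hu'n _)))

end Crest.Agent.S0327
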