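import Crest.Agent.Tet7Gram

set_option autoImplicit false
set_option linter.unusedSimpArgs false
set_option linter.unnecessarySimpa false
set_option linter.unusedTactic false
set_option linter.unreachableTactic false
set_option linter.unusedVariables false

open MeasureTheory Metric Set
open scoped RealInnerProductSpace ENNReal

namespace Crest.Agent.Tet7Sweep

open Crest.Agent.Tet7Gram
open Crest.Agent.TetArea (gram2 gram2_nonneg triangle_area mem_convexHull_triple)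

lemma norm_combo_sq (A B : E3) (x y : ℝ) :
    ‖x • A + y • B‖ ^ 2 = x ^ 2 * ‖A‖ ^ 2 + 2 * (x * y) * ⟪A, B⟫ + y ^ 2 * ‖B‖ ^ 2 := by
  rw [norm_add_sq_real, norm_smul, norm_smul, inner_smul_left, inner_smul_right, mul_pow, mul_pow,
    Real.norm_eq_abs, Real.norm_eq_abs, sq_abs, sq_abs]
  simp only [conj_trivial]
  ring

lemma inner_combo (A B : E3) (x1 y1 x2 y2 : ℝ) :
    ⟪x1 • A + y1 • B, x2 • A + y2 • B⟫ =
      x1 * x2 * ‖A‖ ^ 2 + (x1 * y2 + y1 * x2) * ⟪A, B⟫ + y1 * y2 * ‖B‖ ^ 2 := by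
  simp only [inner_add_left, inner_add_right, inner_smul_left, inner_smul_right, conj_trivial,
    real_inner_self_eq_norm_sq, real_inner_comm A B]
  ring

theorem gram_combo (A B : E3) (x1 y1 x2 y2 : ℝ) :
    ‖x1 • A + y1 • B‖ ^ 2 * ‖x2 • A + y2 • B‖ ^ 2 - ⟪x1 • A + y1 • B, x2 • A + y2 • B⟫ ^ 2
      = (x1 * y2 - x2 * y1) ^ 2 * gram2 A B := by
  rw [norm_combo_sq, norm_combo_sq, inner_combo]
  unfold gram2
  ring

lemma proj_combo (d V a b : E3) (x y : ℝ) :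
    proj d (V + x • a + y • b) - proj d V = x • proj d a + y • proj d b := by
  rw [proj_add, proj_add, proj_smul, proj_smul]
  abel

/-- The Gram determinant of a projected triangle. -/
theorem gram_proj_triangle (e a b w' V : E3) (he : ‖e‖ = 1) (ha : ⟪a, e⟫ = 0) (hb : ⟪b, e⟫ = 0)
    (hw' : ⟪w', e⟫ = 0) (x1 y1 x2 y2 : ℝ) :
    ‖proj (e + w') (V + x1 • a + y1 • b) - proj (e + w') V‖ ^ 2 *
        ‖proj (e + w') (V + x2 • a + y2 • b) - proj (e + w') V‖ ^ 2 -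
      ⟪proj (e + w') (V + x1 • a + y1 • b) - proj (e + w') V,
        proj (e + w') (V + x2 • a + y2 • b) - proj (e + w') V⟫ ^ 2
      = (x1 * y2 - x2 * y1) ^ 2 * (gram2 a b / (1 + ‖w'‖ ^ 2)) := by
  rw [proj_combo, proj_combo, gram_combo, gram_proj e a b w' he ha hb hw']

/-- Area of a projected triangle. -/
theorem area_proj_triangle (e a b w' V : E3) (he : ‖e‖ = 1) (ha : ⟪a, e⟫ = 0) (hb : ⟪b, e⟫ = 0)
    (hw' : ⟪w', e⟫ = 0) (x1 y1 x2 y2 : ℝ) :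
    μHE[2] (convexHull ℝ {proj (e + w') V, proj (e + w') (V + x1 • a + y1 • b),
        proj (e + w') (V + x2 • a + y2 • b)}) =
      ENNReal.ofReal (1 / 2 * |x1 * y2 - x2 * y1| * Real.sqrt (gram2 a b) *
        (1 / Real.sqrt (1 + ‖w'‖ ^ 2))) := by
  rw [triangle_area, gram_proj_triangle e a b w' V he ha hb hw',
    Real.sqrt_mul (sq_nonneg _), Real.sqrt_sq_eq_abs, Real.sqrt_div (gram2_nonneg a b)]
  congr 1
  ring

/-- Non-vanishing Gram determinant gives affine independence. -/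
theorem affineIndependent_of_gram (p q r : E3)
    (h : ‖q - p‖ ^ 2 * ‖r - p‖ ^ 2 - ⟪q - p, r - p⟫ ^ 2 ≠ 0) :
    AffineIndependent ℝ ![p, q, r] := by
  rw [affineIndependent_iff]
  intro s g hs0 hsum
  classical
  set g' : Fin 3 → ℝ := fun i => if i ∈ s then g i else 0 with hg'
  have h1 : g' 0 + g' 1 + g' 2 = 0 := by
    have : ∑ i, g' i = 0 := by
      rw [← hs0, hg', Finset.sum_ite_mem]
      simp
    simpa [Fin.sum_univ_three] using this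
  have h2 : g' 0 • p + g' 1 • q + g' 2 • r = 0 := by
    have : ∑ i, g' i • ![p, q, r] i = 0 := by
      rw [← hsum]
      simp only [hg', ite_smul, zero_smul]
      rw [Finset.sum_ite_mem]
      simp
    simpa [Fin.sum_univ_three] using this
  have h3 : g' 1 • (q - p) + g' 2 • (r - p) = 0 := by
    have e0 : g' 0 = -(g' 1 + g' 2) := by linarith
    rw [e0] at h2
    rw [← h2]
    module
  set u := q - p with hu
  set v := r - p with hv
  have i1 : g' 1 * ‖u‖ ^ 2 + g' 2 * ⟪u, v⟫ = 0 := by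
    have := congrArg (fun x => ⟪u, x⟫) h3
    simp only [inner_add_right, inner_smul_right, inner_zero_right, real_inner_self_eq_norm_sq] at this
    linarith
  have i2 : g' 1 * ⟪u, v⟫ + g' 2 * ‖v‖ ^ 2 = 0 := by
    have := congrArg (fun x => ⟪v, x⟫) h3
    simp only [inner_add_right, inner_smul_right, inner_zero_right, real_inner_self_eq_norm_sq,
      real_inner_comm u v] at this
    linarith
  have g1 : g' 1 = 0 := by
    have : g' 1 * (‖u‖ ^ 2 * ‖v‖ ^ 2 - ⟪u, v⟫ ^ 2) = 0 := by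
      linear_combination ‖v‖ ^ 2 * i1 - ⟪u, v⟫ * i2
    exact (mul_eq_zero.mp this).resolve_right h
  have g2 : g' 2 = 0 := by
    have : g' 2 * (‖u‖ ^ 2 * ‖v‖ ^ 2 - ⟪u, v⟫ ^ 2) = 0 := by
      linear_combination ‖u‖ ^ 2 * i2 - ⟪u, v⟫ * i1
    exact (mul_eq_zero.mp this).resolve_right h
  have g0 : g' 0 = 0 := by linarith
  intro i hi
  have : g' i = g i := by simp [hg', hi]
  rw [← this]
  fin_cases i
  · exact g0
  · exact g1
  · exact g2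

/-- The wedge membership. -/
theorem wedge_mem (e a b p₀ w' wt : E3) (L Λ D Rp ρ τ s c t₀ t₁ Λ' Θ : ℝ)
    (hd : e + w' ≠ 0)
    (hwd : wt - w' = Λ' • a + (Λ' * c + Θ) • b)
    (hD : 0 < D) (hLam : 0 ≤ Λ) (hL : 0 ≤ L) (ht : t₀ < t₁) (hτ : τ ∈ Icc t₀ t₁) (hc : c ∈ Icc t₀ t₁)
    (hρ0 : 0 ≤ ρ) (hρ : ρ ≤ Rp) (hs : |s| ≤ L)
    (hΛ' : |Λ'| ≤ Λ * |τ - c|) (hΘ : |Θ| ≤ Λ * |τ - c| ^ 2)
    (hμ : L * Λ * (t₁ - t₀) ≤ D / 2) :
    proj (e + w') (p₀ + ρ • (a + τ • b) + s • (e + wt)) ∈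
      convexHull ℝ {proj (e + w') (p₀ - D • a - (D * c) • b),
        proj (e + w') ((p₀ - D • a - (D * c) • b) + (Rp + L * Λ * (t₁ - t₀) + D) • a
          + ((Rp + L * Λ * (t₁ - t₀) + D) * (t₀ - 2 * L * Λ * (t₁ - t₀) ^ 2 / D)) • b),
        proj (e + w') ((p₀ - D • a - (D * c) • b) + (Rp + L * Λ * (t₁ - t₀) + D) • a
          + ((Rp + L * Λ * (t₁ - t₀) + D) * (t₁ + 2 * L * Λ * (t₁ - t₀) ^ 2 / D)) • b)} := by
  set Δ := t₁ - t₀ with hΔ
  have hΔpos : 0 < Δ := by rw [hΔ]; linarith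
  set μ := L * Λ * Δ with hμdef
  have hμ0 : 0 ≤ μ := by positivity
  set ζ := 2 * L * Λ * Δ ^ 2 / D with hζ
  have hζ0 : 0 ≤ ζ := by positivity
  have hζD : ζ * (D / 2) = L * Λ * Δ ^ 2 := by
    rw [hζ]; field_simp
  set H := Rp + μ + D with hH
  have hRp0 : 0 ≤ Rp := hρ0.trans hρ
  have hHpos : 0 < H := by positivity
  set s₀ := t₀ - ζ with hs₀
  set s₁ := t₁ + ζ with hs₁
  have hgap : 0 < s₁ - s₀ := by rw [hs₀, hs₁]; nlinarith
  -- bounds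
  have hτc : |τ - c| ≤ Δ := by
    rw [abs_le, hΔ]; constructor <;> linarith [hτ.1, hτ.2, hc.1, hc.2]
  have hsL : |s * Λ'| ≤ μ := by
    rw [abs_mul]
    calc |s| * |Λ'| ≤ L * (Λ * Δ) := by
          gcongr
          exact hΛ'.trans (by gcongr)
      _ = μ := by rw [hμdef]; ring
  have hsΘ : |s * Θ| ≤ L * Λ * Δ ^ 2 := by
    rw [abs_mul]
    calc |s| * |Θ| ≤ L * (Λ * Δ ^ 2) := by
          gcongr
          exact hΘ.trans (by gcongr)
      _ = L * Λ * Δ ^ 2 := by ring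
  obtain ⟨a1, a2⟩ := abs_le.mp hsL
  obtain ⟨a3, a4⟩ := abs_le.mp hsΘ
  set Y := s * Λ' + D with hY
  have hYlow : D / 2 ≤ Y := by rw [hY]; linarith
  set Pt := ρ + Y with hPt
  set Qt := c * Y + ρ * τ + s * Θ with hQt
  have hPt0 : 0 ≤ Pt := by rw [hPt]; linarith
  have hPtH : Pt ≤ H := by rw [hPt, hY, hH]; linarith
  have hlow : 0 ≤ Qt - s₀ * Pt := by
    have e1 : Qt - s₀ * Pt = (c - s₀) * Y + ρ * (τ - s₀) + s * Θ := by
      rw [hQt, hPt]; ring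
    rw [e1]
    have h1 : ζ ≤ c - s₀ := by rw [hs₀]; linarith [hc.1]
    have h2 : 0 ≤ τ - s₀ := by rw [hs₀]; linarith [hτ.1]
    have h3 : ζ * (D / 2) ≤ (c - s₀) * Y :=
      mul_le_mul h1 hYlow (by positivity) (hζ0.trans h1)
    have h4 : 0 ≤ ρ * (τ - s₀) := by positivity
    linarith
  have hupp : 0 ≤ s₁ * Pt - Qt := by
    have e1 : s₁ * Pt - Qt = (s₁ - c) * Y + ρ * (s₁ - τ) - s * Θ := by
      rw [hQt, hPt]; ring
    rw [e1]
    have h1 : ζ ≤ s₁ - c := by rw [hs₁]; linarith [hc.2]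
    have h2 : 0 ≤ s₁ - τ := by rw [hs₁]; linarith [hτ.2]
    have h3 : ζ * (D / 2) ≤ (s₁ - c) * Y :=
      mul_le_mul h1 hYlow (by positivity) (hζ0.trans h1)
    have h4 : 0 ≤ ρ * (s₁ - τ) := by positivity
    linarith
  set V₀ := p₀ - D • a - (D * c) • b with hV₀
  set d := e + w' with hdd
  have hx : p₀ + ρ • (a + τ • b) + s • (e + wt) = (V₀ + Pt • a + Qt • b) + s • d := by
    have hwt : wt = w' + (Λ' • a + (Λ' * c + Θ) • b) := by
      rw [← hwd]; abel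
    rw [hwt, hV₀, hPt, hQt, hY, hdd]
    module
  rw [hx, proj_add_smul_self d _ s hd, mem_convexHull_triple]
  have hK : 0 < H * (s₁ - s₀) := by positivity
  refine ⟨1 - Pt / H, (s₁ * Pt - Qt) / (H * (s₁ - s₀)), (Qt - s₀ * Pt) / (H * (s₁ - s₀)), ?_, ?_, ?_,
    ?_, ?_⟩
  · have : Pt / H ≤ 1 := (div_le_one hHpos).mpr hPtH
    linarith
  · positivity
  · positivity
  · field_simp
    ring
  · simp only [proj_add, proj_smul]
    have c1 : ((s₁ * Pt - Qt) / (H * (s₁ - s₀)) + (Qt - s₀ * Pt) / (H * (s₁ - s₀))) * H = Pt := by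
      field_simp
      ring
    have c2 : (s₁ * Pt - Qt) / (H * (s₁ - s₀)) * (H * s₀) + (Qt - s₀ * Pt) / (H * (s₁ - s₀)) * (H * s₁)
        = Qt := by
      field_simp
      ring
    generalize (s₁ * Pt - Qt) / (H * (s₁ - s₀)) = w₁ at c1 c2 ⊢
    generalize (Qt - s₀ * Pt) / (H * (s₁ - s₀)) = w₂ at c1 c2 ⊢
    generalize proj d V₀ = PV
    generalize proj d a = PA
    generalize proj d b = PB
    have e1 : w₁ • (PV + H • PA + (H * s₀) • PB) + w₂ • (PV + H • PA + (H * s₁) • PB)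
        = (w₁ + w₂) • PV + ((w₁ + w₂) * H) • PA + (w₁ * (H * s₀) + w₂ * (H * s₁)) • PB := by
      module
    have e2 : (1 - Pt / H) • PV + w₁ • (PV + H • PA + (H * s₀) • PB) + w₂ • (PV + H • PA + (H * s₁) • PB)
        = (1 - Pt / H + (w₁ + w₂)) • PV + ((w₁ + w₂) * H) • PA + (w₁ * (H * s₀) + w₂ * (H * s₁)) • PB := by
      rw [add_assoc, e1]
      module
    rw [e2, c1, c2]
    have e3 : 1 - Pt / H + (w₁ + w₂) = 1 := by
      have : w₁ + w₂ = Pt / H := by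
        field_simp
        exact c1
      rw [this]; ring
    rw [e3, one_smul]

/-- The inner triangle is contained in the projected piece. -/
theorem inner_subset (e a b p₀ d : E3) (R : ℝ → ℝ) (w : ℝ → E3) (L r₀ t₀ t₁ : ℝ)
    (hL : 0 ≤ L) (ht : t₀ < t₁) (hr₀ : 0 ≤ r₀) (hr : ∀ τ ∈ Icc t₀ t₁, r₀ ≤ R τ) :
    convexHull ℝ {proj d p₀, proj d (p₀ + r₀ • a + (r₀ * t₀) • b), proj d (p₀ + r₀ • a + (r₀ * t₁) • b)}
      ⊆ proj d '' {x | ∃ τ ∈ Icc t₀ t₁, ∃ ρ ∈ Icc 0 (R τ), ∃ s : ℝ, |s| ≤ L ∧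
          x = p₀ + ρ • (a + τ • b) + s • (e + w τ)} := by
  intro y hy
  obtain ⟨w₀, w₁, w₂, h0, h1, h2, hsum, rfl⟩ := (mem_convexHull_triple _ _ _ _).mp hy
  by_cases hz : w₁ + w₂ = 0
  · have e1 : w₁ = 0 := by linarith
    have e2 : w₂ = 0 := by linarith
    have e3 : w₀ = 1 := by linarith
    refine ⟨p₀, ⟨t₀, ⟨le_rfl, ht.le⟩, 0, ⟨le_rfl, hr₀.trans (hr t₀ ⟨le_rfl, ht.le⟩)⟩, 0, by simpa using hL,
      by simp⟩, ?_⟩
    rw [e1, e2, e3]
    simp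
  · have hpos : 0 < w₁ + w₂ := lt_of_le_of_ne (by positivity) (Ne.symm hz)
    set τ := (w₁ * t₀ + w₂ * t₁) / (w₁ + w₂) with hτ
    have hτ1 : t₀ ≤ τ := by
      rw [hτ, le_div_iff₀ hpos]; nlinarith
    have hτ2 : τ ≤ t₁ := by
      rw [hτ, div_le_iff₀ hpos]; nlinarith
    have hle1 : w₁ + w₂ ≤ 1 := by linarith
    refine ⟨p₀ + ((w₁ + w₂) * r₀) • (a + τ • b) + (0 : ℝ) • (e + w τ),
      ⟨τ, ⟨hτ1, hτ2⟩, (w₁ + w₂) * r₀, ⟨by positivity, ?_⟩, 0, by simpa using hL, rfl⟩, ?_⟩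
    · calc (w₁ + w₂) * r₀ ≤ 1 * r₀ := by gcongr
        _ = r₀ := one_mul _
        _ ≤ R τ := hr τ ⟨hτ1, hτ2⟩
    · have e1 : (w₁ + w₂) * τ = w₁ * t₀ + w₂ * t₁ := by
        rw [hτ]; field_simp
      simp only [zero_smul, add_zero, proj_add, proj_smul, smul_add, smul_smul]
      have e2 : (w₁ + w₂) * r₀ * τ = (w₁ * t₀ + w₂ * t₁) * r₀ := by
        rw [← e1]; ring
      rw [e2]
      have e3 : proj d p₀ = (w₀ + w₁ + w₂) • proj d p₀ := by rw [hsum, one_smul]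
      conv_lhs => rw [e3]
      module

/-- The fundamental theorem of calculus for the direction field. -/
theorem w_diff (a b : E3) (w : ℝ → E3) (lam : ℝ → ℝ) (α β Λ : ℝ)
    (hlam : ContinuousOn lam (Icc α β))
    (hw' : ∀ t ∈ Icc α β, HasDerivWithinAt w (lam t • (a + t • b)) (Icc α β) t)
    (hΛ : ∀ t ∈ Icc α β, |lam t| ≤ Λ) (c τ : ℝ) (hc : c ∈ Icc α β) (hτ : τ ∈ Icc α β) :
    ∃ Λ' Θ : ℝ, w τ - w c = Λ' • a + (Λ' * c + Θ) • b ∧ |Λ'| ≤ Λ * |τ - c| ∧ |Θ| ≤ Λ * |τ - c| ^ 2 := by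
  have hsub : uIcc c τ ⊆ Icc α β := uIcc_subset_Icc hc hτ
  have hcontw : ContinuousOn w (uIcc c τ) := fun x hx =>
    ((hw' x (hsub hx)).continuousWithinAt).mono hsub
  have hlam' : ContinuousOn lam (uIcc c τ) := hlam.mono hsub
  have hf1 : ContinuousOn (fun u => u * lam u) (uIcc c τ) := continuousOn_id.mul hlam'
  have hf2 : ContinuousOn (fun u => (u - c) * lam u) (uIcc c τ) :=
    (continuousOn_id.sub continuousOn_const).mul hlam'
  have i0 : IntervalIntegrable lam volume c τ := hlam'.intervalIntegrable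
  have i1 : IntervalIntegrable (fun u => u * lam u) volume c τ := hf1.intervalIntegrable
  have hf : ContinuousOn (fun u => lam u • (a + u • b)) (uIcc c τ) :=
    hlam'.smul (continuousOn_const.add (continuousOn_id.smul continuousOn_const))
  have hftc : ∫ u in c..τ, lam u • (a + u • b) = w τ - w c := by
    apply intervalIntegral.integral_eq_sub_of_hasDeriv_right hcontw
    · intro x hx
      have hxm : x ∈ uIcc c τ := by
        rw [uIcc]; exact Ioo_subset_Icc_self hx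
      have hxI : x ∈ Icc α β := hsub hxm
      have hxint : x ∈ Ioo α β := by
        have hm : α ≤ min c τ := le_min hc.1 hτ.1
        have hM : max c τ ≤ β := max_le hc.2 hτ.2
        exact ⟨lt_of_le_of_lt hm hx.1, lt_of_lt_of_le hx.2 hM⟩
      exact ((hw' x hxI).hasDerivAt (Icc_mem_nhds hxint.1 hxint.2)).hasDerivWithinAt
    · exact hf.intervalIntegrable
  have hsplit : ∫ u in c..τ, lam u • (a + u • b) =
      (∫ u in c..τ, lam u) • a + (∫ u in c..τ, u * lam u) • b := by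
    have e : ∀ u, lam u • (a + u • b) = lam u • a + (u * lam u) • b := by
      intro u
      rw [smul_add, smul_smul, mul_comm]
    simp_rw [e]
    have i0s : IntervalIntegrable (fun u => lam u • a) volume c τ :=
      (hlam'.smul continuousOn_const).intervalIntegrable
    have i1s : IntervalIntegrable (fun u => (u * lam u) • b) volume c τ :=
      (hf1.smul continuousOn_const).intervalIntegrable
    rw [intervalIntegral.integral_add i0s i1s,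
      intervalIntegral.integral_smul_const, intervalIntegral.integral_smul_const]
  have hΘ : (∫ u in c..τ, (u - c) * lam u) =
      (∫ u in c..τ, u * lam u) - (∫ u in c..τ, lam u) * c := by
    have e : ∀ u, (u - c) * lam u = u * lam u - lam u * c := by intro u; ring
    simp_rw [e]
    rw [intervalIntegral.integral_sub i1 (i0.mul_const c), intervalIntegral.integral_mul_const]
  refine ⟨∫ u in c..τ, lam u, ∫ u in c..τ, (u - c) * lam u, ?_, ?_, ?_⟩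
  · rw [← hftc, hsplit, hΘ]
    congr 2
    ring
  · have := intervalIntegral.norm_integral_le_of_norm_le_const (a := c) (b := τ) (f := lam) (C := Λ)
      (fun x hx => by
        rw [Real.norm_eq_abs]
        exact hΛ x (hsub (uIoc_subset_uIcc hx)))
    simpa [Real.norm_eq_abs] using this
  · have := intervalIntegral.norm_integral_le_of_norm_le_const (a := c) (b := τ)
      (f := fun u => (u - c) * lam u) (C := |τ - c| * Λ)
      (fun x hx => by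
        have hxm := uIoc_subset_uIcc hx
        rw [Real.norm_eq_abs, abs_mul]
        have h1 : |x - c| ≤ |τ - c| := Set.abs_sub_left_of_mem_uIcc hxm
        have h2 := hΛ x (hsub hxm)
        gcongr)
    rw [Real.norm_eq_abs] at this
    calc _ ≤ |τ - c| * Λ * |τ - c| := this
      _ = Λ * |τ - c| ^ 2 := by ring

/-- The intervals of a partition cover. -/
theorem exists_interval (N : ℕ) (t : Fin (N + 1) → ℝ) (ht : StrictMono t) (τ : ℝ) (h0 : t 0 ≤ τ)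
    (j : Fin (N + 1)) (h1 : τ ≤ t j) (h2 : t 0 < t j) :
    ∃ i : Fin N, τ ∈ Icc (t i.castSucc) (t i.succ) := by
  induction j using Fin.induction with
  | zero => exact absurd h2 (lt_irrefl _)
  | succ i ih =>
    by_cases h : t i.castSucc ≤ τ
    · exact ⟨i, h, h1⟩
    · push Not at h
      exact ih h.le (lt_of_le_of_lt h0 h)

/-- Telescoping integrals along a partition. -/
theorem sum_integral_partition (N : ℕ) (t : Fin (N + 1) → ℝ) (f : ℝ → ℝ)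
    (hint : ∀ i : Fin N, IntervalIntegrable f volume (t i.castSucc) (t i.succ)) :
    ∑ i : Fin N, ∫ τ in t i.castSucc..t i.succ, f τ = ∫ τ in t 0..t (Fin.last N), f τ := by
  let a : ℕ → ℝ := fun k => t ⟨min k N, Nat.lt_succ_of_le (min_le_right _ _)⟩
  have ha₁ : ∀ i : Fin N, a i = t i.castSucc := by
    intro i
    simp only [a]
    congr 1
    ext
    simp [min_eq_left i.2.le]
  have ha₂ : ∀ i : Fin N, a (i + 1) = t i.succ := by
    intro i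
    simp only [a]
    congr 1
    ext
    simp [min_eq_left (Nat.succ_le_of_lt i.2)]
  have ha₀ : a 0 = t 0 := by
    simp only [a]
    congr 1
  have haN : a N = t (Fin.last N) := by
    simp only [a]
    congr 1
    ext
    simp
  have h1 : ∑ i : Fin N, ∫ τ in t i.castSucc..t i.succ, f τ
      = ∑ i : Fin N, ∫ τ in a (i : ℕ)..a ((i : ℕ) + 1), f τ := by
    apply Finset.sum_congr rfl
    intro i _
    rw [ha₁, ha₂]
  rw [h1, Fin.sum_univ_eq_sum_range (fun k => ∫ τ in a k..a (k + 1), f τ) N,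
    intervalIntegral.sum_integral_adjacent_intervals, ha₀, haN]
  intro k hk
  have := hint ⟨k, hk⟩
  rw [← ha₁, ← ha₂] at this
  exact this

/-- Telescoping lengths. -/
theorem sum_length_partition (N : ℕ) (t : Fin (N + 1) → ℝ) :
    ∑ i : Fin N, (t i.succ - t i.castSucc) = t (Fin.last N) - t 0 := by
  have := sum_integral_partition N t (fun _ => 1) (fun i => intervalIntegrable_const)
  simpa using this

/-- Riemann sums. -/
theorem riemann_bound (N : ℕ) (t : Fin (N + 1) → ℝ) (ht : StrictMono t) (f : ℝ → ℝ)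
    (hf : ContinuousOn f (Icc (t 0) (t (Fin.last N)))) (g : Fin N → ℝ) (ϱ : ℝ)
    (hg : ∀ i : Fin N, ∀ τ ∈ Icc (t i.castSucc) (t i.succ), |g i - f τ| ≤ ϱ) :
    |∑ i : Fin N, (t i.succ - t i.castSucc) * g i - ∫ τ in t 0..t (Fin.last N), f τ|
      ≤ ϱ * (t (Fin.last N) - t 0) := by
  have hle : ∀ i : Fin N, t i.castSucc < t i.succ := fun i =>
    ht (Fin.castSucc_lt_succ)
  have hsub : ∀ i : Fin N, Icc (t i.castSucc) (t i.succ) ⊆ Icc (t 0) (t (Fin.last N)) := by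
    intro i
    exact Icc_subset_Icc (ht.monotone (Fin.zero_le _)) (ht.monotone (Fin.le_last _))
  have hint : ∀ i : Fin N, IntervalIntegrable f volume (t i.castSucc) (t i.succ) := by
    intro i
    apply ContinuousOn.intervalIntegrable
    rw [uIcc_of_le (hle i).le]
    exact hf.mono (hsub i)
  rw [← sum_integral_partition N t f hint, ← Finset.sum_sub_distrib, ← sum_length_partition N t,
    Finset.mul_sum]
  refine (Finset.abs_sum_le_sum_abs _ _).trans (Finset.sum_le_sum fun i _ => ?_)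
  have e : (t i.succ - t i.castSucc) * g i = ∫ τ in t i.castSucc..t i.succ, g i := by
    simp
  rw [e, ← intervalIntegral.integral_sub intervalIntegrable_const (hint i)]
  have := intervalIntegral.norm_integral_le_of_norm_le_const (a := t i.castSucc) (b := t i.succ)
    (f := fun τ => g i - f τ) (C := ϱ) (fun x hx => by
      rw [uIoc_of_le (hle i).le] at hx
      exact hg i x ⟨hx.1.le, hx.2⟩)
  rw [Real.norm_eq_abs, abs_of_pos (sub_pos.mpr (hle i))] at this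
  exact this

/-! ### Real comparison lemmas -/

lemma outer_close (Rc Rτ ψc ψτ Rm D₀ μ θ H : ℝ) (hψc0 : 0 ≤ ψc) (hψc1 : ψc ≤ 1) (hRτ0 : 0 ≤ Rτ)
    (hRτ : Rτ ≤ Rm) (hRc0 : 0 ≤ Rc) (hRc : Rc ≤ Rm) (h1 : |Rc - Rτ| ≤ D₀) (h2 : |ψc - ψτ| ≤ D₀)
    (hμ0 : 0 ≤ μ) (hμ : μ ≤ D₀) (hθ0 : 0 ≤ θ) (hθ : θ ≤ D₀) (hD0 : 0 < D₀) (hD1 : D₀ ≤ 1)
    (hH : H = Rc + μ + 2 * D₀) :
    |1 / 2 * H ^ 2 * (1 + θ) * ψc - 1 / 2 * Rτ ^ 2 * ψτ|
      ≤ 1 / 2 * D₀ * (4 * (2 * Rm + 4) + (Rm + 4) ^ 2 + Rm ^ 2 + 1) := by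
  obtain ⟨a1, a2⟩ := abs_le.mp h1
  obtain ⟨b1, b2⟩ := abs_le.mp h2
  have hRm : 0 ≤ Rm := hRτ0.trans hRτ
  have c1 : 0 ≤ H - Rτ := by rw [hH]; linarith
  have c2 : H - Rτ ≤ 4 * D₀ := by rw [hH]; linarith
  have c3 : 0 ≤ H + Rτ := by rw [hH]; linarith
  have c4 : H + Rτ ≤ 2 * Rm + 4 := by rw [hH]; linarith
  have c5 : 0 ≤ H := by rw [hH]; linarith
  have c6 : H ≤ Rm + 4 := by rw [hH]; linarith
  have t1 : 0 ≤ (H - Rτ) * (H + Rτ) := by positivity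
  have t2 : (H - Rτ) * (H + Rτ) ≤ 4 * D₀ * (2 * Rm + 4) := by gcongr
  have t3 : (H - Rτ) * (H + Rτ) * ψc ≤ 4 * D₀ * (2 * Rm + 4) := by
    calc _ ≤ (H - Rτ) * (H + Rτ) * 1 := by gcongr
      _ ≤ _ := by linarith
  have t4 : 0 ≤ (H - Rτ) * (H + Rτ) * ψc := by positivity
  have t5 : 0 ≤ H ^ 2 * θ * ψc := by positivity
  have t6 : H ^ 2 * θ * ψc ≤ (Rm + 4) ^ 2 * D₀ := by
    calc H ^ 2 * θ * ψc ≤ (Rm + 4) ^ 2 * D₀ * 1 := by gcongr
      _ = _ := by ring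
  have t7 : Rτ ^ 2 * (ψc - ψτ) ≤ Rm ^ 2 * D₀ := by
    calc _ ≤ Rτ ^ 2 * D₀ := by gcongr
      _ ≤ _ := by gcongr
  have t8 : -(Rm ^ 2 * D₀) ≤ Rτ ^ 2 * (ψc - ψτ) := by
    have : Rτ ^ 2 * (-D₀) ≤ Rτ ^ 2 * (ψc - ψτ) := by gcongr
    have h3 : Rτ ^ 2 * D₀ ≤ Rm ^ 2 * D₀ := by gcongr
    nlinarith
  have e : 1 / 2 * H ^ 2 * (1 + θ) * ψc - 1 / 2 * Rτ ^ 2 * ψτ
      = 1 / 2 * ((H - Rτ) * (H + Rτ) * ψc + H ^ 2 * θ * ψc + Rτ ^ 2 * (ψc - ψτ)) := by ring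
  rw [e, abs_le]
  constructor <;> nlinarith

lemma inner_close (Rc Rτ ψc ψτ Rm D₀ r₀ : ℝ) (hψc0 : 0 ≤ ψc) (hψc1 : ψc ≤ 1) (hRτ0 : 0 ≤ Rτ)
    (hRτ : Rτ ≤ Rm) (h1 : |Rc - Rτ| ≤ D₀) (h2 : |ψc - ψτ| ≤ D₀) (hD0 : 0 < D₀) (hD1 : D₀ ≤ 1)
    (hr : r₀ = max (Rc - D₀) 0) :
    r₀ ≤ Rτ ∧ |1 / 2 * r₀ ^ 2 * ψc - 1 / 2 * Rτ ^ 2 * ψτ|
      ≤ 1 / 2 * D₀ * (4 * (2 * Rm + 4) + (Rm + 4) ^ 2 + Rm ^ 2 + 1) := by
  obtain ⟨a1, a2⟩ := abs_le.mp h1
  obtain ⟨b1, b2⟩ := abs_le.mp h2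
  have hRm : 0 ≤ Rm := hRτ0.trans hRτ
  have c0 : 0 ≤ r₀ := by rw [hr]; exact le_max_right _ _
  have c1 : r₀ ≤ Rτ := by
    rw [hr]; exact max_le (by linarith) hRτ0
  have c2 : Rτ - r₀ ≤ 2 * D₀ := by
    have : Rc - D₀ ≤ r₀ := by rw [hr]; exact le_max_left _ _
    linarith
  refine ⟨c1, ?_⟩
  have t1 : 0 ≤ (Rτ - r₀) * (Rτ + r₀) := mul_nonneg (by linarith) (by linarith)
  have t2 : (Rτ - r₀) * (Rτ + r₀) ≤ 2 * D₀ * (2 * Rm) :=
    mul_le_mul c2 (by linarith) (by linarith) (by positivity)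
  have t3 : (Rτ - r₀) * (Rτ + r₀) * ψc ≤ 2 * D₀ * (2 * Rm) := by
    calc _ ≤ (Rτ - r₀) * (Rτ + r₀) * 1 := by gcongr
      _ ≤ _ := by linarith
  have t4 : 0 ≤ (Rτ - r₀) * (Rτ + r₀) * ψc := by positivity
  have t7 : Rτ ^ 2 * (ψc - ψτ) ≤ Rm ^ 2 * D₀ := by
    calc _ ≤ Rτ ^ 2 * D₀ := by gcongr
      _ ≤ _ := by gcongr
  have t8 : -(Rm ^ 2 * D₀) ≤ Rτ ^ 2 * (ψc - ψτ) := by
    have : Rτ ^ 2 * (-D₀) ≤ Rτ ^ 2 * (ψc - ψτ) := by gcongr
    have h3 : Rτ ^ 2 * D₀ ≤ Rm ^ 2 * D₀ := by gcongr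
    nlinarith
  have e : 1 / 2 * r₀ ^ 2 * ψc - 1 / 2 * Rτ ^ 2 * ψτ
      = 1 / 2 * (-((Rτ - r₀) * (Rτ + r₀) * ψc) + Rτ ^ 2 * (ψc - ψτ)) := by ring
  rw [e, abs_le]
  have hD' : 0 ≤ D₀ * (Rm + 4) ^ 2 := by positivity
  constructor <;> nlinarith

/-- Positivity of the Gram determinant of an independent pair. -/
theorem gram_pos_of_indep (a b : E3) (hab : LinearIndependent ℝ ![a, b]) : 0 < gram2 a b := by
  rw [LinearIndependent.pair_iff] at hab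
  have ha : a ≠ 0 := by
    intro h
    have := (hab 1 0 (by simp [h])).1
    exact one_ne_zero this
  have hn : 0 < ‖a‖ ^ 2 := by
    have : 0 < ‖a‖ := norm_pos_iff.mpr ha
    positivity
  have hb' : b - (⟪a, b⟫ / ‖a‖ ^ 2) • a ≠ 0 := by
    intro h
    have := (hab (-(⟪a, b⟫ / ‖a‖ ^ 2)) 1 (by
      rw [← h]; simp only [neg_smul, one_smul]; abel)).2
    exact one_ne_zero this
  have hbn : 0 < ‖b - (⟪a, b⟫ / ‖a‖ ^ 2) • a‖ ^ 2 := by
    have : 0 < ‖b - (⟪a, b⟫ / ‖a‖ ^ 2) • a‖ := norm_pos_iff.mpr hb'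
    positivity
  have e : ‖b - (⟪a, b⟫ / ‖a‖ ^ 2) • a‖ ^ 2 = ‖b‖ ^ 2 - ⟪a, b⟫ ^ 2 / ‖a‖ ^ 2 := by
    rw [norm_sub_sq_real, norm_smul, inner_smul_right, mul_pow, Real.norm_eq_abs, sq_abs,
      real_inner_comm a b]
    field_simp
    ring
  rw [e] at hbn
  have : gram2 a b = ‖a‖ ^ 2 * (‖b‖ ^ 2 - ⟪a, b⟫ ^ 2 / ‖a‖ ^ 2) := by
    unfold gram2
    field_simp
  rw [this]
  positivity

/-- The outer triangle of one piece. -/
theorem piece_outer (e a b p₀ : E3) (w : ℝ → E3) (R : ℝ → ℝ) (L Λ D Rp c t₀ t₁ : ℝ)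
    (he : ‖e‖ = 1) (ha : ⟪a, e⟫ = 0) (hb : ⟪b, e⟫ = 0) (hwc : ⟪w c, e⟫ = 0)
    (hgram : 0 < gram2 a b)
    (hdiff : ∀ τ ∈ Icc t₀ t₁, ∃ Λ' Θ : ℝ, w τ - w c = Λ' • a + (Λ' * c + Θ) • b ∧
      |Λ'| ≤ Λ * |τ - c| ∧ |Θ| ≤ Λ * |τ - c| ^ 2)
    (hRp : ∀ τ ∈ Icc t₀ t₁, R τ ≤ Rp) (hRp0 : 0 ≤ Rp)
    (hD : 0 < D) (hLam : 0 ≤ Λ) (hL : 0 ≤ L) (ht : t₀ < t₁) (hc : c ∈ Icc t₀ t₁)
    (hμ : L * Λ * (t₁ - t₀) ≤ D / 2) :
    ∃ p q r : E3, ⟪p, e + w c⟫ = 0 ∧ ⟪q, e + w c⟫ = 0 ∧ ⟪r, e + w c⟫ = 0 ∧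
      AffineIndependent ℝ ![p, q, r] ∧
      (∀ τ ∈ Icc t₀ t₁, ∀ ρ ∈ Icc 0 (R τ), ∀ s : ℝ, |s| ≤ L →
        proj (e + w c) (p₀ + ρ • (a + τ • b) + s • (e + w τ)) ∈ convexHull ℝ {p, q, r}) ∧
      μHE[2] (convexHull ℝ {p, q, r}) =
        ENNReal.ofReal (Real.sqrt (gram2 a b) * ((t₁ - t₀) *
          (1 / 2 * (Rp + L * Λ * (t₁ - t₀) + D) ^ 2 * (1 + 4 * L * Λ * (t₁ - t₀) / D) *
            (1 / Real.sqrt (1 + ‖w c‖ ^ 2))))) := by
  have hN : ‖e + w c‖ ^ 2 = 1 + ‖w c‖ ^ 2 := by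
    rw [← real_inner_self_eq_norm_sq, inner_add_left, inner_add_right, inner_add_right,
      real_inner_self_eq_norm_sq, real_inner_self_eq_norm_sq, he, real_inner_comm, hwc]
    ring
  have hd : e + w c ≠ 0 := by
    intro h
    rw [h] at hN
    have := sq_nonneg ‖w c‖
    simp at hN
    nlinarith
  set V₀ := p₀ - D • a - (D * c) • b with hV₀
  set Δ := t₁ - t₀ with hΔ
  have hΔpos : 0 < Δ := by rw [hΔ]; linarith
  set H := Rp + L * Λ * Δ + D with hH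
  have hHpos : 0 < H := by positivity
  set ζ := 2 * L * Λ * Δ ^ 2 / D with hζ
  have hζ0 : 0 ≤ ζ := by positivity
  set x1 := H with hx1
  set y1 := H * (t₀ - ζ) with hy1
  set y2 := H * (t₁ + ζ) with hy2
  have hdet : x1 * y2 - x1 * y1 = H ^ 2 * (Δ * (1 + 4 * L * Λ * Δ / D)) := by
    rw [hx1, hy1, hy2, hζ, hΔ]
    field_simp
    ring
  have hdetpos : 0 < x1 * y2 - x1 * y1 := by
    rw [hdet]; positivity
  refine ⟨proj (e + w c) V₀, proj (e + w c) (V₀ + x1 • a + y1 • b),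
    proj (e + w c) (V₀ + x1 • a + y2 • b), inner_proj_self _ _ hd, inner_proj_self _ _ hd,
    inner_proj_self _ _ hd, ?_, ?_, ?_⟩
  · apply affineIndependent_of_gram
    rw [gram_proj_triangle e a b (w c) V₀ he ha hb hwc]
    have h1 : 0 < (1 + ‖w c‖ ^ 2) := by positivity
    have h2 : x1 * y2 - x1 * y1 ≠ 0 := hdetpos.ne'
    have h3 : gram2 a b / (1 + ‖w c‖ ^ 2) ≠ 0 := (div_pos hgram h1).ne'
    exact mul_ne_zero (pow_ne_zero _ h2) h3
  · intro τ hτ ρ hρ s hs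
    obtain ⟨Λ', Θ, h1, h2, h3⟩ := hdiff τ hτ
    exact wedge_mem e a b p₀ (w c) (w τ) L Λ D Rp ρ τ s c t₀ t₁ Λ' Θ hd h1 hD hLam hL ht hτ hc hρ.1
      (hρ.2.trans (hRp τ hτ)) hs h2 h3 hμ
  · rw [area_proj_triangle e a b (w c) V₀ he ha hb hwc, abs_of_pos hdetpos, hdet]
    congr 1
    ring

/-- The area of the inner triangle. -/
theorem piece_inner (e a b p₀ : E3) (w' : E3) (r₀ t₀ t₁ : ℝ)
    (he : ‖e‖ = 1) (ha : ⟪a, e⟫ = 0) (hb : ⟪b, e⟫ = 0) (hwc : ⟪w', e⟫ = 0)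
    (ht : t₀ < t₁) :
    μHE[2] (convexHull ℝ {proj (e + w') p₀, proj (e + w') (p₀ + r₀ • a + (r₀ * t₀) • b),
        proj (e + w') (p₀ + r₀ • a + (r₀ * t₁) • b)}) =
      ENNReal.ofReal (Real.sqrt (gram2 a b) * ((t₁ - t₀) * (1 / 2 * r₀ ^ 2 *
        (1 / Real.sqrt (1 + ‖w'‖ ^ 2))))) := by
  rw [area_proj_triangle e a b w' p₀ he ha hb hwc]
  have h : r₀ * (r₀ * t₁) - r₀ * (r₀ * t₀) = r₀ ^ 2 * (t₁ - t₀) := by ring
  rw [h, abs_of_nonneg (mul_nonneg (sq_nonneg _) (by linarith))]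
  congr 1
  ring

end Crest.Agent.Tet7Sweep
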