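import Crest.Statements.S0328
import Crest.Agent.Tet7Sweep

set_option autoImplicit false
set_option maxHeartbeats 4000000
open MeasureTheory
open scoped ENNReal
open Crest Crest.GeometryTopology Crest.GeometryTopology.Convex

namespace Crest.Agent.S0328

open Crest.Agent.Tet7Gram Crest.Agent.Tet7Sweep Metric Set
open Crest.Agent.TetArea (gram2)


/-- Unit e; a, b, p₀ ∈ e^⊥, a, b independent; α < β; L > 0; R ≥ 0, λ both continuous on [α, β]; w(t) ∈ e^⊥, w′ = λ(t)(a + tb). S = {p₀ + ρ(a + t b) + s(e + w t) : α ≤ t ≤ β, 0 ≤ ρ ≤ R t, ‖s‖ ≤ L}; A = κ ∫_α^β R²/(2√(1 + ‖w‖²)), κ = area spanned by a, b. For η > 0 a δ > 0 makes each partition t₀ < … < t_N of [α, β] of mesh ≤ δ, tags cᵢ, admit N cylinders (axes e + w(cᵢ), nondegenerate triangle bases) covering S, total area within η of A; same for S's pieces tᵢ ≤ t ≤ tᵢ₊₁ projected along these axes. -/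
theorem result
    (e a b p₀ : EuclideanSpace ℝ (Fin 3)) (he : ‖e‖ = 1)
    (ha : inner ℝ a e = 0) (hb : inner ℝ b e = 0) (hp₀ : inner ℝ p₀ e = 0)
    (hab : LinearIndependent ℝ ![a, b]) (L : ℝ) (hL : 0 < L) (α β : ℝ) (hαβ : α < β)
    (R : ℝ → ℝ) (hR : ContinuousOn R (Set.Icc α β)) (hR0 : ∀ t ∈ Set.Icc α β, 0 ≤ R t)
    (w : ℝ → EuclideanSpace ℝ (Fin 3)) (hw : ∀ t ∈ Set.Icc α β, inner ℝ (w t) e = 0)
    (lam : ℝ → ℝ) (hlam : ContinuousOn lam (Set.Icc α β))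
    (hw' : ∀ t ∈ Set.Icc α β, HasDerivWithinAt w (lam t • (a + t • b)) (Set.Icc α β) t)
    (η : ℝ) (hη : 0 < η) :
    ∃ δ : ℝ, 0 < δ ∧ ∀ (N : ℕ) (t : Fin (N + 1) → ℝ) (c : Fin N → ℝ),
      StrictMono t → t 0 = α → t (Fin.last N) = β →
      (∀ i : Fin N, t i.succ - t i.castSucc ≤ δ) →
      (∀ i : Fin N, t i.castSucc ≤ c i ∧ c i ≤ t i.succ) →
      (∃ (p q r : Fin N → EuclideanSpace ℝ (Fin 3)),
        (∀ i, inner ℝ (p i) (e + w (c i)) = 0 ∧ inner ℝ (q i) (e + w (c i)) = 0 ∧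
          inner ℝ (r i) (e + w (c i)) = 0) ∧
        (∀ i, AffineIndependent ℝ ![p i, q i, r i]) ∧
        {x : EuclideanSpace ℝ (Fin 3) | ∃ τ ∈ Set.Icc α β, ∃ ρ ∈ Set.Icc 0 (R τ), ∃ s : ℝ, abs s ≤ L ∧
            x = p₀ + ρ • (a + τ • b) + s • (e + w τ)} ⊆
          ⋃ i, {x : EuclideanSpace ℝ (Fin 3) | ∃ y ∈ convexHull ℝ {p i, q i, r i}, ∃ σ : ℝ,
            x = y + σ • (e + w (c i))} ∧
        abs ((∑ i, (μHE[2] (convexHull ℝ ({p i, q i, r i} : Set (EuclideanSpace ℝ (Fin 3))))).toReal) -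
            Real.sqrt (‖a‖ ^ 2 * ‖b‖ ^ 2 - inner ℝ a b ^ 2) *
              ∫ τ in α..β, R τ ^ 2 / (2 * Real.sqrt (1 + ‖w τ‖ ^ 2))) ≤ η) ∧
      abs ((∑ i : Fin N, (μHE[2] ((fun y => y - (inner ℝ y (e + w (c i)) / ‖e + w (c i)‖ ^ 2) • (e + w (c i))) ''
            {x : EuclideanSpace ℝ (Fin 3) | ∃ τ ∈ Set.Icc (t i.castSucc) (t i.succ), ∃ ρ ∈ Set.Icc 0 (R τ),
              ∃ s : ℝ, abs s ≤ L ∧ x = p₀ + ρ • (a + τ • b) + s • (e + w τ)})).toReal) -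
          Real.sqrt (‖a‖ ^ 2 * ‖b‖ ^ 2 - inner ℝ a b ^ 2) *
            ∫ τ in α..β, R τ ^ 2 / (2 * Real.sqrt (1 + ‖w τ‖ ^ 2))) ≤ η := by
  classical
  have hαβ' := hαβ.le
  have hgram : 0 < gram2 a b := gram_pos_of_indep a b hab
  have hκeq : Real.sqrt (‖a‖ ^ 2 * ‖b‖ ^ 2 - inner ℝ a b ^ 2) = Real.sqrt (gram2 a b) := rfl
  rw [hκeq]
  obtain ⟨κ, hκ⟩ : ∃ κ, κ = Real.sqrt (gram2 a b) := ⟨_, rfl⟩
  have hκpos : 0 < κ := by rw [hκ]; exact Real.sqrt_pos.mpr hgram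
  have hwcont : ContinuousOn w (Icc α β) := fun t ht => (hw' t ht).continuousWithinAt
  -- bounds
  obtain ⟨Λ₀, hΛ₀⟩ := isCompact_Icc.exists_bound_of_continuousOn hlam
  obtain ⟨Rm₀, hRm₀⟩ := isCompact_Icc.exists_bound_of_continuousOn hR
  obtain ⟨Λ, hΛdef⟩ : ∃ Λ, Λ = max Λ₀ 0 := ⟨_, rfl⟩
  have hΛ0 : 0 ≤ Λ := hΛdef ▸ le_max_right _ _
  have hΛ : ∀ t ∈ Icc α β, |lam t| ≤ Λ := fun t ht =>
    ((hΛ₀ t ht).trans (le_max_left _ _)).trans_eq hΛdef.symm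
  obtain ⟨Rm, hRmdef⟩ : ∃ Rm, Rm = max Rm₀ 0 := ⟨_, rfl⟩
  have hRm0 : 0 ≤ Rm := hRmdef ▸ le_max_right _ _
  have hRm : ∀ t ∈ Icc α β, R t ≤ Rm := fun t ht => by
    have h1 := hRm₀ t ht
    rw [Real.norm_eq_abs, abs_of_nonneg (hR0 t ht)] at h1
    exact (h1.trans (le_max_left _ _)).trans_eq hRmdef.symm
  -- the weight
  obtain ⟨ψ, hψdef⟩ : ∃ ψ : ℝ → ℝ, ψ = fun τ => 1 / Real.sqrt (1 + ‖w τ‖ ^ 2) := ⟨_, rfl⟩
  have hψ0 : ∀ τ, 0 ≤ ψ τ := fun τ => by rw [hψdef]; positivity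
  have hψ1 : ∀ τ, ψ τ ≤ 1 := fun τ => by
    rw [hψdef]
    simp only
    rw [div_le_one (by positivity), Real.one_le_sqrt]
    nlinarith [sq_nonneg ‖w τ‖]
  have hψcont : ContinuousOn ψ (Icc α β) := by
    rw [hψdef]
    refine ContinuousOn.div continuousOn_const ?_ (fun τ _ => by positivity)
    exact Real.continuous_sqrt.comp_continuousOn
      (continuousOn_const.add ((hwcont.norm).pow 2))
  obtain ⟨f, hfdef⟩ : ∃ f : ℝ → ℝ, f = fun τ => R τ ^ 2 / (2 * Real.sqrt (1 + ‖w τ‖ ^ 2)) := ⟨_, rfl⟩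
  have hfψ : ∀ τ, f τ = 1 / 2 * R τ ^ 2 * ψ τ := fun τ => by
    rw [hfdef, hψdef]
    simp only
    have : Real.sqrt (1 + ‖w τ‖ ^ 2) ≠ 0 := by positivity
    field_simp
  have hfcont : ContinuousOn f (Icc α β) := by
    have : f = fun τ => 1 / 2 * R τ ^ 2 * ψ τ := funext hfψ
    rw [this]
    exact (continuousOn_const.mul (hR.pow 2)).mul hψcont
  -- constants
  obtain ⟨ϱ, hϱdef⟩ : ∃ ϱ, ϱ = η / (κ * (β - α) + 1) := ⟨_, rfl⟩
  have hϱpos : 0 < ϱ := by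
    rw [hϱdef]
    have : 0 < β - α := by linarith
    positivity
  have hϱη : κ * (ϱ * (β - α)) ≤ η := by
    have h1 : 0 < κ * (β - α) + 1 := by
      have : 0 < β - α := by linarith
      positivity
    have h2 : ϱ * (κ * (β - α) + 1) = η := by
      rw [hϱdef]; field_simp
    nlinarith
  obtain ⟨K₁, hK₁def⟩ : ∃ K₁, K₁ = 4 * (2 * Rm + 4) + (Rm + 4) ^ 2 + Rm ^ 2 + 1 := ⟨_, rfl⟩
  have hK₁pos : 0 < K₁ := by rw [hK₁def]; positivity
  obtain ⟨D₀, hD₀def⟩ : ∃ D₀, D₀ = min 1 (2 * ϱ / K₁) := ⟨_, rfl⟩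
  have hD₀pos : 0 < D₀ := by rw [hD₀def]; positivity
  have hD₀1 : D₀ ≤ 1 := hD₀def ▸ min_le_left _ _
  have hD₀K : 1 / 2 * D₀ * K₁ ≤ ϱ := by
    have h1 : D₀ ≤ 2 * ϱ / K₁ := hD₀def ▸ min_le_right _ _
    rw [le_div_iff₀ hK₁pos] at h1
    linarith
  obtain ⟨δ₁, hδ₁, hu₁⟩ := Metric.uniformContinuousOn_iff.mp
    (isCompact_Icc.uniformContinuousOn_of_continuous hR) D₀ hD₀pos
  obtain ⟨δ₂, hδ₂, hu₂⟩ := Metric.uniformContinuousOn_iff.mp
    (isCompact_Icc.uniformContinuousOn_of_continuous hψcont) D₀ hD₀pos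
  obtain ⟨δ₃, hδ₃def⟩ : ∃ δ₃, δ₃ = D₀ ^ 2 / (8 * (L * Λ + 1)) := ⟨_, rfl⟩
  have hδ₃pos : 0 < δ₃ := by rw [hδ₃def]; positivity
  have hδ₃b : L * Λ * δ₃ ≤ D₀ ^ 2 / 8 := by
    rw [hδ₃def]
    have h1 : 0 ≤ L * Λ := by positivity
    have h2 : L * Λ * (D₀ ^ 2 / (8 * (L * Λ + 1))) = (L * Λ / (L * Λ + 1)) * (D₀ ^ 2 / 8) := by
      field_simp
    rw [h2]
    have h3 : L * Λ / (L * Λ + 1) ≤ 1 := by
      rw [div_le_one (by positivity)]; linarith
    have h4 : 0 ≤ D₀ ^ 2 / 8 := by positivity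
    nlinarith
  refine ⟨min (δ₁ / 2) (min (δ₂ / 2) δ₃), by positivity, ?_⟩
  intro N t c htm ht0 htl hmesh htag
  -- basic properties of the partition
  have htα : ∀ j, α ≤ t j := fun j => by
    rw [← ht0]; exact htm.monotone (Fin.zero_le _)
  have htβ : ∀ j, t j ≤ β := fun j => by
    rw [← htl]; exact htm.monotone (Fin.le_last _)
  have hlt : ∀ i : Fin N, t i.castSucc < t i.succ := fun i => htm Fin.castSucc_lt_succ
  have hcI : ∀ i, c i ∈ Icc α β := fun i =>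
    ⟨(htα _).trans (htag i).1, (htag i).2.trans (htβ _)⟩
  have hpI : ∀ i : Fin N, Icc (t i.castSucc) (t i.succ) ⊆ Icc α β := fun i =>
    Icc_subset_Icc (htα _) (htβ _)
  have hmesh₁ : ∀ i : Fin N, t i.succ - t i.castSucc < δ₁ := fun i => by
    have := (hmesh i).trans (min_le_left _ _)
    linarith
  have hmesh₂ : ∀ i : Fin N, t i.succ - t i.castSucc < δ₂ := fun i => by
    have := (hmesh i).trans ((min_le_right _ _).trans (min_le_left _ _))
    linarith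
  have hmesh₃ : ∀ i : Fin N, t i.succ - t i.castSucc ≤ δ₃ := fun i =>
    (hmesh i).trans ((min_le_right _ _).trans (min_le_right _ _))
  have hτc : ∀ i : Fin N, ∀ τ ∈ Icc (t i.castSucc) (t i.succ), dist (c i) τ ≤ t i.succ - t i.castSucc := by
    intro i τ hτ
    rw [Real.dist_eq, abs_le]
    constructor <;> linarith [hτ.1, hτ.2, (htag i).1, (htag i).2]
  have hRclose : ∀ i : Fin N, ∀ τ ∈ Icc (t i.castSucc) (t i.succ), |R (c i) - R τ| ≤ D₀ := by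
    intro i τ hτ
    have := hu₁ (c i) (hcI i) τ (hpI i hτ) (lt_of_le_of_lt (hτc i τ hτ) (hmesh₁ i))
    rw [Real.dist_eq] at this
    exact this.le
  have hψclose : ∀ i : Fin N, ∀ τ ∈ Icc (t i.castSucc) (t i.succ), |ψ (c i) - ψ τ| ≤ D₀ := by
    intro i τ hτ
    have := hu₂ (c i) (hcI i) τ (hpI i hτ) (lt_of_le_of_lt (hτc i τ hτ) (hmesh₂ i))
    rw [Real.dist_eq] at this
    exact this.le
  have hμb : ∀ i : Fin N, L * Λ * (t i.succ - t i.castSucc) ≤ D₀ / 2 := by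
    intro i
    have h1 : L * Λ * (t i.succ - t i.castSucc) ≤ L * Λ * δ₃ := by
      have := hmesh₃ i
      gcongr
    nlinarith
  have hθb : ∀ i : Fin N, 4 * L * Λ * (t i.succ - t i.castSucc) / D₀ ≤ D₀ := by
    intro i
    rw [div_le_iff₀ hD₀pos]
    have h1 : L * Λ * (t i.succ - t i.castSucc) ≤ L * Λ * δ₃ := by
      have := hmesh₃ i
      gcongr
    nlinarith
  have hdiff : ∀ i : Fin N, ∀ τ ∈ Icc (t i.castSucc) (t i.succ), ∃ Λ' Θ : ℝ,
      w τ - w (c i) = Λ' • a + (Λ' * c i + Θ) • b ∧ |Λ'| ≤ Λ * |τ - c i| ∧ |Θ| ≤ Λ * |τ - c i| ^ 2 :=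
    fun i τ hτ => w_diff a b w lam α β Λ hlam hw' hΛ (c i) τ (hcI i) (hpI i hτ)
  have hRc0 : ∀ i, 0 ≤ R (c i) := fun i => hR0 _ (hcI i)
  -- outer pieces
  have hout := fun i : Fin N => piece_outer e a b p₀ w R L Λ D₀ (R (c i) + D₀) (c i)
    (t i.castSucc) (t i.succ) he ha hb (hw _ (hcI i)) hgram (hdiff i)
    (fun τ hτ => by
      have := (abs_le.mp (hRclose i τ hτ)).1
      linarith)
    (by have := hRc0 i; positivity) hD₀pos hΛ0 hL.le (hlt i) (htag i) (hμb i)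
  choose p q r hp hq hr haff hcov harea using hout
  -- the values
  obtain ⟨g, hgdef⟩ : ∃ g : Fin N → ℝ, g = fun i =>
      1 / 2 * (R (c i) + D₀ + L * Λ * (t i.succ - t i.castSucc) + D₀) ^ 2 *
        (1 + 4 * L * Λ * (t i.succ - t i.castSucc) / D₀) * ψ (c i) := ⟨_, rfl⟩
  obtain ⟨gi, hgidef⟩ : ∃ gi : Fin N → ℝ, gi = fun i =>
      1 / 2 * (max (R (c i) - D₀) 0) ^ 2 * ψ (c i) := ⟨_, rfl⟩
  have hareaR : ∀ i, (μHE[2] (convexHull ℝ ({p i, q i, r i} : Set E3))).toReal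
      = κ * ((t i.succ - t i.castSucc) * g i) := by
    intro i
    rw [harea i, ENNReal.toReal_ofReal]
    · rw [hκ, hgdef, hψdef]
    · have h1 := hlt i
      have h2 := hRc0 i
      have h3 : 0 ≤ L * Λ * (t i.succ - t i.castSucc) := mul_nonneg (by positivity) (by linarith)
      have h4 : 0 ≤ 4 * L * Λ * (t i.succ - t i.castSucc) / D₀ := by
        apply div_nonneg _ hD₀pos.le
        apply mul_nonneg (by positivity) (by linarith)
      apply mul_nonneg (Real.sqrt_nonneg _)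
      apply mul_nonneg (by linarith)
      positivity
  have hgclose : ∀ i : Fin N, ∀ τ ∈ Icc (t i.castSucc) (t i.succ), |g i - f τ| ≤ ϱ := by
    intro i τ hτ
    rw [hgdef, hfψ]
    simp only
    have h1 := hlt i
    have h3 : 0 ≤ L * Λ * (t i.succ - t i.castSucc) := mul_nonneg (by positivity) (by linarith)
    have h4 : 0 ≤ 4 * L * Λ * (t i.succ - t i.castSucc) / D₀ := by
      apply div_nonneg _ hD₀pos.le
      apply mul_nonneg (by positivity) (by linarith)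
    have := outer_close (R (c i)) (R τ) (ψ (c i)) (ψ τ) Rm D₀ (L * Λ * (t i.succ - t i.castSucc))
      (4 * L * Λ * (t i.succ - t i.castSucc) / D₀)
      (R (c i) + D₀ + L * Λ * (t i.succ - t i.castSucc) + D₀) (hψ0 _) (hψ1 _) (hR0 _ (hpI i hτ))
      (hRm _ (hpI i hτ)) (hRc0 i) (hRm _ (hcI i)) (hRclose i τ hτ) (hψclose i τ hτ) h3
      (by linarith [hμb i]) h4 (hθb i) hD₀pos hD₀1 (by ring)
    rw [← hK₁def] at this
    exact this.trans hD₀K
  have hgiclose : ∀ i : Fin N, ∀ τ ∈ Icc (t i.castSucc) (t i.succ), |gi i - f τ| ≤ ϱ := by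
    intro i τ hτ
    rw [hgidef, hfψ]
    simp only
    have := (inner_close (R (c i)) (R τ) (ψ (c i)) (ψ τ) Rm D₀ (max (R (c i) - D₀) 0) (hψ0 _) (hψ1 _)
      (hR0 _ (hpI i hτ)) (hRm _ (hpI i hτ)) (hRclose i τ hτ) (hψclose i τ hτ) hD₀pos hD₀1 rfl).2
    rw [← hK₁def] at this
    exact this.trans hD₀K
  have hfcont' : ContinuousOn f (Icc (t 0) (t (Fin.last N))) := by
    rw [ht0, htl]; exact hfcont
  have hrg := riemann_bound N t htm f hfcont' g ϱ hgclose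
  have hrgi := riemann_bound N t htm f hfcont' gi ϱ hgiclose
  rw [ht0, htl] at hrg hrgi
  have hI : ∫ τ in α..β, R τ ^ 2 / (2 * Real.sqrt (1 + ‖w τ‖ ^ 2)) = ∫ τ in α..β, f τ := by
    rw [hfdef]
  rw [hI, ← hκ]
  set Int := ∫ τ in α..β, f τ with hInt
  have hsumouter : ∑ i, κ * ((t i.succ - t i.castSucc) * g i)
      = κ * ∑ i, (t i.succ - t i.castSucc) * g i := by
    rw [Finset.mul_sum]
  have houterb : |κ * ∑ i, (t i.succ - t i.castSucc) * g i - κ * Int| ≤ η := by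
    rw [← mul_sub, abs_mul, abs_of_pos hκpos]
    calc κ * _ ≤ κ * (ϱ * (β - α)) := by gcongr
      _ ≤ η := hϱη
  have hinnerb : |κ * ∑ i, (t i.succ - t i.castSucc) * gi i - κ * Int| ≤ η := by
    rw [← mul_sub, abs_mul, abs_of_pos hκpos]
    calc κ * _ ≤ κ * (ϱ * (β - α)) := by gcongr
      _ ≤ η := hϱη
  constructor
  · -- part 1
    refine ⟨p, q, r, fun i => ⟨hp i, hq i, hr i⟩, haff, ?_, ?_⟩
    · rintro x ⟨τ, hτ, ρ, hρ, s, hs, rfl⟩
      have hNpos : 0 ≤ N := Nat.zero_le _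
      obtain ⟨i, hi⟩ := exists_interval N t htm τ (by rw [ht0]; exact hτ.1) (Fin.last N)
        (by rw [htl]; exact hτ.2) (by rw [ht0, htl]; exact hαβ)
      refine mem_iUnion.mpr ⟨i, _, hcov i τ hi ρ hρ s hs, _, add_decomp (e + w (c i)) _⟩
    · simp_rw [hareaR]
      rw [hsumouter]
      exact houterb
  · -- part 2
    have hpieceUp : ∀ i : Fin N, (μHE[2] (proj (e + w (c i)) '' {x : EuclideanSpace ℝ (Fin 3) |
        ∃ τ ∈ Set.Icc (t i.castSucc) (t i.succ), ∃ ρ ∈ Set.Icc 0 (R τ),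
          ∃ s : ℝ, abs s ≤ L ∧ x = p₀ + ρ • (a + τ • b) + s • (e + w τ)})).toReal
        ≤ κ * ((t i.succ - t i.castSucc) * g i) := by
      intro i
      rw [← hareaR i]
      apply ENNReal.toReal_mono
      · rw [harea i]; exact ENNReal.ofReal_ne_top
      · apply measure_mono
        rintro _ ⟨x, ⟨τ, hτ, ρ, hρ, s, hs, rfl⟩, rfl⟩
        exact hcov i τ hτ ρ hρ s hs
    have hpieceLow : ∀ i : Fin N, κ * ((t i.succ - t i.castSucc) * gi i) ≤
        (μHE[2] (proj (e + w (c i)) '' {x : EuclideanSpace ℝ (Fin 3) |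
        ∃ τ ∈ Set.Icc (t i.castSucc) (t i.succ), ∃ ρ ∈ Set.Icc 0 (R τ),
          ∃ s : ℝ, abs s ≤ L ∧ x = p₀ + ρ • (a + τ • b) + s • (e + w τ)})).toReal := by
      intro i
      have hr₀ : 0 ≤ max (R (c i) - D₀) 0 := le_max_right _ _
      have hsub := inner_subset e a b p₀ (e + w (c i)) R w L (max (R (c i) - D₀) 0)
        (t i.castSucc) (t i.succ) hL.le (hlt i) hr₀ (fun τ hτ =>
          (inner_close (R (c i)) (R τ) (ψ (c i)) (ψ τ) Rm D₀ (max (R (c i) - D₀) 0) (hψ0 _) (hψ1 _)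
            (hR0 _ (hpI i hτ)) (hRm _ (hpI i hτ)) (hRclose i τ hτ) (hψclose i τ hτ) hD₀pos hD₀1 rfl).1)
      have harea' := piece_inner e a b p₀ (w (c i)) (max (R (c i) - D₀) 0) (t i.castSucc) (t i.succ)
        he ha hb (hw _ (hcI i)) (hlt i)
      have hval : κ * ((t i.succ - t i.castSucc) * gi i) =
          (μHE[2] (convexHull ℝ {proj (e + w (c i)) p₀,
            proj (e + w (c i)) (p₀ + max (R (c i) - D₀) 0 • a + (max (R (c i) - D₀) 0 * t i.castSucc) • b),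
            proj (e + w (c i)) (p₀ + max (R (c i) - D₀) 0 • a + (max (R (c i) - D₀) 0 * t i.succ) • b)})).toReal := by
        rw [harea', ENNReal.toReal_ofReal]
        · rw [hκ, hgidef, hψdef]
        · have h1 := hlt i
          apply mul_nonneg (Real.sqrt_nonneg _)
          apply mul_nonneg (by linarith)
          positivity
      rw [hval]
      apply ENNReal.toReal_mono
      · have hsubO : proj (e + w (c i)) '' {x : EuclideanSpace ℝ (Fin 3) |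
            ∃ τ ∈ Set.Icc (t i.castSucc) (t i.succ), ∃ ρ ∈ Set.Icc 0 (R τ),
              ∃ s : ℝ, abs s ≤ L ∧ x = p₀ + ρ • (a + τ • b) + s • (e + w τ)} ⊆
              convexHull ℝ ({p i, q i, r i} : Set E3) := by
          rintro _ ⟨x, ⟨τ, hτ, ρ, hρ, s, hs, rfl⟩, rfl⟩
          exact hcov i τ hτ ρ hρ s hs
        exact ne_top_of_le_ne_top (by rw [harea i]; exact ENNReal.ofReal_ne_top) (measure_mono hsubO)
      · exact measure_mono hsub
    have hup := Finset.sum_le_sum fun i (_ : i ∈ Finset.univ) => hpieceUp i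
    have hlo := Finset.sum_le_sum fun i (_ : i ∈ Finset.univ) => hpieceLow i
    rw [hsumouter] at hup
    have hsuminner : ∑ i, κ * ((t i.succ - t i.castSucc) * gi i)
        = κ * ∑ i, (t i.succ - t i.castSucc) * gi i := by
      rw [Finset.mul_sum]
    rw [hsuminner] at hlo
    obtain ⟨o1, o2⟩ := abs_le.mp houterb
    obtain ⟨i1, i2⟩ := abs_le.mp hinnerb
    rw [abs_le]
    have e1 : ∀ i : Fin N, (fun y => y - (inner ℝ y (e + w (c i)) / ‖e + w (c i)‖ ^ 2) • (e + w (c i))) = proj (e + w (c i)) := fun i => rfl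
    simp_rw [e1]
    constructor <;> linarith

end Crest.Agent.S0328
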