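import Crest.Agent.TetArea

set_option autoImplicit false
set_option linter.unusedSimpArgs false
set_option linter.unnecessarySimpa false
set_option linter.unusedTactic false
set_option linter.unreachableTactic false
set_option linter.unusedVariables false

open MeasureTheory Metric Set
open scoped RealInnerProductSpace ENNReal

namespace Crest.Agent.Tet7Gram

open Crest.Agent.TetArea (gram2 gram2_nonneg)

abbrev E3 := EuclideanSpace ℝ (Fin 3)

/-- Orthogonal projection along `d` onto `d^⊥`. -/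
noncomputable def proj (d y : E3) : E3 := y - (⟪y, d⟫ / ‖d‖ ^ 2) • d

lemma inner_coords (x y : E3) : ⟪x, y⟫ = x 0 * y 0 + x 1 * y 1 + x 2 * y 2 := by
  simp [PiLp.inner_apply, Fin.sum_univ_three]; ring

lemma norm_sq_coords (x : E3) : ‖x‖ ^ 2 = x 0 ^ 2 + x 1 ^ 2 + x 2 ^ 2 := by
  rw [← real_inner_self_eq_norm_sq, inner_coords]; ring

lemma proj_add (d x y : E3) : proj d (x + y) = proj d x + proj d y := by
  simp only [proj, inner_add_left, add_div, add_smul]; abel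

lemma proj_sub (d x y : E3) : proj d (x - y) = proj d x - proj d y := by
  simp only [proj, inner_sub_left, sub_div, sub_smul]; abel

lemma proj_smul (d x : E3) (t : ℝ) : proj d (t • x) = t • proj d x := by
  simp only [proj, inner_smul_left, smul_sub, smul_smul]
  congr 2
  simp; ring

lemma inner_proj_self (d y : E3) (hd : d ≠ 0) : ⟪proj d y, d⟫ = 0 := by
  have h : ‖d‖ ^ 2 ≠ 0 := by positivity
  rw [proj, inner_sub_left, inner_smul_left, real_inner_self_eq_norm_sq]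
  simp only [conj_trivial]
  field_simp
  ring

lemma proj_of_inner_zero (d y : E3) (h : ⟪y, d⟫ = 0) : proj d y = y := by
  simp [proj, h]

lemma proj_self (d : E3) (hd : d ≠ 0) : proj d d = 0 := by
  have h : ‖d‖ ^ 2 ≠ 0 := by positivity
  rw [proj, real_inner_self_eq_norm_sq, div_self h, one_smul, sub_self]

lemma proj_add_smul_self (d y : E3) (t : ℝ) (hd : d ≠ 0) : proj d (y + t • d) = proj d y := by
  rw [proj_add, proj_smul, proj_self d hd, smul_zero, add_zero]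

lemma add_decomp (d y : E3) : y = proj d y + (⟪y, d⟫ / ‖d‖ ^ 2) • d := by
  simp [proj]

lemma inner_proj_proj (d x y : E3) (hd : d ≠ 0) :
    ⟪proj d x, proj d y⟫ = ⟪x, y⟫ - ⟪x, d⟫ * ⟪y, d⟫ / ‖d‖ ^ 2 := by
  have h : ‖d‖ ^ 2 ≠ 0 := by positivity
  have h1 : ⟪proj d x, proj d y⟫ = ⟪proj d x, y⟫ := by
    conv_rhs => rw [add_decomp d y]
    rw [inner_add_right, inner_smul_right, inner_proj_self d x hd, mul_zero, add_zero]
  rw [h1, proj, inner_sub_left, inner_smul_left, real_inner_comm y d]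
  simp only [conj_trivial]
  field_simp

lemma norm_proj_sq (d x : E3) (hd : d ≠ 0) :
    ‖proj d x‖ ^ 2 = ‖x‖ ^ 2 - ⟪x, d⟫ ^ 2 / ‖d‖ ^ 2 := by
  rw [← real_inner_self_eq_norm_sq, inner_proj_proj d x x hd, real_inner_self_eq_norm_sq]
  ring

/-- Three vectors orthogonal to a unit vector have vanishing Gram determinant. -/
lemma gramdet_plane (e X Y w : E3) (he : ‖e‖ = 1) (hX : ⟪X, e⟫ = 0) (hY : ⟪Y, e⟫ = 0)
    (hw : ⟪w, e⟫ = 0) :
    ‖w‖ ^ 2 * (‖X‖ ^ 2 * ‖Y‖ ^ 2 - ⟪X, Y⟫ ^ 2)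
      = ‖X‖ ^ 2 * ⟪Y, w⟫ ^ 2 + ‖Y‖ ^ 2 * ⟪X, w⟫ ^ 2 - 2 * ⟪X, Y⟫ * ⟪X, w⟫ * ⟪Y, w⟫ := by
  rw [inner_coords] at hX hY hw
  have he2 : e 0 ^ 2 + e 1 ^ 2 + e 2 ^ 2 = 1 := by
    rw [← norm_sq_coords, he]; norm_num
  simp only [norm_sq_coords, inner_coords]
  set X0 := X 0; set X1 := X 1; set X2 := X 2
  set Y0 := Y 0; set Y1 := Y 1; set Y2 := Y 2
  set W0 := w 0; set W1 := w 1; set W2 := w 2
  set E0 := e 0; set E1 := e 1; set E2 := e 2
  set D := X0 * (Y1 * W2 - Y2 * W1) + X1 * (Y2 * W0 - Y0 * W2) + X2 * (Y0 * W1 - Y1 * W0) with hD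
  have d0 : D * E0 = 0 := by
    have : D * E0 = (Y1 * W2 - Y2 * W1) * (X0 * E0 + X1 * E1 + X2 * E2)
        + (W1 * X2 - W2 * X1) * (Y0 * E0 + Y1 * E1 + Y2 * E2)
        + (X1 * Y2 - X2 * Y1) * (W0 * E0 + W1 * E1 + W2 * E2) := by
      rw [hD]; ring
    rw [this, hX, hY, hw]; ring
  have d1 : D * E1 = 0 := by
    have : D * E1 = (Y2 * W0 - Y0 * W2) * (X0 * E0 + X1 * E1 + X2 * E2)
        + (W2 * X0 - W0 * X2) * (Y0 * E0 + Y1 * E1 + Y2 * E2)
        + (X2 * Y0 - X0 * Y2) * (W0 * E0 + W1 * E1 + W2 * E2) := by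
      rw [hD]; ring
    rw [this, hX, hY, hw]; ring
  have d2 : D * E2 = 0 := by
    have : D * E2 = (Y0 * W1 - Y1 * W0) * (X0 * E0 + X1 * E1 + X2 * E2)
        + (W0 * X1 - W1 * X0) * (Y0 * E0 + Y1 * E1 + Y2 * E2)
        + (X0 * Y1 - X1 * Y0) * (W0 * E0 + W1 * E1 + W2 * E2) := by
      rw [hD]; ring
    rw [this, hX, hY, hw]; ring
  have hD0 : D = 0 := by
    have : D = D * (E0 ^ 2 + E1 ^ 2 + E2 ^ 2) := by rw [he2, mul_one]
    rw [this]
    have : D * (E0 ^ 2 + E1 ^ 2 + E2 ^ 2) = (D * E0) * E0 + (D * E1) * E1 + (D * E2) * E2 := by ring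
    rw [this, d0, d1, d2]; ring
  have : D ^ 2 = 0 := by rw [hD0]; ring
  rw [hD] at this
  linear_combination this

/-- Gram determinant of a pair in `e^⊥` after projection along `e + w`, `w ⊥ e`. -/
theorem gram_proj (e X Y w : E3) (he : ‖e‖ = 1) (hX : ⟪X, e⟫ = 0) (hY : ⟪Y, e⟫ = 0)
    (hw : ⟪w, e⟫ = 0) :
    gram2 (proj (e + w) X) (proj (e + w) Y) = gram2 X Y / (1 + ‖w‖ ^ 2) := by
  have hN : ‖e + w‖ ^ 2 = 1 + ‖w‖ ^ 2 := by
    rw [← real_inner_self_eq_norm_sq, inner_add_left, inner_add_right, inner_add_right,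
      real_inner_self_eq_norm_sq, real_inner_self_eq_norm_sq, he, real_inner_comm, hw,
      ]
    ring
  have hd : e + w ≠ 0 := by
    intro h
    rw [h] at hN
    have := sq_nonneg ‖w‖
    simp at hN
    nlinarith
  have hXd : ⟪X, e + w⟫ = ⟪X, w⟫ := by rw [inner_add_right, hX, zero_add]
  have hYd : ⟪Y, e + w⟫ = ⟪Y, w⟫ := by rw [inner_add_right, hY, zero_add]
  unfold gram2
  rw [norm_proj_sq _ _ hd, norm_proj_sq _ _ hd, inner_proj_proj _ _ _ hd, hXd, hYd, hN]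
  have hpos : (1 + ‖w‖ ^ 2) ≠ 0 := by positivity
  have key := gramdet_plane e X Y w he hX hY hw
  field_simp
  linear_combination (1 + ‖w‖ ^ 2) * key

end Crest.Agent.Tet7Gram
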