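import Crest.Statements.S0329
import Crest.Agent.S0326
import Crest.Agent.Tet7Gram

set_option autoImplicit false
open MeasureTheory
open scoped ENNReal
open Crest Crest.GeometryTopology Crest.GeometryTopology.Convex

namespace Crest.Agent.S0329

open Crest.Agent.Tet7Gram Crest.Agent.Tet7Lattice Metric Set
open Crest.Agent.TetArea (gram2 gram2_nonneg parallelogram_area)
open scoped RealInnerProductSpace

/-- The embedding `ξ ↦ (0, ξ₀, h ξ₁)`. -/
noncomputable def em (h : ℝ) (ξ : E2) : E3 := !₂[0, ξ 0, h * ξ 1]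

lemma em_add (h : ℝ) (x y : E2) : em h (x + y) = em h x + em h y := by
  ext i; fin_cases i <;> simp [em] <;> ring

lemma em_smul (h t : ℝ) (x : E2) : em h (t • x) = t • em h x := by
  ext i; fin_cases i <;> simp [em] <;> ring

/-- The left inverse, constant along the direction `(1, g₀, h g₁)`. -/
noncomputable def psi (h : ℝ) (g : E2) (y : E3) : E2 := !₂[y 1 - y 0 * g 0, y 2 / h - y 0 * g 1]

lemma psi_continuous (h : ℝ) (g : E2) : Continuous (psi h g) := by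
  unfold psi
  refine (PiLp.continuous_toLp 2 _).comp ?_
  refine continuous_pi fun i => ?_
  fin_cases i
  · simp only [Fin.zero_eta, Fin.isValue, Matrix.cons_val_zero]
    fun_prop
  · simp only [Fin.mk_one, Fin.isValue, Matrix.cons_val_one, Matrix.cons_val_fin_one]
    fun_prop

/-- direction -/
noncomputable def dir (h : ℝ) (g : E2) : E3 := !₂[1, g 0, h * g 1]

lemma decomp_dir (h : ℝ) (hh : 0 < h) (g : E2) (y : E3) :
    y = em h (psi h g y) + y 0 • dir h g := by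
  ext i; fin_cases i
  · simp [em, psi, dir]
  · simp [em, psi, dir]
  · simp [em, psi, dir]; field_simp; ring

lemma psi_em (h : ℝ) (hh : 0 < h) (g : E2) (ξ : E2) (t : ℝ) :
    psi h g (em h ξ + t • dir h g) = ξ := by
  ext i; fin_cases i
  · simp [em, psi, dir]
  · simp [em, psi, dir]; field_simp; ring

lemma dir_eq (h : ℝ) (g : E2) : dir h g = (!₂[1, 0, 0] : E3) + !₂[0, g 0, h * g 1] := by
  ext i; fin_cases i <;> simp [dir]

lemma dir_ne (h : ℝ) (g : E2) : dir h g ≠ 0 := by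
  intro h0
  have := congrArg (fun v : E3 => v 0) h0
  simp [dir] at this

lemma norm_dir_sq (h : ℝ) (g : E2) : ‖dir h g‖ ^ 2 = 1 + (g 0) ^ 2 + h ^ 2 * (g 1) ^ 2 := by
  rw [norm_sq_coords]; simp [dir]; ring

lemma orthonormal_pair (x y : E2) (hx : ‖x‖ = 1) (hy : ‖y‖ = 1) (hxy : ⟪x, y⟫ = 0) :
    Orthonormal ℝ ![x, y] := by
  rw [orthonormal_iff_ite]
  intro i j
  fin_cases i <;> fin_cases j
  · simp [hx]
  · simpa using hxy
  · simpa [real_inner_comm] using hxy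
  · simp [hy]

/-- The decomposition of a vector of the plane in an orthogonal square frame. -/
lemma frame_square (a b ξ : E2) (ha : a ≠ 0) (hb : ‖b‖ = ‖a‖) (hab : ⟪a, b⟫ = 0) :
    ξ = (⟪ξ, a⟫ / ‖a‖ ^ 2) • a + (⟪ξ, b⟫ / ‖a‖ ^ 2) • b := by
  have hn : ‖a‖ ≠ 0 := norm_ne_zero_iff.mpr ha
  have hon : Orthonormal ℝ ![(‖a‖⁻¹) • a, (‖a‖⁻¹) • b] := by
    apply orthonormal_pair
    · rw [norm_smul, norm_inv, norm_norm]; field_simp
    · rw [norm_smul, norm_inv, norm_norm, hb]; field_simp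
    · rw [inner_smul_left, inner_smul_right, hab]; simp
  let B : OrthonormalBasis (Fin 2) ℝ E2 := OrthonormalBasis.mk hon (by
    have := hon.linearIndependent.span_eq_top_of_card_eq_finrank' (by simp)
    exact this.ge)
  have hB0 : B 0 = (‖a‖⁻¹) • a := by simp [B]
  have hB1 : B 1 = (‖a‖⁻¹) • b := by simp [B]
  have := frame_decomp B ξ
  rw [hB0, hB1] at this
  conv_lhs => rw [this]
  simp only [inner_smul_left, smul_smul, conj_trivial, real_inner_comm]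
  congr 2
  · field_simp
  · field_simp

lemma inner_coords2 (x y : E2) : ⟪x, y⟫ = x 0 * y 0 + x 1 * y 1 := by
  simp [PiLp.inner_apply, Fin.sum_univ_two]; ring

lemma norm_sq_coords2 (x : E2) : ‖x‖ ^ 2 = x 0 ^ 2 + x 1 ^ 2 := by
  rw [← real_inner_self_eq_norm_sq, inner_coords2]; ring

/-- The Gram determinant of the scaled pair. -/
lemma gram_em (h : ℝ) (a b : E2) (hb : ‖b‖ = ‖a‖) (hab : ⟪a, b⟫ = 0) :
    gram2 (em h a) (em h b) = h ^ 2 * ‖a‖ ^ 4 := by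
  have h1 := norm_sq_coords2 a
  have h2 := norm_sq_coords2 b
  have h3 := inner_coords2 a b
  have h4 : ‖a‖ ^ 4 = ‖a‖ ^ 2 * ‖b‖ ^ 2 - ⟪a, b⟫ ^ 2 := by
    rw [hab, hb]; ring
  rw [h4, h1, h2, h3]
  unfold gram2
  rw [norm_sq_coords, norm_sq_coords, inner_coords]
  simp [em]
  ring

lemma area_of_parallelogram (h ϑ : ℝ) (hh : 0 < h) (hϑ : 0 < 1 + 2 * ϑ) (a b g : E2)
    (hb : ‖b‖ = ‖a‖) (hab : ⟪a, b⟫ = 0) (Av Bv : E3)
    (hAv : Av = (1 + 2 * ϑ) • proj (dir h g) (em h a))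
    (hBv : Bv = (1 + 2 * ϑ) • proj (dir h g) (em h b)) :
    Real.sqrt (‖Av‖ ^ 2 * ‖Bv‖ ^ 2 - inner ℝ Av Bv ^ 2) =
      (1 + 2 * ϑ) ^ 2 * h * (‖a‖ ^ 2 / Real.sqrt (1 + (g 0) ^ 2 + h ^ 2 * (g 1) ^ 2)) := by
  have e1 : (‖(!₂[1, 0, 0] : E3)‖) = 1 := by
    have : ‖(!₂[1, 0, 0] : E3)‖ ^ 2 = 1 := by rw [norm_sq_coords]; simp
    have h2 : 0 ≤ ‖(!₂[1, 0, 0] : E3)‖ := norm_nonneg _
    nlinarith
  have hg := gram_proj (!₂[1, 0, 0]) (em h a) (em h b) (!₂[0, g 0, h * g 1]) e1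
    (by rw [inner_coords]; simp [em]) (by rw [inner_coords]; simp [em]) (by rw [inner_coords]; simp)
  rw [← dir_eq, gram_em h a b hb hab] at hg
  have hw : ‖(!₂[0, g 0, h * g 1] : E3)‖ ^ 2 = (g 0) ^ 2 + h ^ 2 * (g 1) ^ 2 := by
    rw [norm_sq_coords]; simp; ring
  rw [hw] at hg
  have hN : (1 + ((g 0) ^ 2 + h ^ 2 * (g 1) ^ 2)) = 1 + (g 0) ^ 2 + h ^ 2 * (g 1) ^ 2 := by ring
  rw [hN] at hg
  set N := 1 + (g 0) ^ 2 + h ^ 2 * (g 1) ^ 2 with hNdef
  have hNpos : 0 < N := by positivity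
  unfold gram2 at hg
  have hval : ‖Av‖ ^ 2 * ‖Bv‖ ^ 2 - inner ℝ Av Bv ^ 2
      = ((1 + 2 * ϑ) ^ 2 * h * ‖a‖ ^ 2) ^ 2 / N := by
    rw [hAv, hBv, norm_smul, norm_smul, inner_smul_left, inner_smul_right, Real.norm_eq_abs,
      abs_of_pos hϑ]
    simp only [conj_trivial]
    have : ((1 + 2 * ϑ) * ‖proj (dir h g) (em h a)‖) ^ 2 * ((1 + 2 * ϑ) * ‖proj (dir h g) (em h b)‖) ^ 2 -
        ((1 + 2 * ϑ) * ((1 + 2 * ϑ) * ⟪proj (dir h g) (em h a), proj (dir h g) (em h b)⟫)) ^ 2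
        = (1 + 2 * ϑ) ^ 4 * (‖proj (dir h g) (em h a)‖ ^ 2 * ‖proj (dir h g) (em h b)‖ ^ 2 -
          ⟪proj (dir h g) (em h a), proj (dir h g) (em h b)⟫ ^ 2) := by ring
    rw [this, hg]
    ring
  rw [hval, Real.sqrt_div (sq_nonneg _), Real.sqrt_sq (by positivity)]
  ring

/-- One tile. -/
theorem tile_base (h : ℝ) (hh : 0 < h) (c a b g : E2) (ha : a ≠ 0) (hb : ‖b‖ = ‖a‖)
    (hab : ⟪a, b⟫ = 0) (ϑ : ℝ) (hϑ : 0 < ϑ) :
    ∃ (u : E3) (B : Set E3), ‖u‖ = 1 ∧ Bornology.IsBounded B ∧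
      (∃ O : Set E3, IsOpen O ∧ B = O ∩ {x | inner ℝ x u = 0}) ∧
      (∀ (x α β : ℝ) (z : E2), α ∈ Icc (0 : ℝ) 1 → β ∈ Icc (0 : ℝ) 1 →
        z = c + α • a + β • b + x • g →
        ∃ y ∈ B, ∃ τ : ℝ, (!₂[x, z 0, h * z 1] : E3) = y + τ • u) ∧
      (μHE[2] B).toReal ≤ (1 + 2 * ϑ) ^ 2 * h * (‖a‖ ^ 2 / Real.sqrt (1 + (g 0) ^ 2 + h ^ 2 * (g 1) ^ 2)) := by
  set d := dir h g with hd
  have hdne : d ≠ 0 := dir_ne h g
  have hdn : ‖d‖ ≠ 0 := norm_ne_zero_iff.mpr hdne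
  have hdpos : 0 < ‖d‖ := norm_pos_iff.mpr hdne
  set u : E3 := (‖d‖⁻¹) • d with hu
  have hun : ‖u‖ = 1 := by
    rw [hu, norm_smul, norm_inv, norm_norm]
    field_simp
  have huperp : ∀ x : E3, ⟪x, u⟫ = 0 ↔ ⟪x, d⟫ = 0 := by
    intro x
    rw [hu, inner_smul_right]
    constructor
    · intro h1
      have : ‖d‖⁻¹ ≠ 0 := inv_ne_zero hdn
      exact (mul_eq_zero.mp h1).resolve_left this
    · intro h1
      rw [h1, mul_zero]
  have hna : ‖a‖ ≠ 0 := norm_ne_zero_iff.mpr ha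
  have hnapos : 0 < ‖a‖ := norm_pos_iff.mpr ha
  have hna2 : 0 < ‖a‖ ^ 2 := by positivity
  set Aco : E3 → ℝ := fun y => ⟪psi h g y - c, a⟫ / ‖a‖ ^ 2 with hAco
  set Bco : E3 → ℝ := fun y => ⟪psi h g y - c, b⟫ / ‖a‖ ^ 2 with hBco
  have hAc : Continuous Aco :=
    (((psi_continuous h g).sub continuous_const).inner continuous_const).div_const _
  have hBc : Continuous Bco :=
    (((psi_continuous h g).sub continuous_const).inner continuous_const).div_const _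
  set O : Set E3 := {y | -ϑ < Aco y ∧ Aco y < 1 + ϑ ∧ -ϑ < Bco y ∧ Bco y < 1 + ϑ} with hO
  have hOopen : IsOpen O := by
    have e : O = Aco ⁻¹' (Ioo (-ϑ) (1 + ϑ)) ∩ Bco ⁻¹' (Ioo (-ϑ) (1 + ϑ)) := by
      ext y
      simp only [hO, mem_ofPred_eq, mem_inter_iff, mem_preimage, mem_Ioo]
      tauto
    rw [e]
    exact (isOpen_Ioo.preimage hAc).inter (isOpen_Ioo.preimage hBc)
  set P : E2 → E3 := fun ξ => proj d (em h ξ) with hP
  have hPadd : ∀ x y, P (x + y) = P x + P y := fun x y => by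
    simp only [hP, em_add, proj_add]
  have hPsmul : ∀ (t : ℝ) x, P (t • x) = t • P x := fun t x => by
    simp only [hP, em_smul, proj_smul]
  set C : E3 := P c - ϑ • P a - ϑ • P b with hC
  set Av : E3 := (1 + 2 * ϑ) • P a with hAv
  set Bv : E3 := (1 + 2 * ϑ) • P b with hBv
  set Par : Set E3 := {x | ∃ s ∈ Icc (0 : ℝ) 1, ∃ t ∈ Icc (0 : ℝ) 1, x = C + s • Av + t • Bv} with hPar
  have hϑ' : 0 < 1 + 2 * ϑ := by positivity
  have hsub : O ∩ {x | inner ℝ x u = 0} ⊆ Par := by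
    rintro y ⟨⟨h1, h2, h3, h4⟩, hy⟩
    have hyd : ⟪y, d⟫ = 0 := (huperp y).mp hy
    have hyP : y = P (psi h g y) := by
      have h5 : y = em h (psi h g y) + y 0 • d := decomp_dir h hh g y
      have h6 : proj d y = y := proj_of_inner_zero d y hyd
      have h7 : proj d y = proj d (em h (psi h g y) + y 0 • d) := congrArg (proj d) h5
      rw [proj_add_smul_self d _ _ hdne, h6] at h7
      exact h7
    have hξ := frame_square a b (psi h g y - c) ha hb hab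
    have hξ' : psi h g y = c + Aco y • a + Bco y • b := by
      rw [hAco, hBco]
      simp only
      rw [add_assoc, ← hξ]
      abel
    refine ⟨(Aco y + ϑ) / (1 + 2 * ϑ), ⟨div_nonneg (by linarith) hϑ'.le,
      (div_le_one hϑ').mpr (by linarith)⟩, (Bco y + ϑ) / (1 + 2 * ϑ),
      ⟨div_nonneg (by linarith) hϑ'.le, (div_le_one hϑ').mpr (by linarith)⟩, ?_⟩
    conv_lhs => rw [hyP, hξ']
    rw [hPadd, hPadd, hPsmul, hPsmul, hC, hAv, hBv, smul_smul, smul_smul,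
      div_mul_cancel₀ _ hϑ'.ne', div_mul_cancel₀ _ hϑ'.ne']
    module
  have hParbdd : Bornology.IsBounded Par := by
    refine (isBounded_iff_forall_norm_le.mpr ⟨‖C‖ + ‖Av‖ + ‖Bv‖, ?_⟩)
    rintro x ⟨s, hs, t, ht, rfl⟩
    refine (norm_add_le _ _).trans (add_le_add ((norm_add_le _ _).trans (add_le_add le_rfl ?_)) ?_)
    · rw [norm_smul, Real.norm_eq_abs, abs_of_nonneg hs.1]
      exact mul_le_of_le_one_left (norm_nonneg _) hs.2
    · rw [norm_smul, Real.norm_eq_abs, abs_of_nonneg ht.1]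
      exact mul_le_of_le_one_left (norm_nonneg _) ht.2
  refine ⟨u, O ∩ {x | inner ℝ x u = 0}, hun, hParbdd.subset hsub, ⟨O, hOopen, rfl⟩, ?_, ?_⟩
  · intro x α β z hα hβ hz
    set ξ := c + α • a + β • b with hξ
    set t := ⟪em h ξ, d⟫ / ‖d‖ ^ 2 with ht
    have hdec : em h ξ = proj d (em h ξ) + t • d := add_decomp d _
    refine ⟨proj d (em h ξ), ⟨?_, ?_⟩, (t + x) * ‖d‖, ?_⟩
    · -- in O
      have hy : proj d (em h ξ) = em h ξ + (-t) • d := by
        conv_rhs => rw [hdec]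
        module
      have hpsi : psi h g (proj d (em h ξ)) = ξ := by
        rw [hy]; exact psi_em h hh g ξ (-t)
      have e : ξ - c = α • a + β • b := by rw [hξ]; abel
      have hA : Aco (proj d (em h ξ)) = α := by
        simp only [hAco]
        rw [hpsi, e, inner_add_left, inner_smul_left, inner_smul_left, real_inner_self_eq_norm_sq,
          real_inner_comm a b, hab]
        simp only [conj_trivial, mul_zero, add_zero]
        field_simp
      have hB : Bco (proj d (em h ξ)) = β := by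
        simp only [hBco]
        rw [hpsi, e, inner_add_left, inner_smul_left, inner_smul_left, real_inner_self_eq_norm_sq,
          hab, hb]
        simp only [conj_trivial, mul_zero, zero_add]
        field_simp
      simp only [hO, mem_ofPred_eq]
      rw [hA, hB]
      refine ⟨?_, ?_, ?_, ?_⟩ <;> [linarith [hα.1]; linarith [hα.2]; linarith [hβ.1]; linarith [hβ.2]]
    · show ⟪proj d (em h ξ), u⟫ = 0
      exact (huperp _).mpr (inner_proj_self d _ hdne)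
    · have hzz : (!₂[x, z 0, h * z 1] : E3) = em h ξ + x • d := by
        rw [hz]
        ext i; fin_cases i
        · simp [em, hd, dir]
        · simp [em, hd, dir, hξ]
        · simp [em, hd, dir, hξ]; ring
      rw [hzz]
      conv_lhs => rw [hdec]
      rw [hu, smul_smul, mul_assoc, mul_inv_cancel₀ hdn, mul_one]
      module
  · have hare := parallelogram_area C Av Bv
    have hval := area_of_parallelogram h ϑ hh hϑ' a b g hb hab Av Bv hAv hBv
    rw [hval] at hare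
    have h0 : 0 ≤ (1 + 2 * ϑ) ^ 2 * h * (‖a‖ ^ 2 / Real.sqrt (1 + (g 0) ^ 2 + h ^ 2 * (g 1) ^ 2)) := by
      positivity
    calc (μHE[2] (O ∩ {x | inner ℝ x u = 0})).toReal ≤ (μHE[2] Par).toReal := by
          apply ENNReal.toReal_mono
          · rw [hPar, hare]; exact ENNReal.ofReal_ne_top
          · exact measure_mono hsub
      _ = _ := by
          rw [hPar, hare, ENNReal.toReal_ofReal h0]

/-- Let h, M > 0, D ⊂ ℝ² be compact with Lebesgue-null boundary, and V : ℝ² → ℝ² be C¹ on an open set containing D with tr DV(p) = 0 and −1/M² < det DV(p) < 0 for p ∈ D. For every ε > 0 the set of points (x, p₁ + x V₁(p), h (p₂ + x V₂(p))) ∈ ℝ³ with p ∈ D, −M ≤ x ≤ M is covered by finitely many cylinders Bᵢ + ℝ uᵢ, ‖uᵢ‖ = 1, with bases Bᵢ bounded relatively open subsets of the planes uᵢ^⊥ and ∑ᵢ area(Bᵢ) ≤ h ∫_D (1 + V₁² + h² V₂²)^(−1/2) + ε (areas: normalised 2-dimensional Hausdorff measure). -/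
theorem result
    (h M : ℝ) (hh : 0 < h) (hM : 0 < M) (D : Set (EuclideanSpace ℝ (Fin 2))) (hD : IsCompact D)
    (hbd : volume (frontier D) = 0)
    (V : EuclideanSpace ℝ (Fin 2) → EuclideanSpace ℝ (Fin 2)) (U : Set (EuclideanSpace ℝ (Fin 2)))
    (hU : IsOpen U) (hDU : D ⊆ U) (hV : ContDiffOn ℝ 1 V U)
    (htr : ∀ p ∈ D, LinearMap.trace ℝ _ (fderiv ℝ V p).toLinearMap = 0)
    (hdet : ∀ p ∈ D, -(M ^ 2)⁻¹ < LinearMap.det (fderiv ℝ V p).toLinearMap ∧
      LinearMap.det (fderiv ℝ V p).toLinearMap < 0)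
    (ε : ℝ) (hε : 0 < ε) :
    ∃ (k : ℕ) (u : Fin k → EuclideanSpace ℝ (Fin 3)) (B : Fin k → Set (EuclideanSpace ℝ (Fin 3))),
      (∀ i, ‖u i‖ = 1) ∧
      (∀ i, Bornology.IsBounded (B i) ∧ ∃ O : Set (EuclideanSpace ℝ (Fin 3)), IsOpen O ∧
        B i = O ∩ {x | inner ℝ x (u i) = 0}) ∧
      {z : EuclideanSpace ℝ (Fin 3) | ∃ p ∈ D, ∃ x : ℝ, abs x ≤ M ∧
          z = !₂[x, p 0 + x * V p 0, h * (p 1 + x * V p 1)]} ⊆
        ⋃ i, {z : EuclideanSpace ℝ (Fin 3) | ∃ y ∈ B i, ∃ τ : ℝ, z = y + τ • u i} ∧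
      ∑ i, (μHE[2] (B i)).toReal ≤
        h * (∫ p in D, 1 / Real.sqrt (1 + (V p 0) ^ 2 + h ^ 2 * (V p 1) ^ 2)) + ε := by
  set X := ∫ p in D, 1 / Real.sqrt (1 + (V p 0) ^ 2 + h ^ 2 * (V p 1) ^ 2) with hX
  have hX0 : 0 ≤ X := by
    apply integral_nonneg
    intro p
    positivity
  set τ := min 1 (ε / (2 * h * (X + 1))) with hτ
  set ε' := min 1 (ε / (2 * h)) with hε'
  have hτpos : 0 < τ := by rw [hτ]; positivity
  have hε'pos : 0 < ε' := by rw [hε']; positivity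
  have hτ1 : τ ≤ 1 := min_le_left _ _
  have hε'1 : ε' ≤ 1 := min_le_left _ _
  have hτb : τ * (h * (X + 1)) ≤ ε / 2 := by
    have : τ ≤ ε / (2 * h * (X + 1)) := min_le_right _ _
    rw [le_div_iff₀ (by positivity)] at this
    nlinarith
  have hε'b : h * ε' ≤ ε / 2 := by
    have : ε' ≤ ε / (2 * h) := min_le_right _ _
    rw [le_div_iff₀ (by positivity)] at this
    nlinarith
  obtain ⟨k, c, a, b, g, htile, hcov, hsum⟩ := Crest.Agent.S0326.result D hD V U hU hDU hV M h hM hh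
    htr (fun p hp => ⟨(hdet p hp).1, (hdet p hp).2.le⟩) ε' hε'pos
  have hϑ : 0 < τ / 8 := by positivity
  have hloc := fun i => tile_base h hh (c i) (a i) (b i) (g i) (htile i).1 (htile i).2.1 (htile i).2.2
    (τ / 8) hϑ
  choose u B hu hBb hBO hBc hBa using hloc
  refine ⟨k, u, B, hu, fun i => ⟨hBb i, hBO i⟩, ?_, ?_⟩
  · rintro z ⟨p, hp, x, hx, rfl⟩
    have hmem : ((x, p + x • V p) : ℝ × E2) ∈ {z : ℝ × EuclideanSpace ℝ (Fin 2) | ∃ p ∈ D, abs z.1 ≤ M ∧ z.2 = p + z.1 • V p} :=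
      ⟨p, hp, hx, rfl⟩
    obtain ⟨i, hi⟩ := mem_iUnion.mp (hcov hmem)
    obtain ⟨α, hα, β, hβ, hz⟩ := hi
    simp only at hz
    obtain ⟨y, hy, t, hyt⟩ := hBc i x α β (p + x • V p) hα hβ hz
    refine mem_iUnion.mpr ⟨i, y, hy, t, ?_⟩
    rw [← hyt]
    simp
  · have hτ' : (1 + 2 * (τ / 8)) ^ 2 ≤ 1 + τ := by nlinarith
    calc ∑ i, (μHE[2] (B i)).toReal
        ≤ ∑ i, (1 + 2 * (τ / 8)) ^ 2 * h * (‖a i‖ ^ 2 / Real.sqrt (1 + (g i 0) ^ 2 + h ^ 2 * (g i 1) ^ 2)) :=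
          Finset.sum_le_sum fun i _ => hBa i
      _ = (1 + 2 * (τ / 8)) ^ 2 * h * ∑ i, (‖a i‖ ^ 2 / Real.sqrt (1 + (g i 0) ^ 2 + h ^ 2 * (g i 1) ^ 2)) := by
          rw [Finset.mul_sum]
      _ ≤ (1 + τ) * h * (X + ε') := by
          gcongr
      _ = h * X + h * ε' + τ * (h * (X + ε')) := by ring
      _ ≤ h * X + h * ε' + τ * (h * (X + 1)) := by
          gcongr
      _ ≤ h * X + ε := by linarith

end Crest.Agent.S0329
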