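/-
S0453 project: generic conditional expectation (uniform average over the fibres of a key function).
Self-contained; no graph content.
-/
import Mathlib

set_option autoImplicit false
open Finset

namespace Crest.Agent.SW

noncomputable section

variable {α κ : Type*} [DecidableEq κ]

/-- The block of `x`: elements of `Ω` with the same key as `x`. -/
def blockOf (Ω : Finset α) (key : α → κ) (x : α) : Finset α := Ω.filter (fun y => key y = key x)

/-- Conditional expectation: uniform average over the block of `x`. -/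
def cexp (Ω : Finset α) (key : α → κ) (f : α → ℝ) (x : α) : ℝ :=
  (∑ y ∈ blockOf Ω key x, f y) / ((blockOf Ω key x).card : ℝ)

lemma mem_blockOf {Ω : Finset α} {key : α → κ} {x y : α} :
    y ∈ blockOf Ω key x ↔ y ∈ Ω ∧ key y = key x := by
  simp [blockOf]

lemma self_mem_blockOf {Ω : Finset α} {key : α → κ} {x : α} (hx : x ∈ Ω) :
    x ∈ blockOf Ω key x := mem_blockOf.2 ⟨hx, rfl⟩

lemma blockOf_congr {Ω : Finset α} {key : α → κ} {x y : α} (h : key x = key y) :
    blockOf Ω key x = blockOf Ω key y := by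
  simp [blockOf, h]

lemma cexp_congr {Ω : Finset α} {key : α → κ} (f : α → ℝ) {x y : α} (h : key x = key y) :
    cexp Ω key f x = cexp Ω key f y := by
  simp [cexp, blockOf_congr h]

lemma blockOf_card_pos {Ω : Finset α} {key : α → κ} {x : α} (hx : x ∈ Ω) :
    0 < (blockOf Ω key x).card := Finset.card_pos.2 ⟨x, self_mem_blockOf hx⟩

lemma cexp_const {Ω : Finset α} {key : α → κ} (c : ℝ) {x : α} (hx : x ∈ Ω) :
    cexp Ω key (fun _ => c) x = c := by
  have : ((blockOf Ω key x).card : ℝ) ≠ 0 := by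
    exact_mod_cast (blockOf_card_pos hx).ne'
  simp [cexp, this]

lemma cexp_add {Ω : Finset α} {key : α → κ} (f g : α → ℝ) (x : α) :
    cexp Ω key (fun y => f y + g y) x = cexp Ω key f x + cexp Ω key g x := by
  simp [cexp, Finset.sum_add_distrib, add_div]

lemma cexp_sub {Ω : Finset α} {key : α → κ} (f g : α → ℝ) (x : α) :
    cexp Ω key (fun y => f y - g y) x = cexp Ω key f x - cexp Ω key g x := by
  simp [cexp, Finset.sum_sub_distrib, sub_div]

lemma cexp_smul {Ω : Finset α} {key : α → κ} (c : ℝ) (f : α → ℝ) (x : α) :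
    cexp Ω key (fun y => c * f y) x = c * cexp Ω key f x := by
  simp [cexp, ← Finset.mul_sum, mul_div_assoc]

/-- Sum over `Ω` splits over the fibres of the key. -/
lemma sum_eq_sum_image_blocks (Ω : Finset α) (key : α → κ) (F : α → ℝ) :
    ∑ x ∈ Ω, F x = ∑ k ∈ Ω.image key, ∑ x ∈ Ω.filter (fun y => key y = k), F x := by
  rw [Finset.sum_fiberwise_of_maps_to]
  intro x hx
  exact Finset.mem_image_of_mem _ hx

/-- To prove a global sum nonnegative it suffices to prove it on each block. -/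
lemma sum_nonneg_of_blocks {Ω : Finset α} (key : α → κ) {F : α → ℝ}
    (h : ∀ x₀ ∈ Ω, 0 ≤ ∑ x ∈ blockOf Ω key x₀, F x) : 0 ≤ ∑ x ∈ Ω, F x := by
  rw [sum_eq_sum_image_blocks Ω key F]
  refine Finset.sum_nonneg ?_
  intro k hk
  obtain ⟨x₀, hx₀, rfl⟩ := Finset.mem_image.1 hk
  exact h x₀ hx₀

/-- Global comparison from blockwise comparison. -/
lemma sum_le_sum_of_blocks {Ω : Finset α} (key : α → κ) {F G : α → ℝ}
    (h : ∀ x₀ ∈ Ω, ∑ x ∈ blockOf Ω key x₀, F x ≤ ∑ x ∈ blockOf Ω key x₀, G x) :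
    ∑ x ∈ Ω, F x ≤ ∑ x ∈ Ω, G x := by
  have := sum_nonneg_of_blocks (Ω := Ω) key (F := fun x => G x - F x) (by
    intro x₀ hx₀
    rw [Finset.sum_sub_distrib]
    linarith [h x₀ hx₀])
  rw [Finset.sum_sub_distrib] at this
  linarith

/-- On a block, `cexp f` sums to the same as `f`. -/
lemma sum_block_cexp {Ω : Finset α} {key : α → κ} (f : α → ℝ) {x₀ : α} (hx₀ : x₀ ∈ Ω) :
    ∑ y ∈ blockOf Ω key x₀, cexp Ω key f y = ∑ y ∈ blockOf Ω key x₀, f y := by
  have h1 : ∀ y ∈ blockOf Ω key x₀, cexp Ω key f y = cexp Ω key f x₀ := fun y hy =>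
    cexp_congr f (mem_blockOf.1 hy).2
  rw [Finset.sum_congr rfl h1, Finset.sum_const, nsmul_eq_mul]
  have : ((blockOf Ω key x₀).card : ℝ) ≠ 0 := by
    exact_mod_cast (blockOf_card_pos hx₀).ne'
  simp only [cexp]
  field_simp

/-- A block function pulls out of a block sum. -/
lemma sum_block_mul_cexp {Ω : Finset α} {key : α → κ} (f g : α → ℝ) {x₀ : α} (hx₀ : x₀ ∈ Ω) :
    ∑ y ∈ blockOf Ω key x₀, g y * cexp Ω key f y
      = ∑ y ∈ blockOf Ω key x₀, cexp Ω key g y * f y := by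
  have h1 : ∀ y ∈ blockOf Ω key x₀, g y * cexp Ω key f y = g y * cexp Ω key f x₀ := fun y hy => by
    rw [cexp_congr f (mem_blockOf.1 hy).2]
  have h2 : ∀ y ∈ blockOf Ω key x₀, cexp Ω key g y * f y = cexp Ω key g x₀ * f y := fun y hy => by
    rw [cexp_congr g (mem_blockOf.1 hy).2]
  rw [Finset.sum_congr rfl h1, Finset.sum_congr rfl h2, ← Finset.sum_mul, ← Finset.mul_sum]
  have : ((blockOf Ω key x₀).card : ℝ) ≠ 0 := by
    exact_mod_cast (blockOf_card_pos hx₀).ne'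
  simp only [cexp]
  field_simp

/-- Self-adjointness of `cexp`. -/
lemma sum_mul_cexp_comm (Ω : Finset α) (key : α → κ) (f g : α → ℝ) :
    ∑ x ∈ Ω, g x * cexp Ω key f x = ∑ x ∈ Ω, cexp Ω key g x * f x := by
  have h := sum_le_sum_of_blocks (Ω := Ω) key
      (F := fun x => g x * cexp Ω key f x) (G := fun x => cexp Ω key g x * f x)
      (fun x₀ hx₀ => (sum_block_mul_cexp f g hx₀).le)
  have h' := sum_le_sum_of_blocks (Ω := Ω) key
      (G := fun x => g x * cexp Ω key f x) (F := fun x => cexp Ω key g x * f x)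
      (fun x₀ hx₀ => (sum_block_mul_cexp f g hx₀).ge)
  exact le_antisymm h h'

/-- Idempotence of `cexp` on `Ω`. -/
lemma cexp_cexp {Ω : Finset α} {key : α → κ} (f : α → ℝ) {x : α} (hx : x ∈ Ω) :
    cexp Ω key (cexp Ω key f) x = cexp Ω key f x := by
  have h1 : ∀ y ∈ blockOf Ω key x, cexp Ω key f y = cexp Ω key f x := fun y hy =>
    cexp_congr f (mem_blockOf.1 hy).2
  have : ((blockOf Ω key x).card : ℝ) ≠ 0 := by
    exact_mod_cast (blockOf_card_pos hx).ne'
  conv_lhs => simp only [cexp]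
  rw [show ∑ y ∈ blockOf Ω key x,
        (∑ y_1 ∈ blockOf Ω key y, f y_1) / ((blockOf Ω key y).card : ℝ)
      = ∑ y ∈ blockOf Ω key x, cexp Ω key f x from
        Finset.sum_congr rfl (fun y hy => h1 y hy)]
  rw [Finset.sum_const, nsmul_eq_mul]
  field_simp

/-- `‖Ef‖² = ⟨f, Ef⟩`. -/
lemma sum_cexp_sq (Ω : Finset α) (key : α → κ) (f : α → ℝ) :
    ∑ x ∈ Ω, cexp Ω key f x ^ 2 = ∑ x ∈ Ω, f x * cexp Ω key f x := by
  have h := sum_mul_cexp_comm Ω key f (cexp Ω key f)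
  calc ∑ x ∈ Ω, cexp Ω key f x ^ 2 = ∑ x ∈ Ω, cexp Ω key f x * cexp Ω key f x :=
        Finset.sum_congr rfl (fun x _ => by ring)
    _ = ∑ x ∈ Ω, cexp Ω key (cexp Ω key f) x * f x := h
    _ = ∑ x ∈ Ω, f x * cexp Ω key f x :=
        Finset.sum_congr rfl (fun x hx => by rw [cexp_cexp f hx]; ring)

/-- `‖f - Ef‖² = ⟨f, f - Ef⟩`. -/
lemma sum_sub_cexp_sq (Ω : Finset α) (key : α → κ) (f : α → ℝ) :
    ∑ x ∈ Ω, (f x - cexp Ω key f x) ^ 2 = ∑ x ∈ Ω, f x * (f x - cexp Ω key f x) := by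
  have h := sum_cexp_sq Ω key f
  have e1 : ∑ x ∈ Ω, (f x - cexp Ω key f x) ^ 2
      = ∑ x ∈ Ω, f x ^ 2 - 2 * ∑ x ∈ Ω, f x * cexp Ω key f x + ∑ x ∈ Ω, cexp Ω key f x ^ 2 := by
    rw [Finset.mul_sum, ← Finset.sum_sub_distrib, ← Finset.sum_add_distrib]
    exact Finset.sum_congr rfl (fun x _ => by ring)
  have e2 : ∑ x ∈ Ω, f x * (f x - cexp Ω key f x)
      = ∑ x ∈ Ω, f x ^ 2 - ∑ x ∈ Ω, f x * cexp Ω key f x := by
    rw [← Finset.sum_sub_distrib]
    exact Finset.sum_congr rfl (fun x _ => by ring)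
  rw [e1, e2, h]; ring

/-- On a block, `∑ (f - Ef)² = ∑ f² - (∑ f)² / N`: variance form. -/
lemma sum_block_sub_cexp_sq {Ω : Finset α} {key : α → κ} (f : α → ℝ) {x₀ : α} (hx₀ : x₀ ∈ Ω) :
    ∑ y ∈ blockOf Ω key x₀, (f y - cexp Ω key f y) ^ 2
      = ∑ y ∈ blockOf Ω key x₀, f y ^ 2
        - (∑ y ∈ blockOf Ω key x₀, f y) ^ 2 / ((blockOf Ω key x₀).card : ℝ) := by
  have h1 : ∀ y ∈ blockOf Ω key x₀, cexp Ω key f y = cexp Ω key f x₀ := fun y hy =>
    cexp_congr f (mem_blockOf.1 hy).2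
  have hN : ((blockOf Ω key x₀).card : ℝ) ≠ 0 := by
    exact_mod_cast (blockOf_card_pos hx₀).ne'
  have e : ∑ y ∈ blockOf Ω key x₀, (f y - cexp Ω key f y) ^ 2
      = ∑ y ∈ blockOf Ω key x₀, (f y ^ 2 - 2 * cexp Ω key f x₀ * f y + cexp Ω key f x₀ ^ 2) :=
    Finset.sum_congr rfl (fun y hy => by rw [h1 y hy]; ring)
  rw [e, Finset.sum_add_distrib, Finset.sum_sub_distrib, ← Finset.mul_sum, Finset.sum_const,
    nsmul_eq_mul]
  simp only [cexp]
  field_simp
  ring

/-- The defect weight used in the disjoint-pair estimate: for the block of `x` and a predicate `κ`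
on it, with `N₁, N₀` the sizes of `κ`/`¬κ` parts, `S₁, S₀` the sums of `f` on them:
`(N₁ N₀ / N²) (S₁/N₁ - S₀/N₀)²`. -/
def wFun (Ω : Finset α) (key : α → κ) (P : α → Prop) [DecidablePred P] (f : α → ℝ) (x : α) : ℝ :=
  (((blockOf Ω key x).filter P).card * ((blockOf Ω key x).filter (fun y => ¬ P y)).card
      / ((blockOf Ω key x).card : ℝ) ^ 2)
    * ((∑ y ∈ (blockOf Ω key x).filter P, f y) / (((blockOf Ω key x).filter P).card : ℝ)
        - (∑ y ∈ (blockOf Ω key x).filter (fun y => ¬ P y), f y)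
            / (((blockOf Ω key x).filter (fun y => ¬ P y)).card : ℝ)) ^ 2

lemma wFun_congr {Ω : Finset α} {key : α → κ} {P : α → Prop} [DecidablePred P] (f : α → ℝ)
    {x y : α} (h : key x = key y) : wFun Ω key P f x = wFun Ω key P f y := by
  simp [wFun, blockOf_congr h]

end

end Crest.Agent.SW
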