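/-
S0453 project: graph API on `Finset (Edge n)`.  See SWPLAN.md.
-/
import Crest.Prelude.Def_SwitchChain
import Crest.Agent.SWCexp

set_option autoImplicit false
open Finset
open Crest.SwitchChain

namespace Crest.Agent.SW

noncomputable section

open scoped Classical

variable {n : ℕ}

/-- Graphs on `Fin n`, in the representation of the statement. -/
abbrev Gr (n : ℕ) := Finset (Edge n)

/-- Adjacency. -/
def adj (G : Gr n) (u v : Fin n) : Prop :=
  ∃ h : ¬ (s(u, v) : Sym2 (Fin n)).IsDiag, (⟨s(u, v), h⟩ : Edge n) ∈ G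

lemma adj_comm {G : Gr n} {u v : Fin n} : adj G u v ↔ adj G v u := by
  constructor
  · rintro ⟨h, hm⟩
    refine ⟨by simpa [Sym2.eq_swap] using (by rwa [Sym2.eq_swap] at h), ?_⟩
    have : (⟨s(v, u), by rwa [Sym2.eq_swap] at h⟩ : Edge n) = ⟨s(u, v), h⟩ :=
      Subtype.ext Sym2.eq_swap
    rwa [this]
  · rintro ⟨h, hm⟩
    refine ⟨by simpa [Sym2.eq_swap] using (by rwa [Sym2.eq_swap] at h), ?_⟩
    have : (⟨s(u, v), by rwa [Sym2.eq_swap] at h⟩ : Edge n) = ⟨s(v, u), h⟩ :=
      Subtype.ext Sym2.eq_swap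
    rwa [this]

lemma adj_irrefl (G : Gr n) (u : Fin n) : ¬ adj G u u := by
  rintro ⟨h, -⟩
  exact h (by simp)

lemma adj_ne {G : Gr n} {u v : Fin n} (h : adj G u v) : u ≠ v := by
  rintro rfl
  exact adj_irrefl G u h

lemma not_isDiag_of_ne {u v : Fin n} (h : u ≠ v) : ¬ (s(u, v) : Sym2 (Fin n)).IsDiag := by
  simpa using h

/-- The edge with endpoints `u ≠ v`. -/
def mkE (u v : Fin n) (h : u ≠ v) : Edge n := ⟨s(u, v), not_isDiag_of_ne h⟩

lemma adj_iff_mem {G : Gr n} {u v : Fin n} (h : u ≠ v) : adj G u v ↔ mkE u v h ∈ G := by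
  constructor
  · rintro ⟨_, hm⟩; exact hm
  · intro hm; exact ⟨not_isDiag_of_ne h, hm⟩

/-- Every edge has two distinct endpoints. -/
lemma exists_endpoints (e : Edge n) : ∃ (u v : Fin n) (h : u ≠ v), e = mkE u v h := by
  obtain ⟨e, he⟩ := e
  induction e using Sym2.ind with
  | _ u v =>
    have : u ≠ v := by simpa using he
    exact ⟨u, v, this, rfl⟩

lemma mem_iff_adj {G : Gr n} {e : Edge n} {u v : Fin n} (he : e.1 = s(u, v)) :
    e ∈ G ↔ adj G u v := by
  have huv : u ≠ v := by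
    have := e.2
    rw [he] at this
    simpa using this
  rw [adj_iff_mem huv]
  have : e = mkE u v huv := Subtype.ext he
  rw [this]

/-- Extensionality of graphs via adjacency. -/
lemma graph_ext {G H : Gr n} (h : ∀ u v, adj G u v ↔ adj H u v) : G = H := by
  ext e
  obtain ⟨u, v, huv, rfl⟩ := exists_endpoints e
  rw [← adj_iff_mem huv, ← adj_iff_mem huv]
  exact h u v

/-- Neighbours. -/
def nb (G : Gr n) (u : Fin n) : Finset (Fin n) := univ.filter (fun v => adj G u v)

@[simp] lemma mem_nb {G : Gr n} {u v : Fin n} : v ∈ nb G u ↔ adj G u v := by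
  simp [nb]

lemma self_not_mem_nb (G : Gr n) (u : Fin n) : u ∉ nb G u := by
  simp [adj_irrefl]

/-- The degree of the statement is the number of neighbours. -/
lemma deg_eq_card_nb (G : Gr n) (v : Fin n) : deg G v = (nb G v).card := by
  classical
  unfold deg
  symm
  refine Finset.card_bij (fun u hu => mkE v u (adj_ne (mem_nb.1 hu))) ?_ ?_ ?_
  · intro u hu
    have h := mem_nb.1 hu
    simp only [Finset.mem_filter]
    refine ⟨(adj_iff_mem (adj_ne h)).1 h, ?_⟩
    simp [mkE]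
  · intro u hu w hw hEq
    have : (s(v, u) : Sym2 (Fin n)) = s(v, w) := congrArg Subtype.val hEq
    exact (Sym2.congr_right.1 this)
  · intro e he
    simp only [Finset.mem_filter] at he
    obtain ⟨heG, hv⟩ := he
    obtain ⟨u, v', huv, rfl⟩ := exists_endpoints e
    have hv' : v ∈ (s(u, v') : Sym2 (Fin n)) := hv
    rcases Sym2.mem_iff.1 hv' with h | h
    · subst h
      exact ⟨v', mem_nb.2 ((adj_iff_mem huv).2 heG), rfl⟩
    · subst h
      refine ⟨u, mem_nb.2 ?_, ?_⟩
      · exact adj_comm.1 ((adj_iff_mem huv).2 heG)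
      · exact Subtype.ext (by simp [mkE, Sym2.eq_swap])

lemma mem_realizations {D : Fin n → ℕ} {G : Gr n} :
    G ∈ realizations D ↔ ∀ v, (nb G v).card = D v := by
  simp [realizations, deg_eq_card_nb]

/-- Graph from a symmetric relation. -/
def ofRel (r : Fin n → Fin n → Prop) : Gr n :=
  univ.filter (fun e : Edge n => ∃ u v, e.1 = s(u, v) ∧ r u v)

lemma adj_ofRel {r : Fin n → Fin n → Prop} (hr : ∀ u v, r u v → r v u) {u v : Fin n} :
    adj (ofRel r) u v ↔ u ≠ v ∧ r u v := by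
  constructor
  · rintro ⟨h, hm⟩
    have huv : u ≠ v := by simpa using h
    refine ⟨huv, ?_⟩
    simp only [ofRel, Finset.mem_filter, Finset.mem_univ, true_and] at hm
    obtain ⟨x, y, hxy, hr'⟩ := hm
    rcases Sym2.eq_iff.1 hxy with ⟨rfl, rfl⟩ | ⟨rfl, rfl⟩
    · exact hr'
    · exact hr _ _ hr'
  · rintro ⟨huv, hr'⟩
    refine ⟨not_isDiag_of_ne huv, ?_⟩
    simp only [ofRel, Finset.mem_filter, Finset.mem_univ, true_and]
    exact ⟨u, v, rfl, hr'⟩

/-- Replace the rows of the vertices in `U` by the relation `ρ` (used on `U × univ`);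
all other adjacencies stay as in `G`. -/
def patchRel (G : Gr n) (U : Finset (Fin n)) (ρ : Fin n → Fin n → Prop) (u v : Fin n) : Prop :=
  if u ∈ U then ρ u v else if v ∈ U then ρ v u else adj G u v

lemma patchRel_symm {G : Gr n} {U : Finset (Fin n)} {ρ : Fin n → Fin n → Prop}
    (hρ : ∀ u ∈ U, ∀ v ∈ U, ρ u v → ρ v u) (u v : Fin n) :
    patchRel G U ρ u v → patchRel G U ρ v u := by
  unfold patchRel
  by_cases hu : u ∈ U <;> by_cases hv : v ∈ U <;> simp only [hu, hv, if_true, if_false]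
  · exact hρ u hu v hv
  · exact id
  · exact id
  · exact adj_comm.1

/-- The patched graph. -/
def patch (G : Gr n) (U : Finset (Fin n)) (ρ : Fin n → Fin n → Prop) : Gr n :=
  ofRel (patchRel G U ρ)

lemma adj_patch {G : Gr n} {U : Finset (Fin n)} {ρ : Fin n → Fin n → Prop}
    (hρ : ∀ u ∈ U, ∀ v ∈ U, ρ u v → ρ v u) {u v : Fin n} :
    adj (patch G U ρ) u v ↔ u ≠ v ∧ patchRel G U ρ u v :=
  adj_ofRel (patchRel_symm hρ)

lemma adj_patch_mem {G : Gr n} {U : Finset (Fin n)} {ρ : Fin n → Fin n → Prop}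
    (hρ : ∀ u ∈ U, ∀ v ∈ U, ρ u v → ρ v u) {u v : Fin n} (hu : u ∈ U) :
    adj (patch G U ρ) u v ↔ u ≠ v ∧ ρ u v := by
  rw [adj_patch hρ]; simp [patchRel, hu]

lemma adj_patch_not_mem_mem {G : Gr n} {U : Finset (Fin n)} {ρ : Fin n → Fin n → Prop}
    (hρ : ∀ u ∈ U, ∀ v ∈ U, ρ u v → ρ v u) {u v : Fin n} (hu : u ∉ U) (hv : v ∈ U) :
    adj (patch G U ρ) u v ↔ u ≠ v ∧ ρ v u := by
  rw [adj_patch hρ]; simp [patchRel, hu, hv]

lemma adj_patch_not_mem {G : Gr n} {U : Finset (Fin n)} {ρ : Fin n → Fin n → Prop}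
    (hρ : ∀ u ∈ U, ∀ v ∈ U, ρ u v → ρ v u) {u v : Fin n} (hu : u ∉ U) (hv : v ∉ U) :
    adj (patch G U ρ) u v ↔ adj G u v := by
  rw [adj_patch hρ]
  simp only [patchRel, hu, hv, if_false]
  exact ⟨fun h => h.2, fun h => ⟨adj_ne h, h⟩⟩

/-- Key for the `p`-block: the edges avoiding `p`. -/
def keyOff (p : Finset (Fin n)) (G : Gr n) : Gr n := G.filter (fun e => ∀ v ∈ p, v ∉ e.1)

lemma keyOff_eq_iff {p : Finset (Fin n)} {G H : Gr n} :
    keyOff p G = keyOff p H ↔ ∀ u v, u ∉ p → v ∉ p → (adj G u v ↔ adj H u v) := by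
  constructor
  · intro h u v hu hv
    by_cases huv : u = v
    · subst huv
      simp [adj_irrefl]
    rw [adj_iff_mem huv, adj_iff_mem huv]
    have hav : ∀ w ∈ p, w ∉ (mkE u v huv).1 := by
      intro w hw hmem
      rcases Sym2.mem_iff.1 hmem with h' | h'
      · exact hu (h' ▸ hw)
      · exact hv (h' ▸ hw)
    have := Finset.ext_iff.1 h (mkE u v huv)
    simp only [keyOff, Finset.mem_filter] at this
    exact ⟨fun hm => (this.1 ⟨hm, hav⟩).1, fun hm => (this.2 ⟨hm, hav⟩).1⟩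
  · intro h
    ext e
    obtain ⟨u, v, huv, rfl⟩ := exists_endpoints e
    simp only [keyOff, Finset.mem_filter]
    constructor
    · rintro ⟨hm, hav⟩
      have hu : u ∉ p := fun hu => hav u hu (by simp [mkE])
      have hv : v ∉ p := fun hv => hav v hv (by simp [mkE])
      exact ⟨(adj_iff_mem huv).1 ((h u v hu hv).1 ((adj_iff_mem huv).2 hm)), hav⟩
    · rintro ⟨hm, hav⟩
      have hu : u ∉ p := fun hu => hav u hu (by simp [mkE])
      have hv : v ∉ p := fun hv => hav v hv (by simp [mkE])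
      exact ⟨(adj_iff_mem huv).1 ((h u v hu hv).2 ((adj_iff_mem huv).2 hm)), hav⟩

/-! ### The operators on functions on realizations -/

/-- `E_p f`: average over the `p`-block. -/
def Eop (D : Fin n → ℕ) (p : Finset (Fin n)) (f : Gr n → ℝ) (G : Gr n) : ℝ :=
  cexp (realizations D) (keyOff p) f G

/-- `I_p f = f - E_p f`. -/
def Iop (D : Fin n → ℕ) (p : Finset (Fin n)) (f : Gr n → ℝ) (G : Gr n) : ℝ :=
  f G - Eop D p f G

/-! ### Switches -/

/-- The four edges of the 4-cycle `a c b d` (diagonals `ab`, `cd`). -/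
def togSet (a b c d : Fin n) : Gr n :=
  univ.filter (fun e : Edge n =>
    e.1 = s(a, c) ∨ e.1 = s(a, d) ∨ e.1 = s(b, c) ∨ e.1 = s(b, d))

/-- Toggle the 4-cycle with diagonals `ab`, `cd`. -/
def tog (G : Gr n) (a b c d : Fin n) : Gr n := symmDiff G (togSet a b c d)

/-- `G` alternates on the 4-cycle with diagonals `ab`, `cd`: it contains exactly one of the
two perfect matchings `{ac,bd}`, `{ad,bc}` of the cycle and misses the other. -/
def alt (G : Gr n) (a b c d : Fin n) : Prop :=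
  (adj G a c ∧ adj G b d ∧ ¬ adj G a d ∧ ¬ adj G b c) ∨
    (adj G a d ∧ adj G b c ∧ ¬ adj G a c ∧ ¬ adj G b d)

/-- `c, d` are both free columns for the row pair `a, b`. -/
def fr (G : Gr n) (a b c d : Fin n) : Prop :=
  ¬ (adj G a c ↔ adj G b c) ∧ ¬ (adj G a d ↔ adj G b d)

/-- Row `a` has exactly one of `c, d`. -/
def kap (G : Gr n) (a c d : Fin n) : Prop := ¬ (adj G a c ↔ adj G a d)

/-- The sum of squared gradients over the switches of the cycle with diagonals `ab`, `cd`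
(both directions counted). -/
def GG (D : Fin n → ℕ) (f : Gr n → ℝ) (a b c d : Fin n) : ℝ :=
  ∑ G ∈ realizations D, if alt G a b c d then (f G - f (tog G a b c d)) ^ 2 else 0

/-- Per-graph defect weight in the `ab`-block relative to the pair `c, d`. -/
def Wt (D : Fin n → ℕ) (f : Gr n → ℝ) (a b c d : Fin n) (G : Gr n) : ℝ :=
  wFun (realizations D) (keyOff {a, b}) (fun H => kap H a c d) f G

/-- Total defect of the ordered pair of pairs `(ab, cd)`. -/
def YY (D : Fin n → ℕ) (f : Gr n → ℝ) (a b c d : Fin n) : ℝ :=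
  ∑ G ∈ realizations D, if fr G a b c d then Wt D f a b c d G else 0

/-- Ordered pairs `(c, d)`, `c ≠ d`, off `{a, b}`. -/
def pairsOff (a b : Fin n) : Finset (Fin n × Fin n) :=
  univ.filter (fun q => q.1 ≠ q.2 ∧ q.1 ≠ a ∧ q.1 ≠ b ∧ q.2 ≠ a ∧ q.2 ≠ b)

end

end Crest.Agent.SW
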