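/-
S0453 project: basic lemmas on the 4-cycle toggle.
-/
import Crest.Agent.SWCore

set_option autoImplicit false
open Finset
open Crest.SwitchChain

namespace Crest.Agent.SW

noncomputable section

open scoped Classical

variable {n : ℕ}

/-- `{u,v}` is one of the four edges of the cycle. -/
def inCyc (a b c d u v : Fin n) : Prop :=
  (s(u, v) : Sym2 (Fin n)) = s(a, c) ∨ (s(u, v) : Sym2 (Fin n)) = s(a, d) ∨
    (s(u, v) : Sym2 (Fin n)) = s(b, c) ∨ (s(u, v) : Sym2 (Fin n)) = s(b, d)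

lemma adj_tog {G : Gr n} {a b c d : Fin n} (hac : a ≠ c) (had : a ≠ d) (hbc : b ≠ c) (hbd : b ≠ d)
    {u v : Fin n} : adj (tog G a b c d) u v ↔ ¬ (adj G u v ↔ inCyc a b c d u v) := by
  by_cases huv : u = v
  · subst huv
    have h1 : ¬ adj G u u := adj_irrefl G u
    have h2 : ¬ adj (tog G a b c d) u u := adj_irrefl _ u
    have h3 : ¬ inCyc a b c d u u := by
      simp only [inCyc, Sym2.eq_iff]
      rintro (h | h | h | h) <;> rcases h with ⟨rfl, rfl⟩ | ⟨rfl, rfl⟩ <;> simp_all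
    tauto
  · rw [adj_iff_mem huv, adj_iff_mem huv]
    simp only [tog, togSet, Finset.mem_symmDiff, Finset.mem_filter, Finset.mem_univ, true_and, mkE,
      inCyc]
    tauto

section distinct

variable {a b c d : Fin n}

lemma inCyc_a (hab : a ≠ b) (hac : a ≠ c) (had : a ≠ d) (v : Fin n) :
    inCyc a b c d a v ↔ v = c ∨ v = d := by
  simp only [inCyc, Sym2.eq_iff]
  constructor
  · rintro (h | h | h | h) <;> rcases h with ⟨h1, h2⟩ | ⟨h1, h2⟩ <;> simp_all
  · rintro (rfl | rfl) <;> simp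

lemma inCyc_b (hab : a ≠ b) (hbc : b ≠ c) (hbd : b ≠ d) (v : Fin n) :
    inCyc a b c d b v ↔ v = c ∨ v = d := by
  simp only [inCyc, Sym2.eq_iff]
  constructor
  · rintro (h | h | h | h) <;> rcases h with ⟨h1, h2⟩ | ⟨h1, h2⟩ <;> simp_all
  · rintro (rfl | rfl) <;> simp

lemma inCyc_c (hac : a ≠ c) (hbc : b ≠ c) (hcd : c ≠ d) (v : Fin n) :
    inCyc a b c d c v ↔ v = a ∨ v = b := by
  simp only [inCyc, Sym2.eq_iff]
  constructor
  · rintro (h | h | h | h) <;> rcases h with ⟨h1, h2⟩ | ⟨h1, h2⟩ <;> simp_all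
  · rintro (rfl | rfl) <;> simp

lemma inCyc_d (had : a ≠ d) (hbd : b ≠ d) (hcd : c ≠ d) (v : Fin n) :
    inCyc a b c d d v ↔ v = a ∨ v = b := by
  simp only [inCyc, Sym2.eq_iff]
  constructor
  · rintro (h | h | h | h) <;> rcases h with ⟨h1, h2⟩ | ⟨h1, h2⟩ <;> simp_all
  · rintro (rfl | rfl) <;> simp

lemma inCyc_other {u : Fin n} (hua : u ≠ a) (hub : u ≠ b) (huc : u ≠ c) (hud : u ≠ d) (v : Fin n) :
    ¬ inCyc a b c d u v := by
  simp only [inCyc, Sym2.eq_iff]
  rintro (h | h | h | h) <;> rcases h with ⟨h1, h2⟩ | ⟨h1, h2⟩ <;> simp_all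

/-- All six distinctness hypotheses in one. -/
structure Dist4 (a b c d : Fin n) : Prop where
  ab : a ≠ b
  ac : a ≠ c
  ad : a ≠ d
  bc : b ≠ c
  bd : b ≠ d
  cd : c ≠ d

lemma Dist4.swap12 (h : Dist4 a b c d) : Dist4 b a c d :=
  ⟨h.ab.symm, h.bc, h.bd, h.ac, h.ad, h.cd⟩

lemma Dist4.swap34 (h : Dist4 a b c d) : Dist4 a b d c :=
  ⟨h.ab, h.ad, h.ac, h.bd, h.bc, h.cd.symm⟩

lemma Dist4.swapPairs (h : Dist4 a b c d) : Dist4 c d a b :=
  ⟨h.cd, h.ac.symm, h.bc.symm, h.ad.symm, h.bd.symm, h.ab⟩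

lemma togSet_swap12 : togSet b a c d = togSet a b c d := by
  ext e; simp only [togSet, Finset.mem_filter, Finset.mem_univ, true_and]; tauto

lemma togSet_swap34 : togSet a b d c = togSet a b c d := by
  ext e; simp only [togSet, Finset.mem_filter, Finset.mem_univ, true_and]; tauto

lemma togSet_swapPairs : togSet c d a b = togSet a b c d := by
  ext e; simp only [togSet, Finset.mem_filter, Finset.mem_univ, true_and]
  rw [Sym2.eq_swap (a := c) (b := a), Sym2.eq_swap (a := c) (b := b),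
    Sym2.eq_swap (a := d) (b := a), Sym2.eq_swap (a := d) (b := b)]
  tauto

lemma tog_swap12 (G : Gr n) : tog G b a c d = tog G a b c d := by
  simp [tog, togSet_swap12]

lemma tog_swap34 (G : Gr n) : tog G a b d c = tog G a b c d := by
  simp [tog, togSet_swap34]

lemma tog_swapPairs (G : Gr n) : tog G c d a b = tog G a b c d := by
  simp [tog, togSet_swapPairs]

lemma alt_swap12 {G : Gr n} : alt G b a c d ↔ alt G a b c d := by
  simp only [alt]; tauto

lemma alt_swap34 {G : Gr n} : alt G a b d c ↔ alt G a b c d := by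
  simp only [alt]; tauto

lemma alt_swapPairs {G : Gr n} : alt G c d a b ↔ alt G a b c d := by
  simp only [alt, adj_comm (G := G) (u := c), adj_comm (G := G) (u := d)]; tauto

lemma tog_tog (G : Gr n) : tog (tog G a b c d) a b c d = G := by
  simp [tog]

lemma adj_tog_a (h : Dist4 a b c d) {G : Gr n} {v : Fin n} :
    adj (tog G a b c d) a v ↔ ¬ (adj G a v ↔ (v = c ∨ v = d)) := by
  rw [adj_tog h.ac h.ad h.bc h.bd, inCyc_a h.ab h.ac h.ad]

lemma adj_tog_b (h : Dist4 a b c d) {G : Gr n} {v : Fin n} :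
    adj (tog G a b c d) b v ↔ ¬ (adj G b v ↔ (v = c ∨ v = d)) := by
  rw [adj_tog h.ac h.ad h.bc h.bd, inCyc_b h.ab h.bc h.bd]

lemma adj_tog_c (h : Dist4 a b c d) {G : Gr n} {v : Fin n} :
    adj (tog G a b c d) c v ↔ ¬ (adj G c v ↔ (v = a ∨ v = b)) := by
  rw [adj_tog h.ac h.ad h.bc h.bd, inCyc_c h.ac h.bc h.cd]

lemma adj_tog_d (h : Dist4 a b c d) {G : Gr n} {v : Fin n} :
    adj (tog G a b c d) d v ↔ ¬ (adj G d v ↔ (v = a ∨ v = b)) := by
  rw [adj_tog h.ac h.ad h.bc h.bd, inCyc_d h.ad h.bd h.cd]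

lemma adj_tog_other (h : Dist4 a b c d) {G : Gr n} {u v : Fin n}
    (hua : u ≠ a) (hub : u ≠ b) (huc : u ≠ c) (hud : u ≠ d) :
    adj (tog G a b c d) u v ↔ adj G u v := by
  rw [adj_tog h.ac h.ad h.bc h.bd]
  have := inCyc_other (a := a) (b := b) (c := c) (d := d) hua hub huc hud v
  tauto

lemma alt_tog (h : Dist4 a b c d) {G : Gr n} : alt (tog G a b c d) a b c d ↔ alt G a b c d := by
  simp only [alt, adj_tog_a h, adj_tog_b h]
  simp only [true_or, or_true, h.cd, h.cd.symm, iff_true]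
  tauto

/-- Toggling one element of a pair that contains exactly one of `x, y`: cardinality is preserved. -/
lemma card_toggle_pair {N : Finset (Fin n)} {x y : Fin n} (hxy : x ≠ y)
    (h : ¬ (x ∈ N ↔ y ∈ N)) :
    (univ.filter (fun v => ¬ (v ∈ N ↔ (v = x ∨ v = y)))).card = N.card := by
  by_cases hx : x ∈ N
  · have hy : y ∉ N := by tauto
    have : univ.filter (fun v => ¬ (v ∈ N ↔ (v = x ∨ v = y))) = insert y (N.erase x) := by
      ext v
      simp only [Finset.mem_filter, Finset.mem_univ, true_and, Finset.mem_insert, Finset.mem_erase]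
      by_cases hvx : v = x
      · subst hvx; simp [hx, hxy]
      · by_cases hvy : v = y
        · subst hvy; simp [hy]
        · simp [hvx, hvy]
    rw [this, Finset.card_insert_of_notMem (by simp [hy]), Finset.card_erase_of_mem hx]
    have := Finset.card_pos.2 ⟨x, hx⟩
    omega
  · have hy : y ∈ N := by tauto
    have : univ.filter (fun v => ¬ (v ∈ N ↔ (v = x ∨ v = y))) = insert x (N.erase y) := by
      ext v
      simp only [Finset.mem_filter, Finset.mem_univ, true_and, Finset.mem_insert, Finset.mem_erase]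
      by_cases hvx : v = x
      · subst hvx; simp [hx, hxy]
      · by_cases hvy : v = y
        · subst hvy; simp [hy, hvx]
        · simp [hvx, hvy]
    rw [this, Finset.card_insert_of_notMem (by simp [hx]), Finset.card_erase_of_mem hy]
    have := Finset.card_pos.2 ⟨y, hy⟩
    omega

/-- Toggling an alternating cycle preserves the degrees. -/
lemma tog_mem (h : Dist4 a b c d) {D : Fin n → ℕ} {G : Gr n} (hG : G ∈ realizations D)
    (halt : alt G a b c d) : tog G a b c d ∈ realizations D := by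
  rw [mem_realizations] at hG ⊢
  intro v
  rw [← hG v]
  have hcard : ∀ (x y : Fin n), x ≠ y → (¬ (adj G v x ↔ adj G v y)) →
      (∀ w, adj (tog G a b c d) v w ↔ ¬ (adj G v w ↔ (w = x ∨ w = y))) →
      (nb (tog G a b c d) v).card = (nb G v).card := by
    intro x y hxy hne hw
    have := card_toggle_pair (N := nb G v) hxy (by simpa using hne)
    rw [← this]
    congr 1
    ext w
    simp [hw w]
  by_cases hva : v = a
  · subst hva
    refine hcard c d h.cd ?_ (fun w => adj_tog_a h)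
    rcases halt with ⟨h1, h2, h3, h4⟩ | ⟨h1, h2, h3, h4⟩ <;> tauto
  by_cases hvb : v = b
  · subst hvb
    refine hcard c d h.cd ?_ (fun w => adj_tog_b h)
    rcases halt with ⟨h1, h2, h3, h4⟩ | ⟨h1, h2, h3, h4⟩ <;> tauto
  by_cases hvc : v = c
  · subst hvc
    refine hcard a b h.ab ?_ (fun w => adj_tog_c h)
    simp only [adj_comm (G := G) (u := v)]
    rcases halt with ⟨h1, h2, h3, h4⟩ | ⟨h1, h2, h3, h4⟩ <;> tauto
  by_cases hvd : v = d
  · subst hvd
    refine hcard a b h.ab ?_ (fun w => adj_tog_d h)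
    simp only [adj_comm (G := G) (u := v)]
    rcases halt with ⟨h1, h2, h3, h4⟩ | ⟨h1, h2, h3, h4⟩ <;> tauto
  congr 1
  ext w
  simp [adj_tog_other h hva hvb hvc hvd]

/-- Toggling does not change edges avoiding `{a, b}`. -/
lemma keyOff_tog_ab (h : Dist4 a b c d) (G : Gr n) :
    keyOff {a, b} (tog G a b c d) = keyOff {a, b} G := by
  rw [keyOff_eq_iff]
  intro u v hu hv
  simp only [Finset.mem_insert, Finset.mem_singleton, not_or] at hu hv
  rw [adj_tog h.ac h.ad h.bc h.bd]
  have : ¬ inCyc a b c d u v := by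
    simp only [inCyc, Sym2.eq_iff]
    rintro (h' | h' | h' | h') <;> rcases h' with ⟨h1, h2⟩ | ⟨h1, h2⟩ <;> simp_all
  tauto

/-- Toggling does not change edges avoiding `{c, d}`. -/
lemma keyOff_tog_cd (h : Dist4 a b c d) (G : Gr n) :
    keyOff {c, d} (tog G a b c d) = keyOff {c, d} G := by
  rw [keyOff_eq_iff]
  intro u v hu hv
  simp only [Finset.mem_insert, Finset.mem_singleton, not_or] at hu hv
  rw [adj_tog h.ac h.ad h.bc h.bd]
  have : ¬ inCyc a b c d u v := by
    simp only [inCyc, Sym2.eq_iff]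
    rintro (h' | h' | h' | h') <;> rcases h' with ⟨h1, h2⟩ | ⟨h1, h2⟩ <;> simp_all
  tauto

lemma GG_swap12 (D : Fin n → ℕ) (f : Gr n → ℝ) : GG D f b a c d = GG D f a b c d := by
  simp [GG, alt_swap12, tog_swap12]

lemma GG_swap34 (D : Fin n → ℕ) (f : Gr n → ℝ) : GG D f a b d c = GG D f a b c d := by
  simp [GG, alt_swap34, tog_swap34]

lemma GG_swapPairs (D : Fin n → ℕ) (f : Gr n → ℝ) : GG D f c d a b = GG D f a b c d := by
  simp [GG, alt_swapPairs, tog_swapPairs]

lemma GG_nonneg (D : Fin n → ℕ) (f : Gr n → ℝ) : 0 ≤ GG D f a b c d := by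
  refine Finset.sum_nonneg (fun G _ => ?_)
  split_ifs <;> positivity

end distinct

end

end Crest.Agent.SW
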