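/-
S0453 project: connectivity of the switch graph.  See SWPLAN.md, piece CONN.
-/
import Crest.Agent.SWTog

set_option autoImplicit false
set_option linter.unusedSimpArgs false
set_option linter.unusedSectionVars false
set_option linter.unusedVariables false
open Finset
open Crest.SwitchChain

namespace Crest.Agent.SW

noncomputable section

open scoped Classical

variable {n : ℕ}

/-- `G`, `H` agree on all edges touching `U`. -/
def Agree (U : Finset (Fin n)) (G H : Gr n) : Prop := ∀ x, ∀ y ∈ U, (adj G x y ↔ adj H x y)

lemma Agree.symm {U : Finset (Fin n)} {G H : Gr n} (h : Agree U G H) : Agree U H G :=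
  fun x y hy => (h x y hy).symm

lemma Agree.trans {U : Finset (Fin n)} {G H K : Gr n} (h : Agree U G H) (h' : Agree U H K) :
    Agree U G K := fun x y hy => (h x y hy).trans (h' x y hy)

/-- The number of neighbours off `U` is determined by the degree when edges touching `U` agree. -/
lemma card_off {D : Fin n → ℕ} {U : Finset (Fin n)} {G H : Gr n} (hG : G ∈ realizations D)
    (hH : H ∈ realizations D) (hA : Agree U G H) (x : Fin n) :
    (nb G x \ U).card = (nb H x \ U).card := by
  have h1 : nb G x ∩ U = nb H x ∩ U := by
    ext y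
    simp only [Finset.mem_inter, mem_nb]
    constructor
    · rintro ⟨h, hy⟩
      exact ⟨(hA x y hy).1 h, hy⟩
    · rintro ⟨h, hy⟩
      exact ⟨(hA x y hy).2 h, hy⟩
  have h2 := Finset.card_sdiff_add_card_inter (nb G x) U
  have h3 := Finset.card_sdiff_add_card_inter (nb H x) U
  rw [h1] at h2
  have h4 := (mem_realizations.1 hG) x
  have h5 := (mem_realizations.1 hH) x
  omega

/-- One switch step: moves `G` towards `H` at the vertex `v`. -/
lemma step {D : Fin n → ℕ} (φ : Gr n → ℝ)
    (hφ : ∀ G ∈ realizations D, ∀ a b c d : Fin n, Dist4 a b c d → alt G a b c d →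
      φ (tog G a b c d) = φ G)
    {U : Finset (Fin n)} {G H : Gr n} (hG : G ∈ realizations D) (hA : Agree U G H)
    {v u w : Fin n} (hv : v ∉ U) (hu : adj G v u) (hu' : ¬ adj H v u) (hw : adj H v w)
    (hw' : ¬ adj G v w) (hdeg : (nb G u \ U).card ≤ (nb G w \ U).card) :
    ∃ G' ∈ realizations D, φ G' = φ G ∧ Agree U G' H ∧ nb G' v = insert w ((nb G v).erase u) := by
  have huU : u ∉ U := fun h => hu' ((hA v u h).1 hu)
  have hwU : w ∉ U := fun h => hw' ((hA v w h).2 hw)
  have hvu : v ≠ u := adj_ne hu
  have hvw : v ≠ w := adj_ne hw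
  have huw : u ≠ w := by
    rintro rfl
    exact hw' hu
  set A := (nb G u \ U).erase w with hAdef
  set B := (nb G w \ U).erase u with hBdef
  have hcard : A.card ≤ B.card := by
    by_cases huw' : adj G u w
    · have h1 : w ∈ nb G u \ U := by simp [huw', hwU]
      have h2 : u ∈ nb G w \ U := by simp [adj_comm.1 huw', huU]
      rw [hAdef, hBdef, Finset.card_erase_of_mem h1, Finset.card_erase_of_mem h2]
      omega
    · have h1 : w ∉ nb G u \ U := by simp [huw']
      have h2 : u ∉ nb G w \ U := by
        simp only [Finset.mem_sdiff, mem_nb, not_and, not_not]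
        intro h
        exact absurd (adj_comm.1 h) huw'
      rw [hAdef, hBdef, Finset.erase_eq_of_notMem h1, Finset.erase_eq_of_notMem h2]
      exact hdeg
  have hvA : v ∈ A := by
    simp only [hAdef, Finset.mem_erase, Finset.mem_sdiff, mem_nb]
    exact ⟨hvw, adj_comm.1 hu, hv⟩
  have hvB : v ∉ B := by
    simp only [hBdef, Finset.mem_erase, Finset.mem_sdiff, mem_nb, not_and]
    intro _ h
    exact absurd (adj_comm.1 h) hw'
  obtain ⟨x, hxB, hxA⟩ : ∃ x ∈ B, x ∉ A := by
    by_contra hcon
    push Not at hcon
    have hsub : B ⊂ A := by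
      refine ⟨hcon, fun hh => hvB (hh hvA)⟩
    have := Finset.card_lt_card hsub
    omega
  have hxu : x ≠ u := (Finset.mem_erase.1 hxB).1
  have hxw' : adj G w x := by
    have := (Finset.mem_erase.1 hxB).2
    simpa using (Finset.mem_sdiff.1 this).1
  have hxU : x ∉ U := (Finset.mem_sdiff.1 (Finset.mem_erase.1 hxB).2).2
  have hxw : x ≠ w := (adj_ne hxw').symm
  have hux : ¬ adj G u x := by
    intro h
    apply hxA
    simp only [hAdef, Finset.mem_erase, Finset.mem_sdiff, mem_nb]
    exact ⟨hxw, h, hxU⟩
  have hvx : v ≠ x := by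
    rintro rfl
    exact hvB hxB
  have hD : Dist4 v x u w := ⟨hvx, hvu, hvw, hxu, hxw, huw⟩
  have halt : alt G v x u w := by
    left
    exact ⟨hu, adj_comm.1 hxw', hw', fun h => hux (adj_comm.1 h)⟩
  refine ⟨tog G v x u w, tog_mem hD hG halt, hφ G hG _ _ _ _ hD halt, ?_, ?_⟩
  · intro z y hy
    have hyv : y ≠ v := fun h => hv (h ▸ hy)
    have hyx : y ≠ x := fun h => hxU (h ▸ hy)
    have hyu : y ≠ u := fun h => huU (h ▸ hy)
    have hyw : y ≠ w := fun h => hwU (h ▸ hy)
    rw [adj_comm, adj_tog_other hD hyv hyx hyu hyw, adj_comm]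
    exact hA z y hy
  · ext z
    simp only [mem_nb, Finset.mem_insert, Finset.mem_erase, adj_tog_a hD]
    by_cases hzu : z = u
    · subst hzu
      simp [hu, huw]
    · by_cases hzw : z = w
      · subst hzw
        simp [hw', hzu]
      · simp [hzu, hzw]

lemma symm_lt {N M : Finset (Fin n)} {u w : Fin n} (hu : u ∈ N) (hu' : u ∉ M) (hw : w ∈ M)
    (hw' : w ∉ N) : (symmDiff (insert w (N.erase u)) M).card < (symmDiff N M).card := by
  apply Finset.card_lt_card
  have huw : u ≠ w := by
    rintro rfl
    exact hw' hu
  refine ⟨?_, ?_⟩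
  · intro z hz
    simp only [Finset.mem_symmDiff, Finset.mem_insert, Finset.mem_erase] at hz ⊢
    by_cases hzw : z = w
    · subst hzw
      tauto
    · by_cases hzu : z = u
      · subst hzu
        tauto
      · tauto
  · intro hh
    have : u ∈ symmDiff (insert w (N.erase u)) M := by
      apply hh
      simp [Finset.mem_symmDiff, hu, hu']
    simp [Finset.mem_symmDiff, hu', huw] at this

/-- A function invariant under all switches is constant on the realizations. -/
theorem conn_of_tog (D : Fin n → ℕ) (φ : Gr n → ℝ)
    (hφ : ∀ G ∈ realizations D, ∀ a b c d : Fin n, Dist4 a b c d → alt G a b c d →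
      φ (tog G a b c d) = φ G)
    (k : ℕ) : ∀ U : Finset (Fin n), Uᶜ.card = k → ∀ G ∈ realizations D, ∀ H ∈ realizations D,
      Agree U G H → φ G = φ H := by
  induction k with
  | zero =>
    intro U hU G _ H _ hA
    have hU' : U = univ := by
      rw [Finset.card_eq_zero, Finset.compl_eq_empty_iff] at hU
      exact hU
    subst hU'
    rw [graph_ext (fun u v => hA u v (Finset.mem_univ v))]
  | succ k ih =>
    intro U hU
    obtain ⟨v, hvc⟩ : Uᶜ.Nonempty := by
      rw [← Finset.card_pos]
      omega
    have hv : v ∉ U := Finset.mem_compl.1 hvc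
    have hinsert : (insert v U)ᶜ.card = k := by
      have : (insert v U)ᶜ = Uᶜ.erase v := by
        ext z
        simp only [Finset.mem_compl, Finset.mem_insert, Finset.mem_erase, not_or, ne_eq]
      rw [this, Finset.card_erase_of_mem hvc, hU]
      rfl
    have main : ∀ m : ℕ, ∀ G ∈ realizations D, ∀ H ∈ realizations D, Agree U G H →
        (symmDiff (nb G v) (nb H v)).card = m → φ G = φ H := by
      intro m
      induction m using Nat.strong_induction_on with
      | _ m ihm =>
        intro G hG H hH hA hm
        by_cases heq : nb G v = nb H v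
        · refine ih (insert v U) hinsert G hG H hH ?_
          intro x y hy
          rcases Finset.mem_insert.1 hy with rfl | hy
          · rw [adj_comm (G := G), adj_comm (G := H), ← mem_nb, ← mem_nb, heq]
          · exact hA x y hy
        · have hcv : (nb G v).card = (nb H v).card := by
            rw [mem_realizations.1 hG v, mem_realizations.1 hH v]
          obtain ⟨u, hu, hu'⟩ : ∃ u ∈ nb G v, u ∉ nb H v := by
            by_contra hcon
            push Not at hcon
            exact heq (Finset.eq_of_subset_of_card_le hcon hcv.ge)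
          obtain ⟨w, hw, hw'⟩ : ∃ w ∈ nb H v, w ∉ nb G v := by
            by_contra hcon
            push Not at hcon
            exact heq (Finset.eq_of_subset_of_card_le hcon hcv.le).symm
          rw [mem_nb] at hu hw hu' hw'
          by_cases hdeg : (nb G u \ U).card ≤ (nb G w \ U).card
          · obtain ⟨G', hG', hφ', hA', hnb⟩ := step φ hφ hG hA hv hu hu' hw hw' hdeg
            rw [← hφ']
            refine ihm _ ?_ G' hG' H hH hA' rfl
            rw [← hm, hnb]
            exact symm_lt (mem_nb.2 hu) (by simpa using hu') (mem_nb.2 hw) (by simpa using hw')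
          · have hdeg' : (nb H w \ U).card ≤ (nb H u \ U).card := by
              rw [← card_off hG hH hA, ← card_off hG hH hA]
              omega
            obtain ⟨H', hH', hφ', hA', hnb⟩ := step φ hφ hH hA.symm hv hw hw' hu hu' hdeg'
            rw [← hφ']
            refine ihm _ ?_ G hG H' hH' hA'.symm rfl
            rw [← hm, hnb, symmDiff_comm, symmDiff_comm (nb G v)]
            exact symm_lt (mem_nb.2 hw) (by simpa using hw') (mem_nb.2 hu) (by simpa using hu')
    intro G hG H hH hA
    exact main _ G hG H hH hA rfl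

/-- A function invariant under all row-pair blocks is constant on the realizations. -/
theorem conn (D : Fin n → ℕ) (φ : Gr n → ℝ)
    (h : ∀ a b : Fin n, a ≠ b → ∀ G ∈ realizations D, Iop D {a, b} φ G = 0)
    {G H : Gr n} (hG : G ∈ realizations D) (hH : H ∈ realizations D) : φ G = φ H := by
  have hφ : ∀ G ∈ realizations D, ∀ a b c d : Fin n, Dist4 a b c d → alt G a b c d →
      φ (tog G a b c d) = φ G := by
    intro G hG a b c d hD halt
    have h1 := h a b hD.ab G hG
    have h2 := h a b hD.ab _ (tog_mem hD hG halt)
    unfold Iop Eop at h1 h2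
    rw [cexp_congr φ (keyOff_tog_ab hD G)] at h2
    linarith
  refine conn_of_tog D φ hφ _ ∅ rfl G hG H hH ?_
  intro x y hy
  simp at hy

end

end Crest.Agent.SW
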