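/-
S0453 project: spectral theorem in the form used (abstract).  See SWPLAN.md, piece SPEC.
-/
import Mathlib

set_option autoImplicit false
open Finset

namespace Crest.Agent.SW

set_option linter.unusedSectionVars false

variable {S : Type*} [Fintype S] [DecidableEq S]

/-- Orthonormal eigen-expansion of `f` for a symmetric operator on `S → ℝ`. -/
theorem spectral_expansion (T : (S → ℝ) →ₗ[ℝ] (S → ℝ))
    (hT : ∀ f g : S → ℝ, ∑ x, f x * T g x = ∑ x, T f x * g x) (f : S → ℝ) :
    ∃ (ι : Type) (_ : Fintype ι) (_ : DecidableEq ι) (c lam : ι → ℝ) (φ : ι → S → ℝ),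
      (∀ i, φ i ≠ 0) ∧ (∀ i, T (φ i) = lam i • φ i) ∧
      (∀ i j, ∑ x, φ i x * φ j x = if i = j then 1 else 0) ∧
      (∀ x, f x = ∑ i, c i * φ i x) := by
  classical
  set A : Matrix S S ℝ := LinearMap.toMatrix' T with hA
  have hHerm : A.IsHermitian := by
    ext i j
    simp only [Matrix.conjTranspose_apply, star_trivial]
    have h := hT (Pi.single j 1) (Pi.single i 1)
    have h1 : ∑ x, (Pi.single j (1:ℝ) : S → ℝ) x * T (Pi.single i 1) x = T (Pi.single i 1) j := by
      rw [Finset.sum_eq_single j]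
      · simp
      · intro b _ hb; simp [Pi.single_eq_of_ne hb]
      · simp
    have h2 : ∑ x, T (Pi.single j (1:ℝ) : S → ℝ) x * (Pi.single i 1 : S → ℝ) x = T (Pi.single j 1) i := by
      rw [Finset.sum_eq_single i]
      · simp
      · intro b _ hb; simp [Pi.single_eq_of_ne hb]
      · simp
    rw [h1, h2] at h
    simp only [hA, LinearMap.toMatrix'_apply]
    exact h
  let e := Fintype.equivFin S
  let B := hHerm.eigenvectorBasis
  let φ : Fin (Fintype.card S) → S → ℝ := fun i x => (B (e.symm i)) x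
  let lam : Fin (Fintype.card S) → ℝ := fun i => hHerm.eigenvalues (e.symm i)
  have horth : ∀ i j, ∑ x, φ i x * φ j x = if i = j then 1 else 0 := by
    intro i j
    have h := (orthonormal_iff_ite.1 B.orthonormal) (e.symm i) (e.symm j)
    rw [PiLp.inner_apply] at h
    simp only [RCLike.inner_apply, conj_trivial] at h
    have e3 : (e.symm i = e.symm j) ↔ i = j := e.symm.apply_eq_iff_eq
    simp only [e3] at h
    rw [← h]
    refine Finset.sum_congr rfl (fun x _ => ?_)
    simp only [φ]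
    ring
  refine ⟨Fin (Fintype.card S), inferInstance, inferInstance,
    fun i => ∑ x, f x * φ i x, lam, φ, ?_, ?_, horth, ?_⟩
  · intro i h0
    have h := horth i i
    rw [h0] at h
    simp at h
  · intro i
    have h := hHerm.mulVec_eigenvectorBasis (e.symm i)
    have h2 : T (φ i) = A.mulVec (φ i) := by
      rw [hA, LinearMap.toMatrix'_mulVec]
    rw [h2]
    exact h
  · intro x
    let F : EuclideanSpace ℝ S := WithLp.toLp 2 f
    have hsum := B.sum_repr F
    have hx := congrArg (fun v : EuclideanSpace ℝ S => v x) hsum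
    simp only [F] at hx
    have hrep : ∀ i : S, B.repr F i = ∑ y, f y * (B i) y := by
      intro i
      rw [OrthonormalBasis.repr_apply_apply, PiLp.inner_apply]
      simp only [RCLike.inner_apply, conj_trivial, F]
    have hx2 : f x = ∑ i : S, (∑ y, f y * (B i) y) * (B i) x := by
      rw [← hx]
      simp only [WithLp.ofLp_sum, Finset.sum_apply, PiLp.smul_apply, smul_eq_mul]
      refine Finset.sum_congr rfl (fun i _ => ?_)
      rw [← hrep]
    rw [hx2]
    exact (Equiv.sum_comp e.symm (fun i : S => (∑ y, f y * (B i) y) * (B i) x)).symm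

/-- Bilinear form of two expansions in an orthonormal family. -/
lemma sum_expansion_mul {ι : Type} [Fintype ι] [DecidableEq ι] (φ : ι → S → ℝ)
    (horth : ∀ i j, ∑ x, φ i x * φ j x = if i = j then 1 else 0) (a b : ι → ℝ) :
    ∑ x, (∑ i, a i * φ i x) * (∑ j, b j * φ j x) = ∑ i, a i * b i := by
  calc ∑ x, (∑ i, a i * φ i x) * (∑ j, b j * φ j x)
      = ∑ x, ∑ i, ∑ j, a i * b j * (φ i x * φ j x) := by
        refine Finset.sum_congr rfl (fun x _ => ?_)
        rw [Finset.sum_mul_sum]
        refine Finset.sum_congr rfl (fun i _ => Finset.sum_congr rfl (fun j _ => ?_))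
        ring
    _ = ∑ i, ∑ j, a i * b j * ∑ x, φ i x * φ j x := by
        rw [Finset.sum_comm]
        refine Finset.sum_congr rfl (fun i _ => ?_)
        rw [Finset.sum_comm]
        refine Finset.sum_congr rfl (fun j _ => ?_)
        rw [Finset.mul_sum]
    _ = ∑ i, a i * b i := by
        refine Finset.sum_congr rfl (fun i _ => ?_)
        simp only [horth]
        simp

/-- `T f` in the eigen-expansion. -/
lemma T_expansion {ι : Type} [Fintype ι] (T : (S → ℝ) →ₗ[ℝ] (S → ℝ)) (c lam : ι → ℝ)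
    (φ : ι → S → ℝ) (hφ : ∀ i, T (φ i) = lam i • φ i) (f : S → ℝ)
    (hf : ∀ x, f x = ∑ i, c i * φ i x) (x : S) :
    T f x = ∑ i, (lam i * c i) * φ i x := by
  have h1 : f = ∑ i, c i • φ i := by
    ext y
    simp only [Finset.sum_apply, Pi.smul_apply, smul_eq_mul]
    exact hf y
  rw [h1, map_sum]
  simp only [map_smul, hφ, Finset.sum_apply, Pi.smul_apply, smul_eq_mul]
  refine Finset.sum_congr rfl (fun i _ => ?_)
  ring

/-- If a quadratic polynomial is nonnegative on all eigenvalues of `T`, the corresponding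
quadratic form in `T` is nonnegative. -/
theorem quad_nonneg_of_eigen (T : (S → ℝ) →ₗ[ℝ] (S → ℝ))
    (hT : ∀ f g : S → ℝ, ∑ x, f x * T g x = ∑ x, T f x * g x) (α β γ : ℝ)
    (h : ∀ (lam : ℝ) (φ : S → ℝ), φ ≠ 0 → T φ = lam • φ → 0 ≤ α * lam ^ 2 + β * lam + γ)
    (f : S → ℝ) :
    0 ≤ α * ∑ x, (T f x) ^ 2 + β * ∑ x, f x * T f x + γ * ∑ x, f x ^ 2 := by
  classical
  obtain ⟨ι, _, _, c, lam, φ, hne, hφ, horth, hf⟩ := spectral_expansion T hT f
  have hTf := T_expansion T c lam φ hφ f hf
  have e1 : ∑ x, (T f x) ^ 2 = ∑ i, (lam i * c i) * (lam i * c i) := by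
    rw [← sum_expansion_mul φ horth]
    refine Finset.sum_congr rfl (fun x _ => ?_)
    rw [hTf, sq]
  have e2 : ∑ x, f x * T f x = ∑ i, c i * (lam i * c i) := by
    rw [← sum_expansion_mul φ horth]
    refine Finset.sum_congr rfl (fun x _ => ?_)
    rw [hTf, hf]
  have e3 : ∑ x, f x ^ 2 = ∑ i, c i * c i := by
    rw [← sum_expansion_mul φ horth]
    refine Finset.sum_congr rfl (fun x _ => ?_)
    rw [hf, sq]
  rw [e1, e2, e3, Finset.mul_sum, Finset.mul_sum, Finset.mul_sum, ← Finset.sum_add_distrib,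
    ← Finset.sum_add_distrib]
  refine Finset.sum_nonneg (fun i _ => ?_)
  have h4 := h (lam i) (φ i) (hne i) (hφ i)
  have : α * (lam i * c i * (lam i * c i)) + β * (c i * (lam i * c i)) + γ * (c i * c i)
      = (α * lam i ^ 2 + β * lam i + γ) * c i ^ 2 := by ring
  rw [this]
  positivity

/-- Spectral gap 1 + kernel = constants gives the Poincare inequality. -/
theorem poincare_of_eigen (T : (S → ℝ) →ₗ[ℝ] (S → ℝ))
    (hT : ∀ f g : S → ℝ, ∑ x, f x * T g x = ∑ x, T f x * g x)
    (h : ∀ (lam : ℝ) (φ : S → ℝ), φ ≠ 0 → T φ = lam • φ → lam = 0 ∨ 1 ≤ lam)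
    (h0 : ∀ φ : S → ℝ, T φ = 0 → ∀ x y, φ x = φ y) (f : S → ℝ) :
    ∑ x, f x ^ 2 - (∑ x, f x) ^ 2 / (Fintype.card S : ℝ) ≤ ∑ x, f x * T f x := by
  classical
  obtain ⟨ι, _, _, c, lam, φ, hne, hφ, horth, hf⟩ := spectral_expansion T hT f
  have hTf := T_expansion T c lam φ hφ f hf
  have e2 : ∑ x, f x * T f x = ∑ i, c i * (lam i * c i) := by
    rw [← sum_expansion_mul φ horth]
    refine Finset.sum_congr rfl (fun x _ => ?_)
    rw [hTf, hf]
  have e3 : ∑ x, f x ^ 2 = ∑ i, c i * c i := by
    rw [← sum_expansion_mul φ horth]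
    refine Finset.sum_congr rfl (fun x _ => ?_)
    rw [hf, sq]
  -- the zero part
  set c0 : ι → ℝ := fun i => if lam i = 0 then c i else 0 with hc0
  set g : S → ℝ := fun x => ∑ i, c0 i * φ i x with hg
  have hconst : ∀ x y, g x = g y := by
    have hTg : T g = 0 := by
      ext y
      rw [T_expansion T c0 lam φ hφ g (fun x => rfl) y]
      simp only [Pi.zero_apply]
      refine Finset.sum_eq_zero (fun i _ => ?_)
      by_cases hi : lam i = 0
      · simp [hi]
      · simp [hc0, hi]
    exact h0 g hTg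
  have hA1 : ∑ x, f x * g x = ∑ i, c i * c0 i := by
    rw [← sum_expansion_mul φ horth]
    refine Finset.sum_congr rfl (fun x _ => ?_)
    rw [hf, hg]
  have hA2 : ∑ x, g x * g x = ∑ i, c0 i * c0 i := by
    rw [← sum_expansion_mul φ horth]
  set A := ∑ i, c i * c0 i with hA
  have hA3 : ∑ i, c0 i * c0 i = A := by
    rw [hA]
    refine Finset.sum_congr rfl (fun i _ => ?_)
    by_cases hi : lam i = 0 <;> simp [hc0, hi]
  have hmain : ∑ i, c i * c i - A ≤ ∑ i, c i * (lam i * c i) := by
    rw [hA, ← Finset.sum_sub_distrib]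
    refine Finset.sum_le_sum (fun i _ => ?_)
    rcases h (lam i) (φ i) (hne i) (hφ i) with hi | hi
    · simp [hc0, hi]
    · have hi0 : lam i ≠ 0 := by linarith
      simp only [hc0, hi0, if_false]
      have : 0 ≤ (lam i - 1) * c i ^ 2 := mul_nonneg (by linarith) (sq_nonneg _)
      nlinarith
  have hvar : A ≤ (∑ x, f x) ^ 2 / (Fintype.card S : ℝ) := by
    rcases isEmpty_or_nonempty S with hS | ⟨⟨x0⟩⟩
    · have hf0 : ∑ x, f x * g x = 0 := by simp
      rw [← hA1, hf0]
      simp
    · have hcard : (0:ℝ) < Fintype.card S := by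
        exact_mod_cast Fintype.card_pos_iff.2 ⟨x0⟩
      set κ := g x0 with hκ
      have hg' : ∀ x, g x = κ := fun x => hconst x x0
      have h1 : A = κ * ∑ x, f x := by
        rw [← hA1, Finset.mul_sum]
        refine Finset.sum_congr rfl (fun x _ => ?_)
        rw [hg']; ring
      have h2 : A = κ ^ 2 * (Fintype.card S : ℝ) := by
        rw [← hA3, ← hA2]
        simp only [hg']
        simp [Finset.card_univ]
        ring
      rw [le_div_iff₀ hcard]
      have h3 : 0 ≤ (∑ x, f x - κ * (Fintype.card S : ℝ)) ^ 2 := sq_nonneg _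
      have h4 : (∑ x, f x - κ * (Fintype.card S : ℝ)) ^ 2 =
          (∑ x, f x) ^ 2 - 2 * (κ * ∑ x, f x) * (Fintype.card S : ℝ)
            + (κ ^ 2 * (Fintype.card S : ℝ)) * (Fintype.card S : ℝ) := by ring
      rw [h4, ← h1, ← h2] at h3
      nlinarith
  rw [e2, e3]
  rw [← e3]
  have : ∑ x, f x ^ 2 - A ≤ ∑ i, c i * (lam i * c i) := by rw [e3]; exact hmain
  linarith

end Crest.Agent.SW
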