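/-
S0453 project: the 3 x N matrix lemma (abstract).  See SWPLAN.md, piece 3N.
-/
import Crest.Agent.SWSpec
import Crest.Agent.SWCexp

set_option autoImplicit false
open Finset

namespace Crest.Agent.SW

noncomputable section

variable {C : Type*} [Fintype C] [DecidableEq C]

/-- Configurations: three rows, each a set of columns. -/
abbrev Cfg (C : Type*) := Fin 3 → Finset C

/-- 3 × N binary matrices with row sums `R` and column sums `s`. -/
def Mset (R : Fin 3 → ℕ) (s : C → ℕ) : Finset (Cfg C) :=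
  univ.filter (fun x => (∀ i, (x i).card = R i) ∧ ∀ v, (univ.filter (fun i => v ∈ x i)).card = s v)

namespace TR

/-- Three distinct rows. -/
def Tri (a b c : Fin 3) : Prop := a ≠ b ∧ a ≠ c ∧ b ≠ c

lemma Tri.all {a b c : Fin 3} (h : Tri a b c) : ∀ i, i = a ∨ i = b ∨ i = c := by
  revert a b c; unfold Tri; decide

lemma Tri.swap23 {a b c : Fin 3} (h : Tri a b c) : Tri a c b := ⟨h.2.1, h.1, h.2.2.symm⟩
lemma Tri.swap12 {a b c : Fin 3} (h : Tri a b c) : Tri b a c := ⟨h.1.symm, h.2.2, h.2.1⟩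

lemma exists_third (a b : Fin 3) (h : a ≠ b) : ∃ c, Tri a b c := by
  revert a b; unfold Tri; decide

lemma exists_tri_third (c : Fin 3) : ∃ a b, Tri a b c := by
  revert c; unfold Tri; decide

lemma Tri.univ_eq {a b c : Fin 3} (h : Tri a b c) : (univ : Finset (Fin 3)) = {a, b, c} := by
  ext i
  simpa using h.all i

lemma Tri.sum {a b c : Fin 3} (h : Tri a b c) (g : Fin 3 → ℝ) :
    ∑ i, g i = g a + g b + g c := by
  rw [h.univ_eq, sum_insert (by simp [h.1, h.2.1]), sum_insert (by simp [h.2.2]), sum_singleton]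
  ring

/-- Membership indicator. -/
def ci (y : Cfg C) (m : Fin 3) (v : C) : ℕ := if v ∈ y m then 1 else 0

lemma ci_pos {y : Cfg C} {m : Fin 3} {v : C} (h : v ∈ y m) : ci y m v = 1 := by simp [ci, h]
lemma ci_neg {y : Cfg C} {m : Fin 3} {v : C} (h : v ∉ y m) : ci y m v = 0 := by simp [ci, h]
lemma ci_le (y : Cfg C) (m : Fin 3) (v : C) : ci y m v ≤ 1 := by unfold ci; split_ifs <;> omega
lemma mem_of_ci {y : Cfg C} {m : Fin 3} {v : C} (h : 1 ≤ ci y m v) : v ∈ y m := by
  by_contra hh; rw [ci_neg hh] at h; omega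
lemma not_mem_of_ci {y : Cfg C} {m : Fin 3} {v : C} (h : ci y m v = 0) : v ∉ y m := by
  intro hh; rw [ci_pos hh] at h; omega

lemma col_tri {a b c : Fin 3} (T : Tri a b c) (y : Cfg C) (v : C) :
    (univ.filter (fun i => v ∈ y i)).card = ci y a v + ci y b v + ci y c v := by
  rw [Finset.card_filter, T.univ_eq, sum_insert (by simp [T.1, T.2.1]),
    sum_insert (by simp [T.2.2]), sum_singleton]
  simp only [ci]
  omega

variable {R : Fin 3 → ℕ} {s : C → ℕ}

lemma mem_Mset {x : Cfg C} : x ∈ Mset R s ↔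
    (∀ i, (x i).card = R i) ∧ ∀ v, (univ.filter (fun i => v ∈ x i)).card = s v := by
  simp [Mset]

lemma col {a b c : Fin 3} (T : Tri a b c) {y : Cfg C} (hy : y ∈ Mset R s) (v : C) :
    ci y a v + ci y b v + ci y c v = s v := by
  rw [← col_tri T]; exact (mem_Mset.1 hy).2 v

lemma row_card {y : Cfg C} (hy : y ∈ Mset R s) (i : Fin 3) : (y i).card = R i :=
  (mem_Mset.1 hy).1 i

lemma mk_mem {a b c : Fin 3} (T : Tri a b c) {y : Cfg C} (hr : ∀ i, (y i).card = R i)
    (hc : ∀ v, ci y a v + ci y b v + ci y c v = s v) : y ∈ Mset R s := by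
  refine mem_Mset.2 ⟨hr, fun v => ?_⟩
  rw [col_tri T]; exact hc v

lemma cfg_ext {a b c : Fin 3} (T : Tri a b c) {y z : Cfg C} (ha : ∀ v, v ∈ y a ↔ v ∈ z a)
    (hb : ∀ v, v ∈ y b ↔ v ∈ z b) (hc : ∀ v, v ∈ y c ↔ v ∈ z c) : y = z := by
  funext i
  ext v
  rcases T.all i with rfl | rfl | rfl
  · exact ha v
  · exact hb v
  · exact hc v

/-- Row-wise column permutation. -/
def rp (σ : Fin 3 → Equiv.Perm C) (y : Cfg C) : Cfg C := fun m => (y m).map (σ m).toEmbedding

lemma card_rp (σ : Fin 3 → Equiv.Perm C) (y : Cfg C) (m : Fin 3) : (rp σ y m).card = (y m).card :=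
  card_map _

lemma mem_rp {σ : Fin 3 → Equiv.Perm C} {y : Cfg C} {m : Fin 3} {v : C} :
    v ∈ rp σ y m ↔ (σ m).symm v ∈ y m := Finset.mem_map_equiv

open Equiv in
/-- Column transposition. -/
def tau (j k : C) (y : Cfg C) : Cfg C := rp (fun _ => swap j k) y

open Equiv in
/-- Swap columns `j,k` in rows `a,b` only. -/
def sw (a b : Fin 3) (j k : C) (y : Cfg C) : Cfg C :=
  rp (fun m => if m = a ∨ m = b then swap j k else 1) y

open Equiv in
/-- The three-row move. -/
def cyc (a b : Fin 3) (i j k : C) (y : Cfg C) : Cfg C :=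
  rp (fun m => if m = a then swap j k else if m = b then swap i j else swap i k) y

open Equiv

lemma mem_tau {j k v : C} {y : Cfg C} {m : Fin 3} : v ∈ tau j k y m ↔ swap j k v ∈ y m := by
  simp [tau, mem_rp]

lemma mem_sw_a {a b : Fin 3} {j k v : C} {y : Cfg C} : v ∈ sw a b j k y a ↔ swap j k v ∈ y a := by
  simp [sw, mem_rp]

lemma mem_sw_b {a b : Fin 3} {j k v : C} {y : Cfg C} : v ∈ sw a b j k y b ↔ swap j k v ∈ y b := by
  simp [sw, mem_rp]

lemma mem_sw_c {a b m : Fin 3} {j k v : C} {y : Cfg C} (h1 : m ≠ a) (h2 : m ≠ b) :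
    v ∈ sw a b j k y m ↔ v ∈ y m := by
  have : (if m = a ∨ m = b then swap j k else 1 : Equiv.Perm C) = 1 := by simp [h1, h2]
  rw [sw, mem_rp]
  simp only [this]
  rfl

lemma sw_c {a b m : Fin 3} {j k : C} {y : Cfg C} (h1 : m ≠ a) (h2 : m ≠ b) :
    sw a b j k y m = y m := by
  ext v; exact mem_sw_c h1 h2

lemma mem_cyc_a {a b : Fin 3} {i j k v : C} {y : Cfg C} :
    v ∈ cyc a b i j k y a ↔ swap j k v ∈ y a := by
  simp [cyc, mem_rp]

lemma mem_cyc_b {a b : Fin 3} {i j k v : C} {y : Cfg C} (h : a ≠ b) :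
    v ∈ cyc a b i j k y b ↔ swap i j v ∈ y b := by
  simp [cyc, mem_rp, h.symm]

lemma mem_cyc_c {a b c : Fin 3} {i j k v : C} {y : Cfg C} (T : Tri a b c) :
    v ∈ cyc a b i j k y c ↔ swap i k v ∈ y c := by
  simp [cyc, mem_rp, T.2.1.symm, T.2.2.symm]

lemma ci_tau (j k v : C) (y : Cfg C) (m : Fin 3) : ci (tau j k y) m v = ci y m (swap j k v) := by
  simp only [ci, mem_tau]

lemma ci_sw_a (a b : Fin 3) (j k v : C) (y : Cfg C) : ci (sw a b j k y) a v = ci y a (swap j k v) := by
  simp only [ci, mem_sw_a]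

lemma ci_sw_b (a b : Fin 3) (j k v : C) (y : Cfg C) : ci (sw a b j k y) b v = ci y b (swap j k v) := by
  simp only [ci, mem_sw_b]

lemma ci_sw_c {a b m : Fin 3} (j k v : C) (y : Cfg C) (h1 : m ≠ a) (h2 : m ≠ b) :
    ci (sw a b j k y) m v = ci y m v := by
  simp only [ci, mem_sw_c h1 h2]

lemma tau_tau (j k : C) (y : Cfg C) : tau j k (tau j k y) = y := by
  funext m; ext v; simp [mem_tau]

lemma sw_sw (a b : Fin 3) (j k : C) (y : Cfg C) : sw a b j k (sw a b j k y) = y := by
  funext m; ext v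
  by_cases h : m = a ∨ m = b
  · rcases h with rfl | rfl
    · simp [mem_sw_a]
    · simp [mem_sw_b]
  · push Not at h
    rw [mem_sw_c h.1 h.2, mem_sw_c h.1 h.2]

lemma cyc_cyc {a b c : Fin 3} (T : Tri a b c) (i j k : C) (y : Cfg C) :
    cyc a b i j k (cyc a b i j k y) = y := by
  refine cfg_ext T (fun v => ?_) (fun v => ?_) (fun v => ?_)
  · simp [mem_cyc_a]
  · simp [mem_cyc_b T.1]
  · simp [mem_cyc_c T]

lemma sw_comm (a b : Fin 3) (j k : C) (y : Cfg C) : sw b a j k y = sw a b j k y := by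
  simp only [sw, or_comm]

lemma sw_swap (a b : Fin 3) (j k : C) (y : Cfg C) : sw a b k j y = sw a b j k y := by
  simp only [sw, Equiv.swap_comm]

/-- Column `j` and `k` positions allowing a switch on rows `a,b`. -/
def Sw (y : Cfg C) (a b : Fin 3) (j k : C) : Prop := j ∈ y a ∧ j ∉ y b ∧ k ∉ y a ∧ k ∈ y b

lemma Sw.ne {y : Cfg C} {a b : Fin 3} {j k : C} (h : Sw y a b j k) : j ≠ k := by
  rintro rfl; exact h.2.2.1 h.1

lemma tau_mem {y : Cfg C} (hy : y ∈ Mset R s) {j k : C} (h : s j = s k) : tau j k y ∈ Mset R s := by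
  obtain ⟨a, b, c, T⟩ : ∃ a b c, Tri a b c := by
    obtain ⟨a, b, T⟩ := exists_tri_third (0 : Fin 3); exact ⟨a, b, 0, T⟩
  refine mk_mem T (fun i => ?_) (fun v => ?_)
  · rw [tau, card_rp]; exact row_card hy i
  · simp only [ci_tau]
    rw [col T hy]
    by_cases h1 : v = j
    · subst h1; simp [h]
    · by_cases h2 : v = k
      · subst h2; simp [h]
      · rw [swap_apply_of_ne_of_ne h1 h2]

lemma sw_mem {a b c : Fin 3} (T : Tri a b c) {y : Cfg C} (hy : y ∈ Mset R s) {j k : C}
    (h : Sw y a b j k) : sw a b j k y ∈ Mset R s := by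
  refine mk_mem T (fun i => ?_) (fun v => ?_)
  · rw [sw, card_rp]; exact row_card hy i
  · rw [ci_sw_a, ci_sw_b, ci_sw_c j k v y T.2.1.symm T.2.2.symm, ← col T hy v]
    obtain ⟨h1, h2, h3, h4⟩ := h
    by_cases h5 : v = j
    · subst h5
      simp only [swap_apply_left, ci_pos h1, ci_neg h2, ci_neg h3, ci_pos h4]
    · by_cases h6 : v = k
      · subst h6
        simp only [swap_apply_right, ci_pos h1, ci_neg h2, ci_neg h3, ci_pos h4]
      · rw [swap_apply_of_ne_of_ne h5 h6]

/-- Switch facts after the move. -/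
lemma sw_after {a b : Fin 3} {y : Cfg C} {j k : C} (h : Sw y a b j k) :
    Sw (sw a b j k y) b a j k := by
  obtain ⟨h1, h2, h3, h4⟩ := h
  refine ⟨?_, ?_, ?_, ?_⟩
  · rw [mem_sw_b]; simpa using h4
  · rw [mem_sw_a]; simpa using h3
  · rw [mem_sw_b]; simpa using h2
  · rw [mem_sw_a]; simpa using h1

/-- General comparison of two blocks through an involution. -/
lemma cexp_involution {α κ : Type*} [DecidableEq κ] {Ω : Finset α} {key : α → κ} (g : α → α)
    (hg : ∀ y ∈ Ω, g y ∈ Ω) (hgg : ∀ y ∈ Ω, g (g y) = y) {x x' : α}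
    (h1 : ∀ y ∈ Ω, key y = key x → key (g y) = key x')
    (h2 : ∀ y ∈ Ω, key y = key x' → key (g y) = key x) (φ : α → ℝ) :
    cexp Ω key φ x' = cexp Ω key (fun y => φ (g y)) x := by
  unfold cexp
  have e1 : ∑ y ∈ blockOf Ω key x', φ y = ∑ y ∈ blockOf Ω key x, φ (g y) := by
    refine Finset.sum_nbij' g g ?_ ?_ ?_ ?_ ?_
    · intro y hy
      rw [mem_blockOf] at hy ⊢
      exact ⟨hg y hy.1, h2 y hy.1 hy.2⟩
    · intro y hy
      rw [mem_blockOf] at hy ⊢
      exact ⟨hg y hy.1, h1 y hy.1 hy.2⟩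
    · intro y hy
      exact hgg y (mem_blockOf.1 hy).1
    · intro y hy
      exact hgg y (mem_blockOf.1 hy).1
    · intro y hy
      rw [hgg y (mem_blockOf.1 hy).1]
  have e2 : (blockOf Ω key x').card = (blockOf Ω key x).card := by
    refine Finset.card_nbij' g g ?_ ?_ ?_ ?_
    · intro y hy
      rw [mem_coe, mem_blockOf] at hy
      rw [mem_coe, mem_blockOf]
      exact ⟨hg y hy.1, h2 y hy.1 hy.2⟩
    · intro y hy
      rw [mem_coe, mem_blockOf] at hy
      rw [mem_coe, mem_blockOf]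
      exact ⟨hg y hy.1, h1 y hy.1 hy.2⟩
    · intro y hy
      exact hgg y (mem_blockOf.1 hy).1
    · intro y hy
      exact hgg y (mem_blockOf.1 hy).1
  rw [e1, e2]

lemma abs_cexp_le {α κ : Type*} [DecidableEq κ] {Ω : Finset α} {key : α → κ} {g : α → ℝ} {a : ℝ}
    {x : α} (hx : x ∈ Ω) (h : ∀ y ∈ Ω, |g y| ≤ a) : |cexp Ω key g x| ≤ a := by
  unfold cexp
  have hpos : (0 : ℝ) < (blockOf Ω key x).card := by
    exact_mod_cast blockOf_card_pos hx
  rw [abs_div, abs_of_pos hpos, div_le_iff₀ hpos]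
  calc |∑ y ∈ blockOf Ω key x, g y| ≤ ∑ y ∈ blockOf Ω key x, |g y| := abs_sum_le_sum_abs _ _
    _ ≤ ∑ _y ∈ blockOf Ω key x, a :=
        Finset.sum_le_sum (fun y hy => h y (mem_blockOf.1 hy).1)
    _ = a * (blockOf Ω key x).card := by
        rw [Finset.sum_const, nsmul_eq_mul]; ring

/-- The maximum argument. -/
lemma max_arg {ι : Type*} [Fintype ι] (p : ι → Prop) (d : ι → ℝ) (lam : ℝ) (hlam : 2 < lam)
    (hd : ∀ e, p e → 0 ≤ d e)
    (h : ∀ bd, (∀ e, p e → d e ≤ bd) → ∀ e, p e → lam * d e ≤ 2 * bd) :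
    ∀ e, p e → d e = 0 := by
  classical
  intro e he
  obtain ⟨e₀, he₀, hmax⟩ := Finset.exists_max_image (univ.filter p) d ⟨e, by simpa using he⟩
  have he₀' : p e₀ := by simpa using he₀
  have hm : ∀ e', p e' → d e' ≤ d e₀ := fun e' he' => hmax e' (by simpa using he')
  have h1 := h (d e₀) hm e₀ he₀'
  have h2 : d e₀ ≤ 0 := by nlinarith
  exact le_antisymm ((hm e he).trans h2) (hd e he)


/-- Pattern of two columns on three rows. -/
def Pat (y : Cfg C) (a b c : Fin 3) (j k : C) : Prop :=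
  j ∈ y a ∧ j ∉ y b ∧ j ∉ y c ∧ k ∉ y a ∧ k ∈ y b ∧ k ∈ y c

lemma Pat.ne {y : Cfg C} {a b c : Fin 3} {j k : C} (h : Pat y a b c j k) : j ≠ k := by
  rintro rfl; exact h.2.2.2.1 h.1

lemma Pat.swap23 {y : Cfg C} {a b c : Fin 3} {j k : C} (h : Pat y a b c j k) : Pat y a c b j k :=
  ⟨h.1, h.2.2.1, h.2.1, h.2.2.2.1, h.2.2.2.2.2, h.2.2.2.2.1⟩

lemma Pat.toSw {y : Cfg C} {a b c : Fin 3} {j k : C} (h : Pat y a b c j k) : Sw y a b j k :=
  ⟨h.1, h.2.1, h.2.2.2.1, h.2.2.2.2.1⟩

lemma Pat.toSw' {y : Cfg C} {a b c : Fin 3} {j k : C} (h : Pat y a b c j k) : Sw y a c j k :=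
  ⟨h.1, h.2.2.1, h.2.2.2.1, h.2.2.2.2.2⟩

lemma pat_block {a b c : Fin 3} (T : Tri a b c) {x y : Cfg C} (hx : x ∈ Mset R s)
    (hy : y ∈ Mset R s) (hya : y a = x a) {j k : C} (h : Pat x a b c j k) : Pat y a b c j k := by
  obtain ⟨h1, h2, h3, h4, h5, h6⟩ := h
  have hj := col T hx j
  have hk := col T hx k
  have hj' := col T hy j
  have hk' := col T hy k
  have ja : j ∈ y a := hya ▸ h1
  have ka : k ∉ y a := hya ▸ h4
  rw [ci_pos h1, ci_neg h2, ci_neg h3] at hj
  rw [ci_neg h4, ci_pos h5, ci_pos h6] at hk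
  rw [ci_pos ja] at hj'
  rw [ci_neg ka] at hk'
  have b1 := ci_le y b k
  have b2 := ci_le y c k
  exact ⟨ja, not_mem_of_ci (by omega), not_mem_of_ci (by omega), ka,
    mem_of_ci (by omega), mem_of_ci (by omega)⟩

/-- Rows in the second block: the columns `j`, `k` split over rows `b`,`c`. -/
lemma block2_facts {a b c : Fin 3} (T : Tri a b c) {x y : Cfg C} (hx : x ∈ Mset R s)
    (hy : y ∈ Mset R s) {j k : C} (h : Pat x a b c j k)
    (hya : ∀ v, v ∈ y a ↔ swap j k v ∈ x a) :
    j ∉ y a ∧ k ∈ y a ∧ (j ∈ y c ↔ j ∉ y b) ∧ (k ∈ y c ↔ k ∉ y b) := by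
  obtain ⟨h1, h2, h3, h4, h5, h6⟩ := h
  have hj := col T hx j
  have hk := col T hx k
  have hj' := col T hy j
  have hk' := col T hy k
  have ja : j ∉ y a := by rw [hya]; simpa using h4
  have ka : k ∈ y a := by rw [hya]; simpa using h1
  rw [ci_pos h1, ci_neg h2, ci_neg h3] at hj
  rw [ci_neg h4, ci_pos h5, ci_pos h6] at hk
  rw [ci_neg ja] at hj'
  rw [ci_pos ka] at hk'
  refine ⟨ja, ka, ?_, ?_⟩
  · constructor
    · intro h7 h8
      rw [ci_pos h7, ci_pos h8] at hj'; omega
    · intro h7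
      rw [ci_neg h7] at hj'
      exact mem_of_ci (by omega)
  · constructor
    · intro h7 h8
      rw [ci_pos h7, ci_pos h8] at hk'; omega
    · intro h7
      rw [ci_neg h7] at hk'
      exact mem_of_ci (by omega)

variable {φ : Cfg C → ℝ} {bd : ℝ}

/-- The first part of the block: bijection with the first block. -/
lemma part10 {a b c : Fin 3} (T : Tri a b c) {x : Cfg C} (hx : x ∈ Mset R s) {j k : C}
    (hP : Pat x a b c j k) (S' : Finset C) (hS' : ∀ v, v ∈ S' ↔ swap j k v ∈ x a)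
    (hbd : ∀ y ∈ Mset R s, ∀ a b, a ≠ b → ∀ j k, Sw y a b j k → |φ (sw a b j k y) - φ y| ≤ bd)
    (t : ℝ) (ht : ∑ y ∈ blockOf (Mset R s) (fun y => y a) x, (φ y - t) = 0) :
    |∑ y ∈ ((Mset R s).filter (fun y => y a = S')).filter (fun y => j ∈ y b ∧ k ∉ y b), (φ y - t)|
      ≤ bd * (((Mset R s).filter (fun y => y a = S')).filter (fun y => j ∈ y b ∧ k ∉ y b)).card := by
  set A := blockOf (Mset R s) (fun y => y a) x with hA
  set P := ((Mset R s).filter (fun y => y a = S')).filter (fun y => j ∈ y b ∧ k ∉ y b) with hPd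
  have hjk := hP.ne
  have fwd : ∀ y ∈ A, sw a b j k y ∈ P := by
    intro y hy
    obtain ⟨hyM, hya⟩ := mem_blockOf.1 hy
    have hya' : y a = x a := hya
    have hpat := pat_block T hx hyM hya' hP
    simp only [hPd, mem_filter]
    refine ⟨⟨sw_mem T hyM hpat.toSw, ?_⟩, ?_, ?_⟩
    · ext v
      rw [mem_sw_a, hS', hya']
    · rw [mem_sw_b]; simpa using hpat.2.2.2.2.1
    · rw [mem_sw_b]; simpa using hpat.2.1
  have bwd : ∀ y ∈ P, sw a b j k y ∈ A := by
    intro y hy
    simp only [hPd, mem_filter] at hy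
    obtain ⟨⟨hyM, hya⟩, hyj, hyk⟩ := hy
    have hyv : ∀ v, v ∈ y a ↔ swap j k v ∈ x a := fun v => by rw [hya, hS']
    obtain ⟨f1, f2, f3, f4⟩ := block2_facts T hx hyM hP hyv
    have hSw : Sw y a b k j := ⟨f2, hyk, f1, hyj⟩
    have hM := sw_mem T hyM hSw
    rw [sw_swap] at hM
    refine mem_blockOf.2 ⟨hM, ?_⟩
    ext v
    rw [mem_sw_a, hyv]
    simp
  have hinv : ∀ y, sw a b j k (sw a b j k y) = y := sw_sw a b j k
  have e1 : ∑ y ∈ P, (φ y - t) = ∑ y ∈ A, (φ (sw a b j k y) - t) := by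
    refine Finset.sum_nbij' (sw a b j k) (sw a b j k) bwd fwd (fun y _ => hinv y)
      (fun y _ => hinv y) (fun y _ => ?_)
    rw [hinv]
  have e2 : P.card = A.card := by
    refine Finset.card_nbij' (sw a b j k) (sw a b j k) ?_ ?_ (fun y _ => hinv y) (fun y _ => hinv y)
    · intro y hy; exact bwd y hy
    · intro y hy; exact fwd y hy
  have e3 : ∑ y ∈ A, (φ (sw a b j k y) - t)
      = ∑ y ∈ A, (φ (sw a b j k y) - φ y) + ∑ y ∈ A, (φ y - t) := by
    rw [← Finset.sum_add_distrib]
    exact Finset.sum_congr rfl (fun y _ => by ring)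
  rw [e1, e3, ht, add_zero, e2]
  calc |∑ y ∈ A, (φ (sw a b j k y) - φ y)| ≤ ∑ y ∈ A, |φ (sw a b j k y) - φ y| :=
        abs_sum_le_sum_abs _ _
    _ ≤ ∑ _y ∈ A, bd := by
        refine Finset.sum_le_sum (fun y hy => ?_)
        obtain ⟨hyM, hya⟩ := mem_blockOf.1 hy
        exact hbd y hyM a b T.1 j k (pat_block T hx hyM hya hP).toSw
    _ = bd * A.card := by rw [Finset.sum_const, nsmul_eq_mul]; ring

/-- The three-row move preserves the matrix set. -/
lemma cyc_mem {a b c : Fin 3} (T : Tri a b c) {y : Cfg C} (hy : y ∈ Mset R s) {i j k : C}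
    (hij : i ≠ j) (hik : i ≠ k) (hjk : j ≠ k)
    (h1 : ci y a k + ci y b i + ci y c j = s j)
    (h2 : ci y a j + ci y b k + ci y c i = s k)
    (h3 : ci y a i + ci y b j + ci y c k = s i) : cyc a b i j k y ∈ Mset R s := by
  refine mk_mem T (fun m => ?_) (fun v => ?_)
  · rw [cyc, card_rp]; exact row_card hy m
  · have ea : ci (cyc a b i j k y) a v = ci y a (swap j k v) := by simp only [ci, mem_cyc_a]
    have eb : ci (cyc a b i j k y) b v = ci y b (swap i j v) := by simp only [ci, mem_cyc_b T.1]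
    have ec : ci (cyc a b i j k y) c v = ci y c (swap i k v) := by simp only [ci, mem_cyc_c T]
    rw [ea, eb, ec]
    by_cases hvj : v = j
    · subst hvj
      rw [swap_apply_left, swap_apply_right, swap_apply_of_ne_of_ne hij.symm hjk]
      exact h1
    · by_cases hvk : v = k
      · subst hvk
        rw [swap_apply_right, swap_apply_of_ne_of_ne hik.symm hjk.symm, swap_apply_right]
        exact h2
      · by_cases hvi : v = i
        · subst hvi
          rw [swap_apply_of_ne_of_ne hij hik, swap_apply_left, swap_apply_left]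
          exact h3
        · rw [swap_apply_of_ne_of_ne hvj hvk, swap_apply_of_ne_of_ne hvi hvj,
            swap_apply_of_ne_of_ne hvi hvk]
          exact col T hy v

/-- Evaluate `swap` on the three special columns. -/
macro "swcases " v:ident i:ident j:ident k:ident : tactic =>
  `(tactic| (by_cases hvi : $v:ident = $i:ident
             · subst hvi; simp [Equiv.swap_apply_def, *]
             · by_cases hvj : $v:ident = $j:ident
               · subst hvj; simp [Equiv.swap_apply_def, *]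
               · by_cases hvk : $v:ident = $k:ident
                 · subst hvk; simp [Equiv.swap_apply_def, *]
                 · simp [Equiv.swap_apply_def, *]))

/-- Closeness for the three-row move. -/
lemma close11 {a b c : Fin 3} (T : Tri a b c) {y : Cfg C} (hy : y ∈ Mset R s) {i j k : C}
    (hP : Pat y a b c j k) (hib : i ∈ y b) (hic : i ∉ y c)
    (hτ : ∀ y ∈ Mset R s, ∀ j k, s j = s k → φ (tau j k y) = φ y)
    (hbd : ∀ y ∈ Mset R s, ∀ a b, a ≠ b → ∀ j k, Sw y a b j k → |φ (sw a b j k y) - φ y| ≤ bd) :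
    cyc a b i j k y ∈ Mset R s ∧ |φ (cyc a b i j k y) - φ y| ≤ bd := by
  obtain ⟨p1, p2, p3, p4, p5, p6⟩ := id hP
  have hjk : j ≠ k := hP.ne
  have hij : i ≠ j := by rintro rfl; exact p2 hib
  have hik : i ≠ k := by rintro rfl; exact hic p6
  have cj := col T hy j
  have ck := col T hy k
  have ci' := col T hy i
  rw [ci_pos p1, ci_neg p2, ci_neg p3] at cj
  rw [ci_neg p4, ci_pos p5, ci_pos p6] at ck
  rw [ci_pos hib, ci_neg hic] at ci'
  have hM : cyc a b i j k y ∈ Mset R s := by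
    refine cyc_mem T hy hij hik hjk ?_ ?_ ?_
    · rw [ci_neg p4, ci_pos hib, ci_neg p3]; omega
    · rw [ci_pos p1, ci_pos p5, ci_neg hic]; omega
    · rw [ci_neg p2, ci_pos p6]; omega
  refine ⟨hM, ?_⟩
  have hji := hij.symm
  have hki := hik.symm
  have hkj := hjk.symm
  by_cases hia : i ∈ y a
  · -- both `i` and `k` have column sum two
    rw [ci_pos hia] at ci'
    have hs : s i = s k := by omega
    have e : tau i k y = sw a b i j (cyc a b i j k y) := by
      refine cfg_ext T (fun v => ?_) (fun v => ?_) (fun v => ?_)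
      · rw [mem_tau, mem_sw_a, mem_cyc_a]
        swcases v i j k
      · rw [mem_tau, mem_sw_b, mem_cyc_b T.1]
        swcases v i j k
      · rw [mem_tau, mem_sw_c T.2.1.symm T.2.2.symm, mem_cyc_c T]
    have e1 := hτ y hy i k hs
    have hSw : Sw (cyc a b i j k y) a b i j := by
      refine ⟨?_, ?_, ?_, ?_⟩
      · rw [mem_cyc_a]; simpa [Equiv.swap_apply_of_ne_of_ne hij hik] using hia
      · rw [mem_cyc_b T.1]; simpa using p2
      · rw [mem_cyc_a]; simpa using p4
      · rw [mem_cyc_b T.1]; simpa using hib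
    have e2 := hbd _ hM a b T.1 i j hSw
    rw [← e, e1] at e2
    rwa [abs_sub_comm] at e2
  · rw [ci_neg hia] at ci'
    have hs : s i = s j := by omega
    have e : tau i j (cyc a b i j k y) = sw a c j k y := by
      refine cfg_ext T (fun v => ?_) (fun v => ?_) (fun v => ?_)
      · rw [mem_tau, mem_sw_a, mem_cyc_a]
        swcases v i j k
      · rw [mem_tau, mem_sw_c T.1.symm T.2.2, mem_cyc_b T.1]
        swcases v i j k
      · rw [mem_tau, mem_sw_b, mem_cyc_c T]
        swcases v i j k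
    have e1 := hτ _ hM i j hs
    rw [e] at e1
    rw [← e1]
    exact hbd y hy a c T.2.1 j k hP.toSw'


lemma deg_const {a b c : Fin 3} (T : Tri a b c) {y₁ y₂ : Cfg C} (h₁ : y₁ ∈ Mset R s)
    (h₂ : y₂ ∈ Mset R s) (h : y₁ a = y₂ a) : (y₁ b \ y₁ c).card = (y₂ b \ y₂ c).card := by
  have e : y₁ b ∩ y₁ c = y₂ b ∩ y₂ c := by
    ext v
    have c1 := col T h₁ v
    have c2 := col T h₂ v
    have e0 : ci y₁ a v = ci y₂ a v := by simp only [ci, h]
    simp only [mem_inter]
    constructor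
    · rintro ⟨p, q⟩
      rw [ci_pos p, ci_pos q] at c1
      have l1 := ci_le y₂ b v
      have l2 := ci_le y₂ c v
      exact ⟨mem_of_ci (by omega), mem_of_ci (by omega)⟩
    · rintro ⟨p, q⟩
      rw [ci_pos p, ci_pos q] at c2
      have l1 := ci_le y₁ b v
      have l2 := ci_le y₁ c v
      exact ⟨mem_of_ci (by omega), mem_of_ci (by omega)⟩
  have a1 := card_sdiff_add_card_inter (y₁ b) (y₁ c)
  have a2 := card_sdiff_add_card_inter (y₂ b) (y₂ c)
  rw [e] at a1
  rw [row_card h₁] at a1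
  rw [row_card h₂] at a2
  omega

/-- The part of the second block where both `j,k` lie in row `b`: biregular comparison. -/
lemma part11 {a b c : Fin 3} (T : Tri a b c) {x : Cfg C} (hx : x ∈ Mset R s) {j k : C}
    (hP : Pat x a b c j k) (S' : Finset C) (hS' : ∀ v, v ∈ S' ↔ swap j k v ∈ x a)
    (hτ : ∀ y ∈ Mset R s, ∀ j k, s j = s k → φ (tau j k y) = φ y)
    (hbd : ∀ y ∈ Mset R s, ∀ a b, a ≠ b → ∀ j k, Sw y a b j k → |φ (sw a b j k y) - φ y| ≤ bd)
    (t : ℝ) (ht : ∑ y ∈ blockOf (Mset R s) (fun y => y a) x, (φ y - t) = 0) :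
    |∑ y ∈ ((Mset R s).filter (fun y => y a = S')).filter (fun y => j ∈ y b ∧ k ∈ y b), (φ y - t)|
      ≤ bd * (((Mset R s).filter (fun y => y a = S')).filter (fun y => j ∈ y b ∧ k ∈ y b)).card := by
  set A := blockOf (Mset R s) (fun y => y a) x with hA
  set P := ((Mset R s).filter (fun y => y a = S')).filter (fun y => j ∈ y b ∧ k ∈ y b) with hPd
  rcases P.eq_empty_or_nonempty with hPe | ⟨y₀, hy₀⟩
  · simp [hPe]
  have hjk := hP.ne
  obtain ⟨x1, x2, x3, x4, x5, x6⟩ := id hP
  have cxj := col T hx j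
  have cxk := col T hx k
  rw [ci_pos x1, ci_neg x2, ci_neg x3] at cxj
  rw [ci_neg x4, ci_pos x5, ci_pos x6] at cxk
  have Pfacts : ∀ y ∈ P, y ∈ Mset R s ∧ (∀ v, v ∈ y a ↔ swap j k v ∈ x a) ∧ j ∉ y a ∧ k ∈ y a ∧
      j ∈ y b ∧ k ∈ y b ∧ j ∉ y c ∧ k ∉ y c := by
    intro y hy
    simp only [hPd, mem_filter] at hy
    obtain ⟨⟨hyM, hya⟩, hyj, hyk⟩ := hy
    have hyv : ∀ v, v ∈ y a ↔ swap j k v ∈ x a := fun v => by rw [hya, hS']
    obtain ⟨f1, f2, f3, f4⟩ := block2_facts T hx hyM hP hyv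
    exact ⟨hyM, hyv, f1, f2, hyj, hyk, fun h => (f3.1 h) hyj, fun h => (f4.1 h) hyk⟩
  let E : Finset (Σ _ : Cfg C, C) := A.sigma (fun y => y b \ y c)
  let E' : Finset (Σ _ : Cfg C, C) := P.sigma (fun y => y c \ y b)
  let u : (Σ _ : Cfg C, C) → (Σ _ : Cfg C, C) := fun e => ⟨cyc a b e.2 j k e.1, e.2⟩
  have huu : ∀ e, u (u e) = e := by
    rintro ⟨y, i⟩
    simp only [u]
    rw [cyc_cyc T]
  have hclose : ∀ e ∈ E, (u e).1 ∈ Mset R s ∧ |φ (u e).1 - φ e.1| ≤ bd := by
    rintro ⟨y, i⟩ he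
    simp only [E, mem_sigma, mem_sdiff] at he
    obtain ⟨hy, hib, hic⟩ := he
    obtain ⟨hyM, hya⟩ := mem_blockOf.1 hy
    exact close11 T hyM (pat_block T hx hyM hya hP) hib hic hτ hbd
  have hfwd : ∀ e ∈ E, u e ∈ E' := by
    rintro ⟨y, i⟩ he
    have hcl := (hclose ⟨y, i⟩ he).1
    simp only [E, mem_sigma, mem_sdiff] at he
    obtain ⟨hy, hib, hic⟩ := he
    obtain ⟨hyM, hya⟩ := mem_blockOf.1 hy
    have hya' : y a = x a := hya
    obtain ⟨p1, p2, p3, p4, p5, p6⟩ := pat_block T hx hyM hya' hP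
    have hij : i ≠ j := by rintro rfl; exact p2 hib
    have hik : i ≠ k := by rintro rfl; exact hic p6
    simp only [E', u, mem_sigma, mem_sdiff, hPd, mem_filter]
    refine ⟨⟨⟨hcl, ?_⟩, ?_, ?_⟩, ?_, ?_⟩
    · ext v
      rw [mem_cyc_a, hS', hya']
    · rw [mem_cyc_b T.1]; simpa using hib
    · rw [mem_cyc_b T.1, swap_apply_of_ne_of_ne hik.symm hjk.symm]; exact p5
    · rw [mem_cyc_c T]; simpa using p6
    · rw [mem_cyc_b T.1]; simpa using p2
  have hbwd : ∀ e ∈ E', u e ∈ E := by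
    rintro ⟨y, i⟩ he
    simp only [E', mem_sigma, mem_sdiff] at he
    obtain ⟨hy, hic, hib⟩ := he
    obtain ⟨hyM, hyv, f1, f2, f3, f4, f5, f6⟩ := Pfacts y hy
    have hij : i ≠ j := by rintro rfl; exact hib f3
    have hik : i ≠ k := by rintro rfl; exact hib f4
    have cyi := col T hyM i
    rw [ci_neg hib, ci_pos hic] at cyi
    have hM : cyc a b i j k y ∈ Mset R s := by
      refine cyc_mem T hyM hij hik hjk ?_ ?_ ?_
      · rw [ci_pos f2, ci_neg hib, ci_neg f5]; omega
      · rw [ci_neg f1, ci_pos f4, ci_pos hic]; omega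
      · rw [ci_pos f3, ci_neg f6]; omega
    simp only [E, u, mem_sigma, mem_sdiff]
    refine ⟨mem_blockOf.2 ⟨hM, ?_⟩, ?_, ?_⟩
    · ext v
      rw [mem_cyc_a, hyv]
      simp
    · rw [mem_cyc_b T.1]; simpa using f3
    · rw [mem_cyc_c T]; simpa using f6
  -- degrees
  have hxA : x ∈ A := self_mem_blockOf hx
  obtain ⟨hy₀M, hy₀v, g1, g2, g3, g4, g5, g6⟩ := Pfacts y₀ hy₀
  set dA := (x b \ x c).card with hdA
  set dB := (y₀ c \ y₀ b).card with hdB
  have degA : ∀ y ∈ A, (y b \ y c).card = dA := by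
    intro y hy
    obtain ⟨hyM, hya⟩ := mem_blockOf.1 hy
    exact deg_const T hyM hx hya
  have degB : ∀ y ∈ P, (y c \ y b).card = dB := by
    intro y hy
    obtain ⟨hyM, hyv, -⟩ := Pfacts y hy
    refine deg_const T.swap23 hyM hy₀M ?_
    ext v
    rw [hyv, hy₀v]
  have hdBpos : 0 < dB := by
    rw [hdB, card_pos]
    by_contra hne
    rw [not_nonempty_iff_eq_empty, sdiff_eq_empty_iff_subset] at hne
    have hsub : y₀ c ⊆ (x c).erase k := by
      intro v hv
      have hvb := hne hv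
      have hvj : v ≠ j := by rintro rfl; exact g5 hv
      have hvk : v ≠ k := by rintro rfl; exact g6 hv
      rw [mem_erase]
      refine ⟨hvk, ?_⟩
      have c1 := col T hx v
      have c2 := col T hy₀M v
      have e : ci y₀ a v = ci x a v := by
        simp only [ci, hy₀v v, swap_apply_of_ne_of_ne hvj hvk]
      rw [ci_pos hvb, ci_pos hv] at c2
      have l1 := ci_le x b v
      exact mem_of_ci (by omega)
    have h1 := card_le_card hsub
    rw [card_erase_of_mem x6, row_card hy₀M c, row_card hx c] at h1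
    have h2 : 0 < (x c).card := card_pos.2 ⟨k, x6⟩
    rw [row_card hx c] at h2
    omega
  -- sums
  have sumE' : ∑ e ∈ E', φ e.1 = (dB : ℝ) * ∑ y ∈ P, φ y := by
    simp only [E']
    rw [Finset.sum_sigma, Finset.mul_sum]
    refine Finset.sum_congr rfl (fun y hy => ?_)
    show ∑ _s ∈ y c \ y b, φ y = (dB : ℝ) * φ y
    rw [Finset.sum_const, nsmul_eq_mul, degB y hy]
  have sumE : ∑ e ∈ E, φ e.1 = (dA : ℝ) * ∑ y ∈ A, φ y := by
    simp only [E]
    rw [Finset.sum_sigma, Finset.mul_sum]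
    refine Finset.sum_congr rfl (fun y hy => ?_)
    show ∑ _s ∈ y b \ y c, φ y = (dA : ℝ) * φ y
    rw [Finset.sum_const, nsmul_eq_mul, degA y hy]
  have sumU : ∑ e ∈ E, φ (u e).1 = ∑ e ∈ E', φ e.1 := by
    symm
    refine Finset.sum_nbij' u u hbwd hfwd (fun e _ => huu e) (fun e _ => huu e) (fun e _ => ?_)
    rw [huu]
  have cardE : E.card = dA * A.card := by
    simp only [E]
    rw [Finset.card_sigma, Finset.sum_congr rfl degA, Finset.sum_const, smul_eq_mul]
    ring
  have cardE' : E'.card = dB * P.card := by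
    simp only [E']
    rw [Finset.card_sigma, Finset.sum_congr rfl degB, Finset.sum_const, smul_eq_mul]
    ring
  have cardEE : E.card = E'.card := by
    refine Finset.card_nbij' u u ?_ ?_ (fun e _ => huu e) (fun e _ => huu e)
    · intro e he; exact hfwd e he
    · intro e he; exact hbwd e he
  have hbound : |∑ e ∈ E, (φ (u e).1 - φ e.1)| ≤ bd * E.card := by
    calc |∑ e ∈ E, (φ (u e).1 - φ e.1)| ≤ ∑ e ∈ E, |φ (u e).1 - φ e.1| := abs_sum_le_sum_abs _ _
      _ ≤ ∑ _e ∈ E, bd := Finset.sum_le_sum (fun e he => (hclose e he).2)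
      _ = bd * E.card := by rw [Finset.sum_const, nsmul_eq_mul]; ring
  rw [Finset.sum_sub_distrib, sumU, sumE', sumE] at hbound
  rw [Finset.sum_sub_distrib, Finset.sum_const, nsmul_eq_mul] at ht ⊢
  have hc1 : (dA : ℝ) * A.card = dB * P.card := by
    have : dA * A.card = dB * P.card := by rw [← cardE, ← cardE', cardEE]
    exact_mod_cast this
  have hE1 : ((E.card : ℕ) : ℝ) = dB * P.card := by
    rw [cardEE, cardE']; push_cast; ring
  rw [hE1] at hbound
  have hdB' : (0 : ℝ) < dB := by exact_mod_cast hdBpos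
  have key : (dB : ℝ) * ∑ y ∈ P, φ y - dA * ∑ y ∈ A, φ y
      = dB * (∑ y ∈ P, φ y - (P.card : ℝ) * t) := by
    have : ∑ y ∈ A, φ y = (A.card : ℝ) * t := by linarith
    rw [this]
    linear_combination (-t) * hc1
  rw [key, abs_mul, abs_of_pos hdB'] at hbound
  have : (dB : ℝ) * |∑ y ∈ P, φ y - (P.card : ℝ) * t| ≤ dB * (bd * P.card) := by
    linarith
  exact le_of_mul_le_mul_left this hdB'

/-- Core Lemma. -/
lemma core {a b c : Fin 3} (T : Tri a b c) {x : Cfg C} (hx : x ∈ Mset R s) {j k : C}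
    (hP : Pat x a b c j k)
    (hτ : ∀ y ∈ Mset R s, ∀ j k, s j = s k → φ (tau j k y) = φ y)
    (hbd : ∀ y ∈ Mset R s, ∀ a b, a ≠ b → ∀ j k, Sw y a b j k → |φ (sw a b j k y) - φ y| ≤ bd) :
    |cexp (Mset R s) (fun y => y a) φ (sw a b j k x) - cexp (Mset R s) (fun y => y a) φ x| ≤ bd := by
  set t := cexp (Mset R s) (fun y => y a) φ x with ht0
  have hApos : (0 : ℝ) < (blockOf (Mset R s) (fun y => y a) x).card := by
    exact_mod_cast blockOf_card_pos hx
  have ht : ∑ y ∈ blockOf (Mset R s) (fun y => y a) x, (φ y - t) = 0 := by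
    rw [Finset.sum_sub_distrib, Finset.sum_const, nsmul_eq_mul, ht0]
    unfold cexp
    field_simp
    ring
  set S' := sw a b j k x a with hS'd
  have hS' : ∀ v, v ∈ S' ↔ swap j k v ∈ x a := fun v => mem_sw_a
  have hx'M := sw_mem T hx hP.toSw
  set B := (Mset R s).filter (fun y => y a = S') with hB
  have hBblock : blockOf (Mset R s) (fun y => y a) (sw a b j k x) = B := rfl
  have hBpos : (0 : ℝ) < B.card := by
    rw [← hBblock]; exact_mod_cast blockOf_card_pos hx'M
  have P1 := part10 T hx hP S' hS' hbd t ht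
  have P2 := part11 T hx hP S' hS' hτ hbd t ht
  have P3 := part10 T.swap23 hx hP.swap23 S' hS' hbd t ht
  have P4 := part11 T.swap23 hx hP.swap23 S' hS' hτ hbd t ht
  have hBfacts : ∀ y ∈ B, (j ∈ y c ↔ j ∉ y b) ∧ (k ∈ y c ↔ k ∉ y b) := by
    intro y hy
    obtain ⟨hyM, hya⟩ := mem_filter.1 hy
    obtain ⟨-, -, f3, f4⟩ := block2_facts T hx hyM hP (fun v => by rw [hya, hS'])
    exact ⟨f3, f4⟩
  have e3 : B.filter (fun y => j ∈ y c ∧ k ∉ y c) = B.filter (fun y => j ∉ y b ∧ k ∈ y b) := by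
    refine Finset.filter_congr (fun y hy => ?_)
    obtain ⟨f3, f4⟩ := hBfacts y hy
    rw [f3, f4, not_not]
  have e4 : B.filter (fun y => j ∈ y c ∧ k ∈ y c) = B.filter (fun y => j ∉ y b ∧ k ∉ y b) := by
    refine Finset.filter_congr (fun y hy => ?_)
    obtain ⟨f3, f4⟩ := hBfacts y hy
    rw [f3, f4]
  rw [e3] at P3
  rw [e4] at P4
  have hsplit : ∀ F : Cfg C → ℝ, ∑ y ∈ B, F y
      = ∑ y ∈ B.filter (fun y => j ∈ y b ∧ k ∉ y b), F y
        + ∑ y ∈ B.filter (fun y => j ∈ y b ∧ k ∈ y b), F y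
        + ∑ y ∈ B.filter (fun y => j ∉ y b ∧ k ∈ y b), F y
        + ∑ y ∈ B.filter (fun y => j ∉ y b ∧ k ∉ y b), F y := by
    intro F
    have h1 := Finset.sum_filter_add_sum_filter_not B (fun y => j ∈ y b) F
    have h2 := Finset.sum_filter_add_sum_filter_not (B.filter (fun y => j ∈ y b))
      (fun y => k ∈ y b) F
    have h3 := Finset.sum_filter_add_sum_filter_not (B.filter (fun y => j ∉ y b))
      (fun y => k ∈ y b) F
    simp only [Finset.filter_filter] at h2 h3
    linarith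
  have hc := hsplit (fun _ => 1)
  simp only [Finset.sum_const, nsmul_eq_mul, mul_one] at hc
  have hmain : |∑ y ∈ B, (φ y - t)| ≤ bd * B.card := by
    rw [hsplit, hc]
    have a1 := abs_add_le (∑ y ∈ B.filter (fun y => j ∈ y b ∧ k ∉ y b), (φ y - t)
        + ∑ y ∈ B.filter (fun y => j ∈ y b ∧ k ∈ y b), (φ y - t)
        + ∑ y ∈ B.filter (fun y => j ∉ y b ∧ k ∈ y b), (φ y - t))
      (∑ y ∈ B.filter (fun y => j ∉ y b ∧ k ∉ y b), (φ y - t))
    have a2 := abs_add_le (∑ y ∈ B.filter (fun y => j ∈ y b ∧ k ∉ y b), (φ y - t)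
        + ∑ y ∈ B.filter (fun y => j ∈ y b ∧ k ∈ y b), (φ y - t))
      (∑ y ∈ B.filter (fun y => j ∉ y b ∧ k ∈ y b), (φ y - t))
    have a3 := abs_add_le (∑ y ∈ B.filter (fun y => j ∈ y b ∧ k ∉ y b), (φ y - t))
      (∑ y ∈ B.filter (fun y => j ∈ y b ∧ k ∈ y b), (φ y - t))
    linarith
  have e5 : cexp (Mset R s) (fun y => y a) φ (sw a b j k x) - t
      = (∑ y ∈ B, (φ y - t)) / (B.card : ℝ) := by
    unfold cexp
    rw [hBblock, Finset.sum_sub_distrib, Finset.sum_const, nsmul_eq_mul]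
    field_simp
  rw [e5, abs_div, abs_of_pos hBpos, div_le_iff₀ hBpos]
  exact hmain

/-- Two columns with equal sums agree on some row. -/
lemma exists_agree {y : Cfg C} (hy : y ∈ Mset R s) {j k : C} (h : s j = s k) :
    ∃ c, (j ∈ y c ↔ k ∈ y c) := by
  by_contra hh
  push Not at hh
  obtain ⟨a, b, T⟩ := exists_tri_third (0 : Fin 3)
  have h1 := col T hy j
  have h2 := col T hy k
  have key : ∀ c, ci y c j + ci y c k = 1 := by
    intro c
    have := hh c
    by_cases p : j ∈ y c <;> by_cases q : k ∈ y c <;> simp_all [ci]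
  have k1 := key a
  have k2 := key b
  have k3 := key 0
  omega

/-- Step A: `φ` is invariant under column transpositions. -/
lemma step_A {lam : ℝ} (hlam : 2 < lam)
    (hT : ∀ x ∈ Mset R s, ∑ i, cexp (Mset R s) (fun y => y i) φ x = lam * φ x) :
    ∀ y ∈ Mset R s, ∀ j k, s j = s k → φ (tau j k y) = φ y := by
  have key := max_arg (ι := Cfg C × C × C) (fun e => e.1 ∈ Mset R s ∧ s e.2.1 = s e.2.2)
    (fun e => |φ (tau e.2.1 e.2.2 e.1) - φ e.1|) lam hlam (fun e _ => abs_nonneg _) ?_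
  · intro y hy j k h
    have := key (y, j, k) ⟨hy, h⟩
    simp only at this
    exact sub_eq_zero.1 (abs_eq_zero.1 this)
  · rintro bd' hbd' ⟨x, j, k⟩ ⟨hx, hjk⟩
    simp only at hjk hx ⊢
    have hb : ∀ y ∈ Mset R s, |φ (tau j k y) - φ y| ≤ bd' := fun y hy => hbd' (y, j, k) ⟨hy, hjk⟩
    have hτx := tau_mem hx hjk
    have each : ∀ i, |cexp (Mset R s) (fun y => y i) φ (tau j k x)
        - cexp (Mset R s) (fun y => y i) φ x| ≤ bd' := by
      intro i
      have e1 : cexp (Mset R s) (fun y => y i) φ (tau j k x)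
          = cexp (Mset R s) (fun y => y i) (fun y => φ (tau j k y)) x := by
        refine cexp_involution (tau j k) (fun y hy => tau_mem hy hjk) (fun y _ => tau_tau j k y)
          ?_ ?_ φ
        · intro y _ h
          have h' : y i = x i := h
          ext v
          rw [mem_tau, mem_tau, h']
        · intro y _ h
          have h' : y i = tau j k x i := h
          ext v
          rw [mem_tau, h', mem_tau]
          simp
      rw [e1, ← cexp_sub]
      exact abs_cexp_le hx hb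
    obtain ⟨c, hc⟩ := exists_agree hx hjk
    obtain ⟨a, b, T⟩ := exists_tri_third c
    have e2 : cexp (Mset R s) (fun y => y c) φ (tau j k x)
        = cexp (Mset R s) (fun y => y c) φ x := by
      refine cexp_congr φ ?_
      ext v
      rw [mem_tau]
      by_cases h1 : v = j
      · subst h1; simpa using hc.symm
      · by_cases h2 : v = k
        · subst h2; simpa using hc
        · rw [swap_apply_of_ne_of_ne h1 h2]
    have e3 := hT _ hτx
    have e4 := hT _ hx
    rw [T.sum] at e3 e4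
    have e5 : lam * (φ (tau j k x) - φ x)
        = (cexp (Mset R s) (fun y => y a) φ (tau j k x) - cexp (Mset R s) (fun y => y a) φ x)
          + (cexp (Mset R s) (fun y => y b) φ (tau j k x) - cexp (Mset R s) (fun y => y b) φ x) := by
      linarith
    have hlam0 : 0 < lam := by linarith
    calc lam * |φ (tau j k x) - φ x| = |lam * (φ (tau j k x) - φ x)| := by
          rw [abs_mul, abs_of_pos hlam0]
      _ ≤ bd' + bd' := by
          rw [e5]
          exact (abs_add_le _ _).trans (add_le_add (each a) (each b))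
      _ = 2 * bd' := by ring

/-- Step B: `φ` is invariant under switches. -/
lemma step_B {lam : ℝ} (hlam : 2 < lam)
    (hT : ∀ x ∈ Mset R s, ∑ i, cexp (Mset R s) (fun y => y i) φ x = lam * φ x)
    (hτ : ∀ y ∈ Mset R s, ∀ j k, s j = s k → φ (tau j k y) = φ y) :
    ∀ y ∈ Mset R s, ∀ a b, a ≠ b → ∀ j k, Sw y a b j k → φ (sw a b j k y) = φ y := by
  have key := max_arg (ι := Cfg C × Fin 3 × Fin 3 × C × C)
    (fun e => e.1 ∈ Mset R s ∧ e.2.1 ≠ e.2.2.1 ∧ Sw e.1 e.2.1 e.2.2.1 e.2.2.2.1 e.2.2.2.2)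
    (fun e => |φ (sw e.2.1 e.2.2.1 e.2.2.2.1 e.2.2.2.2 e.1) - φ e.1|) lam hlam
    (fun e _ => abs_nonneg _) ?_
  · intro y hy a b hab j k h
    have := key (y, a, b, j, k) ⟨hy, hab, h⟩
    simp only at this
    exact sub_eq_zero.1 (abs_eq_zero.1 this)
  · rintro bd' hbd' ⟨x, a, b, j, k⟩ ⟨hx, hab, hSw⟩
    simp only at hx hab hSw ⊢
    have hb : ∀ y ∈ Mset R s, ∀ a b, a ≠ b → ∀ j k, Sw y a b j k →
        |φ (sw a b j k y) - φ y| ≤ bd' := fun y hy a b hab j k h => hbd' (y, a, b, j, k) ⟨hy, hab, h⟩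
    obtain ⟨c, T⟩ := exists_third a b hab
    have hx' := sw_mem T hx hSw
    have hlam0 : 0 < lam := by linarith
    obtain ⟨h1, h2, h3, h4⟩ := id hSw
    have hjk := hSw.ne
    have hbd0 : 0 ≤ bd' := (abs_nonneg _).trans (hb x hx a b hab j k hSw)
    have habs : lam * |φ (sw a b j k x) - φ x| = |lam * (φ (sw a b j k x) - φ x)| := by
      rw [abs_mul, abs_of_pos hlam0]
    have e2 : cexp (Mset R s) (fun y => y c) φ (sw a b j k x)
        = cexp (Mset R s) (fun y => y c) φ x :=
      cexp_congr φ (sw_c T.2.1.symm T.2.2.symm)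
    have e3 := hT _ hx'
    have e4 := hT _ hx
    rw [T.sum] at e3 e4
    have e5 : lam * (φ (sw a b j k x) - φ x)
        = (cexp (Mset R s) (fun y => y a) φ (sw a b j k x) - cexp (Mset R s) (fun y => y a) φ x)
          + (cexp (Mset R s) (fun y => y b) φ (sw a b j k x) - cexp (Mset R s) (fun y => y b) φ x) := by
      linarith
    have hafter : Sw (sw a b j k x) b a j k := sw_after hSw
    -- membership in the new configuration
    have m1 : j ∉ sw a b j k x a := by rw [mem_sw_a]; simpa using h3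
    have m2 : j ∈ sw a b j k x b := by rw [mem_sw_b]; simpa using h4
    have m3 : k ∈ sw a b j k x a := by rw [mem_sw_a]; simpa using h1
    have m4 : k ∉ sw a b j k x b := by rw [mem_sw_b]; simpa using h2
    have m5 : ∀ v, v ∈ sw a b j k x c ↔ v ∈ x c := fun v => mem_sw_c T.2.1.symm T.2.2.symm
    by_cases hjc : j ∈ x c
    · by_cases hkc : k ∈ x c
      · -- agree
        have hsj : s j = s k := by
          have c1 := col T hx j
          have c2 := col T hx k
          rw [ci_pos h1, ci_neg h2, ci_pos hjc] at c1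
          rw [ci_neg h3, ci_pos h4, ci_pos hkc] at c2
          omega
        have e : tau j k x = sw a b j k x := by
          refine cfg_ext T (fun v => ?_) (fun v => ?_) (fun v => ?_)
          · rw [mem_tau, mem_sw_a]
          · rw [mem_tau, mem_sw_b]
          · rw [mem_tau, mem_sw_c T.2.1.symm T.2.2.symm]
            by_cases p : v = j
            · subst p; simpa using ⟨fun _ => hjc, fun _ => hkc⟩
            · by_cases q : v = k
              · subst q; simpa using ⟨fun _ => hkc, fun _ => hjc⟩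
              · rw [swap_apply_of_ne_of_ne p q]
        have := hτ x hx j k hsj
        rw [e] at this
        rw [this]
        simp only [sub_self, abs_zero, mul_zero]
        linarith
      · -- pattern for `x'` with names swapped
        have P1 : Pat (sw a b j k x) a b c k j :=
          ⟨m3, m4, fun h => hkc ((m5 k).1 h), m1, m2, (m5 j).2 hjc⟩
        have P2 : Pat x b a c k j := ⟨h4, h3, hkc, h2, h1, hjc⟩
        have c1 := core T hx' P1 hτ hb
        rw [sw_swap, sw_sw, abs_sub_comm] at c1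
        have c2 := core T.swap12 hx P2 hτ hb
        rw [sw_comm, sw_swap] at c2
        rw [habs, e5]
        have := abs_add_le (cexp (Mset R s) (fun y => y a) φ (sw a b j k x)
            - cexp (Mset R s) (fun y => y a) φ x)
          (cexp (Mset R s) (fun y => y b) φ (sw a b j k x) - cexp (Mset R s) (fun y => y b) φ x)
        linarith
    · by_cases hkc : k ∈ x c
      · have P1 : Pat x a b c j k := ⟨h1, h2, hjc, h3, h4, hkc⟩
        have P2 : Pat (sw a b j k x) b a c j k :=
          ⟨m2, m1, fun h => hjc ((m5 j).1 h), m4, m3, (m5 k).2 hkc⟩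
        have c1 := core T hx P1 hτ hb
        have c2 := core T.swap12 hx' P2 hτ hb
        rw [sw_comm, sw_sw, abs_sub_comm] at c2
        rw [habs, e5]
        have := abs_add_le (cexp (Mset R s) (fun y => y a) φ (sw a b j k x)
            - cexp (Mset R s) (fun y => y a) φ x)
          (cexp (Mset R s) (fun y => y b) φ (sw a b j k x) - cexp (Mset R s) (fun y => y b) φ x)
        linarith
      · have hsj : s j = s k := by
          have c1 := col T hx j
          have c2 := col T hx k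
          rw [ci_pos h1, ci_neg h2, ci_neg hjc] at c1
          rw [ci_neg h3, ci_pos h4, ci_neg hkc] at c2
          omega
        have e : tau j k x = sw a b j k x := by
          refine cfg_ext T (fun v => ?_) (fun v => ?_) (fun v => ?_)
          · rw [mem_tau, mem_sw_a]
          · rw [mem_tau, mem_sw_b]
          · rw [mem_tau, mem_sw_c T.2.1.symm T.2.2.symm]
            by_cases p : v = j
            · subst p; rw [swap_apply_left]; exact ⟨fun h => absurd h hkc, fun h => absurd h hjc⟩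
            · by_cases q : v = k
              · subst q; rw [swap_apply_right]; exact ⟨fun h => absurd h hjc, fun h => absurd h hkc⟩
              · rw [swap_apply_of_ne_of_ne p q]
        have := hτ x hx j k hsj
        rw [e] at this
        rw [this]
        simp only [sub_self, abs_zero, mul_zero]
        linarith


/-- Step C: a function invariant under switches is constant on every block. -/
lemma step_C (hsw : ∀ y ∈ Mset R s, ∀ a b, a ≠ b → ∀ j k, Sw y a b j k → φ (sw a b j k y) = φ y)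
    {a b c : Fin 3} (T : Tri a b c) {x : Cfg C} (hx : x ∈ Mset R s) :
    ∀ n, ∀ y ∈ Mset R s, y a = x a → (y b \ x b).card = n → φ y = φ x := by
  intro n
  induction n using Nat.strong_induction_on with
  | _ n ih =>
    intro y hy hya hn
    have T' : Tri b c a := ⟨T.2.2, T.1.symm, T.2.1.symm⟩
    rcases (y b \ x b).eq_empty_or_nonempty with he | ⟨j, hj⟩
    · have hsub : y b ⊆ x b := sdiff_eq_empty_iff_subset.1 he
      have heq : y b = x b :=
        Finset.eq_of_subset_of_card_le hsub (by rw [row_card hy, row_card hx])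
      have : y = x := by
        refine cfg_ext T (fun v => by rw [hya]) (fun v => by rw [heq]) (fun v => ?_)
        have c1 := col T hy v
        have c2 := col T hx v
        have e1 : ci y a v = ci x a v := by simp only [ci, hya]
        have e2 : ci y b v = ci x b v := by simp only [ci, heq]
        constructor
        · intro h
          rw [ci_pos h] at c1
          exact mem_of_ci (by omega)
        · intro h
          rw [ci_pos h] at c2
          exact mem_of_ci (by omega)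
      rw [this]
    · obtain ⟨hj1, hj2⟩ := mem_sdiff.1 hj
      have hcard : (x b \ y b).card = (y b \ x b).card :=
        card_sdiff_comm (by rw [row_card hy, row_card hx])
      have hne : (x b \ y b).Nonempty := by
        rw [← card_pos, hcard, card_pos]
        exact ⟨j, hj⟩
      obtain ⟨k, hk⟩ := hne
      obtain ⟨hk1, hk2⟩ := mem_sdiff.1 hk
      have cyj := col T hy j
      have cxj := col T hx j
      have cyk := col T hy k
      have cxk := col T hx k
      have ej : ci y a j = ci x a j := by simp only [ci, hya]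
      have ek : ci y a k = ci x a k := by simp only [ci, hya]
      rw [ci_pos hj1] at cyj
      rw [ci_neg hj2] at cxj
      rw [ci_neg hk2] at cyk
      rw [ci_pos hk1] at cxk
      have l1 := ci_le x c j
      have l2 := ci_le x c k
      have hjc : j ∉ y c := not_mem_of_ci (by omega)
      have hkc : k ∈ y c := mem_of_ci (by omega)
      have hSw : Sw y b c j k := ⟨hj1, hjc, hk2, hkc⟩
      have hy1 := sw_mem T' hy hSw
      have e1 := hsw y hy b c T.2.2 j k hSw
      have hsub : sw b c j k y b \ x b ⊆ (y b \ x b).erase j := by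
        intro v hv
        obtain ⟨hv1, hv2⟩ := mem_sdiff.1 hv
        rw [mem_sw_a] at hv1
        have hvk : v ≠ k := by rintro rfl; exact hv2 hk1
        have hvj : v ≠ j := by
          rintro rfl
          rw [swap_apply_left] at hv1
          exact hk2 hv1
        rw [swap_apply_of_ne_of_ne hvj hvk] at hv1
        exact mem_erase.2 ⟨hvj, mem_sdiff.2 ⟨hv1, hv2⟩⟩
      have hlt : (sw b c j k y b \ x b).card < n := by
        have h1 := card_le_card hsub
        rw [card_erase_of_mem hj, hn] at h1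
        have h2 : 0 < n := by rw [← hn]; exact card_pos.2 ⟨j, hj⟩
        omega
      have e2 := ih _ hlt (sw b c j k y) hy1 (by rw [sw_c T.1 T.2.1]; exact hya) rfl
      rw [← e1]; exact e2

lemma exists_tri_first (a : Fin 3) : ∃ b c, Tri a b c := by
  revert a; unfold Tri; decide

/-- The key spectral fact. -/
lemma eigen_key {lam : ℝ} (hlam : 2 < lam)
    (hT : ∀ x ∈ Mset R s, ∑ i, cexp (Mset R s) (fun y => y i) φ x = lam * φ x) :
    ∀ x ∈ Mset R s, 3 * φ x = lam * φ x := by
  have hτ := step_A hlam hT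
  have hsw := step_B hlam hT hτ
  intro x hx
  rw [← hT x hx]
  have each : ∀ i, cexp (Mset R s) (fun y => y i) φ x = φ x := by
    intro i
    obtain ⟨b, c, T⟩ := exists_tri_first i
    have h1 : ∀ y ∈ blockOf (Mset R s) (fun y => y i) x, φ y = φ x := by
      intro y hy
      obtain ⟨hyM, hya⟩ := mem_blockOf.1 hy
      exact step_C hsw T hx _ y hyM hya rfl
    unfold cexp
    rw [Finset.sum_congr rfl h1, Finset.sum_const, nsmul_eq_mul]
    have : ((blockOf (Mset R s) (fun y => y i) x).card : ℝ) ≠ 0 := by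
      exact_mod_cast (blockOf_card_pos hx).ne'
    field_simp
  simp only [each, Fin.sum_univ_three]
  ring

/-- Averaging over a sub-Finset seen as a subtype. -/
lemma cexp_coe (F : Cfg C → ℝ) (i : Fin 3) (x : ↥(Mset R s)) :
    cexp (univ : Finset ↥(Mset R s)) (fun y => y.1 i) (fun y => F y.1) x
      = cexp (Mset R s) (fun y => y i) F x.1 := by
  have e : blockOf (Mset R s) (fun y => y i) x.1
      = (blockOf (univ : Finset ↥(Mset R s)) (fun y => y.1 i) x).map
          (Function.Embedding.subtype _) := by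
    ext y
    simp only [mem_blockOf, mem_map, mem_univ, true_and, Function.Embedding.coe_subtype]
    constructor
    · rintro ⟨h1, h2⟩
      exact ⟨⟨y, h1⟩, h2, rfl⟩
    · rintro ⟨z, h1, rfl⟩
      exact ⟨z.2, h1⟩
  unfold cexp
  rw [e, Finset.sum_map, Finset.card_map]
  rfl

/-- The sum of the three conditional expectations, on the subtype. -/
def Top (R : Fin 3 → ℕ) (s : C → ℕ) : (↥(Mset R s) → ℝ) →ₗ[ℝ] (↥(Mset R s) → ℝ) where
  toFun g := fun x => ∑ i, cexp (univ : Finset ↥(Mset R s)) (fun y => y.1 i) g x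
  map_add' g h := by
    funext x
    simp only [Pi.add_apply]
    rw [← Finset.sum_add_distrib]
    exact Finset.sum_congr rfl (fun i _ => cexp_add g h x)
  map_smul' c g := by
    funext x
    simp only [Pi.smul_apply, RingHom.id_apply, smul_eq_mul]
    rw [Finset.mul_sum]
    exact Finset.sum_congr rfl (fun i _ => cexp_smul c g x)

lemma Top_apply (g : ↥(Mset R s) → ℝ) (x : ↥(Mset R s)) :
    Top R s g x = ∑ i, cexp (univ : Finset ↥(Mset R s)) (fun y => y.1 i) g x := rfl

lemma Top_symm (f g : ↥(Mset R s) → ℝ) :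
    ∑ x, f x * Top R s g x = ∑ x, Top R s f x * g x := by
  simp only [Top_apply, Finset.mul_sum, Finset.sum_mul]
  rw [Finset.sum_comm, Finset.sum_comm (f := fun x i =>
    cexp (univ : Finset ↥(Mset R s)) (fun y => y.1 i) f x * g x)]
  exact Finset.sum_congr rfl (fun i _ => sum_mul_cexp_comm _ _ g f)

lemma Top_eigen (lam : ℝ) (ψ : ↥(Mset R s) → ℝ) (h0 : ψ ≠ 0) (h1 : Top R s ψ = lam • ψ) :
    0 ≤ 1 * lam ^ 2 + (-5) * lam + 6 := by
  by_cases hl : 2 < lam
  · classical
    let φ' : Cfg C → ℝ := fun y => if h : y ∈ Mset R s then ψ ⟨y, h⟩ else 0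
    have hφ' : ∀ y : ↥(Mset R s), φ' y.1 = ψ y := by
      intro y
      simp [φ', y.2]
    have hψ : ψ = fun y => φ' y.1 := by
      funext y; exact (hφ' y).symm
    have hT : ∀ x ∈ Mset R s, ∑ i, cexp (Mset R s) (fun y => y i) φ' x = lam * φ' x := by
      intro x hx
      have h2 := congrFun h1 ⟨x, hx⟩
      rw [Top_apply, Pi.smul_apply, smul_eq_mul] at h2
      have h3 : φ' x = ψ ⟨x, hx⟩ := hφ' ⟨x, hx⟩
      rw [h3, ← h2]
      refine Finset.sum_congr rfl (fun i _ => ?_)
      rw [hψ, cexp_coe]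
    have key := eigen_key hl hT
    obtain ⟨x, hx⟩ : ∃ x, ψ x ≠ 0 := by
      by_contra hh
      push Not at hh
      exact h0 (funext hh)
    have h4 := key x.1 x.2
    rw [hφ'] at h4
    have h5 : lam = 3 := by
      have : (3 - lam) * ψ x = 0 := by linarith
      rcases mul_eq_zero.1 this with h | h
      · linarith
      · exact absurd h hx
    rw [h5]
    norm_num
  · have : lam ≤ 2 := not_lt.1 hl
    nlinarith

end TR

open TR in
/-- The 3-row lemma: `Σ_{i≠j} ⟨I_i f, I_j f⟩ ≥ 0`, where `I_i = 1 - E[·|row i]`. -/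
theorem three_row (R : Fin 3 → ℕ) (s : C → ℕ) (f : Cfg C → ℝ) :
    0 ≤ ∑ i, ∑ j ∈ univ.erase i, ∑ x ∈ Mset R s,
        (f x - cexp (Mset R s) (fun y => y i) f x) * (f x - cexp (Mset R s) (fun y => y j) f x) := by
  have h := quad_nonneg_of_eigen (Top R s) Top_symm 1 (-5) 6 Top_eigen (fun x => f x.1)
  let E : Fin 3 → Cfg C → ℝ := fun i => cexp (Mset R s) (fun y => y i) f
  have hTop : ∀ x : ↥(Mset R s), Top R s (fun x => f x.1) x = E 0 x.1 + E 1 x.1 + E 2 x.1 := by
    intro x
    rw [Top_apply, Fin.sum_univ_three, cexp_coe, cexp_coe, cexp_coe]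
  simp only [hTop] at h
  have c1 := Finset.sum_coe_sort (Mset R s) (fun x => (E 0 x + E 1 x + E 2 x) ^ 2)
  have c2 := Finset.sum_coe_sort (Mset R s) (fun x => f x * (E 0 x + E 1 x + E 2 x))
  have c3 := Finset.sum_coe_sort (Mset R s) (fun x => f x ^ 2)
  rw [c1, c2, c3] at h
  have h0 : (univ.erase (0 : Fin 3)) = {1, 2} := by decide
  have h1 : (univ.erase (1 : Fin 3)) = {0, 2} := by decide
  have h2 : (univ.erase (2 : Fin 3)) = {0, 1} := by decide
  rw [Fin.sum_univ_three, h0, h1, h2, Finset.sum_pair (by decide), Finset.sum_pair (by decide),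
    Finset.sum_pair (by decide)]
  have s0 := sum_sub_cexp_sq (Mset R s) (fun y => y (0 : Fin 3)) f
  have s1 := sum_sub_cexp_sq (Mset R s) (fun y => y (1 : Fin 3)) f
  have s2 := sum_sub_cexp_sq (Mset R s) (fun y => y (2 : Fin 3)) f
  have key : ∑ x ∈ Mset R s, (E 0 x + E 1 x + E 2 x) ^ 2
        - 5 * ∑ x ∈ Mset R s, f x * (E 0 x + E 1 x + E 2 x) + 6 * ∑ x ∈ Mset R s, f x ^ 2
      = (∑ x ∈ Mset R s, (f x - E 0 x) * (f x - E 1 x)
          + ∑ x ∈ Mset R s, (f x - E 0 x) * (f x - E 2 x))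
        + (∑ x ∈ Mset R s, (f x - E 1 x) * (f x - E 0 x)
          + ∑ x ∈ Mset R s, (f x - E 1 x) * (f x - E 2 x))
        + (∑ x ∈ Mset R s, (f x - E 2 x) * (f x - E 0 x)
          + ∑ x ∈ Mset R s, (f x - E 2 x) * (f x - E 1 x))
        + (∑ x ∈ Mset R s, (f x - E 0 x) ^ 2 - ∑ x ∈ Mset R s, f x * (f x - E 0 x))
        + (∑ x ∈ Mset R s, (f x - E 1 x) ^ 2 - ∑ x ∈ Mset R s, f x * (f x - E 1 x))
        + (∑ x ∈ Mset R s, (f x - E 2 x) ^ 2 - ∑ x ∈ Mset R s, f x * (f x - E 2 x)) := by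
    rw [Finset.mul_sum, Finset.mul_sum, ← Finset.sum_sub_distrib, ← Finset.sum_add_distrib]
    simp only [← Finset.sum_add_distrib, ← Finset.sum_sub_distrib]
    refine Finset.sum_congr rfl (fun x _ => ?_)
    ring
  have s0' : ∑ x ∈ Mset R s, (f x - E 0 x) ^ 2 - ∑ x ∈ Mset R s, f x * (f x - E 0 x) = 0 :=
    sub_eq_zero.2 s0
  have s1' : ∑ x ∈ Mset R s, (f x - E 1 x) ^ 2 - ∑ x ∈ Mset R s, f x * (f x - E 1 x) = 0 :=
    sub_eq_zero.2 s1
  have s2' : ∑ x ∈ Mset R s, (f x - E 2 x) ^ 2 - ∑ x ∈ Mset R s, f x * (f x - E 2 x) = 0 :=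
    sub_eq_zero.2 s2
  have final : 0 ≤ (∑ x ∈ Mset R s, (f x - E 0 x) * (f x - E 1 x)
          + ∑ x ∈ Mset R s, (f x - E 0 x) * (f x - E 2 x))
        + (∑ x ∈ Mset R s, (f x - E 1 x) * (f x - E 0 x)
          + ∑ x ∈ Mset R s, (f x - E 1 x) * (f x - E 2 x))
        + (∑ x ∈ Mset R s, (f x - E 2 x) * (f x - E 0 x)
          + ∑ x ∈ Mset R s, (f x - E 2 x) * (f x - E 1 x)) := by
    linarith
  exact final

end

end Crest.Agent.SW
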