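/-
S0453 project: encoding of triple fibres into 3 × N matrices.  See SWPLAN.md, piece ENC3.
-/
import Crest.Agent.SWCore
import Crest.Agent.SW3N

set_option autoImplicit false
open Finset
open Crest.SwitchChain

namespace Crest.Agent.SW

variable {n : ℕ}

/-- `⟨I_p f, I_q f⟩`. -/
noncomputable def ipI (D : Fin n → ℕ) (f : Gr n → ℝ) (p q : Finset (Fin n)) : ℝ :=
  ∑ G ∈ realizations D, Iop D p f G * Iop D q f G

namespace Enc3

noncomputable section

open scoped Classical

/-! ### Abstract transfer of conditional expectations along a bijection -/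

lemma sum_transfer {α β : Type*} {J : Finset α} {M : Finset β} {enc : α → β}
    (hinj : Set.InjOn enc (J : Set α)) (hmaps : ∀ G ∈ J, enc G ∈ M)
    (hsurj : ∀ c ∈ M, ∃ G ∈ J, enc G = c) (h : β → ℝ) :
    ∑ c ∈ M, h c = ∑ G ∈ J, h (enc G) := by
  refine (Finset.sum_nbij enc hmaps hinj ?_ (fun _ _ => rfl)).symm
  intro c hc
  obtain ⟨G, hG, rfl⟩ := hsurj c hc
  exact ⟨G, hG, rfl⟩

lemma cexp_transfer {α β κ κ' : Type*} [DecidableEq κ] [DecidableEq κ']
    {Ω J : Finset α} {M : Finset β} {enc : α → β}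
    (hinj : Set.InjOn enc (J : Set α)) (hmaps : ∀ G ∈ J, enc G ∈ M)
    (hsurj : ∀ c ∈ M, ∃ G ∈ J, enc G = c)
    {key : α → κ} {key' : β → κ'}
    (hJ : J ⊆ Ω)
    (hsub : ∀ G ∈ J, ∀ H ∈ Ω, key H = key G → H ∈ J)
    (hkey : ∀ G ∈ J, ∀ H ∈ J, key H = key G ↔ key' (enc H) = key' (enc G))
    {f : α → ℝ} {F : β → ℝ} (hF : ∀ G ∈ J, F (enc G) = f G) {G : α} (hG : G ∈ J) :
    cexp Ω key f G = cexp M key' F (enc G) := by
  have hsubb : ∀ H ∈ blockOf Ω key G, H ∈ J := fun H hH =>
    hsub G hG H (mem_blockOf.1 hH).1 (mem_blockOf.1 hH).2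
  have hinj' : Set.InjOn enc (blockOf Ω key G : Set α) := fun a ha b hb hab =>
    hinj (hsubb a ha) (hsubb b hb) hab
  have hmaps' : ∀ H ∈ blockOf Ω key G, enc H ∈ blockOf M key' (enc G) := by
    intro H hH
    have hHJ := hsubb H hH
    exact mem_blockOf.2 ⟨hmaps H hHJ, (hkey G hG H hHJ).1 (mem_blockOf.1 hH).2⟩
  have hsurj' : ∀ c ∈ blockOf M key' (enc G), ∃ H ∈ blockOf Ω key G, enc H = c := by
    intro c hc
    obtain ⟨hc, hk⟩ := mem_blockOf.1 hc
    obtain ⟨H, hH, rfl⟩ := hsurj c hc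
    exact ⟨H, mem_blockOf.2 ⟨hJ hH, (hkey G hG H hH).2 hk⟩, rfl⟩
  simp only [cexp]
  rw [sum_transfer hinj' hmaps' hsurj' F]
  have hcard : (blockOf M key' (enc G)).card = (blockOf Ω key G).card := by
    refine (Finset.card_nbij enc hmaps' hinj' ?_).symm
    intro c hc
    obtain ⟨H, hH, rfl⟩ := hsurj' c hc
    exact ⟨H, hH, rfl⟩
  rw [hcard]
  congr 1
  exact Finset.sum_congr rfl (fun H hH => (hF H (hsubb H hH)).symm)

/-! ### Inner degree sums are determined by the outer edges -/

variable {D : Fin n → ℕ}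

lemma keyOff_mono {U V : Finset (Fin n)} (h : U ⊆ V) {G H : Gr n}
    (hk : keyOff U G = keyOff U H) : keyOff V G = keyOff V H := by
  rw [keyOff_eq_iff] at hk ⊢
  exact fun u v hu hv => hk u v (fun hm => hu (h hm)) (fun hm => hv (h hm))

lemma card_nb_split (G : Gr n) (u : Fin n) (U : Finset (Fin n)) :
    (nb G u).card = (nb G u ∩ U).card + (nb G u \ U).card :=
  (Finset.card_inter_add_card_sdiff _ _).symm

lemma sdiff_eq_of_key {U : Finset (Fin n)} {G H : Gr n} (hk : keyOff U G = keyOff U H)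
    {v : Fin n} (hv : v ∉ U) : nb G v \ U = nb H v \ U := by
  rw [keyOff_eq_iff] at hk
  ext w
  simp only [Finset.mem_sdiff, mem_nb]
  constructor
  · rintro ⟨h, hw⟩; exact ⟨(hk v w hv hw).1 h, hw⟩
  · rintro ⟨h, hw⟩; exact ⟨(hk v w hv hw).2 h, hw⟩

lemma double_count (G : Gr n) (U : Finset (Fin n)) :
    ∑ u ∈ U, (nb G u \ U).card = ∑ v ∈ Uᶜ, (nb G v ∩ U).card := by
  have h1 : ∀ u ∈ U, (nb G u \ U).card = (Uᶜ.filter (fun v => adj G u v)).card := by
    intro u _
    congr 1
    ext v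
    simp [and_comm]
  have h2 : ∀ v ∈ Uᶜ, (nb G v ∩ U).card = (U.filter (fun u => adj G u v)).card := by
    intro v _
    congr 1
    ext u
    simp only [Finset.mem_inter, mem_nb, Finset.mem_filter]
    rw [adj_comm]
    tauto
  rw [Finset.sum_congr rfl h1, Finset.sum_congr rfl h2]
  exact Finset.sum_card_bipartiteAbove_eq_sum_card_bipartiteBelow (fun u v => adj G u v)

lemma inner_add_outer {G : Gr n} (hG : G ∈ realizations D) (U : Finset (Fin n)) :
    ∑ u ∈ U, (nb G u ∩ U).card + ∑ v ∈ Uᶜ, (nb G v ∩ U).card = ∑ u ∈ U, D u := by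
  rw [← double_count, ← Finset.sum_add_distrib]
  refine Finset.sum_congr rfl (fun u _ => ?_)
  rw [← card_nb_split, mem_realizations.1 hG u]

/-- The number of edges inside `U` is determined by the degrees and the edges off `U`. -/
lemma inner_eq {G H : Gr n} (hG : G ∈ realizations D) (hH : H ∈ realizations D)
    {U : Finset (Fin n)} (hk : keyOff U G = keyOff U H) :
    ∑ u ∈ U, (nb G u ∩ U).card = ∑ u ∈ U, (nb H u ∩ U).card := by
  have h1 := inner_add_outer hG U
  have h2 := inner_add_outer hH U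
  have h3 : ∑ v ∈ Uᶜ, (nb G v ∩ U).card = ∑ v ∈ Uᶜ, (nb H v ∩ U).card := by
    refine Finset.sum_congr rfl (fun v hv => ?_)
    have hv' : v ∉ U := by simpa using hv
    have e1 := card_nb_split G v U
    have e2 := card_nb_split H v U
    rw [mem_realizations.1 hG v] at e1
    rw [mem_realizations.1 hH v] at e2
    rw [sdiff_eq_of_key hk hv'] at e1
    omega
  omega

/-- Within a `{a, b}`-block of realizations the edge `ab` is determined. -/
lemma adj_pair_of_key {G H : Gr n} (hG : G ∈ realizations D) (hH : H ∈ realizations D)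
    {a b : Fin n} (hab : a ≠ b) (hk : keyOff {a, b} G = keyOff {a, b} H) :
    adj G a b ↔ adj H a b := by
  have h := inner_eq hG hH hk
  have e : ∀ K : Gr n, ∑ u ∈ ({a, b} : Finset (Fin n)), (nb K u ∩ {a, b}).card
      = 2 * (if adj K a b then 1 else 0) := by
    intro K
    rw [Finset.sum_pair hab]
    have e1 : nb K a ∩ {a, b} = if adj K a b then {b} else ∅ := by
      ext v
      by_cases hK : adj K a b
      · simp only [hK, if_true, Finset.mem_inter, mem_nb, Finset.mem_insert,
          Finset.mem_singleton]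
        constructor
        · rintro ⟨h1, rfl | rfl⟩
          · exact absurd h1 (adj_irrefl _ _)
          · rfl
        · rintro rfl; exact ⟨hK, Or.inr rfl⟩
      · simp only [hK, if_false, Finset.mem_inter, mem_nb, Finset.mem_insert,
          Finset.mem_singleton, Finset.notMem_empty, iff_false]
        rintro ⟨h1, rfl | rfl⟩
        · exact adj_irrefl _ _ h1
        · exact hK h1
    have e2 : nb K b ∩ {a, b} = if adj K a b then {a} else ∅ := by
      ext v
      by_cases hK : adj K a b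
      · simp only [hK, if_true, Finset.mem_inter, mem_nb, Finset.mem_insert,
          Finset.mem_singleton]
        constructor
        · rintro ⟨h1, rfl | rfl⟩
          · rfl
          · exact absurd h1 (adj_irrefl _ _)
        · rintro rfl; exact ⟨adj_comm.1 hK, Or.inl rfl⟩
      · simp only [hK, if_false, Finset.mem_inter, mem_nb, Finset.mem_insert,
          Finset.mem_singleton, Finset.notMem_empty, iff_false]
        rintro ⟨h1, rfl | rfl⟩
        · exact hK (adj_comm.1 h1)
        · exact adj_irrefl _ _ h1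
    rw [e1, e2]
    by_cases hK : adj K a b <;> simp [hK]
  rw [e, e] at h
  by_cases h1 : adj G a b <;> by_cases h2 : adj H a b <;> simp_all

/-! ### The encoding -/

section encoding

variable (r : Fin 3 → Fin n)

/-- The three row vertices. -/
def tau : Finset (Fin n) := univ.image r

lemma mem_tau {v : Fin n} : v ∈ tau r ↔ ∃ i, r i = v := by simp [tau]

lemma r_mem_tau (i : Fin 3) : r i ∈ tau r := by simp [tau]

/-- Row `i`: the neighbours of `r i` outside the triple, plus the extra column `r 0` when the edge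
opposite to `r i` in the triple is absent. -/
def rowE (G : Gr n) (i : Fin 3) : Finset (Fin n) :=
  (nb G (r i) \ tau r) ∪ (if adj G (r (i + 1)) (r (i + 2)) then ∅ else {r 0})

/-- Number of edges in the triple. -/
def triT (G : Gr n) : ℕ := (univ.filter (fun i : Fin 3 => adj G (r (i + 1)) (r (i + 2)))).card

/-- Column sum. -/
def col (c : Cfg (Fin n)) (v : Fin n) : ℕ := (univ.filter (fun i => v ∈ c i)).card

lemma mem_Mset {R : Fin 3 → ℕ} {s : Fin n → ℕ} {c : Cfg (Fin n)} :
    c ∈ Mset R s ↔ (∀ i, (c i).card = R i) ∧ ∀ v, col c v = s v := by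
  simp [Mset, col]

variable {r}

lemma mem_rowE_off {G : Gr n} {i : Fin 3} {v : Fin n} (hv : v ∉ tau r) :
    v ∈ rowE r G i ↔ adj G (r i) v := by
  have hv0 : v ≠ r 0 := fun h => hv (h ▸ r_mem_tau r 0)
  simp only [rowE, Finset.mem_union, Finset.mem_sdiff, mem_nb]
  by_cases h : adj G (r (i + 1)) (r (i + 2))
  · simp [h, hv]
  · simp [h, hv, hv0]

lemma r0_mem_rowE {G : Gr n} {i : Fin 3} :
    r 0 ∈ rowE r G i ↔ ¬ adj G (r (i + 1)) (r (i + 2)) := by
  simp only [rowE, Finset.mem_union, Finset.mem_sdiff, r_mem_tau, not_true, and_false, false_or]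
  by_cases h : adj G (r (i + 1)) (r (i + 2)) <;> simp [h]

lemma r_not_mem_rowE (hr : Function.Injective r) {G : Gr n} {i j : Fin 3} (hj : j ≠ 0) :
    r j ∉ rowE r G i := by
  simp only [rowE, Finset.mem_union, Finset.mem_sdiff, r_mem_tau, not_true, and_false, false_or]
  by_cases h : adj G (r (i + 1)) (r (i + 2))
  · simp [h]
  · simp [h, hr.ne hj]

lemma inner_card (hr : Function.Injective r) (G : Gr n) (u : Fin n) :
    (nb G u ∩ tau r).card = (univ.filter (fun j => adj G u (r j))).card := by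
  have : nb G u ∩ tau r = (univ.filter (fun j => adj G u (r j))).image r := by
    ext v
    simp only [Finset.mem_inter, mem_nb, mem_tau, Finset.mem_image, Finset.mem_filter,
      Finset.mem_univ, true_and]
    constructor
    · rintro ⟨h, j, rfl⟩; exact ⟨j, h, rfl⟩
    · rintro ⟨j, h, rfl⟩; exact ⟨h, j, rfl⟩
  rw [this, Finset.card_image_of_injective _ hr]

lemma add_cases : ((0 : Fin 3) + 1 = 1) ∧ ((0 : Fin 3) + 2 = 2) ∧ ((1 : Fin 3) + 1 = 2) ∧
    ((1 : Fin 3) + 2 = 0) ∧ ((2 : Fin 3) + 1 = 0) ∧ ((2 : Fin 3) + 2 = 1) := by decide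

lemma triT_eq (G : Gr n) : triT r G = (if adj G (r 1) (r 2) then 1 else 0)
    + (if adj G (r 2) (r 0) then 1 else 0) + (if adj G (r 0) (r 1) then 1 else 0) := by
  obtain ⟨h1, h2, h3, h4, h5, h6⟩ := add_cases
  simp only [triT, Finset.card_filter, Fin.sum_univ_three, h1, h2, h3, h4, h5, h6]

lemma rowE_card (G : Gr n) (i : Fin 3) : (rowE r G i).card =
    (nb G (r i) \ tau r).card + (if adj G (r (i + 1)) (r (i + 2)) then 0 else 1) := by
  unfold rowE
  by_cases h : adj G (r (i + 1)) (r (i + 2))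
  · simp [h]
  · simp only [h, if_false]
    rw [Finset.card_union_of_disjoint]
    · simp
    · simp [r_mem_tau]

lemma fin3_cases {P : Fin 3 → Prop} (h0 : P 0) (h1 : P 1) (h2 : P 2) (i : Fin 3) : P i := by
  fin_cases i <;> assumption

/-- (L1) -/
lemma rowE_card_add_triT (hr : Function.Injective r) (G : Gr n) (i : Fin 3) :
    (rowE r G i).card + triT r G = (nb G (r i)).card + 1 := by
  obtain ⟨h1, h2, h3, h4, h5, h6⟩ := add_cases
  have c10 : adj G (r 1) (r 0) ↔ adj G (r 0) (r 1) := adj_comm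
  have c20 : adj G (r 0) (r 2) ↔ adj G (r 2) (r 0) := adj_comm
  have c21 : adj G (r 2) (r 1) ↔ adj G (r 1) (r 2) := adj_comm
  rw [rowE_card, triT_eq, card_nb_split G (r i) (tau r), inner_card hr, Finset.card_filter,
    Fin.sum_univ_three]
  refine fin3_cases (P := fun i => (nb G (r i) \ tau r).card +
      (if adj G (r (i + 1)) (r (i + 2)) then 0 else 1) +
      ((if adj G (r 1) (r 2) then 1 else 0) + (if adj G (r 2) (r 0) then 1 else 0) +
        (if adj G (r 0) (r 1) then 1 else 0)) =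
      (if adj G (r i) (r 0) then 1 else 0) + (if adj G (r i) (r 1) then 1 else 0) +
        (if adj G (r i) (r 2) then 1 else 0) + (nb G (r i) \ tau r).card + 1) ?_ ?_ ?_ i
  · simp only [h1, h2, adj_irrefl, if_false, c20]
    split_ifs <;> omega
  · simp only [h3, h4, adj_irrefl, if_false, c10]
    split_ifs <;> omega
  · simp only [h5, h6, adj_irrefl, if_false, c21]
    split_ifs <;> omega

/-- (L2) -/
lemma card_nb_off (hr : Function.Injective r) (G : Gr n) {v : Fin n} (hv : v ∉ tau r) :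
    (nb G v).card = (nb G v \ tau r).card + col (rowE r G) v := by
  rw [card_nb_split G v (tau r), inner_card hr, add_comm]
  congr 2
  ext i
  simp only [Finset.mem_filter, Finset.mem_univ, true_and, mem_rowE_off hv]
  exact adj_comm

/-- (L3) -/
lemma col_r0_add_triT (G : Gr n) : col (rowE r G) (r 0) + triT r G = 3 := by
  have := Finset.card_filter_add_card_filter_not (s := (univ : Finset (Fin 3)))
    (fun i : Fin 3 => adj G (r (i + 1)) (r (i + 2)))
  simp only [Finset.card_univ, Fintype.card_fin] at this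
  have e1 : col (rowE r G) (r 0)
      = (univ.filter (fun i : Fin 3 => ¬ adj G (r (i + 1)) (r (i + 2)))).card := by
    simp only [col, r0_mem_rowE]
  rw [e1]
  unfold triT
  omega

/-- (L4) -/
lemma col_r_eq_zero (hr : Function.Injective r) (G : Gr n) {j : Fin 3} (hj : j ≠ 0) :
    col (rowE r G) (r j) = 0 := by
  simp only [col, Finset.card_eq_zero, Finset.filter_eq_empty_iff, Finset.mem_univ, true_implies]
  exact fun i => r_not_mem_rowE hr hj

lemma sum_tau (hr : Function.Injective r) (g : Fin n → ℕ) :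
    ∑ u ∈ tau r, g u = g (r 0) + g (r 1) + g (r 2) := by
  unfold tau
  rw [Finset.sum_image hr.injOn, Fin.sum_univ_three]

lemma two_triT (hr : Function.Injective r) (G : Gr n) :
    ∑ u ∈ tau r, (nb G u ∩ tau r).card = 2 * triT r G := by
  have c10 : adj G (r 1) (r 0) ↔ adj G (r 0) (r 1) := adj_comm
  have c20 : adj G (r 0) (r 2) ↔ adj G (r 2) (r 0) := adj_comm
  have c21 : adj G (r 2) (r 1) ↔ adj G (r 1) (r 2) := adj_comm
  rw [sum_tau hr, triT_eq]
  simp only [inner_card hr, Finset.card_filter, Fin.sum_univ_three, adj_irrefl, if_false, c10, c20,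
    c21]
  split_ifs <;> omega

lemma triT_eq_of_key (hr : Function.Injective r) {D : Fin n → ℕ} {G H : Gr n}
    (hG : G ∈ realizations D) (hH : H ∈ realizations D)
    (hk : keyOff (tau r) G = keyOff (tau r) H) : triT r G = triT r H := by
  have := inner_eq hG hH hk
  rw [two_triT hr, two_triT hr] at this
  omega

lemma col_eq_of_key (hr : Function.Injective r) {D : Fin n → ℕ} {G H : Gr n}
    (hG : G ∈ realizations D) (hH : H ∈ realizations D)
    (hk : keyOff (tau r) G = keyOff (tau r) H) (v : Fin n) :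
    col (rowE r G) v = col (rowE r H) v := by
  by_cases hv : v ∈ tau r
  · obtain ⟨j, rfl⟩ := (mem_tau r).1 hv
    by_cases hj : j = 0
    · subst hj
      have h1 := col_r0_add_triT (r := r) G
      have h2 := col_r0_add_triT (r := r) H
      have h3 := triT_eq_of_key hr hG hH hk
      omega
    · rw [col_r_eq_zero hr G hj, col_r_eq_zero hr H hj]
  · have h1 := card_nb_off hr G hv
    have h2 := card_nb_off hr H hv
    rw [mem_realizations.1 hG v] at h1
    rw [mem_realizations.1 hH v] at h2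
    rw [sdiff_eq_of_key hk hv] at h1
    omega

lemma card_eq_of_key (hr : Function.Injective r) {D : Fin n → ℕ} {G H : Gr n}
    (hG : G ∈ realizations D) (hH : H ∈ realizations D)
    (hk : keyOff (tau r) G = keyOff (tau r) H) (i : Fin 3) :
    (rowE r G i).card = (rowE r H i).card := by
  have h1 := rowE_card_add_triT hr G i
  have h2 := rowE_card_add_triT hr H i
  have h3 := triT_eq_of_key hr hG hH hk
  rw [mem_realizations.1 hG (r i)] at h1
  rw [mem_realizations.1 hH (r i)] at h2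
  omega

lemma tri_of_t {G H : Gr n}
    (h : ∀ k : Fin 3, adj G (r (k + 1)) (r (k + 2)) ↔ adj H (r (k + 1)) (r (k + 2)))
    (i j : Fin 3) : adj G (r i) (r j) ↔ adj H (r i) (r j) := by
  obtain ⟨h1, h2, h3, h4, h5, h6⟩ := add_cases
  have t0 := h 0
  have t1 := h 1
  have t2 := h 2
  simp only [h1, h2, h3, h4, h5, h6] at t0 t1 t2
  fin_cases i <;> fin_cases j <;> simp only [Fin.zero_eta, Fin.mk_one, Fin.reduceFinMk, adj_irrefl]
  · exact t2
  · rw [adj_comm (G := G), adj_comm (G := H)]; exact t1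
  · rw [adj_comm (G := G), adj_comm (G := H)]; exact t2
  · exact t0
  · exact t1
  · rw [adj_comm (G := G), adj_comm (G := H)]; exact t0

lemma rowE_inj {G H : Gr n}
    (hk : keyOff (tau r) G = keyOff (tau r) H) (he : rowE r G = rowE r H) : G = H := by
  have hrow : ∀ i v, v ∉ tau r → (adj G (r i) v ↔ adj H (r i) v) := by
    intro i v hv
    rw [← mem_rowE_off hv, ← mem_rowE_off hv, he]
  have ht : ∀ k : Fin 3, adj G (r (k + 1)) (r (k + 2)) ↔ adj H (r (k + 1)) (r (k + 2)) := by
    intro k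
    have : r 0 ∈ rowE r G k ↔ r 0 ∈ rowE r H k := by rw [he]
    rw [r0_mem_rowE, r0_mem_rowE] at this
    exact not_iff_not.1 this
  apply graph_ext
  intro u v
  by_cases hu : u ∈ tau r
  · obtain ⟨i, rfl⟩ := (mem_tau r).1 hu
    by_cases hv : v ∈ tau r
    · obtain ⟨j, rfl⟩ := (mem_tau r).1 hv
      exact tri_of_t ht i j
    · exact hrow i v hv
  · by_cases hv : v ∈ tau r
    · obtain ⟨j, rfl⟩ := (mem_tau r).1 hv
      rw [adj_comm (G := G), adj_comm (G := H)]
      exact hrow j u hu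
    · exact (keyOff_eq_iff.1 hk) u v hu hv

/-- `p`-blocks correspond to row keys. -/
lemma key_iff_row (hr : Function.Injective r) {D : Fin n → ℕ} {G H : Gr n}
    (hG : G ∈ realizations D) (hH : H ∈ realizations D)
    (hk : keyOff (tau r) G = keyOff (tau r) H) (i : Fin 3) :
    keyOff {r (i + 1), r (i + 2)} G = keyOff {r (i + 1), r (i + 2)} H ↔
      rowE r G i = rowE r H i := by
  have hi1 : ∀ i : Fin 3, i ≠ i + 1 := by decide
  have hi2 : ∀ i : Fin 3, i ≠ i + 2 := by decide
  have hi12 : ∀ i : Fin 3, i + 1 ≠ i + 2 := by decide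
  have hall : ∀ i j : Fin 3, j = i ∨ j = i + 1 ∨ j = i + 2 := by decide
  constructor
  · intro hp
    ext v
    by_cases hv : v ∈ tau r
    · obtain ⟨j, rfl⟩ := (mem_tau r).1 hv
      by_cases hj : j = 0
      · subst hj
        rw [r0_mem_rowE, r0_mem_rowE, not_iff_not]
        exact adj_pair_of_key hG hH (hr.ne (hi12 i)) hp
      · simp [r_not_mem_rowE hr hj]
    · rw [mem_rowE_off hv, mem_rowE_off hv]
      refine (keyOff_eq_iff.1 hp) (r i) v ?_ ?_
      · simp only [Finset.mem_insert, Finset.mem_singleton, not_or]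
        exact ⟨hr.ne (hi1 i), hr.ne (hi2 i)⟩
      · simp only [Finset.mem_insert, Finset.mem_singleton, not_or]
        exact ⟨fun h => hv (h ▸ r_mem_tau r _), fun h => hv (h ▸ r_mem_tau r _)⟩
  · intro he
    have hrow : ∀ v, v ∉ tau r → (adj G (r i) v ↔ adj H (r i) v) := by
      intro v hv
      rw [← mem_rowE_off hv, ← mem_rowE_off hv, he]
    have hcl : ∀ w, w ∉ ({r (i + 1), r (i + 2)} : Finset (Fin n)) → w ∉ tau r ∨ w = r i := by
      intro w hw
      by_cases hwt : w ∈ tau r
      · obtain ⟨j, rfl⟩ := (mem_tau r).1 hwt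
        simp only [Finset.mem_insert, Finset.mem_singleton, not_or] at hw
        rcases hall i j with rfl | rfl | rfl
        · exact Or.inr rfl
        · exact absurd rfl hw.1
        · exact absurd rfl hw.2
      · exact Or.inl hwt
    rw [keyOff_eq_iff]
    intro u v hu hv
    rcases hcl u hu with hu' | rfl
    · rcases hcl v hv with hv' | rfl
      · exact (keyOff_eq_iff.1 hk) u v hu' hv'
      · rw [adj_comm (G := G), adj_comm (G := H)]
        exact hrow u hu'
    · rcases hcl v hv with hv' | rfl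
      · exact hrow v hv'
      · simp [adj_irrefl]

/-! ### Surjectivity -/

variable (r)

/-- Adjacency of the vertices of the triple in the graph decoded from a configuration. -/
def rho (c : Cfg (Fin n)) (u v : Fin n) : Prop :=
  ∃ i, u = r i ∧ ((v ∉ tau r ∧ v ∈ c i) ∨ (v = r (i + 1) ∧ r 0 ∉ c (i + 2)) ∨
    (v = r (i + 2) ∧ r 0 ∉ c (i + 1)))

variable {r}

lemma rho_symm (c : Cfg (Fin n)) :
    ∀ u ∈ tau r, ∀ v ∈ tau r, rho r c u v → rho r c v u := by
  have a1 : ∀ i : Fin 3, i + 1 + 2 = i := by decide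
  have a2 : ∀ i : Fin 3, i + 1 + 1 = i + 2 := by decide
  have a3 : ∀ i : Fin 3, i + 2 + 1 = i := by decide
  have a4 : ∀ i : Fin 3, i + 2 + 2 = i + 1 := by decide
  rintro u _ v hv ⟨i, rfl, h⟩
  rcases h with ⟨h1, _⟩ | ⟨rfl, h2⟩ | ⟨rfl, h2⟩
  · exact absurd hv h1
  · exact ⟨i + 1, rfl, Or.inr (Or.inr ⟨by rw [a1], by rwa [a2]⟩)⟩
  · exact ⟨i + 2, rfl, Or.inr (Or.inl ⟨by rw [a3], by rwa [a4]⟩)⟩

lemma adj_dec_off (hr : Function.Injective r) (G₀ : Gr n) (c : Cfg (Fin n)) {i : Fin 3} {v : Fin n}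
    (hv : v ∉ tau r) : adj (patch G₀ (tau r) (rho r c)) (r i) v ↔ v ∈ c i := by
  rw [adj_patch_mem (rho_symm c) (r_mem_tau r i)]
  constructor
  · rintro ⟨_, i', he, h⟩
    have : i' = i := (hr he).symm
    subst this
    rcases h with ⟨_, h⟩ | ⟨rfl, _⟩ | ⟨rfl, _⟩
    · exact h
    · exact absurd (r_mem_tau r _) hv
    · exact absurd (r_mem_tau r _) hv
  · intro h
    exact ⟨fun hh => hv (hh ▸ r_mem_tau r i), i, rfl, Or.inl ⟨hv, h⟩⟩

lemma adj_dec_t (hr : Function.Injective r) (G₀ : Gr n) (c : Cfg (Fin n)) {i : Fin 3} :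
    adj (patch G₀ (tau r) (rho r c)) (r (i + 1)) (r (i + 2)) ↔ r 0 ∉ c i := by
  have a1 : ∀ i : Fin 3, i + 1 + 2 = i := by decide
  have a2 : ∀ i : Fin 3, i + 1 + 1 = i + 2 := by decide
  have hi2 : ∀ i : Fin 3, i + 2 ≠ i := by decide
  have hi12 : ∀ i : Fin 3, i + 1 ≠ i + 2 := by decide
  rw [adj_patch_mem (rho_symm c) (r_mem_tau r _)]
  constructor
  · rintro ⟨_, i', he, h⟩
    have : i' = i + 1 := (hr he).symm
    subst this
    rcases h with ⟨h1, _⟩ | ⟨_, h2⟩ | ⟨h1, _⟩
    · exact absurd (r_mem_tau r _) h1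
    · rwa [a1] at h2
    · rw [a1] at h1
      exact absurd (hr h1) (hi2 i)
  · intro h
    exact ⟨hr.ne (hi12 i), i + 1, rfl, Or.inr (Or.inl ⟨by rw [a2], by rwa [a1]⟩)⟩

lemma rowE_dec (hr : Function.Injective r) (G₀ : Gr n) {c : Cfg (Fin n)}
    (hc : ∀ j : Fin 3, j ≠ 0 → ∀ i, r j ∉ c i) :
    rowE r (patch G₀ (tau r) (rho r c)) = c := by
  funext i
  ext v
  by_cases hv : v ∈ tau r
  · obtain ⟨j, rfl⟩ := (mem_tau r).1 hv
    by_cases hj : j = 0
    · subst hj
      rw [r0_mem_rowE, adj_dec_t hr, not_not]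
    · simp [r_not_mem_rowE hr hj, hc j hj i]
  · rw [mem_rowE_off hv, adj_dec_off hr G₀ c hv]

lemma keyOff_dec (G₀ : Gr n) (c : Cfg (Fin n)) :
    keyOff (tau r) (patch G₀ (tau r) (rho r c)) = keyOff (tau r) G₀ := by
  rw [keyOff_eq_iff]
  intro u v hu hv
  exact adj_patch_not_mem (rho_symm c) hu hv

lemma dec_mem (hr : Function.Injective r) {D : Fin n → ℕ} {G₀ : Gr n} (hG₀ : G₀ ∈ realizations D)
    {c : Cfg (Fin n)} (hc : c ∈ Mset (fun i => (rowE r G₀ i).card) (col (rowE r G₀))) :
    patch G₀ (tau r) (rho r c) ∈ realizations D ∧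
      rowE r (patch G₀ (tau r) (rho r c)) = c := by
  obtain ⟨hR, hs⟩ := mem_Mset.1 hc
  have hc0 : ∀ j : Fin 3, j ≠ 0 → ∀ i, r j ∉ c i := by
    intro j hj i hmem
    have h1 := hs (r j)
    rw [col_r_eq_zero hr G₀ hj] at h1
    simp only [col, Finset.card_eq_zero, Finset.filter_eq_empty_iff, Finset.mem_univ,
      true_implies] at h1
    exact h1 hmem
  have he := rowE_dec hr G₀ hc0
  refine ⟨?_, he⟩
  set G := patch G₀ (tau r) (rho r c) with hGdef
  have hT : triT r G = triT r G₀ := by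
    have h1 := col_r0_add_triT (r := r) G
    have h2 := col_r0_add_triT (r := r) G₀
    rw [he, hs] at h1
    omega
  rw [mem_realizations]
  intro v
  by_cases hv : v ∈ tau r
  · obtain ⟨i, rfl⟩ := (mem_tau r).1 hv
    have h1 := rowE_card_add_triT hr G i
    have h2 := rowE_card_add_triT hr G₀ i
    rw [he, hR, hT] at h1
    rw [mem_realizations.1 hG₀ (r i)] at h2
    omega
  · have h1 := card_nb_off hr G hv
    have h2 := card_nb_off hr G₀ hv
    rw [he, hs, sdiff_eq_of_key (keyOff_dec G₀ c) hv] at h1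
    rw [mem_realizations.1 hG₀ v] at h2
    omega

/-! ### Sum over the fibre -/

variable (r)

/-- The pair opposite to index `i`. -/
def pOpp (i : Fin 3) : Finset (Fin n) := {r (i + 1), r (i + 2)}

variable {r}

lemma pOpp_subset (i : Fin 3) : pOpp r i ⊆ tau r := by
  intro v hv
  simp only [pOpp, Finset.mem_insert, Finset.mem_singleton] at hv
  rcases hv with rfl | rfl <;> exact r_mem_tau r _

/-- The fibre statement. -/
lemma fibre_nonneg (hr : Function.Injective r) (D : Fin n → ℕ) (f : Gr n → ℝ) {G₀ : Gr n}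
    (hG₀ : G₀ ∈ realizations D) :
    0 ≤ ∑ G ∈ blockOf (realizations D) (keyOff (tau r)) G₀,
      ∑ i, ∑ j ∈ univ.erase i, Iop D (pOpp r i) f G * Iop D (pOpp r j) f G := by
  set J := blockOf (realizations D) (keyOff (tau r)) G₀ with hJdef
  set M := Mset (fun i => (rowE r G₀ i).card) (col (rowE r G₀)) with hMdef
  have hJΩ : ∀ G ∈ J, G ∈ realizations D := fun G hG => (mem_blockOf.1 hG).1
  have hJk : ∀ G ∈ J, keyOff (tau r) G = keyOff (tau r) G₀ := fun G hG => (mem_blockOf.1 hG).2
  have hJJ : ∀ G ∈ J, ∀ H ∈ J, keyOff (tau r) G = keyOff (tau r) H := fun G hG H hH =>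
    (hJk G hG).trans (hJk H hH).symm
  have hinj : Set.InjOn (rowE r) (J : Set (Gr n)) := fun G hG H hH he =>
    rowE_inj (hJJ G hG H hH) he
  have hmaps : ∀ G ∈ J, rowE r G ∈ M := by
    intro G hG
    refine mem_Mset.2 ⟨fun i => card_eq_of_key hr (hJΩ G hG) hG₀ (hJk G hG) i,
      fun v => col_eq_of_key hr (hJΩ G hG) hG₀ (hJk G hG) v⟩
  have hsurj : ∀ c ∈ M, ∃ G ∈ J, rowE r G = c := by
    intro c hc
    obtain ⟨h1, h2⟩ := dec_mem hr hG₀ hc
    exact ⟨_, mem_blockOf.2 ⟨h1, keyOff_dec G₀ c⟩, h2⟩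
  -- the function on configurations
  let F : Cfg (Fin n) → ℝ := fun c => f (Function.invFunOn (rowE r) (J : Set (Gr n)) c)
  have hF : ∀ G ∈ J, F (rowE r G) = f G := by
    intro G hG
    have h := Function.invFunOn_mem (f := rowE r) (s := (J : Set (Gr n))) (b := rowE r G) ⟨G, hG, rfl⟩
    have h' := Function.invFunOn_eq (f := rowE r) (s := (J : Set (Gr n))) (b := rowE r G) ⟨G, hG, rfl⟩
    have := hinj h hG h'
    simp only [F]
    rw [this]
  have hcexp : ∀ i, ∀ G ∈ J, Iop D (pOpp r i) f G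
      = F (rowE r G) - cexp M (fun y : Cfg (Fin n) => y i) F (rowE r G) := by
    intro i G hG
    rw [hF G hG]
    unfold Iop Eop
    congr 1
    refine cexp_transfer hinj hmaps hsurj (fun H hH => hJΩ H hH) ?_ ?_ hF hG
    · intro G' hG' H hH hk
      refine mem_blockOf.2 ⟨hH, ?_⟩
      exact (keyOff_mono (pOpp_subset i) hk).trans (hJk G' hG')
    · intro G' hG' H hH
      exact key_iff_row hr (hJΩ H hH) (hJΩ G' hG') (hJJ H hH G' hG') i
  have h3 := three_row (fun i => (rowE r G₀ i).card) (col (rowE r G₀)) F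
  have e : ∑ G ∈ J, ∑ i, ∑ j ∈ univ.erase i, Iop D (pOpp r i) f G * Iop D (pOpp r j) f G
      = ∑ i, ∑ j ∈ univ.erase i, ∑ c ∈ M,
        (F c - cexp M (fun y : Cfg (Fin n) => y i) F c) *
          (F c - cexp M (fun y : Cfg (Fin n) => y j) F c) := by
    rw [Finset.sum_comm]
    refine Finset.sum_congr rfl (fun i _ => ?_)
    rw [Finset.sum_comm]
    refine Finset.sum_congr rfl (fun j _ => ?_)
    rw [sum_transfer hinj hmaps hsurj]
    exact Finset.sum_congr rfl (fun G hG => by rw [hcexp i G hG, hcexp j G hG])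
  rw [e]
  exact h3

end encoding

end

end Enc3

/-- The triple inequality. -/
theorem triple_graph (D : Fin n → ℕ) (f : Gr n → ℝ) {x y z : Fin n}
    (hxy : x ≠ y) (hxz : x ≠ z) (hyz : y ≠ z) :
    0 ≤ ipI D f {x, y} {x, z} + ipI D f {x, z} {x, y}
      + ipI D f {y, x} {y, z} + ipI D f {y, z} {y, x}
      + ipI D f {z, x} {z, y} + ipI D f {z, y} {z, x} := by
  classical
  let r : Fin 3 → Fin n := ![x, y, z]
  have hr : Function.Injective r := by
    intro i j hij
    fin_cases i <;> fin_cases j <;> first | rfl | (exfalso; revert hij; simp [r, hxy, hxz, hyz, hxy.symm, hxz.symm, hyz.symm])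
  have hmain := sum_nonneg_of_blocks (Ω := realizations D) (keyOff (Enc3.tau r))
    (F := fun G => ∑ i, ∑ j ∈ univ.erase i, Iop D (Enc3.pOpp r i) f G * Iop D (Enc3.pOpp r j) f G)
    (fun G₀ hG₀ => Enc3.fibre_nonneg hr D f hG₀)
  have e0 : Enc3.pOpp r 0 = {y, z} := rfl
  have e1 : Enc3.pOpp r 1 = {x, z} := by
    show ({z, x} : Finset (Fin n)) = {x, z}
    exact Finset.pair_comm _ _
  have e2 : Enc3.pOpp r 2 = {x, y} := rfl
  have h01 : (univ : Finset (Fin 3)).erase 0 = {1, 2} := by decide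
  have h11 : (univ : Finset (Fin 3)).erase 1 = {0, 2} := by decide
  have h21 : (univ : Finset (Fin 3)).erase 2 = {0, 1} := by decide
  have hexp : ∑ G ∈ realizations D, ∑ i, ∑ j ∈ univ.erase i,
        Iop D (Enc3.pOpp r i) f G * Iop D (Enc3.pOpp r j) f G
      = ipI D f {x, y} {x, z} + ipI D f {x, z} {x, y}
      + ipI D f {y, x} {y, z} + ipI D f {y, z} {y, x}
      + ipI D f {z, x} {z, y} + ipI D f {z, y} {z, x} := by
    rw [Finset.pair_comm y x, Finset.pair_comm z x, Finset.pair_comm z y]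
    simp only [ipI, ← Finset.sum_add_distrib]
    refine Finset.sum_congr rfl (fun G _ => ?_)
    rw [Fin.sum_univ_three, h01, h11, h21]
    rw [Finset.sum_pair (by decide), Finset.sum_pair (by decide), Finset.sum_pair (by decide),
      e0, e1, e2]
    ring
  rw [← hexp]
  exact hmain

end Crest.Agent.SW
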