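/-
S0453 project: the sharp Johnson pair-correlation inequality `johnson_chi`.  See SWPLAN.md, piece JC.
Part 1: indicator functions, Johnson moves, the Laplacian on low-degree functions, moments.
-/
import Mathlib

set_option autoImplicit false
set_option linter.unusedSectionVars false
set_option linter.unusedSimpArgs false
open Finset

namespace Crest.Agent.SW.JC

noncomputable section

variable {V : Type*} [DecidableEq V]

/-- Indicator of `c ∈ W`. -/
def xJ (c : V) (W : Finset V) : ℝ := if c ∈ W then 1 else 0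

lemma xJ_mul_self (c : V) (W : Finset V) : xJ c W * xJ c W = xJ c W := by
  unfold xJ; split_ifs <;> simp

lemma xJ_nonneg (c : V) (W : Finset V) : 0 ≤ xJ c W := by
  unfold xJ; split_ifs <;> simp

/-- The Johnson move. -/
def mv (W : Finset V) (a b : V) : Finset V := insert b (W.erase a)

lemma mv_mem {F W : Finset V} {K : ℕ} {a b : V} (hW : W ∈ F.powersetCard K) (ha : a ∈ W)
    (hb : b ∈ F \ W) : mv W a b ∈ F.powersetCard K := by
  rw [Finset.mem_powersetCard] at hW ⊢
  obtain ⟨hWF, hWK⟩ := hW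
  rw [Finset.mem_sdiff] at hb
  constructor
  · intro y hy
    rw [mv, Finset.mem_insert, Finset.mem_erase] at hy
    rcases hy with rfl | ⟨_, hy⟩
    · exact hb.1
    · exact hWF hy
  · rw [mv, Finset.card_insert_of_notMem, Finset.card_erase_of_mem ha, hWK]
    · have : 0 < W.card := Finset.card_pos.2 ⟨a, ha⟩
      omega
    · intro h
      exact hb.2 (Finset.mem_of_mem_erase h)

lemma mv_mv {W : Finset V} {a b : V} (ha : a ∈ W) (hb : b ∉ W) : mv (mv W a b) b a = W := by
  have h1 : b ∉ W.erase a := fun h => hb (Finset.mem_of_mem_erase h)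
  rw [mv, mv, Finset.erase_insert h1, Finset.insert_erase ha]

lemma xJ_mv {W : Finset V} {a b : V} (c : V) (ha : a ∈ W) (hb : b ∉ W) :
    xJ c (mv W a b) = xJ c W - (if a = c then 1 else 0) + (if b = c then 1 else 0) := by
  have hab : a ≠ b := fun h => hb (h ▸ ha)
  unfold xJ mv
  by_cases h1 : b = c
  · subst h1
    have : a ≠ b := hab
    simp [hb, hab]
  · by_cases h2 : a = c
    · subst h2
      simp [ha, h1, Ne.symm h1]
    · have h3 : c ≠ b := Ne.symm h1
      have h4 : c ≠ a := Ne.symm h2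
      simp [h1, h2, h3, h4]

/-- The triple index set of Johnson moves. -/
def tri (F : Finset V) (K : ℕ) : Finset (Σ _ : Finset V, V × V) :=
  (F.powersetCard K).sigma (fun W => W ×ˢ (F \ W))

lemma sum_tri (F : Finset V) (K : ℕ) (G : Finset V → V → V → ℝ) :
    ∑ x ∈ tri F K, G x.1 x.2.1 x.2.2
      = ∑ W ∈ F.powersetCard K, ∑ a ∈ W, ∑ b ∈ F \ W, G W a b := by
  rw [tri, Finset.sum_sigma]
  refine Finset.sum_congr rfl (fun W _ => ?_)
  rw [Finset.sum_product]

/-- The move involution on triples. -/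
lemma tri_invol (F : Finset V) (K : ℕ) (G : Finset V → V → V → ℝ) :
    ∑ W ∈ F.powersetCard K, ∑ a ∈ W, ∑ b ∈ F \ W, G W a b
      = ∑ W ∈ F.powersetCard K, ∑ a ∈ W, ∑ b ∈ F \ W, G (mv W a b) b a := by
  rw [← sum_tri F K G, ← sum_tri F K (fun W a b => G (mv W a b) b a)]
  have hmap : ∀ x ∈ tri F K,
      (⟨mv x.1 x.2.1 x.2.2, (x.2.2, x.2.1)⟩ : Σ _ : Finset V, V × V) ∈ tri F K := by
    rintro ⟨W, a, b⟩ hx
    simp only [tri, Finset.mem_sigma, Finset.mem_product] at hx ⊢
    obtain ⟨hW, ha, hb⟩ := hx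
    refine ⟨mv_mem hW ha hb, ?_, ?_⟩
    · simp [mv]
    · have hb' := (Finset.mem_sdiff.1 hb)
      have hWF : W ⊆ F := (Finset.mem_powersetCard.1 hW).1
      rw [Finset.mem_sdiff]
      refine ⟨hWF ha, ?_⟩
      intro h
      rw [mv, Finset.mem_insert, Finset.mem_erase] at h
      rcases h with h | ⟨h, _⟩
      · exact hb'.2 (h ▸ ha)
      · exact h rfl
  refine Finset.sum_nbij' (fun x => ⟨mv x.1 x.2.1 x.2.2, (x.2.2, x.2.1)⟩)
    (fun x => ⟨mv x.1 x.2.1 x.2.2, (x.2.2, x.2.1)⟩) hmap hmap ?_ ?_ ?_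
  · rintro ⟨W, a, b⟩ hx
    simp only [tri, Finset.mem_sigma, Finset.mem_product] at hx
    obtain ⟨hW, ha, hb⟩ := hx
    simp only
    rw [mv_mv ha (Finset.mem_sdiff.1 hb).2]
  · rintro ⟨W, a, b⟩ hx
    simp only [tri, Finset.mem_sigma, Finset.mem_product] at hx
    obtain ⟨hW, ha, hb⟩ := hx
    simp only
    rw [mv_mv ha (Finset.mem_sdiff.1 hb).2]
  · rintro ⟨W, a, b⟩ hx
    simp only [tri, Finset.mem_sigma, Finset.mem_product] at hx
    obtain ⟨hW, ha, hb⟩ := hx
    simp only
    rw [mv_mv ha (Finset.mem_sdiff.1 hb).2]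

/-- The Johnson Laplacian. -/
def LJ (F : Finset V) (v : Finset V → ℝ) (W : Finset V) : ℝ :=
  ∑ a ∈ W, ∑ b ∈ F \ W, (v W - v (mv W a b))

/-- The Dirichlet bilinear form. -/
def DD (F : Finset V) (K : ℕ) (u v : Finset V → ℝ) : ℝ :=
  ∑ W ∈ F.powersetCard K, ∑ a ∈ W, ∑ b ∈ F \ W, (u W - u (mv W a b)) * (v W - v (mv W a b))

/-- Adjointness. -/
lemma DD_eq (F : Finset V) (K : ℕ) (u v : Finset V → ℝ) :
    DD F K u v = 2 * ∑ W ∈ F.powersetCard K, u W * LJ F v W := by
  have h1 : ∑ W ∈ F.powersetCard K, u W * LJ F v W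
      = ∑ W ∈ F.powersetCard K, ∑ a ∈ W, ∑ b ∈ F \ W, u W * (v W - v (mv W a b)) := by
    refine Finset.sum_congr rfl (fun W _ => ?_)
    simp only [LJ, Finset.mul_sum]
  have h2 := tri_invol F K (fun W a b => u W * (v W - v (mv W a b)))
  rw [h1, two_mul]
  nth_rewrite 2 [h2]
  simp only [DD]
  simp only [← Finset.sum_add_distrib]
  refine Finset.sum_congr rfl (fun W _ => Finset.sum_congr rfl (fun a ha =>
    Finset.sum_congr rfl (fun b hb => ?_)))
  rw [mv_mv ha (Finset.mem_sdiff.1 hb).2]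
  ring

/-- Nonnegativity of the form. -/
lemma DD_self_nonneg (F : Finset V) (K : ℕ) (u : Finset V → ℝ) : 0 ≤ DD F K u u :=
  Finset.sum_nonneg (fun _ _ => Finset.sum_nonneg (fun _ _ => Finset.sum_nonneg
    (fun _ _ => mul_self_nonneg _)))

lemma LJ_congr (F : Finset V) {u v : Finset V → ℝ} {W : Finset V} (hW : W ⊆ F)
    (h0 : u W = v W)
    (h : ∀ a ∈ W, ∀ b ∈ F \ W, u (mv W a b) = v (mv W a b)) : LJ F u W = LJ F v W := by
  refine Finset.sum_congr rfl (fun a ha => Finset.sum_congr rfl (fun b hb => ?_))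
  rw [h0, h a ha b hb]

/-- Linearity of `LJ`. -/
lemma LJ_sum {ι : Type*} (F : Finset V) (s : Finset ι) (w : ι → ℝ) (g : ι → Finset V → ℝ)
    (W : Finset V) :
    LJ F (fun Y => ∑ i ∈ s, w i * g i Y) W = ∑ i ∈ s, w i * LJ F (g i) W := by
  simp only [LJ, Finset.mul_sum]
  calc ∑ a ∈ W, ∑ b ∈ F \ W, (∑ i ∈ s, w i * g i W - ∑ i ∈ s, w i * g i (mv W a b))
      = ∑ a ∈ W, ∑ b ∈ F \ W, ∑ i ∈ s, w i * (g i W - g i (mv W a b)) := by
        refine Finset.sum_congr rfl (fun a _ => Finset.sum_congr rfl (fun b _ => ?_))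
        rw [← Finset.sum_sub_distrib]
        refine Finset.sum_congr rfl (fun i _ => ?_)
        ring
    _ = ∑ a ∈ W, ∑ i ∈ s, ∑ b ∈ F \ W, w i * (g i W - g i (mv W a b)) :=
        Finset.sum_congr rfl (fun a _ => Finset.sum_comm)
    _ = ∑ i ∈ s, ∑ a ∈ W, ∑ b ∈ F \ W, w i * (g i W - g i (mv W a b)) := Finset.sum_comm

lemma LJ_add (F : Finset V) (u v : Finset V → ℝ) (W : Finset V) :
    LJ F (fun Y => u Y + v Y) W = LJ F u W + LJ F v W := by
  simp only [LJ, ← Finset.sum_add_distrib]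
  refine Finset.sum_congr rfl (fun a _ => Finset.sum_congr rfl (fun b _ => ?_))
  ring

lemma LJ_smul (F : Finset V) (t : ℝ) (u : Finset V → ℝ) (W : Finset V) :
    LJ F (fun Y => t * u Y) W = t * LJ F u W := by
  simp only [LJ, Finset.mul_sum]
  refine Finset.sum_congr rfl (fun a _ => Finset.sum_congr rfl (fun b _ => ?_))
  ring

/-- `Σ_{a∈W} δ_{a,c} = x_c`. -/
lemma sum_delta_W (W : Finset V) (c : V) : ∑ a ∈ W, (if a = c then (1:ℝ) else 0) = xJ c W := by
  rw [Finset.sum_ite_eq']
  rfl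

/-- `Σ_{b∈F∖W} δ_{b,c} = 1 - x_c`, `c ∈ F`. -/
lemma sum_delta_F {F W : Finset V} {c : V} (hc : c ∈ F) :
    ∑ b ∈ F \ W, (if b = c then (1:ℝ) else 0) = 1 - xJ c W := by
  rw [Finset.sum_ite_eq']
  unfold xJ
  by_cases h : c ∈ W
  · simp [h]
  · simp [h, hc]

lemma card_sdiff_real {F W : Finset V} (hW : W ⊆ F) :
    ((F \ W).card : ℝ) = (F.card : ℝ) - (W.card : ℝ) := by
  rw [Finset.card_sdiff_of_subset hW, Nat.cast_sub (Finset.card_le_card hW)]

/-- Double sums of sums of products. -/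
lemma dbl2 {α β : Type*} (s : Finset α) (t : Finset β) (f : α → ℝ) (g : β → ℝ) (p₁ p₂ : α → ℝ)
    (q₁ q₂ : β → ℝ) :
    ∑ a ∈ s, ∑ b ∈ t, (f a + g b + p₁ a * q₁ b + p₂ a * q₂ b)
      = (t.card : ℝ) * ∑ a ∈ s, f a + (s.card : ℝ) * ∑ b ∈ t, g b
        + (∑ a ∈ s, p₁ a) * (∑ b ∈ t, q₁ b) + (∑ a ∈ s, p₂ a) * (∑ b ∈ t, q₂ b) := by
  have h1 : ∀ (p : α → ℝ) (q : β → ℝ), ∑ a ∈ s, ∑ b ∈ t, p a * q b = (∑ a ∈ s, p a) * ∑ b ∈ t, q b :=
    fun p q => (Finset.sum_mul_sum s t p q).symm
  simp only [Finset.sum_add_distrib, Finset.sum_const, nsmul_eq_mul, h1]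
  rw [Finset.mul_sum s f (t.card : ℝ)]

/-- The action of the Laplacian on `x_c`. -/
lemma LJ_x {F W : Finset V} (hWF : W ⊆ F) {c : V} (hc : c ∈ F) :
    LJ F (xJ c) W = (F.card : ℝ) * xJ c W - (W.card : ℝ) := by
  have h1 : LJ F (xJ c) W = ∑ a ∈ W, ∑ b ∈ F \ W,
      ((if a = c then (1:ℝ) else 0) + (-(if b = c then (1:ℝ) else 0))
        + (0:ℝ) * 0 + (0:ℝ) * 0) := by
    refine Finset.sum_congr rfl (fun a ha => Finset.sum_congr rfl (fun b hb => ?_))
    rw [xJ_mv c ha (Finset.mem_sdiff.1 hb).2]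
    ring
  rw [h1, dbl2 W (F \ W) (fun a => if a = c then (1:ℝ) else 0)
    (fun b => -(if b = c then (1:ℝ) else 0)) (fun _ => 0) (fun _ => 0) (fun _ => 0) (fun _ => 0)]
  rw [Finset.sum_neg_distrib, sum_delta_W, sum_delta_F hc, card_sdiff_real hWF]
  simp only [Finset.sum_const_zero, zero_mul, add_zero]
  ring

/-- The action of the Laplacian on `x_c x_d`, `c ≠ d`. -/
lemma LJ_xx {F W : Finset V} (hWF : W ⊆ F) {c d : V} (hc : c ∈ F) (hd : d ∈ F) (hcd : c ≠ d) :
    LJ F (fun Y => xJ c Y * xJ d Y) W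
      = 2 * ((F.card : ℝ) - 1) * (xJ c W * xJ d W) - ((W.card : ℝ) - 1) * (xJ c W + xJ d W) := by
  set X := xJ c W with hX
  set Y := xJ d W with hY
  have h1 : LJ F (fun Y => xJ c Y * xJ d Y) W = ∑ a ∈ W, ∑ b ∈ F \ W,
      ((X * (if a = d then (1:ℝ) else 0) + Y * (if a = c then (1:ℝ) else 0))
        + (-(X * (if b = d then (1:ℝ) else 0)) - Y * (if b = c then (1:ℝ) else 0))
        + (if a = c then (1:ℝ) else 0) * (if b = d then (1:ℝ) else 0)
        + (if a = d then (1:ℝ) else 0) * (if b = c then (1:ℝ) else 0)) := by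
    refine Finset.sum_congr rfl (fun a ha => Finset.sum_congr rfl (fun b hb => ?_))
    simp only
    rw [xJ_mv c ha (Finset.mem_sdiff.1 hb).2, xJ_mv d ha (Finset.mem_sdiff.1 hb).2, ← hX, ← hY]
    by_cases h1 : a = c
    · have h2 : a ≠ d := fun h => hcd (h1.symm.trans h)
      by_cases h3 : b = c
      · have h4 : b ≠ d := fun h => hcd (h3.symm.trans h)
        simp only [h1, h3, h2, h4, if_true, if_false, hcd, Ne.symm hcd]
        simp [hcd, Ne.symm hcd]
        try ring
      · by_cases h4 : b = d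
        · simp only [h1, h4, hcd, h3, if_true, if_false]
          simp [hcd, Ne.symm hcd]
          try ring
        · simp only [h1, h3, h4, hcd, if_true, if_false]
          simp [hcd, Ne.symm hcd]
          try ring
    · by_cases h2 : a = d
      · by_cases h3 : b = c
        · have h4 : b ≠ d := fun h => hcd (h3.symm.trans h)
          simp only [h1, h2, h3, h4, if_true, if_false]
          simp [hcd, Ne.symm hcd]
          try ring
        · by_cases h4 : b = d
          · simp only [h1, h2, h3, h4, if_true, if_false]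
            simp [hcd, Ne.symm hcd]
            try ring
          · simp only [h1, h2, h3, h4, if_true, if_false]
            simp [hcd, Ne.symm hcd]
            try ring
      · by_cases h3 : b = c
        · have h4 : b ≠ d := fun h => hcd (h3.symm.trans h)
          simp only [h1, h2, h3, h4, if_true, if_false]
          simp [hcd, Ne.symm hcd]
          try ring
        · by_cases h4 : b = d
          · simp only [h1, h2, h3, h4, if_true, if_false]
            simp [hcd, Ne.symm hcd]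
            try ring
          · simp only [h1, h2, h3, h4, if_true, if_false]
            ring
  rw [h1, dbl2 W (F \ W) (fun a => X * (if a = d then (1:ℝ) else 0) + Y * (if a = c then (1:ℝ) else 0))
    (fun b => -(X * (if b = d then (1:ℝ) else 0)) - Y * (if b = c then (1:ℝ) else 0))
    (fun a => if a = c then (1:ℝ) else 0) (fun a => if a = d then (1:ℝ) else 0)
    (fun b => if b = d then (1:ℝ) else 0) (fun b => if b = c then (1:ℝ) else 0)]
  rw [Finset.sum_add_distrib, Finset.sum_sub_distrib, Finset.sum_neg_distrib,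
    ← Finset.mul_sum, ← Finset.mul_sum, ← Finset.mul_sum, ← Finset.mul_sum,
    sum_delta_W, sum_delta_W, sum_delta_F hc, sum_delta_F hd, card_sdiff_real hWF, ← hX, ← hY]
  ring

/-! ### Moments -/

/-- The moments of the Johnson scheme. -/
def cnt (m K t : ℕ) : ℝ := if t ≤ K then ((m - t).choose (K - t) : ℝ) else 0

/-- Number of `W` containing `T`. -/
lemma card_filter_subset {F T : Finset V} (hT : T ⊆ F) (K : ℕ) :
    (((F.powersetCard K).filter (fun W => T ⊆ W)).card : ℝ) = cnt F.card K T.card := by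
  unfold cnt
  by_cases ht : T.card ≤ K
  · rw [if_pos ht]
    have : ((F.powersetCard K).filter (fun W => T ⊆ W)).card
        = ((F \ T).powersetCard (K - T.card)).card := by
      refine Finset.card_nbij' (fun W => W \ T) (fun W => W ∪ T) ?_ ?_ ?_ ?_
      · intro W hW
        obtain ⟨hW1, hTW⟩ := Finset.mem_filter.1 hW
        obtain ⟨hWF, hWK⟩ := Finset.mem_powersetCard.1 hW1
        refine Finset.mem_powersetCard.2 ⟨Finset.sdiff_subset_sdiff hWF (le_refl _), ?_⟩
        rw [Finset.card_sdiff_of_subset hTW, hWK]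
      · intro W hW
        obtain ⟨hWF, hWK⟩ := Finset.mem_powersetCard.1 hW
        refine Finset.mem_filter.2 ⟨Finset.mem_powersetCard.2 ⟨?_, ?_⟩, Finset.subset_union_right⟩
        · exact Finset.union_subset (hWF.trans Finset.sdiff_subset) hT
        · have hdis : Disjoint W T :=
            Finset.disjoint_of_subset_left hWF Finset.sdiff_disjoint
          rw [Finset.card_union_of_disjoint hdis, hWK]
          omega
      · intro W hW
        obtain ⟨hW1, hTW⟩ := Finset.mem_filter.1 hW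
        exact Finset.sdiff_union_of_subset hTW
      · intro W hW
        obtain ⟨hWF, hWK⟩ := Finset.mem_powersetCard.1 hW
        have hdis : Disjoint W T :=
            Finset.disjoint_of_subset_left hWF Finset.sdiff_disjoint
        exact Finset.union_sdiff_cancel_right hdis
    rw [this, Finset.card_powersetCard, Finset.card_sdiff_of_subset hT]
  · rw [if_neg ht]
    have : (F.powersetCard K).filter (fun W => T ⊆ W) = ∅ := by
      apply Finset.filter_eq_empty_iff.2
      intro W hW hTW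
      have h1 := Finset.card_le_card hTW
      rw [(Finset.mem_powersetCard.1 hW).2] at h1
      exact ht h1
    rw [this]
    simp

lemma cnt_rec {m K t : ℕ} (hK : K ≤ m) :
    ((m:ℝ) - t) * cnt m K (t + 1) = ((K:ℝ) - t) * cnt m K t := by
  unfold cnt
  by_cases h1 : t + 1 ≤ K
  · have h2 : t ≤ K := by omega
    rw [if_pos h1, if_pos h2]
    obtain ⟨k, hk⟩ : ∃ k, K = t + 1 + k := ⟨K - (t + 1), by omega⟩
    obtain ⟨l, hl⟩ : ∃ l, m = t + 1 + l := ⟨m - (t + 1), by omega⟩
    subst hk hl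
    have e1 : t + 1 + l - (t + 1) = l := by omega
    have e2 : t + 1 + k - (t + 1) = k := by omega
    have e3 : t + 1 + l - t = l + 1 := by omega
    have e4 : t + 1 + k - t = k + 1 := by omega
    rw [e1, e2, e3, e4]
    have h3 := Nat.add_one_mul_choose_eq l k
    have h4 : ((l + 1 : ℕ) : ℝ) * (l.choose k : ℝ) = ((l + 1).choose (k + 1) : ℝ) * ((k + 1 : ℕ) : ℝ) := by
      exact_mod_cast h3
    push_cast at h4 ⊢
    linarith
  · rw [if_neg h1, mul_zero]
    by_cases h2 : t ≤ K
    · have : (K:ℝ) = t := by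
        have : K = t := by omega
        exact_mod_cast this
      rw [this, sub_self, zero_mul]
    · rw [if_neg h2, mul_zero]

end

end Crest.Agent.SW.JC
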