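/-
S0453 project: `johnson_chi`, part 2: Gram computations.
-/
import Crest.Agent.SWJohnC1

set_option autoImplicit false
set_option linter.unusedSectionVars false
set_option linter.unusedSimpArgs false
open Finset

namespace Crest.Agent.SW.JC

noncomputable section

variable {V : Type*} [DecidableEq V]

/-- Kronecker delta. -/
def dl (c e : V) : ℝ := if c = e then 1 else 0

lemma dl_comm (c e : V) : dl c e = dl e c := by
  unfold dl
  by_cases h : c = e
  · simp [h]
  · simp [h, Ne.symm h]

/-- Indicator of `T ⊆ W`. -/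
def ind (T W : Finset V) : ℝ := if T ⊆ W then 1 else 0

lemma sum_ind {F T : Finset V} (hT : T ⊆ F) (K : ℕ) :
    ∑ W ∈ F.powersetCard K, ind T W = cnt F.card K T.card := by
  rw [← card_filter_subset hT K]
  simp only [ind]
  rw [Finset.sum_boole]

lemma ind_pair (c e : V) (W : Finset V) : xJ c W * xJ e W = ind {c, e} W := by
  unfold xJ ind
  by_cases h1 : c ∈ W <;> by_cases h2 : e ∈ W <;> simp [h1, h2, Finset.insert_subset_iff]

lemma ind_triple (e c d : V) (W : Finset V) :
    xJ e W * (xJ c W * xJ d W) = ind {e, c, d} W := by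
  unfold xJ ind
  by_cases h0 : e ∈ W <;> by_cases h1 : c ∈ W <;> by_cases h2 : d ∈ W <;>
    simp [h0, h1, h2, Finset.insert_subset_iff]

lemma ind_quad (c d e f : V) (W : Finset V) :
    (xJ c W * xJ d W) * (xJ e W * xJ f W) = ind {c, d, e, f} W := by
  unfold xJ ind
  by_cases h0 : e ∈ W <;> by_cases h1 : c ∈ W <;> by_cases h2 : d ∈ W <;> by_cases h3 : f ∈ W <;>
    simp [h0, h1, h2, h3, Finset.insert_subset_iff]

section moments

variable {F : Finset V} {K : ℕ}

/-- Second moment. -/
lemma mom_pair {c e : V} (hc : c ∈ F) (he : e ∈ F) :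
    ∑ W ∈ F.powersetCard K, xJ c W * xJ e W
      = cnt F.card K 2 + (cnt F.card K 1 - cnt F.card K 2) * dl c e := by
  simp only [ind_pair]
  have hT : ({c, e} : Finset V) ⊆ F := by
    intro y hy
    simp only [Finset.mem_insert, Finset.mem_singleton] at hy
    rcases hy with rfl | rfl <;> assumption
  rw [sum_ind hT]
  by_cases h : c = e
  · subst h
    simp [dl]
  · rw [Finset.card_pair h]
    simp [dl, h]

/-- Third moment. -/
lemma mom_triple {e c d : V} (he : e ∈ F) (hc : c ∈ F) (hd : d ∈ F) (hcd : c ≠ d) :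
    ∑ W ∈ F.powersetCard K, xJ e W * (xJ c W * xJ d W)
      = cnt F.card K 3 + (cnt F.card K 2 - cnt F.card K 3) * (dl e c + dl e d) := by
  simp only [ind_triple]
  have hT : ({e, c, d} : Finset V) ⊆ F := by
    intro y hy
    simp only [Finset.mem_insert, Finset.mem_singleton] at hy
    rcases hy with rfl | rfl | rfl <;> assumption
  rw [sum_ind hT]
  by_cases h1 : e = c
  · subst h1
    have : ({e, e, d} : Finset V) = {e, d} := by simp
    rw [this, Finset.card_pair hcd]
    simp [dl, hcd]
  · by_cases h2 : e = d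
    · subst h2
      have : ({e, c, e} : Finset V) = {c, e} := by
        ext y; simp only [Finset.mem_insert, Finset.mem_singleton]; tauto
      rw [this, Finset.card_pair hcd]
      simp [dl, h1]
    · have hcard : ({e, c, d} : Finset V).card = 3 := by
        rw [Finset.card_insert_of_notMem, Finset.card_pair hcd]
        simp [h1, h2]
      rw [hcard]
      simp [dl, h1, h2]

/-- Fourth moment; `M4` is the value of the count on four distinct points. -/
lemma mom_quad {c d e f : V} (hc : c ∈ F) (hd : d ∈ F) (he : e ∈ F) (hf : f ∈ F)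
    (hcd : c ≠ d) (hef : e ≠ f) {M4 : ℝ}
    (hM4 : 4 ≤ F.card → M4 = cnt F.card K 4) :
    ∑ W ∈ F.powersetCard K, (xJ c W * xJ d W) * (xJ e W * xJ f W)
      = M4 + (cnt F.card K 3 - M4) * (dl c e + dl c f + dl d e + dl d f)
        + (cnt F.card K 2 - 2 * cnt F.card K 3 + M4) * (dl c e * dl d f + dl c f * dl d e) := by
  simp only [ind_quad]
  have hT : ({c, d, e, f} : Finset V) ⊆ F := by
    intro y hy
    simp only [Finset.mem_insert, Finset.mem_singleton] at hy
    rcases hy with rfl | rfl | rfl | rfl <;> assumption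
  rw [sum_ind hT]
  by_cases h1 : c = e
  · subst h1
    by_cases h2 : d = f
    · subst h2
      have : ({c, d, c, d} : Finset V) = {c, d} := by
        ext y; simp only [Finset.mem_insert, Finset.mem_singleton]; tauto
      rw [this, Finset.card_pair hcd]
      simp [dl, hcd, Ne.symm hcd]
      try ring
    · have h3 : c ≠ f := hef
      have : ({c, d, c, f} : Finset V) = {c, d, f} := by
        ext y; simp only [Finset.mem_insert, Finset.mem_singleton]; tauto
      have hcard : ({c, d, f} : Finset V).card = 3 := by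
        rw [Finset.card_insert_of_notMem, Finset.card_pair h2]
        simp [hcd, h3]
      rw [this, hcard]
      simp [dl, hcd, Ne.symm hcd, h2, h3]
      try ring
  · by_cases h2 : c = f
    · subst h2
      by_cases h3 : d = e
      · subst h3
        have : ({c, d, d, c} : Finset V) = {c, d} := by
          ext y; simp only [Finset.mem_insert, Finset.mem_singleton]; tauto
        rw [this, Finset.card_pair hcd]
        simp [dl, hcd, Ne.symm hcd]
        try ring
      · have : ({c, d, e, c} : Finset V) = {c, d, e} := by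
          ext y; simp only [Finset.mem_insert, Finset.mem_singleton]; tauto
        have hcard : ({c, d, e} : Finset V).card = 3 := by
          rw [Finset.card_insert_of_notMem, Finset.card_pair h3]
          simp [hcd, h1]
        rw [this, hcard]
        simp [dl, h1, hcd, Ne.symm hcd, h3]
        try ring
    · by_cases h3 : d = e
      · subst h3
        have hdf : d ≠ f := hef
        have : ({c, d, d, f} : Finset V) = {c, d, f} := by
          ext y; simp only [Finset.mem_insert, Finset.mem_singleton]; tauto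
        have hcard : ({c, d, f} : Finset V).card = 3 := by
          rw [Finset.card_insert_of_notMem, Finset.card_pair hdf]
          simp [hcd, h2]
        rw [this, hcard]
        simp [dl, h1, h2, hdf]
        try ring
      · by_cases h4 : d = f
        · subst h4
          have : ({c, d, e, d} : Finset V) = {c, d, e} := by
            ext y; simp only [Finset.mem_insert, Finset.mem_singleton]; tauto
          have hcard : ({c, d, e} : Finset V).card = 3 := by
            rw [Finset.card_insert_of_notMem, Finset.card_pair h3]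
            simp [hcd, h1]
          rw [this, hcard]
          simp [dl, h1, h2, h3]
          try ring
        · have hcard : ({c, d, e, f} : Finset V).card = 4 := by
            rw [Finset.card_insert_of_notMem, Finset.card_insert_of_notMem, Finset.card_pair hef]
            · simp [h3, h4]
            · simp [hcd, h1, h2]
          rw [hcard]
          have h5 : 4 ≤ F.card := by
            rw [← hcard]; exact Finset.card_le_card hT
          rw [← hM4 h5]
          simp [dl, h1, h2, h3, h4]

end moments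

/-! ### Delta sums -/

lemma dl_sum1 {F : Finset V} {c : V} (hc : c ∈ F) (g : V → ℝ) :
    ∑ e ∈ F, g e * dl c e = g c := by
  simp only [dl, mul_ite, mul_one, mul_zero]
  rw [Finset.sum_ite_eq]
  simp [hc]

lemma dl_sum2 {F : Finset V} {c : V} (hc : c ∈ F) (g : V → ℝ) :
    ∑ e ∈ F, g e * dl e c = g c := by
  simp only [dl_comm _ c]
  exact dl_sum1 hc g

section gram

variable {F : Finset V} {K : ℕ} (b : V → V → ℝ)

/-- The row sums. -/
def sg (F : Finset V) (b : V → V → ℝ) (c : V) : ℝ := ∑ d ∈ F, b c d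

/-- `P₁`. -/
def P1 (F : Finset V) (b : V → V → ℝ) (W : Finset V) : ℝ := ∑ c ∈ F, sg F b c * xJ c W

/-- `P₂`. -/
def P2 (F : Finset V) (b : V → V → ℝ) (W : Finset V) : ℝ :=
  ∑ c ∈ F, ∑ d ∈ F, b c d * (xJ c W * xJ d W)

/-- `s₂`. -/
def s2 (F : Finset V) (b : V → V → ℝ) : ℝ := ∑ c ∈ F, sg F b c * sg F b c

/-- `A`. -/
def AA (F : Finset V) (b : V → V → ℝ) : ℝ := ∑ c ∈ F, ∑ d ∈ F, b c d * b c d

lemma sum_P1_mul (𝓦 : Finset (Finset V)) (g : Finset V → ℝ) :
    ∑ W ∈ 𝓦, P1 F b W * g W = ∑ c ∈ F, sg F b c * ∑ W ∈ 𝓦, xJ c W * g W := by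
  simp only [P1, Finset.sum_mul, Finset.mul_sum]
  rw [Finset.sum_comm]
  refine Finset.sum_congr rfl (fun c _ => Finset.sum_congr rfl (fun W _ => ?_))
  ring

lemma sum_P2_mul (𝓦 : Finset (Finset V)) (g : Finset V → ℝ) :
    ∑ W ∈ 𝓦, P2 F b W * g W = ∑ c ∈ F, ∑ d ∈ F, b c d * ∑ W ∈ 𝓦, (xJ c W * xJ d W) * g W := by
  simp only [P2, Finset.sum_mul, Finset.mul_sum]
  rw [Finset.sum_comm]
  refine Finset.sum_congr rfl (fun c _ => ?_)
  rw [Finset.sum_comm]
  refine Finset.sum_congr rfl (fun d _ => Finset.sum_congr rfl (fun W _ => ?_))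
  ring

lemma mul_sum_P1 (𝓦 : Finset (Finset V)) (g : Finset V → ℝ) :
    ∑ W ∈ 𝓦, g W * P1 F b W = ∑ c ∈ F, sg F b c * ∑ W ∈ 𝓦, g W * xJ c W := by
  simp only [P1, Finset.mul_sum]
  rw [Finset.sum_comm]
  refine Finset.sum_congr rfl (fun c _ => Finset.sum_congr rfl (fun W _ => ?_))
  ring

lemma mul_sum_P2 (𝓦 : Finset (Finset V)) (g : Finset V → ℝ) :
    ∑ W ∈ 𝓦, g W * P2 F b W = ∑ c ∈ F, ∑ d ∈ F, b c d * ∑ W ∈ 𝓦, g W * (xJ c W * xJ d W) := by
  simp only [P2, Finset.mul_sum]
  rw [Finset.sum_comm]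
  refine Finset.sum_congr rfl (fun c _ => ?_)
  rw [Finset.sum_comm]
  refine Finset.sum_congr rfl (fun d _ => Finset.sum_congr rfl (fun W _ => ?_))
  ring

variable {b}
variable (hsym : ∀ c d, b c d = b d c) (hdiag : ∀ c, b c c = 0)
  (hsum : ∑ c ∈ F, ∑ d ∈ F, b c d = 0)

include hsum in
lemma sum_sg_zero : ∑ c ∈ F, sg F b c = 0 := hsum

include hsym in
/-- Column sums are row sums. -/
lemma col_sum (d : V) : ∑ c ∈ F, b c d = sg F b d := by
  refine Finset.sum_congr rfl (fun c _ => hsym c d)

include hsym in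
/-- `Σ_{c,d} b_cd g_c = Σ_c σ_c g_c`, and the same for `g_d`. -/
lemma sum_b_left (g : V → ℝ) : ∑ c ∈ F, ∑ d ∈ F, b c d * g c = ∑ c ∈ F, sg F b c * g c := by
  refine Finset.sum_congr rfl (fun c _ => ?_)
  rw [← Finset.sum_mul]
  rfl

include hsym in
lemma sum_b_right (g : V → ℝ) : ∑ c ∈ F, ∑ d ∈ F, b c d * g d = ∑ c ∈ F, sg F b c * g c := by
  rw [Finset.sum_comm]
  refine Finset.sum_congr rfl (fun d _ => ?_)
  rw [← Finset.sum_mul, col_sum hsym]

/-- Two-index delta sums. -/
lemma dsum1 {c : V} (hc : c ∈ F) : ∑ e ∈ F, ∑ f ∈ F, b e f * dl c e = sg F b c := by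
  simp only [← Finset.sum_mul]
  exact dl_sum1 hc (fun e => ∑ f ∈ F, b e f)

include hsym in
lemma dsum2 {c : V} (hc : c ∈ F) : ∑ e ∈ F, ∑ f ∈ F, b e f * dl c f = sg F b c := by
  have h1 : ∀ e ∈ F, ∑ f ∈ F, b e f * dl c f = b e c := fun e _ => dl_sum1 hc (fun f => b e f)
  rw [Finset.sum_congr rfl h1]
  exact col_sum hsym c

lemma dsum3 {c d : V} (hc : c ∈ F) (hd : d ∈ F) :
    ∑ e ∈ F, ∑ f ∈ F, b e f * dl c e * dl d f = b c d := by
  have h1 : ∀ e ∈ F, ∑ f ∈ F, b e f * dl c e * dl d f = b e d * dl c e := by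
    intro e _
    have := dl_sum1 hd (fun f => b e f * dl c e)
    rw [this]
  rw [Finset.sum_congr rfl h1]
  exact dl_sum1 hc (fun e => b e d)

lemma dsum4 {c d : V} (hc : c ∈ F) (hd : d ∈ F) :
    ∑ e ∈ F, ∑ f ∈ F, b e f * dl c f * dl d e = b d c := by
  have h1 : ∀ e ∈ F, ∑ f ∈ F, b e f * dl c f * dl d e = b e c * dl d e := by
    intro e _
    have h2 : ∀ f ∈ F, b e f * dl c f * dl d e = (b e f * dl d e) * dl c f := fun f _ => by ring
    rw [Finset.sum_congr rfl h2]
    exact dl_sum1 hc (fun f => b e f * dl d e)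
  rw [Finset.sum_congr rfl h1]
  exact dl_sum1 hd (fun e => b e c)

include hsum in
/-- `⟨P₁,P₁⟩`. -/
lemma gram11 :
    ∑ W ∈ F.powersetCard K, P1 F b W * P1 F b W
      = (cnt F.card K 1 - cnt F.card K 2) * s2 F b := by
  rw [sum_P1_mul, s2, Finset.mul_sum]
  refine Finset.sum_congr rfl (fun c hc => ?_)
  have h1 : ∑ W ∈ F.powersetCard K, xJ c W * P1 F b W
      = (cnt F.card K 1 - cnt F.card K 2) * sg F b c := by
    rw [mul_sum_P1]
    have h2 : ∀ e ∈ F, sg F b e * ∑ W ∈ F.powersetCard K, xJ c W * xJ e W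
        = cnt F.card K 2 * sg F b e + (cnt F.card K 1 - cnt F.card K 2) * (sg F b e * dl c e) := by
      intro e he
      rw [mom_pair hc he]
      ring
    rw [Finset.sum_congr rfl h2, Finset.sum_add_distrib, ← Finset.mul_sum, ← Finset.mul_sum,
      sum_sg_zero hsum, dl_sum1 hc]
    ring
  rw [h1]
  ring

include hsym hdiag hsum in
/-- `⟨P₂,P₁⟩`. -/
lemma gram21 :
    ∑ W ∈ F.powersetCard K, P2 F b W * P1 F b W
      = 2 * (cnt F.card K 2 - cnt F.card K 3) * s2 F b := by
  rw [sum_P2_mul]
  have h1 : ∀ c ∈ F, ∀ d ∈ F, b c d * ∑ W ∈ F.powersetCard K, (xJ c W * xJ d W) * P1 F b W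
      = (cnt F.card K 2 - cnt F.card K 3) * (b c d * sg F b c + b c d * sg F b d) := by
    intro c hc d hd
    by_cases hcd : c = d
    · subst hcd
      simp [hdiag]
    · rw [mul_sum_P1]
      have h2 : ∀ e ∈ F, sg F b e * ∑ W ∈ F.powersetCard K, (xJ c W * xJ d W) * xJ e W
          = cnt F.card K 3 * sg F b e
            + (cnt F.card K 2 - cnt F.card K 3) * (sg F b e * dl c e + sg F b e * dl d e) := by
        intro e he
        have : ∑ W ∈ F.powersetCard K, (xJ c W * xJ d W) * xJ e W
            = ∑ W ∈ F.powersetCard K, xJ e W * (xJ c W * xJ d W) :=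
          Finset.sum_congr rfl (fun W _ => mul_comm _ _)
        rw [this, mom_triple he hc hd hcd, dl_comm e c, dl_comm e d]
        ring
      rw [Finset.sum_congr rfl h2, Finset.sum_add_distrib, ← Finset.mul_sum, ← Finset.mul_sum,
        Finset.sum_add_distrib, sum_sg_zero hsum, dl_sum1 hc, dl_sum1 hd]
      ring
  rw [Finset.sum_congr rfl (fun c hc => Finset.sum_congr rfl (h1 c hc))]
  simp only [← Finset.mul_sum, Finset.sum_add_distrib]
  rw [sum_b_left hsym, sum_b_right hsym, s2]
  ring

include hsym hdiag hsum in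
/-- `⟨P₂,P₂⟩`. -/
lemma gram22 {M4 : ℝ} (hM4 : 4 ≤ F.card → M4 = cnt F.card K 4) :
    ∑ W ∈ F.powersetCard K, P2 F b W * P2 F b W
      = 4 * (cnt F.card K 3 - M4) * s2 F b
        + 2 * (cnt F.card K 2 - 2 * cnt F.card K 3 + M4) * AA F b := by
  rw [sum_P2_mul]
  set M3 := cnt F.card K 3
  set M2 := cnt F.card K 2
  have h1 : ∀ c ∈ F, ∀ d ∈ F, b c d * ∑ W ∈ F.powersetCard K, (xJ c W * xJ d W) * P2 F b W
      = 2 * (M3 - M4) * (b c d * sg F b c + b c d * sg F b d)
        + 2 * (M2 - 2 * M3 + M4) * (b c d * b c d) := by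
    intro c hc d hd
    by_cases hcd : c = d
    · subst hcd
      simp [hdiag]
    · rw [mul_sum_P2]
      have h2 : ∀ e ∈ F, ∀ f ∈ F, b e f * ∑ W ∈ F.powersetCard K, (xJ c W * xJ d W) * (xJ e W * xJ f W)
          = M4 * b e f + (M3 - M4) * (b e f * dl c e + b e f * dl c f + b e f * dl d e + b e f * dl d f)
            + (M2 - 2 * M3 + M4) * (b e f * dl c e * dl d f + b e f * dl c f * dl d e) := by
        intro e he f hf
        by_cases hef : e = f
        · subst hef
          simp [hdiag]
        · rw [mom_quad hc hd he hf hcd hef hM4]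
          ring
      rw [Finset.sum_congr rfl (fun e he => Finset.sum_congr rfl (h2 e he))]
      simp only [Finset.sum_add_distrib, ← Finset.mul_sum]
      rw [hsum, dsum1 hc, dsum2 hsym hc, dsum1 hd, dsum2 hsym hd, dsum3 hc hd, dsum4 hc hd,
        hsym d c]
      ring
  rw [Finset.sum_congr rfl (fun c hc => Finset.sum_congr rfl (h1 c hc))]
  simp only [← Finset.mul_sum, Finset.sum_add_distrib]
  rw [sum_b_left hsym, sum_b_right hsym, s2, AA]
  ring

end gram

end

end Crest.Agent.SW.JC
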