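import Mathlib
set_option autoImplicit false

namespace Crest.Agent.SW.JC

/-- The arithmetic behind `johnson_chi` (`m ≥ 4`). -/
lemma arith_ge4 (mr kr N M1 M2 M3 M4 s A : ℝ) (hm : 4 ≤ mr) (hk1 : 1 ≤ kr) (hk2 : kr + 1 ≤ mr)
    (hN : 0 < N)
    (h1 : mr * M1 = kr * N) (h2 : (mr - 1) * M2 = (kr - 1) * M1)
    (h3 : (mr - 2) * M3 = (kr - 2) * M2) (h4 : (mr - 3) * M4 = (kr - 3) * M3)
    (hs0 : 0 ≤ s) (hsA : 2 * s ≤ (mr - 2) * A) :
    ((mr - kr) / (mr * (mr - 1))) * ((M1 - M2) * s)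
        - (((mr - kr) / (mr * (mr - 1))) + 1 / (2 * (mr - 1))) * (2 * (M2 - M3) * s)
        + (1 / (2 * (mr - 1))) * (4 * (M3 - M4) * s + 2 * (M2 - 2 * M3 + M4) * A)
      ≤ ((2 * (M1 - M2)) * (N - 2 * (M1 - M2)) / N) * A / 4 := by
  have hm0 : 0 < mr := by linarith
  have hm1 : 0 < mr - 1 := by linarith
  have hm2 : 0 < mr - 2 := by linarith
  have hm3 : 0 < mr - 3 := by linarith
  have eM1 : M1 = kr * N / mr := by field_simp; linarith
  have eM2 : M2 = (kr - 1) * (kr * N / mr) / (mr - 1) := by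
    rw [← eM1]; field_simp; linarith
  have eM3 : M3 = (kr - 2) * ((kr - 1) * (kr * N / mr) / (mr - 1)) / (mr - 2) := by
    rw [← eM2]; field_simp; linarith
  have eM4 : M4 = (kr - 3) * ((kr - 2) * ((kr - 1) * (kr * N / mr) / (mr - 1)) / (mr - 2)) / (mr - 3) := by
    rw [← eM3]; field_simp; linarith
  set S := N * kr * (mr - kr) / (mr * (mr - 1)) with hS
  have hSpos : 0 < S := by
    rw [hS]
    apply div_pos
    · apply mul_pos (mul_pos hN (by linarith)) (by linarith)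
    · exact mul_pos hm0 hm1
  have eS : M1 - M2 = S := by
    rw [eM1, eM2, hS]; field_simp; ring
  set θ := (kr * (kr - 1) + (mr - kr) * (mr - kr - 1)) / (mr * (mr - 1)) with hθ
  have eR : (2 * (M1 - M2)) * (N - 2 * (M1 - M2)) / N = 2 * S * θ := by
    rw [eS, hθ, hS]; field_simp; ring
  set Q := S * (2 * (kr - 1) * (mr - kr - 1) / ((mr - 1) * (mr - 2) * (mr - 3))) with hQ
  have eL : ((mr - kr) / (mr * (mr - 1))) * ((M1 - M2) * s)
        - (((mr - kr) / (mr * (mr - 1))) + 1 / (2 * (mr - 1))) * (2 * (M2 - M3) * s)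
        + (1 / (2 * (mr - 1))) * (4 * (M3 - M4) * s + 2 * (M2 - 2 * M3 + M4) * A)
      = (((mr - 2 * kr) ^ 2 / (mr * (mr - 2))) * S) * (s / (mr - 2))
        + Q * (A / 2 - s / (mr - 2)) := by
    rw [eM3, eM4, eM1, eM2, hQ, hS] <;> field_simp <;> ring
  have hC1 : (mr - 2 * kr) ^ 2 / (mr * (mr - 2)) ≤ θ := by
    rw [hθ, div_le_div_iff₀ (mul_pos hm0 hm2) (mul_pos hm0 hm1)]
    have h5 : 0 ≤ (kr - 1) * (mr - kr - 1) := mul_nonneg (by linarith) (by linarith)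
    have key : (kr * (kr - 1) + (mr - kr) * (mr - kr - 1)) * (mr * (mr - 2))
        - (mr - 2 * kr) ^ 2 * (mr * (mr - 1))
        = mr * mr * (2 * ((kr - 1) * (mr - kr - 1))) := by ring
    have h6 : 0 ≤ mr * mr * (2 * ((kr - 1) * (mr - kr - 1))) := by positivity
    linarith
  have hC2 : 2 * (kr - 1) * (mr - kr - 1) / ((mr - 1) * (mr - 2) * (mr - 3)) ≤ θ := by
    rw [hθ, div_le_div_iff₀ (mul_pos (mul_pos hm1 hm2) hm3) (mul_pos hm0 hm1)]
    set p := kr - 1 with hp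
    set q := mr - kr - 1 with hq
    have hp0 : 0 ≤ p := by rw [hp]; linarith
    have hq0 : 0 ≤ q := by rw [hq]; linarith
    set t := p + q with ht
    have ht2 : 2 ≤ t := by rw [ht, hp, hq]; linarith
    have em : mr = t + 2 := by rw [ht, hp, hq]; ring
    have ek : kr = p + 1 := by rw [hp]; ring
    have h7 : 0 ≤ t ^ 2 * (t ^ 2 - 4) / 2 + (p - q) ^ 2 * (t ^ 2 + 2) / 2 := by
      have : 0 ≤ t ^ 2 - 4 := by nlinarith
      positivity
    have key : (kr * p + (mr - kr) * q) * ((mr - 1) * (mr - 2) * (mr - 3))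
        - 2 * p * q * (mr * (mr - 1))
        = (mr - 1) * (t ^ 2 * (t ^ 2 - 4) / 2 + (p - q) ^ 2 * (t ^ 2 + 2) / 2) := by
      have e1 : mr - kr = q + 1 := by rw [hq]; ring
      rw [e1, ek, em, ht]
      ring
    have h8 : 0 ≤ (mr - 1) * (t ^ 2 * (t ^ 2 - 4) / 2 + (p - q) ^ 2 * (t ^ 2 + 2) / 2) :=
      mul_nonneg hm1.le h7
    linarith
  rw [eL, eR]
  have hw0 : 0 ≤ s / (mr - 2) := div_nonneg hs0 hm2.le
  have hw1 : 0 ≤ A / 2 - s / (mr - 2) := by
    have : s / (mr - 2) ≤ A / 2 := by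
      rw [div_le_iff₀ hm2]
      linarith
    linarith
  have t1 : ((mr - 2 * kr) ^ 2 / (mr * (mr - 2))) * S ≤ S * θ := by
    rw [mul_comm]
    exact mul_le_mul_of_nonneg_left hC1 hSpos.le
  have t2 : Q ≤ S * θ := mul_le_mul_of_nonneg_left hC2 hSpos.le
  have t3 := mul_le_mul_of_nonneg_right t1 hw0
  have t4 := mul_le_mul_of_nonneg_right t2 hw1
  have e9 : 2 * S * θ * A / 4 = S * θ * (s / (mr - 2)) + S * θ * (A / 2 - s / (mr - 2)) := by ring
  rw [e9]
  linarith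

/-- The arithmetic behind `johnson_chi` (`m = 3`): `M4` is virtual. -/
lemma arith_eq3 (kr N M1 M2 M3 M4 s A : ℝ) (hk : kr = 1 ∨ kr = 2)
    (hN : 0 < N)
    (h1 : 3 * M1 = kr * N) (h2 : 2 * M2 = (kr - 1) * M1)
    (h3 : M3 = (kr - 2) * M2) (h4 : M4 = 2 * M3 - M2)
    (hs0 : 0 ≤ s) (hsA : 2 * s ≤ A) :
    ((3 - kr) / (3 * 2)) * ((M1 - M2) * s)
        - (((3 - kr) / (3 * 2)) + 1 / (2 * 2)) * (2 * (M2 - M3) * s)
        + (1 / (2 * 2)) * (4 * (M3 - M4) * s + 2 * (M2 - 2 * M3 + M4) * A)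
      ≤ ((2 * (M1 - M2)) * (N - 2 * (M1 - M2)) / N) * A / 4 := by
  rcases hk with rfl | rfl
  · have e2 : M2 = 0 := by linarith
    have e3 : M3 = 0 := by rw [h3, e2]; ring
    have e4 : M4 = 0 := by rw [h4, e2, e3]; ring
    have e1 : M1 = N / 3 := by linarith
    rw [e2, e3, e4, e1]
    have : ((2 * (N / 3 - 0)) * (N - 2 * (N / 3 - 0)) / N) * A / 4 = N * A / 18 := by
      field_simp; ring
    rw [this]
    nlinarith
  · have e1 : M1 = 2 * N / 3 := by linarith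
    have e2 : M2 = N / 3 := by rw [e1] at h2; linarith
    have e3 : M3 = 0 := by rw [h3]; ring
    have e4 : M4 = - (N / 3) := by rw [h4, e2, e3]; ring
    rw [e2, e3, e4, e1]
    have : ((2 * (2 * N / 3 - N / 3)) * (N - 2 * (2 * N / 3 - N / 3)) / N) * A / 4 = N * A / 18 := by
      field_simp; ring
    rw [this]
    nlinarith

end Crest.Agent.SW.JC
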