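/-
S0453 project: `johnson_chi`, part 4: the test function and the core inequality.
-/
import Crest.Agent.SWJohnC2
import Crest.Agent.SWJohnC3

set_option autoImplicit false
set_option linter.unusedSectionVars false
set_option linter.unusedSimpArgs false
open Finset

namespace Crest.Agent.SW.JC

noncomputable section

variable {V : Type*} [DecidableEq V]

lemma sum_x {F W : Finset V} (hW : W ⊆ F) : ∑ c ∈ F, xJ c W = (W.card : ℝ) := by
  simp only [xJ]
  rw [Finset.sum_boole]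
  congr 2
  ext y
  simp only [Finset.mem_filter]
  exact ⟨fun h => h.2, fun h => ⟨hW h, h⟩⟩

/-- `1` iff `W` contains exactly one of `c, d`. -/
def kp (c d : V) (W : Finset V) : ℝ := xJ c W + xJ d W - 2 * (xJ c W * xJ d W)

lemma kp_comm (c d : V) (W : Finset V) : kp c d W = kp d c W := by
  unfold kp; ring

lemma kp_self (c : V) (W : Finset V) : kp c c W = 0 := by
  unfold kp; rw [xJ_mul_self]; ring

section

variable {F : Finset V} {K : ℕ} {b : V → V → ℝ}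

lemma LJ_P1 {W : Finset V} (hWF : W ⊆ F) (hsum : ∑ c ∈ F, ∑ d ∈ F, b c d = 0) :
    LJ F (P1 F b) W = (F.card : ℝ) * P1 F b W := by
  have h := LJ_sum F F (sg F b) xJ W
  have e : P1 F b = fun Y => ∑ c ∈ F, sg F b c * xJ c Y := rfl
  rw [e, h]
  have h2 : ∀ c ∈ F, sg F b c * LJ F (xJ c) W
      = (F.card : ℝ) * (sg F b c * xJ c W) - (W.card : ℝ) * sg F b c := by
    intro c hc
    rw [LJ_x hWF hc]
    ring
  rw [Finset.sum_congr rfl h2, Finset.sum_sub_distrib, ← Finset.mul_sum, ← Finset.mul_sum,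
    sum_sg_zero hsum]
  simp [P1]

lemma LJ_P2 {W : Finset V} (hWF : W ⊆ F) (hsym : ∀ c d, b c d = b d c) (hdiag : ∀ c, b c c = 0) :
    LJ F (P2 F b) W = 2 * ((F.card : ℝ) - 1) * P2 F b W
      - 2 * ((W.card : ℝ) - 1) * P1 F b W := by
  have h := LJ_sum F (F ×ˢ F) (fun q => b q.1 q.2) (fun q Y => xJ q.1 Y * xJ q.2 Y) W
  simp only [Finset.sum_product] at h
  have e : P2 F b = fun Y => ∑ c ∈ F, ∑ d ∈ F, b c d * (xJ c Y * xJ d Y) := rfl
  rw [e, h]
  have h2 : ∀ c ∈ F, ∀ d ∈ F, b c d * LJ F (fun Y => xJ c Y * xJ d Y) W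
      = 2 * ((F.card : ℝ) - 1) * (b c d * (xJ c W * xJ d W))
        - ((W.card : ℝ) - 1) * (b c d * xJ c W + b c d * xJ d W) := by
    intro c hc d hd
    by_cases hcd : c = d
    · subst hcd
      simp [hdiag]
    · rw [LJ_xx hWF hc hd hcd]
      ring
  rw [Finset.sum_congr rfl (fun c hc => Finset.sum_congr rfl (h2 c hc))]
  simp only [Finset.sum_sub_distrib, Finset.sum_add_distrib, ← Finset.mul_sum]
  rw [sum_b_left hsym (fun c => xJ c W), sum_b_right hsym (fun c => xJ c W)]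
  simp only [P1, P2]
  ring

/-- The test function. -/
def xiJ (F : Finset V) (b : V → V → ℝ) (A B : ℝ) (Y : Finset V) : ℝ :=
  A * P1 F b Y + (-B) * P2 F b Y

lemma LJ_xi {W : Finset V} (hWF : W ⊆ F) (hsym : ∀ c d, b c d = b d c) (hdiag : ∀ c, b c c = 0)
    (hsum : ∑ c ∈ F, ∑ d ∈ F, b c d = 0) {A B : ℝ}
    (h1 : A * (F.card : ℝ) + 2 * B * ((W.card : ℝ) - 1) = 1)
    (h2 : 2 * B * ((F.card : ℝ) - 1) = 1) :
    LJ F (xiJ F b A B) W = P1 F b W - P2 F b W := by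
  have e : xiJ F b A B = fun Y => (fun Y => A * P1 F b Y) Y + (fun Y => (-B) * P2 F b Y) Y := rfl
  rw [e, LJ_add, LJ_smul, LJ_smul, LJ_P1 hWF hsum, LJ_P2 hWF hsym hdiag]
  have : A * ((F.card : ℝ) * P1 F b W)
      + -B * (2 * ((F.card : ℝ) - 1) * P2 F b W - 2 * ((W.card : ℝ) - 1) * P1 F b W)
      = (A * (F.card : ℝ) + 2 * B * ((W.card : ℝ) - 1)) * P1 F b W
        - (2 * B * ((F.card : ℝ) - 1)) * P2 F b W := by ring
  rw [this, h1, h2]
  ring

/-- Expansion of the form on `u - t v`. -/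
lemma DD_sub (u v : Finset V → ℝ) (t : ℝ) :
    DD F K (fun W => u W - t * v W) (fun W => u W - t * v W)
      = DD F K u u - 2 * t * DD F K u v + t ^ 2 * DD F K v v := by
  simp only [DD, Finset.mul_sum, ← Finset.sum_sub_distrib, ← Finset.sum_add_distrib]
  refine Finset.sum_congr rfl (fun W _ => Finset.sum_congr rfl (fun a _ =>
    Finset.sum_congr rfl (fun c _ => ?_)))
  ring

/-- `Σσ² ≤ (m-2) A / 2`. -/
lemma s2_le (hsym : ∀ c d, b c d = b d c) (hdiag : ∀ c, b c c = 0)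
    (hsum : ∑ c ∈ F, ∑ d ∈ F, b c d = 0) (hm : 3 ≤ F.card) :
    2 * s2 F b ≤ ((F.card : ℝ) - 2) * AA F b := by
  have hm3 : (3:ℝ) ≤ (F.card : ℝ) := by exact_mod_cast hm
  set m : ℝ := (F.card : ℝ) with hmr
  have hpos : 0 < m - 2 := by linarith
  have h1 : ∀ c ∈ F, (2 * sg F b c) * (2 * sg F b c)
      ≤ ∑ d ∈ F, ((m - 2) * b c d - sg F b c - sg F b d) * ((m - 2) * b c d - sg F b c - sg F b d) := by
    intro c hc
    have := Finset.single_le_sum (f := fun d => ((m - 2) * b c d - sg F b c - sg F b d)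
      * ((m - 2) * b c d - sg F b c - sg F b d)) (fun d _ => mul_self_nonneg _) hc
    simp only [hdiag, mul_zero] at this
    have e : (0 - sg F b c - sg F b c) * (0 - sg F b c - sg F b c)
        = (2 * sg F b c) * (2 * sg F b c) := by ring
    rwa [e] at this
  have h2 := Finset.sum_le_sum h1
  have e1 : ∑ c ∈ F, (2 * sg F b c) * (2 * sg F b c) = 4 * s2 F b := by
    rw [s2, Finset.mul_sum]
    exact Finset.sum_congr rfl (fun c _ => by ring)
  have e2 : ∑ c ∈ F, ∑ d ∈ F, ((m - 2) * b c d - sg F b c - sg F b d)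
        * ((m - 2) * b c d - sg F b c - sg F b d)
      = (m - 2) ^ 2 * AA F b - 4 * (m - 2) * s2 F b + 2 * m * s2 F b := by
    have p1 : ∀ c ∈ F, ∀ d ∈ F, ((m - 2) * b c d - sg F b c - sg F b d)
        * ((m - 2) * b c d - sg F b c - sg F b d)
        = (m - 2) ^ 2 * (b c d * b c d) - (2 * (m - 2)) * (b c d * sg F b c)
          - (2 * (m - 2)) * (b c d * sg F b d) + sg F b c * sg F b c + sg F b d * sg F b d
          + 2 * (sg F b c * sg F b d) := by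
      intro c _ d _; ring
    rw [Finset.sum_congr rfl (fun c hc => Finset.sum_congr rfl (p1 c hc))]
    simp only [Finset.sum_add_distrib, Finset.sum_sub_distrib]
    have r1 : ∑ c ∈ F, ∑ d ∈ F, (m - 2) ^ 2 * (b c d * b c d) = (m - 2) ^ 2 * AA F b := by
      simp only [AA, Finset.mul_sum]
    have r2 : ∑ c ∈ F, ∑ d ∈ F, (2 * (m - 2)) * (b c d * sg F b c) = (2 * (m - 2)) * s2 F b := by
      rw [s2, ← sum_b_left hsym (sg F b)]
      simp only [Finset.mul_sum]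
    have r3 : ∑ c ∈ F, ∑ d ∈ F, (2 * (m - 2)) * (b c d * sg F b d) = (2 * (m - 2)) * s2 F b := by
      rw [s2, ← sum_b_right hsym (sg F b)]
      simp only [Finset.mul_sum]
    have q1 : ∑ c ∈ F, ∑ d ∈ F, sg F b c * sg F b c = m * s2 F b := by
      simp only [Finset.sum_const, nsmul_eq_mul]
      rw [← Finset.mul_sum]
      rfl
    have q2 : ∑ c ∈ F, ∑ d ∈ F, sg F b d * sg F b d = m * s2 F b := by
      simp only [Finset.sum_const, nsmul_eq_mul]
      rfl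
    have q3 : ∑ c ∈ F, ∑ d ∈ F, 2 * (sg F b c * sg F b d) = 0 := by
      have : ∑ c ∈ F, ∑ d ∈ F, 2 * (sg F b c * sg F b d)
          = 2 * ((∑ c ∈ F, sg F b c) * ∑ d ∈ F, sg F b d) := by
        rw [Finset.sum_mul_sum, Finset.mul_sum]
        refine Finset.sum_congr rfl (fun c _ => ?_)
        rw [Finset.mul_sum]
      rw [this, sum_sg_zero hsum]
      ring
    rw [r1, r2, r3, q1, q2, q3]
    ring
  rw [e1, e2] at h2
  have h3 : (m - 2) * (2 * s2 F b) ≤ (m - 2) * ((m - 2) * AA F b) := by nlinarith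
  exact le_of_mul_le_mul_left h3 hpos

end

/-- The pair statistics of `ψ`. -/
def bJ (F : Finset V) (K : ℕ) (ψ : Finset V → ℝ) (c d : V) : ℝ :=
  ∑ W ∈ F.powersetCard K, ψ W * kp c d W

section core

variable {F : Finset V} {K : ℕ}

lemma bJ_sym (ψ : Finset V → ℝ) (c d : V) : bJ F K ψ c d = bJ F K ψ d c := by
  simp only [bJ, kp_comm c d]

lemma bJ_diag (ψ : Finset V → ℝ) (c : V) : bJ F K ψ c c = 0 := by
  simp [bJ, kp_self]

lemma sum_kp {W : Finset V} (hW : W ∈ F.powersetCard K) :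
    ∑ c ∈ F, ∑ d ∈ F, kp c d W
      = 2 * ((F.card : ℝ) * (K : ℝ)) - 2 * ((K : ℝ) * (K : ℝ)) := by
  obtain ⟨hWF, hWK⟩ := Finset.mem_powersetCard.1 hW
  have hx := sum_x hWF
  rw [hWK] at hx
  have r1 : ∑ c ∈ F, ∑ d ∈ F, xJ c W = (F.card : ℝ) * (K : ℝ) := by
    simp only [Finset.sum_const, nsmul_eq_mul]
    rw [← Finset.mul_sum, hx]
  have r2 : ∑ c ∈ F, ∑ d ∈ F, xJ d W = (F.card : ℝ) * (K : ℝ) := by
    simp only [Finset.sum_const, nsmul_eq_mul]
    rw [hx]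
  have r3 : ∑ c ∈ F, ∑ d ∈ F, 2 * (xJ c W * xJ d W) = 2 * ((K : ℝ) * (K : ℝ)) := by
    rw [← hx, Finset.sum_mul_sum, Finset.mul_sum]
    refine Finset.sum_congr rfl (fun c _ => ?_)
    rw [Finset.mul_sum]
  simp only [kp, Finset.sum_sub_distrib, Finset.sum_add_distrib]
  rw [r1, r2, r3]
  ring

lemma bJ_sum (ψ : Finset V → ℝ) (hψ : ∑ W ∈ F.powersetCard K, ψ W = 0) :
    ∑ c ∈ F, ∑ d ∈ F, bJ F K ψ c d = 0 := by
  simp only [bJ]
  calc ∑ c ∈ F, ∑ d ∈ F, ∑ W ∈ F.powersetCard K, ψ W * kp c d W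
      = ∑ c ∈ F, ∑ W ∈ F.powersetCard K, ∑ d ∈ F, ψ W * kp c d W :=
        Finset.sum_congr rfl (fun c _ => Finset.sum_comm)
    _ = ∑ W ∈ F.powersetCard K, ∑ c ∈ F, ∑ d ∈ F, ψ W * kp c d W := Finset.sum_comm
    _ = ∑ W ∈ F.powersetCard K, ψ W
          * (2 * ((F.card : ℝ) * (K : ℝ)) - 2 * ((K : ℝ) * (K : ℝ))) := by
        refine Finset.sum_congr rfl (fun W hW => ?_)
        rw [← sum_kp hW, Finset.mul_sum]
        refine Finset.sum_congr rfl (fun c _ => ?_)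
        rw [Finset.mul_sum]
    _ = 0 := by rw [← Finset.sum_mul, hψ, zero_mul]

/-- `⟨ψ, P₁-P₂⟩ = A/2`. -/
lemma inner_psi (ψ : Finset V → ℝ) :
    ∑ W ∈ F.powersetCard K, ψ W * (P1 F (bJ F K ψ) W - P2 F (bJ F K ψ) W)
      = AA F (bJ F K ψ) / 2 := by
  set b := bJ F K ψ with hb
  have hsym : ∀ c d, b c d = b d c := bJ_sym ψ
  set y : V → ℝ := fun c => ∑ W ∈ F.powersetCard K, ψ W * xJ c W with hy
  set yy : V → V → ℝ := fun c d => ∑ W ∈ F.powersetCard K, ψ W * (xJ c W * xJ d W) with hyy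
  have hbe : ∀ c d, b c d = y c + y d - 2 * yy c d := by
    intro c d
    simp only [hb, bJ, kp, hy, hyy, Finset.mul_sum]
    rw [← Finset.sum_add_distrib, ← Finset.sum_sub_distrib]
    exact Finset.sum_congr rfl (fun W _ => by ring)
  have e1 : ∑ W ∈ F.powersetCard K, ψ W * P1 F b W = ∑ c ∈ F, sg F b c * y c :=
    mul_sum_P1 b _ ψ
  have e2 : ∑ W ∈ F.powersetCard K, ψ W * P2 F b W = ∑ c ∈ F, ∑ d ∈ F, b c d * yy c d :=
    mul_sum_P2 b _ ψ
  have e3 : AA F b = 2 * ∑ c ∈ F, sg F b c * y c - 2 * ∑ c ∈ F, ∑ d ∈ F, b c d * yy c d := by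
    have p1 : ∀ c ∈ F, ∀ d ∈ F, b c d * b c d
        = b c d * y c + b c d * y d - 2 * (b c d * yy c d) := by
      intro c _ d _
      nth_rewrite 2 [hbe c d]
      ring
    rw [AA, Finset.sum_congr rfl (fun c hc => Finset.sum_congr rfl (p1 c hc))]
    simp only [Finset.sum_add_distrib, Finset.sum_sub_distrib]
    rw [sum_b_left hsym y, sum_b_right hsym y]
    have : ∑ c ∈ F, ∑ d ∈ F, 2 * (b c d * yy c d) = 2 * ∑ c ∈ F, ∑ d ∈ F, b c d * yy c d := by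
      simp only [Finset.mul_sum]
    rw [this]
    ring
  have : ∑ W ∈ F.powersetCard K, ψ W * (P1 F b W - P2 F b W)
      = ∑ W ∈ F.powersetCard K, ψ W * P1 F b W - ∑ W ∈ F.powersetCard K, ψ W * P2 F b W := by
    rw [← Finset.sum_sub_distrib]
    exact Finset.sum_congr rfl (fun W _ => by ring)
  rw [this, e1, e2, e3]
  ring

/-- The arithmetic in natural parameters. -/
lemma arith_all {m K : ℕ} (hm : 3 ≤ m) (hK1 : 1 ≤ K) (hK2 : K + 1 ≤ m) {N M1 M2 M3 M4 s A : ℝ}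
    (hN : 0 < N)
    (h1 : (m:ℝ) * M1 = (K:ℝ) * N) (h2 : ((m:ℝ) - 1) * M2 = ((K:ℝ) - 1) * M1)
    (h3 : ((m:ℝ) - 2) * M3 = ((K:ℝ) - 2) * M2)
    (h4 : 4 ≤ m → ((m:ℝ) - 3) * M4 = ((K:ℝ) - 3) * M3)
    (h4' : m = 3 → M4 = 2 * M3 - M2)
    (hs0 : 0 ≤ s) (hsA : 2 * s ≤ ((m:ℝ) - 2) * A) :
    (((m:ℝ) - K) / ((m:ℝ) * ((m:ℝ) - 1))) * ((M1 - M2) * s)
        - ((((m:ℝ) - K) / ((m:ℝ) * ((m:ℝ) - 1))) + 1 / (2 * ((m:ℝ) - 1))) * (2 * (M2 - M3) * s)
        + (1 / (2 * ((m:ℝ) - 1))) * (4 * (M3 - M4) * s + 2 * (M2 - 2 * M3 + M4) * A)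
      ≤ ((2 * (M1 - M2)) * (N - 2 * (M1 - M2)) / N) * A / 4 := by
  have hk1 : (1:ℝ) ≤ (K:ℝ) := by exact_mod_cast hK1
  have hk2 : (K:ℝ) + 1 ≤ (m:ℝ) := by exact_mod_cast hK2
  by_cases h : 4 ≤ m
  · have hm4 : (4:ℝ) ≤ (m:ℝ) := by exact_mod_cast h
    exact arith_ge4 _ _ _ _ _ _ _ _ _ hm4 hk1 hk2 hN h1 h2 h3 (h4 h) hs0 hsA
  · have hm3 : m = 3 := by omega
    subst hm3
    have hk : K = 1 ∨ K = 2 := by omega
    have hk' : (K:ℝ) = 1 ∨ (K:ℝ) = 2 := by
      rcases hk with rfl | rfl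
      · left; norm_num
      · right; norm_num
    norm_num at h1 h2 h3 hsA ⊢
    have := arith_eq3 (K:ℝ) N M1 M2 M3 M4 s A hk' hN h1 h2 h3 (h4' rfl) hs0 hsA
    norm_num at this
    linarith

/-- Positivity of the parts. -/
lemma parts_pos {m K : ℕ} (hm : 3 ≤ m) (hK1 : 1 ≤ K) (hK2 : K + 1 ≤ m) {N M1 M2 : ℝ}
    (hN : 0 < N)
    (h1 : (m:ℝ) * M1 = (K:ℝ) * N) (h2 : ((m:ℝ) - 1) * M2 = ((K:ℝ) - 1) * M1) :
    0 < M1 - M2 ∧ 0 < N - 2 * (M1 - M2) := by
  have hk1 : (1:ℝ) ≤ (K:ℝ) := by exact_mod_cast hK1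
  have hk2 : (K:ℝ) + 1 ≤ (m:ℝ) := by exact_mod_cast hK2
  have hm3 : (3:ℝ) ≤ (m:ℝ) := by exact_mod_cast hm
  set mr := (m:ℝ)
  set kr := (K:ℝ)
  have hm0 : 0 < mr := by linarith
  have hm1 : 0 < mr - 1 := by linarith
  have eM1 : M1 = kr * N / mr := by field_simp; linarith
  have eM2 : M2 = (kr - 1) * (kr * N / mr) / (mr - 1) := by
    rw [← eM1]; field_simp; linarith
  have eS : M1 - M2 = N * kr * (mr - kr) / (mr * (mr - 1)) := by
    rw [eM1, eM2]; field_simp; ring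
  constructor
  · rw [eS]
    apply div_pos
    · exact mul_pos (mul_pos hN (by linarith)) (by linarith)
    · exact mul_pos hm0 hm1
  · have e : N - 2 * (M1 - M2)
        = N * ((kr * (kr - 1) + (mr - kr) * (mr - kr - 1)) / (mr * (mr - 1))) := by
      rw [eS]; field_simp; ring
    rw [e]
    apply mul_pos hN
    apply div_pos _ (mul_pos hm0 hm1)
    have h5 : 0 ≤ (kr - 1) * (kr - 1) := mul_self_nonneg _
    have h6 : 0 ≤ (mr - kr - 1) * (mr - kr - 1) := mul_self_nonneg _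
    nlinarith

/-- The core inequality. -/
theorem core (hm : 3 ≤ F.card) (hK1 : 1 ≤ K) (hK2 : K + 1 ≤ F.card) (ψ : Finset V → ℝ)
    (hψ : ∑ W ∈ F.powersetCard K, ψ W = 0) :
    AA F (bJ F K ψ)
      ≤ (((2 * (cnt F.card K 1 - cnt F.card K 2)) * (cnt F.card K 0 - 2 * (cnt F.card K 1 - cnt F.card K 2))
          / cnt F.card K 0) / 2) * DD F K ψ ψ := by
  set m := F.card with hmdef
  set b := bJ F K ψ with hb
  have hsym : ∀ c d, b c d = b d c := bJ_sym ψ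
  have hdiag : ∀ c, b c c = 0 := bJ_diag ψ
  have hsum : ∑ c ∈ F, ∑ d ∈ F, b c d = 0 := bJ_sum ψ hψ
  have hKm : K ≤ m := by omega
  have hm3 : (3:ℝ) ≤ (m:ℝ) := by exact_mod_cast hm
  set N := cnt m K 0 with hNdef
  set M1 := cnt m K 1 with hM1
  set M2 := cnt m K 2 with hM2
  set M3 := cnt m K 3 with hM3
  have hN : 0 < N := by
    have : 0 < m.choose K := Nat.choose_pos hKm
    simp only [hNdef, cnt, Nat.zero_le, if_true, Nat.sub_zero]
    exact_mod_cast this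
  have r1 : (m:ℝ) * M1 = (K:ℝ) * N := by
    have := cnt_rec (m := m) (K := K) (t := 0) hKm
    simpa using this
  have r2 : ((m:ℝ) - 1) * M2 = ((K:ℝ) - 1) * M1 := by
    have := cnt_rec (m := m) (K := K) (t := 1) hKm
    simpa using this
  have r3 : ((m:ℝ) - 2) * M3 = ((K:ℝ) - 2) * M2 := by
    have := cnt_rec (m := m) (K := K) (t := 2) hKm
    simpa using this
  set M4 : ℝ := if 4 ≤ m then cnt m K 4 else 2 * M3 - M2 with hM4
  have r4 : 4 ≤ m → ((m:ℝ) - 3) * M4 = ((K:ℝ) - 3) * M3 := by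
    intro h
    have := cnt_rec (m := m) (K := K) (t := 3) hKm
    rw [hM4, if_pos h]
    simpa using this
  have r4' : m = 3 → M4 = 2 * M3 - M2 := by
    intro h
    rw [hM4, if_neg (by omega)]
  have hM4' : 4 ≤ F.card → M4 = cnt F.card K 4 := by
    intro h
    rw [hM4, if_pos h]
  set A := AA F b with hA
  set s := s2 F b with hs
  have hs0 : 0 ≤ s := Finset.sum_nonneg (fun c _ => mul_self_nonneg _)
  have hsA : 2 * s ≤ ((m:ℝ) - 2) * A := s2_le hsym hdiag hsum hm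
  set aa : ℝ := ((m:ℝ) - K) / ((m:ℝ) * ((m:ℝ) - 1)) with haa
  set B : ℝ := 1 / (2 * ((m:ℝ) - 1)) with hB
  have hm0 : (0:ℝ) < (m:ℝ) := by linarith
  have hm1 : (0:ℝ) < (m:ℝ) - 1 := by linarith
  have hB2 : 2 * B * ((m:ℝ) - 1) = 1 := by
    rw [hB]; field_simp
  have hB1 : aa * (m:ℝ) + 2 * B * ((K:ℝ) - 1) = 1 := by
    rw [haa, hB]; field_simp; ring
  set ξ := xiJ F b aa B with hξ
  have hL : ∀ W ∈ F.powersetCard K, LJ F ξ W = P1 F b W - P2 F b W := by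
    intro W hW
    obtain ⟨hWF, hWK⟩ := Finset.mem_powersetCard.1 hW
    refine LJ_xi hWF hsym hdiag hsum ?_ hB2
    rw [hWK]; exact hB1
  -- `⟨ξ, Lξ⟩`
  set h := ∑ W ∈ F.powersetCard K, ξ W * LJ F ξ W with hh
  have hval : h = aa * ((M1 - M2) * s) - (aa + B) * (2 * (M2 - M3) * s)
      + B * (4 * (M3 - M4) * s + 2 * (M2 - 2 * M3 + M4) * A) := by
    have p1 : ∀ W ∈ F.powersetCard K, ξ W * LJ F ξ W
        = aa * (P1 F b W * P1 F b W) - (aa + B) * (P2 F b W * P1 F b W)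
          + B * (P2 F b W * P2 F b W) := by
      intro W hW
      rw [hL W hW, hξ, xiJ]
      ring
    rw [hh, Finset.sum_congr rfl p1, Finset.sum_add_distrib, Finset.sum_sub_distrib,
      ← Finset.mul_sum, ← Finset.mul_sum, ← Finset.mul_sum,
      gram11 hsum, gram21 hsym hdiag hsum, gram22 hsym hdiag hsum hM4']
  have hle : h ≤ ((2 * (M1 - M2)) * (N - 2 * (M1 - M2)) / N) * A / 4 := by
    rw [hval]
    exact arith_all hm hK1 hK2 hN r1 r2 r3 r4 r4' hs0 hsA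
  obtain ⟨hp1, hp2⟩ := parts_pos hm hK1 hK2 hN r1 r2
  set R := (2 * (M1 - M2)) * (N - 2 * (M1 - M2)) / N with hR
  have hRpos : 0 < R := by
    rw [hR]
    exact div_pos (mul_pos (by linarith) hp2) hN
  have e1 : DD F K ψ ξ = A := by
    rw [DD_eq]
    have : ∑ W ∈ F.powersetCard K, ψ W * LJ F ξ W
        = ∑ W ∈ F.powersetCard K, ψ W * (P1 F b W - P2 F b W) :=
      Finset.sum_congr rfl (fun W hW => by rw [hL W hW])
    rw [this, inner_psi]
    ring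
  have e2 : DD F K ξ ξ = 2 * h := by rw [DD_eq]
  have hnn := DD_self_nonneg F K (fun W => ψ W - (2 / R) * ξ W)
  rw [DD_sub, e1, e2] at hnn
  have hAnn : 0 ≤ A := Finset.sum_nonneg (fun c _ => Finset.sum_nonneg (fun d _ => mul_self_nonneg _))
  have h3 : (2 / R) ^ 2 * (2 * h) ≤ (2 / R) ^ 2 * (2 * (R * A / 4)) :=
    mul_le_mul_of_nonneg_left (by linarith) (by positivity)
  have h4 : (2 / R) ^ 2 * (2 * (R * A / 4)) = 2 * A / R := by
    field_simp; ring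
  have h5 : 2 * (2 / R) * A = 4 * A / R := by ring
  rw [h5] at hnn
  rw [h4] at h3
  have h6 : 2 * A / R ≤ DD F K ψ ψ := by
    have : 4 * A / R = 2 * A / R + 2 * A / R := by ring
    linarith
  have h7 : A = (R / 2) * (2 * A / R) := by
    field_simp
  rw [h7]
  exact mul_le_mul_of_nonneg_left h6 (by positivity)

end core

end

end Crest.Agent.SW.JC
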