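/-
S0453 project: `johnson_chi`, final part: reduction of the statement to the core inequality.
-/
import Crest.Agent.SWJohnC4

set_option autoImplicit false
set_option linter.unusedSectionVars false
set_option linter.unusedSimpArgs false
open Finset

namespace Crest.Agent.SW.JC

noncomputable section

variable {V : Type*} [DecidableEq V]

/-- Raw copy of `DJ`. -/
def DJR (F : Finset V) (K : ℕ) (φ : Finset V → ℝ) : ℝ :=
  ∑ W ∈ F.powersetCard K, ∑ c ∈ W, ∑ d ∈ F \ W, (φ W - φ (insert d (W.erase c))) ^ 2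

/-- Raw copy of `kapJ`. -/
def kapR (c d : V) (W : Finset V) : Prop := ¬ (c ∈ W ↔ d ∈ W)

open scoped Classical in
/-- Raw copy of `chiJ`. -/
def chiR (F : Finset V) (K : ℕ) (φ : Finset V → ℝ) (c d : V) : ℝ :=
  (((F.powersetCard K).filter (kapR c d)).card * ((F.powersetCard K).filter (fun W => ¬ kapR c d W)).card
      / ((F.powersetCard K).card : ℝ))
    * ((∑ W ∈ (F.powersetCard K).filter (kapR c d), φ W)
          / (((F.powersetCard K).filter (kapR c d)).card : ℝ)
        - (∑ W ∈ (F.powersetCard K).filter (fun W => ¬ kapR c d W), φ W)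
          / (((F.powersetCard K).filter (fun W => ¬ kapR c d W)).card : ℝ)) ^ 2

lemma DJR_nonneg (F : Finset V) (K : ℕ) (φ : Finset V → ℝ) : 0 ≤ DJR F K φ :=
  Finset.sum_nonneg (fun _ _ => Finset.sum_nonneg (fun _ _ => Finset.sum_nonneg
    (fun _ _ => sq_nonneg _)))

open scoped Classical in
lemma kp_eq (c d : V) (W : Finset V) : kp c d W = if kapR c d W then 1 else 0 := by
  unfold kp xJ kapR
  by_cases h1 : c ∈ W <;> by_cases h2 : d ∈ W <;> simp [h1, h2] <;> norm_num

open scoped Classical in
/-- The partition sums in terms of the filter. -/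
lemma sum_mul_kp (c d : V) (𝓦 : Finset (Finset V)) (g : Finset V → ℝ) :
    ∑ W ∈ 𝓦, g W * kp c d W = ∑ W ∈ 𝓦.filter (kapR c d), g W := by
  rw [Finset.sum_filter]
  refine Finset.sum_congr rfl (fun W _ => ?_)
  rw [kp_eq]
  split_ifs <;> simp

section

variable {F : Finset V} {K : ℕ}

lemma sum_x1 {c : V} (hc : c ∈ F) :
    ∑ W ∈ F.powersetCard K, xJ c W = cnt F.card K 1 := by
  have h := mom_pair (K := K) hc hc
  simp only [xJ_mul_self] at h
  rw [h]
  simp [dl]

open scoped Classical in
lemma card_kap {c d : V} (hc : c ∈ F) (hd : d ∈ F) (hcd : c ≠ d) :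
    (((F.powersetCard K).filter (kapR c d)).card : ℝ)
      = 2 * (cnt F.card K 1 - cnt F.card K 2) := by
  have h := sum_mul_kp c d (F.powersetCard K) (fun _ => 1)
  simp only [one_mul, Finset.sum_const, nsmul_eq_mul, mul_one] at h
  rw [← h]
  simp only [kp, Finset.sum_sub_distrib, Finset.sum_add_distrib, ← Finset.mul_sum]
  rw [sum_x1 hc, sum_x1 hd, mom_pair hc hd]
  simp [dl, hcd]
  ring

open scoped Classical in
/-- `chi` in terms of `β`. -/
lemma chiR_eq {φ : Finset V → ℝ} {c d : V}
    (hN1 : 0 < (((F.powersetCard K).filter (kapR c d)).card : ℝ))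
    (hN0 : 0 < (((F.powersetCard K).filter (fun W => ¬ kapR c d W)).card : ℝ))
    {φb : ℝ} (hφb : φb = (∑ W ∈ F.powersetCard K, φ W) / ((F.powersetCard K).card : ℝ)) :
    chiR F K φ c d
      = (bJ F K (fun W => φ W - φb) c d) ^ 2
        * (((F.powersetCard K).card : ℝ)
            / (((F.powersetCard K).filter (kapR c d)).card
                * ((F.powersetCard K).filter (fun W => ¬ kapR c d W)).card)) := by
  set N1 : ℝ := (((F.powersetCard K).filter (kapR c d)).card : ℝ) with hN1def
  set N0 : ℝ := (((F.powersetCard K).filter (fun W => ¬ kapR c d W)).card : ℝ) with hN0def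
  have hN : ((F.powersetCard K).card : ℝ) = N1 + N0 := by
    rw [hN1def, hN0def]
    have := Finset.card_filter_add_card_filter_not (s := F.powersetCard K) (kapR c d)
    exact_mod_cast this.symm
  set S1 : ℝ := ∑ W ∈ (F.powersetCard K).filter (kapR c d), φ W with hS1
  set S0 : ℝ := ∑ W ∈ (F.powersetCard K).filter (fun W => ¬ kapR c d W), φ W with hS0
  have hT : ∑ W ∈ F.powersetCard K, φ W = S1 + S0 :=
    (Finset.sum_filter_add_sum_filter_not (F.powersetCard K) (kapR c d) φ).symm
  have hβ : bJ F K (fun W => φ W - φb) c d = S1 - N1 * φb := by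
    rw [bJ, sum_mul_kp, Finset.sum_sub_distrib, Finset.sum_const, nsmul_eq_mul]
  have e : chiR F K φ c d
      = (N1 * N0 / ((F.powersetCard K).card : ℝ)) * (S1 / N1 - S0 / N0) ^ 2 := rfl
  rw [e, hβ, hφb, hT, hN]
  have hsum : N1 + N0 ≠ 0 := by positivity
  field_simp
  ring

open scoped Classical in
/-- Good case. -/
lemma chi_good (hm : 3 ≤ F.card) (hK1 : 1 ≤ K) (hK2 : K + 1 ≤ F.card) (φ : Finset V → ℝ) :
    ∑ c ∈ F, ∑ d ∈ F.erase c, chiR F K φ c d ≤ (1 / 2) * DJR F K φ := by
  set m := F.card with hmdef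
  have hKm : K ≤ m := by omega
  set N : ℝ := ((F.powersetCard K).card : ℝ) with hNdef
  have hNc : N = cnt m K 0 := by
    simp [hNdef, cnt, Finset.card_powersetCard, hmdef]
  have hNpos : 0 < N := by
    rw [hNdef, Finset.card_powersetCard]
    have : 0 < m.choose K := Nat.choose_pos hKm
    exact_mod_cast this
  set M1 := cnt m K 1 with hM1
  set M2 := cnt m K 2 with hM2
  have r1 : (m:ℝ) * M1 = (K:ℝ) * N := by
    have := cnt_rec (m := m) (K := K) (t := 0) hKm
    rw [hNc]
    simpa using this
  have r2 : ((m:ℝ) - 1) * M2 = ((K:ℝ) - 1) * M1 := by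
    have := cnt_rec (m := m) (K := K) (t := 1) hKm
    simpa using this
  obtain ⟨hp1, hp2⟩ := parts_pos hm hK1 hK2 hNpos r1 r2
  set φb : ℝ := (∑ W ∈ F.powersetCard K, φ W) / N with hφb
  set ψ : Finset V → ℝ := fun W => φ W - φb with hψ
  have hψ0 : ∑ W ∈ F.powersetCard K, ψ W = 0 := by
    rw [Finset.sum_sub_distrib, Finset.sum_const, nsmul_eq_mul, hφb, ← hNdef]
    field_simp
    ring
  set R : ℝ := (2 * (M1 - M2)) * (N - 2 * (M1 - M2)) / N with hR
  have hRpos : 0 < R := by
    rw [hR]
    exact div_pos (mul_pos (by linarith) hp2) hNpos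
  have hcore := core (F := F) hm hK1 hK2 ψ hψ0
  rw [← hNc, ← hR] at hcore
  have hDD : DD F K ψ ψ = DJR F K φ := by
    unfold DD DJR
    refine Finset.sum_congr rfl (fun W _ => Finset.sum_congr rfl (fun a _ =>
      Finset.sum_congr rfl (fun b _ => ?_)))
    simp only [hψ, mv]
    ring
  rw [hDD] at hcore
  have hchi : ∀ c ∈ F, ∀ d ∈ F.erase c, chiR F K φ c d = (bJ F K ψ c d) * (bJ F K ψ c d) / R := by
    intro c hc d hd
    have hdF : d ∈ F := Finset.mem_of_mem_erase hd
    have hcd : c ≠ d := (Finset.ne_of_mem_erase hd).symm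
    have hN1 := card_kap (K := K) hc hdF hcd
    have hN01 : (((F.powersetCard K).filter (kapR c d)).card : ℝ)
        + (((F.powersetCard K).filter (fun W => ¬ kapR c d W)).card : ℝ) = N := by
      rw [hNdef]
      have := Finset.card_filter_add_card_filter_not (s := F.powersetCard K) (kapR c d)
      exact_mod_cast this
    have hN0 : (((F.powersetCard K).filter (fun W => ¬ kapR c d W)).card : ℝ)
        = N - 2 * (M1 - M2) := by
      rw [← hN01, hN1]; ring
    have h1 : 0 < (((F.powersetCard K).filter (kapR c d)).card : ℝ) := by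
      rw [hN1]; linarith
    have h0 : 0 < (((F.powersetCard K).filter (fun W => ¬ kapR c d W)).card : ℝ) := by
      rw [hN0]; exact hp2
    have hN1' : (((F.powersetCard K).filter (kapR c d)).card : ℝ) = 2 * (M1 - M2) := hN1
    have e := chiR_eq (φ := φ) h1 h0 hφb
    rw [e, hN1', hN0, hR]
    change bJ F K ψ c d ^ 2 * (N / _) = _
    have h2 : N - 2 * (M1 - M2) ≠ 0 := hp2.ne'
    have h3 : M1 - M2 ≠ 0 := hp1.ne'
    field_simp
  rw [Finset.sum_congr rfl (fun c hc => Finset.sum_congr rfl (hchi c hc))]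
  have hsum : ∀ c ∈ F, ∑ d ∈ F.erase c, (bJ F K ψ c d) * (bJ F K ψ c d) / R
      = (∑ d ∈ F, (bJ F K ψ c d) * (bJ F K ψ c d)) / R := by
    intro c _
    rw [Finset.sum_div]
    apply Finset.sum_erase
    rw [bJ_diag]
    simp
  rw [Finset.sum_congr rfl hsum, ← Finset.sum_div]
  change AA F (bJ F K ψ) / R ≤ _
  rw [div_le_iff₀ hRpos]
  calc AA F (bJ F K ψ) ≤ R / 2 * DJR F K φ := hcore
    _ = 1 / 2 * DJR F K φ * R := by ring

open scoped Classical in
lemma chi_zero_left {φ : Finset V → ℝ} {c d : V}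
    (h : ∀ W ∈ F.powersetCard K, ¬ kapR c d W) : chiR F K φ c d = 0 := by
  have : (F.powersetCard K).filter (kapR c d) = ∅ := Finset.filter_eq_empty_iff.2 h
  simp [chiR, this]

open scoped Classical in
lemma chi_zero_right {φ : Finset V → ℝ} {c d : V}
    (h : ∀ W ∈ F.powersetCard K, kapR c d W) : chiR F K φ c d = 0 := by
  have : (F.powersetCard K).filter (fun W => ¬ kapR c d W) = ∅ :=
    Finset.filter_eq_empty_iff.2 (fun W hW => not_not.2 (h W hW))
  simp [chiR, this]

/-- Bad cases. -/
lemma chi_bad (hbad : ¬ (3 ≤ F.card ∧ 1 ≤ K ∧ K + 1 ≤ F.card)) (φ : Finset V → ℝ)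
    {c d : V} (hc : c ∈ F) (hd : d ∈ F) (hcd : c ≠ d) : chiR F K φ c d = 0 := by
  by_cases hK0 : K = 0
  · subst hK0
    apply chi_zero_left
    intro W hW
    have : W = ∅ := by
      have := (Finset.mem_powersetCard.1 hW).2
      exact Finset.card_eq_zero.1 this
    subst this
    simp [kapR]
  · by_cases hKm : F.card ≤ K
    · apply chi_zero_left
      intro W hW
      obtain ⟨hWF, hWK⟩ := Finset.mem_powersetCard.1 hW
      have : W = F := Finset.eq_of_subset_of_card_le hWF (by omega)
      subst this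
      simp [kapR, hc, hd]
    · have hm2 : F.card = 2 ∧ K = 1 := by
        have : F.card ≤ 2 := by
          by_contra h
          exact hbad ⟨by omega, by omega, by omega⟩
        omega
      obtain ⟨hm2, hK1⟩ := hm2
      subst hK1
      apply chi_zero_right
      intro W hW
      obtain ⟨hWF, hWK⟩ := Finset.mem_powersetCard.1 hW
      intro hiff
      by_cases hcW : c ∈ W
      · have hdW : d ∈ W := hiff.1 hcW
        have h2 : ({c, d} : Finset V) ⊆ W := by
          intro y hy
          simp only [Finset.mem_insert, Finset.mem_singleton] at hy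
          rcases hy with rfl | rfl <;> assumption
        have := Finset.card_le_card h2
        rw [Finset.card_pair hcd, hWK] at this
        omega
      · have hdW : d ∉ W := fun h => hcW (hiff.2 h)
        have h2 : W ⊆ (F.erase c).erase d := by
          intro y hy
          rw [Finset.mem_erase, Finset.mem_erase]
          exact ⟨fun h => hdW (h ▸ hy), fun h => hcW (h ▸ hy), hWF hy⟩
        have := Finset.card_le_card h2
        rw [Finset.card_erase_of_mem (Finset.mem_erase.2 ⟨hcd.symm, hd⟩),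
          Finset.card_erase_of_mem hc, hm2, hWK] at this
        omega

/-- The sharp pair-correlation inequality on the Johnson scheme (raw form). -/
theorem johnson_chi_raw (F : Finset V) (K : ℕ) (φ : Finset V → ℝ) :
    ∑ c ∈ F, ∑ d ∈ F.erase c, chiR F K φ c d ≤ (1 / 2) * DJR F K φ := by
  by_cases hgood : 3 ≤ F.card ∧ 1 ≤ K ∧ K + 1 ≤ F.card
  · exact chi_good hgood.1 hgood.2.1 hgood.2.2 φ
  · have : ∑ c ∈ F, ∑ d ∈ F.erase c, chiR F K φ c d = 0 := by
      refine Finset.sum_eq_zero (fun c hc => Finset.sum_eq_zero (fun d hd => ?_))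
      exact chi_bad hgood φ hc (Finset.mem_of_mem_erase hd) (Finset.ne_of_mem_erase hd).symm
    rw [this]
    have := DJR_nonneg F K φ
    positivity

end

end

end Crest.Agent.SW.JC
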