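/-
S0453 project: Poincare inequality on the Johnson scheme, by induction on the ground set.
See SWPLAN.md, piece JP.  Self-contained.
-/
import Mathlib

set_option autoImplicit false
open Finset

namespace Crest.Agent.SW.JP

noncomputable section

variable {V : Type*} [DecidableEq V]

/-- Dirichlet form of the Johnson graph (same formula as `DJ`). -/
def DF (F : Finset V) (K : ℕ) (φ : Finset V → ℝ) : ℝ :=
  ∑ W ∈ F.powersetCard K, ∑ c ∈ W, ∑ d ∈ F \ W, (φ W - φ (insert d (W.erase c))) ^ 2

lemma DF_nonneg (F : Finset V) (K : ℕ) (φ : Finset V → ℝ) : 0 ≤ DF F K φ :=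
  Finset.sum_nonneg fun _ _ => Finset.sum_nonneg fun _ _ => Finset.sum_nonneg fun _ _ => sq_nonneg _

/-- Double counting of the cross edges. -/
lemma sum_cross (F₀ : Finset V) (k : ℕ) (g : Finset V → V → ℝ) :
    ∑ W ∈ F₀.powersetCard (k + 1), ∑ c ∈ W, g W c
      = ∑ U ∈ F₀.powersetCard k, ∑ d ∈ F₀ \ U, g (insert d U) d := by
  rw [Finset.sum_sigma', Finset.sum_sigma']
  refine Finset.sum_bij' (fun p _ => ⟨p.1.erase p.2, p.2⟩) (fun p _ => ⟨insert p.2 p.1, p.2⟩)
    ?_ ?_ ?_ ?_ ?_
  · rintro ⟨W, c⟩ h
    simp only [Finset.mem_sigma, Finset.mem_powersetCard] at h ⊢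
    obtain ⟨⟨h1, h2⟩, h3⟩ := h
    refine ⟨⟨(Finset.erase_subset _ _).trans h1, ?_⟩, ?_⟩
    · rw [Finset.card_erase_of_mem h3, h2]; rfl
    · simp [h1 h3]
  · rintro ⟨U, d⟩ h
    simp only [Finset.mem_sigma, Finset.mem_powersetCard, Finset.mem_sdiff] at h ⊢
    obtain ⟨⟨h1, h2⟩, h3, h4⟩ := h
    refine ⟨⟨Finset.insert_subset h3 h1, ?_⟩, Finset.mem_insert_self _ _⟩
    rw [Finset.card_insert_of_notMem h4, h2]
  · rintro ⟨W, c⟩ h
    simp only [Finset.mem_sigma] at h
    simp [Finset.insert_erase h.2]
  · rintro ⟨U, d⟩ h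
    simp only [Finset.mem_sigma, Finset.mem_sdiff] at h
    simp [Finset.erase_insert h.2.2]
  · rintro ⟨W, c⟩ h
    simp only [Finset.mem_sigma] at h
    simp [Finset.insert_erase h.2]

/-- The cross energy. -/
def XF (F₀ : Finset V) (k : ℕ) (x : V) (φ : Finset V → ℝ) : ℝ :=
  ∑ W ∈ F₀.powersetCard (k + 1), ∑ c ∈ W, (φ W - φ (insert x (W.erase c))) ^ 2

lemma XF_nonneg (F₀ : Finset V) (k : ℕ) (x : V) (φ : Finset V → ℝ) : 0 ≤ XF F₀ k x φ :=
  Finset.sum_nonneg fun _ _ => Finset.sum_nonneg fun _ _ => sq_nonneg _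

lemma insert_disj {F₀ : Finset V} {x : V} (hx : x ∉ F₀) (k : ℕ) :
    Disjoint (F₀.powersetCard (k + 1)) ((F₀.powersetCard k).image (insert x)) := by
  rw [Finset.disjoint_left]
  intro W h1 h2
  obtain ⟨U, -, rfl⟩ := Finset.mem_image.1 h2
  exact hx ((Finset.mem_powersetCard.1 h1).1 (Finset.mem_insert_self _ _))

lemma insert_injOn {F₀ : Finset V} {x : V} (hx : x ∉ F₀) (k : ℕ) :
    Set.InjOn (insert x) ((F₀.powersetCard k : Finset (Finset V)) : Set (Finset V)) := by
  intro U hU U' hU' h
  have h1 : x ∉ U := fun h' => hx ((Finset.mem_powersetCard.1 (Finset.mem_coe.1 hU)).1 h')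
  have h2 : x ∉ U' := fun h' => hx ((Finset.mem_powersetCard.1 (Finset.mem_coe.1 hU')).1 h')
  have := congrArg (fun S => Finset.erase S x) h
  simpa [Finset.erase_insert h1, Finset.erase_insert h2] using this

/-- The Dirichlet form under adding one point. -/
lemma DF_insert {F₀ : Finset V} {x : V} (hx : x ∉ F₀) (k : ℕ) (φ : Finset V → ℝ) :
    DF (insert x F₀) (k + 1) φ
      = DF F₀ (k + 1) φ + DF F₀ k (fun U => φ (insert x U)) + 2 * XF F₀ k x φ := by
  unfold DF
  rw [Finset.powersetCard_succ_insert hx, Finset.sum_union (insert_disj hx k),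
    Finset.sum_image (insert_injOn hx k)]
  -- the part without `x`
  have h1 : ∑ W ∈ F₀.powersetCard (k + 1), ∑ c ∈ W, ∑ d ∈ insert x F₀ \ W,
        (φ W - φ (insert d (W.erase c))) ^ 2
      = ∑ W ∈ F₀.powersetCard (k + 1), ∑ c ∈ W, ∑ d ∈ F₀ \ W,
          (φ W - φ (insert d (W.erase c))) ^ 2 + XF F₀ k x φ := by
    unfold XF
    rw [← Finset.sum_add_distrib]
    refine Finset.sum_congr rfl (fun W hW => ?_)
    rw [← Finset.sum_add_distrib]
    refine Finset.sum_congr rfl (fun c _ => ?_)
    have hxW : x ∉ W := fun h => hx ((Finset.mem_powersetCard.1 hW).1 h)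
    rw [Finset.insert_sdiff_of_notMem _ hxW,
      Finset.sum_insert (by simp [hx]), add_comm]
  -- the part with `x`
  have h2 : ∑ U ∈ F₀.powersetCard k, ∑ c ∈ insert x U, ∑ d ∈ insert x F₀ \ insert x U,
        (φ (insert x U) - φ (insert d ((insert x U).erase c))) ^ 2
      = ∑ U ∈ F₀.powersetCard k, ∑ c ∈ U, ∑ d ∈ F₀ \ U,
          (φ (insert x U) - φ (insert x (insert d (U.erase c)))) ^ 2
        + ∑ U ∈ F₀.powersetCard k, ∑ d ∈ F₀ \ U, (φ (insert x U) - φ (insert d U)) ^ 2 := by
    rw [← Finset.sum_add_distrib]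
    refine Finset.sum_congr rfl (fun U hU => ?_)
    have hxU : x ∉ U := fun h => hx ((Finset.mem_powersetCard.1 hU).1 h)
    have hdiff : insert x F₀ \ insert x U = F₀ \ U := by
      ext v
      simp only [Finset.mem_sdiff, Finset.mem_insert, not_or]
      constructor
      · rintro ⟨h3 | h3, h4, h5⟩
        · exact absurd h3 h4
        · exact ⟨h3, h5⟩
      · rintro ⟨h3, h4⟩
        exact ⟨Or.inr h3, fun h => hx (h ▸ h3), h4⟩
    rw [hdiff, Finset.sum_insert hxU, Finset.erase_insert hxU, add_comm]
    congr 1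
    refine Finset.sum_congr rfl (fun c hc => Finset.sum_congr rfl (fun d _ => ?_))
    have hcx : c ≠ x := fun h => hxU (h ▸ hc)
    rw [Finset.erase_insert_of_ne hcx.symm, Finset.insert_comm d x]
  -- cross terms agree
  have h3 : ∑ U ∈ F₀.powersetCard k, ∑ d ∈ F₀ \ U, (φ (insert x U) - φ (insert d U)) ^ 2
      = XF F₀ k x φ := by
    unfold XF
    rw [sum_cross F₀ k (fun W c => (φ W - φ (insert x (W.erase c))) ^ 2)]
    refine Finset.sum_congr rfl (fun U _ => Finset.sum_congr rfl (fun d hd => ?_))
    rw [Finset.erase_insert (Finset.mem_sdiff.1 hd).2]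
    ring
  rw [h1, h2, h3]
  ring

/-- Elementary inequality for the cross term. -/
lemma var_split {a b p q S₀ S₁ X T : ℝ} (ha : 0 < a) (hb : 0 < b) (hp : 1 ≤ p) (hq : 1 ≤ q)
    (hE : p * a = q * b) (hT : T = p * S₀ - q * S₁) (hC : T ^ 2 ≤ (p * a) * X) (hX : 0 ≤ X) :
    S₀ ^ 2 / a + S₁ ^ 2 / b - (S₀ + S₁) ^ 2 / (a + b) ≤ X / 2 := by
  have hp0 : 0 < p := by linarith
  have hab : 0 < a + b := by linarith
  have hq' : q = p * a / b := by field_simp; linarith
  have hT' : b * S₀ - a * S₁ = b * T / p := by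
    rw [hT, hq']; field_simp
  have e1 : S₀ ^ 2 / a + S₁ ^ 2 / b - (S₀ + S₁) ^ 2 / (a + b)
      = (b * S₀ - a * S₁) ^ 2 / (a * b * (a + b)) := by
    field_simp; ring
  rw [e1, hT']
  have e2 : (b * T / p) ^ 2 / (a * b * (a + b)) = b * T ^ 2 / (p ^ 2 * a * (a + b)) := by
    field_simp
  rw [e2, div_le_div_iff₀ (by positivity) (by norm_num)]
  have h3 : b * T ^ 2 * 2 ≤ b * ((p * a) * X) * 2 := by
    have := mul_le_mul_of_nonneg_left hC hb.le
    linarith
  have h4 : 2 * b ≤ p * (a + b) := by
    have : p * (a + b) = b * (q + p) := by rw [mul_add, hE]; ring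
    rw [this]
    nlinarith
  have h5 : b * ((p * a) * X) * 2 = (p * a * X) * (2 * b) := by ring
  have h6 : (p * a * X) * (2 * b) ≤ (p * a * X) * (p * (a + b)) :=
    mul_le_mul_of_nonneg_left h4 (by positivity)
  calc b * T ^ 2 * 2 ≤ b * ((p * a) * X) * 2 := h3
    _ = (p * a * X) * (2 * b) := h5
    _ ≤ (p * a * X) * (p * (a + b)) := h6
    _ = X * (p ^ 2 * a * (a + b)) := by ring

/-- Johnson Poincare with constant 1/4 in the normalization of `DF`. -/
theorem johnson_poincare_aux (F : Finset V) : ∀ (K : ℕ) (φ : Finset V → ℝ),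
    ∑ W ∈ F.powersetCard K, φ W ^ 2
        - (∑ W ∈ F.powersetCard K, φ W) ^ 2 / ((F.powersetCard K).card : ℝ)
      ≤ (1 / 4) * DF F K φ := by
  classical
  have hzero : ∀ (F : Finset V) (φ : Finset V → ℝ),
      ∑ W ∈ F.powersetCard 0, φ W ^ 2
          - (∑ W ∈ F.powersetCard 0, φ W) ^ 2 / ((F.powersetCard 0).card : ℝ)
        ≤ (1 / 4) * DF F 0 φ := by
    intro F φ
    have := DF_nonneg F 0 φ
    simp only [Finset.powersetCard_zero, Finset.sum_singleton, Finset.card_singleton,
      Nat.cast_one, div_one, sub_self]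
    linarith
  induction F using Finset.induction_on with
  | empty =>
    intro K φ
    cases K with
    | zero => exact hzero ∅ φ
    | succ k =>
      have : (∅ : Finset V).powersetCard (k + 1) = ∅ := Finset.powersetCard_eq_empty.2 (by simp)
      simp [DF, this]
  | insert x F₀ hx ih =>
    intro K φ
    cases K with
    | zero => exact hzero _ φ
    | succ k =>
      set ψ : Finset V → ℝ := fun U => φ (insert x U) with hψ
      have ih0 := ih (k + 1) φ
      have ih1 := ih k ψ
      have hS : ∀ g : Finset V → ℝ, ∑ W ∈ (insert x F₀).powersetCard (k + 1), g W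
          = ∑ W ∈ F₀.powersetCard (k + 1), g W
            + ∑ U ∈ F₀.powersetCard k, g (insert x U) := by
        intro g
        rw [Finset.powersetCard_succ_insert hx, Finset.sum_union (insert_disj hx k),
          Finset.sum_image (insert_injOn hx k)]
      have hcard : (((insert x F₀).powersetCard (k + 1)).card : ℝ)
          = ((F₀.powersetCard (k + 1)).card : ℝ) + ((F₀.powersetCard k).card : ℝ) := by
        rw [Finset.powersetCard_succ_insert hx, Finset.card_union_of_disjoint (insert_disj hx k),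
          Finset.card_image_of_injOn (insert_injOn hx k)]
        push_cast; ring
      rw [hS (fun W => φ W ^ 2), hS φ, hcard, DF_insert hx]
      have hD0 := DF_nonneg F₀ (k + 1) φ
      have hD1 := DF_nonneg F₀ k ψ
      have hX := XF_nonneg F₀ k x φ
      by_cases hA : (F₀.powersetCard (k + 1)).Nonempty
      · by_cases hB : (F₀.powersetCard k).Nonempty
        · -- the main case
          have hle : k + 1 ≤ F₀.card := by
            by_contra hcon
            rw [Finset.powersetCard_eq_empty.2 (by omega)] at hA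
            exact Finset.not_nonempty_empty hA
          have ha : (0 : ℝ) < ((F₀.powersetCard (k + 1)).card : ℝ) := by
            exact_mod_cast Finset.card_pos.2 hA
          have hb : (0 : ℝ) < ((F₀.powersetCard k).card : ℝ) := by
            exact_mod_cast Finset.card_pos.2 hB
          set a : ℝ := ((F₀.powersetCard (k + 1)).card : ℝ) with ha_def
          set b : ℝ := ((F₀.powersetCard k).card : ℝ) with hb_def
          set p : ℝ := ((k + 1 : ℕ) : ℝ) with hp_def
          set q : ℝ := ((F₀.card - k : ℕ) : ℝ) with hq_def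
          have hp1 : (1 : ℝ) ≤ p := by rw [hp_def]; exact_mod_cast Nat.succ_le_succ (Nat.zero_le k)
          have hq1 : (1 : ℝ) ≤ q := by
            rw [hq_def]
            exact_mod_cast (show 1 ≤ F₀.card - k by omega)
          -- degree sums
          have hdegA : ∀ g : Finset V → ℝ, ∑ W ∈ F₀.powersetCard (k + 1), ∑ _c ∈ W, g W
              = p * ∑ W ∈ F₀.powersetCard (k + 1), g W := by
            intro g
            rw [Finset.mul_sum]
            refine Finset.sum_congr rfl (fun W hW => ?_)
            rw [Finset.sum_const, (Finset.mem_powersetCard.1 hW).2, nsmul_eq_mul]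
          have hdegB : ∀ g : Finset V → ℝ, ∑ U ∈ F₀.powersetCard k, ∑ _d ∈ F₀ \ U, g U
              = q * ∑ U ∈ F₀.powersetCard k, g U := by
            intro g
            rw [Finset.mul_sum]
            refine Finset.sum_congr rfl (fun U hU => ?_)
            obtain ⟨h1, h2⟩ := Finset.mem_powersetCard.1 hU
            rw [Finset.sum_const, Finset.card_sdiff_of_subset h1, h2, nsmul_eq_mul]
          have hAone : ∑ _W ∈ F₀.powersetCard (k + 1), (1 : ℝ) = a := by simp [ha_def]
          have hBone : ∑ _U ∈ F₀.powersetCard k, (1 : ℝ) = b := by simp [hb_def]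
          have hE : p * a = q * b := by
            calc p * a = p * ∑ _W ∈ F₀.powersetCard (k + 1), (1 : ℝ) := by rw [hAone]
              _ = ∑ W ∈ F₀.powersetCard (k + 1), ∑ _c ∈ W, (1 : ℝ) :=
                  (hdegA (fun _ => (1 : ℝ))).symm
              _ = ∑ U ∈ F₀.powersetCard k, ∑ _d ∈ F₀ \ U, (1 : ℝ) :=
                  sum_cross F₀ k (fun _ _ => (1 : ℝ))
              _ = q * ∑ _U ∈ F₀.powersetCard k, (1 : ℝ) := hdegB (fun _ => (1 : ℝ))
              _ = q * b := by rw [hBone]
          -- the first moment of the cross edges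
          set T : ℝ := ∑ W ∈ F₀.powersetCard (k + 1), ∑ c ∈ W, (φ W - ψ (W.erase c)) with hTdef
          have hT : T = p * ∑ W ∈ F₀.powersetCard (k + 1), φ W
              - q * ∑ U ∈ F₀.powersetCard k, ψ U := by
            rw [hTdef]
            have e1 : ∑ W ∈ F₀.powersetCard (k + 1), ∑ c ∈ W, (φ W - ψ (W.erase c))
                = ∑ W ∈ F₀.powersetCard (k + 1), ∑ _c ∈ W, φ W
                  - ∑ W ∈ F₀.powersetCard (k + 1), ∑ c ∈ W, ψ (W.erase c) := by
              rw [← Finset.sum_sub_distrib]
              refine Finset.sum_congr rfl (fun W _ => ?_)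
              rw [← Finset.sum_sub_distrib]
            rw [e1, hdegA φ, sum_cross F₀ k (fun W c => ψ (W.erase c)), ← hdegB ψ]
            congr 1
            refine Finset.sum_congr rfl (fun U _ => Finset.sum_congr rfl (fun d hd => ?_))
            rw [Finset.erase_insert (Finset.mem_sdiff.1 hd).2]
          -- Cauchy
          have hC : T ^ 2 ≤ (p * a) * XF F₀ k x φ := by
            have hc : ((((F₀.powersetCard (k + 1)).sigma fun W => W).card : ℕ) : ℝ) = p * a := by
              rw [Finset.card_sigma, Nat.cast_sum]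
              have : ∀ W ∈ F₀.powersetCard (k + 1), ((W.card : ℕ) : ℝ) = p * 1 := by
                intro W hW
                rw [(Finset.mem_powersetCard.1 hW).2, mul_one]
              rw [Finset.sum_congr rfl this, ← Finset.mul_sum, hAone]
            have hX' : XF F₀ k x φ
                = ∑ i ∈ (F₀.powersetCard (k + 1)).sigma fun W => W,
                    (φ i.1 - ψ (i.1.erase i.2)) ^ 2 := by
              unfold XF
              rw [Finset.sum_sigma']
            rw [hTdef, Finset.sum_sigma', hX', ← hc]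
            exact sq_sum_le_card_mul_sum_sq
          have hv := var_split (S₀ := ∑ W ∈ F₀.powersetCard (k + 1), φ W)
            (S₁ := ∑ U ∈ F₀.powersetCard k, ψ U) ha hb hp1 hq1 hE hT hC hX
          have hsum := add_le_add (add_le_add ih0 ih1) hv
          have goal_eq : ∑ W ∈ F₀.powersetCard (k + 1), φ W ^ 2
                + ∑ U ∈ F₀.powersetCard k, φ (insert x U) ^ 2
              - (∑ W ∈ F₀.powersetCard (k + 1), φ W + ∑ U ∈ F₀.powersetCard k, φ (insert x U)) ^ 2
                  / (a + b)
              = (∑ W ∈ F₀.powersetCard (k + 1), φ W ^ 2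
                  - (∑ W ∈ F₀.powersetCard (k + 1), φ W) ^ 2 / a)
                + (∑ U ∈ F₀.powersetCard k, ψ U ^ 2 - (∑ U ∈ F₀.powersetCard k, ψ U) ^ 2 / b)
                + ((∑ W ∈ F₀.powersetCard (k + 1), φ W) ^ 2 / a
                    + (∑ U ∈ F₀.powersetCard k, ψ U) ^ 2 / b
                    - (∑ W ∈ F₀.powersetCard (k + 1), φ W + ∑ U ∈ F₀.powersetCard k, ψ U) ^ 2
                        / (a + b)) := by
            simp only [hψ]
            ring
          rw [goal_eq]
          linarith
        · -- `B` empty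
          rw [Finset.not_nonempty_iff_eq_empty] at hB
          have hk : F₀.card < k := Finset.powersetCard_eq_empty.1 hB
          rw [Finset.powersetCard_eq_empty.2 (by omega : F₀.card < k + 1)] at hA
          exact absurd hA Finset.not_nonempty_empty
      · -- `A` empty
        rw [Finset.not_nonempty_iff_eq_empty] at hA
        have hXz : XF F₀ k x φ = 0 := by simp [XF, hA]
        have hDz : DF F₀ (k + 1) φ = 0 := by simp [DF, hA]
        rw [hXz, hDz]
        simp only [hA, Finset.sum_empty, zero_add, Finset.card_empty, Nat.cast_zero]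
        simpa [hψ] using ih1

end

end Crest.Agent.SW.JP
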