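/-
S0453 project: the two Johnson-scheme inequalities (abstract).  See SWPLAN.md, pieces JP, JC.
-/
import Crest.Agent.SWCexp
import Crest.Agent.SWJohnP
import Crest.Agent.SWJohnC

set_option autoImplicit false
open Finset

namespace Crest.Agent.SW

noncomputable section

variable {V : Type*} [DecidableEq V]

/-- Dirichlet form of the Johnson graph `J(F, K)`: both orientations of each edge counted. -/
def DJ (F : Finset V) (K : ℕ) (φ : Finset V → ℝ) : ℝ :=
  ∑ W ∈ F.powersetCard K, ∑ c ∈ W, ∑ d ∈ F \ W, (φ W - φ (insert d (W.erase c))) ^ 2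

/-- Johnson Poincare with constant 1/2 (in normalized form `Var ≤ ½ ⟨φ, L_J φ⟩`). -/
theorem johnson_poincare (F : Finset V) (K : ℕ) (φ : Finset V → ℝ) :
    ∑ W ∈ F.powersetCard K, φ W ^ 2
        - (∑ W ∈ F.powersetCard K, φ W) ^ 2 / ((F.powersetCard K).card : ℝ)
      ≤ (1 / 4) * DJ F K φ :=
  JP.johnson_poincare_aux F K φ

/-- `W` contains exactly one of `c, d`. -/
def kapJ (c d : V) (W : Finset V) : Prop := ¬ (c ∈ W ↔ d ∈ W)

open scoped Classical in
/-- `(N₁ N₀ / N) (S₁/N₁ - S₀/N₀)²` on `J(F,K)` for the partition by `kapJ c d`. -/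
def chiJ (F : Finset V) (K : ℕ) (φ : Finset V → ℝ) (c d : V) : ℝ :=
  (((F.powersetCard K).filter (kapJ c d)).card * ((F.powersetCard K).filter (fun W => ¬ kapJ c d W)).card
      / ((F.powersetCard K).card : ℝ))
    * ((∑ W ∈ (F.powersetCard K).filter (kapJ c d), φ W)
          / (((F.powersetCard K).filter (kapJ c d)).card : ℝ)
        - (∑ W ∈ (F.powersetCard K).filter (fun W => ¬ kapJ c d W), φ W)
          / (((F.powersetCard K).filter (fun W => ¬ kapJ c d W)).card : ℝ)) ^ 2

/-- The sharp pair-correlation inequality on the Johnson scheme. The sum is over ordered pairs. -/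
theorem johnson_chi (F : Finset V) (K : ℕ) (φ : Finset V → ℝ) :
    ∑ c ∈ F, ∑ d ∈ F.erase c, chiJ F K φ c d ≤ (1 / 2) * DJ F K φ :=
  JC.johnson_chi_raw F K φ

end

end Crest.Agent.SW
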