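/-
S0453 project: encoding of row-pair blocks into the Johnson scheme.  See SWPLAN.md, piece ENCB.
-/
import Crest.Agent.SWCore
import Crest.Agent.SWJohn
import Crest.Agent.SWTog

set_option autoImplicit false
open Finset
open Crest.SwitchChain

namespace Crest.Agent.SW

noncomputable section

open scoped Classical

variable {n : ℕ}

/-! ### Free columns and the encoding -/

/-- The free columns of the row pair `a, b` in `G`. -/
def freeCols (G : Gr n) (a b : Fin n) : Finset (Fin n) :=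
  univ.filter (fun v => v ≠ a ∧ v ≠ b ∧ ¬ (adj G a v ↔ adj G b v))

lemma mem_freeCols {G : Gr n} {a b v : Fin n} :
    v ∈ freeCols G a b ↔ v ≠ a ∧ v ≠ b ∧ ¬ (adj G a v ↔ adj G b v) := by
  simp [freeCols]

lemma left_not_mem_freeCols {G : Gr n} {a b : Fin n} : a ∉ freeCols G a b := by
  simp [mem_freeCols]

lemma right_not_mem_freeCols {G : Gr n} {a b : Fin n} : b ∉ freeCols G a b := by
  simp [mem_freeCols]

/-- The relation on rows `a`, `b` prescribed by `W ⊆ F`. -/
def rhoW (G₀ : Gr n) (a : Fin n) (b : Fin n) (F W : Finset (Fin n)) (u v : Fin n) : Prop :=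
  if u = a then (if v ∈ F then v ∈ W else adj G₀ a v)
  else (if v ∈ F then v ∉ W else adj G₀ b v)

/-- The graph encoded by `W`. -/
def GW (G₀ : Gr n) (a b : Fin n) (F W : Finset (Fin n)) : Gr n :=
  patch G₀ {a, b} (rhoW G₀ a b F W)

section encoding

variable {G₀ : Gr n} {a b : Fin n}

lemma rhoW_symm (hab : a ≠ b) (F W : Finset (Fin n)) (ha : a ∉ F) (hb : b ∉ F) :
    ∀ u ∈ ({a, b} : Finset (Fin n)), ∀ v ∈ ({a, b} : Finset (Fin n)),
      rhoW G₀ a b F W u v → rhoW G₀ a b F W v u := by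
  intro u hu v hv
  simp only [Finset.mem_insert, Finset.mem_singleton] at hu hv
  rcases hu with rfl | rfl <;> rcases hv with rfl | rfl
  · exact id
  · simp only [rhoW, if_true, if_neg hab.symm, ha, hb, if_false]
    exact adj_comm.1
  · simp only [rhoW, if_true, if_neg hab.symm, ha, hb, if_false]
    exact adj_comm.1
  · exact id

lemma adj_GW_a (hab : a ≠ b) {F W : Finset (Fin n)} (ha : a ∉ F) (hb : b ∉ F) {v : Fin n}
    (hv : v ∈ F) : adj (GW G₀ a b F W) a v ↔ v ∈ W := by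
  unfold GW
  rw [adj_patch_mem (rhoW_symm hab F W ha hb) (by simp)]
  have hav : a ≠ v := by rintro rfl; exact ha hv
  simp [rhoW, hv, hav]

lemma adj_GW_a' (hab : a ≠ b) {F W : Finset (Fin n)} (ha : a ∉ F) (hb : b ∉ F) {v : Fin n}
    (hv : v ∉ F) : adj (GW G₀ a b F W) a v ↔ adj G₀ a v := by
  unfold GW
  rw [adj_patch_mem (rhoW_symm hab F W ha hb) (by simp)]
  simp only [rhoW, if_true, hv, if_false]
  exact ⟨fun h => h.2, fun h => ⟨adj_ne h, h⟩⟩

lemma adj_GW_b (hab : a ≠ b) {F W : Finset (Fin n)} (ha : a ∉ F) (hb : b ∉ F) {v : Fin n}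
    (hv : v ∈ F) : adj (GW G₀ a b F W) b v ↔ v ∉ W := by
  unfold GW
  rw [adj_patch_mem (rhoW_symm hab F W ha hb) (by simp)]
  have hbv : b ≠ v := by rintro rfl; exact hb hv
  simp [rhoW, hv, hbv, hab.symm]

lemma adj_GW_b' (hab : a ≠ b) {F W : Finset (Fin n)} (ha : a ∉ F) (hb : b ∉ F) {v : Fin n}
    (hv : v ∉ F) : adj (GW G₀ a b F W) b v ↔ adj G₀ b v := by
  unfold GW
  rw [adj_patch_mem (rhoW_symm hab F W ha hb) (by simp)]
  simp only [rhoW, if_neg hab.symm, hv, if_false]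
  exact ⟨fun h => h.2, fun h => ⟨adj_ne h, h⟩⟩

lemma adj_GW_off (hab : a ≠ b) {F W : Finset (Fin n)} (ha : a ∉ F) (hb : b ∉ F) {u v : Fin n}
    (hu : u ∉ ({a, b} : Finset (Fin n))) (hv : v ∉ ({a, b} : Finset (Fin n))) :
    adj (GW G₀ a b F W) u v ↔ adj G₀ u v := by
  unfold GW
  exact adj_patch_not_mem (rhoW_symm hab F W ha hb) hu hv

lemma keyOff_GW (hab : a ≠ b) {F W : Finset (Fin n)} (ha : a ∉ F) (hb : b ∉ F) :
    keyOff {a, b} (GW G₀ a b F W) = keyOff {a, b} G₀ := by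
  rw [keyOff_eq_iff]
  intro u v hu hv
  exact adj_GW_off hab ha hb hu hv

/-- Extensionality for graphs, row pair version. -/
lemma graph_ext_rows {H H' : Gr n} (ha : ∀ v, adj H a v ↔ adj H' a v)
    (hb : ∀ v, adj H b v ↔ adj H' b v)
    (hoff : ∀ u v, u ∉ ({a, b} : Finset (Fin n)) → v ∉ ({a, b} : Finset (Fin n)) →
      (adj H u v ↔ adj H' u v)) : H = H' := by
  refine graph_ext (fun u v => ?_)
  by_cases hu : u = a
  · subst hu; exact ha v
  by_cases hu' : u = b
  · subst hu'; exact hb v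
  by_cases hv : v = a
  · subst hv; rw [adj_comm, adj_comm (G := H')]; exact ha u
  by_cases hv' : v = b
  · subst hv'; rw [adj_comm, adj_comm (G := H')]; exact hb u
  exact hoff u v (by simp [hu, hu']) (by simp [hv, hv'])

/-- Column sum. -/
def colsum (H : Gr n) (a b u : Fin n) : ℕ :=
  (if adj H a u then 1 else 0) + (if adj H b u then 1 else 0)

/-- Degree splitting at a vertex outside `{a, b}`. -/
lemma card_nb_split (hab : a ≠ b) (H : Gr n) {u : Fin n} :
    (nb H u).card = ((nb H u).filter (fun v => v ∉ ({a, b} : Finset (Fin n)))).card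
      + colsum H a b u := by
  have h := Finset.card_filter_add_card_filter_not (s := nb H u)
    (fun v => v ∉ ({a, b} : Finset (Fin n)))
  rw [← h]
  congr 1
  have hfil : (nb H u).filter (fun v => ¬ v ∉ ({a, b} : Finset (Fin n)))
      = (if adj H a u then {a} else ∅) ∪ (if adj H b u then {b} else ∅) := by
    ext v
    simp only [Finset.mem_filter, mem_nb, not_not, Finset.mem_insert, Finset.mem_singleton,
      Finset.mem_union]
    by_cases h1 : adj H a u <;> by_cases h2 : adj H b u <;>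
      simp only [h1, h2, if_true, if_false, Finset.mem_singleton, Finset.notMem_empty, or_false,
        false_or] <;>
      constructor <;> (try rintro ⟨h3, h4 | h4⟩) <;> (try subst h4) <;>
      (try simp_all [adj_comm])
  rw [hfil]
  unfold colsum
  by_cases h1 : adj H a u <;> by_cases h2 : adj H b u <;> simp [h1, h2, hab]

lemma filter_nb_off_eq {H H' : Gr n}
    (h : keyOff {a, b} H = keyOff {a, b} H') {u : Fin n}
    (hu : u ∉ ({a, b} : Finset (Fin n))) :
    (nb H u).filter (fun v => v ∉ ({a, b} : Finset (Fin n)))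
      = (nb H' u).filter (fun v => v ∉ ({a, b} : Finset (Fin n))) := by
  rw [keyOff_eq_iff] at h
  ext v
  simp only [Finset.mem_filter, mem_nb]
  constructor
  · rintro ⟨h1, h2⟩; exact ⟨(h u v hu h2).1 h1, h2⟩
  · rintro ⟨h1, h2⟩; exact ⟨(h u v hu h2).2 h1, h2⟩

/-- The column sums are block invariants. -/
lemma colsum_eq_of_key (hab : a ≠ b) {D : Fin n → ℕ} {H H' : Gr n} (hH : H ∈ realizations D)
    (hH' : H' ∈ realizations D) (h : keyOff {a, b} H = keyOff {a, b} H') {u : Fin n}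
    (hu : u ∉ ({a, b} : Finset (Fin n))) : colsum H a b u = colsum H' a b u := by
  have h1 := card_nb_split hab H (u := u)
  have h2 := card_nb_split hab H' (u := u)
  rw [filter_nb_off_eq h hu] at h1
  rw [mem_realizations] at hH hH'
  rw [hH u] at h1
  rw [hH' u] at h2
  omega

/-- Splitting of a row along `F`. -/
lemma card_row_split (hab : a ≠ b) (H : Gr n) {F : Finset (Fin n)} (ha : a ∉ F) (hb : b ∉ F) :
    (nb H a).card = (F.filter (fun v => adj H a v)).card
      + (univ.filter (fun v => v ∉ F ∧ v ≠ a ∧ v ≠ b ∧ adj H a v)).card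
      + (if adj H a b then 1 else 0) := by
  have hdec : nb H a = (F.filter (fun v => adj H a v))
      ∪ ((univ.filter (fun v => v ∉ F ∧ v ≠ a ∧ v ≠ b ∧ adj H a v))
        ∪ (if adj H a b then {b} else ∅)) := by
    ext v
    simp only [mem_nb, Finset.mem_union, Finset.mem_filter, Finset.mem_univ, true_and]
    by_cases hvb : v = b
    · subst hvb
      by_cases h1 : adj H a v <;> simp [h1, hb]
    · by_cases h1 : adj H a v
      · have : v ≠ a := (adj_ne h1).symm
        by_cases h2 : v ∈ F <;> simp [h1, h2, hvb, this]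
      · simp only [h1, and_false, false_or, false_iff]
        split_ifs <;> simp [hvb]
  conv_lhs => rw [hdec]
  rw [Finset.card_union_of_disjoint, Finset.card_union_of_disjoint]
  · by_cases h1 : adj H a b <;> simp [h1, add_assoc]
  · by_cases h1 : adj H a b <;> simp [h1, Finset.disjoint_left]
    intro v _ _ hvb _
    exact hvb
  · rw [Finset.disjoint_left]
    intro v hv
    simp only [Finset.mem_filter] at hv
    simp only [Finset.mem_union, Finset.mem_filter, Finset.mem_univ, true_and, not_or, not_and]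
    refine ⟨fun h => absurd hv.1 h, ?_⟩
    have : v ≠ b := by rintro rfl; exact hb hv.1
    split_ifs <;> simp [this]

/-- Columns inside a block. -/
lemma block_col_free (hab : a ≠ b) {D : Fin n → ℕ} {H : Gr n} (hG₀ : G₀ ∈ realizations D)
    (hH : H ∈ realizations D) (h : keyOff {a, b} H = keyOff {a, b} G₀) {u : Fin n}
    (hu : u ∈ freeCols G₀ a b) : ¬ (adj H a u ↔ adj H b u) := by
  obtain ⟨h1, h2, h3⟩ := mem_freeCols.1 hu
  have hc := colsum_eq_of_key hab hH hG₀ h (u := u) (by simp [h1, h2])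
  unfold colsum at hc
  by_cases h4 : adj H a u <;> by_cases h5 : adj H b u <;> by_cases h6 : adj G₀ a u <;>
    by_cases h7 : adj G₀ b u <;> simp [h4, h5, h6, h7] at hc h3 ⊢

lemma block_col_fixed (hab : a ≠ b) {D : Fin n → ℕ} {H : Gr n} (hG₀ : G₀ ∈ realizations D)
    (hH : H ∈ realizations D) (h : keyOff {a, b} H = keyOff {a, b} G₀) {u : Fin n}
    (hu : u ∉ freeCols G₀ a b) (hua : u ≠ a) (hub : u ≠ b) :
    (adj H a u ↔ adj G₀ a u) ∧ (adj H b u ↔ adj G₀ b u) := by
  have h3 : adj G₀ a u ↔ adj G₀ b u := by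
    by_contra hcon
    exact hu (mem_freeCols.2 ⟨hua, hub, hcon⟩)
  have hc := colsum_eq_of_key hab hH hG₀ h (u := u) (by simp [hua, hub])
  unfold colsum at hc
  by_cases h4 : adj H a u <;> by_cases h5 : adj H b u <;> by_cases h6 : adj G₀ a u <;>
    by_cases h7 : adj G₀ b u <;> simp [h4, h5, h6, h7] at hc h3 ⊢

/-- In a graph with the free-column property, the `b`-row on `F` is the complement. -/
lemma filter_b_eq {H : Gr n} {F : Finset (Fin n)}
    (hF : ∀ u ∈ F, ¬ (adj H a u ↔ adj H b u)) :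
    F.filter (fun v => adj H b v) = F \ F.filter (fun v => adj H a v) := by
  ext v
  simp only [Finset.mem_filter, Finset.mem_sdiff, not_and]
  constructor
  · rintro ⟨h1, h2⟩
    refine ⟨h1, fun _ h3 => hF v h1 ?_⟩
    tauto
  · rintro ⟨h1, h2⟩
    refine ⟨h1, ?_⟩
    have := hF v h1
    have := h2 h1
    tauto

lemma block_row (hab : a ≠ b) {D : Fin n → ℕ} {H : Gr n} (hG₀ : G₀ ∈ realizations D)
    (hH : H ∈ realizations D) (h : keyOff {a, b} H = keyOff {a, b} G₀) :
    (adj H a b ↔ adj G₀ a b) ∧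
      ((freeCols G₀ a b).filter (fun v => adj H a v)).card
        = ((freeCols G₀ a b).filter (fun v => adj G₀ a v)).card := by
  set F := freeCols G₀ a b with hFdef
  have ha : a ∉ F := left_not_mem_freeCols
  have hb : b ∉ F := right_not_mem_freeCols
  have h1 := card_row_split hab H ha hb
  have h2 := card_row_split hab G₀ ha hb
  have h3 := card_row_split hab.symm H hb ha
  have h4 := card_row_split hab.symm G₀ hb ha
  have hA : univ.filter (fun v => v ∉ F ∧ v ≠ a ∧ v ≠ b ∧ adj H a v)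
      = univ.filter (fun v => v ∉ F ∧ v ≠ a ∧ v ≠ b ∧ adj G₀ a v) := by
    ext v
    simp only [Finset.mem_filter, Finset.mem_univ, true_and]
    constructor
    · rintro ⟨h5, h6, h7, h8⟩
      exact ⟨h5, h6, h7, (block_col_fixed hab hG₀ hH h h5 h6 h7).1.1 h8⟩
    · rintro ⟨h5, h6, h7, h8⟩
      exact ⟨h5, h6, h7, (block_col_fixed hab hG₀ hH h h5 h6 h7).1.2 h8⟩
  have hB : univ.filter (fun v => v ∉ F ∧ v ≠ b ∧ v ≠ a ∧ adj H b v)
      = univ.filter (fun v => v ∉ F ∧ v ≠ b ∧ v ≠ a ∧ adj G₀ b v) := by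
    ext v
    simp only [Finset.mem_filter, Finset.mem_univ, true_and]
    constructor
    · rintro ⟨h5, h6, h7, h8⟩
      exact ⟨h5, h6, h7, (block_col_fixed hab hG₀ hH h h5 h7 h6).2.1 h8⟩
    · rintro ⟨h5, h6, h7, h8⟩
      exact ⟨h5, h6, h7, (block_col_fixed hab hG₀ hH h h5 h7 h6).2.2 h8⟩
  rw [hA] at h1
  rw [hB] at h3
  have hfr : ∀ u ∈ F, ¬ (adj H a u ↔ adj H b u) := fun u hu => block_col_free hab hG₀ hH h hu
  have hfr₀ : ∀ u ∈ F, ¬ (adj G₀ a u ↔ adj G₀ b u) := fun u hu => (mem_freeCols.1 hu).2.2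
  rw [filter_b_eq hfr, Finset.card_sdiff_of_subset (Finset.filter_subset _ _)] at h3
  rw [filter_b_eq hfr₀, Finset.card_sdiff_of_subset (Finset.filter_subset _ _)] at h4
  have hle1 : (F.filter (fun v => adj H a v)).card ≤ F.card := Finset.card_filter_le _ _
  have hle2 : (F.filter (fun v => adj G₀ a v)).card ≤ F.card := Finset.card_filter_le _ _
  have e1 := (mem_realizations.1 hH) a
  have e2 := (mem_realizations.1 hG₀) a
  have e3 := (mem_realizations.1 hH) b
  have e4 := (mem_realizations.1 hG₀) b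
  have hsH : (adj H b a) ↔ adj H a b := adj_comm
  have hsG : (adj G₀ b a) ↔ adj G₀ a b := adj_comm
  simp only [hsH, hsG] at h3 h4
  have hx : (if adj H a b then 1 else 0) = (if adj G₀ a b then 1 else 0) := by omega
  refine ⟨?_, by omega⟩
  by_cases x1 : adj H a b <;> by_cases x2 : adj G₀ a b <;> simp [x1, x2] at hx ⊢

lemma GW_row (hab : a ≠ b) {D : Fin n → ℕ} {H : Gr n} (hG₀ : G₀ ∈ realizations D)
    (hH : H ∈ realizations D) (h : keyOff {a, b} H = keyOff {a, b} G₀) :
    GW G₀ a b (freeCols G₀ a b) ((freeCols G₀ a b).filter (fun v => adj H a v)) = H := by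
  have ha : a ∉ freeCols G₀ a b := left_not_mem_freeCols
  have hb : b ∉ freeCols G₀ a b := right_not_mem_freeCols
  apply graph_ext_rows (a := a) (b := b)
  · intro v
    by_cases hv : v ∈ freeCols G₀ a b
    · rw [adj_GW_a hab ha hb hv]; simp [hv]
    · rw [adj_GW_a' hab ha hb hv]
      by_cases hva : v = a
      · subst hva; simp [adj_irrefl]
      by_cases hvb : v = b
      · subst hvb; exact (block_row hab hG₀ hH h).1.symm
      exact (block_col_fixed hab hG₀ hH h hv hva hvb).1.symm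
  · intro v
    by_cases hv : v ∈ freeCols G₀ a b
    · rw [adj_GW_b hab ha hb hv]
      have := block_col_free hab hG₀ hH h hv
      simp only [Finset.mem_filter, hv, true_and]
      tauto
    · rw [adj_GW_b' hab ha hb hv]
      by_cases hvb : v = b
      · subst hvb; simp [adj_irrefl]
      by_cases hva : v = a
      · subst hva
        have := (block_row hab hG₀ hH h).1
        rw [adj_comm (G := G₀), adj_comm (G := H)]
        exact this.symm
      exact (block_col_fixed hab hG₀ hH h hv hva hvb).2.symm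
  · intro u v hu hv
    rw [adj_GW_off hab ha hb hu hv]
    exact (keyOff_eq_iff.1 h u v hu hv).symm

lemma GW_mem (hab : a ≠ b) {D : Fin n → ℕ} (hG₀ : G₀ ∈ realizations D)
    {W : Finset (Fin n)} (hW : W ⊆ freeCols G₀ a b)
    (hK : W.card = ((freeCols G₀ a b).filter (fun v => adj G₀ a v)).card) :
    GW G₀ a b (freeCols G₀ a b) W ∈ realizations D := by
  set F := freeCols G₀ a b with hFdef
  have ha : a ∉ F := left_not_mem_freeCols
  have hb : b ∉ F := right_not_mem_freeCols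
  rw [mem_realizations]
  intro v
  rw [← (mem_realizations.1 hG₀) v]
  set Gw := GW G₀ a b F W with hGw
  by_cases hva : v = a
  · subst hva
    rw [card_row_split hab Gw ha hb, card_row_split hab G₀ ha hb]
    have e1 : F.filter (fun u => adj Gw v u) = W := by
      ext u
      simp only [Finset.mem_filter]
      constructor
      · rintro ⟨h1, h2⟩; exact (adj_GW_a hab ha hb h1).1 h2
      · intro h1; exact ⟨hW h1, (adj_GW_a hab ha hb (hW h1)).2 h1⟩
    have e2 : univ.filter (fun u => u ∉ F ∧ u ≠ v ∧ u ≠ b ∧ adj Gw v u)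
        = univ.filter (fun u => u ∉ F ∧ u ≠ v ∧ u ≠ b ∧ adj G₀ v u) := by
      ext u
      simp only [Finset.mem_filter, Finset.mem_univ, true_and]
      constructor
      · rintro ⟨h5, h6, h7, h8⟩
        exact ⟨h5, h6, h7, (adj_GW_a' hab ha hb h5).1 h8⟩
      · rintro ⟨h5, h6, h7, h8⟩
        exact ⟨h5, h6, h7, (adj_GW_a' hab ha hb h5).2 h8⟩
    have e3 : adj Gw v b ↔ adj G₀ v b := adj_GW_a' hab ha hb hb
    rw [e1, e2, hK]
    simp only [e3]
  by_cases hvb : v = b
  · subst hvb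
    rw [card_row_split hab.symm Gw hb ha, card_row_split hab.symm G₀ hb ha]
    have e1 : F.filter (fun u => adj Gw v u) = F \ W := by
      ext u
      simp only [Finset.mem_filter, Finset.mem_sdiff]
      constructor
      · rintro ⟨h1, h2⟩; exact ⟨h1, (adj_GW_b hab ha hb h1).1 h2⟩
      · rintro ⟨h1, h2⟩; exact ⟨h1, (adj_GW_b hab ha hb h1).2 h2⟩
    have e2 : univ.filter (fun u => u ∉ F ∧ u ≠ v ∧ u ≠ a ∧ adj Gw v u)
        = univ.filter (fun u => u ∉ F ∧ u ≠ v ∧ u ≠ a ∧ adj G₀ v u) := by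
      ext u
      simp only [Finset.mem_filter, Finset.mem_univ, true_and]
      constructor
      · rintro ⟨h5, h6, h7, h8⟩
        exact ⟨h5, h6, h7, (adj_GW_b' hab ha hb h5).1 h8⟩
      · rintro ⟨h5, h6, h7, h8⟩
        exact ⟨h5, h6, h7, (adj_GW_b' hab ha hb h5).2 h8⟩
    have e3 : adj Gw v a ↔ adj G₀ v a := adj_GW_b' hab ha hb ha
    have e4 : F.filter (fun u => adj G₀ v u) = F \ F.filter (fun u => adj G₀ a u) :=
      filter_b_eq (H := G₀) (fun u hu => (mem_freeCols.1 hu).2.2)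
    rw [e1, e2, e4, Finset.card_sdiff_of_subset hW,
      Finset.card_sdiff_of_subset (Finset.filter_subset _ _), hK]
    simp only [e3]
  have hu : v ∉ ({a, b} : Finset (Fin n)) := by simp [hva, hvb]
  rw [card_nb_split hab Gw, card_nb_split hab G₀, filter_nb_off_eq (keyOff_GW hab ha hb) hu]
  congr 1
  unfold colsum
  by_cases hvF : v ∈ F
  · have h3 := (mem_freeCols.1 hvF).2.2
    have h4 : adj Gw a v ↔ v ∈ W := adj_GW_a hab ha hb hvF
    have h5 : adj Gw b v ↔ v ∉ W := adj_GW_b hab ha hb hvF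
    by_cases h6 : v ∈ W <;> by_cases h7 : adj G₀ a v <;> by_cases h8 : adj G₀ b v <;>
      simp [h4, h5, h6, h7, h8] at h3 ⊢
  · have h4 : adj Gw a v ↔ adj G₀ a v := adj_GW_a' hab ha hb hvF
    have h5 : adj Gw b v ↔ adj G₀ b v := adj_GW_b' hab ha hb hvF
    simp only [h4, h5]

lemma row_GW (hab : a ≠ b) {F W : Finset (Fin n)} (ha : a ∉ F) (hb : b ∉ F) (hW : W ⊆ F) :
    F.filter (fun v => adj (GW G₀ a b F W) a v) = W := by
  ext u
  simp only [Finset.mem_filter]
  constructor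
  · rintro ⟨h1, h2⟩; exact (adj_GW_a hab ha hb h1).1 h2
  · intro h1; exact ⟨hW h1, (adj_GW_a hab ha hb (hW h1)).2 h1⟩

lemma GW_injOn (hab : a ≠ b) {F : Finset (Fin n)} (ha : a ∉ F) (hb : b ∉ F) (K : ℕ) :
    Set.InjOn (GW G₀ a b F) (F.powersetCard K : Finset (Finset (Fin n))) := by
  intro W hW W' hW' h
  have h1 := (Finset.mem_powersetCard.1 (Finset.mem_coe.1 hW)).1
  have h2 := (Finset.mem_powersetCard.1 (Finset.mem_coe.1 hW')).1
  rw [← row_GW (G₀ := G₀) hab ha hb h1, ← row_GW (G₀ := G₀) hab ha hb h2, h]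

/-- The size of the row on the free columns. -/
def Kr (G₀ : Gr n) (a b : Fin n) : ℕ := ((freeCols G₀ a b).filter (fun v => adj G₀ a v)).card

/-- The block is the image of the Johnson scheme. -/
lemma block_eq_image (hab : a ≠ b) {D : Fin n → ℕ} (hG₀ : G₀ ∈ realizations D) :
    blockOf (realizations D) (keyOff {a, b}) G₀
      = ((freeCols G₀ a b).powersetCard (Kr G₀ a b)).image (GW G₀ a b (freeCols G₀ a b)) := by
  have ha : a ∉ freeCols G₀ a b := left_not_mem_freeCols
  have hb : b ∉ freeCols G₀ a b := right_not_mem_freeCols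
  ext H
  simp only [mem_blockOf, Finset.mem_image, Finset.mem_powersetCard]
  constructor
  · rintro ⟨hH, h⟩
    exact ⟨_, ⟨Finset.filter_subset _ _, (block_row hab hG₀ hH h).2⟩, GW_row hab hG₀ hH h⟩
  · rintro ⟨W, ⟨hW, hK⟩, rfl⟩
    exact ⟨GW_mem hab hG₀ hW hK, keyOff_GW hab ha hb⟩

lemma sum_block_eq (hab : a ≠ b) {D : Fin n → ℕ} (hG₀ : G₀ ∈ realizations D) (g : Gr n → ℝ) :
    ∑ H ∈ blockOf (realizations D) (keyOff {a, b}) G₀, g H
      = ∑ W ∈ (freeCols G₀ a b).powersetCard (Kr G₀ a b), g (GW G₀ a b (freeCols G₀ a b) W) := by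
  rw [block_eq_image hab hG₀,
    Finset.sum_image (GW_injOn hab left_not_mem_freeCols right_not_mem_freeCols _)]

lemma card_block_eq (hab : a ≠ b) {D : Fin n → ℕ} (hG₀ : G₀ ∈ realizations D) :
    (blockOf (realizations D) (keyOff {a, b}) G₀).card
      = ((freeCols G₀ a b).powersetCard (Kr G₀ a b)).card := by
  rw [block_eq_image hab hG₀,
    Finset.card_image_of_injOn (GW_injOn hab left_not_mem_freeCols right_not_mem_freeCols _)]

/-- Filtered version. -/
lemma block_filter_eq (hab : a ≠ b) {D : Fin n → ℕ} (hG₀ : G₀ ∈ realizations D)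
    (P : Gr n → Prop) [DecidablePred P] (Q : Finset (Fin n) → Prop) [DecidablePred Q]
    (hPQ : ∀ W ∈ (freeCols G₀ a b).powersetCard (Kr G₀ a b),
      (P (GW G₀ a b (freeCols G₀ a b) W) ↔ Q W)) :
    (blockOf (realizations D) (keyOff {a, b}) G₀).filter P
      = (((freeCols G₀ a b).powersetCard (Kr G₀ a b)).filter Q).image
          (GW G₀ a b (freeCols G₀ a b)) := by
  rw [block_eq_image hab hG₀]
  ext H
  simp only [Finset.mem_filter, Finset.mem_image]
  constructor
  · rintro ⟨⟨W, hW, rfl⟩, hP⟩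
    exact ⟨W, ⟨hW, (hPQ W hW).1 hP⟩, rfl⟩
  · rintro ⟨W, ⟨hW, hQ⟩, rfl⟩
    exact ⟨⟨W, hW, rfl⟩, (hPQ W hW).2 hQ⟩

lemma sum_filter_block_eq (hab : a ≠ b) {D : Fin n → ℕ} (hG₀ : G₀ ∈ realizations D)
    (P : Gr n → Prop) [DecidablePred P] (Q : Finset (Fin n) → Prop) [DecidablePred Q]
    (hPQ : ∀ W ∈ (freeCols G₀ a b).powersetCard (Kr G₀ a b),
      (P (GW G₀ a b (freeCols G₀ a b) W) ↔ Q W)) (g : Gr n → ℝ) :
    ∑ H ∈ (blockOf (realizations D) (keyOff {a, b}) G₀).filter P, g H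
      = ∑ W ∈ ((freeCols G₀ a b).powersetCard (Kr G₀ a b)).filter Q,
          g (GW G₀ a b (freeCols G₀ a b) W) := by
  rw [block_filter_eq hab hG₀ P Q hPQ, Finset.sum_image]
  exact (GW_injOn hab left_not_mem_freeCols right_not_mem_freeCols _).mono
    (by simp only [Finset.coe_filter]; exact fun W hW => hW.1)

lemma card_filter_block_eq (hab : a ≠ b) {D : Fin n → ℕ} (hG₀ : G₀ ∈ realizations D)
    (P : Gr n → Prop) [DecidablePred P] (Q : Finset (Fin n) → Prop) [DecidablePred Q]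
    (hPQ : ∀ W ∈ (freeCols G₀ a b).powersetCard (Kr G₀ a b),
      (P (GW G₀ a b (freeCols G₀ a b) W) ↔ Q W)) :
    ((blockOf (realizations D) (keyOff {a, b}) G₀).filter P).card
      = (((freeCols G₀ a b).powersetCard (Kr G₀ a b)).filter Q).card := by
  rw [block_filter_eq hab hG₀ P Q hPQ, Finset.card_image_of_injOn]
  exact (GW_injOn hab left_not_mem_freeCols right_not_mem_freeCols _).mono
    (by simp only [Finset.coe_filter]; exact fun W hW => hW.1)

/-! ### `alt`, `fr`, `kap`, `tog` on the encoded graphs -/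

lemma alt_GW (hab : a ≠ b) {W : Finset (Fin n)} {c d : Fin n}
    (hca : c ≠ a) (hcb : c ≠ b) (hda : d ≠ a) (hdb : d ≠ b) :
    alt (GW G₀ a b (freeCols G₀ a b) W) a b c d ↔
      (c ∈ W ∧ d ∈ freeCols G₀ a b \ W ∧ c ∈ freeCols G₀ a b) ∨
        (d ∈ W ∧ c ∈ freeCols G₀ a b \ W ∧ d ∈ freeCols G₀ a b) := by
  set F := freeCols G₀ a b with hFdef
  have ha : a ∉ F := left_not_mem_freeCols
  have hb : b ∉ F := right_not_mem_freeCols
  set Gw := GW G₀ a b F W with hGw
  simp only [alt, Finset.mem_sdiff]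
  by_cases hc : c ∈ F
  · by_cases hd : d ∈ F
    · have h1 : adj Gw a c ↔ c ∈ W := adj_GW_a hab ha hb hc
      have h2 : adj Gw a d ↔ d ∈ W := adj_GW_a hab ha hb hd
      have h3 : adj Gw b c ↔ c ∉ W := adj_GW_b hab ha hb hc
      have h4 : adj Gw b d ↔ d ∉ W := adj_GW_b hab ha hb hd
      simp only [h1, h2, h3, h4, hc, hd]
      tauto
    · have h1 : adj Gw a d ↔ adj G₀ a d := adj_GW_a' hab ha hb hd
      have h2 : adj Gw b d ↔ adj G₀ b d := adj_GW_b' hab ha hb hd
      have h3 : adj G₀ a d ↔ adj G₀ b d := by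
        by_contra hcon
        exact hd (mem_freeCols.2 ⟨hda, hdb, hcon⟩)
      simp only [h1, h2, hd]
      tauto
  · have h1 : adj Gw a c ↔ adj G₀ a c := adj_GW_a' hab ha hb hc
    have h2 : adj Gw b c ↔ adj G₀ b c := adj_GW_b' hab ha hb hc
    have h3 : adj G₀ a c ↔ adj G₀ b c := by
      by_contra hcon
      exact hc (mem_freeCols.2 ⟨hca, hcb, hcon⟩)
    simp only [h1, h2, hc]
    tauto

lemma fr_GW (hab : a ≠ b) {W : Finset (Fin n)} {c d : Fin n}
    (hca : c ≠ a) (hcb : c ≠ b) (hda : d ≠ a) (hdb : d ≠ b) :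
    fr (GW G₀ a b (freeCols G₀ a b) W) a b c d ↔
      (c ∈ freeCols G₀ a b ∧ d ∈ freeCols G₀ a b) := by
  set F := freeCols G₀ a b with hFdef
  have ha : a ∉ F := left_not_mem_freeCols
  have hb : b ∉ F := right_not_mem_freeCols
  set Gw := GW G₀ a b F W with hGw
  have key : ∀ x : Fin n, x ≠ a → x ≠ b → (¬ (adj Gw a x ↔ adj Gw b x) ↔ x ∈ F) := by
    intro x hxa hxb
    by_cases hx : x ∈ F
    · have h1 : adj Gw a x ↔ x ∈ W := adj_GW_a hab ha hb hx
      have h2 : adj Gw b x ↔ x ∉ W := adj_GW_b hab ha hb hx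
      simp only [h1, h2, hx, iff_true]
      tauto
    · have h1 : adj Gw a x ↔ adj G₀ a x := adj_GW_a' hab ha hb hx
      have h2 : adj Gw b x ↔ adj G₀ b x := adj_GW_b' hab ha hb hx
      have h3 : adj G₀ a x ↔ adj G₀ b x := by
        by_contra hcon
        exact hx (mem_freeCols.2 ⟨hxa, hxb, hcon⟩)
      simp only [h1, h2, hx, iff_false]
      tauto
  simp only [fr, key c hca hcb, key d hda hdb]

lemma kap_GW (hab : a ≠ b) {W : Finset (Fin n)} {c d : Fin n}
    (hc : c ∈ freeCols G₀ a b) (hd : d ∈ freeCols G₀ a b) :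
    kap (GW G₀ a b (freeCols G₀ a b) W) a c d ↔ kapJ c d W := by
  have ha : a ∉ freeCols G₀ a b := left_not_mem_freeCols
  have hb : b ∉ freeCols G₀ a b := right_not_mem_freeCols
  simp only [kap, kapJ, adj_GW_a hab ha hb hc, adj_GW_a hab ha hb hd]

lemma tog_GW (hab : a ≠ b) {W : Finset (Fin n)} {c d : Fin n}
    (hc : c ∈ W) (hcF : c ∈ freeCols G₀ a b) (hd : d ∈ freeCols G₀ a b \ W) :
    tog (GW G₀ a b (freeCols G₀ a b) W) a b c d
      = GW G₀ a b (freeCols G₀ a b) (insert d (W.erase c)) := by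
  set F := freeCols G₀ a b with hFdef
  have ha : a ∉ F := left_not_mem_freeCols
  have hb : b ∉ F := right_not_mem_freeCols
  obtain ⟨hdF, hdW⟩ := Finset.mem_sdiff.1 hd
  have hdist : Dist4 a b c d := by
    refine ⟨hab, ?_, ?_, ?_, ?_, ?_⟩
    · rintro rfl; exact ha hcF
    · rintro rfl; exact ha hdF
    · rintro rfl; exact hb hcF
    · rintro rfl; exact hb hdF
    · rintro rfl; exact hdW hc
  apply graph_ext_rows (a := a) (b := b)
  · intro v
    rw [adj_tog_a hdist]
    by_cases hv : v ∈ F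
    · rw [adj_GW_a hab ha hb hv, adj_GW_a hab ha hb hv]
      simp only [Finset.mem_insert, Finset.mem_erase]
      by_cases h1 : v = c
      · subst h1; simp [hc, hdist.cd]
      by_cases h2 : v = d
      · subst h2; simp [hdW]
      simp [h1, h2]
    · rw [adj_GW_a' hab ha hb hv, adj_GW_a' hab ha hb hv]
      have h1 : v ≠ c := by rintro rfl; exact hv hcF
      have h2 : v ≠ d := by rintro rfl; exact hv hdF
      simp [h1, h2]
  · intro v
    rw [adj_tog_b hdist]
    by_cases hv : v ∈ F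
    · rw [adj_GW_b hab ha hb hv, adj_GW_b hab ha hb hv]
      simp only [Finset.mem_insert, Finset.mem_erase]
      by_cases h1 : v = c
      · subst h1; simp [hc, hdist.cd]
      by_cases h2 : v = d
      · subst h2; simp [hdW]
      simp [h1, h2]
    · rw [adj_GW_b' hab ha hb hv, adj_GW_b' hab ha hb hv]
      have h1 : v ≠ c := by rintro rfl; exact hv hcF
      have h2 : v ≠ d := by rintro rfl; exact hv hdF
      simp [h1, h2]
  · intro u v hu hv
    rw [adj_GW_off hab ha hb hu hv]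
    have h1 := keyOff_eq_iff.1 (keyOff_tog_ab hdist (GW G₀ a b F W)) u v hu hv
    rw [h1, adj_GW_off hab ha hb hu hv]

/-! ### Block sums -/

lemma GG_pairs_W (hab : a ≠ b) (f : Gr n → ℝ) {W : Finset (Fin n)} (hW : W ⊆ freeCols G₀ a b) :
    ∑ q ∈ pairsOff a b,
        (if alt (GW G₀ a b (freeCols G₀ a b) W) a b q.1 q.2 then
          (f (GW G₀ a b (freeCols G₀ a b) W)
            - f (tog (GW G₀ a b (freeCols G₀ a b) W) a b q.1 q.2)) ^ 2 else 0)
      = 2 * ∑ c ∈ W, ∑ d ∈ freeCols G₀ a b \ W,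
          (f (GW G₀ a b (freeCols G₀ a b) W)
            - f (GW G₀ a b (freeCols G₀ a b) (insert d (W.erase c)))) ^ 2 := by
  set F := freeCols G₀ a b with hFdef
  have ha : a ∉ F := left_not_mem_freeCols
  have hb : b ∉ F := right_not_mem_freeCols
  have hne : ∀ x ∈ F, x ≠ a ∧ x ≠ b := fun x hx =>
    ⟨by rintro rfl; exact ha hx, by rintro rfl; exact hb hx⟩
  have hsub : (W ×ˢ (F \ W)) ∪ ((F \ W) ×ˢ W) ⊆ pairsOff a b := by
    intro q hq
    simp only [pairsOff, Finset.mem_filter, Finset.mem_univ, true_and]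
    simp only [Finset.mem_union, Finset.mem_product, Finset.mem_sdiff] at hq
    rcases hq with ⟨h1, h2, h3⟩ | ⟨⟨h1, h2⟩, h3⟩
    · have hc := hne _ (hW h1)
      have hd := hne _ h2
      exact ⟨fun h => h3 (h ▸ h1), hc.1, hc.2, hd.1, hd.2⟩
    · have hc := hne _ h1
      have hd := hne _ (hW h3)
      exact ⟨fun h => h2 (h.symm ▸ h3), hc.1, hc.2, hd.1, hd.2⟩
  have hzero : ∀ q ∈ pairsOff a b, q ∉ (W ×ˢ (F \ W)) ∪ ((F \ W) ×ˢ W) →
      (if alt (GW G₀ a b F W) a b q.1 q.2 then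
          (f (GW G₀ a b F W) - f (tog (GW G₀ a b F W) a b q.1 q.2)) ^ 2 else 0) = 0 := by
    intro q hq hq'
    simp only [pairsOff, Finset.mem_filter, Finset.mem_univ, true_and] at hq
    obtain ⟨-, h1, h2, h3, h4⟩ := hq
    rw [if_neg]
    rw [hFdef, alt_GW hab h1 h2 h3 h4, ← hFdef]
    simp only [Finset.mem_union, Finset.mem_product, not_or] at hq'
    rintro (⟨h5, h6, -⟩ | ⟨h5, h6, -⟩)
    · exact hq'.1 ⟨h5, h6⟩
    · exact hq'.2 ⟨h6, h5⟩
  have hdisj : Disjoint (W ×ˢ (F \ W)) ((F \ W) ×ˢ W) := by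
    rw [Finset.disjoint_left]
    intro q h1 h2
    simp only [Finset.mem_product, Finset.mem_sdiff] at h1 h2
    exact h2.1.2 h1.1
  rw [← Finset.sum_subset hsub hzero, Finset.sum_union hdisj, Finset.sum_product,
    Finset.sum_product, Finset.sum_comm (s := F \ W) (t := W), two_mul]
  congr 1
  · refine Finset.sum_congr rfl (fun c hc => Finset.sum_congr rfl (fun d hd => ?_))
    have hcn := hne c (hW hc)
    have hdn := hne d (Finset.mem_sdiff.1 hd).1
    rw [if_pos]
    · simp only []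
      rw [hFdef, tog_GW hab hc (hW hc) hd]
    · rw [hFdef, alt_GW hab hcn.1 hcn.2 hdn.1 hdn.2, ← hFdef]
      exact Or.inl ⟨hc, hd, hW hc⟩
  · refine Finset.sum_congr rfl (fun c hc => Finset.sum_congr rfl (fun d hd => ?_))
    have hcn := hne c (hW hc)
    have hdn := hne d (Finset.mem_sdiff.1 hd).1
    rw [if_pos]
    · simp only []
      rw [← tog_swap34, hFdef, tog_GW hab hc (hW hc) hd]
    · rw [hFdef, alt_GW hab hdn.1 hdn.2 hcn.1 hcn.2, ← hFdef]
      exact Or.inr ⟨hc, hd, hW hc⟩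

lemma GG_block (hab : a ≠ b) {D : Fin n → ℕ} (hG₀ : G₀ ∈ realizations D) (f : Gr n → ℝ) :
    ∑ G ∈ blockOf (realizations D) (keyOff {a, b}) G₀, ∑ q ∈ pairsOff a b,
        (if alt G a b q.1 q.2 then (f G - f (tog G a b q.1 q.2)) ^ 2 else 0)
      = 2 * DJ (freeCols G₀ a b) (Kr G₀ a b) (fun W => f (GW G₀ a b (freeCols G₀ a b) W)) := by
  rw [sum_block_eq hab hG₀, DJ, Finset.mul_sum]
  refine Finset.sum_congr rfl (fun W hW => ?_)
  exact GG_pairs_W hab f (Finset.mem_powersetCard.1 hW).1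

/-- The weight sum on a block is `chiJ`. -/
lemma chi_block (hab : a ≠ b) {D : Fin n → ℕ} (hG₀ : G₀ ∈ realizations D) (f : Gr n → ℝ)
    {c d : Fin n} (hc : c ∈ freeCols G₀ a b) (hd : d ∈ freeCols G₀ a b) :
    ∑ G ∈ blockOf (realizations D) (keyOff {a, b}) G₀, Wt D f a b c d G
      = chiJ (freeCols G₀ a b) (Kr G₀ a b) (fun W => f (GW G₀ a b (freeCols G₀ a b) W)) c d := by
  have hconst : ∀ G ∈ blockOf (realizations D) (keyOff {a, b}) G₀,
      Wt D f a b c d G = Wt D f a b c d G₀ := by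
    intro G hG
    exact wFun_congr f (mem_blockOf.1 hG).2
  rw [Finset.sum_congr rfl hconst, Finset.sum_const, nsmul_eq_mul]
  have hpos : ((blockOf (realizations D) (keyOff {a, b}) G₀).card : ℝ) ≠ 0 := by
    exact_mod_cast (blockOf_card_pos hG₀).ne'
  have hP : ∀ W ∈ (freeCols G₀ a b).powersetCard (Kr G₀ a b),
      ((fun H => kap H a c d) (GW G₀ a b (freeCols G₀ a b) W) ↔ kapJ c d W) :=
    fun W _ => kap_GW hab hc hd
  have hP' : ∀ W ∈ (freeCols G₀ a b).powersetCard (Kr G₀ a b),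
      ((fun H => ¬ kap H a c d) (GW G₀ a b (freeCols G₀ a b) W) ↔ ¬ kapJ c d W) :=
    fun W _ => not_congr (kap_GW hab hc hd)
  unfold Wt wFun chiJ
  rw [card_filter_block_eq hab hG₀ _ _ hP, card_filter_block_eq hab hG₀ _ _ hP',
    sum_filter_block_eq hab hG₀ _ _ hP, sum_filter_block_eq hab hG₀ _ _ hP']
  rw [card_block_eq hab hG₀] at hpos ⊢
  field_simp

lemma sum_pairs_free (f : Fin n × Fin n → ℝ) :
    ∑ q ∈ pairsOff a b,
        (if q.1 ∈ freeCols G₀ a b ∧ q.2 ∈ freeCols G₀ a b then f q else 0)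
      = ∑ c ∈ freeCols G₀ a b, ∑ d ∈ (freeCols G₀ a b).erase c, f (c, d) := by
  have ha : a ∉ freeCols G₀ a b := left_not_mem_freeCols
  have hb : b ∉ freeCols G₀ a b := right_not_mem_freeCols
  rw [← Finset.sum_filter]
  have hset : (pairsOff a b).filter
        (fun q => q.1 ∈ freeCols G₀ a b ∧ q.2 ∈ freeCols G₀ a b)
      = (freeCols G₀ a b ×ˢ freeCols G₀ a b).filter (fun q => q.1 ≠ q.2) := by
    ext q
    simp only [pairsOff, Finset.mem_filter, Finset.mem_univ, true_and, Finset.mem_product]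
    constructor
    · rintro ⟨⟨h1, -⟩, h2⟩
      exact ⟨h2, h1⟩
    · rintro ⟨⟨h2, h3⟩, h1⟩
      refine ⟨⟨h1, ?_, ?_, ?_, ?_⟩, h2, h3⟩
      · rintro h; exact ha (h ▸ h2)
      · rintro h; exact hb (h ▸ h2)
      · rintro h; exact ha (h ▸ h3)
      · rintro h; exact hb (h ▸ h3)
  rw [hset, Finset.sum_filter, Finset.sum_product]
  refine Finset.sum_congr rfl (fun c _ => ?_)
  rw [← Finset.sum_filter]
  refine Finset.sum_congr ?_ (fun _ _ => rfl)
  ext x
  simp only [Finset.mem_filter, Finset.mem_erase]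
  constructor
  · rintro ⟨h1, h2⟩; exact ⟨fun h => h2 h.symm, h1⟩
  · rintro ⟨h1, h2⟩; exact ⟨h2, fun h => h1 h.symm⟩

lemma Y_block (hab : a ≠ b) {D : Fin n → ℕ} (hG₀ : G₀ ∈ realizations D) (f : Gr n → ℝ) :
    ∑ G ∈ blockOf (realizations D) (keyOff {a, b}) G₀, ∑ q ∈ pairsOff a b,
        (if fr G a b q.1 q.2 then Wt D f a b q.1 q.2 G else 0)
      = ∑ c ∈ freeCols G₀ a b, ∑ d ∈ (freeCols G₀ a b).erase c,
          chiJ (freeCols G₀ a b) (Kr G₀ a b)
            (fun W => f (GW G₀ a b (freeCols G₀ a b) W)) c d := by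
  rw [Finset.sum_comm]
  rw [← sum_pairs_free (G₀ := G₀) (a := a) (b := b) (fun q => chiJ (freeCols G₀ a b) (Kr G₀ a b)
            (fun W => f (GW G₀ a b (freeCols G₀ a b) W)) q.1 q.2)]
  refine Finset.sum_congr rfl (fun q hq => ?_)
  simp only [pairsOff, Finset.mem_filter, Finset.mem_univ, true_and] at hq
  obtain ⟨-, h1, h2, h3, h4⟩ := hq
  have hfr : ∀ G ∈ blockOf (realizations D) (keyOff {a, b}) G₀,
      (fr G a b q.1 q.2 ↔ (q.1 ∈ freeCols G₀ a b ∧ q.2 ∈ freeCols G₀ a b)) := by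
    intro G hG
    rw [block_eq_image hab hG₀] at hG
    obtain ⟨W, -, rfl⟩ := Finset.mem_image.1 hG
    exact fr_GW hab h1 h2 h3 h4
  by_cases hq' : q.1 ∈ freeCols G₀ a b ∧ q.2 ∈ freeCols G₀ a b
  · rw [if_pos hq', ← chi_block hab hG₀ f hq'.1 hq'.2]
    refine Finset.sum_congr rfl (fun G hG => ?_)
    rw [if_pos ((hfr G hG).2 hq')]
  · rw [if_neg hq']
    refine Finset.sum_eq_zero (fun G hG => ?_)
    rw [if_neg (fun h => hq' ((hfr G hG).1 h))]

end encoding

/-- `⟨f, I_{ab} f⟩ ≤ ⅛ Σ_{(c,d)} GG`. -/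
theorem johnson_P_graph (D : Fin n → ℕ) (f : Gr n → ℝ) {a b : Fin n} (hab : a ≠ b) :
    ∑ G ∈ realizations D, (Iop D {a, b} f G) ^ 2
      ≤ (1 / 8) * ∑ q ∈ pairsOff a b, GG D f a b q.1 q.2 := by
  have hR : (1 / 8) * ∑ q ∈ pairsOff a b, GG D f a b q.1 q.2
      = ∑ G ∈ realizations D, (1 / 8) * ∑ q ∈ pairsOff a b,
          (if alt G a b q.1 q.2 then (f G - f (tog G a b q.1 q.2)) ^ 2 else 0) := by
    simp only [GG]
    rw [Finset.sum_comm, Finset.mul_sum]
  rw [hR]
  refine sum_le_sum_of_blocks (keyOff {a, b}) (fun G₀ hG₀ => ?_)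
  have hL : ∑ x ∈ blockOf (realizations D) (keyOff {a, b}) G₀, (Iop D {a, b} f x) ^ 2
      = ∑ x ∈ blockOf (realizations D) (keyOff {a, b}) G₀,
          (f x - cexp (realizations D) (keyOff {a, b}) f x) ^ 2 := rfl
  rw [hL, sum_block_sub_cexp_sq f hG₀, sum_block_eq hab hG₀ (fun G => f G ^ 2),
    sum_block_eq hab hG₀ f, card_block_eq hab hG₀, ← Finset.mul_sum, GG_block hab hG₀ f]
  have := johnson_poincare (freeCols G₀ a b) (Kr G₀ a b)
    (fun W => f (GW G₀ a b (freeCols G₀ a b) W))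
  linarith

/-- `Σ_{(c,d)} YY(ab,cd) ≤ ¼ Σ_{(c,d)} GG(ab,cd)`. -/
theorem johnson_Y_graph (D : Fin n → ℕ) (f : Gr n → ℝ) {a b : Fin n} (hab : a ≠ b) :
    ∑ q ∈ pairsOff a b, YY D f a b q.1 q.2
      ≤ (1 / 4) * ∑ q ∈ pairsOff a b, GG D f a b q.1 q.2 := by
  have hR : (1 / 4) * ∑ q ∈ pairsOff a b, GG D f a b q.1 q.2
      = ∑ G ∈ realizations D, (1 / 4) * ∑ q ∈ pairsOff a b,
          (if alt G a b q.1 q.2 then (f G - f (tog G a b q.1 q.2)) ^ 2 else 0) := by
    simp only [GG]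
    rw [Finset.sum_comm, Finset.mul_sum]
  have hL : ∑ q ∈ pairsOff a b, YY D f a b q.1 q.2
      = ∑ G ∈ realizations D, ∑ q ∈ pairsOff a b,
          (if fr G a b q.1 q.2 then Wt D f a b q.1 q.2 G else 0) := by
    simp only [YY]
    rw [Finset.sum_comm]
  rw [hR, hL]
  refine sum_le_sum_of_blocks (keyOff {a, b}) (fun G₀ hG₀ => ?_)
  rw [Y_block hab hG₀ f, ← Finset.mul_sum, GG_block hab hG₀ f]
  have := johnson_chi (freeCols G₀ a b) (Kr G₀ a b)
    (fun W => f (GW G₀ a b (freeCols G₀ a b) W))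
  linarith

end

end Crest.Agent.SW
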