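/-
S0453 project: graph-level encoding for the joint fibres of two disjoint row pairs.
See SWPLAN.md, piece ENCJ.
-/
import Crest.Agent.SWTog

set_option autoImplicit false
set_option linter.unusedSimpArgs false
set_option linter.unusedSectionVars false
set_option linter.unusedVariables false
open Finset
open Crest.SwitchChain

namespace Crest.Agent.SW

noncomputable section

open scoped Classical

variable {n : ℕ} {a b c d : Fin n}

/-- `v` is outside `{a,b,c,d}`. -/
def Rm (a b c d v : Fin n) : Prop := v ≠ a ∧ v ≠ b ∧ v ≠ c ∧ v ≠ d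

/-- The free columns of the row pair `x y` (for `x y = a b` or `c d`). -/
def FF (G : Gr n) (a b c d x y : Fin n) : Finset (Fin n) :=
  univ.filter (fun v => Rm a b c d v ∧ ¬ (adj G x v ↔ adj G y v))

/-- The common columns of the row pair `x y`. -/
def CC (G : Gr n) (a b c d x y : Fin n) : Finset (Fin n) :=
  univ.filter (fun v => Rm a b c d v ∧ adj G x v ∧ adj G y v)

lemma mem_FF {G : Gr n} {x y v : Fin n} :
    v ∈ FF G a b c d x y ↔ Rm a b c d v ∧ ¬ (adj G x v ↔ adj G y v) := by simp [FF]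

lemma mem_CC {G : Gr n} {x y v : Fin n} :
    v ∈ CC G a b c d x y ↔ Rm a b c d v ∧ adj G x v ∧ adj G y v := by simp [CC]

/-- Local configuration on the four special rows. -/
@[ext] structure Conf (n : ℕ) where
  s : Finset (Fin n)
  t : Finset (Fin n)
  p : Bool
  q : Bool
  r : Bool
  w : Bool

/-- One-sided description of the encoded graph. -/
def encR (G₀ : Gr n) (a b c d : Fin n) (x : Conf n) (u v : Fin n) : Prop :=
  (u = a ∧ v = b ∧ adj G₀ a b) ∨ (u = c ∧ v = d ∧ adj G₀ c d) ∨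
  (u = a ∧ v = c ∧ x.p = true) ∨ (u = a ∧ v = d ∧ x.q = true) ∨
  (u = b ∧ v = c ∧ x.r = true) ∨ (u = b ∧ v = d ∧ x.w = true) ∨
  (u = a ∧ Rm a b c d v ∧ (v ∈ x.s ∨ v ∈ CC G₀ a b c d a b)) ∨
  (u = b ∧ Rm a b c d v ∧ ((v ∈ FF G₀ a b c d a b ∧ v ∉ x.s) ∨ v ∈ CC G₀ a b c d a b)) ∨
  (u = c ∧ Rm a b c d v ∧ (v ∈ x.t ∨ v ∈ CC G₀ a b c d c d)) ∨
  (u = d ∧ Rm a b c d v ∧ ((v ∈ FF G₀ a b c d c d ∧ v ∉ x.t) ∨ v ∈ CC G₀ a b c d c d)) ∨
  (Rm a b c d u ∧ Rm a b c d v ∧ adj G₀ u v)

/-- The encoded graph. -/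
def enc (G₀ : Gr n) (a b c d : Fin n) (x : Conf n) : Gr n :=
  ofRel (fun u v => encR G₀ a b c d x u v ∨ encR G₀ a b c d x v u)

lemma adj_enc {G₀ : Gr n} {x : Conf n} {u v : Fin n} :
    adj (enc G₀ a b c d x) u v ↔
      u ≠ v ∧ (encR G₀ a b c d x u v ∨ encR G₀ a b c d x v u) :=
  adj_ofRel (fun _ _ h => h.symm)

section
variable (h : Dist4 a b c d) {G₀ : Gr n} {x : Conf n}
include h

lemma enc_ab : adj (enc G₀ a b c d x) a b ↔ adj G₀ a b := by
  rw [adj_enc]
  simp [encR, Rm, h.ab, h.ac, h.ad, h.bc, h.bd, h.cd, h.ab.symm, h.ac.symm, h.ad.symm, h.bc.symm,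
    h.bd.symm, h.cd.symm]

lemma enc_cd : adj (enc G₀ a b c d x) c d ↔ adj G₀ c d := by
  rw [adj_enc]
  simp [encR, Rm, h.ab, h.ac, h.ad, h.bc, h.bd, h.cd, h.ab.symm, h.ac.symm, h.ad.symm, h.bc.symm,
    h.bd.symm, h.cd.symm]

lemma enc_ac : adj (enc G₀ a b c d x) a c ↔ x.p = true := by
  rw [adj_enc]
  simp [encR, Rm, h.ab, h.ac, h.ad, h.bc, h.bd, h.cd, h.ab.symm, h.ac.symm, h.ad.symm, h.bc.symm,
    h.bd.symm, h.cd.symm]

lemma enc_ad : adj (enc G₀ a b c d x) a d ↔ x.q = true := by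
  rw [adj_enc]
  simp [encR, Rm, h.ab, h.ac, h.ad, h.bc, h.bd, h.cd, h.ab.symm, h.ac.symm, h.ad.symm, h.bc.symm,
    h.bd.symm, h.cd.symm]

lemma enc_bc : adj (enc G₀ a b c d x) b c ↔ x.r = true := by
  rw [adj_enc]
  simp [encR, Rm, h.ab, h.ac, h.ad, h.bc, h.bd, h.cd, h.ab.symm, h.ac.symm, h.ad.symm, h.bc.symm,
    h.bd.symm, h.cd.symm]

lemma enc_bd : adj (enc G₀ a b c d x) b d ↔ x.w = true := by
  rw [adj_enc]
  simp [encR, Rm, h.ab, h.ac, h.ad, h.bc, h.bd, h.cd, h.ab.symm, h.ac.symm, h.ad.symm, h.bc.symm,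
    h.bd.symm, h.cd.symm]


lemma enc_aR {v : Fin n} (hv : Rm a b c d v) :
    adj (enc G₀ a b c d x) a v ↔ (v ∈ x.s ∨ v ∈ CC G₀ a b c d a b) := by
  obtain ⟨h1, h2, h3, h4⟩ := id hv
  rw [adj_enc]
  simp [encR, hv, h1, h2, h3, h4, h1.symm, h2.symm, h3.symm, h4.symm, Rm, h.ab, h.ac, h.ad, h.bc,
    h.bd, h.cd, h.ab.symm, h.ac.symm, h.ad.symm, h.bc.symm, h.bd.symm, h.cd.symm]

lemma enc_bR {v : Fin n} (hv : Rm a b c d v) :
    adj (enc G₀ a b c d x) b v ↔
      ((v ∈ FF G₀ a b c d a b ∧ v ∉ x.s) ∨ v ∈ CC G₀ a b c d a b) := by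
  obtain ⟨h1, h2, h3, h4⟩ := id hv
  rw [adj_enc]
  simp [encR, hv, h1, h2, h3, h4, h1.symm, h2.symm, h3.symm, h4.symm, Rm, h.ab, h.ac, h.ad, h.bc,
    h.bd, h.cd, h.ab.symm, h.ac.symm, h.ad.symm, h.bc.symm, h.bd.symm, h.cd.symm]

lemma enc_cR {v : Fin n} (hv : Rm a b c d v) :
    adj (enc G₀ a b c d x) c v ↔ (v ∈ x.t ∨ v ∈ CC G₀ a b c d c d) := by
  obtain ⟨h1, h2, h3, h4⟩ := id hv
  rw [adj_enc]
  simp [encR, hv, h1, h2, h3, h4, h1.symm, h2.symm, h3.symm, h4.symm, Rm, h.ab, h.ac, h.ad, h.bc,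
    h.bd, h.cd, h.ab.symm, h.ac.symm, h.ad.symm, h.bc.symm, h.bd.symm, h.cd.symm]

lemma enc_dR {v : Fin n} (hv : Rm a b c d v) :
    adj (enc G₀ a b c d x) d v ↔
      ((v ∈ FF G₀ a b c d c d ∧ v ∉ x.t) ∨ v ∈ CC G₀ a b c d c d) := by
  obtain ⟨h1, h2, h3, h4⟩ := id hv
  rw [adj_enc]
  simp [encR, hv, h1, h2, h3, h4, h1.symm, h2.symm, h3.symm, h4.symm, Rm, h.ab, h.ac, h.ad, h.bc,
    h.bd, h.cd, h.ab.symm, h.ac.symm, h.ad.symm, h.bc.symm, h.bd.symm, h.cd.symm]

omit h in
lemma enc_RR {u v : Fin n} (hu : Rm a b c d u) (hv : Rm a b c d v) :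
    adj (enc G₀ a b c d x) u v ↔ adj G₀ u v := by
  obtain ⟨h1, h2, h3, h4⟩ := id hu
  obtain ⟨h5, h6, h7, h8⟩ := id hv
  rw [adj_enc]
  simp only [encR, h1, h2, h3, h4, h5, h6, h7, h8, false_and, or_false, false_or, hu, hv, true_and]
  constructor
  · rintro ⟨-, h | h⟩
    · exact h
    · exact adj_comm.1 h
  · intro h'
    exact ⟨adj_ne h', Or.inl h'⟩

end

/-- Every vertex is `a`, `b`, `c`, `d` or outside. -/
lemma classify (u : Fin n) : u = a ∨ u = b ∨ u = c ∨ u = d ∨ Rm a b c d u := by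
  by_cases h1 : u = a
  · exact Or.inl h1
  by_cases h2 : u = b
  · exact Or.inr (Or.inl h2)
  by_cases h3 : u = c
  · exact Or.inr (Or.inr (Or.inl h3))
  by_cases h4 : u = d
  · exact Or.inr (Or.inr (Or.inr (Or.inl h4)))
  exact Or.inr (Or.inr (Or.inr (Or.inr ⟨h1, h2, h3, h4⟩)))

/-- Extensionality by the classes of pairs. -/
lemma graph_ext4 {G H : Gr n} (hab : adj G a b ↔ adj H a b) (hac : adj G a c ↔ adj H a c)
    (had : adj G a d ↔ adj H a d) (hbc : adj G b c ↔ adj H b c) (hbd : adj G b d ↔ adj H b d)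
    (hcd : adj G c d ↔ adj H c d)
    (hRa : ∀ v, Rm a b c d v → (adj G a v ↔ adj H a v))
    (hRb : ∀ v, Rm a b c d v → (adj G b v ↔ adj H b v))
    (hRc : ∀ v, Rm a b c d v → (adj G c v ↔ adj H c v))
    (hRd : ∀ v, Rm a b c d v → (adj G d v ↔ adj H d v))
    (hRR : ∀ u v, Rm a b c d u → Rm a b c d v → (adj G u v ↔ adj H u v)) : G = H := by
  have comm : ∀ {x y : Fin n}, (adj G x y ↔ adj H x y) → (adj G y x ↔ adj H y x) := by
    intro x y hh
    rw [adj_comm (G := G), adj_comm (G := H)]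
    exact hh
  refine graph_ext (fun u v => ?_)
  rcases classify (a := a) (b := b) (c := c) (d := d) u with hu | hu | hu | hu | hu <;>
  rcases classify (a := a) (b := b) (c := c) (d := d) v with hv | hv | hv | hv | hv <;>
  (try rw [hu]) <;> (try rw [hv]) <;>
  first
    | exact iff_of_false (adj_irrefl _ _) (adj_irrefl _ _)
    | exact hab
    | exact hac
    | exact had
    | exact hbc
    | exact hbd
    | exact hcd
    | exact comm hab
    | exact comm hac
    | exact comm had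
    | exact comm hbc
    | exact comm hbd
    | exact comm hcd
    | exact hRa _ hv
    | exact hRb _ hv
    | exact hRc _ hv
    | exact hRd _ hv
    | exact comm (hRa _ hu)
    | exact comm (hRb _ hu)
    | exact comm (hRc _ hu)
    | exact comm (hRd _ hu)
    | exact hRR _ _ hu hv

/-- Two graphs lie in the same joint fibre. -/
def SameFib (a b c d : Fin n) (G H : Gr n) : Prop :=
  (∀ u v, Rm a b c d u → Rm a b c d v → (adj G u v ↔ adj H u v)) ∧
  (adj G a b ↔ adj H a b) ∧ (adj G c d ↔ adj H c d) ∧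
  (∀ v, Rm a b c d v →
    (adj G a v ∧ adj G b v ↔ adj H a v ∧ adj H b v) ∧
    (adj G a v ∨ adj G b v ↔ adj H a v ∨ adj H b v) ∧
    (adj G c v ∧ adj G d v ↔ adj H c v ∧ adj H d v) ∧
    (adj G c v ∨ adj G d v ↔ adj H c v ∨ adj H d v))

lemma SameFib.refl (G : Gr n) : SameFib a b c d G G :=
  ⟨fun _ _ _ _ => Iff.rfl, Iff.rfl, Iff.rfl, fun _ _ => ⟨Iff.rfl, Iff.rfl, Iff.rfl, Iff.rfl⟩⟩

lemma SameFib.symm {G H : Gr n} (h : SameFib a b c d G H) : SameFib a b c d H G := by
  obtain ⟨h1, h2, h3, h4⟩ := h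
  exact ⟨fun u v hu hv => (h1 u v hu hv).symm, h2.symm, h3.symm, fun v hv =>
    ⟨(h4 v hv).1.symm, (h4 v hv).2.1.symm, (h4 v hv).2.2.1.symm, (h4 v hv).2.2.2.symm⟩⟩

lemma SameFib.trans {G H K : Gr n} (h : SameFib a b c d G H) (h' : SameFib a b c d H K) :
    SameFib a b c d G K := by
  obtain ⟨h1, h2, h3, h4⟩ := h
  obtain ⟨h1', h2', h3', h4'⟩ := h'
  exact ⟨fun u v hu hv => (h1 u v hu hv).trans (h1' u v hu hv), h2.trans h2', h3.trans h3',
    fun v hv => ⟨(h4 v hv).1.trans (h4' v hv).1, (h4 v hv).2.1.trans (h4' v hv).2.1,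
      (h4 v hv).2.2.1.trans (h4' v hv).2.2.1, (h4 v hv).2.2.2.trans (h4' v hv).2.2.2⟩⟩

/-- The key function of the joint fibres. -/
def fibKey (a b c d : Fin n) (G : Gr n) : Gr n → Prop := SameFib a b c d G

lemma fibKey_eq_iff {G H : Gr n} : fibKey a b c d G = fibKey a b c d H ↔ SameFib a b c d G H := by
  constructor
  · intro h
    have : SameFib a b c d H H = SameFib a b c d G H := (congrFun h H).symm
    rw [← this]
    exact SameFib.refl H
  · intro h
    funext K
    exact propext ⟨fun h' => h.symm.trans h', fun h' => h.trans h'⟩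

/-- Configuration read off a graph. -/
def confOf (G₀ : Gr n) (a b c d : Fin n) (G : Gr n) : Conf n where
  s := (FF G₀ a b c d a b).filter (fun v => adj G a v)
  t := (FF G₀ a b c d c d).filter (fun v => adj G c v)
  p := decide (adj G a c)
  q := decide (adj G a d)
  r := decide (adj G b c)
  w := decide (adj G b d)

/-- A graph in the fibre of `G₀` is the encoding of its configuration. -/
lemma enc_confOf (h : Dist4 a b c d) {G₀ G : Gr n} (hG : SameFib a b c d G G₀) :
    enc G₀ a b c d (confOf G₀ a b c d G) = G := by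
  obtain ⟨h1, h2, h3, h4⟩ := hG
  refine graph_ext4 (a := a) (b := b) (c := c) (d := d) ?_ ?_ ?_ ?_ ?_ ?_ ?_ ?_ ?_ ?_ ?_
  · rw [enc_ab h]; exact h2.symm
  · rw [enc_ac h]; simp [confOf]
  · rw [enc_ad h]; simp [confOf]
  · rw [enc_bc h]; simp [confOf]
  · rw [enc_bd h]; simp [confOf]
  · rw [enc_cd h]; exact h3.symm
  · intro v hv
    rw [enc_aR h hv]
    obtain ⟨h5, h6, -, -⟩ := h4 v hv
    simp only [confOf, Finset.mem_filter, mem_FF, mem_CC, hv, true_and]
    clear h1 h2 h3 h4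
    tauto
  · intro v hv
    rw [enc_bR h hv]
    obtain ⟨h5, h6, -, -⟩ := h4 v hv
    simp only [confOf, Finset.mem_filter, mem_FF, mem_CC, hv, true_and]
    clear h1 h2 h3 h4
    tauto
  · intro v hv
    rw [enc_cR h hv]
    obtain ⟨-, -, h5, h6⟩ := h4 v hv
    simp only [confOf, Finset.mem_filter, mem_FF, mem_CC, hv, true_and]
    clear h1 h2 h3 h4
    tauto
  · intro v hv
    rw [enc_dR h hv]
    obtain ⟨-, -, h5, h6⟩ := h4 v hv
    simp only [confOf, Finset.mem_filter, mem_FF, mem_CC, hv, true_and]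
    clear h1 h2 h3 h4
    tauto
  · intro u v hu hv
    rw [enc_RR hu hv]
    exact (h1 u v hu hv).symm

/-- `enc` stays in the fibre when the sets are free. -/
lemma sameFib_enc (h : Dist4 a b c d) {G₀ : Gr n} {x : Conf n}
    (hs : x.s ⊆ FF G₀ a b c d a b) (ht : x.t ⊆ FF G₀ a b c d c d) :
    SameFib a b c d (enc G₀ a b c d x) G₀ := by
  refine ⟨fun u v hu hv => enc_RR hu hv, enc_ab h, enc_cd h, fun v hv => ?_⟩
  have hs' : v ∈ x.s → v ∈ FF G₀ a b c d a b := fun hh => hs hh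
  have ht' : v ∈ x.t → v ∈ FF G₀ a b c d c d := fun hh => ht hh
  rw [enc_aR h hv, enc_bR h hv, enc_cR h hv, enc_dR h hv]
  simp only [mem_FF, mem_CC, hv, true_and] at hs' ht' ⊢
  refine ⟨?_, ?_, ?_, ?_⟩ <;> tauto

/-- Configurations of encodings are recovered. -/
lemma confOf_enc (h : Dist4 a b c d) {G₀ : Gr n} {x : Conf n}
    (hs : x.s ⊆ FF G₀ a b c d a b) (ht : x.t ⊆ FF G₀ a b c d c d) :
    confOf G₀ a b c d (enc G₀ a b c d x) = x := by
  have hFa : ∀ v, v ∈ FF G₀ a b c d a b → Rm a b c d v := fun v hv => (mem_FF.1 hv).1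
  have hFc : ∀ v, v ∈ FF G₀ a b c d c d → Rm a b c d v := fun v hv => (mem_FF.1 hv).1
  refine Conf.ext ?_ ?_ ?_ ?_ ?_ ?_
  · ext v
    simp only [confOf, Finset.mem_filter]
    constructor
    · rintro ⟨hv, hadj⟩
      rw [enc_aR h (hFa v hv)] at hadj
      rcases hadj with hadj | hadj
      · exact hadj
      · exact absurd (mem_CC.1 hadj).2 (by
          have := (mem_FF.1 hv).2
          tauto)
    · intro hv
      have hF := hs hv
      refine ⟨hF, ?_⟩
      rw [enc_aR h (hFa v hF)]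
      exact Or.inl hv
  · ext v
    simp only [confOf, Finset.mem_filter]
    constructor
    · rintro ⟨hv, hadj⟩
      rw [enc_cR h (hFc v hv)] at hadj
      rcases hadj with hadj | hadj
      · exact hadj
      · exact absurd (mem_CC.1 hadj).2 (by
          have := (mem_FF.1 hv).2
          tauto)
    · intro hv
      have hF := ht hv
      refine ⟨hF, ?_⟩
      rw [enc_cR h (hFc v hF)]
      exact Or.inl hv
  · simp [confOf, enc_ac h]
  · simp [confOf, enc_ad h]
  · simp [confOf, enc_bc h]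
  · simp [confOf, enc_bd h]


/-! ### Degrees -/

/-- Indicator as a natural number. -/
def bn (P : Prop) : ℕ := if P then 1 else 0

lemma bn_iff {P Q : Prop} (h : P ↔ Q) : bn P = bn Q := by simp [bn, h]

lemma bn_false {P : Prop} (h : ¬ P) : bn P = 0 := by simp [bn, h]

lemma bn_bool (x : Bool) : bn (x = true) = x.toNat := by cases x <;> simp [bn]

/-- Split of a neighbourhood according to `{a,b,c,d}`. -/
lemma card_split4 (h : Dist4 a b c d) (N : Finset (Fin n)) :
    N.card = (N.filter (Rm a b c d)).card + bn (a ∈ N) + bn (b ∈ N) + bn (c ∈ N) + bn (d ∈ N) := by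
  have e : N = N.filter (Rm a b c d) ∪ N.filter (fun v => v = a) ∪ N.filter (fun v => v = b)
      ∪ N.filter (fun v => v = c) ∪ N.filter (fun v => v = d) := by
    ext v
    simp only [Finset.mem_union, Finset.mem_filter]
    have := classify (a := a) (b := b) (c := c) (d := d) v
    tauto
  have single : ∀ x : Fin n, (N.filter (fun v => v = x)).card = bn (x ∈ N) := by
    intro x
    by_cases hx : x ∈ N
    · rw [Finset.filter_eq' N x]; simp [bn, hx]
    · rw [Finset.filter_eq' N x]; simp [bn, hx]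
  have hRmne : ∀ {v : Fin n}, Rm a b c d v → v ≠ a ∧ v ≠ b ∧ v ≠ c ∧ v ≠ d := fun hv => hv
  conv_lhs => rw [e]
  rw [Finset.card_union_of_disjoint, Finset.card_union_of_disjoint, Finset.card_union_of_disjoint,
    Finset.card_union_of_disjoint, single, single, single, single]
  · rw [Finset.disjoint_left]
    intro v hv hv'
    simp only [Finset.mem_filter] at hv hv'
    exact (hRmne hv.2).1 hv'.2
  · rw [Finset.disjoint_left]
    intro v hv hv'
    simp only [Finset.mem_union, Finset.mem_filter] at hv hv'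
    rcases hv with hv | hv
    · exact (hRmne hv.2).2.1 hv'.2
    · exact h.ab (hv.2 ▸ hv'.2)
  · rw [Finset.disjoint_left]
    intro v hv hv'
    simp only [Finset.mem_union, Finset.mem_filter] at hv hv'
    rcases hv with (hv | hv) | hv
    · exact (hRmne hv.2).2.2.1 hv'.2
    · exact h.ac (hv.2 ▸ hv'.2)
    · exact h.bc (hv.2 ▸ hv'.2)
  · rw [Finset.disjoint_left]
    intro v hv hv'
    simp only [Finset.mem_union, Finset.mem_filter] at hv hv'
    rcases hv with ((hv | hv) | hv) | hv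
    · exact (hRmne hv.2).2.2.2 hv'.2
    · exact h.ad (hv.2 ▸ hv'.2)
    · exact h.bd (hv.2 ▸ hv'.2)
    · exact h.cd (hv.2 ▸ hv'.2)

/-- The degree in terms of the outside part and the four special adjacencies. -/
lemma card_nb_split4 (h : Dist4 a b c d) (G : Gr n) (u : Fin n) :
    (nb G u).card = ((nb G u).filter (Rm a b c d)).card
      + bn (adj G u a) + bn (adj G u b) + bn (adj G u c) + bn (adj G u d) := by
  have := card_split4 h (nb G u)
  simpa only [mem_nb] using this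

section degrees
variable (h : Dist4 a b c d) {G₀ : Gr n} {x : Conf n}
include h

lemma disj_FF_CC (x y : Fin n) : Disjoint (FF G₀ a b c d x y) (CC G₀ a b c d x y) := by
  rw [Finset.disjoint_left]
  intro v hv hv'
  have h1 := (mem_FF.1 hv).2
  have h2 := (mem_CC.1 hv').2
  tauto

lemma deg_enc_a (hs : x.s ⊆ FF G₀ a b c d a b) :
    (nb (enc G₀ a b c d x) a).card
      = x.s.card + (CC G₀ a b c d a b).card + bn (adj G₀ a b) + x.p.toNat + x.q.toNat := by
  have e : (nb (enc G₀ a b c d x) a).filter (Rm a b c d) = x.s ∪ CC G₀ a b c d a b := by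
    ext v
    simp only [Finset.mem_filter, mem_nb, Finset.mem_union]
    constructor
    · rintro ⟨h1, h2⟩
      exact (enc_aR h h2).1 h1
    · intro h1
      have h2 : Rm a b c d v := by
        rcases h1 with h1 | h1
        · exact (mem_FF.1 (hs h1)).1
        · exact (mem_CC.1 h1).1
      exact ⟨(enc_aR h h2).2 h1, h2⟩
  rw [card_nb_split4 h, e, Finset.card_union_of_disjoint
      (Finset.disjoint_of_subset_left hs (disj_FF_CC h a b)),
    bn_false (adj_irrefl _ _), bn_iff (enc_ab h), bn_iff (enc_ac h), bn_iff (enc_ad h), bn_bool,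
    bn_bool]
  ring

lemma deg_enc_b (hs : x.s ⊆ FF G₀ a b c d a b) :
    (nb (enc G₀ a b c d x) b).card
      = ((FF G₀ a b c d a b).card - x.s.card) + (CC G₀ a b c d a b).card + bn (adj G₀ a b)
        + x.r.toNat + x.w.toNat := by
  have e : (nb (enc G₀ a b c d x) b).filter (Rm a b c d)
      = (FF G₀ a b c d a b \ x.s) ∪ CC G₀ a b c d a b := by
    ext v
    simp only [Finset.mem_filter, mem_nb, Finset.mem_union, Finset.mem_sdiff]
    constructor
    · rintro ⟨h1, h2⟩
      exact (enc_bR h h2).1 h1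
    · intro h1
      have h2 : Rm a b c d v := by
        rcases h1 with h1 | h1
        · exact (mem_FF.1 h1.1).1
        · exact (mem_CC.1 h1).1
      exact ⟨(enc_bR h h2).2 h1, h2⟩
  rw [card_nb_split4 h, e, Finset.card_union_of_disjoint
      (Finset.disjoint_of_subset_left Finset.sdiff_subset (disj_FF_CC h a b)),
    Finset.card_sdiff_of_subset hs,
    bn_iff (show adj (enc G₀ a b c d x) b a ↔ adj G₀ a b from adj_comm.trans (enc_ab h)),
    bn_false (adj_irrefl _ _), bn_iff (enc_bc h), bn_iff (enc_bd h), bn_bool, bn_bool]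
  ring

lemma deg_enc_c (ht : x.t ⊆ FF G₀ a b c d c d) :
    (nb (enc G₀ a b c d x) c).card
      = x.t.card + (CC G₀ a b c d c d).card + bn (adj G₀ c d) + x.p.toNat + x.r.toNat := by
  have e : (nb (enc G₀ a b c d x) c).filter (Rm a b c d) = x.t ∪ CC G₀ a b c d c d := by
    ext v
    simp only [Finset.mem_filter, mem_nb, Finset.mem_union]
    constructor
    · rintro ⟨h1, h2⟩
      exact (enc_cR h h2).1 h1
    · intro h1
      have h2 : Rm a b c d v := by
        rcases h1 with h1 | h1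
        · exact (mem_FF.1 (ht h1)).1
        · exact (mem_CC.1 h1).1
      exact ⟨(enc_cR h h2).2 h1, h2⟩
  rw [card_nb_split4 h, e, Finset.card_union_of_disjoint
      (Finset.disjoint_of_subset_left ht (disj_FF_CC h c d)),
    bn_iff (show adj (enc G₀ a b c d x) c a ↔ x.p = true from adj_comm.trans (enc_ac h)),
    bn_iff (show adj (enc G₀ a b c d x) c b ↔ x.r = true from adj_comm.trans (enc_bc h)),
    bn_false (adj_irrefl _ _), bn_iff (enc_cd h), bn_bool, bn_bool]
  ring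

lemma deg_enc_d (ht : x.t ⊆ FF G₀ a b c d c d) :
    (nb (enc G₀ a b c d x) d).card
      = ((FF G₀ a b c d c d).card - x.t.card) + (CC G₀ a b c d c d).card + bn (adj G₀ c d)
        + x.q.toNat + x.w.toNat := by
  have e : (nb (enc G₀ a b c d x) d).filter (Rm a b c d)
      = (FF G₀ a b c d c d \ x.t) ∪ CC G₀ a b c d c d := by
    ext v
    simp only [Finset.mem_filter, mem_nb, Finset.mem_union, Finset.mem_sdiff]
    constructor
    · rintro ⟨h1, h2⟩
      exact (enc_dR h h2).1 h1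
    · intro h1
      have h2 : Rm a b c d v := by
        rcases h1 with h1 | h1
        · exact (mem_FF.1 h1.1).1
        · exact (mem_CC.1 h1).1
      exact ⟨(enc_dR h h2).2 h1, h2⟩
  rw [card_nb_split4 h, e, Finset.card_union_of_disjoint
      (Finset.disjoint_of_subset_left Finset.sdiff_subset (disj_FF_CC h c d)),
    Finset.card_sdiff_of_subset ht,
    bn_iff (show adj (enc G₀ a b c d x) d a ↔ x.q = true from adj_comm.trans (enc_ad h)),
    bn_iff (show adj (enc G₀ a b c d x) d b ↔ x.w = true from adj_comm.trans (enc_bd h)),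
    bn_iff (show adj (enc G₀ a b c d x) d c ↔ adj G₀ c d from adj_comm.trans (enc_cd h)),
    bn_false (adj_irrefl _ _), bn_bool, bn_bool]
  ring

end degrees

lemma bn_pair {A B A' B' : Prop} (h1 : A ∧ B ↔ A' ∧ B') (h2 : A ∨ B ↔ A' ∨ B') :
    bn A + bn B = bn A' + bn B' := by
  simp only [bn]
  by_cases h11 : A <;> by_cases h12 : B <;> by_cases h13 : A' <;> by_cases h14 : B' <;>
    simp only [h11, h12, h13, h14, if_true, if_false] <;> simp_all

/-- Graphs in one fibre have the same degree at outside vertices. -/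
lemma deg_R_of_sameFib (h : Dist4 a b c d) {G H : Gr n} (hG : SameFib a b c d G H) {v : Fin n}
    (hv : Rm a b c d v) : (nb G v).card = (nb H v).card := by
  obtain ⟨h1, -, -, h4⟩ := hG
  obtain ⟨h5, h6, h7, h8⟩ := h4 v hv
  rw [card_nb_split4 h G v, card_nb_split4 h H v]
  have e : (nb G v).filter (Rm a b c d) = (nb H v).filter (Rm a b c d) := by
    ext w
    simp only [Finset.mem_filter, mem_nb]
    constructor
    · rintro ⟨h9, h10⟩
      exact ⟨(h1 v w hv h10).1 h9, h10⟩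
    · rintro ⟨h9, h10⟩
      exact ⟨(h1 v w hv h10).2 h9, h10⟩
  rw [e]
  have comm : ∀ (K : Gr n) (y : Fin n), adj K v y ↔ adj K y v := fun _ _ => adj_comm
  simp only [comm G, comm H]
  have e1 := bn_pair h5 h6
  have e2 := bn_pair h7 h8
  omega

/-- Validity of a configuration with respect to the reference graph `G₀`. -/
structure Valid (G₀ : Gr n) (a b c d : Fin n) (x : Conf n) : Prop where
  hs : x.s ⊆ FF G₀ a b c d a b
  ht : x.t ⊆ FF G₀ a b c d c d
  h1 : x.s.card + x.p.toNat + x.q.toNat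
    = (confOf G₀ a b c d G₀).s.card + (confOf G₀ a b c d G₀).p.toNat
      + (confOf G₀ a b c d G₀).q.toNat
  h2 : x.t.card + x.p.toNat + x.r.toNat
    = (confOf G₀ a b c d G₀).t.card + (confOf G₀ a b c d G₀).p.toNat
      + (confOf G₀ a b c d G₀).r.toNat
  h3 : x.p.toNat + x.q.toNat + x.r.toNat + x.w.toNat
    = (confOf G₀ a b c d G₀).p.toNat + (confOf G₀ a b c d G₀).q.toNat
      + (confOf G₀ a b c d G₀).r.toNat + (confOf G₀ a b c d G₀).w.toNat

lemma confOf_s_subset (G₀ G : Gr n) : (confOf G₀ a b c d G).s ⊆ FF G₀ a b c d a b :=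
  Finset.filter_subset _ _

lemma confOf_t_subset (G₀ G : Gr n) : (confOf G₀ a b c d G).t ⊆ FF G₀ a b c d c d :=
  Finset.filter_subset _ _

/-- A valid configuration encodes a realization. -/
lemma enc_mem_of_valid (h : Dist4 a b c d) {D : Fin n → ℕ} {G₀ : Gr n}
    (hG₀ : G₀ ∈ realizations D) {x : Conf n} (hx : Valid G₀ a b c d x) :
    enc G₀ a b c d x ∈ realizations D := by
  rw [mem_realizations] at hG₀ ⊢
  set x₀ := confOf G₀ a b c d G₀ with hx₀
  have e₀ : enc G₀ a b c d x₀ = G₀ := enc_confOf h (SameFib.refl G₀)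
  have hs₀ : x₀.s ⊆ FF G₀ a b c d a b := confOf_s_subset _ _
  have ht₀ : x₀.t ⊆ FF G₀ a b c d c d := confOf_t_subset _ _
  have ca := deg_enc_a h hs₀
  have cb := deg_enc_b h hs₀
  have cc := deg_enc_c h ht₀
  have cd := deg_enc_d h ht₀
  rw [e₀, hG₀] at ca cb cc cd
  have hs1 := Finset.card_le_card hx.hs
  have hs2 := Finset.card_le_card hs₀
  have ht1 := Finset.card_le_card hx.ht
  have ht2 := Finset.card_le_card ht₀
  have h1 : x.s.card + x.p.toNat + x.q.toNat = x₀.s.card + x₀.p.toNat + x₀.q.toNat := hx.h1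
  have h2 : x.t.card + x.p.toNat + x.r.toNat = x₀.t.card + x₀.p.toNat + x₀.r.toNat := hx.h2
  have h3 : x.p.toNat + x.q.toNat + x.r.toNat + x.w.toNat
      = x₀.p.toNat + x₀.q.toNat + x₀.r.toNat + x₀.w.toNat := hx.h3
  intro v
  rcases classify (a := a) (b := b) (c := c) (d := d) v with hv | hv | hv | hv | hv
  · rw [hv, deg_enc_a h hx.hs]; omega
  · rw [hv, deg_enc_b h hx.hs]; omega
  · rw [hv, deg_enc_c h hx.ht]; omega
  · rw [hv, deg_enc_d h hx.ht]; omega
  · rw [deg_R_of_sameFib h (sameFib_enc h hx.hs hx.ht) hv, hG₀]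

/-- The configuration of a realization in the fibre of `G₀` is valid. -/
lemma valid_confOf (h : Dist4 a b c d) {D : Fin n → ℕ} {G₀ G : Gr n}
    (hG₀ : G₀ ∈ realizations D) (hG : G ∈ realizations D) (hf : SameFib a b c d G G₀) :
    Valid G₀ a b c d (confOf G₀ a b c d G) := by
  rw [mem_realizations] at hG₀ hG
  set x₀ := confOf G₀ a b c d G₀ with hx₀
  set x := confOf G₀ a b c d G with hx
  have e₀ : enc G₀ a b c d x₀ = G₀ := enc_confOf h (SameFib.refl G₀)
  have e : enc G₀ a b c d x = G := enc_confOf h hf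
  have hs₀ : x₀.s ⊆ FF G₀ a b c d a b := confOf_s_subset _ _
  have ht₀ : x₀.t ⊆ FF G₀ a b c d c d := confOf_t_subset _ _
  have hs : x.s ⊆ FF G₀ a b c d a b := confOf_s_subset _ _
  have ht : x.t ⊆ FF G₀ a b c d c d := confOf_t_subset _ _
  have ca := deg_enc_a h hs₀
  have cb := deg_enc_b h hs₀
  have cc := deg_enc_c h ht₀
  have cd := deg_enc_d h ht₀
  have ca' := deg_enc_a h hs
  have cb' := deg_enc_b h hs
  have cc' := deg_enc_c h ht
  have cd' := deg_enc_d h ht
  rw [e₀, hG₀] at ca cb cc cd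
  rw [e, hG] at ca' cb' cc' cd'
  have hs1 := Finset.card_le_card hs
  have hs2 := Finset.card_le_card hs₀
  have ht1 := Finset.card_le_card ht
  have ht2 := Finset.card_le_card ht₀
  refine ⟨hs, ht, ?_, ?_, ?_⟩
  · show x.s.card + x.p.toNat + x.q.toNat = x₀.s.card + x₀.p.toNat + x₀.q.toNat
    omega
  · show x.t.card + x.p.toNat + x.r.toNat = x₀.t.card + x₀.p.toNat + x₀.r.toNat
    omega
  · show x.p.toNat + x.q.toNat + x.r.toNat + x.w.toNat
      = x₀.p.toNat + x₀.q.toNat + x₀.r.toNat + x₀.w.toNat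
    omega


/-! ### Blocks inside fibres -/

lemma sum_split2 {x₁ x₂ : Fin n} (hx : x₁ ≠ x₂) (g : Fin n → ℕ) :
    ∑ w, g w = ∑ w ∈ univ.filter (fun w => w ≠ x₁ ∧ w ≠ x₂), g w + g x₁ + g x₂ := by
  rw [← Finset.sum_filter_add_sum_filter_not univ (fun w => w ≠ x₁ ∧ w ≠ x₂) g]
  have e : univ.filter (fun w => ¬ (w ≠ x₁ ∧ w ≠ x₂)) = {x₁, x₂} := by
    ext w
    simp only [Finset.mem_filter, Finset.mem_univ, true_and, Finset.mem_insert,
      Finset.mem_singleton]
    tauto
  rw [e, Finset.sum_pair hx]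
  ring

lemma card_nb_eq_sum (G : Gr n) (u : Fin n) : (nb G u).card = ∑ w, bn (adj G u w) := by
  simp only [nb, bn, Finset.card_filter]

/-- In a `{x₁,x₂}`-block the column counts and the edge `x₁ x₂` are constant. -/
lemma block_counts {D : Fin n → ℕ} {y z : Gr n} {x₁ x₂ : Fin n} (hx : x₁ ≠ x₂)
    (hy : y ∈ realizations D) (hz : z ∈ realizations D)
    (hk : keyOff {x₁, x₂} y = keyOff {x₁, x₂} z) :
    (∀ v, v ≠ x₁ → v ≠ x₂ → bn (adj y x₁ v) + bn (adj y x₂ v) = bn (adj z x₁ v) + bn (adj z x₂ v)) ∧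
      (adj y x₁ x₂ ↔ adj z x₁ x₂) := by
  rw [mem_realizations] at hy hz
  rw [keyOff_eq_iff] at hk
  have hk' : ∀ u v, u ≠ x₁ → u ≠ x₂ → v ≠ x₁ → v ≠ x₂ → (adj y u v ↔ adj z u v) := by
    intro u v h1 h2 h3 h4
    refine hk u v ?_ ?_ <;> simp [*]
  have hsplit : ∀ (G : Gr n) (u : Fin n), (nb G u).card
      = ∑ w ∈ univ.filter (fun w => w ≠ x₁ ∧ w ≠ x₂), bn (adj G u w)
        + bn (adj G u x₁) + bn (adj G u x₂) := by
    intro G u
    rw [card_nb_eq_sum, sum_split2 hx]
  have c1 : ∀ v, v ≠ x₁ → v ≠ x₂ →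
      bn (adj y x₁ v) + bn (adj y x₂ v) = bn (adj z x₁ v) + bn (adj z x₂ v) := by
    intro v h1 h2
    have e : ∑ w ∈ univ.filter (fun w => w ≠ x₁ ∧ w ≠ x₂), bn (adj y v w)
        = ∑ w ∈ univ.filter (fun w => w ≠ x₁ ∧ w ≠ x₂), bn (adj z v w) := by
      refine Finset.sum_congr rfl (fun w hw => ?_)
      simp only [Finset.mem_filter, Finset.mem_univ, true_and] at hw
      exact bn_iff (hk' v w h1 h2 hw.1 hw.2)
    have e1 := hsplit y v
    have e2 := hsplit z v
    rw [hy v] at e1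
    rw [hz v] at e2
    rw [bn_iff (adj_comm (G := y) (u := x₁) (v := v)), bn_iff (adj_comm (G := y) (u := x₂) (v := v)),
      bn_iff (adj_comm (G := z) (u := x₁) (v := v)), bn_iff (adj_comm (G := z) (u := x₂) (v := v))]
    omega
  refine ⟨c1, ?_⟩
  have s1 : ∑ w ∈ univ.filter (fun w => w ≠ x₁ ∧ w ≠ x₂), (bn (adj y x₁ w) + bn (adj y x₂ w))
      = ∑ w ∈ univ.filter (fun w => w ≠ x₁ ∧ w ≠ x₂), (bn (adj z x₁ w) + bn (adj z x₂ w)) := by
    refine Finset.sum_congr rfl (fun w hw => ?_)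
    simp only [Finset.mem_filter, Finset.mem_univ, true_and] at hw
    exact c1 w hw.1 hw.2
  rw [Finset.sum_add_distrib, Finset.sum_add_distrib] at s1
  have a1 := hsplit y x₁
  have a2 := hsplit y x₂
  have a3 := hsplit z x₁
  have a4 := hsplit z x₂
  rw [hy x₁] at a1
  rw [hy x₂] at a2
  rw [hz x₁] at a3
  rw [hz x₂] at a4
  rw [bn_false (adj_irrefl _ _)] at a1 a2 a3 a4
  have b1 := bn_iff (adj_comm (G := y) (u := x₂) (v := x₁))
  have b2 := bn_iff (adj_comm (G := z) (u := x₂) (v := x₁))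
  have key : bn (adj y x₁ x₂) = bn (adj z x₁ x₂) := by omega
  by_cases h1 : adj y x₁ x₂ <;> by_cases h2 : adj z x₁ x₂ <;> simp_all [bn]

lemma pair_of_bn {A B A' B' : Prop} (h : bn A + bn B = bn A' + bn B') :
    (A ∧ B ↔ A' ∧ B') ∧ (A ∨ B ↔ A' ∨ B') := by
  simp only [bn] at h
  by_cases h11 : A <;> by_cases h12 : B <;> by_cases h13 : A' <;> by_cases h14 : B' <;>
    simp_all

/-- The `{a,b}`-block of a realization lies in its fibre. -/
lemma sameFib_of_keyOff_ab (h : Dist4 a b c d) {D : Fin n → ℕ} {y z : Gr n}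
    (hy : y ∈ realizations D) (hz : z ∈ realizations D)
    (hk : keyOff {a, b} y = keyOff {a, b} z) : SameFib a b c d y z := by
  obtain ⟨c1, c2⟩ := block_counts h.ab hy hz hk
  rw [keyOff_eq_iff] at hk
  have hk' : ∀ u v, u ≠ a → u ≠ b → v ≠ a → v ≠ b → (adj y u v ↔ adj z u v) := by
    intro u v h1 h2 h3 h4
    refine hk u v ?_ ?_ <;> simp [*]
  refine ⟨fun u v hu hv => hk' u v hu.1 hu.2.1 hv.1 hv.2.1, c2,
    hk' c d h.ac.symm h.bc.symm h.ad.symm h.bd.symm, fun v hv => ?_⟩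
  obtain ⟨p1, p2⟩ := pair_of_bn (c1 v hv.1 hv.2.1)
  have q1 := hk' c v h.ac.symm h.bc.symm hv.1 hv.2.1
  have q2 := hk' d v h.ad.symm h.bd.symm hv.1 hv.2.1
  exact ⟨p1, p2, and_congr q1 q2, or_congr q1 q2⟩

/-- The `{c,d}`-block of a realization lies in its fibre. -/
lemma sameFib_of_keyOff_cd (h : Dist4 a b c d) {D : Fin n → ℕ} {y z : Gr n}
    (hy : y ∈ realizations D) (hz : z ∈ realizations D)
    (hk : keyOff {c, d} y = keyOff {c, d} z) : SameFib a b c d y z := by
  obtain ⟨c1, c2⟩ := block_counts h.cd hy hz hk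
  rw [keyOff_eq_iff] at hk
  have hk' : ∀ u v, u ≠ c → u ≠ d → v ≠ c → v ≠ d → (adj y u v ↔ adj z u v) := by
    intro u v h1 h2 h3 h4
    refine hk u v ?_ ?_ <;> simp [*]
  refine ⟨fun u v hu hv => hk' u v hu.2.2.1 hu.2.2.2 hv.2.2.1 hv.2.2.2,
    hk' a b h.ac h.ad h.bc h.bd, c2, fun v hv => ?_⟩
  obtain ⟨p1, p2⟩ := pair_of_bn (c1 v hv.2.2.1 hv.2.2.2)
  have q1 := hk' a v h.ac h.ad hv.2.2.1 hv.2.2.2
  have q2 := hk' b v h.bc h.bd hv.2.2.1 hv.2.2.2
  exact ⟨and_congr q1 q2, or_congr q1 q2, p1, p2⟩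

/-- Encoded graphs have equal `{a,b}`-keys iff their `t` agree. -/
lemma keyOff_ab_enc (h : Dist4 a b c d) {G₀ : Gr n} {x x' : Conf n}
    (ht : x.t ⊆ FF G₀ a b c d c d) (ht' : x'.t ⊆ FF G₀ a b c d c d) :
    keyOff {a, b} (enc G₀ a b c d x) = keyOff {a, b} (enc G₀ a b c d x') ↔ x.t = x'.t := by
  rw [keyOff_eq_iff]
  constructor
  · intro hk
    have hcv : ∀ v, Rm a b c d v →
        (adj (enc G₀ a b c d x) c v ↔ adj (enc G₀ a b c d x') c v) := by
      intro v hv
      refine hk c v ?_ ?_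
      · simp [h.ac.symm, h.bc.symm]
      · simp [hv.1, hv.2.1]
    ext v
    have key : ∀ (y y' : Conf n), y.t ⊆ FF G₀ a b c d c d →
        (∀ v, Rm a b c d v → (adj (enc G₀ a b c d y) c v ↔ adj (enc G₀ a b c d y') c v)) →
        v ∈ y.t → v ∈ y'.t := by
      intro y y' hy hyy hv
      have hF := hy hv
      have hR := (mem_FF.1 hF).1
      have := (hyy v hR).1 ((enc_cR h hR).2 (Or.inl hv))
      rcases (enc_cR h hR).1 this with h3 | h3
      · exact h3
      · exact absurd (mem_CC.1 h3).2 (by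
          have := (mem_FF.1 hF).2
          tauto)
    exact ⟨key x x' ht hcv, key x' x ht' (fun v hv => (hcv v hv).symm)⟩
  · intro heq u v hu hv
    simp only [Finset.mem_insert, Finset.mem_singleton, not_or] at hu hv
    have comm : ∀ {G H : Gr n} {p q : Fin n}, (adj G p q ↔ adj H p q) → (adj G q p ↔ adj H q p) := by
      intro G H p q hh
      rw [adj_comm (G := G), adj_comm (G := H)]
      exact hh
    have hcd : adj (enc G₀ a b c d x) c d ↔ adj (enc G₀ a b c d x') c d := by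
      rw [enc_cd h, enc_cd h]
    have hcR : ∀ v, Rm a b c d v →
        (adj (enc G₀ a b c d x) c v ↔ adj (enc G₀ a b c d x') c v) := by
      intro v hv
      rw [enc_cR h hv, enc_cR h hv, heq]
    have hdR : ∀ v, Rm a b c d v →
        (adj (enc G₀ a b c d x) d v ↔ adj (enc G₀ a b c d x') d v) := by
      intro v hv
      rw [enc_dR h hv, enc_dR h hv, heq]
    rcases classify (a := a) (b := b) (c := c) (d := d) u with hu' | hu' | hu' | hu' | hu' <;>
    rcases classify (a := a) (b := b) (c := c) (d := d) v with hv' | hv' | hv' | hv' | hv'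
    all_goals first
      | exact absurd hu' hu.1
      | exact absurd hu' hu.2
      | exact absurd hv' hv.1
      | exact absurd hv' hv.2
      | skip
    all_goals (try rw [hu']) <;> (try rw [hv'])
    all_goals first
      | exact iff_of_false (adj_irrefl _ _) (adj_irrefl _ _)
      | exact hcd
      | exact comm hcd
      | exact hcR _ hv'
      | exact hdR _ hv'
      | exact comm (hcR _ hu')
      | exact comm (hdR _ hu')
      | exact (enc_RR hu' hv').trans (enc_RR hu' hv').symm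

/-- Encoded graphs have equal `{c,d}`-keys iff their `s` agree. -/
lemma keyOff_cd_enc (h : Dist4 a b c d) {G₀ : Gr n} {x x' : Conf n}
    (hs : x.s ⊆ FF G₀ a b c d a b) (hs' : x'.s ⊆ FF G₀ a b c d a b) :
    keyOff {c, d} (enc G₀ a b c d x) = keyOff {c, d} (enc G₀ a b c d x') ↔ x.s = x'.s := by
  rw [keyOff_eq_iff]
  constructor
  · intro hk
    have hcv : ∀ v, Rm a b c d v →
        (adj (enc G₀ a b c d x) a v ↔ adj (enc G₀ a b c d x') a v) := by
      intro v hv
      refine hk a v ?_ ?_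
      · simp [h.ac, h.ad]
      · simp [hv.2.2.1, hv.2.2.2]
    ext v
    have key : ∀ (y y' : Conf n), y.s ⊆ FF G₀ a b c d a b →
        (∀ v, Rm a b c d v → (adj (enc G₀ a b c d y) a v ↔ adj (enc G₀ a b c d y') a v)) →
        v ∈ y.s → v ∈ y'.s := by
      intro y y' hy hyy hv
      have hF := hy hv
      have hR := (mem_FF.1 hF).1
      have := (hyy v hR).1 ((enc_aR h hR).2 (Or.inl hv))
      rcases (enc_aR h hR).1 this with h3 | h3
      · exact h3
      · exact absurd (mem_CC.1 h3).2 (by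
          have := (mem_FF.1 hF).2
          tauto)
    exact ⟨key x x' hs hcv, key x' x hs' (fun v hv => (hcv v hv).symm)⟩
  · intro heq u v hu hv
    simp only [Finset.mem_insert, Finset.mem_singleton, not_or] at hu hv
    have comm : ∀ {G H : Gr n} {p q : Fin n}, (adj G p q ↔ adj H p q) → (adj G q p ↔ adj H q p) := by
      intro G H p q hh
      rw [adj_comm (G := G), adj_comm (G := H)]
      exact hh
    have hab : adj (enc G₀ a b c d x) a b ↔ adj (enc G₀ a b c d x') a b := by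
      rw [enc_ab h, enc_ab h]
    have haR : ∀ v, Rm a b c d v →
        (adj (enc G₀ a b c d x) a v ↔ adj (enc G₀ a b c d x') a v) := by
      intro v hv
      rw [enc_aR h hv, enc_aR h hv, heq]
    have hbR : ∀ v, Rm a b c d v →
        (adj (enc G₀ a b c d x) b v ↔ adj (enc G₀ a b c d x') b v) := by
      intro v hv
      rw [enc_bR h hv, enc_bR h hv, heq]
    rcases classify (a := a) (b := b) (c := c) (d := d) u with hu' | hu' | hu' | hu' | hu' <;>
    rcases classify (a := a) (b := b) (c := c) (d := d) v with hv' | hv' | hv' | hv' | hv'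
    all_goals first
      | exact absurd hu' hu.1
      | exact absurd hu' hu.2
      | exact absurd hv' hv.1
      | exact absurd hv' hv.2
      | skip
    all_goals (try rw [hu']) <;> (try rw [hv'])
    all_goals first
      | exact iff_of_false (adj_irrefl _ _) (adj_irrefl _ _)
      | exact hab
      | exact comm hab
      | exact haR _ hv'
      | exact hbR _ hv'
      | exact comm (haR _ hu')
      | exact comm (hbR _ hu')
      | exact (enc_RR hu' hv').trans (enc_RR hu' hv').symm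

/-! ### Toggle and the predicates on encodings -/

/-- Flip the four cycle bits. -/
def Conf.flip (x : Conf n) : Conf n := ⟨x.s, x.t, !x.p, !x.q, !x.r, !x.w⟩

lemma tog_enc (h : Dist4 a b c d) {G₀ : Gr n} {x : Conf n} :
    tog (enc G₀ a b c d x) a b c d = enc G₀ a b c d x.flip := by
  refine graph_ext4 (a := a) (b := b) (c := c) (d := d) ?_ ?_ ?_ ?_ ?_ ?_ ?_ ?_ ?_ ?_ ?_
  · rw [adj_tog_a h, enc_ab h, enc_ab h]
    simp [h.bc, h.bd]
  · rw [adj_tog_a h, enc_ac h, enc_ac h]
    cases hp : x.p <;> simp [Conf.flip, hp]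
  · rw [adj_tog_a h, enc_ad h, enc_ad h]
    cases hp : x.q <;> simp [Conf.flip, hp]
  · rw [adj_tog_b h, enc_bc h, enc_bc h]
    cases hp : x.r <;> simp [Conf.flip, hp]
  · rw [adj_tog_b h, enc_bd h, enc_bd h]
    cases hp : x.w <;> simp [Conf.flip, hp]
  · rw [adj_tog_c h, enc_cd h, enc_cd h]
    simp [h.ad.symm, h.bd.symm]
  · intro v hv
    rw [adj_tog_a h, enc_aR h hv, enc_aR h hv]
    simp [hv.2.2.1, hv.2.2.2, Conf.flip]
    tauto
  · intro v hv
    rw [adj_tog_b h, enc_bR h hv, enc_bR h hv]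
    simp [hv.2.2.1, hv.2.2.2, Conf.flip]
    tauto
  · intro v hv
    rw [adj_tog_c h, enc_cR h hv, enc_cR h hv]
    simp [hv.1, hv.2.1, Conf.flip]
    tauto
  · intro v hv
    rw [adj_tog_d h, enc_dR h hv, enc_dR h hv]
    simp [hv.1, hv.2.1, Conf.flip]
    tauto
  · intro u v hu hv
    rw [adj_tog_other h hu.1 hu.2.1 hu.2.2.1 hu.2.2.2, enc_RR hu hv, enc_RR hu hv]

lemma bool_not_iff (p q : Bool) : ¬ ((p = true) ↔ (q = true)) ↔ p ≠ q := by
  cases p <;> cases q <;> simp

lemma alt_enc (h : Dist4 a b c d) {G₀ : Gr n} {x : Conf n} :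
    alt (enc G₀ a b c d x) a b c d ↔
      (x.p = true ∧ x.w = true ∧ x.q = false ∧ x.r = false) ∨
      (x.q = true ∧ x.r = true ∧ x.p = false ∧ x.w = false) := by
  simp only [alt, enc_ac h, enc_ad h, enc_bc h, enc_bd h, Bool.not_eq_true]

lemma fr_enc (h : Dist4 a b c d) {G₀ : Gr n} {x : Conf n} :
    fr (enc G₀ a b c d x) a b c d ↔ x.p ≠ x.r ∧ x.q ≠ x.w := by
  simp only [fr, enc_ac h, enc_ad h, enc_bc h, enc_bd h, bool_not_iff]

lemma fr_enc' (h : Dist4 a b c d) {G₀ : Gr n} {x : Conf n} :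
    fr (enc G₀ a b c d x) c d a b ↔ x.p ≠ x.q ∧ x.r ≠ x.w := by
  simp only [fr, adj_comm (G := enc G₀ a b c d x) (u := c), adj_comm (G := enc G₀ a b c d x) (u := d),
    enc_ac h, enc_ad h, enc_bc h, enc_bd h, bool_not_iff]

lemma kap_enc (h : Dist4 a b c d) {G₀ : Gr n} {x : Conf n} :
    kap (enc G₀ a b c d x) a c d ↔ x.p ≠ x.q := by
  simp only [kap, enc_ac h, enc_ad h, bool_not_iff]

lemma kap_enc' (h : Dist4 a b c d) {G₀ : Gr n} {x : Conf n} :
    kap (enc G₀ a b c d x) c a b ↔ x.p ≠ x.r := by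
  simp only [kap, adj_comm (G := enc G₀ a b c d x) (u := c), enc_ac h, enc_bc h, bool_not_iff]

/-- `enc` is injective on configurations with free sets. -/
lemma enc_inj (h : Dist4 a b c d) {G₀ : Gr n} {x x' : Conf n}
    (hs : x.s ⊆ FF G₀ a b c d a b) (ht : x.t ⊆ FF G₀ a b c d c d)
    (hs' : x'.s ⊆ FF G₀ a b c d a b) (ht' : x'.t ⊆ FF G₀ a b c d c d)
    (he : enc G₀ a b c d x = enc G₀ a b c d x') : x = x' := by
  rw [← confOf_enc h hs ht, ← confOf_enc h hs' ht', he]

end

end Crest.Agent.SW
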