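/-
S0453 project: the L-shaped product model (abstract).  See SWPLAN.md, piece LM.
-/
import Crest.Agent.SWCexp

set_option autoImplicit false
open Finset

namespace Crest.Agent.SW

noncomputable section

variable {A A' B B' : Type*} [Fintype A] [Fintype A'] [Fintype B] [Fintype B']
  [DecidableEq A] [DecidableEq A'] [DecidableEq B] [DecidableEq B']

/-- The model: cell 11 `A×B×{±}`, cell 10 `A'×B`, cell 01 `A×B'`. -/
abbrev LM (A A' B B' : Type*) := (A × B × Bool) ⊕ (A' × B) ⊕ (A × B')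

/-- The `P`-key (`t` coordinate). -/
def LM.tk : LM A A' B B' → B ⊕ B'
  | .inl (_, b, _) => .inl b
  | .inr (.inl (_, b)) => .inl b
  | .inr (.inr (_, b')) => .inr b'

/-- The `Q`-key (`s` coordinate). -/
def LM.sk : LM A A' B B' → A ⊕ A'
  | .inl (a, _, _) => .inl a
  | .inr (.inl (a', _)) => .inr a'
  | .inr (.inr (a, _)) => .inl a

/-- `s ∈ A`. -/
def LM.isA : LM A A' B B' → Prop
  | .inl _ => True
  | .inr (.inl _) => False
  | .inr (.inr _) => True

/-- `t ∈ B`. -/
def LM.isB : LM A A' B B' → Prop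
  | .inl _ => True
  | .inr (.inl _) => True
  | .inr (.inr _) => False

instance : DecidablePred (LM.isA (A := A) (A' := A') (B := B) (B' := B')) := by
  intro x; rcases x with _ | _ | _ <;> simp only [LM.isA] <;> infer_instance

instance : DecidablePred (LM.isB (A := A) (A' := A') (B := B) (B' := B')) := by
  intro x; rcases x with _ | _ | _ <;> simp only [LM.isB] <;> infer_instance

namespace LMaux

/-- Splitting a sum over the model into its three cells. -/
lemma sum_LM (F : LM A A' B B' → ℝ) :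
    ∑ x, F x = ∑ a, ∑ b, ∑ e, F (.inl (a, b, e)) + ∑ a', ∑ b, F (.inr (.inl (a', b)))
      + ∑ a, ∑ b', F (.inr (.inr (a, b'))) := by
  simp [Fintype.sum_sum_type, Fintype.sum_prod_type, add_assoc]

lemma aux_single {X Y : Type*} [Fintype X] [Fintype Y] [DecidableEq X] (G : X → Y → ℝ) (x : X) :
    ∑ c, ∑ e, (if c = x then G c e else 0) = ∑ e, G x e := by
  rw [Finset.sum_eq_single x]
  · simp
  · intro c _ hc; simp [hc]
  · simp

lemma aux_single' {X : Type*} [Fintype X] [DecidableEq X] (G : X → ℝ) (x : X) :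
    ∑ c, (if c = x then G c else 0) = G x := by
  simp

/-- Block sums for the `t`-key at `b ∈ B`. -/
lemma sum_block_tk_B (F : LM A A' B B' → ℝ) (x : LM A A' B B') (b : B) (hx : LM.tk x = .inl b) :
    ∑ y ∈ blockOf univ LM.tk x, F y
      = ∑ a, ∑ e, F (.inl (a, b, e)) + ∑ a', F (.inr (.inl (a', b))) := by
  unfold blockOf
  rw [hx, Finset.sum_filter, sum_LM]
  simp only [LM.tk, Sum.inl.injEq, reduceCtorEq, if_false, Finset.sum_const_zero, add_zero]
  congr 1
  · refine Finset.sum_congr rfl fun a _ => ?_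
    exact aux_single (fun b e => F (.inl (a, b, e))) b
  · refine Finset.sum_congr rfl fun a _ => ?_
    exact aux_single' (fun b => F (.inr (.inl (a, b)))) b

/-- Block sums for the `t`-key at `b' ∈ B'`. -/
lemma sum_block_tk_B' (F : LM A A' B B' → ℝ) (x : LM A A' B B') (b : B') (hx : LM.tk x = .inr b) :
    ∑ y ∈ blockOf univ LM.tk x, F y = ∑ a, F (.inr (.inr (a, b))) := by
  unfold blockOf
  rw [hx, Finset.sum_filter, sum_LM]
  simp only [LM.tk, Sum.inr.injEq, reduceCtorEq, if_false, Finset.sum_const_zero, zero_add]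
  refine Finset.sum_congr rfl fun a _ => ?_
  exact aux_single' (fun b => F (.inr (.inr (a, b)))) b

/-- Block sums for the `s`-key at `a ∈ A`. -/
lemma sum_block_sk_A (F : LM A A' B B' → ℝ) (x : LM A A' B B') (a : A) (hx : LM.sk x = .inl a) :
    ∑ y ∈ blockOf univ LM.sk x, F y
      = ∑ b, ∑ e, F (.inl (a, b, e)) + ∑ b', F (.inr (.inr (a, b'))) := by
  unfold blockOf
  rw [hx, Finset.sum_filter, sum_LM]
  simp only [LM.sk, Sum.inl.injEq, reduceCtorEq, if_false, Finset.sum_const_zero, add_zero]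
  congr 1
  · rw [← aux_single (fun a b => ∑ e, F (.inl (a, b, e))) a]
    refine Finset.sum_congr rfl fun c _ => Finset.sum_congr rfl fun b _ => ?_
    split_ifs <;> simp
  · exact aux_single (fun a b' => F (.inr (.inr (a, b')))) a

/-- Block sums for the `s`-key at `a' ∈ A'`. -/
lemma sum_block_sk_A' (F : LM A A' B B' → ℝ) (x : LM A A' B B') (a : A') (hx : LM.sk x = .inr a) :
    ∑ y ∈ blockOf univ LM.sk x, F y = ∑ b, F (.inr (.inl (a, b))) := by
  unfold blockOf
  rw [hx, Finset.sum_filter, sum_LM]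
  simp only [LM.sk, Sum.inr.injEq, reduceCtorEq, if_false, Finset.sum_const_zero, zero_add,
    add_zero]
  exact aux_single (fun a b => F (.inr (.inl (a, b)))) a

/-- Card of blocks. -/
lemma card_block_tk_B (x : LM A A' B B') (b : B) (hx : LM.tk x = .inl b) :
    ((blockOf univ LM.tk x).card : ℝ) = 2 * (Fintype.card A : ℝ) + (Fintype.card A' : ℝ) := by
  rw [Finset.cast_card, sum_block_tk_B _ x b hx]
  simp; ring

lemma card_block_tk_B' (x : LM A A' B B') (b : B') (hx : LM.tk x = .inr b) :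
    ((blockOf univ LM.tk x).card : ℝ) = (Fintype.card A : ℝ) := by
  rw [Finset.cast_card, sum_block_tk_B' _ x b hx]
  simp

lemma card_block_sk_A (x : LM A A' B B') (a : A) (hx : LM.sk x = .inl a) :
    ((blockOf univ LM.sk x).card : ℝ) = 2 * (Fintype.card B : ℝ) + (Fintype.card B' : ℝ) := by
  rw [Finset.cast_card, sum_block_sk_A _ x a hx]
  simp; ring

lemma card_block_sk_A' (x : LM A A' B B') (a : A') (hx : LM.sk x = .inr a) :
    ((blockOf univ LM.sk x).card : ℝ) = (Fintype.card B : ℝ) := by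
  rw [Finset.cast_card, sum_block_sk_A' _ x a hx]
  simp

/-- `cexp` formulas. -/
lemma cexp_tk_B (F : LM A A' B B' → ℝ) (x : LM A A' B B') (b : B) (hx : LM.tk x = .inl b) :
    cexp univ LM.tk F x = (∑ a, ∑ e, F (.inl (a, b, e)) + ∑ a', F (.inr (.inl (a', b))))
      / (2 * (Fintype.card A : ℝ) + (Fintype.card A' : ℝ)) := by
  rw [cexp, sum_block_tk_B F x b hx, card_block_tk_B x b hx]

lemma cexp_tk_B' (F : LM A A' B B' → ℝ) (x : LM A A' B B') (b : B') (hx : LM.tk x = .inr b) :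
    cexp univ LM.tk F x = (∑ a, F (.inr (.inr (a, b)))) / (Fintype.card A : ℝ) := by
  rw [cexp, sum_block_tk_B' F x b hx, card_block_tk_B' x b hx]

lemma cexp_sk_A (F : LM A A' B B' → ℝ) (x : LM A A' B B') (a : A) (hx : LM.sk x = .inl a) :
    cexp univ LM.sk F x = (∑ b, ∑ e, F (.inl (a, b, e)) + ∑ b', F (.inr (.inr (a, b'))))
      / (2 * (Fintype.card B : ℝ) + (Fintype.card B' : ℝ)) := by
  rw [cexp, sum_block_sk_A F x a hx, card_block_sk_A x a hx]

lemma cexp_sk_A' (F : LM A A' B B' → ℝ) (x : LM A A' B B') (a : A') (hx : LM.sk x = .inr a) :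
    cexp univ LM.sk F x = (∑ b, F (.inr (.inl (a, b)))) / (Fintype.card B : ℝ) := by
  rw [cexp, sum_block_sk_A' F x a hx, card_block_sk_A' x a hx]

/-- Cell-constant functions. -/
def cellc (c1 c2 c3 : ℝ) : LM A A' B B' → ℝ
  | .inl _ => c1
  | .inr (.inl _) => c2
  | .inr (.inr _) => c3

lemma P_cellc (c1 c2 c3 : ℝ) (x : LM A A' B B') :
    cexp univ LM.tk (cellc c1 c2 c3) x =
      cellc ((2 * (Fintype.card A : ℝ) * c1 + (Fintype.card A' : ℝ) * c2)
              / (2 * (Fintype.card A : ℝ) + (Fintype.card A' : ℝ)))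
            ((2 * (Fintype.card A : ℝ) * c1 + (Fintype.card A' : ℝ) * c2)
              / (2 * (Fintype.card A : ℝ) + (Fintype.card A' : ℝ))) c3 x := by
  rcases x with ⟨a, b, e⟩ | ⟨a, b⟩ | ⟨a, b⟩
  · rw [cexp_tk_B _ _ b rfl]
    simp [cellc]; ring
  · rw [cexp_tk_B _ _ b rfl]
    simp [cellc]; ring
  · rw [cexp_tk_B' _ _ b rfl]
    have : (Fintype.card A : ℝ) ≠ 0 := by
      have : 0 < Fintype.card A := Fintype.card_pos_iff.2 ⟨a⟩
      positivity
    simp [cellc]; field_simp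

lemma Q_cellc (c1 c2 c3 : ℝ) (x : LM A A' B B') :
    cexp univ LM.sk (cellc c1 c2 c3) x =
      cellc ((2 * (Fintype.card B : ℝ) * c1 + (Fintype.card B' : ℝ) * c3)
              / (2 * (Fintype.card B : ℝ) + (Fintype.card B' : ℝ))) c2
            ((2 * (Fintype.card B : ℝ) * c1 + (Fintype.card B' : ℝ) * c3)
              / (2 * (Fintype.card B : ℝ) + (Fintype.card B' : ℝ))) x := by
  rcases x with ⟨a, b, e⟩ | ⟨a, b⟩ | ⟨a, b⟩
  · rw [cexp_sk_A _ _ a rfl]
    simp [cellc]; ring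
  · rw [cexp_sk_A' _ _ a rfl]
    have : (Fintype.card B : ℝ) ≠ 0 := by
      have : 0 < Fintype.card B := Fintype.card_pos_iff.2 ⟨b⟩
      positivity
    simp [cellc]; field_simp
  · rw [cexp_sk_A _ _ a rfl]
    simp [cellc]; ring

/-- Cell sums. -/
def cs1 (h : LM A A' B B' → ℝ) : ℝ := ∑ a, ∑ b, ∑ e, h (.inl (a, b, e))
def cs2 (h : LM A A' B B' → ℝ) : ℝ := ∑ a', ∑ b, h (.inr (.inl (a', b)))
def cs3 (h : LM A A' B B' → ℝ) : ℝ := ∑ a, ∑ b', h (.inr (.inr (a, b')))

lemma sum_cellc_mul (c1 c2 c3 : ℝ) (h : LM A A' B B' → ℝ) :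
    ∑ x, cellc c1 c2 c3 x * h x = c1 * cs1 h + c2 * cs2 h + c3 * cs3 h := by
  rw [sum_LM]
  simp only [cellc, cs1, cs2, cs3, Finset.mul_sum]

/-- `PQh = 0` for `h` with vanishing cell sums. -/
lemma PQ_zero (h : LM A A' B B' → ℝ) (h1 : cs1 h = 0) (h2 : cs2 h = 0) (h3 : cs3 h = 0)
    (x : LM A A' B B') : cexp univ LM.tk (cexp univ LM.sk h) x = 0 := by
  have hR : ∑ a, (∑ b, ∑ e, h (.inl (a, b, e)) + ∑ b', h (.inr (.inr (a, b')))) = 0 := by
    rw [Finset.sum_add_distrib]
    have e1 : ∑ a, ∑ b, ∑ e, h (.inl (a, b, e)) = cs1 h := rfl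
    have e3 : ∑ a, ∑ b', h (.inr (.inr (a, b'))) = cs3 h := rfl
    rw [e1, e3, h1, h3, add_zero]
  have hR' : ∑ a', ∑ b, h (.inr (.inl (a', b))) = 0 := h2
  rcases hk : LM.tk x with b | b
  · rw [cexp_tk_B _ x b hk]
    have e1 : ∀ a e, cexp univ LM.sk h (.inl (a, b, e)) =
        (∑ b, ∑ e, h (.inl (a, b, e)) + ∑ b', h (.inr (.inr (a, b'))))
          / (2 * (Fintype.card B : ℝ) + (Fintype.card B' : ℝ)) :=
      fun a e => cexp_sk_A h _ a rfl
    have e2 : ∀ a', cexp univ LM.sk h (.inr (.inl (a', b))) =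
        (∑ b, h (.inr (.inl (a', b)))) / (Fintype.card B : ℝ) :=
      fun a' => cexp_sk_A' h _ a' rfl
    simp only [e1, e2]
    rw [← Finset.sum_div, hR', zero_div, add_zero]
    simp only [Finset.sum_const, Finset.card_univ, Fintype.card_bool, nsmul_eq_mul]
    rw [← Finset.mul_sum, ← Finset.sum_div, hR]
    simp
  · rw [cexp_tk_B' _ x b hk]
    have e1 : ∀ a, cexp univ LM.sk h (.inr (.inr (a, b))) =
        (∑ b, ∑ e, h (.inl (a, b, e)) + ∑ b', h (.inr (.inr (a, b'))))
          / (2 * (Fintype.card B : ℝ) + (Fintype.card B' : ℝ)) :=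
      fun a => cexp_sk_A h _ a rfl
    simp only [e1]
    rw [← Finset.sum_div, hR]
    simp

/-- The abstract Hilbert lemma. -/
lemma hilbert_core {X κ₁ κ₂ : Type*} [Fintype X] [DecidableEq κ₁] [DecidableEq κ₂]
    (k1 : X → κ₁) (k2 : X → κ₂) (g u h : X → ℝ)
    (hPu : ∀ x, cexp univ k1 u x = 0) (hQu : ∀ x, cexp univ k2 u x = 0)
    (hug : ∑ x, u x * g x = 0) (huh : ∑ x, u x * h x = 0) (hgh : ∑ x, g x * h x = 0)
    (hPgh : ∑ x, cexp univ k1 g x * h x = 0) (hQgh : ∑ x, cexp univ k2 g x * h x = 0)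
    (hPQgh : ∑ x, cexp univ k1 (cexp univ k2 g) x * h x = 0)
    (hQPgh : ∑ x, cexp univ k2 (cexp univ k1 g) x * h x = 0)
    (hPQh : ∀ x, cexp univ k1 (cexp univ k2 h) x = 0) :
    ∑ x, u x ^ 2 + ∑ x, (g x - cexp univ k1 g x) * (g x - cexp univ k2 g x) ≤
    ∑ x, ((g x + u x + h x) - cexp univ k1 (fun y => g y + u y + h y) x)
        * ((g x + u x + h x) - cexp univ k2 (fun y => g y + u y + h y) x) := by
  set Pg := cexp univ k1 g with hPg
  set Qg := cexp univ k2 g with hQg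
  set Ph := cexp univ k1 h with hPh
  set Qh := cexp univ k2 h with hQh
  have e1 : ∀ x, cexp univ k1 (fun y => g y + u y + h y) x = Pg x + Ph x := by
    intro x
    rw [cexp_add (fun y => g y + u y) h, cexp_add g u, hPu]; simp [hPg, hPh]
  have e2 : ∀ x, cexp univ k2 (fun y => g y + u y + h y) x = Qg x + Qh x := by
    intro x
    rw [cexp_add (fun y => g y + u y) h, cexp_add g u, hQu]; simp [hQg, hQh]
  simp only [e1, e2]
  -- self-adjointness facts
  have sa1 : ∀ F : X → ℝ, ∑ x, cexp univ k1 F x * u x = 0 := by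
    intro F
    rw [← sum_mul_cexp_comm]; simp [hPu]
  have sa2 : ∀ F : X → ℝ, ∑ x, cexp univ k2 F x * u x = 0 := by
    intro F
    rw [← sum_mul_cexp_comm]; simp [hQu]
  -- the cross terms
  have T1 : ∑ x, (g x - Pg x) * u x = 0 := by
    have : ∑ x, (g x - Pg x) * u x = ∑ x, u x * g x - ∑ x, cexp univ k1 g x * u x := by
      rw [← Finset.sum_sub_distrib]; exact Finset.sum_congr rfl fun x _ => by simp only [hPg]; ring
    rw [this, hug, sa1]; simp
  have T3 : ∑ x, u x * (g x - Qg x) = 0 := by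
    have : ∑ x, u x * (g x - Qg x) = ∑ x, u x * g x - ∑ x, cexp univ k2 g x * u x := by
      rw [← Finset.sum_sub_distrib]; exact Finset.sum_congr rfl fun x _ => by simp only [hQg]; ring
    rw [this, hug, sa2]; simp
  have T4 : ∑ x, u x * (h x - Qh x) = 0 := by
    have : ∑ x, u x * (h x - Qh x) = ∑ x, u x * h x - ∑ x, cexp univ k2 h x * u x := by
      rw [← Finset.sum_sub_distrib]; exact Finset.sum_congr rfl fun x _ => by simp only [hQh]; ring
    rw [this, huh, sa2]; simp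
  have T6 : ∑ x, (h x - Ph x) * u x = 0 := by
    have : ∑ x, (h x - Ph x) * u x = ∑ x, u x * h x - ∑ x, cexp univ k1 h x * u x := by
      rw [← Finset.sum_sub_distrib]; exact Finset.sum_congr rfl fun x _ => by simp only [hPh]; ring
    rw [this, huh, sa1]; simp
  have T2 : ∑ x, (g x - Pg x) * (h x - Qh x) = 0 := by
    have h1 : ∑ x, g x * Qh x = ∑ x, Qg x * h x := sum_mul_cexp_comm univ k2 h g
    have h2 : ∑ x, Pg x * Qh x = ∑ x, cexp univ k2 Pg x * h x := sum_mul_cexp_comm univ k2 h Pg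
    have : ∑ x, (g x - Pg x) * (h x - Qh x)
        = ∑ x, g x * h x - ∑ x, g x * Qh x - ∑ x, Pg x * h x + ∑ x, Pg x * Qh x := by
      rw [← Finset.sum_sub_distrib, ← Finset.sum_sub_distrib, ← Finset.sum_add_distrib]
      exact Finset.sum_congr rfl fun x _ => by ring
    rw [this, h1, h2, hgh, hQgh, hPgh, hQPgh]; simp
  have T5 : ∑ x, (h x - Ph x) * (g x - Qg x) = 0 := by
    have h1 : ∑ x, Ph x * g x = ∑ x, Pg x * h x := by
      rw [show ∑ x, Ph x * g x = ∑ x, g x * Ph x from Finset.sum_congr rfl fun x _ => mul_comm _ _]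
      exact sum_mul_cexp_comm univ k1 h g
    have h2 : ∑ x, Ph x * Qg x = ∑ x, cexp univ k1 Qg x * h x := by
      rw [show ∑ x, Ph x * Qg x = ∑ x, Qg x * Ph x from Finset.sum_congr rfl fun x _ => mul_comm _ _]
      exact sum_mul_cexp_comm univ k1 h Qg
    have h3 : ∑ x, h x * g x = ∑ x, g x * h x := Finset.sum_congr rfl fun x _ => mul_comm _ _
    have h4 : ∑ x, h x * Qg x = ∑ x, Qg x * h x := Finset.sum_congr rfl fun x _ => mul_comm _ _
    have : ∑ x, (h x - Ph x) * (g x - Qg x)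
        = ∑ x, h x * g x - ∑ x, h x * Qg x - ∑ x, Ph x * g x + ∑ x, Ph x * Qg x := by
      rw [← Finset.sum_sub_distrib, ← Finset.sum_sub_distrib, ← Finset.sum_add_distrib]
      exact Finset.sum_congr rfl fun x _ => by ring
    rw [this, h1, h2, h3, h4, hgh, hQgh, hPgh, hPQgh]; simp
  have T7 : 0 ≤ ∑ x, (h x - Ph x) * (h x - Qh x) := by
    have s1 : ∑ x, Ph x ^ 2 = ∑ x, h x * Ph x := sum_cexp_sq univ k1 h
    have s2 : ∑ x, Qh x ^ 2 = ∑ x, h x * Qh x := sum_cexp_sq univ k2 h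
    have s3 : ∑ x, Ph x * Qh x = 0 := by
      have : ∑ x, Qh x * Ph x = ∑ x, cexp univ k1 Qh x * h x := sum_mul_cexp_comm univ k1 h Qh
      rw [show ∑ x, Ph x * Qh x = ∑ x, Qh x * Ph x from
        Finset.sum_congr rfl fun x _ => mul_comm _ _, this]
      simp only [hPQh, zero_mul, Finset.sum_const_zero]
    have s4 : ∑ x, (h x - Ph x) * (h x - Qh x) = ∑ x, (h x - Ph x - Qh x) ^ 2 := by
      have a1 : ∑ x, (h x - Ph x) * (h x - Qh x)
          = ∑ x, h x ^ 2 - ∑ x, h x * Qh x - ∑ x, h x * Ph x + ∑ x, Ph x * Qh x := by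
        rw [← Finset.sum_sub_distrib, ← Finset.sum_sub_distrib, ← Finset.sum_add_distrib]
        exact Finset.sum_congr rfl fun x _ => by ring
      have a2 : ∑ x, (h x - Ph x - Qh x) ^ 2
          = ∑ x, h x ^ 2 + ∑ x, Ph x ^ 2 + ∑ x, Qh x ^ 2 - 2 * ∑ x, h x * Ph x
            - 2 * ∑ x, h x * Qh x + 2 * ∑ x, Ph x * Qh x := by
        rw [Finset.mul_sum, Finset.mul_sum, Finset.mul_sum, ← Finset.sum_add_distrib,
          ← Finset.sum_add_distrib, ← Finset.sum_sub_distrib, ← Finset.sum_sub_distrib,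
          ← Finset.sum_add_distrib]
        exact Finset.sum_congr rfl fun x _ => by ring
      rw [a1, a2, s1, s2, s3]; ring
    rw [s4]; exact Finset.sum_nonneg fun x _ => sq_nonneg _
  have key : ∑ x, ((g x + u x + h x) - (Pg x + Ph x)) * ((g x + u x + h x) - (Qg x + Qh x))
      = ∑ x, (g x - Pg x) * (g x - Qg x) + ∑ x, u x ^ 2 + ∑ x, (g x - Pg x) * u x
        + ∑ x, (g x - Pg x) * (h x - Qh x) + ∑ x, u x * (g x - Qg x) + ∑ x, u x * (h x - Qh x)
        + ∑ x, (h x - Ph x) * (g x - Qg x) + ∑ x, (h x - Ph x) * u x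
        + ∑ x, (h x - Ph x) * (h x - Qh x) := by
    simp only [← Finset.sum_add_distrib]
    exact Finset.sum_congr rfl fun x _ => by ring
  rw [key, T1, T2, T3, T4, T5, T6]
  linarith

/-- Concrete decomposition data. -/
def mc1 (f : LM A A' B B' → ℝ) : ℝ :=
  cs1 f / (2 * (Fintype.card A : ℝ) * (Fintype.card B : ℝ))
def mc2 (f : LM A A' B B' → ℝ) : ℝ :=
  cs2 f / ((Fintype.card A' : ℝ) * (Fintype.card B : ℝ))
def mc3 (f : LM A A' B B' → ℝ) : ℝ :=
  cs3 f / ((Fintype.card A : ℝ) * (Fintype.card B' : ℝ))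

/-- The antisymmetric part. -/
def uPart (f : LM A A' B B' → ℝ) : LM A A' B B' → ℝ
  | .inl (a, b, e) => (f (.inl (a, b, e)) - f (.inl (a, b, !e))) / 2
  | .inr _ => 0

def gPart (f : LM A A' B B' → ℝ) : LM A A' B B' → ℝ := cellc (mc1 f) (mc2 f) (mc3 f)

def hPart (f : LM A A' B B' → ℝ) : LM A A' B B' → ℝ := fun x => f x - gPart f x - uPart f x

lemma sum_bool_uPart (f : LM A A' B B' → ℝ) (a : A) (b : B) :
    ∑ e, uPart f (.inl (a, b, e)) = 0 := by
  simp [uPart]; ring

lemma cs1_uPart (f : LM A A' B B' → ℝ) : cs1 (uPart f) = 0 := by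
  simp only [cs1, sum_bool_uPart, Finset.sum_const_zero]

lemma cs2_uPart (f : LM A A' B B' → ℝ) : cs2 (uPart f) = 0 := by
  simp [cs2, uPart]

lemma cs3_uPart (f : LM A A' B B' → ℝ) : cs3 (uPart f) = 0 := by
  simp [cs3, uPart]

lemma cs1_gPart (f : LM A A' B B' → ℝ) : cs1 (gPart f) = cs1 f := by
  simp only [cs1, gPart, cellc]
  simp only [Finset.sum_const, Finset.card_univ, Fintype.card_bool, nsmul_eq_mul, mc1, cs1]
  by_cases hA : (Fintype.card A : ℝ) = 0
  · have : IsEmpty A := by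
      have : Fintype.card A = 0 := by exact_mod_cast hA
      exact Fintype.card_eq_zero_iff.1 this
    simp
  by_cases hB : (Fintype.card B : ℝ) = 0
  · have : IsEmpty B := by
      have : Fintype.card B = 0 := by exact_mod_cast hB
      exact Fintype.card_eq_zero_iff.1 this
    simp
  push_cast
  field_simp

lemma cs2_gPart (f : LM A A' B B' → ℝ) : cs2 (gPart f) = cs2 f := by
  simp only [cs2, gPart, cellc]
  simp only [Finset.sum_const, Finset.card_univ, nsmul_eq_mul, mc2, cs2]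
  by_cases hA : (Fintype.card A' : ℝ) = 0
  · have : IsEmpty A' := by
      have : Fintype.card A' = 0 := by exact_mod_cast hA
      exact Fintype.card_eq_zero_iff.1 this
    simp
  by_cases hB : (Fintype.card B : ℝ) = 0
  · have : IsEmpty B := by
      have : Fintype.card B = 0 := by exact_mod_cast hB
      exact Fintype.card_eq_zero_iff.1 this
    simp
  field_simp

lemma cs3_gPart (f : LM A A' B B' → ℝ) : cs3 (gPart f) = cs3 f := by
  simp only [cs3, gPart, cellc]
  simp only [Finset.sum_const, Finset.card_univ, nsmul_eq_mul, mc3, cs3]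
  by_cases hA : (Fintype.card A : ℝ) = 0
  · have : IsEmpty A := by
      have : Fintype.card A = 0 := by exact_mod_cast hA
      exact Fintype.card_eq_zero_iff.1 this
    simp
  by_cases hB : (Fintype.card B' : ℝ) = 0
  · have : IsEmpty B' := by
      have : Fintype.card B' = 0 := by exact_mod_cast hB
      exact Fintype.card_eq_zero_iff.1 this
    simp
  field_simp

lemma cs1_sub (F G : LM A A' B B' → ℝ) : cs1 (fun x => F x - G x) = cs1 F - cs1 G := by
  simp only [cs1, Finset.sum_sub_distrib]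

lemma cs2_sub (F G : LM A A' B B' → ℝ) : cs2 (fun x => F x - G x) = cs2 F - cs2 G := by
  simp only [cs2, Finset.sum_sub_distrib]

lemma cs3_sub (F G : LM A A' B B' → ℝ) : cs3 (fun x => F x - G x) = cs3 F - cs3 G := by
  simp only [cs3, Finset.sum_sub_distrib]

lemma cs1_hPart (f : LM A A' B B' → ℝ) : cs1 (hPart f) = 0 := by
  have : hPart f = fun x => (fun x => f x - gPart f x) x - uPart f x := rfl
  rw [this, cs1_sub, cs1_sub, cs1_gPart, cs1_uPart]; ring

lemma cs2_hPart (f : LM A A' B B' → ℝ) : cs2 (hPart f) = 0 := by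
  have : hPart f = fun x => (fun x => f x - gPart f x) x - uPart f x := rfl
  rw [this, cs2_sub, cs2_sub, cs2_gPart, cs2_uPart]; ring

lemma cs3_hPart (f : LM A A' B B' → ℝ) : cs3 (hPart f) = 0 := by
  have : hPart f = fun x => (fun x => f x - gPart f x) x - uPart f x := rfl
  rw [this, cs3_sub, cs3_sub, cs3_gPart, cs3_uPart]; ring

lemma P_uPart (f : LM A A' B B' → ℝ) (x : LM A A' B B') :
    cexp univ LM.tk (uPart f) x = 0 := by
  rcases hk : LM.tk x with b | b
  · rw [cexp_tk_B _ x b hk]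
    simp only [sum_bool_uPart, Finset.sum_const_zero]
    simp [uPart]
  · rw [cexp_tk_B' _ x b hk]
    simp [uPart]

lemma Q_uPart (f : LM A A' B B' → ℝ) (x : LM A A' B B') :
    cexp univ LM.sk (uPart f) x = 0 := by
  rcases hk : LM.sk x with a | a
  · rw [cexp_sk_A _ x a hk]
    simp only [sum_bool_uPart, Finset.sum_const_zero]
    simp [uPart]
  · rw [cexp_sk_A' _ x a hk]
    simp [uPart]

lemma sum_uPart_sq (f : LM A A' B B' → ℝ) :
    ∑ x, uPart f x ^ 2
      = (1 / 4) * ∑ a : A, ∑ b : B, ∑ e : Bool,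
        (f (.inl (a, b, e)) - f (.inl (a, b, !e))) ^ 2 := by
  rw [sum_LM]
  simp only [uPart]
  simp only [Finset.mul_sum]
  have : ∀ x : ℝ, (x / 2) ^ 2 = 1 / 4 * x ^ 2 := fun x => by ring
  simp only [this]
  simp

lemma sum_uPart_mul_self (f : LM A A' B B' → ℝ) :
    ∑ x, uPart f x * f x = ∑ x, uPart f x ^ 2 := by
  rw [sum_LM, sum_LM]
  simp only [uPart, zero_mul, ne_eq, OfNat.ofNat_ne_zero, not_false_eq_true, zero_pow,
    Finset.sum_const_zero, add_zero]
  apply Finset.sum_congr rfl; intro a _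
  apply Finset.sum_congr rfl; intro b _
  simp only [Fintype.sum_bool, Bool.not_true, Bool.not_false]
  ring

/-! ### The weights -/

lemma filter_sum_tk_B (F : LM A A' B B' → ℝ) (x : LM A A' B B') (b : B) (hx : LM.tk x = .inl b) :
    ∑ y ∈ (blockOf univ LM.tk x).filter LM.isA, F y = ∑ a, ∑ e, F (.inl (a, b, e)) := by
  rw [Finset.sum_filter, sum_block_tk_B _ x b hx]
  simp [LM.isA]

lemma filter_nsum_tk_B (F : LM A A' B B' → ℝ) (x : LM A A' B B') (b : B)
    (hx : LM.tk x = .inl b) :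
    ∑ y ∈ (blockOf univ LM.tk x).filter (fun y => ¬ LM.isA y), F y
      = ∑ a', F (.inr (.inl (a', b))) := by
  rw [Finset.sum_filter, sum_block_tk_B _ x b hx]
  simp [LM.isA]

lemma filter_sum_sk_A (F : LM A A' B B' → ℝ) (x : LM A A' B B') (a : A) (hx : LM.sk x = .inl a) :
    ∑ y ∈ (blockOf univ LM.sk x).filter LM.isB, F y = ∑ b, ∑ e, F (.inl (a, b, e)) := by
  rw [Finset.sum_filter, sum_block_sk_A _ x a hx]
  simp [LM.isB]

lemma filter_nsum_sk_A (F : LM A A' B B' → ℝ) (x : LM A A' B B') (a : A)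
    (hx : LM.sk x = .inl a) :
    ∑ y ∈ (blockOf univ LM.sk x).filter (fun y => ¬ LM.isB y), F y
      = ∑ b', F (.inr (.inr (a, b'))) := by
  rw [Finset.sum_filter, sum_block_sk_A _ x a hx]
  simp [LM.isB]

/-- The `t`-difference. -/
def UU (f : LM A A' B B' → ℝ) (b : B) : ℝ :=
  (∑ a, ∑ e, f (.inl (a, b, e))) / (2 * (Fintype.card A : ℝ))
    - (∑ a', f (.inr (.inl (a', b)))) / (Fintype.card A' : ℝ)

/-- The `s`-difference. -/
def VV (f : LM A A' B B' → ℝ) (a : A) : ℝ :=
  (∑ b, ∑ e, f (.inl (a, b, e))) / (2 * (Fintype.card B : ℝ))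
    - (∑ b', f (.inr (.inr (a, b')))) / (Fintype.card B' : ℝ)

lemma wFun_tk_B (f : LM A A' B B' → ℝ) (x : LM A A' B B') (b : B) (hx : LM.tk x = .inl b) :
    wFun univ LM.tk LM.isA f x
      = (2 * (Fintype.card A : ℝ) * (Fintype.card A' : ℝ)
          / (2 * (Fintype.card A : ℝ) + (Fintype.card A' : ℝ)) ^ 2) * UU f b ^ 2 := by
  have h1 : (((blockOf univ LM.tk x).filter LM.isA).card : ℝ) = 2 * (Fintype.card A : ℝ) := by
    rw [Finset.cast_card, filter_sum_tk_B _ x b hx]
    simp; ring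
  have h2 : (((blockOf univ LM.tk x).filter (fun y => ¬ LM.isA y)).card : ℝ)
      = (Fintype.card A' : ℝ) := by
    rw [Finset.cast_card, filter_nsum_tk_B _ x b hx]
    simp
  unfold wFun
  rw [h1, h2, card_block_tk_B x b hx, filter_sum_tk_B f x b hx, filter_nsum_tk_B f x b hx, UU]

lemma wFun_sk_A (f : LM A A' B B' → ℝ) (x : LM A A' B B') (a : A) (hx : LM.sk x = .inl a) :
    wFun univ LM.sk LM.isB f x
      = (2 * (Fintype.card B : ℝ) * (Fintype.card B' : ℝ)
          / (2 * (Fintype.card B : ℝ) + (Fintype.card B' : ℝ)) ^ 2) * VV f a ^ 2 := by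
  have h1 : (((blockOf univ LM.sk x).filter LM.isB).card : ℝ) = 2 * (Fintype.card B : ℝ) := by
    rw [Finset.cast_card, filter_sum_sk_A _ x a hx]
    simp; ring
  have h2 : (((blockOf univ LM.sk x).filter (fun y => ¬ LM.isB y)).card : ℝ)
      = (Fintype.card B' : ℝ) := by
    rw [Finset.cast_card, filter_nsum_sk_A _ x a hx]
    simp
  unfold wFun
  rw [h1, h2, card_block_sk_A x a hx, filter_sum_sk_A f x a hx, filter_nsum_sk_A f x a hx, VV]

lemma sum_wt (f : LM A A' B B' → ℝ) :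
    ∑ x : LM A A' B B', (if LM.isB x then wFun univ LM.tk LM.isA f x else 0)
      = ((2 * (Fintype.card A : ℝ) + (Fintype.card A' : ℝ))
          * (2 * (Fintype.card A : ℝ) * (Fintype.card A' : ℝ)
            / (2 * (Fintype.card A : ℝ) + (Fintype.card A' : ℝ)) ^ 2))
        * ∑ b, UU f b ^ 2 := by
  rw [sum_LM]
  have e1 : ∀ a b e, (if LM.isB (.inl (a, b, e) : LM A A' B B')
      then wFun univ LM.tk LM.isA f (.inl (a, b, e)) else 0) = _ :=
    fun a b e => (if_pos trivial).trans (wFun_tk_B f _ b rfl)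
  have e2 : ∀ a b, (if LM.isB (.inr (.inl (a, b)) : LM A A' B B')
      then wFun univ LM.tk LM.isA f (.inr (.inl (a, b))) else 0) = _ :=
    fun a b => (if_pos trivial).trans (wFun_tk_B f _ b rfl)
  have e3 : ∀ a b, (if LM.isB (.inr (.inr (a, b)) : LM A A' B B')
      then wFun univ LM.tk LM.isA f (.inr (.inr (a, b))) else 0) = 0 :=
    fun a b => if_neg (fun h => h)
  simp only [e1, e2, e3, Finset.sum_const_zero, add_zero]
  simp only [Finset.sum_const, Finset.card_univ, Fintype.card_bool, nsmul_eq_mul, ← Finset.mul_sum]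
  push_cast
  ring

lemma sum_ws (f : LM A A' B B' → ℝ) :
    ∑ x : LM A A' B B', (if LM.isA x then wFun univ LM.sk LM.isB f x else 0)
      = ((2 * (Fintype.card B : ℝ) + (Fintype.card B' : ℝ))
          * (2 * (Fintype.card B : ℝ) * (Fintype.card B' : ℝ)
            / (2 * (Fintype.card B : ℝ) + (Fintype.card B' : ℝ)) ^ 2))
        * ∑ a, VV f a ^ 2 := by
  rw [sum_LM]
  have e1 : ∀ a b e, (if LM.isA (.inl (a, b, e) : LM A A' B B')
      then wFun univ LM.sk LM.isB f (.inl (a, b, e)) else 0) = _ :=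
    fun a b e => (if_pos trivial).trans (wFun_sk_A f _ a rfl)
  have e2 : ∀ a b, (if LM.isA (.inr (.inr (a, b)) : LM A A' B B')
      then wFun univ LM.sk LM.isB f (.inr (.inr (a, b))) else 0) = _ :=
    fun a b => (if_pos trivial).trans (wFun_sk_A f _ a rfl)
  have e3 : ∀ a b, (if LM.isA (.inr (.inl (a, b)) : LM A A' B B')
      then wFun univ LM.sk LM.isB f (.inr (.inl (a, b))) else 0) = 0 :=
    fun a b => if_neg (fun h => h)
  simp only [e1, e2, e3, Finset.sum_const_zero, add_zero]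
  simp only [Finset.sum_const, Finset.card_univ, Fintype.card_bool, nsmul_eq_mul, ← Finset.mul_sum]
  push_cast
  ring

lemma sum_UU (f : LM A A' B B' → ℝ) :
    ∑ b, UU f b = cs1 f / (2 * (Fintype.card A : ℝ)) - cs2 f / (Fintype.card A' : ℝ) := by
  simp only [UU, Finset.sum_sub_distrib, ← Finset.sum_div]
  rw [cs1, cs2, Finset.sum_comm (f := fun b a => ∑ e, f (.inl (a, b, e))),
    Finset.sum_comm (f := fun b a => f (.inr (.inl (a, b))))]

lemma sum_VV (f : LM A A' B B' → ℝ) :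
    ∑ a, VV f a = cs1 f / (2 * (Fintype.card B : ℝ)) - cs3 f / (Fintype.card B' : ℝ) := by
  simp only [VV, Finset.sum_sub_distrib, ← Finset.sum_div]
  rw [cs1, cs3]

/-- Jensen for the `t`-differences. -/
lemma wt_lower (f : LM A A' B B' → ℝ) :
    (2 * (Fintype.card A : ℝ) * (Fintype.card A' : ℝ) * (Fintype.card B : ℝ)
        / (2 * (Fintype.card A : ℝ) + (Fintype.card A' : ℝ))) * (mc1 f - mc2 f) ^ 2
      ≤ ∑ x : LM A A' B B', (if LM.isB x then wFun univ LM.tk LM.isA f x else 0) := by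
  rw [sum_wt]
  set α : ℝ := (Fintype.card A : ℝ) with hα
  set α' : ℝ := (Fintype.card A' : ℝ) with hα'
  set β : ℝ := (Fintype.card B : ℝ) with hβ
  have hα0 : 0 ≤ α := by positivity
  have hα'0 : 0 ≤ α' := by positivity
  have hβ0 : 0 ≤ β := by positivity
  by_cases hz : α = 0 ∨ α' = 0 ∨ β = 0
  · have : 2 * α * α' * β / (2 * α + α') * (mc1 f - mc2 f) ^ 2 = 0 := by
      rcases hz with h | h | h <;> simp [h]
    rw [this]
    apply mul_nonneg
    · positivity
    · exact Finset.sum_nonneg fun b _ => sq_nonneg _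
  push Not at hz
  obtain ⟨h1, h2, h3⟩ := hz
  have ha : 0 < α := lt_of_le_of_ne hα0 (Ne.symm h1)
  have ha' : 0 < α' := lt_of_le_of_ne hα'0 (Ne.symm h2)
  have hb : 0 < β := lt_of_le_of_ne hβ0 (Ne.symm h3)
  have hD : 0 < 2 * α + α' := by positivity
  have hsum : ∑ b, UU f b = β * (mc1 f - mc2 f) := by
    rw [sum_UU, mc1, mc2, ← hα, ← hα', ← hβ]
    field_simp
  have hCS : (∑ b, UU f b) ^ 2 ≤ β * ∑ b, UU f b ^ 2 := by
    have := sq_sum_le_card_mul_sum_sq (s := (univ : Finset B)) (f := UU f)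
    simpa [hβ] using this
  rw [hsum] at hCS
  have hkey : β * (mc1 f - mc2 f) ^ 2 ≤ ∑ b, UU f b ^ 2 := by
    have : β * (β * (mc1 f - mc2 f) ^ 2) ≤ β * ∑ b, UU f b ^ 2 := by nlinarith
    exact le_of_mul_le_mul_left this hb
  have e : (2 * α + α') * (2 * α * α' / (2 * α + α') ^ 2) = 2 * α * α' / (2 * α + α') := by
    field_simp
  rw [e]
  have e2 : 2 * α * α' * β / (2 * α + α') * (mc1 f - mc2 f) ^ 2
      = (2 * α * α' / (2 * α + α')) * (β * (mc1 f - mc2 f) ^ 2) := by ring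
  rw [e2]
  exact mul_le_mul_of_nonneg_left hkey (by positivity)

/-- Jensen for the `s`-differences. -/
lemma ws_lower (f : LM A A' B B' → ℝ) :
    (2 * (Fintype.card B : ℝ) * (Fintype.card B' : ℝ) * (Fintype.card A : ℝ)
        / (2 * (Fintype.card B : ℝ) + (Fintype.card B' : ℝ))) * (mc1 f - mc3 f) ^ 2
      ≤ ∑ x : LM A A' B B', (if LM.isA x then wFun univ LM.sk LM.isB f x else 0) := by
  rw [sum_ws]
  set β : ℝ := (Fintype.card B : ℝ) with hβ
  set β' : ℝ := (Fintype.card B' : ℝ) with hβ'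
  set α : ℝ := (Fintype.card A : ℝ) with hα
  have hα0 : 0 ≤ α := by positivity
  have hβ'0 : 0 ≤ β' := by positivity
  have hβ0 : 0 ≤ β := by positivity
  by_cases hz : β = 0 ∨ β' = 0 ∨ α = 0
  · have : 2 * β * β' * α / (2 * β + β') * (mc1 f - mc3 f) ^ 2 = 0 := by
      rcases hz with h | h | h <;> simp [h]
    rw [this]
    apply mul_nonneg
    · positivity
    · exact Finset.sum_nonneg fun b _ => sq_nonneg _
  push Not at hz
  obtain ⟨h1, h2, h3⟩ := hz
  have ha : 0 < β := lt_of_le_of_ne hβ0 (Ne.symm h1)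
  have ha' : 0 < β' := lt_of_le_of_ne hβ'0 (Ne.symm h2)
  have hb : 0 < α := lt_of_le_of_ne hα0 (Ne.symm h3)
  have hD : 0 < 2 * β + β' := by positivity
  have hsum : ∑ b, VV f b = α * (mc1 f - mc3 f) := by
    rw [sum_VV, mc1, mc3, ← hα, ← hβ', ← hβ]
    field_simp
  have hCS : (∑ b, VV f b) ^ 2 ≤ α * ∑ b, VV f b ^ 2 := by
    have := sq_sum_le_card_mul_sum_sq (s := (univ : Finset A)) (f := VV f)
    simpa [hα] using this
  rw [hsum] at hCS
  have hkey : α * (mc1 f - mc3 f) ^ 2 ≤ ∑ b, VV f b ^ 2 := by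
    have : α * (α * (mc1 f - mc3 f) ^ 2) ≤ α * ∑ b, VV f b ^ 2 := by nlinarith
    exact le_of_mul_le_mul_left this hb
  have e : (2 * β + β') * (2 * β * β' / (2 * β + β') ^ 2) = 2 * β * β' / (2 * β + β') := by
    field_simp
  rw [e]
  have e2 : 2 * β * β' * α / (2 * β + β') * (mc1 f - mc3 f) ^ 2
      = (2 * β * β' / (2 * β + β')) * (α * (mc1 f - mc3 f) ^ 2) := by ring
  rw [e2]
  exact mul_le_mul_of_nonneg_left hkey (by positivity)

/-- The explicit `g`-term. -/
lemma sum_g_terms (c1 c2 c3 : ℝ) :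
    ∑ x : LM A A' B B', (cellc c1 c2 c3 x - cexp univ LM.tk (cellc c1 c2 c3) x)
        * (cellc c1 c2 c3 x - cexp univ LM.sk (cellc c1 c2 c3) x)
      = 2 * (Fintype.card A : ℝ) * (Fintype.card B : ℝ)
        * ((c1 - (2 * (Fintype.card A : ℝ) * c1 + (Fintype.card A' : ℝ) * c2)
              / (2 * (Fintype.card A : ℝ) + (Fintype.card A' : ℝ)))
           * (c1 - (2 * (Fintype.card B : ℝ) * c1 + (Fintype.card B' : ℝ) * c3)
              / (2 * (Fintype.card B : ℝ) + (Fintype.card B' : ℝ)))) := by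
  simp only [P_cellc, Q_cellc]
  rw [sum_LM]
  simp [cellc]
  ring

/-- The final numeric inequality. -/
lemma final_num (α α' β β' c1 c2 c3 : ℝ) (hα : 0 ≤ α) (hα' : 0 ≤ α') (hβ : 0 ≤ β) (hβ' : 0 ≤ β') :
    0 ≤ 2 * α * β * ((c1 - (2 * α * c1 + α' * c2) / (2 * α + α'))
            * (c1 - (2 * β * c1 + β' * c3) / (2 * β + β')))
      + (1 / 2) * ((2 * α * α' * β / (2 * α + α')) * (c1 - c2) ^ 2)
      + (1 / 2) * ((2 * β * β' * α / (2 * β + β')) * (c1 - c3) ^ 2) := by
  by_cases h1 : α = 0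
  · simp [h1]
  by_cases h2 : β = 0
  · simp [h2]
  have ha : 0 < α := lt_of_le_of_ne hα (Ne.symm h1)
  have hb : 0 < β := lt_of_le_of_ne hβ (Ne.symm h2)
  have hD : 0 < 2 * α + α' := by positivity
  have hD' : 0 < 2 * β + β' := by positivity
  set x := α' / (2 * α + α') with hx
  set y := β' / (2 * β + β') with hy
  have hx0 : 0 ≤ x := by positivity
  have hy0 : 0 ≤ y := by positivity
  have hx1 : x ≤ 1 := by
    rw [hx, div_le_one hD]; linarith
  have hy1 : y ≤ 1 := by
    rw [hy, div_le_one hD']; linarith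
  have e1 : c1 - (2 * α * c1 + α' * c2) / (2 * α + α') = x * (c1 - c2) := by
    rw [hx]; field_simp; ring
  have e2 : c1 - (2 * β * c1 + β' * c3) / (2 * β + β') = y * (c1 - c3) := by
    rw [hy]; field_simp; ring
  have e3 : 2 * α * α' * β / (2 * α + α') = 2 * α * β * x := by
    rw [hx]; field_simp
  have e4 : 2 * β * β' * α / (2 * β + β') = 2 * α * β * y := by
    rw [hy]; field_simp
  rw [e1, e2, e3, e4]
  set U := c1 - c2
  set V := c1 - c3
  have key : 0 ≤ x * y * U * V + (1 / 2) * x * U ^ 2 + (1 / 2) * y * V ^ 2 := by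
    have p1 : 0 ≤ x * y * (U + V) ^ 2 := by positivity
    have p2 : 0 ≤ x * (1 - y) * U ^ 2 := mul_nonneg (mul_nonneg hx0 (by linarith)) (sq_nonneg _)
    have p3 : 0 ≤ y * (1 - x) * V ^ 2 := mul_nonneg (mul_nonneg hy0 (by linarith)) (sq_nonneg _)
    nlinarith [p1, p2, p3]
  have : 2 * α * β * (x * U * (y * V)) + 1 / 2 * (2 * α * β * x * U ^ 2)
        + 1 / 2 * (2 * α * β * y * V ^ 2)
      = 2 * α * β * (x * y * U * V + (1 / 2) * x * U ^ 2 + (1 / 2) * y * V ^ 2) := by ring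
  rw [this]
  positivity

end LMaux

open LMaux in
/-- The main model inequality. -/
theorem lm_ineq (f : LM A A' B B' → ℝ) :
    (1 / 4) * ∑ a : A, ∑ b : B, ∑ e : Bool,
        (f (.inl (a, b, e)) - f (.inl (a, b, !e))) ^ 2
      - (1 / 2) * ∑ x : LM A A' B B', (if LM.isB x then wFun univ LM.tk LM.isA f x else 0)
      - (1 / 2) * ∑ x : LM A A' B B', (if LM.isA x then wFun univ LM.sk LM.isB f x else 0)
    ≤ ∑ x : LM A A' B B', (f x - cexp univ LM.tk f x) * (f x - cexp univ LM.sk f x) := by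
  have hfdec : (fun y => gPart f y + uPart f y + hPart f y) = f := by
    funext y; simp only [hPart]; ring
  have hfdec' : ∀ y, gPart f y + uPart f y + hPart f y = f y := fun y => congrFun hfdec y
  have hPg : cexp univ LM.tk (gPart f) = cellc _ _ _ := funext (P_cellc (mc1 f) (mc2 f) (mc3 f))
  have hQg : cexp univ LM.sk (gPart f) = cellc _ _ _ := funext (Q_cellc (mc1 f) (mc2 f) (mc3 f))
  have hzero : ∀ c1 c2 c3 : ℝ, ∑ x, cellc c1 c2 c3 x * hPart f x = 0 := by
    intro c1 c2 c3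
    rw [sum_cellc_mul, cs1_hPart, cs2_hPart, cs3_hPart]; ring
  have H := hilbert_core LM.tk LM.sk (gPart f) (uPart f) (hPart f)
    (P_uPart f) (Q_uPart f)
    (by
      have : ∑ x, gPart f x * uPart f x = 0 := by
        unfold gPart
        rw [sum_cellc_mul, cs1_uPart, cs2_uPart, cs3_uPart]; ring
      rw [← this]
      exact Finset.sum_congr rfl fun x _ => mul_comm _ _)
    (by
      have e1 : ∑ x, gPart f x * uPart f x = 0 := by
        unfold gPart
        rw [sum_cellc_mul, cs1_uPart, cs2_uPart, cs3_uPart]; ring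
      have e2 := sum_uPart_mul_self f
      have : ∑ x, uPart f x * hPart f x
          = ∑ x, uPart f x * f x - ∑ x, gPart f x * uPart f x - ∑ x, uPart f x ^ 2 := by
        rw [← Finset.sum_sub_distrib, ← Finset.sum_sub_distrib]
        exact Finset.sum_congr rfl fun x _ => by simp only [hPart]; ring
      rw [this, e1, e2]; ring)
    (hzero _ _ _)
    (by rw [hPg]; exact hzero _ _ _)
    (by rw [hQg]; exact hzero _ _ _)
    (by rw [hQg, funext (P_cellc _ _ _)]; exact hzero _ _ _)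
    (by rw [hPg, funext (Q_cellc _ _ _)]; exact hzero _ _ _)
    (PQ_zero (hPart f) (cs1_hPart f) (cs2_hPart f) (cs3_hPart f))
  rw [hfdec] at H
  simp only [hfdec'] at H
  rw [sum_uPart_sq] at H
  have hg : ∑ x, (gPart f x - cexp univ LM.tk (gPart f) x)
        * (gPart f x - cexp univ LM.sk (gPart f) x) = _ := sum_g_terms (mc1 f) (mc2 f) (mc3 f)
  rw [hg] at H
  have w1 := wt_lower f
  have w2 := ws_lower f
  have num := final_num (Fintype.card A : ℝ) (Fintype.card A' : ℝ) (Fintype.card B : ℝ)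
    (Fintype.card B' : ℝ) (mc1 f) (mc2 f) (mc3 f) (by positivity) (by positivity) (by positivity)
    (by positivity)
  linarith

end

end Crest.Agent.SW
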