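/-
S0453 project: combinatorial models of the joint fibres (case distinction on the cycle sum).
See SWPLAN.md, piece ENCJ.
-/
import Crest.Agent.SWEncJ1
import Crest.Agent.SWLM

set_option autoImplicit false
set_option linter.unusedSimpArgs false
set_option linter.unusedSectionVars false
set_option linter.unusedVariables false

open Finset
open Crest.SwitchChain

namespace Crest.Agent.SW

noncomputable section

open scoped Classical

variable {n : ℕ}

/-- Abstract validity of a configuration. -/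
def Vld (F1 F2 : Finset (Fin n)) (K L σ : ℕ) (x : Conf n) : Prop :=
  x.s ⊆ F1 ∧ x.t ⊆ F2 ∧ x.s.card + x.p.toNat + x.q.toNat = K ∧
    x.t.card + x.p.toNat + x.r.toNat = L ∧ x.p.toNat + x.q.toNat + x.r.toNat + x.w.toNat = σ

/-! ### The case `σ = 2` -/

/-- Subsets of size `K - 1`. -/
abbrev SA (F : Finset (Fin n)) (K : ℕ) := {s : Finset (Fin n) // s ⊆ F ∧ s.card + 1 = K}

/-- Subsets of size `K` or `K - 2`. -/
abbrev SA' (F : Finset (Fin n)) (K : ℕ) :=
  {s : Finset (Fin n) // s ⊆ F ∧ (s.card = K ∨ s.card + 2 = K)}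

variable {F1 F2 : Finset (Fin n)} {K L : ℕ}

/-- The configuration of a model point for `σ = 2`. -/
def conf2 (F1 F2 : Finset (Fin n)) (K L : ℕ) :
    LM (SA F1 K) (SA' F1 K) (SA F2 L) (SA' F2 L) → Conf n
  | .inl (s, t, e) => ⟨s.1, t.1, e, !e, !e, e⟩
  | .inr (.inl (s, t)) =>
      if s.1.card + 2 = K then ⟨s.1, t.1, true, true, false, false⟩
      else ⟨s.1, t.1, false, false, true, true⟩
  | .inr (.inr (s, t)) =>
      if t.1.card + 2 = L then ⟨s.1, t.1, true, false, true, false⟩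
      else ⟨s.1, t.1, false, true, false, true⟩

/-- The `s` of a model point. -/
def sOf2 : LM (SA F1 K) (SA' F1 K) (SA F2 L) (SA' F2 L) → Finset (Fin n)
  | .inl (s, _, _) => s.1
  | .inr (.inl (s, _)) => s.1
  | .inr (.inr (s, _)) => s.1

/-- The `t` of a model point. -/
def tOf2 : LM (SA F1 K) (SA' F1 K) (SA F2 L) (SA' F2 L) → Finset (Fin n)
  | .inl (_, t, _) => t.1
  | .inr (.inl (_, t)) => t.1
  | .inr (.inr (_, t)) => t.1

lemma conf2_s (x : LM (SA F1 K) (SA' F1 K) (SA F2 L) (SA' F2 L)) :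
    (conf2 F1 F2 K L x).s = sOf2 x := by
  rcases x with ⟨s, t, e⟩ | ⟨s, t⟩ | ⟨s, t⟩ <;> simp only [conf2, sOf2] <;> (try split_ifs) <;> rfl

lemma conf2_t (x : LM (SA F1 K) (SA' F1 K) (SA F2 L) (SA' F2 L)) :
    (conf2 F1 F2 K L x).t = tOf2 x := by
  rcases x with ⟨s, t, e⟩ | ⟨s, t⟩ | ⟨s, t⟩ <;> simp only [conf2, tOf2] <;> (try split_ifs) <;> rfl

lemma conf2_valid (x : LM (SA F1 K) (SA' F1 K) (SA F2 L) (SA' F2 L)) :
    Vld F1 F2 K L 2 (conf2 F1 F2 K L x) := by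
  rcases x with ⟨⟨s, hs, hs'⟩, ⟨t, ht, ht'⟩, e⟩ | ⟨⟨s, hs, hs'⟩, ⟨t, ht, ht'⟩⟩ | ⟨⟨s, hs, hs'⟩, ⟨t, ht, ht'⟩⟩
  · cases e <;> simp only [conf2, Vld] <;> refine ⟨hs, ht, ?_, ?_, ?_⟩ <;> simp <;> omega
  · simp only [conf2]
    split_ifs with h
    · simp only [Vld]; refine ⟨hs, ht, ?_, ?_, ?_⟩ <;> simp <;> omega
    · simp only [Vld]; refine ⟨hs, ht, ?_, ?_, ?_⟩ <;> simp <;> omega
  · simp only [conf2]
    split_ifs with h
    · simp only [Vld]; refine ⟨hs, ht, ?_, ?_, ?_⟩ <;> simp <;> omega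
    · simp only [Vld]; refine ⟨hs, ht, ?_, ?_, ?_⟩ <;> simp <;> omega

lemma conf2_surj (y : Conf n) (hy : Vld F1 F2 K L 2 y) :
    ∃ x : LM (SA F1 K) (SA' F1 K) (SA F2 L) (SA' F2 L), conf2 F1 F2 K L x = y := by
  obtain ⟨s, t, p, q, r, w⟩ := y
  obtain ⟨hs, ht, h1, h2, h3⟩ := hy
  simp only at hs ht h1 h2 h3
  cases p <;> cases q <;> cases r <;> cases w <;> simp at h1 h2 h3
  · -- p q r w = f f t t
    refine ⟨.inr (.inl (⟨s, hs, Or.inl (by omega)⟩, ⟨t, ht, by omega⟩)), ?_⟩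
    simp only [conf2]
    rw [if_neg (by omega)]
  · -- f t f t
    refine ⟨.inr (.inr (⟨s, hs, by omega⟩, ⟨t, ht, Or.inl (by omega)⟩)), ?_⟩
    simp only [conf2]
    rw [if_neg (by omega)]
  · -- f t t f
    exact ⟨.inl (⟨s, hs, by omega⟩, ⟨t, ht, by omega⟩, false), rfl⟩
  · -- t f f t
    exact ⟨.inl (⟨s, hs, by omega⟩, ⟨t, ht, by omega⟩, true), rfl⟩
  · -- t f t f
    refine ⟨.inr (.inr (⟨s, hs, by omega⟩, ⟨t, ht, Or.inr (by omega)⟩)), ?_⟩
    simp only [conf2]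
    rw [if_pos (by omega)]
  · -- t t f f
    refine ⟨.inr (.inl (⟨s, hs, Or.inr (by omega)⟩, ⟨t, ht, by omega⟩)), ?_⟩
    simp only [conf2]
    rw [if_pos (by omega)]

lemma conf2_inj : Function.Injective (conf2 F1 F2 K L) := by
  intro x x' he
  have hs : sOf2 x = sOf2 x' := by rw [← conf2_s, ← conf2_s, he]
  have ht : tOf2 x = tOf2 x' := by rw [← conf2_t, ← conf2_t, he]
  rcases x with ⟨s, t, e⟩ | ⟨s, t⟩ | ⟨s, t⟩ <;> rcases x' with ⟨s', t', e'⟩ | ⟨s', t'⟩ | ⟨s', t'⟩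
  · simp only [sOf2, tOf2] at hs ht
    have hs' : s = s' := Subtype.ext hs
    have ht' : t = t' := Subtype.ext ht
    subst hs' ht'
    simp only [conf2] at he
    have : e = e' := congrArg Conf.p he
    rw [this]
  · exfalso
    simp only [conf2] at he
    split_ifs at he <;> cases e <;> simp [Conf.ext_iff] at he
  · exfalso
    simp only [conf2] at he
    split_ifs at he <;> cases e <;> simp [Conf.ext_iff] at he
  · exfalso
    simp only [conf2] at he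
    split_ifs at he <;> cases e' <;> simp [Conf.ext_iff] at he
  · simp only [sOf2, tOf2] at hs ht
    have hs' : s = s' := Subtype.ext hs
    have ht' : t = t' := Subtype.ext ht
    rw [hs', ht']
  · exfalso
    simp only [conf2] at he
    split_ifs at he <;> simp [Conf.ext_iff] at he
  · exfalso
    simp only [conf2] at he
    split_ifs at he <;> cases e' <;> simp [Conf.ext_iff] at he
  · exfalso
    simp only [conf2] at he
    split_ifs at he <;> simp [Conf.ext_iff] at he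
  · simp only [sOf2, tOf2] at hs ht
    have hs' : s = s' := Subtype.ext hs
    have ht' : t = t' := Subtype.ext ht
    rw [hs', ht']

lemma tk2_iff (x x' : LM (SA F1 K) (SA' F1 K) (SA F2 L) (SA' F2 L)) :
    LM.tk x = LM.tk x' ↔ (conf2 F1 F2 K L x).t = (conf2 F1 F2 K L x').t := by
  rw [conf2_t, conf2_t]
  rcases x with ⟨s, ⟨t, ht, ht'⟩, e⟩ | ⟨s, ⟨t, ht, ht'⟩⟩ | ⟨s, ⟨t, ht, ht'⟩⟩ <;>
  rcases x' with ⟨s', ⟨t', hu, hu'⟩, e'⟩ | ⟨s', ⟨t', hu, hu'⟩⟩ | ⟨s', ⟨t', hu, hu'⟩⟩ <;>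
  simp only [LM.tk, tOf2, Sum.inl.injEq, Sum.inr.injEq, Subtype.mk.injEq, reduceCtorEq, false_iff] <;>
  (intro heq; subst heq; omega)

lemma sk2_iff (x x' : LM (SA F1 K) (SA' F1 K) (SA F2 L) (SA' F2 L)) :
    LM.sk x = LM.sk x' ↔ (conf2 F1 F2 K L x).s = (conf2 F1 F2 K L x').s := by
  rw [conf2_s, conf2_s]
  rcases x with ⟨⟨s, ht, ht'⟩, t, e⟩ | ⟨⟨s, ht, ht'⟩, t⟩ | ⟨⟨s, ht, ht'⟩, t⟩ <;>
  rcases x' with ⟨⟨s', hu, hu'⟩, t', e'⟩ | ⟨⟨s', hu, hu'⟩, t'⟩ | ⟨⟨s', hu, hu'⟩, t'⟩ <;>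
  simp only [LM.sk, sOf2, Sum.inl.injEq, Sum.inr.injEq, Subtype.mk.injEq, reduceCtorEq, false_iff] <;>
  (intro heq; subst heq; omega)

/-- Bits of a model point. -/
lemma conf2_inl (s : SA F1 K) (t : SA F2 L) (e : Bool) :
    conf2 F1 F2 K L (.inl (s, t, e)) = ⟨s.1, t.1, e, !e, !e, e⟩ := rfl

/-- The flip of the configuration in cell 11 is the opposite point. -/
lemma conf2_flip (s : SA F1 K) (t : SA F2 L) (e : Bool) :
    (conf2 F1 F2 K L (.inl (s, t, e))).flip = conf2 F1 F2 K L (.inl (s, t, !e)) := by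
  cases e <;> rfl

/-- Bit pattern of cell 10. -/
lemma conf2_10 (s : SA' F1 K) (t : SA F2 L) :
    let x := conf2 F1 F2 K L (.inr (.inl (s, t)))
    x.p = x.q ∧ x.r = x.w ∧ x.p ≠ x.r := by
  simp only [conf2]
  split_ifs <;> simp

/-- Bit pattern of cell 01. -/
lemma conf2_01 (s : SA F1 K) (t : SA' F2 L) :
    let x := conf2 F1 F2 K L (.inr (.inr (s, t)))
    x.p = x.r ∧ x.q = x.w ∧ x.p ≠ x.q := by
  simp only [conf2]
  split_ifs <;> simp

/-! ### The case `σ ≠ 2` -/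

/-- The admissible row (or column) counts for a given cycle sum `σ ≠ 2`. -/
def okR : ℕ → ℕ → Bool
  | 0, r => r == 0
  | 1, r => r == 0 || r == 1
  | 3, r => r == 1 || r == 2
  | 4, r => r == 2
  | _, _ => false

/-- The unique cycle bits with sum `σ`, row count `r` and column count `q`. -/
def tbl : ℕ → ℕ → ℕ → Bool × Bool × Bool × Bool
  | 0, _, _ => (false, false, false, false)
  | 1, r, q => (r == 1 && q == 1, r == 1 && q == 0, r == 0 && q == 1, r == 0 && q == 0)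
  | 3, r, q => (!(r == 1 && q == 1), !(r == 1 && q == 2), !(r == 2 && q == 1), !(r == 2 && q == 2))
  | _, _, _ => (true, true, true, true)

lemma okR_bound {σ r : ℕ} (h : okR σ r = true) : σ < 5 ∧ r < 3 := by
  match σ, h with
  | 0, h => simp [okR] at h; omega
  | 1, h => simp [okR] at h; omega
  | 3, h => simp [okR] at h; omega
  | 4, h => simp [okR] at h; omega
  | 2, h => simp [okR] at h
  | (k + 5), h => simp [okR] at h

theorem tbl_sound_aux : ∀ σ ∈ Finset.range 5, ∀ r ∈ Finset.range 3, ∀ q ∈ Finset.range 3,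
    okR σ r = true → okR σ q = true →
      (tbl σ r q).1.toNat + (tbl σ r q).2.1.toNat = r ∧
      (tbl σ r q).1.toNat + (tbl σ r q).2.2.1.toNat = q ∧
      (tbl σ r q).1.toNat + (tbl σ r q).2.1.toNat + (tbl σ r q).2.2.1.toNat
        + (tbl σ r q).2.2.2.toNat = σ := by
  decide

lemma tbl_sound {σ r q : ℕ} (h1 : okR σ r = true) (h2 : okR σ q = true) :
    (tbl σ r q).1.toNat + (tbl σ r q).2.1.toNat = r ∧
      (tbl σ r q).1.toNat + (tbl σ r q).2.2.1.toNat = q ∧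
      (tbl σ r q).1.toNat + (tbl σ r q).2.1.toNat + (tbl σ r q).2.2.1.toNat
        + (tbl σ r q).2.2.2.toNat = σ :=
  tbl_sound_aux σ (Finset.mem_range.2 (okR_bound h1).1) r (Finset.mem_range.2 (okR_bound h1).2)
    q (Finset.mem_range.2 (okR_bound h2).2) h1 h2

theorem tbl_complete : ∀ p q r w : Bool, p.toNat + q.toNat + r.toNat + w.toNat ≠ 2 →
    okR (p.toNat + q.toNat + r.toNat + w.toNat) (p.toNat + q.toNat) = true ∧
    okR (p.toNat + q.toNat + r.toNat + w.toNat) (p.toNat + r.toNat) = true ∧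
    tbl (p.toNat + q.toNat + r.toNat + w.toNat) (p.toNat + q.toNat) (p.toNat + r.toNat)
      = (p, q, r, w) := by
  decide

theorem bits_fr : ∀ p q r w : Bool, p ≠ r → q ≠ w → p.toNat + q.toNat + r.toNat + w.toNat = 2 := by
  decide

theorem bits_fr' : ∀ p q r w : Bool, p ≠ q → r ≠ w → p.toNat + q.toNat + r.toNat + w.toNat = 2 := by
  decide

/-- Subsets with an admissible count. -/
abbrev SP (F : Finset (Fin n)) (K σ : ℕ) :=
  {s : Finset (Fin n) // s ⊆ F ∧ ∃ r, okR σ r = true ∧ s.card + r = K}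

variable {σ : ℕ}

/-- The configuration of a model point for `σ ≠ 2`. -/
def conf3 (F1 F2 : Finset (Fin n)) (K L σ : ℕ) : LM Empty (SP F1 K σ) (SP F2 L σ) Empty → Conf n
  | .inl (a, _, _) => a.elim
  | .inr (.inl (s, t)) =>
      ⟨s.1, t.1, (tbl σ (K - s.1.card) (L - t.1.card)).1, (tbl σ (K - s.1.card) (L - t.1.card)).2.1,
        (tbl σ (K - s.1.card) (L - t.1.card)).2.2.1, (tbl σ (K - s.1.card) (L - t.1.card)).2.2.2⟩
  | .inr (.inr (a, _)) => a.elim

lemma conf3_valid (x : LM Empty (SP F1 K σ) (SP F2 L σ) Empty) :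
    Vld F1 F2 K L σ (conf3 F1 F2 K L σ x) := by
  rcases x with ⟨a, _, _⟩ | ⟨⟨s, hs, r, hr, hr'⟩, ⟨t, ht, q, hq, hq'⟩⟩ | ⟨a, _⟩
  · exact a.elim
  · have e1 : K - s.card = r := by omega
    have e2 : L - t.card = q := by omega
    obtain ⟨h1, h2, h3⟩ := tbl_sound hr hq
    simp only [conf3, Vld, e1, e2]
    refine ⟨hs, ht, ?_, ?_, h3⟩ <;> omega
  · exact a.elim

lemma conf3_surj (y : Conf n) (hy : Vld F1 F2 K L σ y) (hσ : σ ≠ 2) :
    ∃ x : LM Empty (SP F1 K σ) (SP F2 L σ) Empty, conf3 F1 F2 K L σ x = y := by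
  obtain ⟨s, t, p, q, r, w⟩ := y
  obtain ⟨hs, ht, h1, h2, h3⟩ := hy
  simp only at hs ht h1 h2 h3
  subst h3
  obtain ⟨c1, c2, c3⟩ := tbl_complete p q r w hσ
  refine ⟨.inr (.inl (⟨s, hs, _, c1, by omega⟩, ⟨t, ht, _, c2, by omega⟩)), ?_⟩
  have e1 : K - s.card = p.toNat + q.toNat := by omega
  have e2 : L - t.card = p.toNat + r.toNat := by omega
  simp only [conf3, e1, e2, c3]

lemma conf3_inj : Function.Injective (conf3 F1 F2 K L σ) := by
  intro x x' he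
  rcases x with ⟨a, _, _⟩ | ⟨s, t⟩ | ⟨a, _⟩
  · exact a.elim
  · rcases x' with ⟨a, _, _⟩ | ⟨s', t'⟩ | ⟨a, _⟩
    · exact a.elim
    · have hs : s.1 = s'.1 := congrArg Conf.s he
      have ht : t.1 = t'.1 := congrArg Conf.t he
      rw [Subtype.ext hs, Subtype.ext ht]
    · exact a.elim
  · exact a.elim

lemma tk3_iff (x x' : LM Empty (SP F1 K σ) (SP F2 L σ) Empty) :
    LM.tk x = LM.tk x' ↔ (conf3 F1 F2 K L σ x).t = (conf3 F1 F2 K L σ x').t := by
  rcases x with ⟨a, _, _⟩ | ⟨s, t⟩ | ⟨a, _⟩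
  · exact a.elim
  · rcases x' with ⟨a, _, _⟩ | ⟨s', t'⟩ | ⟨a, _⟩
    · exact a.elim
    · simp [LM.tk, conf3, Subtype.ext_iff]
    · exact a.elim
  · exact a.elim

lemma sk3_iff (x x' : LM Empty (SP F1 K σ) (SP F2 L σ) Empty) :
    LM.sk x = LM.sk x' ↔ (conf3 F1 F2 K L σ x).s = (conf3 F1 F2 K L σ x').s := by
  rcases x with ⟨a, _, _⟩ | ⟨s, t⟩ | ⟨a, _⟩
  · exact a.elim
  · rcases x' with ⟨a, _, _⟩ | ⟨s', t'⟩ | ⟨a, _⟩
    · exact a.elim
    · simp [LM.sk, conf3, Subtype.ext_iff]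
    · exact a.elim
  · exact a.elim

end

end Crest.Agent.SW
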