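/-
S0453 project: encoding of joint fibres of two disjoint row pairs into the L-model.
See SWPLAN.md, piece ENCJ.
-/
import Crest.Agent.SWEnc3
import Crest.Agent.SWEncJ2

set_option autoImplicit false
set_option linter.unusedSimpArgs false
set_option linter.unusedSectionVars false
set_option linter.unusedVariables false
open Finset
open Crest.SwitchChain

namespace Crest.Agent.SW

noncomputable section

open scoped Classical

section transfer

variable {α X κ κ' : Type*} [Fintype X] [DecidableEq α] [DecidableEq κ] [DecidableEq κ']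
  {Ω : Finset α} {key : α → κ} {ι : X → α} {key' : X → κ'}

lemma cexp_transfer (hι : Function.Injective ι) (f : α → ℝ) {x : X}
    (hb : blockOf Ω key (ι x) = (blockOf univ key' x).image ι) :
    cexp Ω key f (ι x) = cexp univ key' (fun y => f (ι y)) x := by
  unfold cexp
  rw [hb, Finset.sum_image hι.injOn, Finset.card_image_of_injective _ hι]

lemma wFun_transfer (hι : Function.Injective ι) {P : α → Prop} [DecidablePred P] {P' : X → Prop}
    [DecidablePred P'] (hP : ∀ y, P (ι y) ↔ P' y) (f : α → ℝ) {x : X}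
    (hb : blockOf Ω key (ι x) = (blockOf univ key' x).image ι) :
    wFun Ω key P f (ι x) = wFun univ key' P' (fun y => f (ι y)) x := by
  have e1 : (blockOf Ω key (ι x)).filter P = ((blockOf univ key' x).filter P').image ι := by
    rw [hb, Finset.filter_image]
    congr 1
    exact Finset.filter_congr (fun y _ => hP y)
  have e2 : (blockOf Ω key (ι x)).filter (fun y => ¬ P y)
      = ((blockOf univ key' x).filter (fun y => ¬ P' y)).image ι := by
    rw [hb, Finset.filter_image]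
    congr 1
    exact Finset.filter_congr (fun y _ => not_congr (hP y))
  unfold wFun
  rw [e1, e2, hb, Finset.sum_image hι.injOn, Finset.sum_image hι.injOn,
    Finset.card_image_of_injective _ hι, Finset.card_image_of_injective _ hι,
    Finset.card_image_of_injective _ hι]

end transfer

variable {n : ℕ} {a b c d : Fin n}

lemma valid_iff_vld {G₀ : Gr n} {x : Conf n} :
    Valid G₀ a b c d x ↔
      Vld (FF G₀ a b c d a b) (FF G₀ a b c d c d)
        ((confOf G₀ a b c d G₀).s.card + (confOf G₀ a b c d G₀).p.toNat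
          + (confOf G₀ a b c d G₀).q.toNat)
        ((confOf G₀ a b c d G₀).t.card + (confOf G₀ a b c d G₀).p.toNat
          + (confOf G₀ a b c d G₀).r.toNat)
        ((confOf G₀ a b c d G₀).p.toNat + (confOf G₀ a b c d G₀).q.toNat
          + (confOf G₀ a b c d G₀).r.toNat + (confOf G₀ a b c d G₀).w.toNat) x :=
  ⟨fun h => ⟨h.hs, h.ht, h.h1, h.h2, h.h3⟩, fun h => ⟨h.1, h.2.1, h.2.2.1, h.2.2.2.1, h.2.2.2.2⟩⟩

section model

variable {A A' B B' : Type*} [Fintype A] [Fintype A'] [Fintype B] [Fintype B']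
  [DecidableEq A] [DecidableEq A'] [DecidableEq B] [DecidableEq B']

/-- A model of the fibre of `G₀`. -/
structure Model (G₀ : Gr n) (a b c d : Fin n) (conf : LM A A' B B' → Conf n) : Prop where
  hv : ∀ x, Valid G₀ a b c d (conf x)
  hinj : Function.Injective conf
  hsurj : ∀ y, Valid G₀ a b c d y → ∃ x, conf x = y
  htk : ∀ x x', LM.tk x = LM.tk x' ↔ (conf x).t = (conf x').t
  hsk : ∀ x x', LM.sk x = LM.sk x' ↔ (conf x).s = (conf x').s

variable {G₀ : Gr n} {conf : LM A A' B B' → Conf n} {D : Fin n → ℕ}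

lemma Model.ι_inj (M : Model G₀ a b c d conf) (h : Dist4 a b c d) :
    Function.Injective (fun x => enc G₀ a b c d (conf x)) := by
  intro x x' he
  exact M.hinj (enc_inj h (M.hv x).hs (M.hv x).ht (M.hv x').hs (M.hv x').ht he)

lemma Model.ι_mem (M : Model G₀ a b c d conf) (h : Dist4 a b c d) (hG₀ : G₀ ∈ realizations D)
    (x : LM A A' B B') : enc G₀ a b c d (conf x) ∈ realizations D :=
  enc_mem_of_valid h hG₀ (M.hv x)

lemma Model.ι_fib (M : Model G₀ a b c d conf) (h : Dist4 a b c d) (x : LM A A' B B') :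
    SameFib a b c d (enc G₀ a b c d (conf x)) G₀ :=
  sameFib_enc h (M.hv x).hs (M.hv x).ht

lemma Model.ι_surj (M : Model G₀ a b c d conf) (h : Dist4 a b c d) (hG₀ : G₀ ∈ realizations D)
    {G : Gr n} (hG : G ∈ realizations D) (hf : SameFib a b c d G G₀) :
    ∃ x, enc G₀ a b c d (conf x) = G := by
  obtain ⟨x, hx⟩ := M.hsurj _ (valid_confOf h hG₀ hG hf)
  exact ⟨x, by rw [hx]; exact enc_confOf h hf⟩

lemma Model.block_eq (M : Model G₀ a b c d conf) (h : Dist4 a b c d) (hG₀ : G₀ ∈ realizations D) :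
    blockOf (realizations D) (fibKey a b c d) G₀
      = (univ : Finset (LM A A' B B')).image (fun x => enc G₀ a b c d (conf x)) := by
  ext G
  simp only [mem_blockOf, Finset.mem_image, Finset.mem_univ, true_and, fibKey_eq_iff]
  constructor
  · rintro ⟨hG, hf⟩
    exact M.ι_surj h hG₀ hG hf
  · rintro ⟨x, rfl⟩
    exact ⟨M.ι_mem h hG₀ x, M.ι_fib h x⟩

lemma Model.blk_ab (M : Model G₀ a b c d conf) (h : Dist4 a b c d) (hG₀ : G₀ ∈ realizations D)
    (x : LM A A' B B') :
    blockOf (realizations D) (keyOff {a, b}) (enc G₀ a b c d (conf x))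
      = (blockOf univ LM.tk x).image (fun y => enc G₀ a b c d (conf y)) := by
  ext G
  simp only [mem_blockOf, Finset.mem_image, Finset.mem_univ, true_and]
  constructor
  · rintro ⟨hG, hk⟩
    have hf : SameFib a b c d G G₀ :=
      (sameFib_of_keyOff_ab h hG (M.ι_mem h hG₀ x) hk).trans (M.ι_fib h x)
    obtain ⟨y, rfl⟩ := M.ι_surj h hG₀ hG hf
    exact ⟨y, (M.htk y x).2 ((keyOff_ab_enc h (M.hv y).ht (M.hv x).ht).1 hk), rfl⟩
  · rintro ⟨y, hy, rfl⟩
    exact ⟨M.ι_mem h hG₀ y, (keyOff_ab_enc h (M.hv y).ht (M.hv x).ht).2 ((M.htk y x).1 hy)⟩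

lemma Model.blk_cd (M : Model G₀ a b c d conf) (h : Dist4 a b c d) (hG₀ : G₀ ∈ realizations D)
    (x : LM A A' B B') :
    blockOf (realizations D) (keyOff {c, d}) (enc G₀ a b c d (conf x))
      = (blockOf univ LM.sk x).image (fun y => enc G₀ a b c d (conf y)) := by
  ext G
  simp only [mem_blockOf, Finset.mem_image, Finset.mem_univ, true_and]
  constructor
  · rintro ⟨hG, hk⟩
    have hf : SameFib a b c d G G₀ :=
      (sameFib_of_keyOff_cd h hG (M.ι_mem h hG₀ x) hk).trans (M.ι_fib h x)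
    obtain ⟨y, rfl⟩ := M.ι_surj h hG₀ hG hf
    exact ⟨y, (M.hsk y x).2 ((keyOff_cd_enc h (M.hv y).hs (M.hv x).hs).1 hk), rfl⟩
  · rintro ⟨y, hy, rfl⟩
    exact ⟨M.ι_mem h hG₀ y, (keyOff_cd_enc h (M.hv y).hs (M.hv x).hs).2 ((M.hsk y x).1 hy)⟩

lemma Model.sum_block (M : Model G₀ a b c d conf) (h : Dist4 a b c d) (hG₀ : G₀ ∈ realizations D)
    (Φ : Gr n → ℝ) :
    ∑ G ∈ blockOf (realizations D) (fibKey a b c d) G₀, Φ G
      = ∑ x, Φ (enc G₀ a b c d (conf x)) := by
  rw [M.block_eq h hG₀, Finset.sum_image (M.ι_inj h).injOn]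

lemma Model.Iop_ab (M : Model G₀ a b c d conf) (h : Dist4 a b c d) (hG₀ : G₀ ∈ realizations D)
    (f : Gr n → ℝ) (x : LM A A' B B') :
    Iop D {a, b} f (enc G₀ a b c d (conf x))
      = f (enc G₀ a b c d (conf x))
        - cexp univ LM.tk (fun y => f (enc G₀ a b c d (conf y))) x := by
  unfold Iop Eop
  rw [cexp_transfer (ι := fun y => enc G₀ a b c d (conf y)) (M.ι_inj h) f (M.blk_ab h hG₀ x)]

lemma Model.Iop_cd (M : Model G₀ a b c d conf) (h : Dist4 a b c d) (hG₀ : G₀ ∈ realizations D)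
    (f : Gr n → ℝ) (x : LM A A' B B') :
    Iop D {c, d} f (enc G₀ a b c d (conf x))
      = f (enc G₀ a b c d (conf x))
        - cexp univ LM.sk (fun y => f (enc G₀ a b c d (conf y))) x := by
  unfold Iop Eop
  rw [cexp_transfer (ι := fun y => enc G₀ a b c d (conf y)) (M.ι_inj h) f (M.blk_cd h hG₀ x)]

lemma Model.Wt_ab (M : Model G₀ a b c d conf) (h : Dist4 a b c d) (hG₀ : G₀ ∈ realizations D)
    (f : Gr n → ℝ) (hk : ∀ y, kap (enc G₀ a b c d (conf y)) a c d ↔ LM.isA y) (x : LM A A' B B') :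
    Wt D f a b c d (enc G₀ a b c d (conf x))
      = wFun univ LM.tk LM.isA (fun y => f (enc G₀ a b c d (conf y))) x := by
  unfold Wt
  exact wFun_transfer (ι := fun y => enc G₀ a b c d (conf y)) (M.ι_inj h) hk f (M.blk_ab h hG₀ x)

lemma Model.Wt_cd (M : Model G₀ a b c d conf) (h : Dist4 a b c d) (hG₀ : G₀ ∈ realizations D)
    (f : Gr n → ℝ) (hk : ∀ y, kap (enc G₀ a b c d (conf y)) c a b ↔ LM.isB y) (x : LM A A' B B') :
    Wt D f c d a b (enc G₀ a b c d (conf x))
      = wFun univ LM.sk LM.isB (fun y => f (enc G₀ a b c d (conf y))) x := by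
  unfold Wt
  exact wFun_transfer (ι := fun y => enc G₀ a b c d (conf y)) (M.ι_inj h) hk f (M.blk_cd h hG₀ x)

end model

/-- The summand on the left side of the disjoint inequality. -/
def lhsTerm (D : Fin n → ℕ) (f : Gr n → ℝ) (a b c d : Fin n) (G : Gr n) : ℝ :=
  (1 / 4) * (if alt G a b c d then (f G - f (tog G a b c d)) ^ 2 else 0)
    - (1 / 2) * (if fr G a b c d then Wt D f a b c d G else 0)
    - (1 / 2) * (if fr G c d a b then Wt D f c d a b G else 0)

/-- The fibre inequality when the cycle sum is not `2`: product structure. -/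
lemma fibre_other (D : Fin n → ℕ) (f : Gr n → ℝ) (h : Dist4 a b c d) {G₀ : Gr n}
    (hG₀ : G₀ ∈ realizations D) {σ K L : ℕ}
    (hK : K = (confOf G₀ a b c d G₀).s.card + (confOf G₀ a b c d G₀).p.toNat
          + (confOf G₀ a b c d G₀).q.toNat)
    (hL : L = (confOf G₀ a b c d G₀).t.card + (confOf G₀ a b c d G₀).p.toNat
          + (confOf G₀ a b c d G₀).r.toNat)
    (hσ' : σ = (confOf G₀ a b c d G₀).p.toNat + (confOf G₀ a b c d G₀).q.toNat
          + (confOf G₀ a b c d G₀).r.toNat + (confOf G₀ a b c d G₀).w.toNat)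
    (hσ : σ ≠ 2) :
    ∑ G ∈ blockOf (realizations D) (fibKey a b c d) G₀, lhsTerm D f a b c d G
      ≤ ∑ G ∈ blockOf (realizations D) (fibKey a b c d) G₀,
          Iop D {a, b} f G * Iop D {c, d} f G := by
  set F1 := FF G₀ a b c d a b with hF1
  set F2 := FF G₀ a b c d c d with hF2
  have M : Model G₀ a b c d (conf3 F1 F2 K L σ) := by
    refine ⟨fun x => ?_, conf3_inj, fun y hy => ?_, tk3_iff, sk3_iff⟩
    · rw [valid_iff_vld, ← hK, ← hL, ← hσ']
      exact conf3_valid x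
    · rw [valid_iff_vld, ← hK, ← hL, ← hσ'] at hy
      exact conf3_surj y hy hσ
  rw [M.sum_block h hG₀, M.sum_block h hG₀]
  set g : LM Empty (SP F1 K σ) (SP F2 L σ) Empty → ℝ :=
    fun y => f (enc G₀ a b c d (conf3 F1 F2 K L σ y)) with hg
  have hlm := lm_ineq g
  have hsumv : ∀ x, (conf3 F1 F2 K L σ x).p.toNat + (conf3 F1 F2 K L σ x).q.toNat
      + (conf3 F1 F2 K L σ x).r.toNat + (conf3 F1 F2 K L σ x).w.toNat = σ :=
    fun x => (conf3_valid x).2.2.2.2
  have hzero : ∀ x, lhsTerm D f a b c d (enc G₀ a b c d (conf3 F1 F2 K L σ x)) = 0 := by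
    intro x
    have hs := hsumv x
    have h1 : ¬ alt (enc G₀ a b c d (conf3 F1 F2 K L σ x)) a b c d := by
      rw [alt_enc h]
      rintro (⟨h1, h2, h3, h4⟩ | ⟨h1, h2, h3, h4⟩)
      · rw [h1, h2, h3, h4] at hs
        exact hσ (by simpa using hs.symm)
      · rw [h1, h2, h3, h4] at hs
        exact hσ (by simpa using hs.symm)
    have h2 : ¬ fr (enc G₀ a b c d (conf3 F1 F2 K L σ x)) a b c d := by
      rw [fr_enc h]
      rintro ⟨h1, h2⟩
      exact hσ (hs ▸ bits_fr _ _ _ _ h1 h2)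
    have h3 : ¬ fr (enc G₀ a b c d (conf3 F1 F2 K L σ x)) c d a b := by
      rw [fr_enc' h]
      rintro ⟨h1, h2⟩
      exact hσ (hs ▸ bits_fr' _ _ _ _ h1 h2)
    simp [lhsTerm, h1, h2, h3]
  have hA : ∀ y : LM Empty (SP F1 K σ) (SP F2 L σ) Empty, ¬ LM.isA y := by
    intro y
    rcases y with ⟨a, _, _⟩ | ⟨s, t⟩ | ⟨a, _⟩
    · exact a.elim
    · simp [LM.isA]
    · exact a.elim
  have hlhs0 : (1 / 4 : ℝ) * ∑ a' : Empty, ∑ b' : SP F2 L σ, ∑ e : Bool,
        (g (.inl (a', b', e)) - g (.inl (a', b', !e))) ^ 2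
      - (1 / 2) * ∑ x : LM Empty (SP F1 K σ) (SP F2 L σ) Empty,
          (if LM.isB x then wFun univ LM.tk LM.isA g x else 0)
      - (1 / 2) * ∑ x : LM Empty (SP F1 K σ) (SP F2 L σ) Empty,
          (if LM.isA x then wFun univ LM.sk LM.isB g x else 0) = 0 := by
    have e1 : ∀ x : LM Empty (SP F1 K σ) (SP F2 L σ) Empty,
        (if LM.isB x then wFun univ LM.tk LM.isA g x else 0) = 0 := by
      intro x
      have : ((blockOf univ LM.tk x).filter LM.isA) = ∅ := by
        rw [Finset.filter_eq_empty_iff]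
        exact fun y _ => hA y
      split_ifs
      · simp [wFun, this]
      · rfl
    have e2 : ∀ x : LM Empty (SP F1 K σ) (SP F2 L σ) Empty,
        (if LM.isA x then wFun univ LM.sk LM.isB g x else 0) = 0 := by
      intro x
      rw [if_neg (hA x)]
    simp [e1, e2]
  rw [hlhs0] at hlm
  simp only [hzero, Finset.sum_const_zero]
  refine hlm.trans (le_of_eq ?_)
  refine Finset.sum_congr rfl (fun x _ => ?_)
  rw [M.Iop_ab h hG₀, M.Iop_cd h hG₀]

/-- The fibre inequality when the cycle sum is `2`: the L-shaped model. -/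
lemma fibre_two (D : Fin n → ℕ) (f : Gr n → ℝ) (h : Dist4 a b c d) {G₀ : Gr n}
    (hG₀ : G₀ ∈ realizations D) {K L : ℕ}
    (hK : K = (confOf G₀ a b c d G₀).s.card + (confOf G₀ a b c d G₀).p.toNat
          + (confOf G₀ a b c d G₀).q.toNat)
    (hL : L = (confOf G₀ a b c d G₀).t.card + (confOf G₀ a b c d G₀).p.toNat
          + (confOf G₀ a b c d G₀).r.toNat)
    (hσ' : 2 = (confOf G₀ a b c d G₀).p.toNat + (confOf G₀ a b c d G₀).q.toNat
          + (confOf G₀ a b c d G₀).r.toNat + (confOf G₀ a b c d G₀).w.toNat) :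
    ∑ G ∈ blockOf (realizations D) (fibKey a b c d) G₀, lhsTerm D f a b c d G
      ≤ ∑ G ∈ blockOf (realizations D) (fibKey a b c d) G₀,
          Iop D {a, b} f G * Iop D {c, d} f G := by
  set F1 := FF G₀ a b c d a b with hF1
  set F2 := FF G₀ a b c d c d with hF2
  have M : Model G₀ a b c d (conf2 F1 F2 K L) := by
    refine ⟨fun x => ?_, conf2_inj, fun y hy => ?_, tk2_iff, sk2_iff⟩
    · rw [valid_iff_vld, ← hK, ← hL, ← hσ']
      exact conf2_valid x
    · rw [valid_iff_vld, ← hK, ← hL, ← hσ'] at hy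
      exact conf2_surj y hy
  rw [M.sum_block h hG₀, M.sum_block h hG₀]
  set g : LM (SA F1 K) (SA' F1 K) (SA F2 L) (SA' F2 L) → ℝ :=
    fun y => f (enc G₀ a b c d (conf2 F1 F2 K L y)) with hg
  have hlm := lm_ineq g
  have hkA : ∀ y, kap (enc G₀ a b c d (conf2 F1 F2 K L y)) a c d ↔ LM.isA y := by
    intro y
    rw [kap_enc h]
    rcases y with ⟨s, t, e⟩ | ⟨s, t⟩ | ⟨s, t⟩
    · cases e <;> simp [conf2, LM.isA]
    · obtain ⟨h1, h2, h3⟩ := conf2_10 (F1 := F1) (F2 := F2) (K := K) (L := L) s t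
      simp only [LM.isA, iff_false, ne_eq, not_not]
      exact h1
    · obtain ⟨h1, h2, h3⟩ := conf2_01 (F1 := F1) (F2 := F2) (K := K) (L := L) s t
      simp only [LM.isA, iff_true]
      exact h3
  have hkB : ∀ y, kap (enc G₀ a b c d (conf2 F1 F2 K L y)) c a b ↔ LM.isB y := by
    intro y
    rw [kap_enc' h]
    rcases y with ⟨s, t, e⟩ | ⟨s, t⟩ | ⟨s, t⟩
    · cases e <;> simp [conf2, LM.isB]
    · obtain ⟨h1, h2, h3⟩ := conf2_10 (F1 := F1) (F2 := F2) (K := K) (L := L) s t
      simp only [LM.isB, iff_true]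
      exact h3
    · obtain ⟨h1, h2, h3⟩ := conf2_01 (F1 := F1) (F2 := F2) (K := K) (L := L) s t
      simp only [LM.isB, iff_false, ne_eq, not_not]
      exact h1
  have hfB : ∀ y, fr (enc G₀ a b c d (conf2 F1 F2 K L y)) a b c d ↔ LM.isB y := by
    intro y
    rw [fr_enc h]
    rcases y with ⟨s, t, e⟩ | ⟨s, t⟩ | ⟨s, t⟩
    · cases e <;> simp [conf2, LM.isB]
    · obtain ⟨h1, h2, h3⟩ := conf2_10 (F1 := F1) (F2 := F2) (K := K) (L := L) s t
      simp only [LM.isB, iff_true]
      refine ⟨h3, ?_⟩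
      rw [← h1, ← h2]
      exact h3
    · obtain ⟨h1, h2, h3⟩ := conf2_01 (F1 := F1) (F2 := F2) (K := K) (L := L) s t
      simp only [LM.isB, iff_false]
      exact fun hh => hh.1 h1
  have hfA : ∀ y, fr (enc G₀ a b c d (conf2 F1 F2 K L y)) c d a b ↔ LM.isA y := by
    intro y
    rw [fr_enc' h]
    rcases y with ⟨s, t, e⟩ | ⟨s, t⟩ | ⟨s, t⟩
    · cases e <;> simp [conf2, LM.isA]
    · obtain ⟨h1, h2, h3⟩ := conf2_10 (F1 := F1) (F2 := F2) (K := K) (L := L) s t
      simp only [LM.isA, iff_false]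
      exact fun hh => hh.1 h1
    · obtain ⟨h1, h2, h3⟩ := conf2_01 (F1 := F1) (F2 := F2) (K := K) (L := L) s t
      simp only [LM.isA, iff_true]
      refine ⟨h3, ?_⟩
      rw [← h1, ← h2]
      exact h3
  have e1 : ∑ x : LM (SA F1 K) (SA' F1 K) (SA F2 L) (SA' F2 L),
        (if alt (enc G₀ a b c d (conf2 F1 F2 K L x)) a b c d then
          (f (enc G₀ a b c d (conf2 F1 F2 K L x))
            - f (tog (enc G₀ a b c d (conf2 F1 F2 K L x)) a b c d)) ^ 2 else 0)
      = ∑ s : SA F1 K, ∑ t : SA F2 L, ∑ e : Bool,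
          (g (.inl (s, t, e)) - g (.inl (s, t, !e))) ^ 2 := by
    rw [Fintype.sum_sum_type, Fintype.sum_sum_type, Fintype.sum_prod_type]
    have z1 : ∀ x : SA' F1 K × SA F2 L,
        (if alt (enc G₀ a b c d (conf2 F1 F2 K L (.inr (.inl x)))) a b c d then
          (f (enc G₀ a b c d (conf2 F1 F2 K L (.inr (.inl x))))
            - f (tog (enc G₀ a b c d (conf2 F1 F2 K L (.inr (.inl x)))) a b c d)) ^ 2 else (0 : ℝ))
          = 0 := by
      rintro ⟨s, t⟩
      rw [if_neg]
      rw [alt_enc h]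
      obtain ⟨h1, h2, h3⟩ := conf2_10 (F1 := F1) (F2 := F2) (K := K) (L := L) s t
      rintro (⟨h4, h5, h6, h7⟩ | ⟨h4, h5, h6, h7⟩)
      · rw [h1] at h4
        rw [h4] at h6
        cases h6
      · rw [← h1] at h4
        rw [h4] at h6
        cases h6
    have z2 : ∀ x : SA F1 K × SA' F2 L,
        (if alt (enc G₀ a b c d (conf2 F1 F2 K L (.inr (.inr x)))) a b c d then
          (f (enc G₀ a b c d (conf2 F1 F2 K L (.inr (.inr x))))
            - f (tog (enc G₀ a b c d (conf2 F1 F2 K L (.inr (.inr x)))) a b c d)) ^ 2 else (0 : ℝ))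
          = 0 := by
      rintro ⟨s, t⟩
      rw [if_neg]
      rw [alt_enc h]
      obtain ⟨h1, h2, h3⟩ := conf2_01 (F1 := F1) (F2 := F2) (K := K) (L := L) s t
      rintro (⟨h4, h5, h6, h7⟩ | ⟨h4, h5, h6, h7⟩)
      · rw [h1] at h4
        rw [h4] at h7
        cases h7
      · rw [h2] at h4
        rw [h4] at h7
        cases h7
    simp only [z1, z2, Finset.sum_const_zero, add_zero]
    refine Finset.sum_congr rfl (fun s _ => ?_)
    rw [Fintype.sum_prod_type]
    refine Finset.sum_congr rfl (fun t _ => ?_)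
    refine Finset.sum_congr rfl (fun e _ => ?_)
    rw [if_pos]
    · rw [tog_enc h, conf2_flip]
    · rw [alt_enc h]
      cases e
      · right; simp [conf2]
      · left; simp [conf2]
  have e2 : ∑ x : LM (SA F1 K) (SA' F1 K) (SA F2 L) (SA' F2 L),
        (if fr (enc G₀ a b c d (conf2 F1 F2 K L x)) a b c d then
          Wt D f a b c d (enc G₀ a b c d (conf2 F1 F2 K L x)) else 0)
      = ∑ x : LM (SA F1 K) (SA' F1 K) (SA F2 L) (SA' F2 L),
          (if LM.isB x then wFun univ LM.tk LM.isA g x else 0) := by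
    refine Finset.sum_congr rfl (fun x _ => ?_)
    by_cases hx : LM.isB x
    · rw [if_pos ((hfB x).2 hx), if_pos hx]
      exact M.Wt_ab h hG₀ f hkA x
    · rw [if_neg (fun hh => hx ((hfB x).1 hh)), if_neg hx]
  have e3 : ∑ x : LM (SA F1 K) (SA' F1 K) (SA F2 L) (SA' F2 L),
        (if fr (enc G₀ a b c d (conf2 F1 F2 K L x)) c d a b then
          Wt D f c d a b (enc G₀ a b c d (conf2 F1 F2 K L x)) else 0)
      = ∑ x : LM (SA F1 K) (SA' F1 K) (SA F2 L) (SA' F2 L),
          (if LM.isA x then wFun univ LM.sk LM.isB g x else 0) := by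
    refine Finset.sum_congr rfl (fun x _ => ?_)
    by_cases hx : LM.isA x
    · rw [if_pos ((hfA x).2 hx), if_pos hx]
      exact M.Wt_cd h hG₀ f hkB x
    · rw [if_neg (fun hh => hx ((hfA x).1 hh)), if_neg hx]
  have hterm : ∑ x : LM (SA F1 K) (SA' F1 K) (SA F2 L) (SA' F2 L),
        lhsTerm D f a b c d (enc G₀ a b c d (conf2 F1 F2 K L x))
      = (1 / 4 : ℝ) * ∑ s : SA F1 K, ∑ t : SA F2 L, ∑ e : Bool,
          (g (.inl (s, t, e)) - g (.inl (s, t, !e))) ^ 2
        - (1 / 2) * ∑ x : LM (SA F1 K) (SA' F1 K) (SA F2 L) (SA' F2 L),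
            (if LM.isB x then wFun univ LM.tk LM.isA g x else 0)
        - (1 / 2) * ∑ x : LM (SA F1 K) (SA' F1 K) (SA F2 L) (SA' F2 L),
            (if LM.isA x then wFun univ LM.sk LM.isB g x else 0) := by
    rw [← e1, ← e2, ← e3]
    simp only [lhsTerm, Finset.sum_sub_distrib, Finset.mul_sum]
  rw [hterm]
  refine hlm.trans (le_of_eq ?_)
  refine Finset.sum_congr rfl (fun x _ => ?_)
  rw [M.Iop_ab h hG₀, M.Iop_cd h hG₀]

/-- The fibre inequality. -/
lemma fibre_ineq (D : Fin n → ℕ) (f : Gr n → ℝ) (h : Dist4 a b c d) {G₀ : Gr n}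
    (hG₀ : G₀ ∈ realizations D) :
    ∑ G ∈ blockOf (realizations D) (fibKey a b c d) G₀, lhsTerm D f a b c d G
      ≤ ∑ G ∈ blockOf (realizations D) (fibKey a b c d) G₀,
          Iop D {a, b} f G * Iop D {c, d} f G := by
  by_cases hσ : (confOf G₀ a b c d G₀).p.toNat + (confOf G₀ a b c d G₀).q.toNat
          + (confOf G₀ a b c d G₀).r.toNat + (confOf G₀ a b c d G₀).w.toNat = 2
  · exact fibre_two D f h hG₀ rfl rfl hσ.symm
  · exact fibre_other D f h hG₀ rfl rfl rfl hσ

/-- The inequality for two disjoint pairs. -/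
theorem disjoint_graph (D : Fin n → ℕ) (f : Gr n → ℝ) {a b c d : Fin n}
    (hab : a ≠ b) (hac : a ≠ c) (had : a ≠ d) (hbc : b ≠ c) (hbd : b ≠ d) (hcd : c ≠ d) :
    (1 / 4) * GG D f a b c d - (1 / 2) * YY D f a b c d - (1 / 2) * YY D f c d a b
      ≤ ipI D f {a, b} {c, d} := by
  have h : Dist4 a b c d := ⟨hab, hac, had, hbc, hbd, hcd⟩
  have e : (1 / 4) * GG D f a b c d - (1 / 2) * YY D f a b c d - (1 / 2) * YY D f c d a b
      = ∑ G ∈ realizations D, lhsTerm D f a b c d G := by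
    simp only [GG, YY, lhsTerm, Finset.sum_sub_distrib, Finset.mul_sum]
  rw [e]
  unfold ipI
  exact sum_le_sum_of_blocks (fibKey a b c d) (fun G₀ hG₀ => fibre_ineq D f h hG₀)

end

end Crest.Agent.SW
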