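/-
S0453 project: the kernel of the statement in terms of switches.  See SWPLAN.md, piece KER.
-/
import Crest.Agent.SWCore
import Crest.Agent.SWTog

set_option autoImplicit false
open Finset
open Crest.SwitchChain

namespace Crest.Agent.SW

noncomputable section

variable {n : ℕ}

/-- Ordered 4-tuples of distinct vertices. -/
def tup4 (n : ℕ) : Finset (Fin n × Fin n × Fin n × Fin n) :=
  univ.filter (fun t => t.1 ≠ t.2.1 ∧ t.1 ≠ t.2.2.1 ∧ t.1 ≠ t.2.2.2 ∧ t.2.1 ≠ t.2.2.1 ∧
    t.2.1 ≠ t.2.2.2 ∧ t.2.2.1 ≠ t.2.2.2)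

/-! ### Proposals: elementary facts on `switchResult` -/

lemma switchResult_symm {G G' F F' : Gr n} (hne : G ≠ G') (h : switchResult G F F' = G') :
    switchResult G' F' F = G := by
  unfold switchResult at h ⊢
  split_ifs at h with hc
  · obtain ⟨h1, h2⟩ := hc
    have h3 : F' ⊆ G' := by
      subst h
      exact Finset.subset_union_right
    have h4 : Disjoint F G' := by
      subst h
      rw [Finset.disjoint_left]
      intro e he
      simp only [Finset.mem_union, Finset.mem_sdiff, not_or, not_and, not_not]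
      exact ⟨fun _ => he, fun hF' => (Finset.disjoint_left.1 h2 hF') (h1 he)⟩
    rw [if_pos ⟨h3, h4⟩]
    subst h
    ext e
    simp only [Finset.mem_union, Finset.mem_sdiff]
    constructor
    · rintro (⟨h5 | h5, h6⟩ | h5)
      · exact h5.1
      · exact absurd h5 h6
      · exact h1 h5
    · intro hG
      by_cases hF : e ∈ F
      · exact Or.inr hF
      · refine Or.inl ⟨Or.inl ⟨hG, hF⟩, ?_⟩
        intro hF'
        exact (Finset.disjoint_left.1 h2 hF') hG
  · exact absurd h hne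

lemma proposalCount_symm (G G' : Gr n) : proposalCount G G' = proposalCount G' G := by
  by_cases hne : G = G'
  · rw [hne]
  unfold proposalCount
  refine Finset.sum_congr rfl (fun S _ => ?_)
  rw [Finset.sum_comm' (s' := fun y => (pmSet S).erase y) (t' := pmSet S)
    (by
      intro x y
      simp only [Finset.mem_erase]
      constructor
      · rintro ⟨h1, h2, h3⟩
        exact ⟨⟨h2.symm, h1⟩, h3⟩
      · rintro ⟨⟨h1, h2⟩, h3⟩
        exact ⟨h2, h1.symm, h3⟩)]
  refine Finset.sum_congr rfl (fun F' _ => Finset.sum_congr rfl (fun F _ => ?_))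
  by_cases h : switchResult G F F' = G'
  · rw [if_pos h, if_pos (switchResult_symm hne h)]
  · rw [if_neg h, if_neg]
    intro h'
    exact h (switchResult_symm (Ne.symm hne) h')

theorem kernel_symm (G G' : Gr n) : kernel n G G' = kernel n G' G := by
  unfold kernel
  rw [proposalCount_symm G G']
  by_cases h : G = G'
  · rw [h]
  · rw [if_neg h, if_neg (Ne.symm h)]

theorem kernel_nonneg (G G' : Gr n) : 0 ≤ kernel n G G' := by
  unfold kernel
  have h1 : (0 : ℝ) ≤ if G = G' then 1 / 2 else 0 := by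
    split_ifs <;> norm_num
  have h2 : (0 : ℝ) ≤ (proposalCount G G' : ℝ) / (12 * (n.choose 4 : ℝ)) := by positivity
  linarith

theorem kernel_lazy (G : Gr n) : 1 / 2 ≤ kernel n G G := by
  unfold kernel
  have h2 : (0 : ℝ) ≤ (proposalCount G G : ℝ) / (12 * (n.choose 4 : ℝ)) := by positivity
  rw [if_pos rfl]
  linarith

/-! ### The matchings -/

/-- The matching `{uv, wx}`. -/
def mat (u v w x : Fin n) : Gr n :=
  univ.filter (fun e : Edge n => e.1 = s(u, v) ∨ e.1 = s(w, x))

lemma mem_mat {u v w x : Fin n} {e : Edge n} : e ∈ mat u v w x ↔ e.1 = s(u, v) ∨ e.1 = s(w, x) := by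
  simp [mat]

lemma mat_swap (u v w x : Fin n) : mat w x u v = mat u v w x := by
  ext e; simp only [mem_mat]; tauto

lemma mat_comm1 (u v w x : Fin n) : mat v u w x = mat u v w x := by
  ext e; simp only [mem_mat, Sym2.eq_swap (a := v) (b := u)]

lemma mat_comm2 (u v w x : Fin n) : mat u v x w = mat u v w x := by
  ext e; simp only [mem_mat, Sym2.eq_swap (a := x) (b := w)]

lemma mat_eq_pair {u v w x : Fin n} (h1 : u ≠ v) (h2 : w ≠ x) :
    mat u v w x = {mkE u v h1, mkE w x h2} := by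
  ext e
  simp only [mem_mat, Finset.mem_insert, Finset.mem_singleton]
  constructor
  · rintro (h | h)
    · exact Or.inl (Subtype.ext h)
    · exact Or.inr (Subtype.ext h)
  · rintro (h | h)
    · exact Or.inl (by rw [h]; rfl)
    · exact Or.inr (by rw [h]; rfl)

/-- Set of the four vertices. -/
def vset (a b c d : Fin n) : Finset (Fin n) := {a, b, c, d}

lemma mem_vset {a b c d v : Fin n} : v ∈ vset a b c d ↔ v = a ∨ v = b ∨ v = c ∨ v = d := by
  simp [vset]

lemma mem_pmSet {S : Finset (Fin n)} {F : Gr n} :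
    F ∈ pmSet S ↔ F.card = 2 ∧ (∀ e ∈ F, ∀ v : Fin n, v ∈ e.1 → v ∈ S) ∧
      ∀ v ∈ S, (F.filter fun e => v ∈ e.1).card = 1 := by
  simp [pmSet, Finset.mem_powersetCard]

lemma mat_card {u v w x : Fin n} (h : Dist4 u v w x) : (mat u v w x).card = 2 := by
  rw [mat_eq_pair h.ab h.cd]
  apply Finset.card_pair
  intro heq
  have : (s(u, v) : Sym2 (Fin n)) = s(w, x) := congrArg Subtype.val heq
  rcases Sym2.eq_iff.1 this with ⟨h1, _⟩ | ⟨h1, _⟩
  · exact h.ac h1
  · exact h.ad h1

lemma mat_filter_left {u v w x y : Fin n} (h : Dist4 u v w x) (hy : y = u ∨ y = v) :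
    ((mat u v w x).filter fun e => y ∈ e.1).card = 1 := by
  rw [mat_eq_pair h.ab h.cd, Finset.card_eq_one]
  refine ⟨mkE u v h.ab, ?_⟩
  ext e
  simp only [Finset.mem_filter, Finset.mem_insert, Finset.mem_singleton]
  constructor
  · rintro ⟨rfl | rfl, h2⟩
    · rfl
    · exfalso
      simp only [mkE, Sym2.mem_iff] at h2
      have := h.ac; have := h.ad; have := h.bc; have := h.bd
      rcases hy with rfl | rfl <;> rcases h2 with rfl | rfl <;> simp_all
  · rintro rfl
    refine ⟨Or.inl rfl, ?_⟩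
    simp only [mkE, Sym2.mem_iff]
    exact hy

lemma mat_mem_pmSet {u v w x : Fin n} {S : Finset (Fin n)} (h : Dist4 u v w x)
    (hS : ∀ y, y ∈ S ↔ y = u ∨ y = v ∨ y = w ∨ y = x) : mat u v w x ∈ pmSet S := by
  rw [mem_pmSet]
  refine ⟨mat_card h, ?_, ?_⟩
  · intro e he y hy
    rw [hS]
    rw [mem_mat] at he
    rcases he with he | he
    · rw [he, Sym2.mem_iff] at hy
      tauto
    · rw [he, Sym2.mem_iff] at hy
      tauto
  · intro y hy
    rw [hS] at hy
    rcases hy with hy | hy | hy | hy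
    · exact mat_filter_left h (Or.inl hy)
    · exact mat_filter_left h (Or.inr hy)
    · rw [← mat_swap]
      exact mat_filter_left h.swapPairs (Or.inl hy)
    · rw [← mat_swap]
      exact mat_filter_left h.swapPairs (Or.inr hy)

/-- Every perfect matching on `S` containing the edge `ax`, is `{ax, yz}`. -/
lemma pm_aux {a x y z : Fin n} {S : Finset (Fin n)} {F : Gr n} (h : Dist4 a x y z)
    (hS : ∀ v, v ∈ S ↔ v = a ∨ v = x ∨ v = y ∨ v = z) (hF : F ∈ pmSet S)
    (he : mkE a x h.ab ∈ F) : F = mat a x y z := by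
  obtain ⟨hc, hend, hone⟩ := mem_pmSet.1 hF
  -- the edge through `y`
  have hy := hone y ((hS y).2 (by tauto))
  obtain ⟨e', he'⟩ := Finset.card_eq_one.1 hy
  have he'F : e' ∈ F ∧ y ∈ e'.1 := by
    have : e' ∈ F.filter fun e => y ∈ e.1 := by rw [he']; simp
    simpa using this
  obtain ⟨he'1, he'2⟩ := he'F
  obtain ⟨p, q, hpq, rfl⟩ := exists_endpoints e'
  have hyz : ∃ w, w ≠ y ∧ (mkE p q hpq : Edge n).1 = s(y, w) := by
    simp only [mkE, Sym2.mem_iff] at he'2
    rcases he'2 with rfl | rfl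
    · exact ⟨q, hpq.symm, rfl⟩
    · exact ⟨p, hpq, Sym2.eq_swap⟩
  obtain ⟨w, hwy, hw⟩ := hyz
  have hwS : w ∈ S := hend _ he'1 w (by rw [hw]; simp)
  have hne : mkE p q hpq ≠ mkE a x h.ab := by
    intro heq
    have h0 : (mkE p q hpq : Edge n).1 = (mkE a x h.ab : Edge n).1 := congrArg Subtype.val heq
    rw [hw] at h0
    have : y ∈ (s(a, x) : Sym2 (Fin n)) := by
      have h1 : y ∈ (s(y, w) : Sym2 (Fin n)) := by simp
      rw [h0] at h1
      exact h1
    rw [Sym2.mem_iff] at this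
    rcases this with h2 | h2
    · exact h.ac h2.symm
    · exact h.bc h2.symm
  -- `w ≠ a`, `w ≠ x`
  have huniq : ∀ v ∈ S, ∀ e1 ∈ F, ∀ e2 ∈ F, v ∈ e1.1 → v ∈ e2.1 → e1 = e2 := by
    intro v hv e1 he1 e2 he2 h1 h2
    have := hone v hv
    exact Finset.card_le_one.1 this.le e1 (by simp [he1, h1]) e2 (by simp [he2, h2])
  have hwa : w ≠ a := by
    rintro rfl
    exact hne (huniq w ((hS w).2 (by tauto)) _ he'1 _ he (by rw [hw]; simp) (by simp [mkE]))
  have hwx : w ≠ x := by
    rintro rfl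
    exact hne (huniq w ((hS w).2 (by tauto)) _ he'1 _ he (by rw [hw]; simp) (by simp [mkE]))
  have hwz : w = z := by
    rcases (hS w).1 hwS with h1 | h1 | h1 | h1
    · exact absurd h1 hwa
    · exact absurd h1 hwx
    · exact absurd h1 hwy
    · exact h1
  subst hwz
  -- so `F` is this pair
  have hsub : mat a x y w ⊆ F := by
    intro e hm
    rw [mem_mat] at hm
    rcases hm with hm | hm
    · have : e = mkE a x h.ab := Subtype.ext hm
      rw [this]; exact he
    · have : e = mkE p q hpq := Subtype.ext (by rw [hm, hw])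
      rw [this]; exact he'1
  exact (Finset.eq_of_subset_of_card_le hsub (by rw [hc, mat_card h])).symm

lemma pmSet_class {a b c d : Fin n} {S : Finset (Fin n)} {F : Gr n} (h : Dist4 a b c d)
    (hS : ∀ v, v ∈ S ↔ v = a ∨ v = b ∨ v = c ∨ v = d) (hF : F ∈ pmSet S) :
    F = mat a b c d ∨ F = mat a c b d ∨ F = mat a d b c := by
  obtain ⟨hc, hend, hone⟩ := mem_pmSet.1 hF
  have ha := hone a ((hS a).2 (by tauto))
  obtain ⟨e', he'⟩ := Finset.card_eq_one.1 ha
  have he'F : e' ∈ F ∧ a ∈ e'.1 := by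
    have : e' ∈ F.filter fun e => a ∈ e.1 := by rw [he']; simp
    simpa using this
  obtain ⟨he'1, he'2⟩ := he'F
  obtain ⟨p, q, hpq, rfl⟩ := exists_endpoints e'
  have hyz : ∃ w, ∃ hw : a ≠ w, (mkE p q hpq : Edge n) = mkE a w hw := by
    simp only [mkE, Sym2.mem_iff] at he'2
    rcases he'2 with rfl | rfl
    · exact ⟨q, hpq, rfl⟩
    · exact ⟨p, hpq.symm, Subtype.ext Sym2.eq_swap⟩
  obtain ⟨w, hw, hEq⟩ := hyz
  rw [hEq] at he'1
  have hwS : w ∈ S := hend _ he'1 w (by simp [mkE])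
  rcases (hS w).1 hwS with h1 | h1 | h1 | h1
  · exact absurd h1.symm hw
  · subst h1
    exact Or.inl (pm_aux h hS hF he'1)
  · subst h1
    have h' : Dist4 a w b d := ⟨h.ac, h.ab, h.ad, h.bc.symm, h.cd, h.bd⟩
    exact Or.inr (Or.inl (pm_aux h' (fun v => by rw [hS]; tauto) hF he'1))
  · subst h1
    have h' : Dist4 a w b c := ⟨h.ad, h.ab, h.ac, h.bd.symm, h.cd.symm, h.bc⟩
    exact Or.inr (Or.inr (pm_aux h' (fun v => by rw [hS]; tauto) hF he'1))


lemma exists_rep {S : Finset (Fin n)} (hS : S.card = 4) :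
    ∃ a b c d : Fin n, Dist4 a b c d ∧ ∀ v, v ∈ S ↔ v = a ∨ v = b ∨ v = c ∨ v = d := by
  obtain ⟨a, t, hat, rfl, ht⟩ := Finset.card_eq_succ.1 hS
  obtain ⟨b, c, d, hbc, hbd, hcd, rfl⟩ := Finset.card_eq_three.1 ht
  simp only [Finset.mem_insert, Finset.mem_singleton, not_or] at hat
  obtain ⟨h1, h2, h3⟩ := hat
  exact ⟨a, b, c, d, ⟨h1, h2, h3, hbc, hbd, hcd⟩, fun v => by simp⟩

lemma mat_ne_1 {a b c d : Fin n} (h : Dist4 a b c d) : mat a b c d ≠ mat a c b d := by
  intro heq
  have h1 : mkE a b h.ab ∈ mat a b c d := by rw [mem_mat]; exact Or.inl rfl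
  rw [heq, mem_mat] at h1
  have := h.ab; have := h.ac; have := h.ad; have := h.bc; have := h.bd; have := h.cd
  simp only [mkE, Sym2.eq_iff] at h1
  grind

lemma mat_ne_2 {a b c d : Fin n} (h : Dist4 a b c d) : mat a c b d ≠ mat a d b c := by
  intro heq
  have h1 : mkE a c h.ac ∈ mat a c b d := by rw [mem_mat]; exact Or.inl rfl
  rw [heq, mem_mat] at h1
  have := h.ab; have := h.ac; have := h.ad; have := h.bc; have := h.bd; have := h.cd
  simp only [mkE, Sym2.eq_iff] at h1
  grind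

lemma mat_ne_3 {a b c d : Fin n} (h : Dist4 a b c d) : mat a b c d ≠ mat a d b c := by
  intro heq
  have h1 : mkE a b h.ab ∈ mat a b c d := by rw [mem_mat]; exact Or.inl rfl
  rw [heq, mem_mat] at h1
  have := h.ab; have := h.ac; have := h.ad; have := h.bc; have := h.bd; have := h.cd
  simp only [mkE, Sym2.eq_iff] at h1
  grind

lemma pmSet_eq {a b c d : Fin n} {S : Finset (Fin n)} (h : Dist4 a b c d)
    (hS : ∀ v, v ∈ S ↔ v = a ∨ v = b ∨ v = c ∨ v = d) :
    pmSet S = {mat a b c d, mat a c b d, mat a d b c} := by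
  ext F
  simp only [Finset.mem_insert, Finset.mem_singleton]
  constructor
  · exact pmSet_class h hS
  · rintro (rfl | rfl | rfl)
    · exact mat_mem_pmSet h hS
    · have h' : Dist4 a c b d := ⟨h.ac, h.ab, h.ad, h.bc.symm, h.cd, h.bd⟩
      exact mat_mem_pmSet h' (fun v => by rw [hS]; tauto)
    · have h' : Dist4 a d b c := ⟨h.ad, h.ab, h.ac, h.bd.symm, h.cd.symm, h.bc⟩
      exact mat_mem_pmSet h' (fun v => by rw [hS]; tauto)

lemma pmSet_card {S : Finset (Fin n)} (hS : S.card = 4) : (pmSet S).card = 3 := by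
  obtain ⟨a, b, c, d, h, hv⟩ := exists_rep hS
  rw [pmSet_eq h hv]
  exact Finset.card_eq_three.2 ⟨_, _, _, mat_ne_1 h, mat_ne_3 h, mat_ne_2 h, rfl⟩

/-- Every proposal is given by a 4-tuple of distinct vertices. -/
lemma prop_rep {S : Finset (Fin n)} {F F' : Gr n} (hS : S.card = 4) (hF : F ∈ pmSet S)
    (hF' : F' ∈ pmSet S) (hne : F' ≠ F) :
    ∃ a b c d : Fin n, Dist4 a b c d ∧ (∀ v, v ∈ S ↔ v = a ∨ v = b ∨ v = c ∨ v = d) ∧
      F = mat a c b d ∧ F' = mat a d b c := by
  obtain ⟨a, b, c, d, h, hv⟩ := exists_rep hS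
  have h1 := h.ab; have h2 := h.ac; have h3 := h.ad; have h4 := h.bc; have h5 := h.bd
  have h6 := h.cd
  rcases pmSet_class h hv hF with rfl | rfl | rfl <;>
    rcases pmSet_class h hv hF' with rfl | rfl | rfl
  · exact absurd rfl hne
  · refine ⟨a, d, b, c, ⟨h3, h1, h2, h5.symm, h6.symm, h4⟩, fun v => by rw [hv]; tauto, ?_, ?_⟩
    · rw [mat_comm2]
    · rw [mat_comm2]
  · refine ⟨a, c, b, d, ⟨h2, h1, h3, h4.symm, h6, h5⟩, fun v => by rw [hv]; tauto, ?_, ?_⟩
    · rfl
    · rw [mat_comm2]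
  · refine ⟨a, d, c, b, ⟨h3, h2, h1, h6.symm, h5.symm, h4.symm⟩, fun v => by rw [hv]; tauto, ?_, ?_⟩
    · rw [mat_comm2]
    · rw [mat_comm2]
  · exact absurd rfl hne
  · exact ⟨a, b, c, d, h, hv, rfl, rfl⟩
  · refine ⟨a, c, d, b, ⟨h2, h3, h1, h6, h4.symm, h5.symm⟩, fun v => by rw [hv]; tauto, ?_, ?_⟩
    · rw [mat_comm2]
    · rfl
  · exact ⟨a, b, d, c, h.swap34, fun v => by rw [hv]; tauto, rfl, rfl⟩
  · exact absurd rfl hne

/-- The four tuples representing one proposal. -/
lemma rep_cases {a b c d a' b' c' d' : Fin n} (h : Dist4 a b c d) (h' : Dist4 a' b' c' d')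
    (h1 : mat a' c' b' d' = mat a c b d) (h2 : mat a' d' b' c' = mat a d b c) :
    (a' = a ∧ b' = b ∧ c' = c ∧ d' = d) ∨ (a' = b ∧ b' = a ∧ c' = d ∧ d' = c) ∨
      (a' = c ∧ b' = d ∧ c' = a ∧ d' = b) ∨ (a' = d ∧ b' = c ∧ c' = b ∧ d' = a) := by
  have e1 : mkE a' c' h'.ac ∈ mat a c b d := by rw [← h1, mem_mat]; exact Or.inl rfl
  have e2 : mkE b' d' h'.bd ∈ mat a c b d := by rw [← h1, mem_mat]; exact Or.inr rfl
  have e3 : mkE a' d' h'.ad ∈ mat a d b c := by rw [← h2, mem_mat]; exact Or.inl rfl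
  have e4 : mkE b' c' h'.bc ∈ mat a d b c := by rw [← h2, mem_mat]; exact Or.inr rfl
  rw [mem_mat] at e1 e2 e3 e4
  simp only [mkE, Sym2.eq_iff] at e1 e2 e3 e4
  have := h.ab; have := h.ac; have := h.ad; have := h.bc; have := h.bd; have := h.cd
  have := h'.ab; have := h'.ac; have := h'.ad; have := h'.bc; have := h'.bd; have := h'.cd
  clear h1 h2 h h'
  grind (splits := 40)


/-! ### From proposals to tuples -/

lemma mem_tup4 {t : Fin n × Fin n × Fin n × Fin n} :
    t ∈ tup4 n ↔ Dist4 t.1 t.2.1 t.2.2.1 t.2.2.2 := by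
  simp only [tup4, Finset.mem_filter, Finset.mem_univ, true_and]
  constructor
  · rintro ⟨h1, h2, h3, h4, h5, h6⟩
    exact ⟨h1, h2, h3, h4, h5, h6⟩
  · rintro ⟨h1, h2, h3, h4, h5, h6⟩
    exact ⟨h1, h2, h3, h4, h5, h6⟩

/-- The vertex set of a tuple. -/
abbrev tv (t : Fin n × Fin n × Fin n × Fin n) : Finset (Fin n) := vset t.1 t.2.1 t.2.2.1 t.2.2.2

/-- The matching removed by the proposal of a tuple. -/
abbrev tF (t : Fin n × Fin n × Fin n × Fin n) : Gr n := mat t.1 t.2.2.1 t.2.1 t.2.2.2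

/-- The matching inserted by the proposal of a tuple. -/
abbrev tF' (t : Fin n × Fin n × Fin n × Fin n) : Gr n := mat t.1 t.2.2.2 t.2.1 t.2.2.1

lemma vset_card {a b c d : Fin n} (h : Dist4 a b c d) : (vset a b c d).card = 4 := by
  have h1 := h.ab; have h2 := h.ac; have h3 := h.ad; have h4 := h.bc; have h5 := h.bd
  have h6 := h.cd
  unfold vset
  rw [Finset.card_insert_of_notMem (by simp [h1, h2, h3]),
    Finset.card_insert_of_notMem (by simp [h4, h5]), Finset.card_pair h6]

lemma tv_mem {t : Fin n × Fin n × Fin n × Fin n} (ht : t ∈ tup4 n) :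
    tv t ∈ (univ : Finset (Fin n)).powersetCard 4 := by
  rw [Finset.mem_powersetCard]
  exact ⟨Finset.subset_univ _, vset_card (mem_tup4.1 ht)⟩

lemma tF_mem {t : Fin n × Fin n × Fin n × Fin n} (ht : t ∈ tup4 n) : tF t ∈ pmSet (tv t) := by
  have h := mem_tup4.1 ht
  have h' : Dist4 t.1 t.2.2.1 t.2.1 t.2.2.2 :=
    ⟨h.ac, h.ab, h.ad, h.bc.symm, h.cd, h.bd⟩
  exact mat_mem_pmSet h' (fun v => by rw [mem_vset]; tauto)

lemma tF'_mem {t : Fin n × Fin n × Fin n × Fin n} (ht : t ∈ tup4 n) :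
    tF' t ∈ (pmSet (tv t)).erase (tF t) := by
  have h := mem_tup4.1 ht
  have h' : Dist4 t.1 t.2.2.2 t.2.1 t.2.2.1 :=
    ⟨h.ad, h.ab, h.ac, h.bd.symm, h.cd.symm, h.bc⟩
  exact Finset.mem_erase.2 ⟨(mat_ne_2 h).symm,
    mat_mem_pmSet h' (fun v => by rw [mem_vset]; tauto)⟩

lemma fiber_card {S : Finset (Fin n)} {F F' : Gr n} (hS : S.card = 4) (hF : F ∈ pmSet S)
    (hF' : F' ∈ pmSet S) (hne : F' ≠ F) :
    ((((tup4 n).filter (fun t => tv t = S)).filter (fun t => tF t = F)).filter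
      (fun t => tF' t = F')).card = 4 := by
  obtain ⟨a, b, c, d, h, hv, rfl, rfl⟩ := prop_rep hS hF hF' hne
  have hSv : S = vset a b c d := by
    ext v
    rw [hv, mem_vset]
  have h1 := h.ab; have h2 := h.ac; have h3 := h.ad; have h4 := h.bc; have h5 := h.bd
  have h6 := h.cd
  have hset : ((((tup4 n).filter (fun t => tv t = S)).filter
      (fun t => tF t = mat a c b d)).filter (fun t => tF' t = mat a d b c)) =
      {(a, b, c, d), (b, a, d, c), (c, d, a, b), (d, c, b, a)} := by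
    ext t
    obtain ⟨a', b', c', d'⟩ := t
    simp only [Finset.mem_filter, Finset.mem_insert, Finset.mem_singleton, Prod.mk.injEq, mem_tup4]
    constructor
    · rintro ⟨⟨⟨ht, -⟩, hF1⟩, hF2⟩
      exact rep_cases h ht hF1 hF2
    · rintro (⟨h7, h8, h9, h10⟩ | ⟨h7, h8, h9, h10⟩ | ⟨h7, h8, h9, h10⟩ | ⟨h7, h8, h9, h10⟩) <;>
        subst a' b' c' d'
      · exact ⟨⟨⟨h, hSv.symm⟩, rfl⟩, rfl⟩
      · refine ⟨⟨⟨h.swap12.swap34, ?_⟩, ?_⟩, ?_⟩
        · rw [hSv]; ext v; simp only [mem_vset]; tauto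
        · exact mat_swap ..
        · exact mat_swap ..
      · refine ⟨⟨⟨h.swapPairs, ?_⟩, ?_⟩, ?_⟩
        · rw [hSv]; ext v; simp only [mem_vset]; tauto
        · simp only [tF]; rw [mat_comm1, mat_comm2]
        · simp only [tF']; rw [← mat_swap, mat_comm1, mat_comm2]
      · refine ⟨⟨⟨h.swapPairs.swap12.swap34, ?_⟩, ?_⟩, ?_⟩
        · rw [hSv]; ext v; simp only [mem_vset]; tauto
        · simp only [tF]; rw [← mat_swap, mat_comm1, mat_comm2]
        · simp only [tF']; rw [mat_comm1, mat_comm2]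
  rw [hset]
  rw [Finset.card_insert_of_notMem (by simp [h1, h2, h3]),
    Finset.card_insert_of_notMem (by simp [h4, h5]),
    Finset.card_insert_of_notMem (by simp [h6]),
    Finset.card_singleton]

/-- Proposals and 4-tuples: each proposal comes from exactly four tuples. -/
lemma sum_props (x : Gr n → Gr n → ℝ) :
    4 * ∑ S ∈ (univ : Finset (Fin n)).powersetCard 4, ∑ F ∈ pmSet S, ∑ F' ∈ (pmSet S).erase F,
        x F F' = ∑ t ∈ tup4 n, x (tF t) (tF' t) := by
  rw [← Finset.sum_fiberwise_of_maps_to (s := tup4 n)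
    (t := (univ : Finset (Fin n)).powersetCard 4) (g := tv) (fun t ht => tv_mem ht), Finset.mul_sum]
  refine Finset.sum_congr rfl (fun S hS => ?_)
  have hSc : S.card = 4 := (Finset.mem_powersetCard.1 hS).2
  rw [← Finset.sum_fiberwise_of_maps_to (s := (tup4 n).filter (fun t => tv t = S))
    (t := pmSet S) (g := tF)
    (fun t ht => by
      obtain ⟨h1, h2⟩ := Finset.mem_filter.1 ht
      rw [← h2]; exact tF_mem h1), Finset.mul_sum]
  refine Finset.sum_congr rfl (fun F hF => ?_)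
  rw [← Finset.sum_fiberwise_of_maps_to
    (s := ((tup4 n).filter (fun t => tv t = S)).filter (fun t => tF t = F))
    (t := (pmSet S).erase F) (g := tF')
    (fun t ht => by
      obtain ⟨h0, h3⟩ := Finset.mem_filter.1 ht
      obtain ⟨h1, h2⟩ := Finset.mem_filter.1 h0
      rw [← h2, ← h3]; exact tF'_mem h1), Finset.mul_sum]
  refine Finset.sum_congr rfl (fun F' hF' => ?_)
  obtain ⟨hne, hF'm⟩ := Finset.mem_erase.1 hF'
  have hc : ∀ t ∈ (((tup4 n).filter (fun t => tv t = S)).filter (fun t => tF t = F)).filter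
      (fun t => tF' t = F'), x (tF t) (tF' t) = x F F' := by
    intro t ht
    obtain ⟨h0, h3⟩ := Finset.mem_filter.1 ht
    obtain ⟨h1, h2⟩ := Finset.mem_filter.1 h0
    rw [h2, h3]
  rw [Finset.sum_congr rfl hc, Finset.sum_const, fiber_card hSc hF hF'm hne, nsmul_eq_mul]
  norm_num

/-- The number of proposals. -/
lemma prop_count (x : ℝ) :
    ∑ S ∈ (univ : Finset (Fin n)).powersetCard 4, ∑ F ∈ pmSet S, ∑ _F' ∈ (pmSet S).erase F, x
      = 6 * (n.choose 4 : ℝ) * x := by
  have h : ∀ S ∈ (univ : Finset (Fin n)).powersetCard 4,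
      ∑ F ∈ pmSet S, ∑ _F' ∈ (pmSet S).erase F, x = 6 * x := by
    intro S hS
    have hSc : S.card = 4 := (Finset.mem_powersetCard.1 hS).2
    have h2 : ∀ F ∈ pmSet S, ∑ _F' ∈ (pmSet S).erase F, x = 2 * x := by
      intro F hF
      rw [Finset.sum_const, Finset.card_erase_of_mem hF, pmSet_card hSc, nsmul_eq_mul]
      norm_num
    rw [Finset.sum_congr rfl h2, Finset.sum_const, pmSet_card hSc, nsmul_eq_mul]
    push_cast
    ring
  rw [Finset.sum_congr rfl h, Finset.sum_const, Finset.card_powersetCard, nsmul_eq_mul]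
  simp only [Finset.card_univ, Fintype.card_fin]
  ring

/-! ### The proposal of a tuple acts as a toggle -/

lemma mat_subset_iff {u v w x : Fin n} (h1 : u ≠ v) (h2 : w ≠ x) {G : Gr n} :
    mat u v w x ⊆ G ↔ adj G u v ∧ adj G w x := by
  rw [mat_eq_pair h1 h2, Finset.insert_subset_iff, Finset.singleton_subset_iff, adj_iff_mem h1,
    adj_iff_mem h2]

lemma mat_disjoint_iff {u v w x : Fin n} (h1 : u ≠ v) (h2 : w ≠ x) {G : Gr n} :
    Disjoint (mat u v w x) G ↔ ¬ adj G u v ∧ ¬ adj G w x := by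
  rw [mat_eq_pair h1 h2, Finset.disjoint_insert_left, Finset.disjoint_singleton_left,
    adj_iff_mem h1, adj_iff_mem h2]

lemma togSet_eq (a b c d : Fin n) : togSet a b c d = mat a c b d ∪ mat a d b c := by
  ext e
  simp only [togSet, Finset.mem_filter, Finset.mem_univ, true_and, Finset.mem_union, mem_mat]
  tauto

/-- The first alternative of `alt`. -/
def altA (G : Gr n) (a b c d : Fin n) : Prop :=
  adj G a c ∧ adj G b d ∧ ¬ adj G a d ∧ ¬ adj G b c

lemma alt_iff {G : Gr n} {a b c d : Fin n} : alt G a b c d ↔ altA G a b c d ∨ altA G a b d c := by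
  rfl

lemma altA_excl {G : Gr n} {a b c d : Fin n} (h : altA G a b c d) : ¬ altA G a b d c := by
  unfold altA at *
  tauto

open scoped Classical in
lemma res_mat {a b c d : Fin n} (h : Dist4 a b c d) (G : Gr n) :
    switchResult G (mat a c b d) (mat a d b c) = if altA G a b c d then tog G a b c d else G := by
  unfold switchResult
  have hc : (mat a c b d ⊆ G ∧ Disjoint (mat a d b c) G) ↔ altA G a b c d := by
    rw [mat_subset_iff h.ac h.bd, mat_disjoint_iff h.ad h.bc]
    unfold altA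
    tauto
  by_cases hA : altA G a b c d
  · rw [if_pos hA, if_pos (hc.2 hA)]
    obtain ⟨h1, h2⟩ := hc.2 hA
    have h3 : ∀ e, e ∈ mat a c b d → e ∈ G := fun e he => h1 he
    have h4 : ∀ e, e ∈ mat a d b c → e ∉ G := fun e he => Finset.disjoint_left.1 h2 he
    ext e
    simp only [tog, togSet_eq, Finset.mem_union, Finset.mem_sdiff, Finset.mem_symmDiff]
    have := h3 e
    have := h4 e
    tauto
  · rw [if_neg hA, if_neg (mt hc.1 hA)]

lemma res_mem {D : Fin n → ℕ} {G : Gr n} (hG : G ∈ realizations D) {S : Finset (Fin n)}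
    {F F' : Gr n} (hS : S ∈ (univ : Finset (Fin n)).powersetCard 4) (hF : F ∈ pmSet S)
    (hF' : F' ∈ (pmSet S).erase F) : switchResult G F F' ∈ realizations D := by
  classical
  obtain ⟨hne, hF'm⟩ := Finset.mem_erase.1 hF'
  obtain ⟨a, b, c, d, h, -, rfl, rfl⟩ := prop_rep (Finset.mem_powersetCard.1 hS).2 hF hF'm hne
  rw [res_mat h]
  split_ifs with hA
  · exact tog_mem h hG (Or.inl hA)
  · exact hG

theorem kernel_closed (D : Fin n → ℕ) {G G' : Gr n} (hG : G ∈ realizations D)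
    (hG' : G' ∉ realizations D) : kernel n G G' = 0 := by
  have hne : G ≠ G' := by
    rintro rfl
    exact hG' hG
  have h0 : proposalCount G G' = 0 := by
    unfold proposalCount
    refine Finset.sum_eq_zero fun S hS => Finset.sum_eq_zero fun F hF =>
      Finset.sum_eq_zero fun F' hF' => ?_
    rw [if_neg]
    intro h
    exact hG' (h ▸ res_mem hG hS hF hF')
  unfold kernel
  rw [if_neg hne, h0]
  simp

/-- The weighted count of proposals. -/
lemma sum_proposalCount {D : Fin n → ℕ} {G : Gr n} (hG : G ∈ realizations D) (g : Gr n → ℝ) :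
    ∑ G' ∈ realizations D, (proposalCount G G' : ℝ) * g G' =
      ∑ S ∈ (univ : Finset (Fin n)).powersetCard 4, ∑ F ∈ pmSet S, ∑ F' ∈ (pmSet S).erase F,
        g (switchResult G F F') := by
  unfold proposalCount
  push_cast
  simp only [Finset.sum_mul]
  rw [Finset.sum_comm]
  refine Finset.sum_congr rfl (fun S hS => ?_)
  rw [Finset.sum_comm]
  refine Finset.sum_congr rfl (fun F hF => ?_)
  rw [Finset.sum_comm]
  refine Finset.sum_congr rfl (fun F' hF' => ?_)
  simp only [ite_mul, one_mul, zero_mul]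
  rw [Finset.sum_ite_eq, if_pos (res_mem hG hS hF hF')]

lemma sum_kernel_mul {D : Fin n → ℕ} {G : Gr n} (hG : G ∈ realizations D) (g : Gr n → ℝ) :
    ∑ G' ∈ realizations D, kernel n G G' * g G' =
      (1 / 2) * g G + (1 / (12 * (n.choose 4 : ℝ))) *
        ∑ S ∈ (univ : Finset (Fin n)).powersetCard 4, ∑ F ∈ pmSet S, ∑ F' ∈ (pmSet S).erase F,
          g (switchResult G F F') := by
  rw [← sum_proposalCount hG g]
  unfold kernel
  simp only [add_mul, ite_mul, zero_mul]
  rw [Finset.sum_add_distrib, Finset.sum_ite_eq, if_pos hG, Finset.mul_sum]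
  congr 1
  refine Finset.sum_congr rfl (fun G' _ => ?_)
  ring

theorem kernel_row (hn : 4 ≤ n) (D : Fin n → ℕ) {G : Gr n} (hG : G ∈ realizations D) :
    ∑ G' ∈ realizations D, kernel n G G' = 1 := by
  have hC : (n.choose 4 : ℝ) ≠ 0 := by
    have := Nat.choose_pos hn
    positivity
  have h := sum_kernel_mul hG (fun _ => (1 : ℝ))
  simp only [mul_one] at h
  rw [h, prop_count (1 : ℝ)]
  field_simp
  ring

/-- The gradient action of the chain at a realization. -/
lemma kernel_apply (hn : 4 ≤ n) (D : Fin n → ℕ) (f : Gr n → ℝ) {G : Gr n}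
    (hG : G ∈ realizations D) :
    f G - ∑ G' ∈ realizations D, kernel n G G' * f G' =
      (1 / (12 * (n.choose 4 : ℝ))) *
        ∑ S ∈ (univ : Finset (Fin n)).powersetCard 4, ∑ F ∈ pmSet S, ∑ F' ∈ (pmSet S).erase F,
          (f G - f (switchResult G F F')) := by
  have hC : (n.choose 4 : ℝ) ≠ 0 := by
    have := Nat.choose_pos hn
    positivity
  rw [sum_kernel_mul hG f]
  simp only [Finset.sum_sub_distrib]
  rw [prop_count (f G)]
  field_simp
  ring


open scoped Classical in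
/-- One of the two directions of the switches of the cycle with diagonals `ab`, `cd`. -/
def Yterm (D : Fin n → ℕ) (f : Gr n → ℝ) (a b c d : Fin n) : ℝ :=
  ∑ G ∈ realizations D, f G * (if altA G a b c d then f G - f (tog G a b c d) else 0)

open scoped Classical in
lemma Yterm_add {a b c d : Fin n} (h : Dist4 a b c d) (D : Fin n → ℕ) (f : Gr n → ℝ) :
    Yterm D f a b c d + Yterm D f a b d c = (1 / 2) * GG D f a b c d := by
  have h1 : Yterm D f a b c d + Yterm D f a b d c =
      ∑ G ∈ (realizations D).filter (fun G => alt G a b c d),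
        f G * (f G - f (tog G a b c d)) := by
    unfold Yterm
    rw [← Finset.sum_add_distrib, Finset.sum_filter]
    refine Finset.sum_congr rfl (fun G _ => ?_)
    rw [tog_swap34]
    by_cases hA : altA G a b c d
    · rw [if_pos hA, if_neg (altA_excl hA), if_pos (alt_iff.2 (Or.inl hA))]
      ring
    · by_cases hB : altA G a b d c
      · rw [if_neg hA, if_pos hB, if_pos (alt_iff.2 (Or.inr hB))]
        ring
      · rw [if_neg hA, if_neg hB, if_neg (fun hh => (alt_iff.1 hh).elim hA hB)]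
        ring
  have h2 : ∑ G ∈ (realizations D).filter (fun G => alt G a b c d),
        f G * (f G - f (tog G a b c d)) =
      ∑ G ∈ (realizations D).filter (fun G => alt G a b c d),
        f (tog G a b c d) * (f (tog G a b c d) - f G) := by
    refine Finset.sum_nbij' (fun G => tog G a b c d) (fun G => tog G a b c d) ?_ ?_ ?_ ?_ ?_
    · intro G hG
      obtain ⟨h3, h4⟩ := Finset.mem_filter.1 hG
      exact Finset.mem_filter.2 ⟨tog_mem h h3 h4, (alt_tog h).2 h4⟩
    · intro G hG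
      obtain ⟨h3, h4⟩ := Finset.mem_filter.1 hG
      exact Finset.mem_filter.2 ⟨tog_mem h h3 h4, (alt_tog h).2 h4⟩
    · intro G _
      exact tog_tog G
    · intro G _
      exact tog_tog G
    · intro G _
      rw [tog_tog]
  have h3 : GG D f a b c d =
      ∑ G ∈ (realizations D).filter (fun G => alt G a b c d),
        f G * (f G - f (tog G a b c d)) +
      ∑ G ∈ (realizations D).filter (fun G => alt G a b c d),
        f (tog G a b c d) * (f (tog G a b c d) - f G) := by
    unfold GG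
    rw [← Finset.sum_add_distrib, Finset.sum_filter]
    refine Finset.sum_congr rfl (fun G _ => ?_)
    split_ifs <;> ring
  rw [h3, ← h2, h1]
  ring

/-- The Dirichlet form of the chain in terms of the switch gradients `GG`. -/
theorem kernel_form (hn : 4 ≤ n) (D : Fin n → ℕ) (f : Gr n → ℝ) :
    ∑ G ∈ realizations D, f G * (f G - ∑ G' ∈ realizations D, kernel n G G' * f G')
      = (1 / (12 * (n.choose 4 : ℝ))) *
          ((1 / 16) * ∑ t ∈ tup4 n, GG D f t.1 t.2.1 t.2.2.1 t.2.2.2) := by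
  classical
  have h1 : ∀ G ∈ realizations D,
      f G * (f G - ∑ G' ∈ realizations D, kernel n G G' * f G') =
        (1 / (12 * (n.choose 4 : ℝ))) * ((1 / 4) * ∑ t ∈ tup4 n,
          f G * (if altA G t.1 t.2.1 t.2.2.1 t.2.2.2 then
            f G - f (tog G t.1 t.2.1 t.2.2.1 t.2.2.2) else 0)) := by
    intro G hG
    rw [kernel_apply hn D f hG]
    have h2 := sum_props (fun F F' => f G - f (switchResult G F F'))
    have h3 : ∑ t ∈ tup4 n, (f G - f (switchResult G (tF t) (tF' t))) =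
        ∑ t ∈ tup4 n, (if altA G t.1 t.2.1 t.2.2.1 t.2.2.2 then
            f G - f (tog G t.1 t.2.1 t.2.2.1 t.2.2.2) else 0) := by
      refine Finset.sum_congr rfl (fun t ht => ?_)
      rw [tF, tF', res_mat (mem_tup4.1 ht)]
      split_ifs <;> ring
    rw [h3] at h2
    rw [← Finset.mul_sum, ← h2]
    ring
  rw [Finset.sum_congr rfl h1, ← Finset.mul_sum, ← Finset.mul_sum, Finset.sum_comm]
  have hswap : ∑ t ∈ tup4 n, Yterm D f t.1 t.2.1 t.2.2.1 t.2.2.2 =
      ∑ t ∈ tup4 n, Yterm D f t.1 t.2.1 t.2.2.2 t.2.2.1 := by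
    refine Finset.sum_nbij' (fun t => (t.1, t.2.1, t.2.2.2, t.2.2.1))
      (fun t => (t.1, t.2.1, t.2.2.2, t.2.2.1)) ?_ ?_ ?_ ?_ ?_
    · intro t ht
      exact mem_tup4.2 (mem_tup4.1 ht).swap34
    · intro t ht
      exact mem_tup4.2 (mem_tup4.1 ht).swap34
    · intro t _
      rfl
    · intro t _
      rfl
    · intro t _
      rfl
  have hsum : 2 * ∑ t ∈ tup4 n, Yterm D f t.1 t.2.1 t.2.2.1 t.2.2.2 =
      (1 / 2) * ∑ t ∈ tup4 n, GG D f t.1 t.2.1 t.2.2.1 t.2.2.2 := by
    rw [two_mul]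
    nth_rewrite 2 [hswap]
    rw [← Finset.sum_add_distrib, Finset.mul_sum]
    exact Finset.sum_congr rfl (fun t ht => Yterm_add (mem_tup4.1 ht) D f)
  have hY : ∑ t ∈ tup4 n, ∑ G ∈ realizations D,
      f G * (if altA G t.1 t.2.1 t.2.2.1 t.2.2.2 then
            f G - f (tog G t.1 t.2.1 t.2.2.1 t.2.2.2) else 0) =
      ∑ t ∈ tup4 n, Yterm D f t.1 t.2.1 t.2.2.1 t.2.2.2 := rfl
  rw [hY]
  have : ∑ t ∈ tup4 n, Yterm D f t.1 t.2.1 t.2.2.1 t.2.2.2 =
      (1 / 4) * ∑ t ∈ tup4 n, GG D f t.1 t.2.1 t.2.2.1 t.2.2.2 := by linarith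
  rw [this]
  ring

end

end Crest.Agent.SW
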