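/-
S0453 project: mixing from the spectral gap (abstract).  See SWPLAN.md, piece MIX.
-/
import Crest.Prelude.Def_SwitchChain

set_option autoImplicit false
open Finset

namespace Crest.Agent.SW

set_option linter.unusedSectionVars false

section mix

variable {α : Type*} [Fintype α] [DecidableEq α] (Ω : Finset α) (P : Matrix α α ℝ)

/-- Action of `P` (restricted to `Ω`) on functions. -/
noncomputable def mixOp (f : α → ℝ) (x : α) : ℝ := ∑ y ∈ Ω, P x y * f y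

/-- Jensen for `Q = 2P - I`. -/
lemma mix_jensen
    (hsym : ∀ x ∈ Ω, ∀ y ∈ Ω, P x y = P y x)
    (hnn : ∀ x y, 0 ≤ P x y)
    (hrow : ∀ x ∈ Ω, ∑ y ∈ Ω, P x y = 1)
    (hlazy : ∀ x ∈ Ω, 1 / 2 ≤ P x x) (f : α → ℝ) :
    ∑ x ∈ Ω, (2 * mixOp Ω P f x - f x) ^ 2 ≤ ∑ x ∈ Ω, f x ^ 2 := by
  set Q : α → α → ℝ := fun x y => 2 * P x y - if x = y then 1 else 0 with hQ
  have hQnn : ∀ x ∈ Ω, ∀ y ∈ Ω, 0 ≤ Q x y := by
    intro x hx y hy
    by_cases hxy : x = y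
    · subst hxy
      have := hlazy x hx
      simp only [hQ, if_true]
      linarith
    · simp only [hQ, hxy, if_false]
      have := hnn x y
      linarith
  have hQrow : ∀ x ∈ Ω, ∑ y ∈ Ω, Q x y = 1 := by
    intro x hx
    simp only [hQ, Finset.sum_sub_distrib, ← Finset.mul_sum, hrow x hx, Finset.sum_ite_eq, hx,
      if_true]
    norm_num
  have hQsym : ∀ x ∈ Ω, ∀ y ∈ Ω, Q x y = Q y x := by
    intro x hx y hy
    simp only [hQ, hsym x hx y hy, eq_comm]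
  have hQf : ∀ x ∈ Ω, 2 * mixOp Ω P f x - f x = ∑ y ∈ Ω, Q x y * f y := by
    intro x hx
    simp only [hQ, sub_mul, Finset.sum_sub_distrib, mixOp, Finset.mul_sum, mul_assoc, ite_mul,
      one_mul, zero_mul, Finset.sum_ite_eq, hx, if_true]
  have hJ : ∀ x ∈ Ω, (2 * mixOp Ω P f x - f x) ^ 2 ≤ ∑ y ∈ Ω, Q x y * f y ^ 2 := by
    intro x hx
    rw [hQf x hx]
    have h := Finset.sum_sq_le_sum_mul_sum_of_sq_le_mul Ω (r := fun y => Q x y * f y)
      (f := fun y => Q x y) (g := fun y => Q x y * f y ^ 2)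
      (fun y hy => hQnn x hx y hy)
      (fun y hy => mul_nonneg (hQnn x hx y hy) (sq_nonneg _))
      (fun y _ => le_of_eq (by ring))
    rwa [hQrow x hx, one_mul] at h
  calc ∑ x ∈ Ω, (2 * mixOp Ω P f x - f x) ^ 2
      ≤ ∑ x ∈ Ω, ∑ y ∈ Ω, Q x y * f y ^ 2 := Finset.sum_le_sum hJ
    _ = ∑ y ∈ Ω, ∑ x ∈ Ω, Q x y * f y ^ 2 := Finset.sum_comm
    _ = ∑ y ∈ Ω, f y ^ 2 := by
        refine Finset.sum_congr rfl (fun y hy => ?_)
        rw [← Finset.sum_mul]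
        have : ∑ x ∈ Ω, Q x y = 1 := by
          rw [← hQrow y hy]
          exact Finset.sum_congr rfl (fun x hx => hQsym x hx y hy)
        rw [this, one_mul]

/-- Contraction on mean-zero functions. -/
lemma mix_contract
    (hsym : ∀ x ∈ Ω, ∀ y ∈ Ω, P x y = P y x)
    (hnn : ∀ x y, 0 ≤ P x y)
    (hrow : ∀ x ∈ Ω, ∑ y ∈ Ω, P x y = 1)
    (hlazy : ∀ x ∈ Ω, 1 / 2 ≤ P x x)
    (γ : ℝ)
    (hgap : ∀ f : α → ℝ, γ * (∑ x ∈ Ω, f x ^ 2 - (∑ x ∈ Ω, f x) ^ 2 / (Ω.card : ℝ))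
        ≤ ∑ x ∈ Ω, f x * (f x - ∑ y ∈ Ω, P x y * f y))
    (f : α → ℝ) (hf : ∑ x ∈ Ω, f x = 0) :
    ∑ x ∈ Ω, mixOp Ω P f x ^ 2 ≤ (1 - γ) * ∑ x ∈ Ω, f x ^ 2 := by
  have h1 := mix_jensen Ω P hsym hnn hrow hlazy f
  have h2 := hgap f
  rw [hf] at h2
  have e1 : ∑ x ∈ Ω, f x * (f x - ∑ y ∈ Ω, P x y * f y)
      = ∑ x ∈ Ω, f x ^ 2 - ∑ x ∈ Ω, f x * mixOp Ω P f x := by
    rw [← Finset.sum_sub_distrib]
    refine Finset.sum_congr rfl (fun x _ => ?_)
    simp only [mixOp]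
    ring
  have e2 : ∑ x ∈ Ω, (2 * mixOp Ω P f x - f x) ^ 2
      = 4 * ∑ x ∈ Ω, mixOp Ω P f x ^ 2 - 4 * ∑ x ∈ Ω, f x * mixOp Ω P f x + ∑ x ∈ Ω, f x ^ 2 := by
    rw [Finset.mul_sum, Finset.mul_sum, ← Finset.sum_sub_distrib, ← Finset.sum_add_distrib]
    refine Finset.sum_congr rfl (fun x _ => ?_)
    ring
  rw [e1] at h2
  rw [e2] at h1
  norm_num at h2
  nlinarith

/-- The operator preserves the sum. -/
lemma mix_sum
    (hsym : ∀ x ∈ Ω, ∀ y ∈ Ω, P x y = P y x)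
    (hrow : ∀ x ∈ Ω, ∑ y ∈ Ω, P x y = 1) (f : α → ℝ) :
    ∑ x ∈ Ω, mixOp Ω P f x = ∑ x ∈ Ω, f x := by
  simp only [mixOp]
  rw [Finset.sum_comm]
  refine Finset.sum_congr rfl (fun y hy => ?_)
  rw [← Finset.sum_mul]
  have : ∑ x ∈ Ω, P x y = 1 := by
    rw [← hrow y hy]
    exact Finset.sum_congr rfl (fun x hx => hsym x hx y hy)
  rw [this, one_mul]

/-- Lazy reversible chain on `Ω` with Poincare constant `1/γ`: TV bound after `2 s` steps.
(No spectral theorem is needed: `‖Pf‖² ≤ ⟨f,Pf⟩` from laziness + Jensen, so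
`‖Pf‖² ≤ (1-γ)‖f‖²` on mean-zero `f`; iterate; then Cauchy-Schwarz.) -/
theorem mixing_of_gap {α : Type*} [Fintype α] [DecidableEq α] (Ω : Finset α) (P : Matrix α α ℝ)
    (hsym : ∀ x ∈ Ω, ∀ y ∈ Ω, P x y = P y x)
    (hnn : ∀ x y, 0 ≤ P x y)
    (hrow : ∀ x ∈ Ω, ∑ y ∈ Ω, P x y = 1)
    (hclosed : ∀ x ∈ Ω, ∀ y, y ∉ Ω → P x y = 0)
    (hlazy : ∀ x ∈ Ω, 1 / 2 ≤ P x x)
    (γ : ℝ) (hγ0 : 0 < γ) (hγ1 : γ ≤ 1)
    (hgap : ∀ f : α → ℝ, γ * (∑ x ∈ Ω, f x ^ 2 - (∑ x ∈ Ω, f x) ^ 2 / (Ω.card : ℝ))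
        ≤ ∑ x ∈ Ω, f x * (f x - ∑ y ∈ Ω, P x y * f y))
    (s : ℕ) (x : α) (hx : x ∈ Ω) :
    Crest.SwitchChain.tvDist (fun y => (P ^ (2 * s)) x y) (Crest.SwitchChain.unifOn Ω)
      ≤ (1 / 2) * Real.sqrt (Ω.card : ℝ) * (1 - γ) ^ s := by
  have hNpos : (0:ℝ) < (Ω.card : ℝ) := by
    exact_mod_cast Finset.card_pos.2 ⟨x, hx⟩
  set N : ℝ := (Ω.card : ℝ) with hN
  -- row vectors
  set G : ℕ → α → ℝ := fun t y => (P ^ t) x y with hG
  have hGoff : ∀ t y, y ∉ Ω → G t y = 0 := by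
    intro t
    induction t with
    | zero =>
      intro y hy
      have hxy : x ≠ y := fun h => hy (h ▸ hx)
      simp [hG, hxy]
    | succ t ih =>
      intro y hy
      simp only [hG, pow_succ, Matrix.mul_apply]
      refine Finset.sum_eq_zero (fun z _ => ?_)
      by_cases hz : z ∈ Ω
      · rw [hclosed z hz y hy, mul_zero]
      · have := ih z hz
        simp only [hG] at this
        rw [this, zero_mul]
  have hGsucc : ∀ t, ∀ y ∈ Ω, G (t + 1) y = mixOp Ω P (G t) y := by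
    intro t y hy
    simp only [hG, pow_succ, Matrix.mul_apply, mixOp]
    rw [← Finset.sum_subset (Finset.subset_univ Ω)]
    · refine Finset.sum_congr rfl (fun z hz => ?_)
      rw [hsym z hz y hy, mul_comm]
    · intro z _ hz
      have := hGoff t z hz
      simp only [hG] at this
      rw [this, zero_mul]
  set g : ℕ → α → ℝ := fun t y => G t y - 1 / N with hg
  have hgsucc : ∀ t, ∀ y ∈ Ω, g (t + 1) y = mixOp Ω P (g t) y := by
    intro t y hy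
    simp only [hg]
    rw [hGsucc t y hy]
    simp only [mixOp, mul_sub, Finset.sum_sub_distrib, ← Finset.sum_mul, hrow y hy, one_mul]
  have hg0 : ∀ y, g 0 y = (if x = y then 1 else 0) - 1 / N := by
    intro y
    simp [hg, hG, Matrix.one_apply]
  have hmean : ∀ t, ∑ y ∈ Ω, g t y = 0 := by
    intro t
    induction t with
    | zero =>
      simp only [hg0, Finset.sum_sub_distrib, Finset.sum_ite_eq, hx, if_true, Finset.sum_const,
        nsmul_eq_mul]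
      rw [← hN]
      field_simp
      norm_num
    | succ t ih =>
      rw [Finset.sum_congr rfl (hgsucc t), mix_sum Ω P hsym hrow, ih]
  have hnorm0 : ∑ y ∈ Ω, g 0 y ^ 2 ≤ 1 := by
    have e : ∑ y ∈ Ω, g 0 y ^ 2 = 1 - 1 / N := by
      have e1 : ∀ y ∈ Ω, g 0 y ^ 2 = (if x = y then 1 - 2 * (1 / N) else 0) + (1 / N) ^ 2 := by
        intro y _
        rw [hg0]
        by_cases hxy : x = y
        · simp only [hxy, if_true]; ring
        · simp only [hxy, if_false]; ring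
      rw [Finset.sum_congr rfl e1, Finset.sum_add_distrib, Finset.sum_ite_eq, if_pos hx,
        Finset.sum_const, nsmul_eq_mul, ← hN]
      field_simp
      ring
    rw [e]
    have : 0 < 1 / N := by positivity
    linarith
  have hnorm : ∀ t, ∑ y ∈ Ω, g t y ^ 2 ≤ (1 - γ) ^ t := by
    intro t
    induction t with
    | zero => simpa using hnorm0
    | succ t ih =>
      have h := mix_contract Ω P hsym hnn hrow hlazy γ hgap (g t) (hmean t)
      have e : ∑ y ∈ Ω, g (t + 1) y ^ 2 = ∑ y ∈ Ω, mixOp Ω P (g t) y ^ 2 :=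
        Finset.sum_congr rfl (fun y hy => by rw [hgsucc t y hy])
      rw [e, pow_succ]
      have h1 : 0 ≤ 1 - γ := by linarith
      calc ∑ y ∈ Ω, mixOp Ω P (g t) y ^ 2 ≤ (1 - γ) * ∑ y ∈ Ω, g t y ^ 2 := h
        _ ≤ (1 - γ) * (1 - γ) ^ t := mul_le_mul_of_nonneg_left ih h1
        _ = (1 - γ) ^ t * (1 - γ) := by ring
  have hCS : (∑ y ∈ Ω, |g (2 * s) y|) ≤ Real.sqrt N * (1 - γ) ^ s := by
    have h1 : (∑ y ∈ Ω, |g (2 * s) y|) ^ 2 ≤ N * ∑ y ∈ Ω, |g (2 * s) y| ^ 2 :=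
      sq_sum_le_card_mul_sum_sq
    have h2 : ∑ y ∈ Ω, |g (2 * s) y| ^ 2 ≤ (1 - γ) ^ (2 * s) := by
      simp only [sq_abs]
      exact hnorm (2 * s)
    have h3 : (∑ y ∈ Ω, |g (2 * s) y|) ^ 2 ≤ (Real.sqrt N * (1 - γ) ^ s) ^ 2 := by
      rw [mul_pow, Real.sq_sqrt hNpos.le, ← pow_mul, mul_comm s 2]
      exact h1.trans (mul_le_mul_of_nonneg_left h2 hNpos.le)
    have h4 : 0 ≤ Real.sqrt N * (1 - γ) ^ s :=
      mul_nonneg (Real.sqrt_nonneg _) (pow_nonneg (by linarith) _)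
    have h5 : 0 ≤ ∑ y ∈ Ω, |g (2 * s) y| := Finset.sum_nonneg (fun y _ => abs_nonneg _)
    exact (pow_le_pow_iff_left₀ h5 h4 two_ne_zero).1 h3
  have htv : Crest.SwitchChain.tvDist (fun y => (P ^ (2 * s)) x y) (Crest.SwitchChain.unifOn Ω)
      = (∑ y ∈ Ω, |g (2 * s) y|) / 2 := by
    unfold Crest.SwitchChain.tvDist
    congr 1
    rw [← Finset.sum_subset (Finset.subset_univ Ω)]
    · refine Finset.sum_congr rfl (fun y hy => ?_)
      simp only [Crest.SwitchChain.unifOn, hy, if_true, hg, hG]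
      rfl
    · intro y _ hy
      have := hGoff (2 * s) y hy
      simp only [hG] at this
      simp [Crest.SwitchChain.unifOn, hy, this]
  rw [htv]
  linarith

end mix

/-- The numerics: with `γ = 1/(24 n² C(n,4))`, `N ≤ 2^(n²)`. -/
theorem mix_numeric (n : ℕ) (hn : 4 ≤ n) (N : ℕ) (hN : N ≤ 2 ^ (n ^ 2)) :
    (1 / 2) * Real.sqrt (N : ℝ) * (1 - 1 / (24 * (n : ℝ) ^ 2 * (n.choose 4 : ℝ))) ^ (n ^ 8) ≤ 1 / 4 := by
  have hn0 : (0:ℝ) < (n:ℝ) := by
    have : 0 < n := by omega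
    exact_mod_cast this
  have hn4 : (4:ℝ) ≤ (n:ℝ) := by exact_mod_cast hn
  have hC1 : (1:ℝ) ≤ (n.choose 4 : ℝ) := by
    have : 0 < n.choose 4 := Nat.choose_pos hn
    exact_mod_cast this
  set C : ℝ := (n.choose 4 : ℝ) with hC
  have hC2 : C ≤ (n:ℝ) ^ 4 / 24 := by
    have := Nat.choose_le_pow_div (α := ℝ) 4 n
    simpa [Nat.factorial] using this
  set M : ℝ := 24 * (n:ℝ) ^ 2 * C with hM
  have hM1 : 1 ≤ M := by
    have : (1:ℝ) ≤ (n:ℝ) ^ 2 := by nlinarith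
    rw [hM]
    nlinarith
  have hM2 : M ≤ (n:ℝ) ^ 6 := by
    rw [hM]
    have : (n:ℝ) ^ 6 = 24 * (n:ℝ) ^ 2 * ((n:ℝ) ^ 4 / 24) := by ring
    rw [this]
    exact mul_le_mul_of_nonneg_left hC2 (by positivity)
  have hMpos : 0 < M := by linarith
  have hbase0 : 0 ≤ 1 - 1 / M := by
    have : 1 / M ≤ 1 := by
      rw [div_le_one hMpos]; exact hM1
    linarith
  have hbase1 : 1 - 1 / M ≤ Real.exp (-(1 / M)) := by
    have := Real.add_one_le_exp (-(1 / M))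
    linarith
  have hpow : (1 - 1 / M) ^ (n ^ 8) ≤ Real.exp (-((n:ℝ) ^ 2)) := by
    calc (1 - 1 / M) ^ (n ^ 8) ≤ (Real.exp (-(1 / M))) ^ (n ^ 8) :=
          pow_le_pow_left₀ hbase0 hbase1 _
      _ = Real.exp (-((n:ℝ) ^ 8 / M)) := by
          rw [← Real.exp_nat_mul]
          congr 1
          push_cast
          ring
      _ ≤ Real.exp (-((n:ℝ) ^ 2)) := by
          apply Real.exp_le_exp.2
          have : (n:ℝ) ^ 2 ≤ (n:ℝ) ^ 8 / M := by
            rw [le_div_iff₀ hMpos]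
            have : (n:ℝ) ^ 8 = (n:ℝ) ^ 2 * (n:ℝ) ^ 6 := by ring
            rw [this]
            exact mul_le_mul_of_nonneg_left hM2 (by positivity)
          linarith
  -- the square of `√N · exp(-n²)`
  have hsq : (Real.sqrt (N:ℝ) * Real.exp (-((n:ℝ) ^ 2))) ^ 2 ≤ (1 / 2) ^ 2 := by
    rw [mul_pow, Real.sq_sqrt (Nat.cast_nonneg _)]
    have hNle : (N:ℝ) ≤ 2 ^ (n ^ 2) := by exact_mod_cast hN
    have hexp : Real.exp (-((n:ℝ) ^ 2)) ^ 2 ≤ (1 / 4) ^ (n ^ 2) := by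
      have h2 : (1 / 4 : ℝ) = (1 / 2) ^ 2 := by norm_num
      have e : Real.exp (-((n:ℝ) ^ 2)) ^ 2 = (Real.exp (-1) ^ 2) ^ (n ^ 2) := by
        rw [← Real.exp_nat_mul, ← pow_mul, ← Real.exp_nat_mul]
        congr 1
        push_cast
        ring
      rw [e]
      apply pow_le_pow_left₀ (by positivity)
      have h3 : Real.exp (-1) ≤ 1 / 2 := by
        rw [Real.exp_neg, one_div]
        apply inv_anti₀ (by norm_num)
        have := Real.add_one_le_exp (1:ℝ)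
        linarith
      rw [h2]
      exact pow_le_pow_left₀ (by positivity) h3 2
    have h16 : 2 ≤ n ^ 2 := by nlinarith
    calc (N:ℝ) * Real.exp (-((n:ℝ) ^ 2)) ^ 2 ≤ 2 ^ (n ^ 2) * (1 / 4) ^ (n ^ 2) :=
          mul_le_mul hNle hexp (by positivity) (by positivity)
      _ = (1 / 2) ^ (n ^ 2) := by rw [← mul_pow]; norm_num
      _ ≤ (1 / 2) ^ 2 := pow_le_pow_of_le_one (by norm_num) (by norm_num) h16
  have hroot : Real.sqrt (N:ℝ) * Real.exp (-((n:ℝ) ^ 2)) ≤ 1 / 2 :=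
    (pow_le_pow_iff_left₀ (by positivity) (by norm_num) two_ne_zero).1 hsq
  calc (1 / 2) * Real.sqrt (N : ℝ) * (1 - 1 / M) ^ (n ^ 8)
      ≤ (1 / 2) * Real.sqrt (N : ℝ) * Real.exp (-((n:ℝ) ^ 2)) :=
        mul_le_mul_of_nonneg_left hpow (by positivity)
    _ = (1 / 2) * (Real.sqrt (N : ℝ) * Real.exp (-((n:ℝ) ^ 2))) := by ring
    _ ≤ 1 / 4 := by linarith

/-- Crude bound on the number of graphs. -/
theorem card_graphs_le (n : ℕ) (Ω : Finset (Finset (Crest.SwitchChain.Edge n))) :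
    Ω.card ≤ 2 ^ (n ^ 2) := by
  classical
  have h1 : Ω.card ≤ Fintype.card (Finset (Crest.SwitchChain.Edge n)) := Finset.card_le_univ Ω
  rw [Fintype.card_finset] at h1
  refine h1.trans (Nat.pow_le_pow_right (by norm_num) ?_)
  have h2 : Fintype.card (Crest.SwitchChain.Edge n) ≤ Fintype.card (Sym2 (Fin n)) :=
    Fintype.card_subtype_le _
  rw [Sym2.card, Fintype.card_fin, Nat.choose_two_right] at h2
  refine h2.trans (Nat.div_le_of_le_mul ?_)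
  rcases n with _ | m
  · simp
  · simp only [Nat.add_sub_cancel]
    nlinarith

end Crest.Agent.SW
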