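/-
S0453 project: assembly of the main inequality.
-/
import Crest.Agent.SWTog
import Crest.Agent.SWSpec
import Crest.Agent.SWMix
import Crest.Agent.SWKer
import Crest.Agent.SWConn
import Crest.Agent.SWEncB
import Crest.Agent.SWEnc3
import Crest.Agent.SWEncJ

set_option autoImplicit false
set_option linter.unusedSimpArgs false
open Finset
open Crest.SwitchChain

namespace Crest.Agent.SW

noncomputable section

variable {n : ℕ}

/-- Ordered pairs of distinct vertices. -/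
def pr (n : ℕ) : Finset (Fin n × Fin n) := univ.filter (fun q => q.1 ≠ q.2)

/-- Vertices off `a, b`. -/
def offV (a b : Fin n) : Finset (Fin n) := univ.filter (fun v => v ≠ a ∧ v ≠ b)

lemma ipI_comm (D : Fin n → ℕ) (f : Gr n → ℝ) (p q : Finset (Fin n)) :
    ipI D f p q = ipI D f q p := by
  simp [ipI, mul_comm]

/-- For `a ≠ b`, ordered pairs split according to their intersection with `{a, b}`. -/
lemma sum_pairs_split {a b : Fin n} (hab : a ≠ b) (h : Fin n → Fin n → ℝ) :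
    ∑ q ∈ pr n, h q.1 q.2
      = ∑ q ∈ pairsOff a b, h q.1 q.2
        + ∑ v ∈ offV a b, (h a v + h b v + h v a + h v b)
        + h a b + h b a := by
  classical
  -- pr n = pairsOff ⊔ {(a,v)} ⊔ {(b,v)} ⊔ {(v,a)} ⊔ {(v,b)} ⊔ {(a,b)} ⊔ {(b,a)}
  have e1 : ∑ q ∈ pr n, h q.1 q.2 = ∑ c, ∑ d, if c ≠ d then h c d else 0 := by
    rw [pr, Finset.sum_filter, Fintype.sum_prod_type]
  have e2 : ∑ q ∈ pairsOff a b, h q.1 q.2
      = ∑ c, ∑ d, if (c ≠ d ∧ c ≠ a ∧ c ≠ b ∧ d ≠ a ∧ d ≠ b) then h c d else 0 := by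
    rw [pairsOff, Finset.sum_filter, Fintype.sum_prod_type]
  have e3 : ∑ v ∈ offV a b, (h a v + h b v + h v a + h v b)
      = ∑ v, if (v ≠ a ∧ v ≠ b) then (h a v + h b v + h v a + h v b) else 0 := by
    rw [offV, Finset.sum_filter]
  have single : ∀ (g : Fin n → ℝ) (x : Fin n), ∑ v, (if v = x then g v else 0) = g x := by
    intro g x
    rw [Finset.sum_ite_eq' univ x g]; simp
  -- pointwise decomposition
  have key : ∀ c d : Fin n, (if c ≠ d then h c d else 0)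
      = (if (c ≠ d ∧ c ≠ a ∧ c ≠ b ∧ d ≠ a ∧ d ≠ b) then h c d else 0)
        + (if c = a then (if (d ≠ a ∧ d ≠ b) then h a d else 0) else 0)
        + (if c = b then (if (d ≠ a ∧ d ≠ b) then h b d else 0) else 0)
        + (if d = a then (if (c ≠ a ∧ c ≠ b) then h c a else 0) else 0)
        + (if d = b then (if (c ≠ a ∧ c ≠ b) then h c b else 0) else 0)
        + (if c = a then (if d = b then h a b else 0) else 0)
        + (if c = b then (if d = a then h b a else 0) else 0) := by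
    intro c d
    by_cases hca : c = a
    · subst hca
      by_cases hdb : d = b
      · subst hdb; simp [hab, hab.symm]
      · by_cases hda : d = c
        · subst hda; simp [hab, hab.symm]
        · simp [hab, hab.symm, hdb, hda, Ne.symm hda]
    · by_cases hcb : c = b
      · subst hcb
        by_cases hda : d = a
        · subst hda; simp [hab, hab.symm]
        · by_cases hdb : d = c
          · subst hdb; simp [hab, hab.symm, hca]
          · simp [hab, hab.symm, hda, hdb, Ne.symm hdb, hca]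
      · by_cases hda : d = a
        · subst hda; simp [hca, hcb, hab, hab.symm]
        · by_cases hdb : d = b
          · subst hdb; simp [hca, hcb, hab, hab.symm]
          · simp [hca, hcb, hda, hdb]
  rw [e1, e2, e3]
  simp_rw [key, Finset.sum_add_distrib]
  have t1 : ∑ c, ∑ d, (if c = a then (if (d ≠ a ∧ d ≠ b) then h a d else 0) else 0)
      = ∑ v, if (v ≠ a ∧ v ≠ b) then h a v else 0 := by
    rw [Finset.sum_eq_single a]
    · simp
    · intro c _ hc; simp [hc]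
    · simp
  have t2 : ∑ c, ∑ d, (if c = b then (if (d ≠ a ∧ d ≠ b) then h b d else 0) else 0)
      = ∑ v, if (v ≠ a ∧ v ≠ b) then h b v else 0 := by
    rw [Finset.sum_eq_single b]
    · simp
    · intro c _ hc; simp [hc]
    · simp
  have t3 : ∑ c, ∑ d, (if d = a then (if (c ≠ a ∧ c ≠ b) then h c a else 0) else 0)
      = ∑ v, if (v ≠ a ∧ v ≠ b) then h v a else 0 := by
    refine Finset.sum_congr rfl (fun c _ => ?_)
    rw [Finset.sum_eq_single a]
    · simp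
    · intro d _ hd; simp [hd]
    · simp
  have t4 : ∑ c, ∑ d, (if d = b then (if (c ≠ a ∧ c ≠ b) then h c b else 0) else 0)
      = ∑ v, if (v ≠ a ∧ v ≠ b) then h v b else 0 := by
    refine Finset.sum_congr rfl (fun c _ => ?_)
    rw [Finset.sum_eq_single b]
    · simp
    · intro d _ hd; simp [hd]
    · simp
  have t5 : ∑ c, ∑ d, (if c = a then (if d = b then h a b else 0) else 0) = h a b := by
    rw [Finset.sum_eq_single a]
    · simp
    · intro c _ hc; simp [hc]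
    · simp
  have t6 : ∑ c, ∑ d, (if c = b then (if d = a then h b a else 0) else 0) = h b a := by
    rw [Finset.sum_eq_single b]
    · simp
    · intro c _ hc; simp [hc]
    · simp
  rw [t1, t2, t3, t4, t5, t6]
  have t7 : ∑ v, (if (v ≠ a ∧ v ≠ b) then (h a v + h b v + h v a + h v b) else 0)
      = (∑ v, if (v ≠ a ∧ v ≠ b) then h a v else 0) + (∑ v, if (v ≠ a ∧ v ≠ b) then h b v else 0)
        + (∑ v, if (v ≠ a ∧ v ≠ b) then h v a else 0)
        + (∑ v, if (v ≠ a ∧ v ≠ b) then h v b else 0) := by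
    simp_rw [← Finset.sum_add_distrib]
    refine Finset.sum_congr rfl (fun v _ => ?_)
    split_ifs <;> simp
  rw [t7]
  ring

/-- `A'`: the sum of all `I_q` over ordered pairs. -/
def Ap (D : Fin n → ℕ) (f : Gr n → ℝ) (G : Gr n) : ℝ :=
  ∑ q ∈ pr n, Iop D {q.1, q.2} f G

lemma sum_sq_Ap (D : Fin n → ℕ) (f : Gr n → ℝ) :
    ∑ G ∈ realizations D, Ap D f G ^ 2
      = ∑ q ∈ pr n, ∑ q' ∈ pr n, ipI D f {q.1, q.2} {q'.1, q'.2} := by
  simp only [Ap, ipI, sq, Finset.sum_mul_sum]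
  rw [Finset.sum_comm]
  refine Finset.sum_congr rfl (fun q _ => ?_)
  rw [Finset.sum_comm]

/-- The triple sum is nonnegative. -/
lemma triple_total (D : Fin n → ℕ) (f : Gr n → ℝ) :
    0 ≤ ∑ x : Fin n, ∑ y : Fin n, ∑ z : Fin n,
        if (x ≠ y ∧ x ≠ z ∧ y ≠ z) then ipI D f {x, y} {x, z} else 0 := by
  set Ψ : Fin n → Fin n → Fin n → ℝ := fun x y z =>
    if (x ≠ y ∧ x ≠ z ∧ y ≠ z) then ipI D f {x, y} {x, z} else 0 with hΨ
  have p1 : ∑ x, ∑ y, ∑ z, Ψ x z y = ∑ x, ∑ y, ∑ z, Ψ x y z :=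
    Finset.sum_congr rfl (fun x _ => Finset.sum_comm)
  have p2 : ∑ x, ∑ y, ∑ z, Ψ y x z = ∑ x, ∑ y, ∑ z, Ψ x y z := Finset.sum_comm
  have p3 : ∑ x, ∑ y, ∑ z, Ψ y z x = ∑ x, ∑ y, ∑ z, Ψ x y z := by
    rw [Finset.sum_comm]
    refine Finset.sum_congr rfl (fun y _ => ?_)
    rw [Finset.sum_comm]
  have p4 : ∑ x, ∑ y, ∑ z, Ψ z x y = ∑ x, ∑ y, ∑ z, Ψ x y z := by
    calc ∑ x, ∑ y, ∑ z, Ψ z x y = ∑ x, ∑ z, ∑ y, Ψ z x y :=
          Finset.sum_congr rfl (fun x _ => Finset.sum_comm)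
      _ = ∑ z, ∑ x, ∑ y, Ψ z x y := Finset.sum_comm
  have p5 : ∑ x, ∑ y, ∑ z, Ψ z y x = ∑ x, ∑ y, ∑ z, Ψ x y z := by
    calc ∑ x, ∑ y, ∑ z, Ψ z y x = ∑ x, ∑ z, ∑ y, Ψ z y x :=
          Finset.sum_congr rfl (fun x _ => Finset.sum_comm)
      _ = ∑ z, ∑ x, ∑ y, Ψ z y x := Finset.sum_comm
      _ = ∑ z, ∑ y, ∑ x, Ψ z y x := Finset.sum_congr rfl (fun z _ => Finset.sum_comm)
  have pointwise : ∀ x y z : Fin n,
      0 ≤ Ψ x y z + Ψ x z y + Ψ y x z + Ψ y z x + Ψ z x y + Ψ z y x := by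
    intro x y z
    by_cases hd : x ≠ y ∧ x ≠ z ∧ y ≠ z
    · obtain ⟨hxy, hxz, hyz⟩ := hd
      have := triple_graph D f hxy hxz hyz
      simp only [hΨ, hxy, hxz, hyz, hxy.symm, hxz.symm, hyz.symm, ne_eq, not_false_eq_true,
        and_self, if_true]
      linarith
    · have h1 : ¬ (x ≠ z ∧ x ≠ y ∧ z ≠ y) := by rintro ⟨h1, h2, h3⟩; exact hd ⟨h2, h1, h3.symm⟩
      have h2 : ¬ (y ≠ x ∧ y ≠ z ∧ x ≠ z) := by rintro ⟨h1, h2, h3⟩; exact hd ⟨h1.symm, h3, h2⟩
      have h3 : ¬ (y ≠ z ∧ y ≠ x ∧ z ≠ x) := by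
        rintro ⟨h1, h2, h3⟩; exact hd ⟨h2.symm, h3.symm, h1⟩
      have h4 : ¬ (z ≠ x ∧ z ≠ y ∧ x ≠ y) := by
        rintro ⟨h1, h2, h3⟩; exact hd ⟨h3, h1.symm, h2.symm⟩
      have h5 : ¬ (z ≠ y ∧ z ≠ x ∧ y ≠ x) := by
        rintro ⟨h1, h2, h3⟩; exact hd ⟨h3.symm, h2.symm, h1.symm⟩
      simp [hΨ, hd, h1, h2, h3, h4, h5]
  have total : 0 ≤ ∑ x, ∑ y, ∑ z, (Ψ x y z + Ψ x z y + Ψ y x z + Ψ y z x + Ψ z x y + Ψ z y x) :=
    Finset.sum_nonneg (fun x _ => Finset.sum_nonneg (fun y _ => Finset.sum_nonneg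
      (fun z _ => pointwise x y z)))
  simp only [Finset.sum_add_distrib] at total
  rw [p1, p2, p3, p4, p5] at total
  linarith

/-- The disjoint sum is nonnegative. -/
lemma disjoint_total (D : Fin n → ℕ) (f : Gr n → ℝ) :
    0 ≤ ∑ q ∈ pr n, ∑ q' ∈ pairsOff q.1 q.2, ipI D f {q.1, q.2} {q'.1, q'.2} := by
  have hsymm : ∑ q ∈ pr n, ∑ q' ∈ pairsOff q.1 q.2, YY D f q'.1 q'.2 q.1 q.2
      = ∑ q ∈ pr n, ∑ q' ∈ pairsOff q.1 q.2, YY D f q.1 q.2 q'.1 q'.2 := by
    rw [Finset.sum_comm' (t' := pr n) (s' := fun q' => pairsOff q'.1 q'.2)]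
    intro q q'
    simp only [pr, pairsOff, Finset.mem_filter, Finset.mem_univ, true_and]
    constructor
    · rintro ⟨h1, h2, h3, h4, h5, h6⟩
      exact ⟨⟨h1, h3.symm, h5.symm, h4.symm, h6.symm⟩, h2⟩
    · rintro ⟨⟨h1, h3, h5, h4, h6⟩, h2⟩
      exact ⟨h1, h2, h3.symm, h4.symm, h5.symm, h6.symm⟩
  have h1 : ∀ q ∈ pr n, ∀ q' ∈ pairsOff q.1 q.2,
      (1 / 4) * GG D f q.1 q.2 q'.1 q'.2 - (1 / 2) * YY D f q.1 q.2 q'.1 q'.2
          - (1 / 2) * YY D f q'.1 q'.2 q.1 q.2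
        ≤ ipI D f {q.1, q.2} {q'.1, q'.2} := by
    intro q hq q' hq'
    simp only [pr, pairsOff, Finset.mem_filter, Finset.mem_univ, true_and] at hq hq'
    obtain ⟨h1, h2, h3, h4, h5⟩ := hq'
    exact disjoint_graph D f hq h2.symm h4.symm h3.symm h5.symm h1
  have h2 : ∑ q ∈ pr n, ∑ q' ∈ pairsOff q.1 q.2,
      ((1 / 4) * GG D f q.1 q.2 q'.1 q'.2 - (1 / 2) * YY D f q.1 q.2 q'.1 q'.2
          - (1 / 2) * YY D f q'.1 q'.2 q.1 q.2)
        ≤ ∑ q ∈ pr n, ∑ q' ∈ pairsOff q.1 q.2, ipI D f {q.1, q.2} {q'.1, q'.2} :=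
    Finset.sum_le_sum (fun q hq => Finset.sum_le_sum (fun q' hq' => h1 q hq q' hq'))
  have h3 : 0 ≤ ∑ q ∈ pr n, ((1 / 4) * ∑ q' ∈ pairsOff q.1 q.2, GG D f q.1 q.2 q'.1 q'.2
      - ∑ q' ∈ pairsOff q.1 q.2, YY D f q.1 q.2 q'.1 q'.2) := by
    refine Finset.sum_nonneg (fun q hq => ?_)
    have hq' : q.1 ≠ q.2 := by simpa [pr] using hq
    have := johnson_Y_graph D f hq'
    linarith
  have h4 : ∑ q ∈ pr n, ∑ q' ∈ pairsOff q.1 q.2,
      ((1 / 4) * GG D f q.1 q.2 q'.1 q'.2 - (1 / 2) * YY D f q.1 q.2 q'.1 q'.2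
          - (1 / 2) * YY D f q'.1 q'.2 q.1 q.2)
      = ∑ q ∈ pr n, ((1 / 4) * ∑ q' ∈ pairsOff q.1 q.2, GG D f q.1 q.2 q'.1 q'.2
      - ∑ q' ∈ pairsOff q.1 q.2, YY D f q.1 q.2 q'.1 q'.2) := by
    simp only [Finset.sum_sub_distrib, ← Finset.mul_sum]
    rw [hsymm]
    ring
  linarith

/-- Main inequality: `‖A' f‖² ≥ 2 Σ_q ‖I_q f‖²`. -/
theorem main_ineq (D : Fin n → ℕ) (f : Gr n → ℝ) :
    2 * ∑ q ∈ pr n, ipI D f {q.1, q.2} {q.1, q.2} ≤ ∑ G ∈ realizations D, Ap D f G ^ 2 := by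
  rw [sum_sq_Ap]
  have hsplit : ∀ q ∈ pr n, ∑ q' ∈ pr n, ipI D f {q.1, q.2} {q'.1, q'.2}
      = ∑ q' ∈ pairsOff q.1 q.2, ipI D f {q.1, q.2} {q'.1, q'.2}
        + ∑ v ∈ offV q.1 q.2, (2 * ipI D f {q.1, q.2} {q.1, v} + 2 * ipI D f {q.2, q.1} {q.2, v})
        + 2 * ipI D f {q.1, q.2} {q.1, q.2} := by
    intro q hq
    have hq' : q.1 ≠ q.2 := by simpa [pr] using hq
    have := sum_pairs_split hq' (fun c d => ipI D f {q.1, q.2} {c, d})
    rw [this]
    have e1 : ∀ v : Fin n, ipI D f {q.1, q.2} {q.1, v} + ipI D f {q.1, q.2} {q.2, v}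
        + ipI D f {q.1, q.2} {v, q.1} + ipI D f {q.1, q.2} {v, q.2}
        = 2 * ipI D f {q.1, q.2} {q.1, v} + 2 * ipI D f {q.2, q.1} {q.2, v} := by
      intro v
      rw [Finset.pair_comm v q.1, Finset.pair_comm v q.2, Finset.pair_comm q.2 q.1]
      ring
    simp_rw [e1]
    rw [Finset.pair_comm q.2 q.1]
    ring
  rw [Finset.sum_congr rfl hsplit]
  simp only [Finset.sum_add_distrib, ← Finset.mul_sum]
  have hT0 := disjoint_total D f
  have hT1 := triple_total D f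
  -- rewrite the triple terms
  have hS1 : ∑ q ∈ pr n, ∑ v ∈ offV q.1 q.2, ipI D f {q.1, q.2} {q.1, v}
      = ∑ x : Fin n, ∑ y : Fin n, ∑ z : Fin n,
        if (x ≠ y ∧ x ≠ z ∧ y ≠ z) then ipI D f {x, y} {x, z} else 0 := by
    rw [pr, Finset.sum_filter, Fintype.sum_prod_type]
    refine Finset.sum_congr rfl (fun x _ => Finset.sum_congr rfl (fun y _ => ?_))
    by_cases hxy : x = y
    · subst hxy; simp
    · simp only [hxy, ne_eq, not_false_eq_true, if_true, offV, Finset.sum_filter, true_and]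
      refine Finset.sum_congr rfl (fun z _ => ?_)
      by_cases hzx : z = x
      · subst hzx; simp
      · by_cases hzy : z = y
        · subst hzy; simp
        · simp [hzx, hzy, Ne.symm hzx, Ne.symm hzy]
  have hS2 : ∑ q ∈ pr n, ∑ v ∈ offV q.1 q.2, ipI D f {q.2, q.1} {q.2, v}
      = ∑ x : Fin n, ∑ y : Fin n, ∑ z : Fin n,
        if (x ≠ y ∧ x ≠ z ∧ y ≠ z) then ipI D f {x, y} {x, z} else 0 := by
    rw [pr, Finset.sum_filter, Fintype.sum_prod_type, Finset.sum_comm]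
    refine Finset.sum_congr rfl (fun x _ => Finset.sum_congr rfl (fun y _ => ?_))
    by_cases hxy : x = y
    · subst hxy; simp
    · simp only [Ne.symm hxy, ne_eq, not_false_eq_true, if_true, offV, Finset.sum_filter, true_and]
      refine Finset.sum_congr rfl (fun z _ => ?_)
      by_cases hzx : z = x
      · subst hzx; simp [Ne.symm hxy]
      · by_cases hzy : z = y
        · subst hzy; simp [hzx]
        · simp [hzx, hzy, Ne.symm hzx, Ne.symm hzy, hxy]
  rw [hS1, hS2]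
  linarith

/-! ### Spectral step -/

lemma Iop_congr_on (D : Fin n → ℕ) (p : Finset (Fin n)) {F H : Gr n → ℝ}
    (h : ∀ G ∈ realizations D, F G = H G) {G : Gr n} (hG : G ∈ realizations D) :
    Iop D p F G = Iop D p H G := by
  have h2 : Eop D p F G = Eop D p H G := by
    unfold Eop cexp
    congr 1
    refine Finset.sum_congr rfl (fun y hy => h y (mem_blockOf.1 hy).1)
  simp [Iop, h2, h G hG]

lemma Ap_congr_on (D : Fin n → ℕ) {F H : Gr n → ℝ}
    (h : ∀ G ∈ realizations D, F G = H G) {G : Gr n} (hG : G ∈ realizations D) :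
    Ap D F G = Ap D H G :=
  Finset.sum_congr rfl (fun q _ => Iop_congr_on D _ h hG)

lemma sum_mul_Iop_comm (D : Fin n → ℕ) (p : Finset (Fin n)) (F H : Gr n → ℝ) :
    ∑ G ∈ realizations D, F G * Iop D p H G = ∑ G ∈ realizations D, Iop D p F G * H G := by
  have := sum_mul_cexp_comm (realizations D) (keyOff p) H F
  simp only [Iop, Eop, mul_sub, sub_mul, Finset.sum_sub_distrib]
  rw [this]

lemma ipI_self (D : Fin n → ℕ) (f : Gr n → ℝ) (p : Finset (Fin n)) :
    ipI D f p p = ∑ G ∈ realizations D, f G * Iop D p f G := by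
  have := sum_sub_cexp_sq (realizations D) (keyOff p) f
  simp only [ipI, Iop, Eop]
  rw [← this]
  exact Finset.sum_congr rfl (fun x _ => by ring)

lemma ipI_self_nonneg (D : Fin n → ℕ) (f : Gr n → ℝ) (p : Finset (Fin n)) :
    0 ≤ ipI D f p p :=
  Finset.sum_nonneg (fun G _ => mul_self_nonneg _)

lemma sum_mul_Ap (D : Fin n → ℕ) (f : Gr n → ℝ) :
    ∑ G ∈ realizations D, f G * Ap D f G = ∑ q ∈ pr n, ipI D f {q.1, q.2} {q.1, q.2} := by
  simp only [Ap, Finset.mul_sum]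
  rw [Finset.sum_comm]
  exact Finset.sum_congr rfl (fun q _ => (ipI_self D f _).symm)

/-- Extension by zero of a function on realizations. -/
def extZ (D : Fin n → ℕ) (g : {G // G ∈ realizations D} → ℝ) (G : Gr n) : ℝ :=
  if h : G ∈ realizations D then g ⟨G, h⟩ else 0

lemma extZ_coe (D : Fin n → ℕ) (g : {G // G ∈ realizations D} → ℝ)
    (x : {G // G ∈ realizations D}) : extZ D g x.1 = g x := by
  simp [extZ, x.2]

lemma Iop_add (D : Fin n → ℕ) (p : Finset (Fin n)) (F H : Gr n → ℝ) (G : Gr n) :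
    Iop D p (fun y => F y + H y) G = Iop D p F G + Iop D p H G := by
  simp only [Iop, Eop, cexp_add]; ring

lemma Iop_smul (D : Fin n → ℕ) (p : Finset (Fin n)) (c : ℝ) (F : Gr n → ℝ) (G : Gr n) :
    Iop D p (fun y => c * F y) G = c * Iop D p F G := by
  simp only [Iop, Eop, cexp_smul]; ring

lemma Ap_add (D : Fin n → ℕ) (F H : Gr n → ℝ) (G : Gr n) :
    Ap D (fun y => F y + H y) G = Ap D F G + Ap D H G := by
  simp only [Ap, Iop_add, Finset.sum_add_distrib]

lemma Ap_smul (D : Fin n → ℕ) (c : ℝ) (F : Gr n → ℝ) (G : Gr n) :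
    Ap D (fun y => c * F y) G = c * Ap D F G := by
  simp only [Ap, Iop_smul, Finset.mul_sum]

lemma extZ_add (D : Fin n → ℕ) (g h : {G // G ∈ realizations D} → ℝ) :
    extZ D (g + h) = fun y => extZ D g y + extZ D h y := by
  funext y
  by_cases hy : y ∈ realizations D <;> simp [extZ, hy]

lemma extZ_smul (D : Fin n → ℕ) (c : ℝ) (g : {G // G ∈ realizations D} → ℝ) :
    extZ D (c • g) = fun y => c * extZ D g y := by
  funext y
  by_cases hy : y ∈ realizations D <;> simp [extZ, hy]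

/-- The operator `A = ½ A'` on functions on realizations. -/
def Top (D : Fin n → ℕ) :
    ({G // G ∈ realizations D} → ℝ) →ₗ[ℝ] ({G // G ∈ realizations D} → ℝ) where
  toFun g := fun x => (1 / 2) * Ap D (extZ D g) x.1
  map_add' g h := by
    funext x
    simp only [extZ_add, Ap_add, Pi.add_apply]
    ring
  map_smul' c g := by
    funext x
    simp only [extZ_smul, Ap_smul, Pi.smul_apply, RingHom.id_apply, smul_eq_mul]
    ring

lemma Top_apply (D : Fin n → ℕ) (g : {G // G ∈ realizations D} → ℝ)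
    (x : {G // G ∈ realizations D}) : Top D g x = (1 / 2) * Ap D (extZ D g) x.1 := rfl

lemma sum_sub_eq (D : Fin n → ℕ) (F : Gr n → ℝ) :
    ∑ x : {G // G ∈ realizations D}, F x.1 = ∑ G ∈ realizations D, F G :=
  Finset.sum_coe_sort (realizations D) F

lemma sum_mul_Ap_comm (D : Fin n → ℕ) (F H : Gr n → ℝ) :
    ∑ G ∈ realizations D, F G * Ap D H G = ∑ G ∈ realizations D, Ap D F G * H G := by
  simp only [Ap, Finset.mul_sum, Finset.sum_mul]
  rw [Finset.sum_comm]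
  conv_rhs => rw [Finset.sum_comm]
  exact Finset.sum_congr rfl (fun q _ => sum_mul_Iop_comm D _ F H)

lemma Top_symm (D : Fin n → ℕ) (f g : {G // G ∈ realizations D} → ℝ) :
    ∑ x, f x * Top D g x = ∑ x, Top D f x * g x := by
  have h1 : ∀ x : {G // G ∈ realizations D}, f x * Top D g x
      = (fun G => (1 / 2) * (extZ D f G * Ap D (extZ D g) G)) x.1 := by
    intro x; simp only [Top_apply, extZ_coe]; ring
  have h2 : ∀ x : {G // G ∈ realizations D}, Top D f x * g x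
      = (fun G => (1 / 2) * (Ap D (extZ D f) G * extZ D g G)) x.1 := by
    intro x; simp only [Top_apply, extZ_coe]; ring
  simp_rw [h1, h2]
  rw [sum_sub_eq D (fun G => (1 / 2) * (extZ D f G * Ap D (extZ D g) G)),
    sum_sub_eq D (fun G => (1 / 2) * (Ap D (extZ D f) G * extZ D g G)),
    ← Finset.mul_sum, ← Finset.mul_sum, sum_mul_Ap_comm]

lemma Top_form (D : Fin n → ℕ) (g : {G // G ∈ realizations D} → ℝ) :
    ∑ x, g x * Top D g x = (1 / 2) * ∑ q ∈ pr n, ipI D (extZ D g) {q.1, q.2} {q.1, q.2} := by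
  rw [← sum_mul_Ap, Finset.mul_sum, ← sum_sub_eq D
    (fun G => 1 / 2 * (extZ D g G * Ap D (extZ D g) G))]
  refine Finset.sum_congr rfl (fun x _ => ?_)
  rw [Top_apply, extZ_coe]; ring

lemma Top_sq (D : Fin n → ℕ) (g : {G // G ∈ realizations D} → ℝ) :
    ∑ x, (Top D g x) ^ 2 = (1 / 4) * ∑ G ∈ realizations D, Ap D (extZ D g) G ^ 2 := by
  rw [Finset.mul_sum, ← sum_sub_eq D (fun G => 1 / 4 * Ap D (extZ D g) G ^ 2)]
  refine Finset.sum_congr rfl (fun x _ => ?_)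
  rw [Top_apply]; ring

lemma Top_spectrum (D : Fin n → ℕ) (lam : ℝ) (φ : {G // G ∈ realizations D} → ℝ) (hφ : φ ≠ 0)
    (h : Top D φ = lam • φ) : lam = 0 ∨ 1 ≤ lam := by
  have hN : 0 < ∑ x, φ x ^ 2 := by
    obtain ⟨x, hx⟩ := Function.ne_iff.1 hφ
    exact Finset.sum_pos' (fun _ _ => sq_nonneg _) ⟨x, Finset.mem_univ _, by
      have : φ x ≠ 0 := hx
      positivity⟩
  have h1 : ∑ x, φ x * Top D φ x = lam * ∑ x, φ x ^ 2 := by
    rw [Finset.mul_sum]
    refine Finset.sum_congr rfl (fun x _ => ?_)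
    rw [h]; simp only [Pi.smul_apply, smul_eq_mul]; ring
  have h2 : ∑ x, (Top D φ x) ^ 2 = lam ^ 2 * ∑ x, φ x ^ 2 := by
    rw [Finset.mul_sum]
    refine Finset.sum_congr rfl (fun x _ => ?_)
    rw [h]; simp only [Pi.smul_apply, smul_eq_mul]; ring
  have h3 := Top_form D φ
  have h4 := Top_sq D φ
  have h5 := main_ineq D (extZ D φ)
  have h6 : 0 ≤ ∑ q ∈ pr n, ipI D (extZ D φ) {q.1, q.2} {q.1, q.2} :=
    Finset.sum_nonneg (fun q _ => ipI_self_nonneg D _ _)
  have h7 : 0 ≤ lam * ∑ x, φ x ^ 2 := by rw [← h1, h3]; positivity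
  have h8 : lam * ∑ x, φ x ^ 2 ≤ lam ^ 2 * ∑ x, φ x ^ 2 := by
    rw [← h1, ← h2, h3, h4]; linarith
  have hlam0 : 0 ≤ lam := by
    by_contra hneg
    have hneg' : lam < 0 := not_le.1 hneg
    nlinarith
  have hlam1 : lam ≤ lam ^ 2 := le_of_mul_le_mul_right h8 hN
  by_cases hz : lam = 0
  · exact Or.inl hz
  · right
    have : 0 < lam := lt_of_le_of_ne hlam0 (Ne.symm hz)
    nlinarith

lemma Top_kernel (D : Fin n → ℕ) (φ : {G // G ∈ realizations D} → ℝ) (h : Top D φ = 0)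
    (x y : {G // G ∈ realizations D}) : φ x = φ y := by
  have h1 : ∑ x, φ x * Top D φ x = 0 := by simp [h]
  rw [Top_form] at h1
  have h2 : ∑ q ∈ pr n, ipI D (extZ D φ) {q.1, q.2} {q.1, q.2} = 0 := by linarith
  have h3 := (Finset.sum_eq_zero_iff_of_nonneg
    (fun q _ => ipI_self_nonneg D (extZ D φ) {q.1, q.2})).1 h2
  have h4 : ∀ a b : Fin n, a ≠ b → ∀ G ∈ realizations D, Iop D {a, b} (extZ D φ) G = 0 := by
    intro a b hab G hG
    have h5 := h3 (a, b) (by simpa [pr] using hab)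
    have h6 := (Finset.sum_eq_zero_iff_of_nonneg
      (fun G _ => mul_self_nonneg (Iop D {a, b} (extZ D φ) G))).1 h5 G hG
    exact mul_self_eq_zero.1 h6
  have := conn D (extZ D φ) h4 x.2 y.2
  rwa [extZ_coe, extZ_coe] at this

/-- Poincare inequality for `A`. -/
theorem poincare_A (D : Fin n → ℕ) (f : Gr n → ℝ) :
    ∑ G ∈ realizations D, f G ^ 2
        - (∑ G ∈ realizations D, f G) ^ 2 / ((realizations D).card : ℝ)
      ≤ (1 / 2) * ∑ q ∈ pr n, ipI D f {q.1, q.2} {q.1, q.2} := by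
  set g : {G // G ∈ realizations D} → ℝ := fun x => f x.1 with hg
  have hP := poincare_of_eigen (Top D) (Top_symm D)
    (fun lam φ hφ h => Top_spectrum D lam φ hφ h) (fun φ h x y => Top_kernel D φ h x y) g
  have hext : ∀ G ∈ realizations D, extZ D g G = f G := by
    intro G hG; simp [extZ, hG, hg]
  have e1 : ∑ x, g x ^ 2 = ∑ G ∈ realizations D, f G ^ 2 := sum_sub_eq D (fun G => f G ^ 2)
  have e2 : ∑ x, g x = ∑ G ∈ realizations D, f G := sum_sub_eq D f
  have e3 : (Fintype.card {G // G ∈ realizations D} : ℝ) = ((realizations D).card : ℝ) := by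
    simp
  have e4 : ∑ x, g x * Top D g x = (1 / 2) * ∑ q ∈ pr n, ipI D f {q.1, q.2} {q.1, q.2} := by
    rw [Top_form]
    congr 1
    refine Finset.sum_congr rfl (fun q _ => ?_)
    refine Finset.sum_congr rfl (fun G hG => ?_)
    rw [Iop_congr_on D _ hext hG]
  rw [e1, e2, e3, e4] at hP
  exact hP

/-- Convert the double sum over `pr`, `pairsOff` to `tup4`. -/
lemma sum_tup4 (F : Fin n → Fin n → Fin n → Fin n → ℝ) :
    ∑ q ∈ pr n, ∑ q' ∈ pairsOff q.1 q.2, F q.1 q.2 q'.1 q'.2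
      = ∑ t ∈ tup4 n, F t.1 t.2.1 t.2.2.1 t.2.2.2 := by
  have e1 : ∑ q ∈ pr n, ∑ q' ∈ pairsOff q.1 q.2, F q.1 q.2 q'.1 q'.2
      = ∑ a : Fin n, ∑ b : Fin n, if a ≠ b then ∑ c : Fin n, ∑ d : Fin n,
          (if (c ≠ d ∧ c ≠ a ∧ c ≠ b ∧ d ≠ a ∧ d ≠ b) then F a b c d else 0) else 0 := by
    rw [pr, Finset.sum_filter, Fintype.sum_prod_type]
    refine Finset.sum_congr rfl (fun a _ => Finset.sum_congr rfl (fun b _ => ?_))
    by_cases hab : a = b
    · simp [hab]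
    · simp only [hab, ne_eq, not_false_eq_true, if_true]
      rw [pairsOff, Finset.sum_filter, Fintype.sum_prod_type]
  have e2 : ∑ t ∈ tup4 n, F t.1 t.2.1 t.2.2.1 t.2.2.2
      = ∑ a : Fin n, ∑ b : Fin n, ∑ c : Fin n, ∑ d : Fin n,
          (if (a ≠ b ∧ a ≠ c ∧ a ≠ d ∧ b ≠ c ∧ b ≠ d ∧ c ≠ d) then F a b c d else 0) := by
    rw [tup4, Finset.sum_filter]
    simp only [Fintype.sum_prod_type]
  rw [e1, e2]
  refine Finset.sum_congr rfl (fun a _ => Finset.sum_congr rfl (fun b _ => ?_))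
  by_cases hab : a = b
  · subst hab; simp
  · simp only [hab, ne_eq, not_false_eq_true, if_true, true_and]
    refine Finset.sum_congr rfl (fun c _ => Finset.sum_congr rfl (fun d _ => ?_))
    have : (¬ c = d ∧ ¬ c = a ∧ ¬ c = b ∧ ¬ d = a ∧ ¬ d = b)
        ↔ (¬ a = c ∧ ¬ a = d ∧ ¬ b = c ∧ ¬ b = d ∧ ¬ c = d) := by
      simp only [eq_comm (a := c) (b := a), eq_comm (a := c) (b := b),
        eq_comm (a := d) (b := a), eq_comm (a := d) (b := b)]
      tauto
    simp only [this]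

/-- The variance bound in terms of the switch gradients. -/
theorem var_le_GG (D : Fin n → ℕ) (f : Gr n → ℝ) :
    ∑ G ∈ realizations D, f G ^ 2
        - (∑ G ∈ realizations D, f G) ^ 2 / ((realizations D).card : ℝ)
      ≤ (1 / 16) * ∑ t ∈ tup4 n, GG D f t.1 t.2.1 t.2.2.1 t.2.2.2 := by
  refine (poincare_A D f).trans ?_
  rw [← sum_tup4 (fun a b c d => GG D f a b c d)]
  have : ∀ q ∈ pr n, ipI D f {q.1, q.2} {q.1, q.2}
      ≤ (1 / 8) * ∑ q' ∈ pairsOff q.1 q.2, GG D f q.1 q.2 q'.1 q'.2 := by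
    intro q hq
    have hq' : q.1 ≠ q.2 := by simpa [pr] using hq
    have h := johnson_P_graph D f hq'
    have e : ipI D f {q.1, q.2} {q.1, q.2}
        = ∑ G ∈ realizations D, (Iop D {q.1, q.2} f G) ^ 2 :=
      Finset.sum_congr rfl (fun G _ => by ring)
    rw [e]; exact h
  have h2 := Finset.sum_le_sum this
  rw [← Finset.mul_sum] at h2
  linarith

/-- The Poincare inequality with the chain's Dirichlet form (with room to spare). -/
theorem var_le_dirichlet (hn : 4 ≤ n) (D : Fin n → ℕ) (f : Gr n → ℝ) :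
    ∑ G ∈ realizations D, f G ^ 2
        - (∑ G ∈ realizations D, f G) ^ 2 / ((realizations D).card : ℝ)
      ≤ 12 * (n.choose 4 : ℝ) *
        ∑ G ∈ realizations D, f G * (f G - ∑ G' ∈ realizations D, kernel n G G' * f G') := by
  have hC : (0 : ℝ) < (n.choose 4 : ℝ) := by
    exact_mod_cast Nat.choose_pos hn
  rw [kernel_form hn D f]
  have := var_le_GG D f
  have e : 12 * (n.choose 4 : ℝ) * (1 / (12 * (n.choose 4 : ℝ))
      * ((1 / 16) * ∑ t ∈ tup4 n, GG D f t.1 t.2.1 t.2.2.1 t.2.2.2))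
      = (1 / 16) * ∑ t ∈ tup4 n, GG D f t.1 t.2.1 t.2.2.1 t.2.2.2 := by
    field_simp
  rw [e]; exact this

lemma dirichlet_nonneg (hn : 4 ≤ n) (D : Fin n → ℕ) (f : Gr n → ℝ) :
    0 ≤ ∑ G ∈ realizations D, f G * (f G - ∑ G' ∈ realizations D, kernel n G G' * f G') := by
  have hC : (0 : ℝ) < (n.choose 4 : ℝ) := by
    exact_mod_cast Nat.choose_pos hn
  rw [kernel_form hn D f]
  have : 0 ≤ ∑ t ∈ tup4 n, GG D f t.1 t.2.1 t.2.2.1 t.2.2.2 :=
    Finset.sum_nonneg (fun t _ => GG_nonneg D f)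
  positivity

end

end Crest.Agent.SW
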