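import Crest.Statements.S0453
import Crest.Agent.SWMain

set_option autoImplicit false
open Finset
open Crest Crest.LogicCS

namespace Crest.Agent.S0453

open Crest.Agent.SW in
/-- The Poincare inequality in the statement's form (auxiliary form of `var_le_dirichlet`). -/
private lemma poincare_stmt (n : ℕ) (hn : 4 ≤ n) (d : Fin n → ℕ)
    (hd : (Crest.SwitchChain.realizations d).Nonempty)
    (f : Finset (Crest.SwitchChain.Edge n) → ℝ) :
    ((Crest.SwitchChain.realizations d).card : ℝ) *
          (∑ G ∈ Crest.SwitchChain.realizations d, f G ^ 2) -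
        (∑ G ∈ Crest.SwitchChain.realizations d, f G) ^ 2 ≤
      24 * (n : ℝ) ^ 2 * (n.choose 4 : ℝ) * (Crest.SwitchChain.realizations d).card *
        ∑ G ∈ Crest.SwitchChain.realizations d,
          f G * (f G - ∑ G' ∈ Crest.SwitchChain.realizations d,
            Crest.SwitchChain.kernel n G G' * f G') := by
  have h1 := var_le_dirichlet hn d f
  have h2 := dirichlet_nonneg hn d f
  set Dir := ∑ G ∈ Crest.SwitchChain.realizations d,
          f G * (f G - ∑ G' ∈ Crest.SwitchChain.realizations d,
            Crest.SwitchChain.kernel n G G' * f G') with hDir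
  have hN : (0 : ℝ) < ((Crest.SwitchChain.realizations d).card : ℝ) := by
    exact_mod_cast Finset.card_pos.2 hd
  have hC : (0 : ℝ) < (n.choose 4 : ℝ) := by
    exact_mod_cast Nat.choose_pos hn
  have hn2 : (1 : ℝ) ≤ (n : ℝ) ^ 2 := by
    have : (4 : ℝ) ≤ (n : ℝ) := by exact_mod_cast hn
    nlinarith
  set N := ((Crest.SwitchChain.realizations d).card : ℝ)
  have e : N * (∑ G ∈ Crest.SwitchChain.realizations d, f G ^ 2)
      - (∑ G ∈ Crest.SwitchChain.realizations d, f G) ^ 2
      = N * (∑ G ∈ Crest.SwitchChain.realizations d, f G ^ 2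
        - (∑ G ∈ Crest.SwitchChain.realizations d, f G) ^ 2 / N) := by
    field_simp
  rw [e]
  have h3 : N * (∑ G ∈ Crest.SwitchChain.realizations d, f G ^ 2
        - (∑ G ∈ Crest.SwitchChain.realizations d, f G) ^ 2 / N)
      ≤ N * (12 * (n.choose 4 : ℝ) * Dir) := mul_le_mul_of_nonneg_left h1 hN.le
  refine h3.trans ?_
  have h4 : 0 ≤ N * (n.choose 4 : ℝ) * Dir := by positivity
  nlinarith [mul_nonneg h4 (sub_nonneg.2 hn2)]

open Crest.Agent.SW in
/-- For every n ≥ 4 and every labeled degree vector on n vertices with a simple realization: the lazy switch chain (hold with probability 1/2, else take a uniform four-vertex set and a uniform ordered pair of distinct perfect matchings on it, swapping the first for the second when the first is present and the second absent) is, from every realization, within total variation 1/4 of uniform on the realizations after some t ≤ 2n^8 steps; and Var(f) ≤ 24 n² C(n,4) ⟨f, (I − P) f⟩ for the uniform law. -/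
theorem result (n : ℕ) (hn : 4 ≤ n)
    (d : Fin n → ℕ) (hd : (Crest.SwitchChain.realizations d).Nonempty) :
    (∃ t : ℕ, t ≤ 2 * n ^ 8 ∧ ∀ G ∈ Crest.SwitchChain.realizations d,
        Crest.SwitchChain.tvDist (fun G' => (Crest.SwitchChain.kernel n ^ t) G G')
          (Crest.SwitchChain.unifOn (Crest.SwitchChain.realizations d)) ≤ 1 / 4) ∧
      ∀ f : Finset (Crest.SwitchChain.Edge n) → ℝ,
        ((Crest.SwitchChain.realizations d).card : ℝ) *
              (∑ G ∈ Crest.SwitchChain.realizations d, f G ^ 2) -
            (∑ G ∈ Crest.SwitchChain.realizations d, f G) ^ 2 ≤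
          24 * (n : ℝ) ^ 2 * (n.choose 4 : ℝ) * (Crest.SwitchChain.realizations d).card *
            ∑ G ∈ Crest.SwitchChain.realizations d,
              f G * (f G - ∑ G' ∈ Crest.SwitchChain.realizations d,
                Crest.SwitchChain.kernel n G G' * f G') := by
  refine ⟨⟨2 * n ^ 8, le_rfl, ?_⟩, poincare_stmt n hn d hd⟩
  intro G hG
  have hC : (0 : ℝ) < (n.choose 4 : ℝ) := by
    exact_mod_cast Nat.choose_pos hn
  have hn1 : (1 : ℝ) ≤ (n : ℝ) := by
    have : (4 : ℝ) ≤ (n : ℝ) := by exact_mod_cast hn
    linarith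
  have hC1 : (1 : ℝ) ≤ (n.choose 4 : ℝ) := by
    exact_mod_cast Nat.choose_pos hn
  have hn2 : (1 : ℝ) ≤ (n : ℝ) ^ 2 := by nlinarith
  have hbig : (1 : ℝ) ≤ 24 * (n : ℝ) ^ 2 * (n.choose 4 : ℝ) := by nlinarith [mul_le_mul hn2 hC1 (by norm_num) (by positivity)]
  have hpos : (0 : ℝ) < 24 * (n : ℝ) ^ 2 * (n.choose 4 : ℝ) := by linarith
  have hmix := mixing_of_gap (Crest.SwitchChain.realizations d) (Crest.SwitchChain.kernel n)
    (fun x _ y _ => kernel_symm x y) (fun x y => kernel_nonneg x y)
    (fun x hx => kernel_row hn d hx) (fun x hx y hy => kernel_closed d hx hy)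
    (fun x _ => kernel_lazy x) (1 / (24 * (n : ℝ) ^ 2 * (n.choose 4 : ℝ))) (by positivity)
    (by rw [div_le_one hpos]; exact hbig)
    (by
      intro f
      have h1 := var_le_dirichlet hn d f
      have h2 := dirichlet_nonneg hn d f
      set Dir := ∑ G ∈ Crest.SwitchChain.realizations d,
          f G * (f G - ∑ G' ∈ Crest.SwitchChain.realizations d,
            Crest.SwitchChain.kernel n G G' * f G')
      set V := ∑ x ∈ Crest.SwitchChain.realizations d, f x ^ 2
        - (∑ x ∈ Crest.SwitchChain.realizations d, f x) ^ 2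
          / ((Crest.SwitchChain.realizations d).card : ℝ)
      rw [div_mul_eq_mul_div, one_mul, div_le_iff₀ hpos]
      have h3 : V ≤ 12 * (n.choose 4 : ℝ) * Dir := h1
      have h4 : 0 ≤ (n.choose 4 : ℝ) * Dir := by positivity
      nlinarith [mul_nonneg h4 (sub_nonneg.2 hn2)])
    (n ^ 8) G hG
  have hnum := mix_numeric n hn _ (card_graphs_le n (Crest.SwitchChain.realizations d))
  exact hmix.trans hnum

end Crest.Agent.S0453
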