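import Crest.Statements.S0534
import Crest.Agent.H8GRed2

set_option autoImplicit false
open Crest.Quantum Crest.MathPhysics.AmpDamp
open Crest Crest.MathPhysics

namespace Crest.Agent.S0534

open Crest.Agent.H8G Matrix
open scoped ComplexOrder

/-- Holevo information under reindexing the input and output of a map. -/
lemma holevo_reindex {n : ℕ} (Φ : Matrix (Fin (n + 1) → Bool) (Fin (n + 1) → Bool) ℂ →
      Matrix (Fin (n + 1) → Bool) (Fin (n + 1) → Bool) ℂ)
    (Φ' : Matrix (Bool × (Fin n → Bool)) (Bool × (Fin n → Bool)) ℂ →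
      Matrix (Bool × (Fin n → Bool)) (Bool × (Fin n → Bool)) ℂ)
    (hΦ : ∀ M, Matrix.reindex (splitBit n) (splitBit n) (Φ M) =
      Φ' (Matrix.reindex (splitBit n) (splitBit n) M))
    (hH : ∀ M : Matrix (Fin (n + 1) → Bool) (Fin (n + 1) → Bool) ℂ, M.PosSemidef → (Φ M).PosSemidef)
    {m : ℕ} (q : Fin m → ℝ) (hq : ∀ a, 0 ≤ q a)
    (ρ : Fin m → Matrix (Fin (n + 1) → Bool) (Fin (n + 1) → Bool) ℂ)
    (hρ : ∀ a, (ρ a).PosSemidef) :
    holevoInfo Φ q ρ =
      holevoInfo Φ' q (fun a => Matrix.reindex (splitBit n) (splitBit n) (ρ a)) := by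
  unfold holevoInfo
  have h1 : (∑ a, (q a : ℂ) • Φ' (Matrix.reindex (splitBit n) (splitBit n) (ρ a))) =
      Matrix.reindex (splitBit n) (splitBit n) (∑ a, (q a : ℂ) • Φ (ρ a)) := by
    have h0 : ∀ a, Φ' (Matrix.reindex (splitBit n) (splitBit n) (ρ a)) =
        Matrix.reindex (splitBit n) (splitBit n) (Φ (ρ a)) := fun a => (hΦ _).symm
    simp only [h0]
    ext p r
    simp [Matrix.sum_apply]
  rw [h1, vnEntropy_reindex]
  · congr 1
    refine Finset.sum_congr rfl fun a _ => ?_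
    rw [← hΦ, vnEntropy_reindex _ (hH _ (hρ a)).1]
  · exact (Matrix.posSemidef_sum _ fun a _ =>
      (hH _ (hρ a)).smul (by exact_mod_cast hq a)).1

lemma reindex_density {α β : Type} [Fintype α] [Fintype β] [DecidableEq α] [DecidableEq β]
    (e : α ≃ β) {ρ : Matrix α α ℂ} (h : IsDensity ρ) :
    IsDensity (Matrix.reindex e e ρ) := by
  refine ⟨h.1.submatrix _, ?_⟩
  have := h.2
  rw [← this]
  simp only [Matrix.trace, Matrix.diag_apply, Matrix.reindex_apply, Matrix.submatrix_apply]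
  exact Equiv.sum_comp e.symm fun a => ρ a a

/-- A density matrix on one point has entropy zero. -/
lemma entropy_unique {α : Type} [Fintype α] [DecidableEq α] [Unique α] {A : Matrix α α ℂ}
    (h : IsDensity A) : vnEntropy A = 0 := by
  have hH := h.1.1
  have h1 := trace_re_eq_sum hH
  have h2 : A.trace.re = 1 := by rw [h.2]; simp
  rw [h2, Fintype.sum_unique] at h1
  rw [vnEntropy_eq_trF, trF_of_herm hH, Fintype.sum_unique, ← h1]
  simp

lemma holevo_zero {γ ν : ℝ} (hγ : γ ∈ Set.Icc (0 : ℝ) 1) (hν : ν ∈ Set.Icc (0 : ℝ) 1)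
    {m : ℕ} {q : Fin m → ℝ} {ρ : Fin m → Matrix (Fin 0 → Bool) (Fin 0 → Bool) ℂ}
    (hens : IsEnsemble q ρ) : holevoInfo (qubitPower 0 (gadMap γ ν)) q ρ = 0 := by
  have hc := qubitPower_gad_isChannel hγ hν 0
  have hd : ∀ a, IsDensity (qubitPower 0 (gadMap γ ν) (ρ a)) := fun a =>
    ⟨channel_psd hc (hens.2.2 a).1, by rw [hc.2.2, (hens.2.2 a).2]⟩
  have hm : IsDensity (∑ a, (q a : ℂ) • qubitPower 0 (gadMap γ ν) (ρ a)) := by
    refine ⟨Matrix.posSemidef_sum _ fun a _ => (hd a).1.smul (by exact_mod_cast hens.1 a), ?_⟩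
    simp only [Matrix.trace_sum, Matrix.trace_smul, (hd _).2, smul_eq_mul, mul_one]
    exact_mod_cast hens.2.1
  unfold holevoInfo
  rw [entropy_unique hm]
  simp [entropy_unique (hd _)]

lemma upper (γ ν : ℝ) (hγ : γ ∈ Set.Icc (0 : ℝ) 1) (hν : ν ∈ Set.Icc (0 : ℝ) 1) (n : ℕ) :
    ∀ (m : ℕ) (q : Fin m → ℝ) (ρ : Fin m → Matrix (Fin n → Bool) (Fin n → Bool) ℂ),
        IsEnsemble q ρ → ∃ p ∈ Set.Icc (0 : ℝ) 1,
          holevoInfo (qubitPower n (gadMap γ ν)) q ρ ≤ n * gadRate γ ν p := by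
  induction n with
  | zero =>
    intro m q ρ hens
    refine ⟨0, ⟨le_rfl, zero_le_one⟩, ?_⟩
    rw [holevo_zero hγ hν hens]
    simp
  | succ n ih =>
    intro m q ρ hens
    have hc := qubitPower_gad_isChannel hγ hν n
    have hc' := qubitPower_gad_isChannel hγ hν (n + 1)
    have hpsd : ∀ M : Matrix (Fin (n + 1) → Bool) (Fin (n + 1) → Bool) ℂ, M.PosSemidef →
        (qubitPower (n + 1) (gadMap γ ν) M).PosSemidef := fun M hM => channel_psd hc' hM
    rw [show (holevoInfo (qubitPower (n + 1) (gadMap γ ν)) q ρ) = _ from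
      holevo_reindex _ (qubitTensor (gadMap γ ν) (qubitPower n (gadMap γ ν)))
        (qubitPower_succ n _) hpsd q hens.1 ρ fun a => (hens.2.2 a).1]
    have hens' : IsEnsemble q (fun a => Matrix.reindex (splitBit n) (splitBit n) (ρ a)) :=
      ⟨hens.1, hens.2.1, fun a => reindex_density _ (hens.2.2 a)⟩
    obtain ⟨p₀, hp₀, m₂, q₂, ρ₂, h₂, hle⟩ := holevo_step hγ hν hc hens'
    obtain ⟨p₁, hp₁, hle₁⟩ := ih m₂ q₂ ρ₂ h₂
    have hn : (0 : ℝ) < (n : ℝ) + 1 := by positivity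
    have ha : 0 ≤ 1 / ((n : ℝ) + 1) := by positivity
    have hb : 0 ≤ (n : ℝ) / ((n : ℝ) + 1) := by positivity
    have hab : 1 / ((n : ℝ) + 1) + (n : ℝ) / ((n : ℝ) + 1) = 1 := by
      field_simp
      ring
    refine ⟨(1 / ((n : ℝ) + 1)) * p₀ + ((n : ℝ) / ((n : ℝ) + 1)) * p₁, ?_, ?_⟩
    · exact (convex_Icc (0 : ℝ) 1) hp₀ hp₁ ha hb hab
    · have hcon := (gadRate_concave hγ hν).2 hp₀ hp₁ ha hb hab
      simp only [smul_eq_mul] at hcon
      have := mul_le_mul_of_nonneg_left hcon hn.le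
      have e : ((n : ℝ) + 1) * (1 / ((n : ℝ) + 1) * gadRate γ ν p₀ +
          (n : ℝ) / ((n : ℝ) + 1) * gadRate γ ν p₁) = gadRate γ ν p₀ + n * gadRate γ ν p₁ := by
        field_simp
      rw [e] at this
      push_cast
      linarith

lemma lower (γ ν : ℝ) (hγ : γ ∈ Set.Icc (0 : ℝ) 1) (hν : ν ∈ Set.Icc (0 : ℝ) 1) (n : ℕ) :
    ∀ p ∈ Set.Icc (0 : ℝ) 1, ∃ (m : ℕ) (q : Fin m → ℝ)
        (ρ : Fin m → Matrix (Fin n → Bool) (Fin n → Bool) ℂ),
        IsEnsemble q ρ ∧ n * gadRate γ ν p ≤ holevoInfo (qubitPower n (gadMap γ ν)) q ρ := by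
  induction n with
  | zero =>
    intro p hp
    have hone : IsDensity (1 : Matrix (Fin 0 → Bool) (Fin 0 → Bool) ℂ) :=
      ⟨Matrix.PosSemidef.one, by simp [Matrix.trace]⟩
    refine ⟨1, fun _ => 1, fun _ => 1, ⟨fun _ => zero_le_one, by simp, fun _ => hone⟩, ?_⟩
    rw [holevo_zero hγ hν ⟨fun _ => zero_le_one, by simp, fun _ => hone⟩]
    simp
  | succ n ih =>
    intro p hp
    have hc := qubitPower_gad_isChannel hγ hν n
    have hc' := qubitPower_gad_isChannel hγ hν (n + 1)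
    have hpsd : ∀ M : Matrix (Fin (n + 1) → Bool) (Fin (n + 1) → Bool) ℂ, M.PosSemidef →
        (qubitPower (n + 1) (gadMap γ ν) M).PosSemidef := fun M hM => channel_psd hc' hM
    obtain ⟨m₂, q₂, ρ₂, h₂, hle₂⟩ := ih p hp
    obtain ⟨q₁, ρ₁, h₁, he₁⟩ := gad_ensemble hγ hν hp
    obtain ⟨m, q, ρ, h, he⟩ := product_ensemble hγ hν hc h₁ h₂
    let ρ' : Fin m → Matrix (Fin (n + 1) → Bool) (Fin (n + 1) → Bool) ℂ := fun a =>
      Matrix.reindex (splitBit n).symm (splitBit n).symm (ρ a)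
    have hens' : IsEnsemble q ρ' := ⟨h.1, h.2.1, fun a => reindex_density _ (h.2.2 a)⟩
    refine ⟨m, q, ρ', hens', ?_⟩
    have hre : (fun a => Matrix.reindex (splitBit n) (splitBit n) (ρ' a)) = ρ := by
      funext a
      ext x y
      simp [ρ']
    rw [show (holevoInfo (qubitPower (n + 1) (gadMap γ ν)) q ρ') = _ from
      holevo_reindex _ (qubitTensor (gadMap γ ν) (qubitPower n (gadMap γ ν)))
        (qubitPower_succ n _) hpsd q h.1 ρ' fun a => (hens'.2.2 a).1, hre, he, he₁]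
    push_cast
    linarith

/-- For the generalized amplitude-damping qubit channel with damping `γ` and stationary excited population `ν` in `[0, 1]`, and every `n ≥ 1`: the Holevo information (nats) of every finite ensemble of `n`-qubit density matrices through the `n`-fold tensor power of the channel is at most `n` times the rate function at some point of `[0, 1]`, and for every `p` in `[0, 1]` some such ensemble reaches at least `n` times the rate at `p`. So the `n`-use Holevo capacity is `n` times the top rate. -/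
theorem result (γ ν : ℝ) (hγ : γ ∈ Set.Icc (0 : ℝ) 1)
    (hν : ν ∈ Set.Icc (0 : ℝ) 1) (n : ℕ) (hn : 1 ≤ n) :
    (∀ (m : ℕ) (q : Fin m → ℝ) (ρ : Fin m → Matrix (Fin n → Bool) (Fin n → Bool) ℂ),
        IsEnsemble q ρ → ∃ p ∈ Set.Icc (0 : ℝ) 1,
          holevoInfo (qubitPower n (gadMap γ ν)) q ρ ≤ n * gadRate γ ν p) ∧
    (∀ p ∈ Set.Icc (0 : ℝ) 1, ∃ (m : ℕ) (q : Fin m → ℝ)
        (ρ : Fin m → Matrix (Fin n → Bool) (Fin n → Bool) ℂ),
        IsEnsemble q ρ ∧ n * gadRate γ ν p ≤ holevoInfo (qubitPower n (gadMap γ ν)) q ρ) :=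
  ⟨upper γ ν hγ hν n, lower γ ν hγ hν n⟩

end Crest.Agent.S0534
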