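import Mathlib

set_option autoImplicit false
set_option linter.unusedSimpArgs false
set_option linter.unnecessarySimpa false
set_option linter.unusedTactic false
set_option linter.unreachableTactic false

open MeasureTheory Metric Set
open scoped RealInnerProductSpace ENNReal

namespace Crest.Agent.Tet7Lattice

abbrev E2 := EuclideanSpace ℝ (Fin 2)

/-- Discrete intermediate value: the unit squares at the lattice points `(m + β n, n + κ m)`
cover the plane when `0 ≤ βκ < 1`. -/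
theorem lattice_hit (β κ X Y : ℝ) (h0 : 0 ≤ β * κ) (h1 : β * κ < 1) :
    ∃ m n : ℤ, 0 ≤ X - m - β * n ∧ X - m - β * n ≤ 1 ∧ 0 ≤ Y - n - κ * m ∧ Y - n - κ * m ≤ 1 := by
  set f : ℤ → ℝ := fun n => Y - n - κ * (⌊X - β * n⌋ : ℤ) with hf
  have hpos : 0 < 1 - β * κ := by linarith
  -- the step property
  have step : ∀ n : ℤ, f n - 1 ≤ f (n + 1) := by
    intro n
    simp only [hf]
    push_cast
    have key : 0 ≤ κ * ((⌊X - β * n⌋ : ℤ) - (⌊X - β * (n + 1)⌋ : ℤ) : ℝ) := by
      rcases lt_trichotomy β 0 with hβ | hβ | hβ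
      · have hκ : κ ≤ 0 := by
          by_contra hc
          push Not at hc
          have : β * κ < 0 := mul_neg_of_neg_of_pos hβ hc
          linarith
        have hle : ⌊X - β * n⌋ ≤ ⌊X - β * (n + 1)⌋ := by
          apply Int.floor_le_floor
          nlinarith
        have hle' : ((⌊X - β * n⌋ : ℤ) : ℝ) ≤ (⌊X - β * (n + 1)⌋ : ℤ) := by exact_mod_cast hle
        exact mul_nonneg_of_nonpos_of_nonpos hκ (by linarith)
      · subst hβ
        simp
      · have hκ : 0 ≤ κ := by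
          by_contra hc
          push Not at hc
          have : β * κ < 0 := mul_neg_of_pos_of_neg hβ hc
          linarith
        have hle : ⌊X - β * (n + 1)⌋ ≤ ⌊X - β * n⌋ := by
          apply Int.floor_le_floor
          nlinarith
        have hle' : ((⌊X - β * (n + 1)⌋ : ℤ) : ℝ) ≤ (⌊X - β * n⌋ : ℤ) := by exact_mod_cast hle
        exact mul_nonneg hκ (by linarith)
    nlinarith
  -- linear bound
  have bound : ∀ n : ℤ, |f n - (Y - κ * X - n * (1 - β * κ))| ≤ |κ| := by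
    intro n
    have hfl1 : ((⌊X - β * n⌋ : ℤ) : ℝ) ≤ X - β * n := Int.floor_le _
    have hfl2 : X - β * n < (⌊X - β * n⌋ : ℤ) + 1 := Int.lt_floor_add_one _
    have : f n - (Y - κ * X - n * (1 - β * κ)) = κ * ((X - β * n) - (⌊X - β * n⌋ : ℤ)) := by
      simp only [hf]; ring
    rw [this, abs_mul]
    have h3 : |(X - β * n) - ((⌊X - β * n⌋ : ℤ) : ℝ)| ≤ 1 := by
      rw [abs_le]; constructor <;> linarith
    calc |κ| * |(X - β * n) - ((⌊X - β * n⌋ : ℤ) : ℝ)| ≤ |κ| * 1 := by gcongr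
      _ = |κ| := mul_one _
  -- `f` is large for `n` very negative, negative for `n` very positive
  have hbdd : ∃ b : ℤ, ∀ z : ℤ, 0 ≤ f z → z ≤ b := by
    obtain ⟨b, hb⟩ := exists_int_gt ((Y - κ * X + |κ|) / (1 - β * κ))
    refine ⟨b, fun z hz => ?_⟩
    by_contra hc
    push Not at hc
    have hzb : (b : ℝ) < z := by exact_mod_cast hc
    have hb' : Y - κ * X + |κ| < b * (1 - β * κ) := by
      rwa [div_lt_iff₀ hpos] at hb
    have h2 := (abs_le.mp (bound z)).2
    have : (b : ℝ) * (1 - β * κ) < z * (1 - β * κ) := by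
      exact mul_lt_mul_of_pos_right hzb hpos
    linarith
  have hinh : ∃ z : ℤ, 0 ≤ f z := by
    obtain ⟨b, hb⟩ := exists_int_gt ((|κ| - (Y - κ * X)) / (1 - β * κ))
    refine ⟨-b, ?_⟩
    have hb' : |κ| - (Y - κ * X) < b * (1 - β * κ) := by
      rwa [div_lt_iff₀ hpos] at hb
    have h2 := (abs_le.mp (bound (-b))).1
    push_cast at h2
    nlinarith
  obtain ⟨n, hn, hmax⟩ := Int.exists_greatest_of_bdd hbdd hinh
  have hn1 : f (n + 1) < 0 := by
    by_contra hc
    push Not at hc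
    have := hmax (n + 1) hc
    omega
  have hn2 := step n
  refine ⟨⌊X - β * n⌋, n, ?_, ?_, hn, by linarith⟩
  · have := Int.floor_le (X - β * n)
    linarith
  · have := Int.lt_floor_add_one (X - β * n)
    linarith


/-! ### Frames -/

/-- Trace in an orthonormal basis. -/
theorem trace_frame (A : E2 →ₗ[ℝ] E2) (b : OrthonormalBasis (Fin 2) ℝ E2) :
    LinearMap.trace ℝ E2 A = ⟪b 0, A (b 0)⟫ + ⟪b 1, A (b 1)⟫ := by
  rw [LinearMap.trace_eq_matrix_trace ℝ b.toBasis A, Matrix.trace_fin_two]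
  simp [LinearMap.toMatrix_apply, OrthonormalBasis.repr_apply_apply]

/-- Determinant in an orthonormal basis. -/
theorem det_frame (A : E2 →ₗ[ℝ] E2) (b : OrthonormalBasis (Fin 2) ℝ E2) :
    LinearMap.det A = ⟪b 0, A (b 0)⟫ * ⟪b 1, A (b 1)⟫ - ⟪b 0, A (b 1)⟫ * ⟪b 1, A (b 0)⟫ := by
  rw [← LinearMap.det_toMatrix b.toBasis A, Matrix.det_fin_two]
  simp [LinearMap.toMatrix_apply, OrthonormalBasis.repr_apply_apply]

/-- The rotated frame. -/
noncomputable def rotFam (θ : ℝ) : Fin 2 → E2 :=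
  ![!₂[Real.cos θ, Real.sin θ], !₂[-Real.sin θ, Real.cos θ]]

theorem rotFam_orthonormal (θ : ℝ) : Orthonormal ℝ (rotFam θ) := by
  rw [orthonormal_iff_ite]
  have h := Real.sin_sq_add_cos_sq θ
  intro i j
  have key : ∀ x y : E2, ⟪x, y⟫ = x 0 * y 0 + x 1 * y 1 := by
    intro x y
    simp [PiLp.inner_apply, Fin.sum_univ_two]; ring
  fin_cases i <;> fin_cases j <;> rw [key] <;> simp [rotFam] <;> nlinarith

noncomputable def rotBasis (θ : ℝ) : OrthonormalBasis (Fin 2) ℝ E2 :=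
  OrthonormalBasis.mk (rotFam_orthonormal θ) (by
    have := (rotFam_orthonormal θ).linearIndependent.span_eq_top_of_card_eq_finrank' (by simp)
    exact this.ge)

@[simp] theorem rotBasis_apply (θ : ℝ) (i : Fin 2) : rotBasis θ i = rotFam θ i := by
  simp [rotBasis]

/-- Existence of a frame making the diagonal vanish. -/
theorem exists_frame (A : E2 →ₗ[ℝ] E2) (htr : LinearMap.trace ℝ E2 A = 0) :
    ∃ b : OrthonormalBasis (Fin 2) ℝ E2, ⟪b 0, A (b 0)⟫ = 0 ∧ ⟪b 1, A (b 1)⟫ = 0 := by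
  set g : ℝ → ℝ := fun θ => ⟪rotFam θ 0, A (rotFam θ 0)⟫ with hg
  have hrot_cont : Continuous fun θ : ℝ => rotFam θ 0 := by
    have : (fun θ : ℝ => rotFam θ 0) = fun θ => !₂[Real.cos θ, Real.sin θ] := by
      funext θ; simp [rotFam]
    rw [this]
    refine (PiLp.continuous_toLp 2 _).comp ?_
    refine continuous_pi fun i => ?_
    fin_cases i
    · simpa using Real.continuous_cos
    · simpa using Real.continuous_sin
  have hAc : Continuous fun x : E2 => A x := A.continuous_of_finiteDimensional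
  have hgc : Continuous g := by
    simp only [hg]
    exact (hrot_cont.inner (hAc.comp hrot_cont))
  have h0 : g 0 + g (Real.pi / 2) = 0 := by
    have := trace_frame A (rotBasis 0)
    rw [htr] at this
    have e0 : rotFam (Real.pi / 2) 0 = rotFam 0 1 := by
      simp [rotFam]
    simp only [hg, e0]
    simpa using this.symm
  obtain ⟨θ, hθ⟩ : ∃ θ, g θ = 0 := by
    have : (0 : ℝ) ∈ range g := by
      apply mem_range_of_exists_le_of_exists_ge hgc
      · by_cases h : g 0 ≤ 0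
        · exact ⟨0, h⟩
        · exact ⟨Real.pi / 2, by linarith⟩
      · by_cases h : 0 ≤ g 0
        · exact ⟨0, h⟩
        · exact ⟨Real.pi / 2, by linarith⟩
    exact this
  refine ⟨rotBasis θ, ?_, ?_⟩
  · simpa [hg] using hθ
  · have := trace_frame A (rotBasis θ)
    rw [htr] at this
    have h2 : ⟪rotBasis θ 0, A (rotBasis θ 0)⟫ = 0 := by simpa [hg] using hθ
    linarith


/-! ### Lattice in a frame -/

section Frame

variable (b : OrthonormalBasis (Fin 2) ℝ E2)

theorem frame_00 : ⟪b 0, b 0⟫ = 1 := by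
  simpa using b.inner_eq_one 0
theorem frame_11 : ⟪b 1, b 1⟫ = 1 := by
  simpa using b.inner_eq_one 1
theorem frame_01 : ⟪b 0, b 1⟫ = 0 := by
  simpa using b.inner_eq_zero (i := 0) (j := 1) (by simp)
theorem frame_10 : ⟪b 1, b 0⟫ = 0 := by
  simpa using b.inner_eq_zero (i := 1) (j := 0) (by simp)

theorem frame_decomp (v : E2) : v = ⟪b 0, v⟫ • b 0 + ⟪b 1, v⟫ • b 1 := by
  have := b.sum_repr' v
  simpa [Fin.sum_univ_two] using this.symm

theorem norm_frame (i : Fin 2) : ‖b i‖ = 1 := b.norm_eq_one i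

theorem norm_le_frame (v : E2) : ‖v‖ ≤ |⟪b 0, v⟫| + |⟪b 1, v⟫| := by
  conv_lhs => rw [frame_decomp b v]
  refine (norm_add_le _ _).trans ?_
  simp [norm_smul, norm_frame]

theorem abs_inner_le (i : Fin 2) (v : E2) : |⟪b i, v⟫| ≤ ‖v‖ := by
  have := abs_real_inner_le_norm (b i) v
  simpa [norm_frame] using this

/-- lattice points -/
noncomputable def lat (ℓ : ℝ) (m n : ℤ) : E2 := (ℓ * m) • b 0 + (ℓ * n) • b 1

theorem inner_lat0 (ℓ : ℝ) (m n : ℤ) : ⟪b 0, lat b ℓ m n⟫ = ℓ * m := by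
  simp [lat, inner_add_right, inner_smul_right, frame_00, frame_01]

theorem inner_lat1 (ℓ : ℝ) (m n : ℤ) : ⟪b 1, lat b ℓ m n⟫ = ℓ * n := by
  simp [lat, inner_add_right, inner_smul_right, frame_11, frame_10]

end Frame

theorem lattice_real (β κ : ℝ)
    (s ℓ : ℝ) (hℓ : 0 < ℓ) (hp0 : 0 ≤ (s * β) * (s * κ)) (hp1 : (s * β) * (s * κ) < 1) (x y : ℝ) :
    ∃ m n : ℤ, |(x - ℓ * m) + s * β * (y - ℓ * n)| ≤ ℓ / 2 ∧
      |(y - ℓ * n) + s * κ * (x - ℓ * m)| ≤ ℓ / 2 := by
  obtain ⟨m, n, h1, h2, h3, h4⟩ := lattice_hit (s * β) (s * κ)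
    ((x + s * β * y) / ℓ + 1 / 2) ((y + s * κ * x) / ℓ + 1 / 2) hp0 hp1
  refine ⟨m, n, ?_, ?_⟩
  · have e : (x - ℓ * m) + s * β * (y - ℓ * n)
        = ℓ * (((x + s * β * y) / ℓ + 1 / 2) - m - s * β * n - 1 / 2) := by
      field_simp; ring
    rw [e, abs_mul, abs_of_pos hℓ]
    have : |((x + s * β * y) / ℓ + 1 / 2) - m - s * β * n - 1 / 2| ≤ 1 / 2 := by
      rw [abs_le]; constructor <;> linarith
    nlinarith
  · have e : (y - ℓ * n) + s * κ * (x - ℓ * m)
        = ℓ * (((y + s * κ * x) / ℓ + 1 / 2) - n - s * κ * m - 1 / 2) := by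
      field_simp; ring
    rw [e, abs_mul, abs_of_pos hℓ]
    have : |((y + s * κ * x) / ℓ + 1 / 2) - n - s * κ * m - 1 / 2| ≤ 1 / 2 := by
      rw [abs_le]; constructor <;> linarith
    nlinarith

end Crest.Agent.Tet7Lattice
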