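import Mathlib

set_option autoImplicit false
open MeasureTheory Measure Module
open scoped ENNReal RealInnerProductSpace

namespace Crest.Agent.TetArea

/-- The plane with its Euclidean structure. -/
abbrev E2 := EuclideanSpace ℝ (Fin 2)

section general

variable {V : Type*} [NormedAddCommGroup V] [InnerProductSpace ℝ V]

/-- The linear map `z ↦ z₀ a + z₁ b`. -/
noncomputable def lin2 (a b : V) : E2 →ₗ[ℝ] V where
  toFun z := z 0 • a + z 1 • b
  map_add' x y := by
    simp only [PiLp.add_apply, add_smul]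
    abel
  map_smul' t x := by
    simp only [PiLp.smul_apply, smul_eq_mul, mul_smul, RingHom.id_apply, smul_add]

@[simp] lemma lin2_apply (a b : V) (z : E2) : lin2 a b z = z 0 • a + z 1 • b := rfl

/-- The squared area of the parallelogram spanned by `a, b`. -/
noncomputable def gram2 (a b : V) : ℝ := ‖a‖ ^ 2 * ‖b‖ ^ 2 - inner ℝ a b ^ 2

lemma gram2_nonneg (a b : V) : 0 ≤ gram2 a b := by
  unfold gram2
  have := abs_real_inner_le_norm a b
  have h2 : inner ℝ a b ^ 2 ≤ (‖a‖ * ‖b‖) ^ 2 := by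
    rw [← sq_abs]
    exact pow_le_pow_left₀ (abs_nonneg _) this 2
  nlinarith

lemma normDet_lin2_sq (a b : V) : (lin2 a b).normDet ^ 2 = gram2 a b := by
  have h := (lin2 a b).normDet_sq_eq_det_gram (EuclideanSpace.basisFun (Fin 2) ℝ)
  have h1 : (((lin2 a b).normDet ^ 2 : ℝ) : ℝ) = _ := h
  rw [h1, Matrix.det_fin_two]
  simp [Matrix.gram, gram2, real_inner_comm]
  ring

lemma normDet_lin2 (a b : V) : (lin2 a b).normDet = Real.sqrt (gram2 a b) := by
  rw [← normDet_lin2_sq, Real.sqrt_sq (LinearMap.normDet_nonneg _)]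

variable [MeasurableSpace V] [BorelSpace V]

lemma area_lin2_image (a b : V) (s : Set E2) :
    μHE[2] (lin2 a b '' s) = ENNReal.ofReal (Real.sqrt (gram2 a b)) * volume s := by
  have h := (lin2 a b).euclideanHausdorffMeasure_image_eq_normDet_mul_volume s
  rw [finrank_euclideanSpace_fin] at h
  rw [h, normDet_lin2]

omit [InnerProductSpace ℝ V] in
/-- Translation invariance of the Euclidean Hausdorff measure. -/
lemma area_translate (p : V) (s : Set V) : μHE[2] ((fun x => p + x) '' s) = μHE[2] s :=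
  (IsometryEquiv.addLeft p).isometry.euclideanHausdorffMeasure_image s

end general

/-! ### Standard triangle and square -/

/-- The standard triangle in the plane. -/
def triE : Set E2 := {z | 0 ≤ z 0 ∧ 0 ≤ z 1 ∧ z 0 + z 1 ≤ 1}

/-- The unit square in the plane. -/
def sqE : Set E2 := {z | z 0 ∈ Set.Icc (0:ℝ) 1 ∧ z 1 ∈ Set.Icc (0:ℝ) 1}

lemma volume_triP :
    volume {p : ℝ × ℝ | 0 ≤ p.1 ∧ 0 ≤ p.2 ∧ p.1 + p.2 ≤ 1} = ENNReal.ofReal (1 / 2) := by
  have hcl : IsClosed {p : ℝ × ℝ | 0 ≤ p.1 ∧ 0 ≤ p.2 ∧ p.1 + p.2 ≤ 1} := by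
    apply IsClosed.inter (isClosed_le continuous_const continuous_fst)
    apply IsClosed.inter (isClosed_le continuous_const continuous_snd)
    exact isClosed_le (continuous_fst.add continuous_snd) continuous_const
  rw [Measure.volume_eq_prod, Measure.prod_apply hcl.measurableSet]
  have hslice : ∀ x : ℝ, volume (Prod.mk x ⁻¹' {p : ℝ × ℝ | 0 ≤ p.1 ∧ 0 ≤ p.2 ∧ p.1 + p.2 ≤ 1}) =
      (Set.Icc (0:ℝ) 1).indicator (fun x => ENNReal.ofReal (1 - x)) x := by
    intro x
    by_cases hx : x ∈ Set.Icc (0:ℝ) 1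
    · rw [Set.indicator_of_mem hx]
      have : Prod.mk x ⁻¹' {p : ℝ × ℝ | 0 ≤ p.1 ∧ 0 ≤ p.2 ∧ p.1 + p.2 ≤ 1} = Set.Icc 0 (1 - x) := by
        ext y
        simp only [Set.mem_preimage, Set.mem_ofPred_eq, Set.mem_Icc]
        constructor
        · rintro ⟨_, h2, h3⟩
          exact ⟨h2, by linarith⟩
        · rintro ⟨h2, h3⟩
          exact ⟨hx.1, h2, by linarith⟩
      rw [this, Real.volume_Icc]
      simp
    · rw [Set.indicator_of_notMem hx]
      have : Prod.mk x ⁻¹' {p : ℝ × ℝ | 0 ≤ p.1 ∧ 0 ≤ p.2 ∧ p.1 + p.2 ≤ 1} = ∅ := by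
        ext y
        simp only [Set.mem_preimage, Set.mem_ofPred_eq, Set.mem_empty_iff_false, iff_false]
        rintro ⟨h1, h2, h3⟩
        exact hx ⟨h1, by linarith⟩
      rw [this, measure_empty]
  simp_rw [hslice]
  rw [lintegral_indicator measurableSet_Icc]
  rw [← ofReal_integral_eq_lintegral_ofReal]
  · congr 1
    rw [integral_Icc_eq_integral_Ioc, ← intervalIntegral.integral_of_le (by norm_num : (0:ℝ) ≤ 1),
      intervalIntegral.integral_sub (by simp) (by simp)]
    simp [integral_id]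
    norm_num
  · exact (continuous_const.sub continuous_id).continuousOn.integrableOn_Icc
  · filter_upwards [ae_restrict_mem measurableSet_Icc] with x hx
    simpa using hx.2

lemma volume_triE : volume triE = ENNReal.ofReal (1 / 2) := by
  have h1 := (PiLp.volume_preserving_ofLp (Fin 2))
  have h2 := volume_preserving_finTwoArrow ℝ
  have hT : triE = (@WithLp.ofLp 2 (Fin 2 → ℝ)) ⁻¹' ((MeasurableEquiv.finTwoArrow (α := ℝ)) ⁻¹'
      {p : ℝ × ℝ | 0 ≤ p.1 ∧ 0 ≤ p.2 ∧ p.1 + p.2 ≤ 1}) := by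
    ext z
    simp [triE]
  have hcl : IsClosed {p : ℝ × ℝ | 0 ≤ p.1 ∧ 0 ≤ p.2 ∧ p.1 + p.2 ≤ 1} := by
    apply IsClosed.inter (isClosed_le continuous_const continuous_fst)
    apply IsClosed.inter (isClosed_le continuous_const continuous_snd)
    exact isClosed_le (continuous_fst.add continuous_snd) continuous_const
  rw [hT, h1.measure_preimage ((MeasurableEquiv.finTwoArrow (α := ℝ)).measurable
    hcl.measurableSet).nullMeasurableSet, h2.measure_preimage hcl.measurableSet.nullMeasurableSet,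
    volume_triP]

lemma volume_sqE : volume sqE = 1 := by
  have h1 := (PiLp.volume_preserving_ofLp (Fin 2))
  have hT : sqE = (@WithLp.ofLp 2 (Fin 2 → ℝ)) ⁻¹' (Set.pi Set.univ (fun _ => Set.Icc (0:ℝ) 1)) := by
    ext z
    simp only [sqE, Set.mem_ofPred_eq, Set.mem_preimage, Set.mem_pi, Set.mem_univ, forall_true_left,
      Fin.forall_fin_two]
  rw [hT, h1.measure_preimage (MeasurableSet.univ_pi (fun _ => measurableSet_Icc)).nullMeasurableSet,
    volume_pi_pi]
  simp

section triangles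

variable {V : Type*} [NormedAddCommGroup V] [InnerProductSpace ℝ V]

/-- Barycentric description of a triangle. -/
lemma mem_convexHull_triple (p q r x : V) :
    x ∈ convexHull ℝ {p, q, r} ↔
      ∃ a b c : ℝ, 0 ≤ a ∧ 0 ≤ b ∧ 0 ≤ c ∧ a + b + c = 1 ∧ x = a • p + b • q + c • r := by
  constructor
  · intro hx
    have hconv : Convex ℝ {x : V | ∃ a b c : ℝ, 0 ≤ a ∧ 0 ≤ b ∧ 0 ≤ c ∧ a + b + c = 1 ∧
        x = a • p + b • q + c • r} := by
      rintro x ⟨a, b, c, ha, hb, hc, hs, rfl⟩ y ⟨a', b', c', ha', hb', hc', hs', rfl⟩ t t' ht ht' htt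
      refine ⟨t * a + t' * a', t * b + t' * b', t * c + t' * c', by positivity, by positivity,
        by positivity, ?_, by module⟩
      have : t * a + t' * a' + (t * b + t' * b') + (t * c + t' * c') =
          t * (a + b + c) + t' * (a' + b' + c') := by ring
      rw [this, hs, hs']
      linarith
    refine convexHull_min ?_ hconv hx
    rintro y (rfl | rfl | rfl)
    · exact ⟨1, 0, 0, by norm_num, le_rfl, le_rfl, by norm_num, by simp⟩
    · exact ⟨0, 1, 0, le_rfl, by norm_num, le_rfl, by norm_num, by simp⟩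
    · exact ⟨0, 0, 1, le_rfl, le_rfl, by norm_num, by norm_num, by simp⟩
  · rintro ⟨a, b, c, ha, hb, hc, hs, rfl⟩
    have h := (convex_convexHull ℝ ({p, q, r} : Set V)).sum_mem (t := Finset.univ)
      (w := ![a, b, c]) (z := ![p, q, r])
      (by intro i _; fin_cases i <;> simp [ha, hb, hc])
      (by simp [Fin.sum_univ_three, hs])
      (by
        intro i _
        apply subset_convexHull
        fin_cases i <;> simp)
    simpa [Fin.sum_univ_three] using h

lemma convexHull_triple_eq (p q r : V) :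
    convexHull ℝ {p, q, r} = (fun x => p + x) '' (lin2 (q - p) (r - p) '' triE) := by
  ext x
  rw [mem_convexHull_triple]
  constructor
  · rintro ⟨a, b, c, ha, hb, hc, hs, rfl⟩
    refine ⟨_, ⟨!₂[b, c], ⟨by simpa using hb, by simpa using hc, ?_⟩, rfl⟩, ?_⟩
    · simp only [Matrix.cons_val_zero, Matrix.cons_val_one, Matrix.cons_val_fin_one]
      linarith
    · have ha' : a = 1 - b - c := by linarith
      subst ha'
      simp only [lin2_apply, Matrix.cons_val_zero, Matrix.cons_val_one,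
        Matrix.cons_val_fin_one]
      module
  · rintro ⟨_, ⟨z, ⟨h0, h1, h2⟩, rfl⟩, rfl⟩
    refine ⟨1 - z 0 - z 1, z 0, z 1, by linarith, h0, h1, by ring, ?_⟩
    simp only [lin2_apply]
    module

lemma parallelogram_eq (c a b : V) :
    {x : V | ∃ s ∈ Set.Icc (0:ℝ) 1, ∃ t ∈ Set.Icc (0:ℝ) 1, x = c + s • a + t • b} =
      (fun x => c + x) '' (lin2 a b '' sqE) := by
  ext x
  simp only [Set.mem_ofPred_eq, Set.mem_image]
  constructor
  · rintro ⟨s, hs, t, ht, rfl⟩
    refine ⟨_, ⟨!₂[s, t], ⟨by simpa using hs, by simpa using ht⟩, rfl⟩, ?_⟩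
    simp only [lin2_apply, Matrix.cons_val_zero, Matrix.cons_val_one,
      Matrix.cons_val_fin_one]
    abel
  · rintro ⟨_, ⟨z, ⟨h0, h1⟩, rfl⟩, rfl⟩
    refine ⟨z 0, h0, z 1, h1, ?_⟩
    simp only [lin2_apply]
    abel

variable [MeasurableSpace V] [BorelSpace V]

/-- **Area of a triangle**, by the Gram determinant (degenerate triangles included). -/
theorem triangle_area (p q r : V) :
    μHE[2] (convexHull ℝ {p, q, r}) =
      ENNReal.ofReal ((1 / 2) * Real.sqrt (‖q - p‖ ^ 2 * ‖r - p‖ ^ 2 - inner ℝ (q - p) (r - p) ^ 2)) := by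
  rw [convexHull_triple_eq, area_translate, area_lin2_image, volume_triE,
    ← ENNReal.ofReal_mul (Real.sqrt_nonneg _), mul_comm]
  rfl

/-- **Area of a parallelogram.** -/
theorem parallelogram_area (c a b : V) :
    μHE[2] {x : V | ∃ s ∈ Set.Icc (0:ℝ) 1, ∃ t ∈ Set.Icc (0:ℝ) 1, x = c + s • a + t • b} =
      ENNReal.ofReal (Real.sqrt (‖a‖ ^ 2 * ‖b‖ ^ 2 - inner ℝ a b ^ 2)) := by
  rw [parallelogram_eq, area_translate, area_lin2_image, volume_sqE, mul_one]
  rfl

end triangles

/-! ### Comparison of `μH[2]` and `μHE[2]` -/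

section scalar

/-- The constant with `μHE[2] = c • μH[2]`. -/
noncomputable def areaConst : NNReal :=
  addHaarScalarFactor (volume : Measure (EuclideanSpace ℝ (Fin 2))) μH[((2:ℕ):ℝ)]

lemma areaConst_ne_zero : areaConst ≠ 0 :=
  addHaarScalarFactor_volume_hausdorffMeasure_ne_zero 2

lemma areaConst_pos : 0 < areaConst := pos_iff_ne_zero.mpr areaConst_ne_zero

variable {X : Type*} [EMetricSpace X] [MeasurableSpace X] [BorelSpace X]

/-- `μHE[2] s = c * μH[2] s`, with `0 < c < ∞`. -/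
lemma muHE_eq_mul_muH (s : Set X) :
    μHE[2] s = (areaConst : ℝ≥0∞) * μH[(2:ℝ)] s := by
  rw [euclideanHausdorffMeasure_def]
  simp only [Measure.smul_apply, Nat.cast_ofNat]
  rfl

/-- The `toReal` form of the comparison. -/
lemma muH_toReal_eq (s : Set X) :
    (μH[(2:ℝ)] s).toReal = (μHE[2] s).toReal / (areaConst : ℝ) := by
  rw [muHE_eq_mul_muH, ENNReal.toReal_mul]
  have : (areaConst : ℝ) ≠ 0 := by exact_mod_cast areaConst_ne_zero
  simp
  field_simp

end scalar

end Crest.Agent.TetArea
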