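import Mathlib

set_option autoImplicit false

namespace Crest.Agent.TetCover

/-- Solving the quadratic for the root parameters `ρ, τ` without dividing by `x`. -/
lemma root_lemma (g x y s : ℝ) (hs : 0 ≤ s) (hy : |y| ≤ s) :
    ∃ ρ τ : ℝ, 0 ≤ ρ ∧ |τ| ≤ 1 ∧ s = ρ + x * g * τ ∧ y = τ * ρ + x * g * (1 + τ ^ 2) / 2 := by
  set D := s ^ 2 - 2 * g * x * y + g ^ 2 * x ^ 2 with hD
  have hbound : 2 * (g * x) * y ≤ 2 * |g * x| * s := by
    have h1 : (g * x) * y ≤ |g * x| * |y| := by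
      rw [← abs_mul]
      exact le_abs_self _
    have h2 : |g * x| * |y| ≤ |g * x| * s := mul_le_mul_of_nonneg_left hy (abs_nonneg _)
    linarith
  have hD0 : 0 ≤ D := by
    have : 0 ≤ (s - |g * x|) ^ 2 := sq_nonneg _
    have h3 : (|g * x|) ^ 2 = g ^ 2 * x ^ 2 := by rw [sq_abs]; ring
    nlinarith
  set ρ := Real.sqrt D with hρ
  have hρ0 : 0 ≤ ρ := Real.sqrt_nonneg _
  have hρ2 : ρ ^ 2 = D := Real.sq_sqrt hD0
  by_cases hsum : s + ρ = 0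
  · have hs0 : s = 0 := by linarith
    have hρ00 : ρ = 0 := by linarith
    have hy0 : y = 0 := by
      rw [hs0] at hy
      exact abs_nonpos_iff.mp hy
    have hgx : g * x = 0 := by
      have : D = g ^ 2 * x ^ 2 := by rw [hD, hs0, hy0]; ring
      rw [hρ00] at hρ2
      have h5 : (g * x) ^ 2 = 0 := by rw [mul_pow, ← this, ← hρ2]; norm_num
      exact pow_eq_zero_iff (by norm_num) |>.mp h5
    refine ⟨0, 0, le_rfl, by norm_num, ?_, ?_⟩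
    · rw [hs0]; ring
    · rw [hy0]
      have : x * g = 0 := by rw [mul_comm]; exact hgx
      simp [this]
  · have hpos : 0 < s + ρ := lt_of_le_of_ne (by linarith) (Ne.symm hsum)
    set w := 2 * y - g * x with hw
    set τ := w / (s + ρ) with hτ
    have hτ1 : τ * (s + ρ) = w := by
      rw [hτ]; field_simp
    have hsρ : s - ρ = x * g * τ := by
      have h6 : (s - ρ) * (s + ρ) = (x * g * τ) * (s + ρ) := by
        have : (x * g * τ) * (s + ρ) = x * g * w := by rw [mul_assoc, hτ1]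
        rw [this, hw]
        nlinarith
      exact mul_right_cancel₀ (ne_of_gt hpos) h6
    have hsdec : s = ρ + x * g * τ := by linarith
    refine ⟨ρ, τ, hρ0, ?_, hsdec, ?_⟩
    · rw [hτ, abs_div, abs_of_pos hpos, div_le_one hpos]
      by_cases hws : |w| ≤ s
      · linarith
      · push Not at hws
        have hρw : |w| - s ≤ ρ := by
          apply Real.le_sqrt_of_sq_le
          have h7 : y * w ≤ s * |w| := by
            calc y * w ≤ |y * w| := le_abs_self _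
              _ = |y| * |w| := abs_mul _ _
              _ ≤ s * |w| := mul_le_mul_of_nonneg_right hy (abs_nonneg _)
          have h8 : D = s ^ 2 - 2 * y * w + w ^ 2 := by
            rw [hD, hw]; ring
          have h9 : (|w| - s) ^ 2 = w ^ 2 - 2 * s * |w| + s ^ 2 := by
            have : (|w|) ^ 2 = w ^ 2 := sq_abs w
            nlinarith
          rw [h8, h9]
          linarith
        linarith
    · have h10 : 2 * y = τ * (s + ρ) + g * x := by rw [hτ1, hw]; ring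
      rw [hsdec] at h10
      have : y = (τ * (ρ + x * g * τ + ρ) + g * x) / 2 := by linarith
      rw [this]
      ring

/-- The dichotomy: the upper or the lower family catches every point. -/
lemma dichotomy_aux {γ κ x y s ρ τ ρ' τ' : ℝ} (hγ0 : 0 < γ) (hη : 0 < 1 - γ - γ ^ 2)
    (hκ : γ ^ 2 / 4 ≤ (1 - γ - γ ^ 2) * κ) (hκ0 : 0 ≤ κ)
    (hτ : |τ| ≤ 1) (hτ' : |τ'| ≤ 1)
    (h1 : s = ρ + x * γ * τ) (h2 : y = τ * ρ + x * γ * (1 + τ ^ 2) / 2)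
    (h3 : 1 - s = ρ' + y * (-γ) * τ') (h4 : x = τ' * ρ' + y * (-γ) * (1 + τ' ^ 2) / 2) :
    ρ ≤ 1 / 2 + κ * (τ ^ 2 + τ ^ 4) ∨ ρ' ≤ 1 / 2 + κ * (τ' ^ 2 + τ' ^ 4) := by
  by_contra hcon
  push Not at hcon
  obtain ⟨a1, a2⟩ := hcon
  have ht2 : τ ^ 2 ≤ 1 := by
    have := abs_le.mp hτ
    nlinarith
  have ht2' : τ' ^ 2 ≤ 1 := by
    have := abs_le.mp hτ'
    nlinarith
  have ht0 : 0 ≤ τ ^ 2 := sq_nonneg _
  have ht0' : 0 ≤ τ' ^ 2 := sq_nonneg _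
  have hprod : τ * τ' ≤ 1 := by
    have : |τ * τ'| ≤ 1 := by
      rw [abs_mul]
      exact mul_le_one₀ hτ (abs_nonneg _) hτ'
    exact (abs_le.mp this).2
  have hprod' : -(τ * τ') ≤ 1 := by
    have : |τ * τ'| ≤ 1 := by
      rw [abs_mul]
      exact mul_le_one₀ hτ (abs_nonneg _) hτ'
    linarith [(abs_le.mp this).1]
  obtain ⟨A, hA⟩ : ∃ A, A = γ * (1 + τ ^ 2) / 2 := ⟨_, rfl⟩
  obtain ⟨B, hB⟩ : ∃ B, B = γ * (1 + τ' ^ 2) / 2 := ⟨_, rfl⟩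
  have hA0 : 0 ≤ A := by rw [hA]; positivity
  have hB0 : 0 ≤ B := by rw [hB]; positivity
  have h2' : y = τ * ρ + x * A := by rw [hA, h2]; ring
  have h4' : x = τ' * ρ' - y * B := by
    rw [hB]
    linear_combination h4
  have hx : x * (1 + A * B) = τ' * ρ' - B * τ * ρ := by
    linear_combination h4' - B * h2'
  have hy : y * (1 + A * B) = τ * ρ + A * τ' * ρ' := by
    linear_combination h2' + A * h4'
  have hsum : ρ + ρ' - 1 = γ * (y * τ' - x * τ) := by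
    linear_combination -h1 - h3
  -- the key identity
  have key : (ρ - 1 / 2) * (1 + A * B - γ * (τ * τ') - (γ * B) * τ ^ 2) +
      (ρ' - 1 / 2) * (1 + A * B + γ * (τ * τ') - (γ * A) * τ' ^ 2) =
        (γ * B) * τ ^ 2 / 2 + (γ * A) * τ' ^ 2 / 2 := by
    have hs2 : (ρ + ρ' - 1) * (1 + A * B) =
        γ * (τ' * (τ * ρ + A * τ' * ρ') - τ * (τ' * ρ' - B * τ * ρ)) := by
      rw [hsum, ← hx, ← hy]
      ring
    linear_combination hs2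
  have hgB : γ * B * τ ^ 2 ≤ γ ^ 2 := by
    have h5 : (1 + τ' ^ 2) * τ ^ 2 ≤ 2 * 1 := mul_le_mul (by linarith) ht2 ht0 (by norm_num)
    have h6 : γ ^ 2 / 2 * ((1 + τ' ^ 2) * τ ^ 2) ≤ γ ^ 2 / 2 * (2 * 1) :=
      mul_le_mul_of_nonneg_left h5 (by positivity)
    rw [hB]
    linarith
  have hgA : γ * A * τ' ^ 2 ≤ γ ^ 2 := by
    have h5 : (1 + τ ^ 2) * τ' ^ 2 ≤ 2 * 1 := mul_le_mul (by linarith) ht2' ht0' (by norm_num)
    have h6 : γ ^ 2 / 2 * ((1 + τ ^ 2) * τ' ^ 2) ≤ γ ^ 2 / 2 * (2 * 1) :=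
      mul_le_mul_of_nonneg_left h5 (by positivity)
    rw [hA]
    linarith
  have hAB : 0 ≤ A * B := mul_nonneg hA0 hB0
  have hγt : γ * (τ * τ') ≤ γ := mul_le_of_le_one_right hγ0.le hprod
  have hγt' : γ * (-(τ * τ')) ≤ γ := mul_le_of_le_one_right hγ0.le hprod'
  have c1 : 1 - γ - γ ^ 2 ≤ 1 + A * B - γ * (τ * τ') - (γ * B) * τ ^ 2 := by linarith
  have c2 : 1 - γ - γ ^ 2 ≤ 1 + A * B + γ * (τ * τ') - (γ * A) * τ' ^ 2 := by linarith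
  have q0 : 0 ≤ κ * (τ ^ 2 + τ ^ 4) := by positivity
  have q0' : 0 ≤ κ * (τ' ^ 2 + τ' ^ 4) := by positivity
  have u0 : 0 < ρ - 1 / 2 := by linarith
  have u0' : 0 < ρ' - 1 / 2 := by linarith
  have l1 := mul_le_mul_of_nonneg_left c1 u0.le
  have l2 := mul_le_mul_of_nonneg_left c2 u0'.le
  have l3 : (1 - γ - γ ^ 2) * (κ * (τ ^ 2 + τ ^ 4)) < (1 - γ - γ ^ 2) * (ρ - 1 / 2) :=
    mul_lt_mul_of_pos_left (by linarith) hη
  have l4 : (1 - γ - γ ^ 2) * (κ * (τ' ^ 2 + τ' ^ 4)) < (1 - γ - γ ^ 2) * (ρ' - 1 / 2) :=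
    mul_lt_mul_of_pos_left (by linarith) hη
  have hT : γ ^ 2 / 4 * (τ ^ 2 + τ ^ 4 + (τ' ^ 2 + τ' ^ 4)) ≤
      (1 - γ - γ ^ 2) * κ * (τ ^ 2 + τ ^ 4 + (τ' ^ 2 + τ' ^ 4)) :=
    mul_le_mul_of_nonneg_right hκ (by positivity)
  have hrhs : (γ * B) * τ ^ 2 / 2 + (γ * A) * τ' ^ 2 / 2 ≤
      γ ^ 2 / 4 * (τ ^ 2 + τ ^ 4 + (τ' ^ 2 + τ' ^ 4)) := by
    rw [hA, hB]
    have : 0 ≤ γ ^ 2 / 4 * (τ ^ 2 - τ' ^ 2) ^ 2 := by positivity
    linarith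
  have e5 : (1 - γ - γ ^ 2) * κ * (τ ^ 2 + τ ^ 4 + (τ' ^ 2 + τ' ^ 4)) =
      (1 - γ - γ ^ 2) * (κ * (τ ^ 2 + τ ^ 4)) + (1 - γ - γ ^ 2) * (κ * (τ' ^ 2 + τ' ^ 4)) := by ring
  have e6 : (ρ - 1 / 2) * (1 - γ - γ ^ 2) = (1 - γ - γ ^ 2) * (ρ - 1 / 2) := by ring
  have e7 : (ρ' - 1 / 2) * (1 - γ - γ ^ 2) = (1 - γ - γ ^ 2) * (ρ' - 1 / 2) := by ring
  rw [e6] at l1
  rw [e7] at l2
  rw [e5] at hT
  rw [← key] at hrhs
  linarith

/-- The discretized test. -/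
lemma test_aux {g x y s ρ τ c γ κ Δ : ℝ} (hγ : 0 ≤ γ) (hκ : 0 ≤ κ) (hΔ : 0 ≤ Δ)
    (hg : |g| ≤ γ) (hx : |x| ≤ 1)
    (hρ : 0 ≤ ρ) (hτ : |τ| ≤ 1) (hc : |c| ≤ 1) (ht : |τ - c| ≤ Δ)
    (h1 : s = ρ + x * g * τ) (h2 : y = τ * ρ + x * g * (1 + τ ^ 2) / 2)
    (hR : ρ ≤ 1 / 2 + κ * (τ ^ 2 + τ ^ 4)) :
    s - x * g * c ≤ 1 / 2 + κ * (c ^ 2 + c ^ 4) + 6 * κ * Δ + γ * Δ ∧
    |y - c * s - x * g * (1 - c ^ 2) / 2| ≤ Δ * (s - x * g * c + 2 * γ * Δ) := by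
  obtain ⟨t, htdef⟩ : ∃ t, t = τ - c := ⟨_, rfl⟩
  have hτeq : τ = c + t := by linarith
  rw [← htdef] at ht
  have hxg : |x * g| ≤ γ := by
    rw [abs_mul]
    calc |x| * |g| ≤ 1 * γ := mul_le_mul hx hg (abs_nonneg _) zero_le_one
      _ = γ := one_mul _
  have hxgt : |x * g * t| ≤ γ * Δ := by
    rw [abs_mul]
    exact mul_le_mul hxg ht (abs_nonneg _) hγ
  have e1 : s - x * g * c = ρ + x * g * t := by
    rw [h1, hτeq]; ring
  have e2 : y - c * s - x * g * (1 - c ^ 2) / 2 = t * (ρ + x * g * t / 2) := by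
    rw [h2, h1, hτeq]; ring
  have hxgt' := abs_le.mp hxgt
  constructor
  · rw [e1]
    have hτ2 := abs_le.mp hτ
    have hc2 := abs_le.mp hc
    have ht2 := abs_le.mp ht
    -- the polynomial comparison
    have hdiff : τ ^ 2 + τ ^ 4 - (c ^ 2 + c ^ 4) ≤ 6 * Δ := by
      have e3 : τ ^ 2 + τ ^ 4 - (c ^ 2 + c ^ 4) = t * ((τ + c) * (1 + τ ^ 2 + c ^ 2)) := by
        rw [hτeq]; ring
      rw [e3]
      have h4 : |(τ + c) * (1 + τ ^ 2 + c ^ 2)| ≤ 6 := by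
        rw [abs_mul]
        have a1 : |τ + c| ≤ 2 := by
          calc |τ + c| ≤ |τ| + |c| := abs_add_le _ _
            _ ≤ 2 := by linarith
        have a2 : |1 + τ ^ 2 + c ^ 2| ≤ 3 := by
          rw [abs_of_nonneg (by positivity)]
          have : τ ^ 2 ≤ 1 := by nlinarith
          have : c ^ 2 ≤ 1 := by nlinarith
          linarith
        calc |τ + c| * |1 + τ ^ 2 + c ^ 2| ≤ 2 * 3 := mul_le_mul a1 a2 (abs_nonneg _) (by norm_num)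
          _ = 6 := by norm_num
      calc t * ((τ + c) * (1 + τ ^ 2 + c ^ 2)) ≤ |t * ((τ + c) * (1 + τ ^ 2 + c ^ 2))| := le_abs_self _
        _ = |t| * |(τ + c) * (1 + τ ^ 2 + c ^ 2)| := abs_mul _ _
        _ ≤ Δ * 6 := mul_le_mul ht h4 (abs_nonneg _) hΔ
        _ = 6 * Δ := by ring
    have : κ * (τ ^ 2 + τ ^ 4 - (c ^ 2 + c ^ 4)) ≤ κ * (6 * Δ) := mul_le_mul_of_nonneg_left hdiff hκ
    nlinarith
  · rw [e2, e1, abs_mul]
    have h5 : |ρ + x * g * t / 2| ≤ ρ + γ * Δ / 2 := by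
      rw [abs_le]
      constructor <;> nlinarith [mul_nonneg hγ hΔ]
    have h6 : ρ + γ * Δ / 2 ≤ ρ + x * g * t + 2 * γ * Δ := by
      nlinarith [mul_nonneg hγ hΔ]
    calc |t| * |ρ + x * g * t / 2| ≤ Δ * (ρ + γ * Δ / 2) :=
          mul_le_mul ht h5 (abs_nonneg _) hΔ
      _ ≤ Δ * (ρ + x * g * t + 2 * γ * Δ) := mul_le_mul_of_nonneg_left h6 hΔ

/-- Barycentric coordinates in the triangle with apex `(-s₀, 0)` and base `s = R`. -/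
lemma bary_aux {s' G R s0 Δ : ℝ} (hΔ : 0 < Δ) (hH : 0 < R + s0) (h1 : s' ≤ R)
    (h2 : |G| ≤ Δ * (s' + s0)) :
    ∃ a b e : ℝ, 0 ≤ a ∧ 0 ≤ b ∧ 0 ≤ e ∧ a + b + e = 1 ∧
      a * (-s0) + b * R + e * R = s' ∧ (b - e) * (Δ * (R + s0)) = G := by
  obtain ⟨H, hHdef⟩ : ∃ H, H = R + s0 := ⟨_, rfl⟩
  rw [← hHdef] at hH ⊢
  have hbd := abs_le.mp h2
  have hG1 : 0 ≤ (s' + s0) + G / Δ := by
    have : -(s' + s0) ≤ G / Δ := by
      rw [le_div_iff₀ hΔ]; linarith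
    linarith
  have hG2 : 0 ≤ (s' + s0) - G / Δ := by
    have : G / Δ ≤ s' + s0 := by
      rw [div_le_iff₀ hΔ]; linarith
    linarith
  refine ⟨(R - s') / H, ((s' + s0) + G / Δ) / (2 * H), ((s' + s0) - G / Δ) / (2 * H), ?_, ?_, ?_,
    ?_, ?_, ?_⟩
  · exact div_nonneg (by linarith) hH.le
  · exact div_nonneg hG1 (by linarith)
  · exact div_nonneg hG2 (by linarith)
  · rw [hHdef] at hH ⊢
    field_simp
    ring
  · rw [hHdef] at hH ⊢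
    field_simp
    ring
  · have hne : H ≠ 0 := ne_of_gt hH
    have hne' : Δ ≠ 0 := ne_of_gt hΔ
    field_simp
    ring

/-- Picking the index of the partition interval containing `τ`. -/
lemma pick_index {N : ℕ} {Δ τ : ℝ} (hN : 0 < N) (hΔ : 0 < Δ) (hNΔ : (N : ℝ) * Δ = 1)
    (hτ : |τ| ≤ 1) :
    ∃ i : Fin N, |τ - (-1 + (2 * ((i : ℕ) : ℝ) + 1) * Δ)| ≤ Δ := by
  have hτ2 := abs_le.mp hτ
  have hq : 0 ≤ (τ + 1) / (2 * Δ) := div_nonneg (by linarith) (by linarith)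
  by_cases hk : ⌊(τ + 1) / (2 * Δ)⌋₊ < N
  · refine ⟨⟨_, hk⟩, ?_⟩
    have h1 := Nat.floor_le hq
    have h2 := Nat.lt_floor_add_one ((τ + 1) / (2 * Δ))
    simp only
    obtain ⟨K, hK⟩ : ∃ K : ℝ, K = ((⌊(τ + 1) / (2 * Δ)⌋₊ : ℕ) : ℝ) := ⟨_, rfl⟩
    rw [← hK] at h1 h2 ⊢
    rw [le_div_iff₀ (by linarith)] at h1
    rw [div_lt_iff₀ (by linarith)] at h2
    rw [abs_le]
    constructor <;> nlinarith
  · push Not at hk
    have h1 : (N : ℝ) ≤ (τ + 1) / (2 * Δ) := by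
      calc (N : ℝ) ≤ ((⌊(τ + 1) / (2 * Δ)⌋₊ : ℕ) : ℝ) := by exact_mod_cast hk
        _ ≤ _ := Nat.floor_le hq
    rw [le_div_iff₀ (by linarith)] at h1
    have hτ1 : τ = 1 := by nlinarith
    refine ⟨⟨N - 1, by omega⟩, ?_⟩
    simp only
    have : ((N - 1 : ℕ) : ℝ) = (N : ℝ) - 1 := by
      rw [Nat.cast_sub hN]; simp
    rw [this, hτ1]
    have : 1 - (-1 + (2 * ((N : ℝ) - 1) + 1) * Δ) = Δ := by nlinarith
    rw [this, abs_of_pos hΔ]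

/-- The upper bound on `1/√(1+a)`. -/
lemma inv_sqrt_le {a : ℝ} (ha : 0 ≤ a) (ha1 : a ≤ 1) :
    1 / Real.sqrt (1 + a) ≤ 1 - a / 2 + 3 / 8 * a ^ 2 := by
  have hpos : 0 < Real.sqrt (1 + a) := Real.sqrt_pos.mpr (by linarith)
  have hsq : Real.sqrt (1 + a) ^ 2 = 1 + a := Real.sq_sqrt (by linarith)
  rw [div_le_iff₀ hpos]
  obtain ⟨r, hr⟩ : ∃ r, r = Real.sqrt (1 + a) := ⟨_, rfl⟩
  rw [← hr] at hsq hpos ⊢
  set f := 1 - a / 2 + 3 / 8 * a ^ 2 with hf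
  have hf0 : 0 < f := by nlinarith
  by_contra hcon
  push Not at hcon
  have h0 : 0 ≤ f * r := by positivity
  have h1 : (f * r) ^ 2 < 1 := by nlinarith
  have h2 : (f * r) ^ 2 = f ^ 2 * (1 + a) := by rw [mul_pow, hsq]
  have h3 : f ^ 2 * (1 + a) - 1 = a ^ 3 * (5 / 8 - 15 / 64 * a + 9 / 64 * a ^ 2) := by
    rw [hf]; ring
  have h4 : 0 ≤ a ^ 3 * (5 / 8 - 15 / 64 * a + 9 / 64 * a ^ 2) := by
    apply mul_nonneg (by positivity)
    nlinarith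
  nlinarith

/-- Sums of powers of the midpoints, by telescoping. -/
lemma sum_midpoints {N : ℕ} {Δ : ℝ} (hNΔ : (N : ℝ) * Δ = 1) (hΔ : 0 < Δ) :
    (∑ i : Fin N, 2 * Δ * (-1 + (2 * ((i : ℕ) : ℝ) + 1) * Δ) ^ 2 = 2 / 3 - 2 / 3 * Δ ^ 2) ∧
    (∑ i : Fin N, 2 * Δ * (-1 + (2 * ((i : ℕ) : ℝ) + 1) * Δ) ^ 4 ≤ 2 / 5) := by
  set t : ℕ → ℝ := fun i => -1 + 2 * (i : ℝ) * Δ with ht
  have hN2 : t N = 1 := by
    simp only [ht]
    have : 2 * (N : ℝ) * Δ = 2 * ((N : ℝ) * Δ) := by ring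
    rw [this, hNΔ]; norm_num
  have h0 : t 0 = -1 := by simp [ht]
  have hc : ∀ i : ℕ, (-1 + (2 * (i : ℝ) + 1) * Δ) = t i + Δ := by
    intro i
    simp only [ht]
    ring
  have hsucc : ∀ i : ℕ, t (i + 1) = t i + 2 * Δ := by
    intro i
    simp only [ht]
    push_cast
    ring
  constructor
  · rw [Fin.sum_univ_eq_sum_range (fun i : ℕ => 2 * Δ * (-1 + (2 * (i : ℝ) + 1) * Δ) ^ 2) N]
    have htel : ∑ i ∈ Finset.range N, ((t (i + 1)) ^ 3 - (t i) ^ 3) = (t N) ^ 3 - (t 0) ^ 3 :=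
      Finset.sum_range_sub (fun i => (t i) ^ 3) N
    rw [hN2, h0] at htel
    have hterm : ∀ i ∈ Finset.range N, (t (i + 1)) ^ 3 - (t i) ^ 3 =
        3 * (2 * Δ * (-1 + (2 * (i : ℝ) + 1) * Δ) ^ 2) + 2 * Δ ^ 3 := by
      intro i _
      rw [hc, hsucc]
      ring
    rw [Finset.sum_congr rfl hterm, Finset.sum_add_distrib, ← Finset.mul_sum,
      Finset.sum_const, Finset.card_range, nsmul_eq_mul] at htel
    have : (N : ℝ) * (2 * Δ ^ 3) = 2 * Δ ^ 2 := by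
      calc (N : ℝ) * (2 * Δ ^ 3) = ((N : ℝ) * Δ) * (2 * Δ ^ 2) := by ring
        _ = 2 * Δ ^ 2 := by rw [hNΔ, one_mul]
    rw [this] at htel
    linarith
  · rw [Fin.sum_univ_eq_sum_range (fun i : ℕ => 2 * Δ * (-1 + (2 * (i : ℝ) + 1) * Δ) ^ 4) N]
    have htel : ∑ i ∈ Finset.range N, ((t (i + 1)) ^ 5 - (t i) ^ 5) = (t N) ^ 5 - (t 0) ^ 5 :=
      Finset.sum_range_sub (fun i => (t i) ^ 5) N
    rw [hN2, h0] at htel
    have hterm : ∀ i ∈ Finset.range N, 5 * (2 * Δ * (-1 + (2 * (i : ℝ) + 1) * Δ) ^ 4) ≤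
        (t (i + 1)) ^ 5 - (t i) ^ 5 := by
      intro i _
      rw [hc, hsucc]
      have : (t i + 2 * Δ) ^ 5 - t i ^ 5 - 5 * (2 * Δ * (t i + Δ) ^ 4) =
          20 * (t i + Δ) ^ 2 * Δ ^ 3 + 2 * Δ ^ 5 := by ring
      have h2 : 0 ≤ 20 * (t i + Δ) ^ 2 * Δ ^ 3 + 2 * Δ ^ 5 := by positivity
      linarith
    have := Finset.sum_le_sum hterm
    rw [htel, ← Finset.mul_sum] at this
    norm_num at this
    linarith

end Crest.Agent.TetCover
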