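import Crest.Agent.TetShadow
import Crest.Agent.TetCover1

set_option autoImplicit false
open MeasureTheory Measure Module
open scoped ENNReal RealInnerProductSpace

namespace Crest.Agent.TetCover

open Crest.Agent.TetArea

/-- A vector given by coordinates. -/
noncomputable def v3 (a b c : ℝ) : E3 := !₂[a, b, c]

@[simp] lemma v3_0 (a b c : ℝ) : v3 a b c 0 = a := by simp [v3]
@[simp] lemma v3_1 (a b c : ℝ) : v3 a b c 1 = b := by simp [v3]
@[simp] lemma v3_2 (a b c : ℝ) : v3 a b c 2 = c := by simp [v3]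

lemma E3_ext {x y : E3} (h0 : x 0 = y 0) (h1 : x 1 = y 1) (h2 : x 2 = y 2) : x = y := by
  ext i
  fin_cases i
  · exact h0
  · exact h1
  · exact h2

/-- The cylinder over the triangle `p q r` in direction `u`. -/
def Cyl (u p q r : E3) : Set E3 :=
  {x : E3 | ∃ b ∈ convexHull ℝ {p, q, r}, ∃ t : ℝ, x = b + t • u}

/-- The normalised direction. -/
noncomputable def unitDir (d : E3) : E3 := ‖d‖⁻¹ • d

lemma norm_unitDir {d : E3} (hd : d ≠ 0) : ‖unitDir d‖ = 1 := by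
  rw [unitDir, norm_smul, norm_inv, norm_norm]
  exact inv_mul_cancel₀ (norm_ne_zero_iff.mpr hd)

lemma mem_cyl {d A B C P : E3} (hd : d ≠ 0) {a b c t : ℝ} (ha : 0 ≤ a) (hb : 0 ≤ b) (hc : 0 ≤ c)
    (hs : a + b + c = 1) (hP : P = a • A + b • B + c • C + t • d) :
    P ∈ Cyl (unitDir d) (proj (unitDir d) A) (proj (unitDir d) B) (proj (unitDir d) C) := by
  set u := unitDir d with hu
  have hdu : d = ‖d‖ • u := by
    rw [hu, unitDir, smul_smul, mul_inv_cancel₀ (norm_ne_zero_iff.mpr hd), one_smul]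
  refine ⟨a • proj u A + b • proj u B + c • proj u C, ?_,
    a * inner ℝ A u + b * inner ℝ B u + c * inner ℝ C u + t * ‖d‖, ?_⟩
  · rw [mem_convexHull_triple]
    exact ⟨a, b, c, ha, hb, hc, hs, rfl⟩
  · rw [hP]
    conv_lhs => rw [hdu]
    simp only [proj]
    module

/-- The area of the base of a cylinder. -/
lemma area_cyl {d : E3} (hd : d ≠ 0) (A B C : E3) :
    (μHE[2] (convexHull ℝ {proj (unitDir d) A, proj (unitDir d) B, proj (unitDir d) C})).toReal =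
      (1 / 2) * |det3 (B - A) (C - A) d| / ‖d‖ := by
  rw [proj_triangle_area _ _ _ _ (norm_unitDir hd), ENNReal.toReal_ofReal (by positivity)]
  have hdet : det3 (B - A) (C - A) (unitDir d) = ‖d‖⁻¹ * det3 (B - A) (C - A) d := by
    simp only [det3, unitDir, PiLp.smul_apply, smul_eq_mul]
    ring
  rw [hdet, abs_mul, abs_of_pos (inv_pos.mpr (norm_pos_iff.mpr hd))]
  field_simp

/-! ### The constants -/

/-- `γ = 1/100`. -/
noncomputable def gam : ℝ := 1 / 100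
/-- `κ = 1.02 γ²/4`. -/
noncomputable def kap : ℝ := 51 / 2000000
/-- `Δ = 1/N`. -/
noncomputable def dlt : ℝ := 1 / 1000000
/-- `s₀ = 2 γ Δ`. -/
noncomputable def s00 : ℝ := 2 * gam * dlt
/-- The number of cylinders in each family. -/
def NN : ℕ := 1000000

/-- The height parameter `R`. -/
noncomputable def RR (c : ℝ) : ℝ := 1 / 2 + kap * (c ^ 2 + c ^ 4) + 6 * kap * dlt + gam * dlt
/-- The total height `H = R + s₀`. -/
noncomputable def HH (c : ℝ) : ℝ := RR c + s00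

lemma gam_pos : 0 < gam := by norm_num [gam]
lemma kap_pos : 0 < kap := by norm_num [kap]
lemma dlt_pos : 0 < dlt := by norm_num [dlt]
lemma s00_pos : 0 < s00 := by norm_num [s00, gam, dlt]

lemma RR_pos (c : ℝ) : 0 < RR c := by
  have h1 : 0 ≤ kap * (c ^ 2 + c ^ 4) := mul_nonneg kap_pos.le (by positivity)
  have h2 := mul_pos kap_pos dlt_pos
  have h3 := mul_pos gam_pos dlt_pos
  unfold RR
  linarith

lemma HH_pos (c : ℝ) : 0 < HH c := add_pos (RR_pos c) s00_pos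

/-- The lower direction. -/
noncomputable def dL (c : ℝ) : E3 := v3 1 (gam * (1 + c ^ 2) / 2) (Real.sqrt 2 * gam * c)
noncomputable def AL (c : ℝ) : E3 := v3 0 (-c * s00) (-Real.sqrt 2 * s00)
noncomputable def BL (c : ℝ) : E3 := v3 0 (c * RR c + dlt * HH c) (Real.sqrt 2 * RR c)
noncomputable def CL (c : ℝ) : E3 := v3 0 (c * RR c - dlt * HH c) (Real.sqrt 2 * RR c)

/-- The upper direction. -/
noncomputable def dU (c : ℝ) : E3 := v3 (-(gam * (1 + c ^ 2) / 2)) 1 (Real.sqrt 2 * gam * c)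
noncomputable def AU (c : ℝ) : E3 := v3 (-c * s00) 0 (Real.sqrt 2 * (1 + s00))
noncomputable def BU (c : ℝ) : E3 := v3 (c * RR c + dlt * HH c) 0 (Real.sqrt 2 * (1 - RR c))
noncomputable def CU (c : ℝ) : E3 := v3 (c * RR c - dlt * HH c) 0 (Real.sqrt 2 * (1 - RR c))

/-- The quantity `a(c)` with `‖d‖² = 1 + a(c)`. -/
noncomputable def aa (c : ℝ) : ℝ := gam ^ 2 * ((1 + c ^ 2) ^ 2 / 4 + 2 * c ^ 2)

lemma aa_nonneg (c : ℝ) : 0 ≤ aa c := by
  unfold aa
  positivity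

lemma sq2 : Real.sqrt 2 ^ 2 = 2 := Real.sq_sqrt (by norm_num)

lemma norm_dL (c : ℝ) : ‖dL c‖ = Real.sqrt (1 + aa c) := by
  have h : ‖dL c‖ ^ 2 = 1 + aa c := by
    rw [norm_sq_coord]
    simp only [dL, v3_0, v3_1, v3_2, aa]
    have := sq2
    rw [mul_pow, mul_pow, this]
    ring
  rw [← h, Real.sqrt_sq (norm_nonneg _)]

lemma norm_dU (c : ℝ) : ‖dU c‖ = Real.sqrt (1 + aa c) := by
  have h : ‖dU c‖ ^ 2 = 1 + aa c := by
    rw [norm_sq_coord]
    simp only [dU, v3_0, v3_1, v3_2, aa]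
    have := sq2
    rw [mul_pow (Real.sqrt 2 * gam), mul_pow (Real.sqrt 2), this]
    ring
  rw [← h, Real.sqrt_sq (norm_nonneg _)]

lemma sqrt_one_add_pos (c : ℝ) : 0 < Real.sqrt (1 + aa c) :=
  Real.sqrt_pos.mpr (by have := aa_nonneg c; linarith)

lemma dL_ne (c : ℝ) : dL c ≠ 0 := by
  rw [← norm_pos_iff, norm_dL]
  exact sqrt_one_add_pos c

lemma dU_ne (c : ℝ) : dU c ≠ 0 := by
  rw [← norm_pos_iff, norm_dU]
  exact sqrt_one_add_pos c

/-- Membership in a lower cylinder. -/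
lemma mem_lower (c : ℝ) (P : E3) (s : ℝ) (hs : P 2 = Real.sqrt 2 * s)
    (h1 : s - P 0 * gam * c ≤ RR c)
    (h2 : |P 1 - c * s - P 0 * gam * (1 - c ^ 2) / 2| ≤ dlt * (s - P 0 * gam * c + s00)) :
    P ∈ Cyl (unitDir (dL c)) (proj (unitDir (dL c)) (AL c)) (proj (unitDir (dL c)) (BL c))
      (proj (unitDir (dL c)) (CL c)) := by
  obtain ⟨a, b, e, ha, hb, he, hsum, h3, h4⟩ := bary_aux dlt_pos (HH_pos c) h1 h2
  refine mem_cyl (dL_ne c) (t := P 0) ha hb he hsum ?_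
  apply E3_ext
  · simp [dL, AL, BL, CL]
  · simp only [dL, AL, BL, CL, HH, PiLp.add_apply, PiLp.smul_apply, smul_eq_mul, v3_1]
    linear_combination -c * h3 - h4
  · simp only [dL, AL, BL, CL, HH, PiLp.add_apply, PiLp.smul_apply, smul_eq_mul, v3_2, hs]
    linear_combination -Real.sqrt 2 * h3

/-- Membership in an upper cylinder. -/
lemma mem_upper (c : ℝ) (P : E3) (s : ℝ) (hs : P 2 = Real.sqrt 2 * s)
    (h1 : (1 - s) - P 1 * (-gam) * c ≤ RR c)
    (h2 : |P 0 - c * (1 - s) - P 1 * (-gam) * (1 - c ^ 2) / 2| ≤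
      dlt * ((1 - s) - P 1 * (-gam) * c + s00)) :
    P ∈ Cyl (unitDir (dU c)) (proj (unitDir (dU c)) (AU c)) (proj (unitDir (dU c)) (BU c))
      (proj (unitDir (dU c)) (CU c)) := by
  obtain ⟨a, b, e, ha, hb, he, hsum, h3, h4⟩ := bary_aux dlt_pos (HH_pos c) h1 h2
  refine mem_cyl (dU_ne c) (t := P 1) ha hb he hsum ?_
  apply E3_ext
  · simp only [dU, AU, BU, CU, HH, PiLp.add_apply, PiLp.smul_apply, smul_eq_mul, v3_0]
    linear_combination -c * h3 - h4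
  · simp [dU, AU, BU, CU]
  · simp only [dU, AU, BU, CU, HH, PiLp.add_apply, PiLp.smul_apply, smul_eq_mul, v3_2, hs]
    have hsum' : a = 1 - b - e := by linarith
    subst hsum'
    linear_combination Real.sqrt 2 * h3

/-- Coordinates of points of the tetrahedron. -/
lemma tetK_bounds {P : E3} (hP : P ∈ tetK) :
    ∃ s : ℝ, P 2 = Real.sqrt 2 * s ∧ |P 0| ≤ 1 - s ∧ |P 1| ≤ s := by
  set c := (Real.sqrt 2)⁻¹ with hc
  have hcr : Real.sqrt 2 * c = 1 := mul_inv_cancel₀ (by positivity)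
  have hconv : Convex ℝ {P : E3 | P 0 + P 2 * c ≤ 1 ∧ -P 0 + P 2 * c ≤ 1 ∧ P 1 ≤ P 2 * c ∧
      -P 1 ≤ P 2 * c} := by
    rintro x ⟨h1, h2, h3, h4⟩ y ⟨h1', h2', h3', h4'⟩ a b ha hb hab
    simp only [Set.mem_ofPred_eq, PiLp.add_apply, PiLp.smul_apply, smul_eq_mul]
    have m1 := mul_le_mul_of_nonneg_left h1 ha
    have m2 := mul_le_mul_of_nonneg_left h2 ha
    have m3 := mul_le_mul_of_nonneg_left h3 ha
    have m4 := mul_le_mul_of_nonneg_left h4 ha
    have m1' := mul_le_mul_of_nonneg_left h1' hb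
    have m2' := mul_le_mul_of_nonneg_left h2' hb
    have m3' := mul_le_mul_of_nonneg_left h3' hb
    have m4' := mul_le_mul_of_nonneg_left h4' hb
    refine ⟨?_, ?_, ?_, ?_⟩ <;> nlinarith
  have hsub : ({w1, w2, w3, w4} : Set E3) ⊆ {P : E3 | P 0 + P 2 * c ≤ 1 ∧ -P 0 + P 2 * c ≤ 1 ∧
      P 1 ≤ P 2 * c ∧ -P 1 ≤ P 2 * c} := by
    obtain ⟨c10, c11, c12⟩ := coords_w1
    obtain ⟨c20, c21, c22⟩ := coords_w2
    obtain ⟨c30, c31, c32⟩ := coords_w3
    obtain ⟨c40, c41, c42⟩ := coords_w4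
    rintro y (rfl | rfl | rfl | rfl)
    · simp only [Set.mem_ofPred_eq, c10, c11, c12]
      norm_num
    · simp only [Set.mem_ofPred_eq, c20, c21, c22]
      norm_num
    · simp only [Set.mem_ofPred_eq, c30, c31, c32, hcr]
      norm_num
    · simp only [Set.mem_ofPred_eq, c40, c41, c42, hcr]
      norm_num
  obtain ⟨h1, h2, h3, h4⟩ := convexHull_min hsub hconv hP
  refine ⟨P 2 * c, ?_, ?_, ?_⟩
  · rw [mul_comm (P 2), ← mul_assoc, hcr, one_mul]
  · rw [abs_le]; constructor <;> linarith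
  · rw [abs_le]; constructor <;> linarith

/-- The midpoints of the partition. -/
noncomputable def cc (i : Fin NN) : ℝ := -1 + (2 * ((i : ℕ) : ℝ) + 1) * dlt

lemma NN_dlt : (NN : ℝ) * dlt = 1 := by
  norm_num [NN, dlt]

lemma NN_pos : 0 < NN := by norm_num [NN]

lemma abs_cc_le (i : Fin NN) : |cc i| ≤ 1 := by
  have h1 : ((i : ℕ) : ℝ) + 1 ≤ NN := by exact_mod_cast i.isLt
  have h0 : (0:ℝ) ≤ ((i : ℕ) : ℝ) := Nat.cast_nonneg _
  have hd := dlt_pos
  rw [abs_le, cc]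
  constructor
  · have : 0 ≤ (2 * ((i : ℕ) : ℝ) + 1) * dlt := by positivity
    linarith
  · have : (2 * ((i : ℕ) : ℝ) + 1) * dlt ≤ (2 * (NN : ℝ)) * dlt :=
      mul_le_mul_of_nonneg_right (by linarith) hd.le
    have h3 : (2 * (NN : ℝ)) * dlt = 2 := by
      rw [mul_assoc, NN_dlt]; norm_num
    linarith

/-- Every point of the tetrahedron lies in one of the cylinders. -/
theorem cover_point {P : E3} (hP : P ∈ tetK) :
    (∃ i : Fin NN, P ∈ Cyl (unitDir (dL (cc i))) (proj (unitDir (dL (cc i))) (AL (cc i)))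
      (proj (unitDir (dL (cc i))) (BL (cc i))) (proj (unitDir (dL (cc i))) (CL (cc i)))) ∨
    (∃ i : Fin NN, P ∈ Cyl (unitDir (dU (cc i))) (proj (unitDir (dU (cc i))) (AU (cc i)))
      (proj (unitDir (dU (cc i))) (BU (cc i))) (proj (unitDir (dU (cc i))) (CU (cc i)))) := by
  obtain ⟨s, hs, hx, hy⟩ := tetK_bounds hP
  have hs0 : 0 ≤ s := le_trans (abs_nonneg _) hy
  have hs1 : 0 ≤ 1 - s := le_trans (abs_nonneg _) hx
  have hx1 : |P 0| ≤ 1 := by linarith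
  have hy1 : |P 1| ≤ 1 := by linarith
  obtain ⟨ρ, τ, hρ, hτ, h1, h2⟩ := root_lemma gam (P 0) (P 1) s hs0 hy
  obtain ⟨ρ', τ', hρ', hτ', h3, h4⟩ := root_lemma (-gam) (P 1) (P 0) (1 - s) hs1 hx
  have hg : |gam| ≤ gam := (abs_of_pos gam_pos).le
  have hg' : |-gam| ≤ gam := by rw [abs_neg]; exact hg
  have hγ : 0 < 1 - gam - gam ^ 2 := by norm_num [gam]
  have hκ : gam ^ 2 / 4 ≤ (1 - gam - gam ^ 2) * kap := by norm_num [gam, kap]
  rcases dichotomy_aux gam_pos hγ hκ kap_pos.le hτ hτ' h1 h2 h3 h4 with hd | hd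
  · left
    obtain ⟨i, hi⟩ := pick_index NN_pos dlt_pos NN_dlt hτ
    refine ⟨i, ?_⟩
    have := test_aux gam_pos.le kap_pos.le dlt_pos.le hg hx1 hρ hτ (abs_cc_le i) hi h1 h2 hd
    exact mem_lower (cc i) P s hs this.1 this.2
  · right
    obtain ⟨i, hi⟩ := pick_index NN_pos dlt_pos NN_dlt hτ'
    refine ⟨i, ?_⟩
    have := test_aux gam_pos.le kap_pos.le dlt_pos.le hg' hy1 hρ' hτ' (abs_cc_le i) hi h3 h4 hd
    exact mem_upper (cc i) P s hs this.1 this.2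

/-! ### Areas -/

lemma area_lower (c : ℝ) :
    (μHE[2] (convexHull ℝ {proj (unitDir (dL c)) (AL c), proj (unitDir (dL c)) (BL c),
      proj (unitDir (dL c)) (CL c)})).toReal =
      Real.sqrt 2 * (dlt * (HH c ^ 2 / Real.sqrt (1 + aa c))) := by
  rw [area_cyl (dL_ne c), norm_dL]
  have hdet : det3 (BL c - AL c) (CL c - AL c) (dL c) =
      2 * (Real.sqrt 2 * (dlt * HH c ^ 2)) := by
    simp only [det3, dL, AL, BL, CL, HH, PiLp.sub_apply, v3_0, v3_1, v3_2]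
    ring
  have hH := HH_pos c
  rw [hdet, abs_of_pos (by have := dlt_pos; positivity)]
  ring

lemma area_upper (c : ℝ) :
    (μHE[2] (convexHull ℝ {proj (unitDir (dU c)) (AU c), proj (unitDir (dU c)) (BU c),
      proj (unitDir (dU c)) (CU c)})).toReal =
      Real.sqrt 2 * (dlt * (HH c ^ 2 / Real.sqrt (1 + aa c))) := by
  rw [area_cyl (dU_ne c), norm_dU]
  have hdet : det3 (BU c - AU c) (CU c - AU c) (dU c) =
      2 * (Real.sqrt 2 * (dlt * HH c ^ 2)) := by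
    simp only [det3, dU, AU, BU, CU, HH, PiLp.sub_apply, v3_0, v3_1, v3_2]
    ring
  have hH := HH_pos c
  rw [hdet, abs_of_pos (by have := dlt_pos; positivity)]
  ring

/-- The coefficients of the polynomial majorant. -/
noncomputable def C0 : ℝ := 1 / 4 + 1 / 20000000 - gam ^ 2 / 32
noncomputable def C2 : ℝ := kap - 5 / 16 * gam ^ 2
noncomputable def C4 : ℝ := kap - gam ^ 2 / 32

/-- Termwise bound. -/
lemma term_bound {c : ℝ} (hc : |c| ≤ 1) :
    HH c ^ 2 / Real.sqrt (1 + aa c) ≤ C0 + C2 * c ^ 2 + C4 * c ^ 4 := by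
  have hc2 := abs_le.mp hc
  obtain ⟨x, hx⟩ : ∃ x, x = c ^ 2 := ⟨_, rfl⟩
  have hx0 : 0 ≤ x := by rw [hx]; positivity
  have hx1 : x ≤ 1 := by rw [hx]; nlinarith
  have hc4 : c ^ 4 = x ^ 2 := by rw [hx]; ring
  obtain ⟨a, ha⟩ : ∃ a, a = aa c := ⟨_, rfl⟩
  have ha' : a = (1 / 100) ^ 2 * ((1 + x) ^ 2 / 4 + 2 * x) := by
    rw [ha, aa, ← hx, gam]
  have ha0 : 0 ≤ a := by rw [ha]; exact aa_nonneg c
  have ha3 : a ≤ 3 / 10000 := by
    rw [ha']
    nlinarith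
  have hinv := inv_sqrt_le ha0 (by linarith)
  rw [div_eq_mul_one_div, ← ha]
  obtain ⟨H, hH⟩ : ∃ H, H = HH c := ⟨_, rfl⟩
  rw [← hH]
  obtain ⟨q, hq⟩ : ∃ q, q = (51 / 2000000 : ℝ) * (x + x ^ 2) := ⟨_, rfl⟩
  have hq0 : 0 ≤ q := by rw [hq]; positivity
  have hq2 : q ≤ 51 / 1000000 := by
    rw [hq]
    nlinarith
  have hH' : H = 1 / 2 + q + 30153 / 1000000000000 := by
    rw [hH, HH, RR, s00, kap, gam, dlt, hq, ← hx, hc4]
    norm_num
    ring
  have hH0 : 0 ≤ H ^ 2 := sq_nonneg _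
  have hHsq : H ^ 2 ≤ 1 / 4 + q + 4 / 100000000 := by
    rw [hH']
    nlinarith
  obtain ⟨f, hf⟩ : ∃ f, f = 1 - a / 2 + 3 / 8 * a ^ 2 := ⟨_, rfl⟩
  rw [← hf] at hinv
  have ha2 : a ^ 2 ≤ 9 / 100000000 := by nlinarith
  have hf0 : 0 ≤ f := by rw [hf]; nlinarith
  have hf1 : f ≤ 1 - a / 2 + 34 / 1000000000 := by rw [hf]; nlinarith
  have hf2 : f ≤ 1 + 34 / 1000000000 := by linarith
  have step1 : H ^ 2 * (1 / Real.sqrt (1 + a)) ≤ H ^ 2 * f := mul_le_mul_of_nonneg_left hinv hH0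
  have step2 : H ^ 2 * f ≤ (1 / 4 + q + 4 / 100000000) * f := mul_le_mul_of_nonneg_right hHsq hf0
  have step3 : (1 / 4 + q + 4 / 100000000) * f ≤ 1 / 4 * (1 - a / 2) + q + 1 / 20000000 := by
    have s1 : (q + 4 / 100000000) * f ≤ (q + 4 / 100000000) * (1 + 34 / 1000000000) :=
      mul_le_mul_of_nonneg_left hf2 (by positivity)
    nlinarith
  have hfinal : 1 / 4 * (1 - a / 2) + q + 1 / 20000000 = C0 + C2 * x + C4 * x ^ 2 := by
    rw [ha', hq, C0, C2, C4, kap, gam]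
    ring
  rw [hc4, ← hx, ← hfinal]
  linarith

/-- The total normalised area of one half of the family. -/
theorem total_bound :
    ∑ i : Fin NN, 2 * dlt * (HH (cc i) ^ 2 / Real.sqrt (1 + aa (cc i))) ≤
      1 / 2 - 9 / 10000000 := by
  obtain ⟨hs2, hs4⟩ := sum_midpoints NN_dlt dlt_pos
  have hC4 : 0 ≤ C4 := by norm_num [C4, kap, gam]
  have hd2 : (0:ℝ) ≤ 2 * dlt := by
    have := dlt_pos
    linarith
  have h1 : ∑ i : Fin NN, 2 * dlt * (HH (cc i) ^ 2 / Real.sqrt (1 + aa (cc i))) ≤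
      ∑ i : Fin NN, (C0 * (2 * dlt) + C2 * (2 * dlt * (cc i) ^ 2) + C4 * (2 * dlt * (cc i) ^ 4)) := by
    apply Finset.sum_le_sum
    intro i _
    have := term_bound (abs_cc_le i)
    have h2 := mul_le_mul_of_nonneg_left this hd2
    linarith
  have e : ∑ i : Fin NN, (C0 * (2 * dlt) + C2 * (2 * dlt * (cc i) ^ 2) + C4 * (2 * dlt * (cc i) ^ 4)) =
      (NN : ℝ) * (C0 * (2 * dlt)) + C2 * ∑ i : Fin NN, 2 * dlt * cc i ^ 2 +
        C4 * ∑ i : Fin NN, 2 * dlt * cc i ^ 4 := by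
    rw [Finset.sum_add_distrib, Finset.sum_add_distrib, Finset.mul_sum, Finset.mul_sum]
    simp only [Finset.sum_const, Finset.card_univ, Fintype.card_fin, nsmul_eq_mul]
  rw [e] at h1
  have hs2' : ∑ i : Fin NN, 2 * dlt * cc i ^ 2 = 2 / 3 - 2 / 3 * dlt ^ 2 := by
    simp only [cc]
    exact hs2
  have hs4' : ∑ i : Fin NN, 2 * dlt * cc i ^ 4 ≤ 2 / 5 := by
    simp only [cc]
    exact hs4
  rw [hs2'] at h1
  have h5 := mul_le_mul_of_nonneg_left hs4' hC4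
  have hNN : (NN : ℝ) * (C0 * (2 * dlt)) = 2 * C0 := by
    calc (NN : ℝ) * (C0 * (2 * dlt)) = ((NN : ℝ) * dlt) * (2 * C0) := by ring
      _ = 2 * C0 := by rw [NN_dlt, one_mul]
  rw [hNN] at h1
  have hnum : 2 * C0 + C2 * (2 / 3 - 2 / 3 * dlt ^ 2) + C4 * (2 / 5) ≤ 1 / 2 - 9 / 10000000 := by
    norm_num [C0, C2, C4, kap, gam, dlt]
  linarith

end Crest.Agent.TetCover
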