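import Crest.Agent.TetArea

set_option autoImplicit false
open MeasureTheory Measure Module
open scoped ENNReal RealInnerProductSpace

namespace Crest.Agent.TetArea

/-- Euclidean 3-space. -/
abbrev E3 := EuclideanSpace ℝ (Fin 3)

/-- The orthogonal projection along the (unit) vector `v`. -/
noncomputable def proj (v y : E3) : E3 := y - inner ℝ y v • v

lemma proj_isLinear (v : E3) : IsLinearMap ℝ (proj v) where
  map_add x y := by
    simp only [proj, inner_add_left, add_smul]
    abel
  map_smul c x := by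
    simp only [proj, real_inner_smul_left, smul_sub, mul_smul]

lemma inner_coord (a b : E3) : inner ℝ a b = a 0 * b 0 + a 1 * b 1 + a 2 * b 2 := by
  simp [PiLp.inner_apply, Fin.sum_univ_three]
  ring

lemma norm_sq_coord (a : E3) : ‖a‖ ^ 2 = a 0 ^ 2 + a 1 ^ 2 + a 2 ^ 2 := by
  rw [← real_inner_self_eq_norm_sq, inner_coord]
  ring

/-- The determinant of three vectors in coordinates. -/
noncomputable def det3 (a b c : E3) : ℝ :=
  a 0 * (b 1 * c 2 - b 2 * c 1) - a 1 * (b 0 * c 2 - b 2 * c 0) + a 2 * (b 0 * c 1 - b 1 * c 0)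

lemma gram_identity (a b v : E3) :
    det3 a b v ^ 2 = ‖a‖ ^ 2 * ‖b‖ ^ 2 * ‖v‖ ^ 2 + 2 * inner ℝ a b * inner ℝ b v * inner ℝ v a
      - ‖a‖ ^ 2 * inner ℝ b v ^ 2 - ‖b‖ ^ 2 * inner ℝ a v ^ 2 - ‖v‖ ^ 2 * inner ℝ a b ^ 2 := by
  simp only [norm_sq_coord, inner_coord, det3]
  ring

lemma gram_of_perp {a b v : E3} (hv : ‖v‖ = 1) (ha : inner ℝ a v = 0) (hb : inner ℝ b v = 0) :
    ‖a‖ ^ 2 * ‖b‖ ^ 2 - inner ℝ a b ^ 2 = det3 a b v ^ 2 := by
  rw [gram_identity, ha, hb, hv]
  ring

lemma inner_proj (v y : E3) (hv : ‖v‖ = 1) : inner ℝ (proj v y) v = 0 := by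
  simp [proj, inner_sub_left, real_inner_smul_left, hv]

lemma proj_sub (v x y : E3) : proj v x - proj v y = (x - y) - (inner ℝ (x - y) v) • v := by
  simp only [proj, inner_sub_left, sub_smul]
  abel

lemma det3_proj_sub (v x y x' y' : E3) :
    det3 (proj v x - proj v y) (proj v x' - proj v y') v = det3 (x - y) (x' - y') v := by
  rw [proj_sub, proj_sub]
  simp only [det3, PiLp.sub_apply, PiLp.smul_apply, smul_eq_mul]
  ring

/-- The area of the projection of a triangle onto `v^⊥` is half the absolute determinant. -/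
theorem proj_triangle_area (v A B C : E3) (hv : ‖v‖ = 1) :
    μHE[2] (convexHull ℝ {proj v A, proj v B, proj v C}) =
      ENNReal.ofReal ((1 / 2) * |det3 (B - A) (C - A) v|) := by
  rw [triangle_area, gram_of_perp hv, det3_proj_sub, Real.sqrt_sq_eq_abs]
  · rw [inner_sub_left, inner_proj v _ hv, inner_proj v _ hv, sub_self]
  · rw [inner_sub_left, inner_proj v _ hv, inner_proj v _ hv, sub_self]

/-- A degenerate triangle is null. -/
lemma degenerate_area {V : Type*} [NormedAddCommGroup V] [InnerProductSpace ℝ V]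
    [MeasurableSpace V] [BorelSpace V] (p q : V) : μHE[2] (convexHull ℝ {p, q, p}) = 0 := by
  rw [triangle_area]
  simp

lemma isCompact_tri {V : Type*} [NormedAddCommGroup V] [InnerProductSpace ℝ V] (p q r : V) :
    IsCompact (convexHull ℝ ({p, q, r} : Set V)) :=
  Set.Finite.isCompact_convexHull ℝ (by simp)

/-- Two triangles sharing an edge, on opposite sides of a linear functional: additive area. -/
lemma two_triangles_area (ψ : E3 →ₗ[ℝ] ℝ) (a b c d : E3) (h0 : ψ (b - a) = 0)
    (h3 : 0 < ψ (c - a)) (h4 : ψ (d - a) < 0) :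
    μHE[2] (convexHull ℝ {a, b, c} ∪ convexHull ℝ {a, b, d}) =
      μHE[2] (convexHull ℝ {a, b, c}) + μHE[2] (convexHull ℝ {a, b, d}) := by
  have hm : MeasurableSet (convexHull ℝ ({a, b, d} : Set E3)) := (isCompact_tri a b d).measurableSet
  have key := measure_union_add_inter (μ := (μHE[2] : Measure E3)) (convexHull ℝ {a, b, c}) hm
  have hnull : μHE[2] (convexHull ℝ ({a, b, c} : Set E3) ∩ convexHull ℝ {a, b, d}) = 0 := by
    refine measure_mono_null ?_ (degenerate_area a b)
    rintro x ⟨hx1, hx2⟩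
    rw [mem_convexHull_triple] at hx1 hx2 ⊢
    obtain ⟨a1, b1, c1, ha1, hb1, hc1, hs1, rfl⟩ := hx1
    obtain ⟨a2, b2, c2, ha2, hb2, hc2, hs2, heq⟩ := hx2
    have e1 : ψ (a1 • a + b1 • b + c1 • c) = ψ a + b1 * ψ (b - a) + c1 * ψ (c - a) := by
      simp only [map_add, map_sub, map_smul, smul_eq_mul]
      have : a1 = 1 - b1 - c1 := by linarith
      rw [this]; ring
    have e2 : ψ (a2 • a + b2 • b + c2 • d) = ψ a + b2 * ψ (b - a) + c2 * ψ (d - a) := by
      simp only [map_add, map_sub, map_smul, smul_eq_mul]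
      have : a2 = 1 - b2 - c2 := by linarith
      rw [this]; ring
    have e3 : c1 * ψ (c - a) = c2 * ψ (d - a) := by
      have := congrArg ψ heq
      rw [e1, e2, h0] at this
      linarith
    have hc10 : c1 = 0 := by
      by_contra hne
      have hpos : 0 < c1 := lt_of_le_of_ne hc1 (Ne.symm hne)
      have : 0 < c1 * ψ (c - a) := mul_pos hpos h3
      have : c2 * ψ (d - a) ≤ 0 := mul_nonpos_of_nonneg_of_nonpos hc2 h4.le
      linarith
    exact ⟨a1, b1, 0, ha1, hb1, le_rfl, by linarith, by simp [hc10]⟩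
  rw [hnull, add_zero] at key
  exact key

/-- The functional `x ↦ det3 e x v`. -/
noncomputable def detL (e v : E3) : E3 →ₗ[ℝ] ℝ where
  toFun x := det3 e x v
  map_add' x y := by
    simp only [det3, PiLp.add_apply]
    ring
  map_smul' t x := by
    simp only [det3, PiLp.smul_apply, smul_eq_mul, RingHom.id_apply]
    ring

@[simp] lemma detL_apply (e v x : E3) : detL e v x = det3 e x v := rfl

lemma det3_self_left (e v : E3) (t : ℝ) : det3 e (e - t • v) v = 0 := by
  simp only [det3, PiLp.sub_apply, PiLp.smul_apply, smul_eq_mul]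
  ring

/-- **Pair bound**: a convex set containing the projections of `A, B, C, D` has area at least
half the determinant of opposite edges with the direction. -/
theorem pair_bound (v A B C D : E3) (hv : ‖v‖ = 1) (S : Set E3) (hS : Convex ℝ S)
    (hA : proj v A ∈ S) (hB : proj v B ∈ S) (hC : proj v C ∈ S) (hD : proj v D ∈ S) :
    ENNReal.ofReal ((1 / 2) * |det3 (B - A) (D - C) v|) ≤ μHE[2] S := by
  set h3 := det3 (B - A) (C - A) v with hh3
  set h4 := det3 (B - A) (D - A) v with hh4
  have hdiff : det3 (B - A) (D - C) v = h4 - h3 := by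
    simp only [hh3, hh4, det3, PiLp.sub_apply]
    ring
  have hT1 : convexHull ℝ {proj v A, proj v B, proj v C} ⊆ S := by
    apply convexHull_min _ hS
    rintro y (rfl | rfl | rfl) <;> assumption
  have hT2 : convexHull ℝ {proj v A, proj v B, proj v D} ⊆ S := by
    apply convexHull_min _ hS
    rintro y (rfl | rfl | rfl) <;> assumption
  have a1 := proj_triangle_area v A B C hv
  have a2 := proj_triangle_area v A B D hv
  rw [← hh3] at a1
  rw [← hh4] at a2
  rw [hdiff]
  rcases le_or_gt 0 (h3 * h4) with hsame | hopp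
  · -- same side: a single triangle suffices
    have hmax : |h4 - h3| ≤ |h3| ∨ |h4 - h3| ≤ |h4| := by
      rcases le_total 0 h3 with p3 | p3 <;> rcases le_total 0 h4 with p4 | p4
      · rcases le_total h3 h4 with h | h
        · right
          rw [abs_of_nonneg (by linarith), abs_of_nonneg p4]
          linarith
        · left
          rw [abs_of_nonpos (by linarith), abs_of_nonneg p3]
          linarith
      · have : h3 = 0 ∨ h4 = 0 := by
          by_contra hne
          push Not at hne
          have p3' : 0 < h3 := lt_of_le_of_ne p3 (Ne.symm hne.1)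
          have p4' : h4 < 0 := lt_of_le_of_ne p4 hne.2
          nlinarith [mul_pos_of_neg_of_neg p4' (neg_neg_of_pos p3')]
        rcases this with h | h
        · right; simp [h]
        · left; simp [h]
      · have : h3 = 0 ∨ h4 = 0 := by
          by_contra hne
          push Not at hne
          have p3' : h3 < 0 := lt_of_le_of_ne p3 hne.1
          have p4' : 0 < h4 := lt_of_le_of_ne p4 (Ne.symm hne.2)
          nlinarith [mul_pos_of_neg_of_neg p3' (neg_neg_of_pos p4')]
        rcases this with h | h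
        · right; simp [h]
        · left; simp [h]
      · rcases le_total h3 h4 with h | h
        · left
          rw [abs_of_nonneg (by linarith), abs_of_nonpos p3]
          linarith
        · right
          rw [abs_of_nonpos (by linarith), abs_of_nonpos p4]
          linarith
    rcases hmax with h | h
    · calc ENNReal.ofReal ((1 / 2) * |h4 - h3|) ≤ ENNReal.ofReal ((1 / 2) * |h3|) :=
            ENNReal.ofReal_le_ofReal (by linarith)
        _ = μHE[2] (convexHull ℝ {proj v A, proj v B, proj v C}) := a1.symm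
        _ ≤ μHE[2] S := measure_mono hT1
    · calc ENNReal.ofReal ((1 / 2) * |h4 - h3|) ≤ ENNReal.ofReal ((1 / 2) * |h4|) :=
            ENNReal.ofReal_le_ofReal (by linarith)
        _ = μHE[2] (convexHull ℝ {proj v A, proj v B, proj v D}) := a2.symm
        _ ≤ μHE[2] S := measure_mono hT2
  · -- opposite sides: two triangles, additive
    have hb0 : detL (B - A) v (proj v B - proj v A) = 0 := by
      rw [detL_apply, proj_sub]
      exact det3_self_left _ _ _
    have hc0 : detL (B - A) v (proj v C - proj v A) = h3 := by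
      rw [detL_apply, proj_sub, hh3]
      simp only [det3, PiLp.sub_apply, PiLp.smul_apply, smul_eq_mul]
      ring
    have hd0 : detL (B - A) v (proj v D - proj v A) = h4 := by
      rw [detL_apply, proj_sub, hh4]
      simp only [det3, PiLp.sub_apply, PiLp.smul_apply, smul_eq_mul]
      ring
    have hunion : convexHull ℝ {proj v A, proj v B, proj v C} ∪
        convexHull ℝ {proj v A, proj v B, proj v D} ⊆ S := Set.union_subset hT1 hT2
    have hsum : μHE[2] (convexHull ℝ {proj v A, proj v B, proj v C} ∪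
        convexHull ℝ {proj v A, proj v B, proj v D}) =
        ENNReal.ofReal ((1 / 2) * |h4 - h3|) := by
      rcases lt_trichotomy h3 0 with p3 | p3 | p3
      · have p4 : 0 < h4 := by
          by_contra hc
          push Not at hc
          nlinarith [mul_nonneg_of_nonpos_of_nonpos p3.le hc]
        have := two_triangles_area (detL (B - A) v) (proj v A) (proj v B) (proj v D) (proj v C) hb0
          (by rw [hd0]; exact p4) (by rw [hc0]; exact p3)
        rw [Set.union_comm, this, a1, a2, ← ENNReal.ofReal_add (by positivity) (by positivity)]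
        congr 1
        rw [abs_of_pos p4, abs_of_neg p3, abs_of_pos (by linarith)]
        ring
      · rw [p3] at hopp
        simp at hopp
      · have p4 : h4 < 0 := by
          by_contra hc
          push Not at hc
          nlinarith [mul_nonneg p3.le hc]
        have := two_triangles_area (detL (B - A) v) (proj v A) (proj v B) (proj v C) (proj v D) hb0
          (by rw [hc0]; exact p3) (by rw [hd0]; exact p4)
        rw [this, a1, a2, ← ENNReal.ofReal_add (by positivity) (by positivity)]
        congr 1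
        rw [abs_of_pos p3, abs_of_neg p4, abs_of_neg (by linarith)]
        ring
    rw [← hsum]
    exact measure_mono hunion

/-- Single triangle bound. -/
theorem triple_bound (v A B C : E3) (hv : ‖v‖ = 1) (S : Set E3) (hS : Convex ℝ S)
    (hA : proj v A ∈ S) (hB : proj v B ∈ S) (hC : proj v C ∈ S) :
    ENNReal.ofReal ((1 / 2) * |det3 (B - A) (C - A) v|) ≤ μHE[2] S := by
  rw [← proj_triangle_area v A B C hv]
  apply measure_mono
  apply convexHull_min _ hS
  rintro y (rfl | rfl | rfl) <;> assumption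

/-! ### The tetrahedron -/

/-- The vertices of the tetrahedron. -/
noncomputable def w1 : E3 := !₂[1, 0, 0]
noncomputable def w2 : E3 := !₂[-1, 0, 0]
noncomputable def w3 : E3 := !₂[0, 1, Real.sqrt 2]
noncomputable def w4 : E3 := !₂[0, -1, Real.sqrt 2]

/-- The regular tetrahedron. -/
noncomputable def tetK : Set E3 := convexHull ℝ {w1, w2, w3, w4}

lemma tetK_eq : convexHull ℝ {!₂[1, 0, 0], !₂[-1, 0, 0], !₂[0, 1, Real.sqrt 2], !₂[0, -1, Real.sqrt 2]} = tetK := rfl

/-- The shadow of the tetrahedron. -/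
noncomputable def shadow (v : E3) : Set E3 := proj v '' tetK

lemma shadow_convex (v : E3) : Convex ℝ (shadow v) :=
  (convex_convexHull ℝ _).is_linear_image (proj_isLinear v)

lemma w1_mem : w1 ∈ tetK := subset_convexHull ℝ _ (by simp)
lemma w2_mem : w2 ∈ tetK := subset_convexHull ℝ _ (by simp)
lemma w3_mem : w3 ∈ tetK := subset_convexHull ℝ _ (by simp)
lemma w4_mem : w4 ∈ tetK := subset_convexHull ℝ _ (by simp)

lemma shadow_real_aux {a b c r M : ℝ} (ha : 0 ≤ a) (hb : 0 ≤ b) (hc : 0 ≤ c)
    (hr0 : 0 < r) (hr : r ^ 2 = 2) (hab : b ≤ a) (h : a ^ 2 + b ^ 2 + c ^ 2 = 1)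
    (h1 : r * a + c ≤ M) (h3 : 2 * c ≤ M) (h4 : r * (a + b) ≤ M) : r ≤ M := by
  by_contra hM
  push Not at hM
  have hab1 : a + b < 1 := by
    have : r * (a + b) < r * 1 := by linarith
    exact lt_of_mul_lt_mul_left this hr0.le
  have hc2 : 2 * c ^ 2 < 1 := by
    have : 2 * c < r := by linarith
    have h2 : (2 * c) ^ 2 < r ^ 2 := pow_lt_pow_left₀ this (by positivity) (by norm_num)
    nlinarith
  have ha1 : 1 / 2 < a := by
    have : 1 / 2 < a ^ 2 + b ^ 2 := by nlinarith
    nlinarith
  have ha2 : a < 1 := by linarith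
  have hb2 : b ≤ 1 - a := by linarith
  have hb3 : b ^ 2 ≤ (1 - a) ^ 2 := pow_le_pow_left₀ hb hb2 2
  have hc3 : 2 * a * (1 - a) ≤ c ^ 2 := by nlinarith
  have hkey : 1 - a ≤ r * a * c := by
    have h5 : (1 - a) ^ 2 ≤ (r * a * c) ^ 2 := by
      have : (r * a * c) ^ 2 = 2 * a ^ 2 * c ^ 2 := by
        rw [mul_pow, mul_pow, hr]
      rw [this]
      have h6 : 2 * a ^ 2 * (2 * a * (1 - a)) ≤ 2 * a ^ 2 * c ^ 2 :=
        mul_le_mul_of_nonneg_left hc3 (by positivity)
      have h7 : (1 - a) ^ 2 ≤ 2 * a ^ 2 * (2 * a * (1 - a)) := by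
        have : 0 ≤ (1 - a) * (4 * a ^ 3 - (1 - a)) := by
          apply mul_nonneg (by linarith)
          nlinarith [pow_pos (by linarith : (0:ℝ) < a) 2, mul_pos (by linarith : (0:ℝ) < a) (by linarith : (0:ℝ) < a - 1/2)]
        nlinarith
      linarith
    exact (pow_le_pow_iff_left₀ (by linarith) (by positivity) (by norm_num)).mp h5
  have hsq : (r * a + c) ^ 2 < r ^ 2 := by
    apply pow_lt_pow_left₀ (by linarith) (by positivity) (by norm_num)
  have : (r * a + c) ^ 2 = 2 * a ^ 2 + 2 * (r * a * c) + c ^ 2 := by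
    have : (r * a + c) ^ 2 = r ^ 2 * a ^ 2 + 2 * (r * a * c) + c ^ 2 := by ring
    rw [this, hr]
  nlinarith

lemma sum_abs_le {a b M : ℝ} (h1 : |a + b| ≤ M) (h2 : |a - b| ≤ M) : |a| + |b| ≤ M := by
  have := abs_le.mp h1
  have := abs_le.mp h2
  rcases abs_cases a with ⟨h, _⟩ | ⟨h, _⟩ <;> rcases abs_cases b with ⟨h', _⟩ | ⟨h', _⟩ <;>
    rw [h, h'] <;> linarith

lemma sqrt2_pos' : 0 < Real.sqrt 2 := by positivity
lemma sqrt2_sq' : Real.sqrt 2 ^ 2 = 2 := Real.sq_sqrt (by norm_num)

lemma coords_w1 : w1 0 = 1 ∧ w1 1 = 0 ∧ w1 2 = 0 := by simp [w1]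
lemma coords_w2 : w2 0 = -1 ∧ w2 1 = 0 ∧ w2 2 = 0 := by simp [w2]
lemma coords_w3 : w3 0 = 0 ∧ w3 1 = 1 ∧ w3 2 = Real.sqrt 2 := by simp [w3]
lemma coords_w4 : w4 0 = 0 ∧ w4 1 = -1 ∧ w4 2 = Real.sqrt 2 := by simp [w4]

/-- Seven explicit lower bounds for the shadow area. -/
theorem shadow_lower (v : E3) (hv : ‖v‖ = 1) :
    ENNReal.ofReal (Real.sqrt 2) ≤ μHE[2] (shadow v) := by
  by_cases htop : μHE[2] (shadow v) = ⊤
  · rw [htop]; exact le_top
  set M := (μHE[2] (shadow v)).toReal with hM
  have conv : ∀ x : ℝ, ENNReal.ofReal x ≤ μHE[2] (shadow v) → x ≤ M :=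
    fun x hx => (ENNReal.ofReal_le_iff_le_toReal htop).mp hx
  have hS := shadow_convex v
  have m1 : proj v w1 ∈ shadow v := Set.mem_image_of_mem _ w1_mem
  have m2 : proj v w2 ∈ shadow v := Set.mem_image_of_mem _ w2_mem
  have m3 : proj v w3 ∈ shadow v := Set.mem_image_of_mem _ w3_mem
  have m4 : proj v w4 ∈ shadow v := Set.mem_image_of_mem _ w4_mem
  obtain ⟨c10, c11, c12⟩ := coords_w1
  obtain ⟨c20, c21, c22⟩ := coords_w2
  obtain ⟨c30, c31, c32⟩ := coords_w3
  obtain ⟨c40, c41, c42⟩ := coords_w4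
  set r := Real.sqrt 2 with hr
  have hr0 : 0 < r := sqrt2_pos'
  have hr2 : r ^ 2 = 2 := sqrt2_sq'
  have F123 : |v 2 - r * v 1| ≤ M := by
    have := conv _ (triple_bound v w1 w2 w3 hv _ hS m1 m2 m3)
    have e : (1 / 2) * |det3 (w2 - w1) (w3 - w1) v| = |v 2 - r * v 1| := by
      have : det3 (w2 - w1) (w3 - w1) v = (-2) * (v 2 - r * v 1) := by
        simp only [det3, PiLp.sub_apply, c10, c11, c12, c20, c21, c22, c30, c31, c32]
        ring
      rw [this, abs_mul]
      norm_num
      ring
    rwa [e] at this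
  have F124 : |v 2 + r * v 1| ≤ M := by
    have := conv _ (triple_bound v w1 w2 w4 hv _ hS m1 m2 m4)
    have e : (1 / 2) * |det3 (w2 - w1) (w4 - w1) v| = |v 2 + r * v 1| := by
      have : det3 (w2 - w1) (w4 - w1) v = 2 * (v 2 + r * v 1) := by
        simp only [det3, PiLp.sub_apply, c10, c11, c12, c20, c21, c22, c40, c41, c42]
        ring
      rw [this, abs_mul]
      norm_num
      ring
    rwa [e] at this
  have F134 : |r * v 0 + v 2| ≤ M := by
    have := conv _ (triple_bound v w1 w3 w4 hv _ hS m1 m3 m4)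
    have e : (1 / 2) * |det3 (w3 - w1) (w4 - w1) v| = |r * v 0 + v 2| := by
      have : det3 (w3 - w1) (w4 - w1) v = 2 * (r * v 0 + v 2) := by
        simp only [det3, PiLp.sub_apply, c10, c11, c12, c30, c31, c32, c40, c41, c42]
        ring
      rw [this, abs_mul]
      norm_num
      ring
    rwa [e] at this
  have F234 : |r * v 0 - v 2| ≤ M := by
    have := conv _ (triple_bound v w2 w3 w4 hv _ hS m2 m3 m4)
    have e : (1 / 2) * |det3 (w3 - w2) (w4 - w2) v| = |r * v 0 - v 2| := by
      have : det3 (w3 - w2) (w4 - w2) v = 2 * (r * v 0 - v 2) := by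
        simp only [det3, PiLp.sub_apply, c20, c21, c22, c30, c31, c32, c40, c41, c42]
        ring
      rw [this, abs_mul]
      norm_num
      ring
    rwa [e] at this
  have P1 : |2 * v 2| ≤ M := by
    have := conv _ (pair_bound v w1 w2 w3 w4 hv _ hS m1 m2 m3 m4)
    have e : (1 / 2) * |det3 (w2 - w1) (w4 - w3) v| = |2 * v 2| := by
      have : det3 (w2 - w1) (w4 - w3) v = 2 * (2 * v 2) := by
        simp only [det3, PiLp.sub_apply, c10, c11, c12, c20, c21, c22, c30, c31, c32, c40, c41, c42]
        ring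
      rw [this, abs_mul]
      norm_num
      ring
    rwa [e] at this
  have P2 : |r * (v 0 + v 1)| ≤ M := by
    have := conv _ (pair_bound v w1 w3 w2 w4 hv _ hS m1 m3 m2 m4)
    have e : (1 / 2) * |det3 (w3 - w1) (w4 - w2) v| = |r * (v 0 + v 1)| := by
      have : det3 (w3 - w1) (w4 - w2) v = 2 * (r * (v 0 + v 1)) := by
        simp only [det3, PiLp.sub_apply, c10, c11, c12, c20, c21, c22, c30, c31, c32, c40, c41, c42]
        ring
      rw [this, abs_mul]
      norm_num
      ring
    rwa [e] at this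
  have P3 : |r * (v 0 - v 1)| ≤ M := by
    have := conv _ (pair_bound v w1 w4 w2 w3 hv _ hS m1 m4 m2 m3)
    have e : (1 / 2) * |det3 (w4 - w1) (w3 - w2) v| = |r * (v 0 - v 1)| := by
      have : det3 (w4 - w1) (w3 - w2) v = (-2) * (r * (v 0 - v 1)) := by
        simp only [det3, PiLp.sub_apply, c10, c11, c12, c20, c21, c22, c30, c31, c32, c40, c41, c42]
        ring
      rw [this, abs_mul]
      norm_num
      ring
    rwa [e] at this
  have hnorm : |v 0| ^ 2 + |v 1| ^ 2 + |v 2| ^ 2 = 1 := by
    have := norm_sq_coord v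
    rw [hv] at this
    simp only [sq_abs]
    linarith
  have B1 : r * |v 0| + |v 2| ≤ M := by
    have := sum_abs_le (a := r * v 0) (b := v 2) F134 F234
    rwa [abs_mul, abs_of_pos hr0] at this
  have B2 : r * |v 1| + |v 2| ≤ M := by
    have h1 : |r * v 1 + v 2| ≤ M := by rw [add_comm]; exact F124
    have h2 : |r * v 1 - v 2| ≤ M := by rw [abs_sub_comm]; exact F123
    have := sum_abs_le h1 h2
    rwa [abs_mul, abs_of_pos hr0] at this
  have B3 : 2 * |v 2| ≤ M := by
    rwa [abs_mul, abs_of_pos (by norm_num : (0:ℝ) < 2)] at P1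
  have B4 : r * (|v 0| + |v 1|) ≤ M := by
    rw [abs_mul, abs_of_pos hr0] at P2 P3
    have h1 : |v 0 + v 1| ≤ M / r := by rw [le_div_iff₀ hr0]; linarith
    have h2 : |v 0 - v 1| ≤ M / r := by rw [le_div_iff₀ hr0]; linarith
    have := sum_abs_le h1 h2
    rw [le_div_iff₀ hr0] at this
    linarith
  have hfinal : r ≤ M := by
    rcases le_total |v 1| |v 0| with h | h
    · exact shadow_real_aux (abs_nonneg _) (abs_nonneg _) (abs_nonneg _) hr0 hr2 h hnorm B1 B3 B4
    · refine shadow_real_aux (abs_nonneg _) (abs_nonneg _) (abs_nonneg _) hr0 hr2 h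
        (by linarith) B2 B3 (by rw [add_comm]; exact B4)
  exact (ENNReal.ofReal_le_iff_le_toReal htop).mpr hfinal

/-- The image of the tetrahedron under `proj v` is the convex hull of the projected vertices. -/
lemma shadow_eq (v : E3) :
    shadow v = convexHull ℝ {proj v w1, proj v w2, proj v w3, proj v w4} := by
  unfold shadow tetK
  rw [(proj_isLinear v).image_convexHull]
  simp [Set.image_insert_eq]

/-- The direction of the minimal projection. -/
noncomputable def e1v : E3 := !₂[1, 0, 0]

lemma norm_e1v : ‖e1v‖ = 1 := by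
  have := norm_sq_coord e1v
  have h : ‖e1v‖ ^ 2 = 1 := by
    rw [this]; simp only [e1v]; simp
  have h0 := norm_nonneg e1v
  nlinarith

/-- At `v = e₁` the area is exactly `√2`. -/
theorem shadow_e1 : μHE[2] (shadow e1v) = ENNReal.ofReal (Real.sqrt 2) := by
  have i1 : inner ℝ w1 e1v = 1 := by rw [inner_coord]; simp [w1, e1v]
  have i2 : inner ℝ w2 e1v = -1 := by rw [inner_coord]; simp [w2, e1v]
  have i3 : inner ℝ w3 e1v = 0 := by rw [inner_coord]; simp [w3, e1v]
  have i4 : inner ℝ w4 e1v = 0 := by rw [inner_coord]; simp [w4, e1v]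
  have p1 : proj e1v w1 = 0 := by
    rw [proj, i1]
    ext i
    fin_cases i <;> simp [w1, e1v]
  have p2 : proj e1v w2 = 0 := by
    rw [proj, i2]
    ext i
    fin_cases i <;> simp [w2, e1v]
  have p3 : proj e1v w3 = w3 := by
    rw [proj, i3]
    simp
  have p4 : proj e1v w4 = w4 := by
    rw [proj, i4]
    simp
  have hset : ({proj e1v w1, proj e1v w2, proj e1v w3, proj e1v w4} : Set E3) = {0, w3, w4} := by
    rw [p1, p2, p3, p4]
    simp
  rw [shadow_eq, hset, triangle_area]
  congr 1
  obtain ⟨c30, c31, c32⟩ := coords_w3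
  obtain ⟨c40, c41, c42⟩ := coords_w4
  have h2 := sqrt2_sq'
  have e : ‖w3 - 0‖ ^ 2 * ‖w4 - 0‖ ^ 2 - inner ℝ (w3 - 0) (w4 - 0) ^ 2 = (2 * Real.sqrt 2) ^ 2 := by
    simp only [sub_zero, norm_sq_coord, inner_coord, c30, c31, c32, c40, c41, c42]
    rw [mul_pow, h2]
    nlinarith [h2]
  rw [e, Real.sqrt_sq (by positivity)]
  ring

lemma continuous_proj (v : E3) : Continuous (proj v) := by
  unfold proj
  fun_prop

lemma isCompact_shadow (v : E3) : IsCompact (shadow v) :=
  (Set.Finite.isCompact_convexHull ℝ (by simp)).image (continuous_proj v)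

/-- The shadow has finite area. -/
theorem shadow_ne_top (v : E3) (hv : ‖v‖ = 1) : μHE[2] (shadow v) ≠ ⊤ := by
  have hv0 : v ≠ 0 := by
    intro h
    rw [h, norm_zero] at hv
    norm_num at hv
  have : Fact (finrank ℝ E3 = 2 + 1) := ⟨by simp⟩
  set W : Submodule ℝ E3 := (ℝ ∙ v)ᗮ with hW
  have hfin : finrank ℝ W = 2 := Submodule.finrank_orthogonal_span_singleton hv0
  have hinst : (μHE[2] : Measure W).IsAddHaarMeasure := by
    have := isAddHaarMeasure_euclideanHausdorffMeasure (E := W)
    rwa [hfin] at this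
  have hsub : shadow v ⊆ W := by
    rintro _ ⟨y, _, rfl⟩
    change proj v y ∈ W
    rw [hW, Submodule.mem_orthogonal_singleton_iff_inner_left]
    exact inner_proj v y hv
  have himg : shadow v = Subtype.val '' (Subtype.val ⁻¹' shadow v : Set W) := by
    rw [Set.image_preimage_eq_inter_range, Subtype.range_coe_subtype]
    exact (Set.inter_eq_left.mpr hsub).symm
  have hcomp : IsCompact (Subtype.val ⁻¹' shadow v : Set W) :=
    W.closed_of_finiteDimensional.isClosedEmbedding_subtypeVal.isCompact_preimage (isCompact_shadow v)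
  rw [himg, isometry_subtype_coe.euclideanHausdorffMeasure_image]
  exact hcomp.measure_lt_top.ne

end Crest.Agent.TetArea
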